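import Vale.Agent.P018.Q.IntKer

/-! Reduction of rational directions to small coprime integer forms. -/

namespace Vale.Agent.P018

open Polynomial Finset

/-- the binary form of degree `d` attached to `p`, evaluated at `(u, v)` -/
noncomputable def afH {S : Type} [CommRing S] (d : ℕ) (p : ℤ[X]) (u v : S) : S :=
  ∑ i ∈ range (d + 1), ((p.coeff i : ℤ) : S) * v ^ i * u ^ (d - i)

theorem af_map {S S' : Type} [CommRing S] [CommRing S'] (φ : S →+* S') (d : ℕ) (p : ℤ[X])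
    (u v : S) : φ (afH d p u v) = afH d p (φ u) (φ v) := by
  simp [afH, map_sum]

theorem af_cast {S : Type} [CommRing S] (d : ℕ) (p : ℤ[X]) (u v : ℤ) :
    ((afH d p u v : ℤ) : S) = afH d p (u : S) (v : S) :=
  af_map (Int.castRingHom S) d p u v

theorem af_field0 {F : Type} [Field F] {d : ℕ} {p : F[X]} (hp : p.natDegree ≤ d) {u : F}
    (hu : u ≠ 0) (v : F) :
    ∑ i ∈ range (d + 1), p.coeff i * v ^ i * u ^ (d - i) = u ^ d * p.eval (v / u) := by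
  rw [eval_eq_sum_range' (Nat.lt_succ_of_le hp), Finset.mul_sum]
  refine Finset.sum_congr rfl (fun i hi => ?_)
  have hi' : i ≤ d := Nat.lt_succ_iff.1 (Finset.mem_range.1 hi)
  obtain ⟨k, rfl⟩ := Nat.exists_eq_add_of_le hi'
  rw [Nat.add_sub_cancel_left, pow_add, div_pow]
  field_simp

theorem af_field {F : Type} [Field F] {d : ℕ} {p : ℤ[X]} (hp : p.natDegree ≤ d) {u : F}
    (hu : u ≠ 0) (v : F) :
    afH d p u v = u ^ d * (p.map (Int.castRingHom F)).eval (v / u) := by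
  rw [← af_field0 (natDegree_map_le.trans hp) hu]
  simp [afH]

theorem af_zero {S : Type} [CommRing S] (d : ℕ) (p : ℤ[X]) (v : S) :
    afH d p 0 v = ((p.coeff d : ℤ) : S) * v ^ d := by
  unfold afH
  rw [Finset.sum_range_succ, Finset.sum_eq_zero]
  · simp
  · intro i hi
    have : d - i ≠ 0 := by have := Finset.mem_range.1 hi; omega
    simp [this]

theorem af_scale {S : Type} [CommRing S] (d : ℕ) (p : ℤ[X]) (c u v : S) :
    afH d p (c * u) (c * v) = c ^ d * afH d p u v := by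
  unfold afH
  rw [Finset.mul_sum]
  refine Finset.sum_congr rfl (fun i hi => ?_)
  have hi' : i ≤ d := Nat.lt_succ_iff.1 (Finset.mem_range.1 hi)
  obtain ⟨k, rfl⟩ := Nat.exists_eq_add_of_le hi'
  rw [Nat.add_sub_cancel_left]
  ring

theorem af_sub_dvd {S : Type} [CommRing S] (d : ℕ) (p : ℤ[X]) (u v v' : S) :
    v - v' ∣ afH d p u v - afH d p u v' := by
  unfold afH
  rw [← Finset.sum_sub_distrib]
  refine Finset.dvd_sum (fun i _ => ?_)
  have : ((p.coeff i : ℤ) : S) * v ^ i * u ^ (d - i) - ((p.coeff i : ℤ) : S) * v' ^ i * u ^ (d - i)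
      = (v ^ i - v' ^ i) * (((p.coeff i : ℤ) : S) * u ^ (d - i)) := by ring
  rw [this]
  exact Dvd.dvd.mul_right (sub_dvd_pow_sub_pow v v' i) _

theorem af_dvd_left {S : Type} [CommRing S] {d : ℕ} {p : ℤ[X]} (h : p.coeff d = 0) (u v : S) :
    u ∣ afH d p u v := by
  unfold afH
  rw [Finset.sum_range_succ, h]
  simp only [Int.cast_zero, zero_mul, add_zero]
  refine Finset.dvd_sum (fun i hi => ?_)
  have : d - i ≠ 0 := by have := Finset.mem_range.1 hi; omega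
  exact Dvd.dvd.mul_left (dvd_pow_self u this) _

theorem af_natDegree (d : ℕ) (p : ℤ[X]) {A B : ℚ[X]} (hA : A.natDegree ≤ 1)
    (hB : B.natDegree ≤ 1) : (afH d p A B).natDegree ≤ d := by
  unfold afH
  refine natDegree_sum_le_of_forall_le _ _ (fun i hi => ?_)
  have hi' : i ≤ d := Nat.lt_succ_iff.1 (Finset.mem_range.1 hi)
  have h1 : (B ^ i).natDegree ≤ i := by
    simpa using natDegree_pow_le_of_le i hB
  have h2 : (A ^ (d - i)).natDegree ≤ d - i := by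
    simpa using natDegree_pow_le_of_le (d - i) hA
  have h3 : (((p.coeff i : ℤ) : ℚ[X])).natDegree = 0 := natDegree_intCast _
  have h4 := natDegree_mul_le (p := ((p.coeff i : ℤ) : ℚ[X])) (q := B ^ i)
  have h5 := natDegree_mul_le (p := ((p.coeff i : ℤ) : ℚ[X]) * B ^ i) (q := A ^ (d - i))
  omega

theorem af_nat_le {Q : ℝ} (hQ : 2 ≤ Q) (c : ℕ) : (c : ℝ) ≤ Q ^ c := by
  have h1 : (c : ℝ) ≤ 2 ^ c := by exact_mod_cast Nat.lt_two_pow_self.le
  exact h1.trans (pow_le_pow_left₀ (by norm_num) hQ c)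

theorem af_mono {Q : ℝ} (hQ : 2 ≤ Q) {a b : ℕ} (h : a ≤ b) : Q ^ a ≤ Q ^ b :=
  pow_le_pow_right₀ (by linarith) h

theorem af_mon_bound {Q : ℝ} (hQ : 2 ≤ Q) {K D i j : ℕ} (hij : i + j ≤ D) {u v : ℤ}
    (hu : |(u : ℝ)| ≤ Q ^ K) (hv : |(v : ℝ)| ≤ Q ^ K) :
    |((v ^ i * u ^ j : ℤ) : ℝ)| ≤ Q ^ (K * D) := by
  push_cast
  rw [abs_mul, abs_pow, abs_pow]
  have h1 : |(v : ℝ)| ^ i ≤ (Q ^ K) ^ i := pow_le_pow_left₀ (abs_nonneg _) hv i
  have h2 : |(u : ℝ)| ^ j ≤ (Q ^ K) ^ j := pow_le_pow_left₀ (abs_nonneg _) hu j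
  have h3 := mul_le_mul h1 h2 (by positivity) (by positivity)
  rw [← pow_add, ← pow_mul] at h3
  exact h3.trans (af_mono hQ (Nat.mul_le_mul_left K hij))

theorem af_mul_bound {Q : ℝ} {a b : ℕ} {u v : ℤ} (hu : |(u : ℝ)| ≤ Q ^ a)
    (hv : |(v : ℝ)| ≤ Q ^ b) : |((u * v : ℤ) : ℝ)| ≤ Q ^ (a + b) := by
  push_cast
  rw [abs_mul, pow_add]
  exact mul_le_mul hu hv (abs_nonneg _) ((abs_nonneg _).trans hu)

theorem af_bound {Q : ℝ} (hQ : 2 ≤ Q) {K D a d : ℕ} (hd : d ≤ D) {p : ℤ[X]}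
    (hp : ∀ i, |(p.coeff i : ℝ)| ≤ Q ^ a) {u v : ℤ}
    (hu : |(u : ℝ)| ≤ Q ^ K) (hv : |(v : ℝ)| ≤ Q ^ K) :
    |((afH d p u v : ℤ) : ℝ)| ≤ Q ^ (D + 1 + (a + K * D)) := by
  unfold afH
  rw [Int.cast_sum]
  refine (Finset.abs_sum_le_sum_abs _ _).trans ?_
  have h1 : ∀ i ∈ range (d + 1), |((((p.coeff i : ℤ) : ℤ) * v ^ i * u ^ (d - i) : ℤ) : ℝ)|
      ≤ Q ^ (a + K * D) := by
    intro i hi
    have hi' : i ≤ d := Nat.lt_succ_iff.1 (Finset.mem_range.1 hi)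
    rw [mul_assoc]
    exact af_mul_bound (hp i) (af_mon_bound hQ (by omega) hu hv)
  have h2 := Finset.sum_le_card_nsmul _ _ _ h1
  rw [Finset.card_range, nsmul_eq_mul] at h2
  refine h2.trans ?_
  rw [pow_add Q (D + 1)]
  refine mul_le_mul_of_nonneg_right ?_ (by positivity)
  exact (af_nat_le hQ (d + 1)).trans (af_mono hQ (by omega))

theorem af_ker (κ : Type) [Fintype κ] (a : ℕ) : ∃ a' : ℕ, ∀ Q : ℝ, 2 ≤ Q →
    ∀ (ι : Type) (Z : Finset ι) (r : ι → κ → ℤ), (∀ j ∈ Z, ∀ l, |(r j l : ℝ)| ≤ Q ^ a) →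
    ∀ (F : Type) [Field F] [CharZero F] (x : κ → F), (∀ j ∈ Z, ∑ l, (r j l : F) * x l = 0) →
    ∀ l0, x l0 ≠ 0 → ∃ y : κ → ℤ, y l0 ≠ 0 ∧ (∀ l, |(y l : ℝ)| ≤ Q ^ a') ∧
      ∀ j ∈ Z, ∑ l, r j l * y l = 0 := by
  obtain ⟨c, hc⟩ := int_kernel κ
  refine ⟨c + a * c, fun Q hQ ι Z r hr F _ _ x hx l0 hl0 => ?_⟩
  obtain ⟨S, hS, hspan⟩ := hc ι Z r (Q ^ a) (one_le_pow₀ (by linarith)) hr
  have h1 := hspan F x hx
  have h2 : ∃ y ∈ S, y l0 ≠ 0 := by
    by_contra hcon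
    push Not at hcon
    have h3 : Submodule.span F ((fun (y : κ → ℤ) (l : κ) => (y l : F)) '' (S : Set (κ → ℤ)))
        ≤ LinearMap.ker (LinearMap.proj (R := F) (φ := fun _ : κ => F) l0) := by
      rw [Submodule.span_le]
      rintro _ ⟨y, hy, rfl⟩
      simp [hcon y hy]
    exact hl0 (h3 h1)
  obtain ⟨y, hy, hy0⟩ := h2
  refine ⟨y, hy0, fun l => ((hS y hy).1 l).trans ?_, (hS y hy).2⟩
  rw [pow_add, pow_mul]
  exact mul_le_mul_of_nonneg_right (af_nat_le hQ c) (by positivity)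

/-- `b` is parallel to a nonzero vector of polynomials of the parameter. -/
def afDir (ι E : Type) [Field E] (D : ℕ) (Z : Finset ℤ) (w0 w1 : ℤ → ℤ) (b : ℤ → ι → ℤ) : Prop :=
  ∃ q : ι → E[X], q ≠ 0 ∧ (∀ l, (q l).natDegree ≤ D) ∧
    ∀ N ∈ Z, ∀ j k, (b N j : E) * (q k).eval ((w1 N : E) / (w0 N : E)) =
      (b N k : E) * (q j).eval ((w1 N : E) / (w0 N : E))

theorem af_step (ι : Type) [Fintype ι] (D K : ℕ) : ∃ K' : ℕ,
    ∀ (E : Type) [Field E] [CharZero E] (Q : ℝ), 2 ≤ Q → ∀ (Z : Finset ℤ) (w0 w1 : ℤ → ℤ)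
    (b : ℤ → ι → ℤ), Param Q K Z w0 w1 → (∀ N ∈ Z, ∀ l, |(b N l : ℝ)| ≤ Q ^ K) →
    afDir ι E D Z w0 w1 b → ∃ p : ι → ℤ[X], p ≠ 0 ∧ (∀ l, (p l).natDegree ≤ D) ∧
      (∀ l i, |((p l).coeff i : ℝ)| ≤ Q ^ K') ∧
      ∀ N ∈ Z, ∀ j k, b N j * afH D (p k) (w0 N) (w1 N) = b N k * afH D (p j) (w0 N) (w1 N) := by
  classical
  obtain ⟨K', hK'⟩ := af_ker (ι × Fin (D + 1)) (K + K * D + 1)
  refine ⟨K', fun E _ _ Q hQ Z w0 w1 b hP hb hq => ?_⟩
  obtain ⟨q, hq0, hqd, hq⟩ := hq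
  set r : ℤ × ι × ι → ι × Fin (D + 1) → ℤ := fun j l =>
    ((if l.1 = j.2.2 then b j.1 j.2.1 else 0) - (if l.1 = j.2.1 then b j.1 j.2.2 else 0)) *
      (w1 j.1 ^ (l.2 : ℕ) * w0 j.1 ^ (D - l.2)) with hr
  have hsum : ∀ (F : Type) [CommRing F] (x : ι × Fin (D + 1) → F) (j : ℤ × ι × ι),
      ∑ l, (r j l : F) * x l =
        (b j.1 j.2.1 : F) * ∑ i : Fin (D + 1),
            x (j.2.2, i) * (w1 j.1 : F) ^ (i : ℕ) * (w0 j.1 : F) ^ (D - i)
        - (b j.1 j.2.2 : F) * ∑ i : Fin (D + 1),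
            x (j.2.1, i) * (w1 j.1 : F) ^ (i : ℕ) * (w0 j.1 : F) ^ (D - i) := by
    intro F _ x j
    rw [Fintype.sum_prod_type_right, Finset.mul_sum, Finset.mul_sum, ← Finset.sum_sub_distrib]
    refine Finset.sum_congr rfl (fun i _ => ?_)
    simp only [hr]
    push_cast
    simp only [sub_mul, ite_mul, zero_mul, Finset.sum_sub_distrib, Finset.sum_ite_eq',
      Finset.mem_univ, if_true]
    ring
  obtain ⟨l0, hl0⟩ := Function.ne_iff.1 hq0
  have hl1 : (q l0).coeff (q l0).natDegree ≠ 0 := leadingCoeff_ne_zero.2 hl0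
  obtain ⟨y, hy0, hyb, hy⟩ := hK' Q hQ (ℤ × ι × ι) (Z ×ˢ univ) r (by
      rintro ⟨N, j, k⟩ hj ⟨l, i⟩
      have hN : N ∈ Z := (Finset.mem_product.1 hj).1
      obtain ⟨_, _, h0, h1⟩ := hP.1 N hN
      have hi : (i : ℕ) + (D - i) ≤ D := by have := i.2; omega
      have hb2 : |(((if l = k then b N j else 0) - (if l = j then b N k else 0) : ℤ) : ℝ)|
          ≤ Q ^ (K + 1) := by
        have e1 : |(((if l = k then b N j else 0) : ℤ) : ℝ)| ≤ Q ^ K := by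
          split_ifs
          · exact hb N hN j
          · simp only [Int.cast_zero, abs_zero]; positivity
        have e2 : |(((if l = j then b N k else 0) : ℤ) : ℝ)| ≤ Q ^ K := by
          split_ifs
          · exact hb N hN k
          · simp only [Int.cast_zero, abs_zero]; positivity
        rw [Int.cast_sub, pow_succ]
        refine (abs_sub _ _).trans ?_
        have : 0 ≤ Q ^ K := by positivity
        nlinarith
      have := af_mul_bound hb2 (af_mon_bound hQ hi h0 h1)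
      have e : K + K * D + 1 = K + 1 + K * D := by ring
      rw [e]
      exact this)
    E (fun l => (q l.1).coeff l.2) (by
      rintro ⟨N, j, k⟩ hj
      have hN : N ∈ Z := (Finset.mem_product.1 hj).1
      have hw : (w0 N : E) ≠ 0 := by exact_mod_cast (hP.1 N hN).2.1
      rw [hsum]
      dsimp only
      rw [Fin.sum_univ_eq_sum_range
          (fun i => (q k).coeff i * (w1 N : E) ^ i * (w0 N : E) ^ (D - i)),
        Fin.sum_univ_eq_sum_range
          (fun i => (q j).coeff i * (w1 N : E) ^ i * (w0 N : E) ^ (D - i)),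
        af_field0 (hqd k) hw, af_field0 (hqd j) hw]
      linear_combination ((w0 N : E) ^ D) * hq N hN j k)
    (l0, ⟨(q l0).natDegree, Nat.lt_succ_of_le (hqd l0)⟩) hl1
  refine ⟨fun l => ofFn (D + 1) (fun i => y (l, i)), ?_, fun l => ?_, fun l i => ?_, ?_⟩
  · intro h
    have h1 := congrFun h l0
    have h2 := ofFn_coeff_eq_val_of_lt (fun i : Fin (D + 1) => y (l0, i))
      (Nat.lt_succ_of_le (hqd l0))
    simp only [Pi.zero_apply] at h1
    rw [h1] at h2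
    exact hy0 h2.symm
  · exact Nat.lt_succ_iff.1 (ofFn_natDegree_lt (by omega) _)
  · by_cases hi : i < D + 1
    · rw [ofFn_coeff_eq_val_of_lt _ hi]
      exact hyb _
    · rw [ofFn_coeff_eq_zero_of_ge _ (by omega)]
      simp only [Int.cast_zero, abs_zero]; positivity
  · intro N hN j k
    have h1 := hsum ℤ y (N, j, k)
    have h2 := hy (N, j, k) (Finset.mem_product.2 ⟨hN, Finset.mem_univ _⟩)
    simp only [Int.cast_id] at h1
    rw [h2] at h1
    have h3 : ∀ l, afH D (ofFn (D + 1) (fun i => y (l, i))) (w0 N) (w1 N)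
        = ∑ i : Fin (D + 1), y (l, i) * w1 N ^ (i : ℕ) * w0 N ^ (D - i) := by
      intro l
      unfold afH
      simp only [Int.cast_id]
      rw [← Fin.sum_univ_eq_sum_range (fun i => (ofFn (D + 1) (fun i => y (l, i))).coeff i
        * w1 N ^ i * w0 N ^ (D - i))]
      refine Finset.sum_congr rfl (fun i _ => ?_)
      rw [ofFn_coeff_eq_val_of_lt _ i.2]
    rw [h3, h3]
    linarith

/-- forms of exact degree `d` without a common zero -/
def afGood {ι : Type} (d : ℕ) (p : ι → ℤ[X]) : Prop :=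
  (∀ l, (p l).natDegree ≤ d) ∧ (∃ l, (p l).coeff d ≠ 0) ∧
    ∀ z : ℂ, ∃ l, ((p l).map (Int.castRingHom ℂ)).eval z ≠ 0

theorem af_param_sub {Q : ℝ} {K : ℕ} {Z Z' : Finset ℤ} {w0 w1 : ℤ → ℤ} (h : Param Q K Z w0 w1)
    (hs : Z' ⊆ Z) : Param Q K Z' w0 w1 :=
  ⟨fun N hN => h.1 N (hs hN), fun N hN N' hN' => h.2 N (hs hN) N' (hs hN')⟩

theorem af_reduce {ι : Type} {D K : ℕ} {Q : ℝ} {Z : Finset ℤ} {w0 w1 : ℤ → ℤ} {b : ℤ → ι → ℤ}
    (hP : Param Q K Z w0 w1) {p : ι → ℤ[X]} (hp0 : p ≠ 0) (hpd : ∀ l, (p l).natDegree ≤ D + 1)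
    (hrel : ∀ N ∈ Z, ∀ j k, b N j * afH (D + 1) (p k) (w0 N) (w1 N)
      = b N k * afH (D + 1) (p j) (w0 N) (w1 N)) (hg : ¬ afGood (D + 1) p) :
    ∃ Z1 : Finset ℤ, Z1.card ≤ 1 ∧ afDir ι ℂ D (Z \ Z1) w0 w1 b := by
  classical
  set P : ι → ℂ[X] := fun l => (p l).map (Int.castRingHom ℂ) with hPdef
  obtain ⟨l0, hl0⟩ := Function.ne_iff.1 hp0
  have hP0 : P l0 ≠ 0 :=
    (Polynomial.map_ne_zero_iff (Int.castRingHom ℂ).injective_int).2 hl0
  have hrel' : ∀ N ∈ Z, ∀ j k, (b N j : ℂ) * (P k).eval ((w1 N : ℂ) / (w0 N : ℂ)) =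
      (b N k : ℂ) * (P j).eval ((w1 N : ℂ) / (w0 N : ℂ)) := by
    intro N hN j k
    have hw : (w0 N : ℂ) ≠ 0 := by exact_mod_cast (hP.1 N hN).2.1
    have h1 := congrArg (fun z : ℤ => (z : ℂ)) (hrel N hN j k)
    simp only [Int.cast_mul, af_cast] at h1
    rw [af_field (hpd k) hw, af_field (hpd j) hw] at h1
    apply mul_left_cancel₀ (pow_ne_zero (D + 1) hw)
    linear_combination h1
  by_cases hc : ∃ l, (p l).coeff (D + 1) ≠ 0
  · have hz : ∃ z : ℂ, ∀ l, (P l).eval z = 0 := by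
      by_contra hcon
      push Not at hcon
      exact hg ⟨hpd, hc, hcon⟩
    obtain ⟨z, hz⟩ := hz
    have hdiv : ∀ l, (X - C z) * (P l /ₘ (X - C z)) = P l :=
      fun l => mul_divByMonic_eq_iff_isRoot.2 (hz l)
    refine ⟨Z.filter (fun N => (w1 N : ℂ) / (w0 N : ℂ) = z), ?_, fun l => P l /ₘ (X - C z),
      ?_, fun l => ?_, ?_⟩
    · rw [Finset.card_le_one]
      intro N hN N' hN'
      rw [Finset.mem_filter] at hN hN'
      refine hP.2 N hN.1 N' hN'.1 ?_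
      have hw : (w0 N : ℂ) ≠ 0 := by exact_mod_cast (hP.1 N hN.1).2.1
      have hw' : (w0 N' : ℂ) ≠ 0 := by exact_mod_cast (hP.1 N' hN'.1).2.1
      have h1 := hN.2.trans hN'.2.symm
      rw [div_eq_div_iff hw hw'] at h1
      exact_mod_cast h1
    · intro h
      have h1 := congrFun h l0
      have h2 := hdiv l0
      simp only [Pi.zero_apply] at h1
      rw [h1, mul_zero] at h2
      exact hP0 h2.symm
    · rw [natDegree_divByMonic _ (monic_X_sub_C z), natDegree_X_sub_C]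
      have : (P l).natDegree ≤ D + 1 := natDegree_map_le.trans (hpd l)
      omega
    · intro N hN j k
      rw [Finset.mem_sdiff, Finset.mem_filter] at hN
      have hne : (w1 N : ℂ) / (w0 N : ℂ) - z ≠ 0 := fun h => hN.2 ⟨hN.1, sub_eq_zero.1 h⟩
      have h1 := hrel' N hN.1 j k
      rw [← hdiv k, ← hdiv j] at h1
      simp only [eval_mul, eval_sub, eval_X, eval_C] at h1
      apply mul_left_cancel₀ hne
      linear_combination h1
  · push Not at hc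
    refine ⟨∅, by simp, P, fun h => hP0 (congrFun h l0), fun l => ?_, ?_⟩
    · refine natDegree_map_le.trans ?_
      rw [natDegree_le_iff_coeff_eq_zero]
      intro n hn
      by_cases h : n = D + 1
      · rw [h]; exact hc l
      · exact coeff_eq_zero_of_natDegree_lt (by have := hpd l; omega)
    · intro N hN
      exact hrel' N (Finset.mem_sdiff.1 hN).1

theorem af_min (ι : Type) [Fintype ι] (K D : ℕ) : ∃ K' : ℕ,
    ∀ (E : Type) [Field E] [CharZero E] (Q : ℝ), 2 ≤ Q → ∀ (Z : Finset ℤ) (w0 w1 : ℤ → ℤ)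
    (b : ℤ → ι → ℤ), Param Q K Z w0 w1 → (∀ N ∈ Z, ∀ l, |(b N l : ℝ)| ≤ Q ^ K) →
    afDir ι E D Z w0 w1 b → ∃ (Z0 : Finset ℤ) (d : ℕ) (p : ι → ℤ[X]), Z0.card ≤ D ∧ d ≤ D ∧
      afGood d p ∧ (∀ l i, |((p l).coeff i : ℝ)| ≤ Q ^ K') ∧
      ∀ N ∈ Z \ Z0, ∀ j k,
        b N j * afH d (p k) (w0 N) (w1 N) = b N k * afH d (p j) (w0 N) (w1 N) := by
  classical
  induction D with
  | zero =>
    obtain ⟨K', hK'⟩ := af_step ι 0 K
    refine ⟨K', fun E _ _ Q hQ Z w0 w1 b hP hb hq => ?_⟩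
    obtain ⟨p, hp0, hpd, hpb, hrel⟩ := hK' E Q hQ Z w0 w1 b hP hb hq
    obtain ⟨l0, hl0⟩ := Function.ne_iff.1 hp0
    have h1 : p l0 = C ((p l0).coeff 0) := eq_C_of_natDegree_le_zero (hpd l0)
    have h2 : (p l0).coeff 0 ≠ 0 := by
      intro h
      rw [h, map_zero] at h1
      exact hl0 h1
    refine ⟨∅, 0, p, by simp, le_rfl, ⟨hpd, ⟨l0, h2⟩, fun z => ⟨l0, ?_⟩⟩, hpb,
      fun N hN => hrel N (Finset.mem_sdiff.1 hN).1⟩
    rw [h1]
    simpa using h2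
  | succ D ih =>
    obtain ⟨K1, hK1⟩ := af_step ι (D + 1) K
    obtain ⟨K2, hK2⟩ := ih
    refine ⟨K1 + K2, fun E _ _ Q hQ Z w0 w1 b hP hb hq => ?_⟩
    obtain ⟨p, hp0, hpd, hpb, hrel⟩ := hK1 E Q hQ Z w0 w1 b hP hb hq
    by_cases hg : afGood (D + 1) p
    · exact ⟨∅, D + 1, p, by simp, le_rfl, hg,
        fun l i => (hpb l i).trans (af_mono hQ (by omega)),
        fun N hN => hrel N (Finset.mem_sdiff.1 hN).1⟩
    · obtain ⟨Z1, hZ1, hdir⟩ := af_reduce hP hp0 hpd hrel hg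
      obtain ⟨Z0, d, p', h1, h2, h3, h4, h5⟩ := hK2 ℂ Q hQ (Z \ Z1) w0 w1 b
        (af_param_sub hP Finset.sdiff_subset)
        (fun N hN => hb N (Finset.mem_sdiff.1 hN).1) hdir
      refine ⟨Z1 ∪ Z0, d, p', (Finset.card_union_le _ _).trans (by omega), by omega, h3,
        fun l i => (h4 l i).trans (af_mono hQ (by omega)), fun N hN => h5 N ?_⟩
      simp only [Finset.mem_sdiff, Finset.mem_union, not_or] at hN ⊢
      tauto

theorem af_unit {ι : Type} [Fintype ι] (f : ι → ℚ[X])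
    (h : ∀ z : ℂ, ∃ l, aeval z (f l) ≠ 0) : ∃ c : ι → ℚ[X], ∑ l, c l * f l = 1 := by
  rw [← Ideal.mem_span_range_iff_exists_fun]
  obtain ⟨G, hG⟩ := (IsPrincipalIdealRing.principal (Ideal.span (Set.range f))).principal
  rw [hG]
  change (1 : ℚ[X]) ∈ Ideal.span {G}
  rw [← Ideal.eq_top_iff_one, Ideal.span_singleton_eq_top, isUnit_iff_degree_eq_zero]
  by_contra hd
  obtain ⟨z, hz⟩ := IsAlgClosed.exists_aeval_eq_zero ℂ G hd
  obtain ⟨l, hl⟩ := h z
  have h1 : f l ∈ Ideal.span (Set.range f) := Ideal.mem_span_range_self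
  rw [hG] at h1
  obtain ⟨c, hc⟩ := Ideal.mem_span_singleton.1 h1
  exact hl (by rw [hc, map_mul, hz, zero_mul])

theorem af_bez0 {ι : Type} [Fintype ι] {D d : ℕ} (hd : d ≤ D) (f : ι → ℚ[X])
    (hf : ∀ l, (f l).natDegree ≤ d) (l0 : ι) (h0 : (f l0).coeff d ≠ 0) (c : ι → ℚ[X])
    (hc : ∑ l, c l * f l = 1) (h : ℚ[X]) (hh : h.natDegree ≤ D + d) :
    ∃ U : ι → ℚ[X], (∀ l, (U l).natDegree ≤ D) ∧ ∑ l, U l * f l = h := by
  classical
  have hf0 : f l0 ≠ 0 := by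
    intro e
    rw [e] at h0
    exact h0 (coeff_zero d)
  have hdeg : (f l0).natDegree = d := le_antisymm (hf l0) (le_natDegree_of_ne_zero h0)
  set U' : ι → ℚ[X] := fun l => (h * c l) % f l0 with hU'
  set W : ℚ[X] := ∑ l, ((h * c l) / f l0) * f l with hW
  have hU'd : ∀ l, (U' l).natDegree ≤ d := fun l =>
    hdeg ▸ natDegree_le_natDegree (degree_mod_lt _ hf0).le
  have hsum : ∑ l, U' l * f l + W * f l0 = h := by
    rw [hW, Finset.sum_mul, ← Finset.sum_add_distrib]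
    have : ∀ l, U' l * f l + (h * c l) / f l0 * f l * f l0 = h * (c l * f l) := by
      intro l
      have := EuclideanDomain.div_add_mod (h * c l) (f l0)
      simp only [hU']
      linear_combination (f l) * this
    simp only [this]
    rw [← Finset.mul_sum, hc, mul_one]
  have hWd : W.natDegree ≤ D := by
    by_cases hW0 : W = 0
    · rw [hW0]; simp
    have e1 : W * f l0 = h - ∑ l, U' l * f l := by rw [← hsum]; ring
    have e2 : (∑ l, U' l * f l).natDegree ≤ D + d :=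
      natDegree_sum_le_of_forall_le _ _ (fun l _ => natDegree_mul_le.trans (by
        have := hU'd l; have := hf l; omega))
    have e3 : (W * f l0).natDegree ≤ D + d := by
      rw [e1]
      exact (natDegree_sub_le _ _).trans (max_le hh e2)
    rw [natDegree_mul hW0 hf0, hdeg] at e3
    omega
  refine ⟨fun l => U' l + if l = l0 then W else 0, fun l => ?_, ?_⟩
  · refine (natDegree_add_le _ _).trans (max_le ((hU'd l).trans hd) ?_)
    split_ifs
    · exact hWd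
    · simp
  · simp only [add_mul, ite_mul, zero_mul, Finset.sum_add_distrib, Finset.sum_ite_eq',
      Finset.mem_univ, if_true]
    exact hsum

theorem af_aeval (p : ℤ[X]) (z : ℂ) :
    aeval z (p.map (Int.castRingHom ℚ)) = (p.map (Int.castRingHom ℂ)).eval z := by
  rw [aeval_def, eval₂_map, eval_map]
  congr 1

theorem af_bez (ι : Type) [Fintype ι] (K D K1 : ℕ) : ∃ K2 : ℕ, ∀ Q : ℝ, 2 ≤ Q →
    ∀ (Z : Finset ℤ) (w0 w1 : ℤ → ℤ), Param Q K Z w0 w1 → ∀ (d : ℕ) (p : ι → ℤ[X]), d ≤ D →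
    afGood d p → (∀ l i, |((p l).coeff i : ℝ)| ≤ Q ^ K1) →
    ∃ R : ℤ, R ≠ 0 ∧ |(R : ℝ)| ≤ Q ^ K2 ∧ ∀ N ∈ Z, ∀ g : ℤ,
      (∀ l, g ∣ afH d (p l) (w0 N) (w1 N)) → g ∣ R := by
  classical
  obtain ⟨K2, hK2⟩ := af_ker (Option (ι × Fin (D + 1))) (K * (D + D) + (D + 1 + (K1 + K * D)))
  refine ⟨K2 + K2, fun Q hQ Z w0 w1 hP d p hd hg hpb => ?_⟩
  obtain ⟨hpd, ⟨l0, hl0⟩, hroot⟩ := hg
  set f : ι → ℚ[X] := fun l => (p l).map (Int.castRingHom ℚ) with hf
  obtain ⟨c, hc⟩ := af_unit f (fun z => by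
    obtain ⟨l, hl⟩ := hroot z
    exact ⟨l, by rw [hf, af_aeval]; exact hl⟩)
  have key : ∀ e ≤ D + d, ∃ R : ℤ, R ≠ 0 ∧ |(R : ℝ)| ≤ Q ^ K2 ∧ ∀ N ∈ Z, ∀ g : ℤ,
      (∀ l, g ∣ afH d (p l) (w0 N) (w1 N)) → g ∣ w1 N ^ e * w0 N ^ (D + d - e) * R := by
    intro e he
    obtain ⟨U, hUd, hU⟩ := af_bez0 hd f (fun l => natDegree_map_le.trans (hpd l)) l0
      (by simpa [hf] using hl0) c hc (X ^ e) (by rw [natDegree_X_pow]; exact he)
    set r : ℤ → Option (ι × Fin (D + 1)) → ℤ := fun N l => l.elim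
      (-(w1 N ^ e * w0 N ^ (D + d - e)))
      (fun l => (w1 N ^ (l.2 : ℕ) * w0 N ^ (D - l.2)) * afH d (p l.1) (w0 N) (w1 N)) with hr
    obtain ⟨y, hy0, hyb, hy⟩ := hK2 Q hQ ℤ Z r (by
        intro N hN l
        obtain ⟨_, _, h0, h1⟩ := hP.1 N hN
        cases l with
        | none =>
          simp only [hr, Option.elim]
          rw [Int.cast_neg, abs_neg]
          exact (af_mon_bound (D := D + D) hQ (by omega) h0 h1).trans (af_mono hQ (by omega))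
        | some l =>
          simp only [hr, Option.elim]
          have hi : (l.2 : ℕ) + (D - l.2) ≤ D + D := by have := l.2.2; omega
          exact af_mul_bound (af_mon_bound hQ hi h0 h1) (af_bound hQ hd (hpb l.1) h0 h1))
      ℚ (fun l => l.elim 1 (fun l => (U l.1).coeff l.2)) (by
        intro N hN
        have hw : (w0 N : ℚ) ≠ 0 := by exact_mod_cast (hP.1 N hN).2.1
        rw [Fintype.sum_option, Fintype.sum_prod_type]
        simp only [hr, Option.elim]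
        have e1 : ∀ l, ∑ i : Fin (D + 1), (((w1 N ^ (i : ℕ) * w0 N ^ (D - i)) *
              afH d (p l) (w0 N) (w1 N) : ℤ) : ℚ) * (U l).coeff i
            = (w0 N : ℚ) ^ (D + d) * (U l * f l).eval ((w1 N : ℚ) / (w0 N : ℚ)) := by
          intro l
          have e2 := af_field0 (hUd l) hw (w1 N : ℚ)
          rw [← Fin.sum_univ_eq_sum_range
            (fun i => (U l).coeff i * (w1 N : ℚ) ^ i * (w0 N : ℚ) ^ (D - i))] at e2
          rw [eval_mul, pow_add, mul_mul_mul_comm, ← e2, ← af_field (hpd l) hw, Finset.sum_mul]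
          refine Finset.sum_congr rfl (fun i _ => ?_)
          rw [Int.cast_mul, af_cast]
          push_cast
          ring
        simp only [e1]
        rw [← Finset.mul_sum, ← eval_finsetSum, hU, eval_pow, eval_X]
        obtain ⟨k, hk⟩ := Nat.exists_eq_add_of_le he
        rw [hk, Nat.add_sub_cancel_left, pow_add, div_pow]
        push_cast
        field_simp
        ring)
      none one_ne_zero
    refine ⟨y none, hy0, hyb none, fun N hN g hgd => ?_⟩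
    have h1 := hy N hN
    rw [Fintype.sum_option] at h1
    simp only [hr, Option.elim] at h1
    have h2 : w1 N ^ e * w0 N ^ (D + d - e) * y none = ∑ l : ι × Fin (D + 1),
        (w1 N ^ (l.2 : ℕ) * w0 N ^ (D - l.2)) * afH d (p l.1) (w0 N) (w1 N) * y (some l) := by
      linarith
    rw [h2]
    exact Finset.dvd_sum (fun l _ => Dvd.dvd.mul_right (Dvd.dvd.mul_left (hgd l.1) _) _)
  obtain ⟨R0, hR0, hR0b, h0⟩ := key 0 (by omega)
  obtain ⟨R1, hR1, hR1b, h1⟩ := key (D + d) le_rfl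
  refine ⟨R0 * R1, mul_ne_zero hR0 hR1, af_mul_bound hR0b hR1b, fun N hN g hgd => ?_⟩
  have e0 := h0 N hN g hgd
  have e1 := h1 N hN g hgd
  rw [pow_zero, one_mul, Nat.sub_zero] at e0
  rw [Nat.sub_self, pow_zero, mul_one] at e1
  obtain ⟨u, v, huv⟩ := ((hP.1 N hN).1).pow (m := D + d) (n := D + d)
  have : R0 * R1 = u * R1 * (w0 N ^ (D + d) * R0) + v * R0 * (w1 N ^ (D + d) * R1) := by
    linear_combination (-(R0 * R1)) * huv
  rw [this]
  exact dvd_add (Dvd.dvd.mul_left e0 _) (Dvd.dvd.mul_left e1 _)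

theorem af_vec (ι : Type) [Fintype ι] (K D : ℕ) : ∃ K' : ℕ,
    ∀ (E : Type) [Field E] [CharZero E] (Q : ℝ), 2 ≤ Q → ∀ (Z : Finset ℤ) (w0 w1 : ℤ → ℤ)
    (b : ℤ → ι → ℤ), Param Q K Z w0 w1 → (∀ N ∈ Z, ∀ l, |(b N l : ℝ)| ≤ Q ^ K) →
    (∀ N ∈ Z, ∃ u : ι → ℤ, ∑ l, b N l * u l = 1) → afDir ι E D Z w0 w1 b →
    ∃ (Z0 : Finset ℤ) (d : ℕ) (p : ι → ℤ[X]) (R : ℤ) (g : ℤ → ℤ), Z0.card ≤ D ∧ d ≤ D ∧
      afGood d p ∧ (∀ l i, |((p l).coeff i : ℝ)| ≤ Q ^ K') ∧ R ≠ 0 ∧ |(R : ℝ)| ≤ Q ^ K' ∧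
      ∀ N ∈ Z \ Z0, g N ∣ R ∧ ∀ l, afH d (p l) (w0 N) (w1 N) = g N * b N l := by
  classical
  obtain ⟨K1, hK1⟩ := af_min ι K D
  obtain ⟨K2, hK2⟩ := af_bez ι K D K1
  refine ⟨K1 + K2, fun E _ _ Q hQ Z w0 w1 b hP hb hu hq => ?_⟩
  obtain ⟨Z0, d, p, h1, h2, h3, h4, h5⟩ := hK1 E Q hQ Z w0 w1 b hP hb hq
  obtain ⟨R, hR0, hRb, hR⟩ := hK2 Q hQ Z w0 w1 hP d p h2 h3 h4
  have hg : ∀ N : ℤ, ∃ g : ℤ, N ∈ Z \ Z0 → ∀ l, afH d (p l) (w0 N) (w1 N) = g * b N l := by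
    intro N
    by_cases hN : N ∈ Z \ Z0
    · obtain ⟨u, hu⟩ := hu N (Finset.mem_sdiff.1 hN).1
      refine ⟨∑ j, u j * afH d (p j) (w0 N) (w1 N), fun _ l => ?_⟩
      rw [← one_mul (afH d (p l) (w0 N) (w1 N)), ← hu, Finset.sum_mul, Finset.sum_mul]
      refine Finset.sum_congr rfl (fun j _ => ?_)
      linear_combination (u j) * h5 N hN j l
    · exact ⟨0, fun h => absurd h hN⟩
  choose g hg using hg
  refine ⟨Z0, d, p, R, g, h1, h2, h3, fun l i => (h4 l i).trans (af_mono hQ (by omega)), hR0,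
    hRb.trans (af_mono hQ (by omega)), fun N hN => ⟨?_, hg N hN⟩⟩
  exact hR N (Finset.mem_sdiff.1 hN).1 (g N) (fun l => ⟨b N l, hg N hN l⟩)

end Vale.Agent.P018
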