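import Vale.Agent.P018.Q.Defs

namespace Vale.Agent.P018

open NumberField UniqueFactorizationMonoid Finset

theorem dc_lin (δ : ℝ) (hδ : 0 < δ) : ∃ C : ℝ, 1 ≤ C ∧ ∀ n : ℕ, (n : ℝ) + 1 ≤ C * (2 ^ n) ^ δ := by
  have hc : 0 < δ * Real.log 2 := mul_pos hδ (Real.log_pos one_lt_two)
  refine ⟨1 + 1 / (δ * Real.log 2), le_add_of_nonneg_right (by positivity), fun n => ?_⟩
  have h1 : n * (δ * Real.log 2) + 1 ≤ ((2 : ℝ) ^ n) ^ δ := by
    rw [Real.rpow_def_of_pos (by positivity), Real.log_pow]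
    refine le_trans (le_of_eq (by ring)) (Real.add_one_le_exp _)
  obtain ⟨c, hc'⟩ : ∃ c, c = δ * Real.log 2 := ⟨_, rfl⟩
  rw [← hc'] at h1 hc ⊢
  have h2 : (1 + 1 / c) * (n * c + 1) = n * c + 1 + n + 1 / c := by field_simp; ring
  have h3 : 0 ≤ n * c + 1 / c := by positivity
  calc (n : ℝ) + 1 ≤ (1 + 1 / c) * (n * c + 1) := by linarith
    _ ≤ _ := mul_le_mul_of_nonneg_left h1 (by positivity)

section

variable {E : Type} [Field E] [NumberField E]

open scoped Classical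

theorem dc_norm (J : Ideal (𝓞 E)) (hJ : J ≠ 0) : Ideal.absNorm J =
    ∏ P ∈ (normalizedFactors J).toFinset, Ideal.absNorm P ^ (normalizedFactors J).count P := by
  conv_lhs => rw [← Ideal.prod_normalizedFactors_eq_self hJ]
  rw [map_multiset_prod, Finset.prod_multiset_map_count]

theorem dc_two_le {J P : Ideal (𝓞 E)} (hP : P ∈ normalizedFactors J) : 2 ≤ Ideal.absNorm P := by
  have h := prime_of_normalized_factor P hP
  have h0 : Ideal.absNorm P ≠ 0 := fun h0 => h.ne_zero (Ideal.absNorm_eq_zero_iff.1 h0)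
  have h1 : Ideal.absNorm P ≠ 1 := fun h1 =>
    h.not_isUnit (Ideal.isUnit_iff.2 (Ideal.absNorm_eq_one_iff.1 h1))
  omega

theorem dc_card_le (J : Ideal (𝓞 E)) (hJ : J ≠ 0) :
    (normalizedFactors J).toFinset.card ≤ Ideal.absNorm J := by
  rw [dc_norm J hJ]
  refine le_trans Nat.lt_two_pow_self.le (Finset.pow_card_le_prod _ _ _ fun P hP => ?_)
  have h := Multiset.mem_toFinset.1 hP
  exact le_trans (dc_two_le h) (Nat.le_self_pow (Multiset.count_ne_zero.2 h) _)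

theorem dc_small (J : Ideal (𝓞 E)) (B : ℕ) :
    ((normalizedFactors J).toFinset.filter fun P => Ideal.absNorm P ≤ B).card
      ≤ B.factorial ^ Module.finrank ℚ E := by
  have h0 : Ideal.span {(B.factorial : 𝓞 E)} ≠ 0 := by
    rw [Ne, Ideal.zero_eq_bot, Ideal.span_singleton_eq_bot]
    exact_mod_cast B.factorial_ne_zero
  have h1 := dc_card_le _ h0
  rw [Ideal.absNorm_span_natCast, RingOfIntegers.rank] at h1
  refine le_trans (card_le_card fun P hP => ?_) h1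
  obtain ⟨h2, h3⟩ := mem_filter.1 hP
  have h4 := Multiset.mem_toFinset.1 h2
  rw [Multiset.mem_toFinset, mem_normalizedFactors_iff h0]
  refine ⟨prime_of_normalized_factor P h4, Ideal.dvd_span_singleton.2 ?_⟩
  obtain ⟨k, hk⟩ := Nat.dvd_factorial (by have := dc_two_le h4; omega) h3
  rw [hk, Nat.cast_mul]
  exact Ideal.mul_mem_right _ _ (Ideal.absNorm_mem P)

theorem dc_ideals_le (J : Ideal (𝓞 E)) (hJ : J ≠ 0) (T : Finset (Ideal (𝓞 E)))
    (hT : ∀ I ∈ T, I ∣ J) :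
    T.card ≤ ∏ P ∈ (normalizedFactors J).toFinset, ((normalizedFactors J).count P + 1) := by
  rw [← Multiset.card_Iic]
  have h0 : ∀ I ∈ T, I ≠ 0 := fun I hI h => hJ (zero_dvd_iff.1 (h ▸ hT I hI))
  refine card_le_card_of_injOn normalizedFactors (fun I hI => ?_) (fun I hI I' hI' h => ?_)
  · exact mem_coe.2 (mem_Iic.2
      ((dvd_iff_normalizedFactors_le_normalizedFactors (h0 I hI) hJ).1 (hT I hI)))
  · rw [← Ideal.prod_normalizedFactors_eq_self (h0 I hI), h,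
      Ideal.prod_normalizedFactors_eq_self (h0 I' hI')]

theorem dc_fiber (T : Finset (𝓞 E)) (h0 : ∀ x ∈ T, x ≠ 0) (h1 : ∀ x ∈ T, ∀ y ∈ T, x ∣ y)
    (h2 : ∀ x ∈ T, ∀ y ∈ T, ∀ φ : E →+* ℂ, ‖emb φ y‖ ≤ 2 * ‖emb φ x‖) :
    T.card ≤ 5 ^ Module.finrank ℚ E := by
  rcases T.eq_empty_or_nonempty with rfl | ⟨x, hx⟩
  · simp
  have hI : Ideal.span {((5 : ℕ) : 𝓞 E)} ≠ ⊥ := by
    rw [Ne, Ideal.span_singleton_eq_bot]; norm_num
  have := Ideal.finiteQuotientOfFreeOfNeBot _ hI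
  have := Fintype.ofFinite (𝓞 E ⧸ Ideal.span {((5 : ℕ) : 𝓞 E)})
  have hc : Fintype.card (𝓞 E ⧸ Ideal.span {((5 : ℕ) : 𝓞 E)}) = 5 ^ Module.finrank ℚ E := by
    rw [← RingOfIntegers.rank, ← Ideal.absNorm_span_natCast, Ideal.absNorm_apply,
      Submodule.cardQuot_apply, Nat.card_eq_fintype_card]
  choose! u hu using h1 x hx
  have hpos : ∀ φ : E →+* ℂ, 0 < ‖emb φ x‖ := by
    intro φ
    rw [norm_pos_iff, emb_apply, map_ne_zero]
    exact RingOfIntegers.coe_ne_zero_iff.2 (h0 x hx)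
  have hu2 : ∀ y ∈ T, ∀ φ : E →+* ℂ, ‖emb φ (u y)‖ ≤ 2 := by
    intro y hy φ
    have := h2 x hx y hy φ
    rw [hu y hy, map_mul, norm_mul, mul_comm] at this
    exact le_of_mul_le_mul_right this (hpos φ)
  rw [← hc, ← card_univ]
  refine card_le_card_of_injOn (fun y => Ideal.Quotient.mk _ (u y)) (fun _ _ => mem_coe.2 (mem_univ _))
    (fun y hy z hz h => ?_)
  obtain ⟨w, hw⟩ := Ideal.mem_span_singleton.1 (Ideal.Quotient.eq.1 h)
  have hw0 : w = 0 := eq_zero_of_emb_lt_one w fun φ => by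
    have a1 := norm_sub_le (emb φ (u y)) (emb φ (u z))
    rw [← map_sub, hw, map_mul, map_natCast, norm_mul, Complex.norm_natCast] at a1
    have a2 := hu2 y hy φ
    have a3 := hu2 z hz φ
    push_cast at a1
    linarith
  rw [hw0, mul_zero, sub_eq_zero] at hw
  rw [hu y hy, hu z hz, hw]

end

theorem dc_ideals (D : ℕ) (δ : ℝ) (hδ : 0 < δ) : ∃ C : ℝ, 0 ≤ C ∧
    ∀ (E : Type) [Field E] [NumberField E], Module.finrank ℚ E ≤ D →
    ∀ J : Ideal (𝓞 E), J ≠ 0 → ∀ T : Finset (Ideal (𝓞 E)), (∀ I ∈ T, I ∣ J) →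
    (T.card : ℝ) ≤ C * (Ideal.absNorm J : ℝ) ^ δ := by
  classical
  obtain ⟨C, hC1, hC⟩ := dc_lin δ hδ
  obtain ⟨B, hB⟩ := exists_nat_ge ((2 : ℝ) ^ (1 / δ))
  refine ⟨C ^ (B.factorial ^ D), by positivity, fun E _ _ hD J hJ T hT => ?_⟩
  have h1 : (T.card : ℝ) ≤ ∏ P ∈ (normalizedFactors J).toFinset,
      (((normalizedFactors J).count P : ℝ) + 1) := by exact_mod_cast dc_ideals_le J hJ T hT
  have h2 : ∀ P ∈ (normalizedFactors J).toFinset, (((normalizedFactors J).count P : ℝ) + 1) ≤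
      (if Ideal.absNorm P ≤ B then C else 1) *
        ((Ideal.absNorm P : ℝ) ^ (normalizedFactors J).count P) ^ δ := by
    intro P hP
    have a1 : (2 : ℝ) ≤ Ideal.absNorm P := by exact_mod_cast dc_two_le (Multiset.mem_toFinset.1 hP)
    generalize (normalizedFactors J).count P = e
    split_ifs with h
    · refine le_trans (hC e) ?_
      gcongr
    · have a2 : (2 : ℝ) ≤ (Ideal.absNorm P : ℝ) ^ δ := by
        have a3 : (2 : ℝ) ^ (1 / δ) ≤ Ideal.absNorm P :=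
          le_trans hB (by exact_mod_cast (not_le.1 h).le)
        calc (2 : ℝ) = ((2 : ℝ) ^ (1 / δ)) ^ δ := by
              rw [← Real.rpow_mul (by norm_num), one_div_mul_cancel hδ.ne', Real.rpow_one]
          _ ≤ _ := by gcongr
      rw [one_mul, ← Real.rpow_pow_comm (by positivity)]
      calc (e : ℝ) + 1 ≤ 2 ^ e := by exact_mod_cast Nat.lt_two_pow_self
        _ ≤ _ := by gcongr
  refine le_trans h1 (le_trans (prod_le_prod (fun _ _ => by positivity) h2) ?_)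
  rw [prod_mul_distrib, Real.finsetProd_rpow _ _ (fun _ _ => by positivity), dc_norm J hJ]
  push_cast
  refine mul_le_mul_of_nonneg_right ?_ (by positivity)
  rw [prod_ite, prod_const, prod_const_one, mul_one]
  exact pow_le_pow_right₀ hC1 (le_trans (dc_small J B)
    (Nat.pow_le_pow_right B.factorial_pos hD))

/-- divisor bound in number fields, uniform in fields of bounded degree -/
theorem div_count (D K : ℕ) (ε : ℝ) (hε : 0 < ε) : ∃ C : ℝ, ∀ (E : Type) [Field E] [NumberField E],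
    Module.finrank ℚ E ≤ D → ∀ X : ℝ, 1 ≤ X → ∀ M : ℤ, M ≠ 0 → |(M : ℝ)| ≤ X ^ K →
    ∀ S : Finset (𝓞 E), (∀ x ∈ S, x ∣ (M : 𝓞 E) ∧ ∀ φ : E →+* ℂ, ‖φ (x : E)‖ ≤ X ^ K) →
    (S.card : ℝ) ≤ C * X ^ ε := by
  classical
  obtain ⟨R, hR⟩ : ∃ R : ℕ, R = K * D + K * (D + 1) * D := ⟨_, rfl⟩
  obtain ⟨δ, hδ'⟩ : ∃ δ : ℝ, δ = ε / (R + 1) := ⟨_, rfl⟩
  have hδ : 0 < δ := by rw [hδ']; positivity
  obtain ⟨C0, hC01, hC0⟩ := dc_lin δ hδ
  obtain ⟨C1, hC10, hC1⟩ := dc_ideals D δ hδ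
  refine ⟨5 ^ D * C1 * C0 ^ D, fun E _ _ hD X hX M hM hMX S hS => ?_⟩
  have hX0 : 0 < X := by linarith
  have hXK : 1 ≤ X ^ K := one_le_pow₀ hX
  have hM' : (M : 𝓞 E) ≠ 0 := by exact_mod_cast hM
  have h0 : ∀ x ∈ S, x ≠ 0 := fun x hx h => hM' (zero_dvd_iff.1 (h ▸ (hS x hx).1))
  have hbox : ∀ x ∈ S, ∀ φ : E →+* ℂ, ∃ n : ℕ,
      (2 : ℝ) ^ n ≤ ‖emb φ x‖ * (X ^ K) ^ D ∧ ‖emb φ x‖ * (X ^ K) ^ D < 2 ^ (n + 1) := by
    intro x hx φ
    refine exists_nat_pow_near (le_trans (emb_lower x (h0 x hx) _ (hS x hx).2 φ) ?_) one_lt_two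
    exact mul_le_mul_of_nonneg_left (pow_le_pow_right₀ hXK (by omega)) (norm_nonneg _)
  choose! n hn using hbox
  obtain ⟨Y, hY⟩ : ∃ Y, Y = C0 * (X ^ (K * (D + 1))) ^ δ := ⟨_, rfl⟩
  have hY1 : 1 ≤ Y := by
    rw [hY]
    exact one_le_mul_of_one_le_of_one_le hC01 (Real.one_le_rpow (one_le_pow₀ hX) hδ.le)
  have hmap : ∀ x ∈ S, (Ideal.span {x}, n x) ∈ (S.image fun x => Ideal.span {x}) ×ˢ
      Fintype.piFinset fun _ : E →+* ℂ => range ⌊Y⌋₊ := by
    intro x hx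
    refine mem_product.2 ⟨mem_image_of_mem _ hx, Fintype.mem_piFinset.2 fun φ => ?_⟩
    rw [mem_range, Nat.lt_iff_add_one_le, Nat.le_floor_iff (by linarith), hY]
    push_cast
    refine le_trans (hC0 _) ?_
    gcongr
    refine le_trans (hn x hx φ).1 ?_
    rw [pow_mul, pow_succ']
    exact mul_le_mul_of_nonneg_right ((hS x hx).2 φ) (by positivity)
  have h1 := card_le_mul_card_image_of_maps_to hmap (5 ^ D) fun b _ => by
    refine le_trans (dc_fiber _ (fun x hx => h0 x (mem_filter.1 hx).1) (fun x hx y hy => ?_)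
      (fun x hx y hy φ => ?_)) (Nat.pow_le_pow_right (by norm_num) hD)
    · have := (mem_filter.1 hx).2.trans (mem_filter.1 hy).2.symm
      exact (Ideal.span_singleton_eq_span_singleton.1 (congrArg Prod.fst this)).dvd
    · have a1 : n x = n y :=
        congrArg Prod.snd ((mem_filter.1 hx).2.trans (mem_filter.1 hy).2.symm)
      have a2 := (hn x (mem_filter.1 hx).1 φ).1
      have a3 := (hn y (mem_filter.1 hy).1 φ).2
      rw [← a1, pow_succ] at a3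
      refine le_of_mul_le_mul_right ?_ (show 0 < (X ^ K) ^ D by positivity)
      linarith
  rw [card_product, Fintype.card_piFinset, prod_const, card_range, card_univ,
    NumberField.Embeddings.card] at h1
  have hJ : Ideal.span {(M : 𝓞 E)} ≠ 0 := by
    rw [Ne, Ideal.zero_eq_bot, Ideal.span_singleton_eq_bot]; exact hM'
  have h2 := hC1 E hD _ hJ (S.image fun x => Ideal.span {x}) fun I hI => by
    obtain ⟨x, hx, rfl⟩ := mem_image.1 hI
    exact Ideal.dvd_span_singleton.2 (Ideal.mem_span_singleton.2 (hS x hx).1)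
  have h3 : (Ideal.absNorm (Ideal.span {(M : 𝓞 E)}) : ℝ) ≤ X ^ (K * D) := by
    have a1 : Ideal.span {(M : 𝓞 E)} = Ideal.span {((M.natAbs : ℕ) : 𝓞 E)} := by
      rcases Int.natAbs_eq M with h | h
      · conv_lhs => rw [h, Int.cast_natCast]
      · conv_lhs => rw [h, Int.cast_neg, Int.cast_natCast, Ideal.span_singleton_neg]
    rw [a1, Ideal.absNorm_span_natCast, RingOfIntegers.rank, pow_mul]
    push_cast
    rw [Nat.cast_natAbs, Int.cast_abs]
    exact le_trans (pow_le_pow_left₀ (abs_nonneg _) hMX _) (pow_le_pow_right₀ hXK hD)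
  have h4 : ((⌊Y⌋₊ : ℝ)) ^ Module.finrank ℚ E ≤ Y ^ D :=
    le_trans (pow_le_pow_left₀ (Nat.cast_nonneg _) (Nat.floor_le (by linarith)) _)
      (pow_le_pow_right₀ hY1 hD)
  have h5 : (X ^ (K * D)) ^ δ * ((X ^ (K * (D + 1))) ^ δ) ^ D ≤ X ^ ε := by
    rw [Real.rpow_pow_comm (by positivity), ← Real.mul_rpow (by positivity) (by positivity),
      ← pow_mul, ← pow_add, ← hR, ← Real.rpow_natCast, ← Real.rpow_mul hX0.le]
    refine Real.rpow_le_rpow_of_exponent_le hX ?_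
    rw [hδ', ← mul_div_assoc, div_le_iff₀ (by positivity)]
    linarith
  calc (S.card : ℝ) ≤ 5 ^ D * (((S.image fun x => Ideal.span {x}).card : ℝ) *
        (⌊Y⌋₊ : ℝ) ^ Module.finrank ℚ E) := by exact_mod_cast h1
    _ ≤ 5 ^ D * (C1 * (X ^ (K * D)) ^ δ * Y ^ D) := by
        gcongr
        refine le_trans h2 ?_
        gcongr
    _ = 5 ^ D * C1 * C0 ^ D * ((X ^ (K * D)) ^ δ * ((X ^ (K * (D + 1))) ^ δ) ^ D) := by
        rw [hY]; ring
    _ ≤ _ := by gcongr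

/-- divisor bound in `ℤ` -/
theorem int_div_count (K : ℕ) (ε : ℝ) (hε : 0 < ε) : ∃ C : ℝ, ∀ X : ℝ, 1 ≤ X → ∀ M : ℤ, M ≠ 0 →
    |(M : ℝ)| ≤ X ^ K → ∀ S : Finset ℤ, (∀ h ∈ S, h ∣ M) → (S.card : ℝ) ≤ C * X ^ ε := by
  classical
  obtain ⟨C, hC⟩ := div_count 1 K ε hε
  refine ⟨C, fun X hX M hM hMX S hS => ?_⟩
  rw [← card_image_of_injective S (Int.cast_injective (α := 𝓞 ℚ))]
  refine hC ℚ (by simp) X hX M hM hMX _ fun x hx => ?_
  obtain ⟨h, hh, rfl⟩ := mem_image.1 hx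
  refine ⟨Int.cast_dvd_cast _ _ (hS h hh), fun φ => le_trans ?_ hMX⟩
  rw [← emb_apply, map_intCast, Complex.norm_intCast]
  exact_mod_cast Int.le_of_dvd (abs_pos.2 hM) ((abs_dvd_abs _ _).2 (hS h hh))

end Vale.Agent.P018
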