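import Vale.Agent.P018.Q.IntKer
import Vale.Agent.P018.Q.DivCount
import Vale.Agent.P018.Q.AffineAux

namespace Vale.Agent.P018

open Polynomial

/-- a covering of `Z` by at most `B` pieces, each on an affine line avoiding the origin -/
def afCover (B : ℝ) (Z : Finset ℤ) (w0 w1 : ℤ → ℤ) : Prop :=
  ∃ 𝒰 : Finset (Finset ℤ), (𝒰.card : ℝ) ≤ B ∧ (∀ N ∈ Z, ∃ U ∈ 𝒰, N ∈ U) ∧
    ∀ U ∈ 𝒰, U ⊆ Z ∧ ∃ l0 l1 h : ℚ, h ≠ 0 ∧ ∀ N ∈ U, l0 * w0 N + l1 * w1 N = h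

theorem af_fib {A : Type} [DecidableEq A] {B : ℝ} {Z : Finset ℤ} {w0 w1 : ℤ → ℤ} (x : ℤ → A)
    (hB : ((Z.image x).card : ℝ) ≤ B)
    (h : ∀ N0 ∈ Z, ∃ l0 l1 h : ℚ, h ≠ 0 ∧ ∀ N ∈ Z, x N = x N0 → l0 * w0 N + l1 * w1 N = h) :
    afCover B Z w0 w1 := by
  refine ⟨(Z.image x).image (fun v => Z.filter (fun N => x N = v)), le_trans ?_ hB, ?_, ?_⟩
  · exact_mod_cast Finset.card_image_le
  · intro N hN
    exact ⟨_, Finset.mem_image.2 ⟨x N, Finset.mem_image_of_mem x hN, rfl⟩,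
      Finset.mem_filter.2 ⟨hN, rfl⟩⟩
  · intro U hU
    obtain ⟨v, hv, rfl⟩ := Finset.mem_image.1 hU
    obtain ⟨N0, hN0, rfl⟩ := Finset.mem_image.1 hv
    obtain ⟨l0, l1, h', h1, h2⟩ := h N0 hN0
    exact ⟨Finset.filter_subset _ _, l0, l1, h', h1,
      fun N hN => h2 N (Finset.mem_filter.1 hN).1 (Finset.mem_filter.1 hN).2⟩

theorem af_fib0 {B Q : ℝ} {K : ℕ} {Z : Finset ℤ} {w0 w1 : ℤ → ℤ} (hP : Param Q K Z w0 w1)
    (hB : ((Z.image w0).card : ℝ) ≤ B) : afCover B Z w0 w1 := by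
  refine af_fib w0 hB (fun N0 hN0 => ⟨1, 0, w0 N0, ?_, fun N _ h => by rw [h]; ring⟩)
  exact_mod_cast (hP.1 N0 hN0).2.1

theorem af_root_bound {p : ℤ[X]} (hp : p ≠ 0) {H : ℝ} (hH : ∀ i, |(p.coeff i : ℝ)| ≤ H) {z : ℂ}
    (hz : (p.map (Int.castRingHom ℂ)).eval z = 0) : ‖z‖ ≤ H + 1 := by
  have hinj := (Int.castRingHom ℂ).injective_int
  have hP0 : p.map (Int.castRingHom ℂ) ≠ 0 := (Polynomial.map_ne_zero_iff hinj).2 hp
  have h1 := IsRoot.norm_lt_cauchyBound hP0 hz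
  have hH0 : 0 ≤ H := (abs_nonneg _).trans (hH 0)
  lift H to NNReal using hH0
  have h2 : (Finset.range (p.map (Int.castRingHom ℂ)).natDegree).sup
      (fun i => ‖(p.map (Int.castRingHom ℂ)).coeff i‖₊) ≤ H := by
    refine Finset.sup_le (fun i _ => NNReal.coe_le_coe.1 ?_)
    rw [coe_nnnorm, coeff_map, eq_intCast, Complex.norm_intCast]
    exact hH i
  have h3 : 1 ≤ ‖(p.map (Int.castRingHom ℂ)).leadingCoeff‖₊ := by
    refine NNReal.coe_le_coe.1 ?_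
    rw [coe_nnnorm, leadingCoeff_map_of_injective hinj, eq_intCast, Complex.norm_intCast,
      ← Int.cast_abs, NNReal.coe_one]
    exact_mod_cast Int.one_le_abs (leadingCoeff_ne_zero.2 hp)
  have h4 : (p.map (Int.castRingHom ℂ)).cauchyBound ≤ H + 1 := by
    unfold cauchyBound
    refine add_le_add ?_ le_rfl
    exact (div_le_self (by positivity) h3).trans h2
  have h5 := NNReal.coe_le_coe.2 (h1.le.trans h4)
  simpa using h5

open NumberField in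
theorem af_nf (D K K1 : ℕ) (ε : ℝ) (hε : 0 < ε) : ∃ C : ℝ, ∀ Q : ℝ, 2 ≤ Q →
    ∀ (Z : Finset ℤ) (w0 w1 : ℤ → ℤ), Param Q K Z w0 w1 → ∀ (d : ℕ) (p : ℤ[X]) (R : ℤ),
    d ≤ D → d ≠ 0 → p.natDegree ≤ d → p.coeff d ≠ 0 → (∀ i, |(p.coeff i : ℝ)| ≤ Q ^ K1) →
    R ≠ 0 → |(R : ℝ)| ≤ Q ^ K1 → (∀ N ∈ Z, afH d p (w0 N) (w1 N) ∣ R) →
    afCover (C * Q ^ ε) Z w0 w1 := by
  classical
  obtain ⟨C, hC⟩ := div_count D (K1 * D + K1 + (K1 + K1 + 2 + K)) ε hε
  refine ⟨C, fun Q hQ Z w0 w1 hP d p R hdD hd0 hpd hpc hpb hR0 hRb hdvd => ?_⟩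
  have hdeg : p.natDegree = d := le_antisymm hpd (le_natDegree_of_ne_zero hpc)
  have hp0 : p ≠ 0 := by
    rintro rfl
    exact hpc (coeff_zero d)
  have hlc : p.leadingCoeff = p.coeff d := by rw [leadingCoeff, hdeg]
  have hinjQ := (Int.castRingHom ℚ).injective_int
  have hpQ0 : p.map (Int.castRingHom ℚ) ≠ 0 := (Polynomial.map_ne_zero_iff hinjQ).2 hp0
  have hpQd : (p.map (Int.castRingHom ℚ)).natDegree = d := by
    rw [natDegree_map_eq_of_injective hinjQ, hdeg]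
  obtain ⟨ρ, hρ⟩ := IsAlgClosed.exists_aeval_eq_zero ℂ (p.map (Int.castRingHom ℚ)) (by
    intro h
    exact hd0 (hpQd ▸ natDegree_eq_zero_iff_degree_le_zero.2 h.le))
  have hint : IsIntegral ℚ ρ := IsAlgebraic.isIntegral ⟨_, hpQ0, hρ⟩
  set E := IntermediateField.adjoin ℚ {ρ} with hE
  have : FiniteDimensional ℚ E := IntermediateField.adjoin.finiteDimensional hint
  have : NumberField E := {}
  have hrank : Module.finrank ℚ E ≤ D := by
    rw [hE, IntermediateField.adjoin.finrank hint]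
    exact (natDegree_le_natDegree (minpoly.degree_le_of_ne_zero ℚ ρ hpQ0 hρ)).trans
      (hpQd.le.trans hdD)
  set τ : E := IntermediateField.AdjoinSimple.gen ℚ ρ with hτ
  have hτ0 : (p.map (Int.castRingHom E)).eval τ = 0 := by
    apply (algebraMap E ℂ).injective
    rw [map_zero, ← hρ, af_aeval, eval_map, eval_map, hom_eval₂]
    congr 1
  have hτ1 : aeval τ p = 0 := by
    rw [← hτ0, aeval_def, eval_map]
    congr 1
  have hσi : IsIntegral ℤ (p.leadingCoeff • τ) := isIntegral_leadingCoeff_smul p τ hτ1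
  set σ : 𝓞 E := ⟨p.leadingCoeff • τ, hσi⟩ with hσ
  have hσE : (σ : E) = (p.coeff d : E) * τ := by
    change p.leadingCoeff • τ = _
    rw [hlc, zsmul_eq_mul]
  have hcE : (p.coeff d : E) ≠ 0 := by exact_mod_cast hpc
  set x : ℤ → 𝓞 E := fun N => (p.coeff d : 𝓞 E) * (w1 N : 𝓞 E) - (w0 N : 𝓞 E) * σ with hx
  have hxE : ∀ N, ((x N : 𝓞 E) : E) = (p.coeff d : E) * ((w1 N : E) - (w0 N : E) * τ) := by
    intro N
    have : ((x N : 𝓞 E) : E) = (p.coeff d : E) * (w1 N : E) - (w0 N : E) * (σ : E) := by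
      simp [hx]
    rw [this, hσE]
    ring
  have hz : afH d p (p.coeff d : 𝓞 E) σ = 0 := by
    apply RingOfIntegers.coe_injective
    rw [af_map (algebraMap (𝓞 E) E), map_intCast, map_zero, af_field hpd hcE]
    have : algebraMap (𝓞 E) E σ / (p.coeff d : E) = τ := by
      change (σ : E) / _ = τ
      rw [hσE]
      field_simp
    rw [this, hτ0, mul_zero]
  have hM0 : p.coeff d ^ d * R ≠ 0 := mul_ne_zero (pow_ne_zero _ hpc) hR0
  have hxd : ∀ N ∈ Z, x N ∣ ((p.coeff d ^ d * R : ℤ) : 𝓞 E) := by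
    intro N hN
    have h1 := af_sub_dvd d p ((w0 N : 𝓞 E) * (p.coeff d : 𝓞 E))
      ((p.coeff d : 𝓞 E) * (w1 N : 𝓞 E)) ((w0 N : 𝓞 E) * σ)
    rw [af_scale d p (w0 N : 𝓞 E), hz, mul_zero, sub_zero, mul_comm (w0 N : 𝓞 E) (p.coeff d : 𝓞 E),
      af_scale, ← af_cast] at h1
    refine h1.trans ?_
    push_cast
    exact mul_dvd_mul_left _ (Int.cast_dvd_cast _ _ (hdvd N hN))
  have hcard := hC E hrank Q (by linarith) (p.coeff d ^ d * R) hM0 (by
      have h1 : |((p.coeff d ^ d : ℤ) : ℝ)| ≤ Q ^ (K1 * D) := by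
        rw [Int.cast_pow, abs_pow]
        refine (pow_le_pow_left₀ (abs_nonneg _) (hpb d) d).trans ?_
        rw [← pow_mul]
        exact af_mono hQ (Nat.mul_le_mul_left _ hdD)
      exact (af_mul_bound h1 hRb).trans (af_mono hQ (by omega)))
    (Z.image x) (by
      intro v hv
      obtain ⟨N, hN, rfl⟩ := Finset.mem_image.1 hv
      refine ⟨hxd N hN, fun φ => ?_⟩
      obtain ⟨_, _, h0, h1⟩ := hP.1 N hN
      have hroot : (p.map (Int.castRingHom ℂ)).eval (φ τ) = 0 := by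
        have := congrArg φ hτ0
        rw [map_zero, eval_map, hom_eval₂] at this
        rw [← this, eval_map]
        congr 1
        exact RingHom.ext_int _ _
      have hb := af_root_bound hp0 hpb hroot
      rw [hxE, map_mul, map_sub, map_mul, map_intCast, map_intCast, map_intCast, norm_mul,
        Complex.norm_intCast]
      have h2 : ‖(w1 N : ℂ) - (w0 N : ℂ) * φ τ‖ ≤ Q ^ K * (Q ^ K1 + 2) := by
        refine (norm_sub_le _ _).trans ?_
        rw [norm_mul, Complex.norm_intCast, Complex.norm_intCast]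
        have := mul_le_mul h0 hb (norm_nonneg _) (by positivity)
        linarith
      have h3 : Q ^ K1 + 2 ≤ Q ^ (K1 + 2) := by
        have : 1 ≤ Q ^ K1 := one_le_pow₀ (by linarith)
        have h4 : (4 : ℝ) ≤ Q ^ 2 := by nlinarith
        rw [pow_add]
        nlinarith
      have h4 : ‖(w1 N : ℂ) - (w0 N : ℂ) * φ τ‖ ≤ Q ^ K * Q ^ (K1 + 2) :=
        h2.trans (mul_le_mul_of_nonneg_left h3 (by positivity))
      refine (mul_le_mul (hpb d) h4 (norm_nonneg _) (by positivity)).trans ?_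
      rw [← pow_add, ← pow_add]
      exact af_mono hQ (by omega))
  refine af_fib x hcard (fun N0 hN0 => ?_)
  have hx0 : ((x N0 : 𝓞 E) : E) ≠ 0 := by
    intro h
    have h1 : x N0 = 0 := RingOfIntegers.coe_injective (by simpa using h)
    have h2 := hxd N0 hN0
    rw [h1, zero_dvd_iff] at h2
    exact hM0 (by exact_mod_cast h2)
  obtain ⟨lam, hlam⟩ := Module.Projective.exists_dual_ne_zero ℚ hx0
  refine ⟨-lam ((p.coeff d : E) * τ), lam (p.coeff d : E), lam (x N0 : E), hlam,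
    fun N _ hN => ?_⟩
  rw [← hN, hxE]
  have : (p.coeff d : E) * ((w1 N : E) - (w0 N : E) * τ)
      = (w1 N : ℚ) • (p.coeff d : E) - (w0 N : ℚ) • ((p.coeff d : E) * τ) := by
    simp only [Algebra.smul_def, map_intCast]
    ring
  rw [this, map_sub, map_smul, map_smul, smul_eq_mul, smul_eq_mul]
  ring

theorem af_lin (D K K1 : ℕ) (ε : ℝ) (hε : 0 < ε) : ∃ C : ℝ, ∀ Q : ℝ, 2 ≤ Q →
    ∀ (Z : Finset ℤ) (w0 w1 : ℤ → ℤ), Param Q K Z w0 w1 → ∀ (d : ℕ) (p0 p : ℤ[X]) (R : ℤ),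
    d ≤ D → p.natDegree ≤ d → (∀ i, |(p.coeff i : ℝ)| ≤ Q ^ K1) →
    R ≠ 0 → |(R : ℝ)| ≤ Q ^ K1 → (∀ N ∈ Z, afH d p (w0 N) (w1 N) ∣ R ∧
      afH d p0 (w0 N) (w1 N) = afH d p (w0 N) (w1 N) * N) →
    afCover (C * Q ^ ε) Z w0 w1 := by
  obtain ⟨C1, hC1⟩ := af_nf D K K1 ε hε
  obtain ⟨C2, hC2⟩ := int_div_count K1 ε hε
  refine ⟨max (max C1 C2) 1, fun Q hQ Z w0 w1 hP d p0 p R hdD hpd hpb hR0 hRb hdvd => ?_⟩
  have hQε : 1 ≤ Q ^ ε := Real.one_le_rpow (by linarith) hε.le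
  have hm : ∀ {B B' : ℝ}, B ≤ B' → afCover B Z w0 w1 → afCover B' Z w0 w1 := by
    rintro B B' hB ⟨𝒰, h1, h2⟩
    exact ⟨𝒰, h1.trans hB, h2⟩
  by_cases hd0 : d = 0
  · subst hd0
    refine af_fib0 hP ?_
    have h1 : Z.card ≤ 1 := by
      rw [Finset.card_le_one]
      intro N hN N' hN'
      obtain ⟨a1, a2⟩ := hdvd N hN
      obtain ⟨_, a4⟩ := hdvd N' hN'
      simp only [afH, zero_add, Finset.range_one, Finset.sum_singleton, pow_zero, mul_one,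
        Nat.sub_self, Int.cast_id] at a1 a2 a4
      have h0 : p.coeff 0 ≠ 0 := by
        intro h
        rw [h, zero_dvd_iff] at a1
        exact hR0 a1
      exact mul_left_cancel₀ h0 (a2.symm.trans a4)
    have h2 : ((Z.image w0).card : ℝ) ≤ 1 := by
      exact_mod_cast Finset.card_image_le.trans h1
    refine h2.trans ?_
    have h3 : (1 : ℝ) ≤ max (max C1 C2) 1 := le_max_right _ _
    nlinarith
  by_cases hc : p.coeff d = 0
  · refine af_fib0 hP ((hC2 Q (by linarith) R hR0 hRb _ (fun h hh => ?_)).trans ?_)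
    · obtain ⟨N, hN, rfl⟩ := Finset.mem_image.1 hh
      exact (af_dvd_left hc _ _).trans (hdvd N hN).1
    · exact mul_le_mul_of_nonneg_right ((le_max_right _ _).trans (le_max_left _ _)) (by linarith)
  · refine hm ?_ (hC1 Q hQ Z w0 w1 hP d p R hdD hd0 hpd hc hpb hR0 hRb (fun N hN => (hdvd N hN).1))
    exact mul_le_mul_of_nonneg_right ((le_max_left _ _).trans (le_max_left _ _)) (by linarith)

theorem af_line {Q : ℝ} {K : ℕ} {U : Finset ℤ} {w0 w1 : ℤ → ℤ} (hP : Param Q K U w0 w1)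
    {l0 l1 h : ℚ} (hh : h ≠ 0) (hl : ∀ N ∈ U, l0 * w0 N + l1 * w1 N = h) :
    ∃ (t : ℤ → ℤ) (A B : ℚ[X]), Set.InjOn t U ∧ (∀ N ∈ U, |(t N : ℝ)| ≤ Q ^ K) ∧
      A.natDegree ≤ 1 ∧ B.natDegree ≤ 1 ∧ (∀ z : ℂ, aeval z A = 0 → aeval z B ≠ 0) ∧
      ∀ N ∈ U, A.eval (t N : ℚ) = w0 N ∧ B.eval (t N : ℚ) = w1 N := by
  have key : ∀ (t : ℤ → ℤ) (A B : ℚ[X]),
      (∀ N ∈ U, A.eval (t N : ℚ) = w0 N ∧ B.eval (t N : ℚ) = w1 N) → Set.InjOn t U := by
    intro t A B hAB N hN N' hN' e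
    refine hP.2 N hN N' hN' ?_
    have e0 : (w0 N : ℚ) = w0 N' := by rw [← (hAB N hN).1, ← (hAB N' hN').1, e]
    have e1 : (w1 N : ℚ) = w1 N' := by rw [← (hAB N hN).2, ← (hAB N' hN').2, e]
    rw [Int.cast_injective e0, Int.cast_injective e1]
  by_cases h1 : l1 = 0
  · by_cases h0 : l0 = 0
    · have hU : ∀ N, N ∉ U := fun N hN => hh (by rw [← hl N hN, h0, h1]; ring)
      exact ⟨w0, 1, 1, fun N hN => absurd hN (hU N), fun N hN => absurd hN (hU N), by simp,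
        by simp, by simp, fun N hN => absurd hN (hU N)⟩
    · have hAB : ∀ N ∈ U, (C (h / l0)).eval (w1 N : ℚ) = w0 N ∧
          (X : ℚ[X]).eval (w1 N : ℚ) = w1 N := by
        intro N hN
        refine ⟨?_, eval_X⟩
        rw [eval_C, ← hl N hN, h1]
        field_simp
        ring
      refine ⟨w1, C (h / l0), X, key _ _ _ hAB, fun N hN => (hP.1 N hN).2.2.2, by simp, by simp,
        fun z hz => ?_, hAB⟩
      rw [aeval_C, map_eq_zero] at hz
      exact absurd hz (div_ne_zero hh h0)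
  · have hAB : ∀ N ∈ U, (X : ℚ[X]).eval (w0 N : ℚ) = w0 N ∧
        (C (-l0 / l1) * X + C (h / l1) : ℚ[X]).eval (w0 N : ℚ) = w1 N := by
      intro N hN
      refine ⟨eval_X, ?_⟩
      rw [eval_add, eval_mul, eval_C, eval_C, eval_X, ← hl N hN]
      field_simp
      ring
    refine ⟨w0, X, C (-l0 / l1) * X + C (h / l1), key _ _ _ hAB,
      fun N hN => (hP.1 N hN).2.2.1, by simp, natDegree_linear_le, fun z hz => ?_, hAB⟩
    rw [aeval_X] at hz
    rw [map_add, map_mul, aeval_X, hz, mul_zero, zero_add, aeval_C, ne_eq, map_eq_zero]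
    exact div_ne_zero hh h1

theorem af_eval (d : ℕ) (p : ℤ[X]) (A B : ℚ[X]) (s : ℚ) {u v : ℤ} (hA : A.eval s = u)
    (hB : B.eval s = v) {g y : ℤ} (hg : g ≠ 0) (h : afH d p u v = g * y) :
    (C ((g : ℚ)⁻¹) * afH d p A B).eval s = y := by
  have hg' : (g : ℚ) ≠ 0 := by exact_mod_cast hg
  have h1 := af_map (evalRingHom s) d p A B
  simp only [coe_evalRingHom] at h1
  rw [eval_mul, eval_C, h1, hA, hB, ← af_cast, h]
  push_cast
  field_simp

theorem af_cop {ι : Type} [Fintype ι] {d : ℕ} {p : ι → ℤ[X]} (hp : afGood d p) {A B : ℚ[X]}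
    (hAB : ∀ z : ℂ, aeval z A = 0 → aeval z B ≠ 0) {c : ℚ} (hc : c ≠ 0) :
    ∃ cc : ι → ℚ[X], ∑ l, cc l * (C c * afH d (p l) A B) ^ 2 = 1 := by
  refine af_unit _ (fun z => ?_)
  have h1 : ∀ l, aeval z (afH d (p l) A B) = afH d (p l) (aeval z A) (aeval z B) :=
    fun l => af_map (aeval z : ℚ[X] →ₐ[ℚ] ℂ).toRingHom d (p l) A B
  have h2 : ∃ l, afH d (p l) (aeval z A) (aeval z B) ≠ 0 := by
    by_cases hA : aeval z A = 0
    · obtain ⟨l, hl⟩ := hp.2.1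
      refine ⟨l, ?_⟩
      rw [hA, af_zero]
      exact mul_ne_zero (by exact_mod_cast hl) (pow_ne_zero _ (hAB z hA))
    · obtain ⟨l, hl⟩ := hp.2.2 (aeval z B / aeval z A)
      refine ⟨l, ?_⟩
      rw [af_field (hp.1 l) hA]
      exact mul_ne_zero (pow_ne_zero _ hA) hl
  obtain ⟨l, hl⟩ := h2
  refine ⟨l, ?_⟩
  rw [map_pow, map_mul, h1, aeval_C]
  exact pow_ne_zero _ (mul_ne_zero ((_root_.map_ne_zero _).2 hc) hl)

theorem af_fn_dir {E : Type} [Field E] {D : ℕ} {Z : Finset ℤ} {w0 w1 Y : ℤ → ℤ}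
    (h : RatFn E D Z w0 w1 (fun N => (Y N : E))) :
    afDir Bool E D Z w0 w1 (fun N l => if l then Y N else 1) := by
  obtain ⟨num, den, h0, h1, h2, h3⟩ := h
  refine ⟨fun l => if l then num else den, fun e => h0 (congrFun e false), fun l => ?_, ?_⟩
  · cases l
    · exact h2
    · exact h1
  · intro N hN j k
    have := h3 N hN
    cases j <;> cases k <;> simp only [Bool.false_eq_true, if_true, if_false, Int.cast_one]
    · linear_combination -this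
    · linear_combination this

/-- Integer valued rational functions of a rational parameter: up to `X ^ ε` exceptional points and
a splitting into `X ^ ε` pieces, they are polynomials in an integer parameter. -/
theorem affine_reduction (κ : Type) [Fintype κ] (D K : ℕ) (ε : ℝ) (hε : 0 < ε) :
    ∃ C : ℝ, ∀ (E : Type) [Field E] [CharZero E] (X : ℝ), 2 ≤ X →
    ∀ (Z : Finset ℤ) (w0 w1 : ℤ → ℤ) (Y : κ → ℤ → ℤ) (a : ℤ → Fin 4 → ℤ),
    Param X K Z w0 w1 → (∀ N ∈ Z, |(N : ℝ)| ≤ X ^ K) → RatFn E D Z w0 w1 (fun N => (N : E)) →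
    (∀ k, (∀ N ∈ Z, |(Y k N : ℝ)| ≤ X ^ K) ∧ RatFn E D Z w0 w1 (fun N => (Y k N : E))) →
    (∀ N ∈ Z, Finset.univ.gcd (a N) = 1 ∧ ∀ l, |(a N l : ℝ)| ≤ X ^ K) → RatDir E D Z w0 w1 a →
    ∃ (Z0 : Finset ℤ) (𝒯 : Finset (Finset ℤ)), (Z0.card : ℝ) ≤ C * X ^ ε ∧
      (𝒯.card : ℝ) ≤ C * X ^ ε ∧ (∀ N ∈ Z, N ∈ Z0 ∨ ∃ T ∈ 𝒯, N ∈ T) ∧
      ∀ T ∈ 𝒯, T ⊆ Z ∧ ∃ (t : ℤ → ℤ) (qN : ℚ[X]) (qY : κ → ℚ[X]) (qa cc : Fin 4 → ℚ[X]),
        Set.InjOn t T ∧ (∀ N ∈ T, |(t N : ℝ)| ≤ X ^ (K + 1)) ∧ qN.natDegree ≤ D ∧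
        (∀ k, (qY k).natDegree ≤ D) ∧ (∀ l, (qa l).natDegree ≤ D) ∧
        ∑ l, cc l * qa l ^ 2 = 1 ∧
        ∀ N ∈ T, qN.eval (t N : ℚ) = N ∧ (∀ k, (qY k).eval (t N : ℚ) = Y k N) ∧
          ∀ l, (qa l).eval (t N : ℚ) = a N l := by
  classical
  obtain ⟨K1, hK1⟩ := af_vec Bool K D
  obtain ⟨K2, hK2⟩ := af_vec (Fin 4) K D
  set m : ℕ := Fintype.card κ + 1 with hm
  set ε' : ℝ := ε / (m + 2 : ℕ) with hε'
  have hm2 : (0 : ℝ) < (m + 2 : ℕ) := by positivity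
  have hε'0 : 0 < ε' := div_pos hε hm2
  obtain ⟨C1, hC1⟩ := af_lin D K K1 ε' hε'0
  obtain ⟨C2, hC2⟩ := int_div_count K1 ε' hε'0
  obtain ⟨C3, hC3⟩ := int_div_count K2 ε' hε'0
  set C0 : ℝ := max (max C1 C2) (max C3 0) with hC0
  have c1 : C1 ≤ C0 := (le_max_left _ _).trans (le_max_left _ _)
  have c2 : C2 ≤ C0 := (le_max_right _ _).trans (le_max_left _ _)
  have c3 : C3 ≤ C0 := (le_max_left _ _).trans (le_max_right _ _)
  have c0 : 0 ≤ C0 := (le_max_right _ _).trans (le_max_right _ _)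
  refine ⟨C0 ^ (m + 2) + (D + m * D : ℕ), ?_⟩
  intro E _ _ Q hQ Z w0 w1 Y a hP hN hfN hY ha hfa
  have hQε : 1 ≤ Q ^ ε := Real.one_le_rpow (by linarith) hε.le
  have hQε' : 0 ≤ Q ^ ε' := Real.rpow_nonneg (by linarith) _
  set Y' : Option κ → ℤ → ℤ := fun j N => j.elim N (fun k => Y k N) with hY'
  have hYv : ∀ j : Option κ, ∃ (Z0 : Finset ℤ) (d : ℕ) (p : Bool → ℤ[X]) (R : ℤ) (g : ℤ → ℤ),
      Z0.card ≤ D ∧ d ≤ D ∧ afGood d p ∧ (∀ l i, |((p l).coeff i : ℝ)| ≤ Q ^ K1) ∧ R ≠ 0 ∧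
      |(R : ℝ)| ≤ Q ^ K1 ∧ ∀ N ∈ Z \ Z0, g N ∣ R ∧
        ∀ l, afH d (p l) (w0 N) (w1 N) = g N * (if l then Y' j N else 1) := by
    intro j
    refine hK1 E Q hQ Z w0 w1 (fun N l => if l then Y' j N else 1) hP (fun N hNZ l => ?_)
      (fun N _ => ⟨fun l => if l then 0 else 1, by simp⟩) (af_fn_dir ?_)
    · cases l
      · simp only [Bool.false_eq_true, if_false, Int.cast_one, abs_one]
        exact one_le_pow₀ (by linarith)
      · cases j with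
        | none => exact hN N hNZ
        | some k => exact (hY k).1 N hNZ
    · cases j with
      | none => exact hfN
      | some k => exact (hY k).2
  choose Z0 d p R g hZ0 hd hgood hpb hR0 hRb hrel using hYv
  obtain ⟨Za, da, pa, Ra, ga, hZa, hda, hgooda, _, hRa0, hRab, hrela⟩ :=
    hK2 E Q hQ Z w0 w1 a hP (fun N hNZ => (ha N hNZ).2) (fun N hNZ => by
      obtain ⟨u, hu⟩ := Finset.gcd_eq_sum_mul Finset.univ (a N)
      exact ⟨u, by rw [← hu, (ha N hNZ).1]⟩) hfa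
  set Zx : Finset ℤ := Za ∪ Finset.univ.biUnion Z0 with hZx
  set Z' : Finset ℤ := Z \ Zx with hZ'
  have hZ'a : ∀ N ∈ Z', N ∈ Z \ Za := fun N hNZ => by
    simp only [hZ', hZx, Finset.mem_sdiff, Finset.mem_union, not_or] at hNZ ⊢
    exact ⟨hNZ.1, hNZ.2.1⟩
  have hZ'j : ∀ j, ∀ N ∈ Z', N ∈ Z \ Z0 j := fun j N hNZ => by
    simp only [hZ', hZx, Finset.mem_sdiff, Finset.mem_union, not_or, Finset.mem_biUnion] at hNZ ⊢
    exact ⟨hNZ.1, fun h => hNZ.2.2 ⟨j, Finset.mem_univ j, h⟩⟩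
  have hP' : Param Q K Z' w0 w1 := af_param_sub hP Finset.sdiff_subset
  obtain ⟨𝒰, hU1, hU2, hU3⟩ := hC1 Q hQ Z' w0 w1 hP' (d none) (p none true) (p none false)
    (R none) (hd none) ((hgood none).1 false) (hpb none false) (hR0 none) (hRb none)
    (fun N hNZ => by
      obtain ⟨e1, e2⟩ := hrel none N (hZ'j none N hNZ)
      have e3 := e2 false
      have e4 := e2 true
      simp only [Bool.false_eq_true, if_false, if_true, mul_one] at e3 e4
      rw [e3, e4]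
      exact ⟨e1, rfl⟩)
  set Sa : Finset ℤ := Z'.image ga with hSa
  set SY : Finset (Option κ → ℤ) := Fintype.piFinset (fun j => Z'.image (g j)) with hSY
  have hSa1 : (Sa.card : ℝ) ≤ C0 * Q ^ ε' := by
    refine (hC3 Q (by linarith) Ra hRa0 hRab Sa (fun h hh => ?_)).trans
      (mul_le_mul_of_nonneg_right c3 hQε')
    obtain ⟨N, hNZ, rfl⟩ := Finset.mem_image.1 hh
    exact (hrela N (hZ'a N hNZ)).1
  have hSY1 : (SY.card : ℝ) ≤ (C0 * Q ^ ε') ^ m := by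
    rw [hSY, Fintype.card_piFinset, Nat.cast_prod]
    refine (Finset.prod_le_prod (fun j _ => Nat.cast_nonneg _)
      (g := fun _ => C0 * Q ^ ε') (fun j _ => ?_)).trans ?_
    · refine (hC2 Q (by linarith) (R j) (hR0 j) (hRb j) _ (fun h hh => ?_)).trans
        (mul_le_mul_of_nonneg_right c2 hQε')
      obtain ⟨N, hNZ, rfl⟩ := Finset.mem_image.1 hh
      exact (hrel j N (hZ'j j N hNZ)).1
    · rw [Finset.prod_const, Finset.card_univ, Fintype.card_option]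
  have hC0p : 0 ≤ C0 ^ (m + 2) := pow_nonneg c0 _
  refine ⟨Zx, (𝒰 ×ˢ (Sa ×ˢ SY)).image
    (fun v => v.1.filter (fun N => ga N = v.2.1 ∧ ∀ j, g j N = v.2.2 j)), ?_, ?_, ?_, ?_⟩
  · have h1 : Zx.card ≤ D + m * D := by
      refine (Finset.card_union_le _ _).trans (add_le_add hZa ?_)
      refine (Finset.card_biUnion_le_card_mul _ _ D (fun j _ => hZ0 j)).trans ?_
      rw [Finset.card_univ, Fintype.card_option]
    have h2 : (Zx.card : ℝ) ≤ (D + m * D : ℕ) := by exact_mod_cast h1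
    have h3 : (0 : ℝ) ≤ (D + m * D : ℕ) := Nat.cast_nonneg _
    nlinarith
  · have h1 : (((𝒰 ×ˢ (Sa ×ˢ SY)).image
        (fun v => v.1.filter (fun N => ga N = v.2.1 ∧ ∀ j, g j N = v.2.2 j))).card : ℝ)
        ≤ (𝒰.card : ℝ) * ((Sa.card : ℝ) * (SY.card : ℝ)) := by
      have := Finset.card_image_le (s := 𝒰 ×ˢ (Sa ×ˢ SY))
        (f := fun v => v.1.filter (fun N => ga N = v.2.1 ∧ ∀ j, g j N = v.2.2 j))
      rw [Finset.card_product, Finset.card_product] at this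
      exact_mod_cast this
    have h0 : 0 ≤ C0 * Q ^ ε' := mul_nonneg c0 hQε'
    have h2 : (𝒰.card : ℝ) ≤ C0 * Q ^ ε' := hU1.trans (mul_le_mul_of_nonneg_right c1 hQε')
    have h3 := mul_le_mul h2 (mul_le_mul hSa1 hSY1 (Nat.cast_nonneg _) h0)
      (mul_nonneg (Nat.cast_nonneg _) (Nat.cast_nonneg _)) h0
    have h4 : C0 * Q ^ ε' * (C0 * Q ^ ε' * (C0 * Q ^ ε') ^ m) = C0 ^ (m + 2) * Q ^ ε := by
      have : Q ^ ε = (Q ^ ε') ^ (m + 2) := by
        rw [← Real.rpow_mul_natCast (by linarith), hε', div_mul_cancel₀ _ hm2.ne']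
      rw [this]
      ring
    have h5 : (0 : ℝ) ≤ (D + m * D : ℕ) := Nat.cast_nonneg _
    nlinarith
  · intro N hNZ
    by_cases hx : N ∈ Zx
    · exact Or.inl hx
    · right
      have hN' : N ∈ Z' := Finset.mem_sdiff.2 ⟨hNZ, hx⟩
      obtain ⟨U, hU, hNU⟩ := hU2 N hN'
      refine ⟨_, Finset.mem_image.2 ⟨(U, ga N, fun j => g j N), ?_, rfl⟩,
        Finset.mem_filter.2 ⟨hNU, rfl, fun _ => rfl⟩⟩
      refine Finset.mem_product.2 ⟨hU, Finset.mem_product.2 ⟨Finset.mem_image_of_mem _ hN', ?_⟩⟩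
      exact Fintype.mem_piFinset.2 (fun j => Finset.mem_image_of_mem _ hN')
  · intro T hT
    obtain ⟨⟨U, γ, δ⟩, hv, rfl⟩ := Finset.mem_image.1 hT
    obtain ⟨hU, hv2⟩ := Finset.mem_product.1 hv
    obtain ⟨hγ, hδ⟩ := Finset.mem_product.1 hv2
    dsimp only at hU hγ hδ ⊢
    obtain ⟨hUZ, l0, l1, h, hh, hl⟩ := hU3 U hU
    obtain ⟨t, A, B, ht1, ht2, hA, hB, hAB, hev⟩ := af_line (af_param_sub hP' hUZ) hh hl
    have hγ0 : γ ≠ 0 := by
      obtain ⟨N, hNZ, rfl⟩ := Finset.mem_image.1 hγ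
      exact ne_zero_of_dvd_ne_zero hRa0 (hrela N (hZ'a N hNZ)).1
    have hδ0 : ∀ j, δ j ≠ 0 := by
      intro j
      obtain ⟨N, hNZ, e⟩ := Finset.mem_image.1 (Fintype.mem_piFinset.1 hδ j)
      rw [← e]
      exact ne_zero_of_dvd_ne_zero (hR0 j) (hrel j N (hZ'j j N hNZ)).1
    obtain ⟨cc, hcc⟩ := af_cop hgooda hAB (c := (γ : ℚ)⁻¹) (inv_ne_zero (by exact_mod_cast hγ0))
    have hsub : U.filter (fun N => ga N = γ ∧ ∀ j, g j N = δ j) ⊆ U := Finset.filter_subset _ _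
    have hdeg : ∀ (c : ℚ) (e : ℕ) (r : ℤ[X]), e ≤ D → (C c * afH e r A B).natDegree ≤ D :=
      fun c e r he => (natDegree_C_mul_le _ _).trans ((af_natDegree e r hA hB).trans he)
    refine ⟨hsub.trans (hUZ.trans Finset.sdiff_subset), t,
      C ((δ none : ℚ)⁻¹) * afH (d none) (p none true) A B,
      fun k => C ((δ (some k) : ℚ)⁻¹) * afH (d (some k)) (p (some k) true) A B,
      fun l => C ((γ : ℚ)⁻¹) * afH da (pa l) A B, cc, ht1.mono hsub,
      fun N hNT => (ht2 N (hsub hNT)).trans (af_mono hQ (by omega)), hdeg _ _ _ (hd none),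
      fun k => hdeg _ _ _ (hd (some k)), fun l => hdeg _ _ _ hda, hcc, fun N hNT => ?_⟩
    obtain ⟨hNU, e1, e2⟩ := Finset.mem_filter.1 hNT
    obtain ⟨eA, eB⟩ := hev N hNU
    have hj : ∀ j, (C ((δ j : ℚ)⁻¹) * afH (d j) (p j true) A B).eval (t N : ℚ) = Y' j N := by
      intro j
      refine af_eval _ _ A B _ eA eB (hδ0 j) ?_
      rw [← e2 j]
      exact (hrel j N (hZ'j j N (hUZ hNU))).2 true
    refine ⟨hj none, fun k => hj (some k), fun l => af_eval _ _ A B _ eA eB hγ0 ?_⟩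
    rw [← e1]
    exact (hrela N (hZ'a N (hUZ hNU))).2 l

end Vale.Agent.P018
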