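import Vale.Agent.P018.Q.Quartic
import Vale.Agent.P018.Family

namespace Vale.Agent.P018

open Finset

/-- complementary minors of two mutually orthogonal systems -/
theorem mn_exchange {K A B M : Type} [CommRing K] [Fintype A] [DecidableEq A] [Fintype B]
    [DecidableEq B] [Fintype M] (P : A → M → K) (T : B → M → K)
    (h : ∀ a b, ∑ m, P a m * T b m = 0) (e e' : A ⊕ B ≃ M) :
    ((Matrix.of fun a a' => P a (e (Sum.inl a'))).det *
        (Matrix.of fun b' b => T b (e' (Sum.inr b'))).det) ^ 2 =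
      ((Matrix.of fun a a' => P a (e' (Sum.inl a'))).det *
        (Matrix.of fun b' b => T b (e (Sum.inr b'))).det) ^ 2 := by
  let M₁ : Matrix (A ⊕ B) (A ⊕ B) K := Matrix.fromBlocks
    (Matrix.of fun a a' => P a (e (Sum.inl a'))) (Matrix.of fun a b => P a (e (Sum.inr b))) 0 1
  let N : Matrix (A ⊕ B) (A ⊕ B) K := Matrix.fromBlocks 1
    (Matrix.of fun a b => T b (e' (Sum.inl a))) 0 (Matrix.of fun b' b => T b (e' (Sum.inr b')))
  let τ : Equiv.Perm (A ⊕ B) := e.trans e'.symm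
  have a1 : ∀ a x, M₁ (Sum.inl a) x = P a (e x) := by rintro a (x | x) <;> rfl
  have a2 : ∀ b x, M₁ (Sum.inr b) x = if x = Sum.inr b then 1 else 0 := by
    rintro b (x | x) <;> simp [M₁, Matrix.one_apply, eq_comm]
  have a3 : ∀ y a, N y (Sum.inl a) = if y = Sum.inl a then 1 else 0 := by
    rintro (y | y) a <;> simp [N, Matrix.one_apply]
  have a4 : ∀ y b, N y (Sum.inr b) = T b (e' y) := by rintro (y | y) b <;> rfl
  have key : M₁ * N.submatrix τ id = Matrix.fromBlocks
      (Matrix.of fun a a' => P a (e' (Sum.inl a'))) 0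
      (Matrix.of fun b a => N (τ (Sum.inr b)) (Sum.inl a))
      (Matrix.of fun b' b => T b (e (Sum.inr b'))) := by
    ext (x | x) (y | y)
    · simp only [Matrix.mul_apply, Matrix.submatrix_apply, id, a1, a3, Matrix.fromBlocks_apply₁₁,
        Matrix.of_apply]
      rw [sum_eq_single (τ.symm (Sum.inl y))]
      · simp [τ]
      · intro z _ hz
        rw [if_neg fun h' => hz (by rw [← h', Equiv.symm_apply_apply]), mul_zero]
      · simp
    · simp only [Matrix.mul_apply, Matrix.submatrix_apply, id, a1, a4, Matrix.fromBlocks_apply₁₂,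
        Matrix.zero_apply, τ, Equiv.trans_apply, Equiv.apply_symm_apply]
      rw [Equiv.sum_comp e fun m => P x m * T y m]
      exact h x y
    · simp only [Matrix.mul_apply, Matrix.submatrix_apply, id, a2, Matrix.fromBlocks_apply₂₁,
        Matrix.of_apply, ite_mul, one_mul, zero_mul, sum_ite_eq', mem_univ, if_true]
    · simp only [Matrix.mul_apply, Matrix.submatrix_apply, id, a2, a4, Matrix.fromBlocks_apply₂₂,
        Matrix.of_apply, ite_mul, one_mul, zero_mul, sum_ite_eq', mem_univ, if_true, τ,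
        Equiv.trans_apply, Equiv.apply_symm_apply]
  have k2 := congrArg Matrix.det key
  rw [Matrix.det_mul, Matrix.det_permute, Matrix.det_fromBlocks_zero₁₂,
    Matrix.det_fromBlocks_zero₂₁, Matrix.det_fromBlocks_zero₂₁, Matrix.det_one, Matrix.det_one,
    mul_one, one_mul] at k2
  rw [← k2]
  rcases Int.units_eq_one_or (Equiv.Perm.sign τ) with hs | hs <;> rw [hs] <;> simp

/-- determinant of a matrix which is triangular for a weight -/
theorem mn_det_tri {K B : Type} [CommRing K] [Fintype B] [DecidableEq B] (M : Matrix B B K)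
    (w : B → ℕ) (h : ∀ a b, M a b ≠ 0 → a = b ∨ w a < w b) : M.det = ∏ a, M a a := by
  rw [Matrix.det_apply, sum_eq_single 1]
  · simp
  · intro σ _ hσ
    obtain ⟨a, ha⟩ : ∃ a, M (σ a) a = 0 := by
      by_contra hne
      have h1 : ∀ a, σ a = a ∨ w (σ a) < w a := fun a => h _ _ fun h0 => hne ⟨a, h0⟩
      obtain ⟨a, ha⟩ : ∃ a, σ a ≠ a := by
        by_contra h2
        exact hσ (Equiv.ext fun a => by_contra fun h3 => h2 ⟨a, h3⟩)
      have h3 : ∑ a, w (σ a) < ∑ a, w a := by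
        refine sum_lt_sum (fun b _ => ?_) ⟨a, mem_univ a, (h1 a).resolve_left ha⟩
        rcases h1 b with h4 | h4
        · rw [h4]
        · exact h4.le
      rw [Equiv.sum_comp σ w] at h3
      exact lt_irrefl _ h3
    rw [prod_eq_zero (f := fun i => M (σ i) i) (mem_univ a) ha, smul_zero]
  · simp

/-- exponent vector of a product of four variables -/
def mnJ (s : (Fin 4 × Fin 4) × (Fin 4 × Fin 4)) : Fin 4 → ℕ := fun t =>
  (if s.1.1 = t then 1 else 0) + (if s.1.2 = t then 1 else 0) +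
    (if s.2.1 = t then 1 else 0) + (if s.2.2 = t then 1 else 0)

theorem mnJ_sum (s : (Fin 4 × Fin 4) × (Fin 4 × Fin 4)) : ∑ t, mnJ s t = 4 := by
  simp [mnJ, sum_add_distrib]

theorem mnJ_prod {K : Type} [CommRing K] (β : Fin 4 → K)
    (s : (Fin 4 × Fin 4) × (Fin 4 × Fin 4)) :
    ∏ t, β t ^ mnJ s t = β s.1.1 * β s.1.2 * (β s.2.1 * β s.2.2) := by
  simp only [mnJ, pow_add, prod_mul_distrib]
  simp [mul_assoc]

theorem mnJ_key : ∀ i j a b c d : Fin 4, i ≠ j → a ≠ b → c ≠ d →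
    mnJ ((a, b), (c, d)) i + mnJ ((a, b), (c, d)) j ≤ 3 ∨
      (((a, b) = (i, j) ∨ (a, b) = (j, i)) ∧ ((c, d) = (i, j) ∨ (c, d) = (j, i))) := by
  decide +kernel

theorem mnJ_self : ∀ i j : Fin 4, i ≠ j → mnJ ((i, j), (i, j)) i = 2 ∧ mnJ ((i, j), (i, j)) j = 2 ∧
    ∀ t, t ≠ i → t ≠ j → mnJ ((i, j), (i, j)) t = 0 := by
  decide

theorem mnJ_eq {i j : Fin 4} {s : (Fin 4 × Fin 4) × (Fin 4 × Fin 4)}
    (h1 : s.1 = (i, j) ∨ s.1 = (j, i)) (h2 : s.2 = (i, j) ∨ s.2 = (j, i)) :
    mnJ s = mnJ ((i, j), (i, j)) := by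
  funext t
  rcases h1 with h1 | h1 <;> rcases h2 with h2 | h2 <;> simp only [mnJ, h1, h2] <;> omega

/-- monomials of a given degree -/
abbrev MnMon (b : ℕ) : Type := {I // I ∈ piAntidiag (univ : Finset (Fin 4)) b}

theorem mn_mem {b : ℕ} {I : Fin 4 → ℕ} :
    I ∈ piAntidiag (univ : Finset (Fin 4)) b ↔ ∑ t, I t = b := by
  simp

theorem mn_add_mem {b : ℕ} (hb : 4 ≤ b) (m : MnMon (b - 4))
    (s : (Fin 4 × Fin 4) × (Fin 4 × Fin 4)) :
    m.1 + mnJ s ∈ piAntidiag (univ : Finset (Fin 4)) b := by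
  have h1 := mn_mem.1 m.2
  rw [mn_mem]
  simp only [Pi.add_apply, sum_add_distrib, mnJ_sum]
  omega

theorem mn_split {b : ℕ} (hb : 4 ≤ b) {i j : Fin 4} (hij : i ≠ j) {A : Type}
    (e : A ≃ stdI b i j) : ∃ E : A ⊕ MnMon (b - 4) ≃ MnMon b,
      (∀ a, (E (Sum.inl a)).1 = (e a).1) ∧
        ∀ m, (E (Sum.inr m)).1 = m.1 + mnJ ((i, j), (i, j)) := by
  obtain ⟨s1, s2, s3⟩ := mnJ_self i j hij
  let f : A ⊕ MnMon (b - 4) → MnMon b := Sum.elim (fun a => ⟨(e a).1, (mem_filter.1 (e a).2).1⟩)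
    fun m => ⟨m.1 + mnJ ((i, j), (i, j)), mn_add_mem hb m _⟩
  have hne : ∀ a m, f (Sum.inl a) ≠ f (Sum.inr m) := by
    intro a m h
    have h1 : (e a).1 = m.1 + mnJ ((i, j), (i, j)) := congrArg Subtype.val h
    have h2 := (mem_filter.1 (e a).2).2
    rw [h1, Pi.add_apply, Pi.add_apply, s1, s2] at h2
    omega
  refine ⟨Equiv.ofBijective f ⟨?_, ?_⟩, fun _ => rfl, fun _ => rfl⟩
  · rintro (a | m) (a' | m') h
    · have h1 : (e a).1 = (e a').1 := congrArg (fun I : MnMon b => I.1) h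
      rw [e.injective (Subtype.ext h1)]
    · exact absurd h (hne a m')
    · exact absurd h.symm (hne a' m)
    · have h1 : m.1 + mnJ ((i, j), (i, j)) = m'.1 + mnJ ((i, j), (i, j)) := congrArg Subtype.val h
      rw [Subtype.ext (add_right_cancel h1)]
  · intro I
    by_cases hI : I.1 i ≤ 1 ∨ I.1 j ≤ 1
    · refine ⟨Sum.inl (e.symm ⟨I.1, mem_filter.2 ⟨I.2, hI⟩⟩), Subtype.ext ?_⟩
      simp [f]
    · have h1 : ∀ t, I.1 t - mnJ ((i, j), (i, j)) t + mnJ ((i, j), (i, j)) t = I.1 t := by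
        intro t
        refine Nat.sub_add_cancel ?_
        by_cases h2 : t = i
        · rw [h2, s1]
          omega
        · by_cases h3 : t = j
          · rw [h3, s2]
            omega
          · rw [s3 t h2 h3]
            omega
      have h2 : ∑ t, (I.1 t - mnJ ((i, j), (i, j)) t) = b - 4 := by
        have h3 := mn_mem.1 I.2
        rw [← sum_congr rfl fun t _ => h1 t, sum_add_distrib, mnJ_sum] at h3
        omega
      exact ⟨Sum.inr ⟨fun t => I.1 t - mnJ ((i, j), (i, j)) t, mn_mem.2 h2⟩,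
        Subtype.ext (funext h1)⟩

variable {K : Type} [CommRing K]

/-- coefficients of the multiples of the quartic form -/
def mnT (t : (Fin 4 × Fin 4) × (Fin 4 × Fin 4) → K) (m I : Fin 4 → ℕ) : K :=
  ∑ s, if I = m + mnJ s then t s else 0

/-- the coefficient at a vertex -/
def mnLead (t : (Fin 4 × Fin 4) × (Fin 4 × Fin 4) → K) (i j : Fin 4) : K :=
  t ((i, j), (i, j)) + t ((i, j), (j, i)) + (t ((j, i), (i, j)) + t ((j, i), (j, i)))

theorem mn_det (t : (Fin 4 × Fin 4) × (Fin 4 × Fin 4) → K)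
    (ht : ∀ s, s.1.1 = s.1.2 ∨ s.2.1 = s.2.2 → t s = 0) {b : ℕ} (hb : 4 ≤ b) {i j : Fin 4}
    (hij : i ≠ j) :
    (Matrix.of fun m' m : MnMon (b - 4) => mnT t m.1 (m'.1 + mnJ ((i, j), (i, j)))).det =
      mnLead t i j ^ (b - 1).choose 3 := by
  obtain ⟨s1, s2, -⟩ := mnJ_self i j hij
  have hkey : ∀ s, t s ≠ 0 → mnJ s i + mnJ s j ≤ 3 ∨
      ((s.1 = (i, j) ∨ s.1 = (j, i)) ∧ (s.2 = (i, j) ∨ s.2 = (j, i))) := fun s hs =>
    mnJ_key i j s.1.1 s.1.2 s.2.1 s.2.2 hij (fun h => hs (ht s (Or.inl h)))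
      fun h => hs (ht s (Or.inr h))
  have hdiag : ∀ m : Fin 4 → ℕ, mnT t m (m + mnJ ((i, j), (i, j))) = mnLead t i j := by
    intro m
    have hne : ((i, j) : Fin 4 × Fin 4) ≠ (j, i) := fun h => hij (congrArg Prod.fst h)
    rw [mnT, ← sum_subset (subset_univ (({(i, j), (j, i)} : Finset (Fin 4 × Fin 4)) ×ˢ
      ({(i, j), (j, i)} : Finset (Fin 4 × Fin 4))))]
    · rw [sum_congr rfl (g := t), sum_product, sum_pair hne, sum_pair hne, sum_pair hne, mnLead]
      intro s hs
      simp only [mem_product, mem_insert, mem_singleton] at hs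
      rw [mnJ_eq hs.1 hs.2, if_pos rfl]
    · intro s _ hs
      split_ifs with h1
      · by_contra h2
        rcases hkey s h2 with h3 | h3
        · rw [← add_left_cancel h1, s1, s2] at h3
          omega
        · exact hs (by simpa only [mem_product, mem_insert, mem_singleton] using h3)
      · rfl
  rw [mn_det_tri _ fun m => m.1 i + m.1 j]
  · simp only [Matrix.of_apply, hdiag, prod_const, card_univ, Fintype.card_coe,
      fam_card_piAntidiag, Fintype.card_fin]
    congr 1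
    rw [← Nat.choose_symm (by omega)]
    congr 1 <;> omega
  · intro m' m h
    rw [Matrix.of_apply, mnT] at h
    obtain ⟨s, -, hs⟩ := exists_ne_zero_of_sum_ne_zero h
    split_ifs at hs with h1
    · rcases hkey s hs with h2 | h2
      · have h3 := congrFun h1 i
        have h4 := congrFun h1 j
        simp only [Pi.add_apply, s1, s2] at h3 h4
        right
        omega
      · rw [mnJ_eq h2.1 h2.2] at h1
        exact Or.inl (Subtype.ext (add_right_cancel h1))
    · exact absurd rfl hs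

theorem mn_core (t : (Fin 4 × Fin 4) × (Fin 4 × Fin 4) → K)
    (ht : ∀ s, s.1.1 = s.1.2 ∨ s.2.1 = s.2.2 → t s = 0) {b : ℕ} (hb : 4 ≤ b) {A : Type}
    [Fintype A] [DecidableEq A] (β : A → Fin 4 → K)
    (hβ : ∀ r, ∑ s, t s * (β r s.1.1 * β r s.1.2 * (β r s.2.1 * β r s.2.2)) = 0)
    {i j k l : Fin 4} (hij : i ≠ j) (hkl : k ≠ l) (e : A ≃ stdI b i j) (e' : A ≃ stdI b k l) :
    ((Matrix.of fun r s => ∏ m, β r m ^ (e s : Fin 4 → ℕ) m).det *
        mnLead t k l ^ (b - 1).choose 3) ^ 2 =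
      ((Matrix.of fun r s => ∏ m, β r m ^ (e' s : Fin 4 → ℕ) m).det *
        mnLead t i j ^ (b - 1).choose 3) ^ 2 := by
  obtain ⟨E, E1, E2⟩ := mn_split hb hij e
  obtain ⟨E', E1', E2'⟩ := mn_split hb hkl e'
  have h := mn_exchange (fun r (I : MnMon b) => ∏ m, β r m ^ I.1 m)
    (fun (m : MnMon (b - 4)) (I : MnMon b) => mnT t m.1 I.1) (fun r m => by
      simp only [mnT, mul_sum]
      have h0 : ∑ s, (∏ n, β r n ^ m.1 n) *
          (t s * (β r s.1.1 * β r s.1.2 * (β r s.2.1 * β r s.2.2))) = 0 := by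
        rw [← mul_sum, hβ r, mul_zero]
      rw [sum_comm]
      refine Eq.trans (sum_congr rfl fun s _ => ?_) h0
      rw [sum_eq_single ⟨m.1 + mnJ s, mn_add_mem hb m s⟩]
      · rw [if_pos rfl, ← mnJ_prod]
        simp only [Pi.add_apply, pow_add, prod_mul_distrib]
        ring
      · intro I _ hI
        rw [if_neg fun h => hI (Subtype.ext h), mul_zero]
      · simp) E E'
  simp only [E1, E2, E1', E2'] at h
  rwa [mn_det t ht hb hij, mn_det t ht hb hkl] at h

end Vale.Agent.P018
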