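import Vale.Agent.P018.Q.Quartic
import Vale.Agent.P018.Q.MinorsAux

namespace Vale.Agent.P018

open Polynomial

theorem mn_res {K : Type} [Field K] {a0 a1 a2 b0 b1 b2 u v : K} (huv : u ≠ 0 ∨ v ≠ 0)
    (hf : a0 * u ^ 2 + a1 * (u * v) + a2 * v ^ 2 = 0)
    (hg : b0 * u ^ 2 + b1 * (u * v) + b2 * v ^ 2 = 0) :
    (a0 * b2 - a2 * b0) * (a0 * b2 - a2 * b0) - (a0 * b1 - a1 * b0) * (a1 * b2 - a2 * b1) = 0 := by
  have h1 : v * ((a0 * b1 - a1 * b0) * u + (a0 * b2 - a2 * b0) * v) = 0 := by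
    linear_combination a0 * hg - b0 * hf
  have h2 : u * ((a0 * b2 - a2 * b0) * u + (a1 * b2 - a2 * b1) * v) = 0 := by
    linear_combination b2 * hf - a2 * hg
  have h3 : (a0 * b1 - a1 * b0) * u ^ 2 - (a1 * b2 - a2 * b1) * v ^ 2 = 0 := by
    linear_combination b1 * hf - a1 * hg
  generalize a0 * b1 - a1 * b0 = p at *
  generalize a0 * b2 - a2 * b0 = q at *
  generalize a1 * b2 - a2 * b1 = r at *
  rcases huv with h | h
  · refine (mul_eq_zero.1 ?_).resolve_right (pow_ne_zero 3 h)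
    linear_combination (q * u - r * v) * h2 - r * u * h3
  · refine (mul_eq_zero.1 ?_).resolve_right (pow_ne_zero 3 h)
    linear_combination (q * v - p * u) * h1 + p * v * h3

/-- an alternating bilinear expression -/
def mnForm {K : Type} [Field K] (θ f g : Fin 4 → K) (p : Fin 4 × Fin 4) : K :=
  θ p.2 * (f p.1 * g p.2 - g p.1 * f p.2)

theorem mnForm_sum {K : Type} [Field K] (θ f g β : Fin 4 → K) :
    ∑ p : Fin 4 × Fin 4, mnForm θ f g p * (β p.1 * β p.2) =
      (∑ m, f m * β m) * (∑ m, θ m * g m * β m) - (∑ m, g m * β m) * ∑ m, θ m * f m * β m := by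
  rw [Finset.sum_mul_sum, Finset.sum_mul_sum, Fintype.sum_prod_type, ← Finset.sum_sub_distrib]
  refine Finset.sum_congr rfl fun a _ => ?_
  rw [← Finset.sum_sub_distrib]
  refine Finset.sum_congr rfl fun b _ => ?_
  simp only [mnForm]
  ring

theorem mn_nodal {K : Type} [Field K] (θ : Fin 4 → K) (hθ : Function.Injective θ) (n : ℕ)
    (hn : n < 3) : ∑ m, (∏ k ∈ Finset.univ.erase m, (θ m - θ k))⁻¹ * θ m ^ n = 0 := by
  have h := Lagrange.coeff_eq_sum (s := Finset.univ) (v := θ) hθ.injOn (P := X ^ n) (by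
    rw [degree_X_pow, Finset.card_univ, Fintype.card_fin]
    exact_mod_cast (by omega : n < 4))
  rw [coeff_X_pow, if_neg (by simp; omega)] at h
  rw [h]
  refine Finset.sum_congr rfl fun m _ => ?_
  rw [eval_pow, eval_X, div_eq_inv_mul]

/-- Comparison of the minors attached to two vertices of the quartic relation. -/
theorem minors_compare {K : Type} [Field K] [CharZero K] (x y θ : Fin 4 → K)
    (hθ : Function.Injective θ) (b : ℕ) (hb : 4 ≤ b) (β : Fin (2 * b ^ 2 + 2) → Fin 4 → K)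
    (hβ : ∀ r, ∃ u v n0 n1 : K, (u ≠ 0 ∨ v ≠ 0) ∧
      ∀ i, (u * x i + v * y i) ^ 2 * β r i = n0 - θ i * n1)
    (i j k l : Fin 4) (hij : i ≠ j) (hkl : k ≠ l)
    (e : Fin (2 * b ^ 2 + 2) ≃ stdI b i j) (e' : Fin (2 * b ^ 2 + 2) ≃ stdI b k l) :
    ((Matrix.of fun r s => ∏ m, β r m ^ (e s : Fin 4 → ℕ) m).det *
        (((θ l - θ k) * (∏ m ∈ Finset.univ.erase i, (θ i - θ m)) *
            ∏ m ∈ Finset.univ.erase j, (θ j - θ m)) ^ 2 *
          (x k * y l - x l * y k) ^ 4) ^ (b - 1).choose 3) ^ 2 =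
      ((Matrix.of fun r s => ∏ m, β r m ^ (e' s : Fin 4 → ℕ) m).det *
        (((θ j - θ i) * (∏ m ∈ Finset.univ.erase k, (θ k - θ m)) *
            ∏ m ∈ Finset.univ.erase l, (θ l - θ m)) ^ 2 *
          (x i * y j - x j * y i) ^ 4) ^ (b - 1).choose 3) ^ 2 := by
  obtain ⟨D, hD⟩ : ∃ D : Fin 4 → K, ∀ m, D m = ∏ n ∈ Finset.univ.erase m, (θ m - θ n) :=
    ⟨_, fun _ => rfl⟩
  have hD0 : ∀ m, D m ≠ 0 := fun m => by
    rw [hD]
    exact Finset.prod_ne_zero_iff.2 fun n hn =>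
      sub_ne_zero.2 fun h => Finset.ne_of_mem_erase hn (hθ h).symm
  have hn := mn_nodal θ hθ
  simp only [← hD] at hn ⊢
  let f0 : Fin 4 → K := fun m => (D m)⁻¹ * x m ^ 2
  let f1 : Fin 4 → K := fun m => (D m)⁻¹ * (2 * x m * y m)
  let f2 : Fin 4 → K := fun m => (D m)⁻¹ * y m ^ 2
  let t : (Fin 4 × Fin 4) × (Fin 4 × Fin 4) → K := fun s =>
    mnForm θ f0 f2 s.1 * mnForm θ f0 f2 s.2 - mnForm θ f0 f1 s.1 * mnForm θ f1 f2 s.2
  have hlead : ∀ i j, mnLead t i j =
      ((θ j - θ i) * (D i)⁻¹ * (D j)⁻¹) ^ 2 * (x i * y j - x j * y i) ^ 4 := by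
    intro i j
    simp only [mnLead, t, mnForm, f0, f1, f2]
    ring
  have h := mn_core t (fun s hs => by
      rcases hs with hs | hs <;> simp only [t, mnForm, hs] <;> ring) hb β (fun r => by
      obtain ⟨u, v, n0, n1, huv, hr⟩ := hβ r
      have e1 : ∑ s, t s * (β r s.1.1 * β r s.1.2 * (β r s.2.1 * β r s.2.2)) =
          (∑ p : Fin 4 × Fin 4, mnForm θ f0 f2 p * (β r p.1 * β r p.2)) *
            (∑ p : Fin 4 × Fin 4, mnForm θ f0 f2 p * (β r p.1 * β r p.2)) -
          (∑ p : Fin 4 × Fin 4, mnForm θ f0 f1 p * (β r p.1 * β r p.2)) *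
            ∑ p : Fin 4 × Fin 4, mnForm θ f1 f2 p * (β r p.1 * β r p.2) := by
        rw [Finset.sum_mul_sum, Finset.sum_mul_sum, Fintype.sum_prod_type,
          ← Finset.sum_sub_distrib]
        refine Finset.sum_congr rfl fun p _ => ?_
        rw [← Finset.sum_sub_distrib]
        refine Finset.sum_congr rfl fun q _ => ?_
        simp only [t]
        ring
      rw [e1, mnForm_sum, mnForm_sum, mnForm_sum]
      have z1 : ∑ m, (n0 * ((D m)⁻¹ * θ m ^ 0) - n1 * ((D m)⁻¹ * θ m ^ 1)) = 0 := by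
        rw [Finset.sum_sub_distrib, ← Finset.mul_sum, ← Finset.mul_sum, hn 0 (by norm_num),
          hn 1 (by norm_num), mul_zero, mul_zero, sub_self]
      have z2 : ∑ m, (n0 * ((D m)⁻¹ * θ m ^ 1) - n1 * ((D m)⁻¹ * θ m ^ 2)) = 0 := by
        rw [Finset.sum_sub_distrib, ← Finset.mul_sum, ← Finset.mul_sum, hn 1 (by norm_num),
          hn 2 (by norm_num), mul_zero, mul_zero, sub_self]
      refine mn_res huv ?_ ?_
      · rw [Finset.sum_mul, Finset.sum_mul, Finset.sum_mul, ← Finset.sum_add_distrib,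
          ← Finset.sum_add_distrib]
        refine Eq.trans (Finset.sum_congr rfl fun m _ => ?_) z1
        simp only [f0, f1, f2]
        linear_combination (D m)⁻¹ * hr m
      · rw [Finset.sum_mul, Finset.sum_mul, Finset.sum_mul, ← Finset.sum_add_distrib,
          ← Finset.sum_add_distrib]
        refine Eq.trans (Finset.sum_congr rfl fun m _ => ?_) z2
        simp only [f0, f1, f2]
        linear_combination (D m)⁻¹ * θ m * hr m) hij hkl e e'
  have g1 : ((θ l - θ k) * D i * D j) ^ 2 * (x k * y l - x l * y k) ^ 4 =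
      mnLead t k l * (D i * D j * D k * D l) ^ 2 := by
    rw [hlead]
    have := hD0 k
    have := hD0 l
    field_simp
  have g2 : ((θ j - θ i) * D k * D l) ^ 2 * (x i * y j - x j * y i) ^ 4 =
      mnLead t i j * (D i * D j * D k * D l) ^ 2 := by
    rw [hlead]
    have := hD0 i
    have := hD0 j
    field_simp
  rw [g1, g2, mul_pow (mnLead t k l), mul_pow (mnLead t i j), ← mul_assoc, ← mul_assoc,
    mul_pow _ _ 2, h, ← mul_pow]

end Vale.Agent.P018
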