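import Vale.Agent.P018.Q.Defs

namespace Vale.Agent.P018

open NumberField Polynomial

variable {F : Type} [Field F] [NumberField F]

theorem mul_exists_pow (c : Ctx F) (n : ℕ) : ∃ e : Fin 4 → ℤ, ∀ i, c.cj e i = c.ϑ i ^ n := by
  have hg1 : c.g ≠ 1 := by
    intro h
    have := c.hdeg
    rw [h, natDegree_one] at this
    omega
  have hlt : (X ^ n %ₘ c.g).natDegree < 4 := c.hdeg ▸ natDegree_modByMonic_lt _ c.hmon hg1
  refine ⟨fun l => (X ^ n %ₘ c.g).coeff l, fun i => ?_⟩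
  have h1 := aeval_modByMonic_eq_self_of_root (p := X ^ n) (c.hroot i)
  rw [aeval_eq_sum_range' hlt, map_pow, aeval_X, ← Fin.sum_univ_eq_sum_range
    (fun l => (X ^ n %ₘ c.g).coeff l • c.ϑ i ^ l)] at h1
  rw [← h1, Ctx.cj, pv]
  simp only [zsmul_eq_mul]

/-- multiplication table -/
theorem Ctx.exists_mul (c : Ctx F) : ∃ (μ : (Fin 4 → ℤ) →ₗ[ℤ] (Fin 4 → ℤ) →ₗ[ℤ] (Fin 4 → ℤ))
    (C : ℝ), 1 ≤ C ∧ (∀ a b i, c.cj (μ a b) i = c.cj a i * c.cj b i) ∧
    ∀ (a b : Fin 4 → ℤ) (A B : ℝ), (∀ l, |(a l : ℝ)| ≤ A) → (∀ l, |(b l : ℝ)| ≤ B) →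
      ∀ l, |(μ a b l : ℝ)| ≤ C * A * B := by
  choose e he using mul_exists_pow c
  let μ : (Fin 4 → ℤ) →ₗ[ℤ] (Fin 4 → ℤ) →ₗ[ℤ] (Fin 4 → ℤ) :=
    LinearMap.mk₂ ℤ (fun a b m => ∑ k : Fin 4, ∑ l : Fin 4, a k * b l * e (k + l) m)
      (fun a a' b => by funext m; simp only [Pi.add_apply, add_mul, Finset.sum_add_distrib])
      (fun r a b => by
        funext m; simp only [Pi.smul_apply, smul_eq_mul, Finset.mul_sum, mul_assoc])
      (fun a b b' => by
        funext m; simp only [Pi.add_apply, mul_add, add_mul, Finset.sum_add_distrib])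
      (fun r a b => by
        funext m; simp only [Pi.smul_apply, smul_eq_mul, Finset.mul_sum, mul_assoc, mul_left_comm])
  have hμ : ∀ a b m, μ a b m = ∑ k : Fin 4, ∑ l : Fin 4, a k * b l * e (k + l) m :=
    fun _ _ _ => rfl
  have hS : ∀ m, ∑ k : Fin 4, ∑ l : Fin 4, |(e (k + l) m : ℝ)| ≤
      ∑ m, ∑ k : Fin 4, ∑ l : Fin 4, |(e (k + l) m : ℝ)| := fun m =>
    Finset.single_le_sum (f := fun m => ∑ k : Fin 4, ∑ l : Fin 4, |(e (k + l) m : ℝ)|)
      (fun _ _ => by positivity) (Finset.mem_univ m)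
  refine ⟨μ, 1 + ∑ m, ∑ k : Fin 4, ∑ l : Fin 4, |(e (k + l) m : ℝ)|,
    le_add_of_nonneg_right (by positivity), fun a b i => ?_, fun a b A B ha hb m => ?_⟩
  · have h1 : ∀ k l : Fin 4, ∑ m : Fin 4, (e (k + l) m : 𝓞 F) * c.ϑ i ^ (m : ℕ)
        = c.ϑ i ^ (k : ℕ) * c.ϑ i ^ (l : ℕ) := fun k l => by
      rw [← pow_add, ← he]; rfl
    simp only [Ctx.cj, pv, hμ]
    push_cast
    rw [Finset.sum_mul_sum]
    simp only [Finset.sum_mul]
    rw [Finset.sum_comm]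
    refine Finset.sum_congr rfl fun k _ => ?_
    rw [Finset.sum_comm]
    refine Finset.sum_congr rfl fun l _ => ?_
    simp only [mul_assoc, ← Finset.mul_sum, h1]
    ring
  · have hA : 0 ≤ A := (abs_nonneg _).trans (ha 0)
    have hB : 0 ≤ B := (abs_nonneg _).trans (hb 0)
    rw [hμ]
    push_cast
    calc |∑ k : Fin 4, ∑ l : Fin 4, (a k : ℝ) * b l * e (k + l) m|
        ≤ ∑ k : Fin 4, ∑ l : Fin 4, A * B * |(e (k + l) m : ℝ)| := by
          refine (Finset.abs_sum_le_sum_abs _ _).trans (Finset.sum_le_sum fun k _ => ?_)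
          refine (Finset.abs_sum_le_sum_abs _ _).trans (Finset.sum_le_sum fun l _ => ?_)
          rw [abs_mul, abs_mul]
          gcongr
          exacts [ha k, hb l]
      _ = A * B * ∑ k : Fin 4, ∑ l : Fin 4, |(e (k + l) m : ℝ)| := by
          simp only [Finset.mul_sum]
      _ ≤ A * B * (1 + ∑ m, ∑ k : Fin 4, ∑ l : Fin 4, |(e (k + l) m : ℝ)|) := by
          gcongr
          linarith [hS m]
      _ = _ := by ring

theorem mul_cj_single (c : Ctx F) (l : Fin 4) (n : ℤ) (i : Fin 4) :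
    c.cj (Pi.single l n) i = (n : 𝓞 F) * c.ϑ i ^ (l : ℕ) := by
  rw [Ctx.cj, pv, Finset.sum_eq_single l]
  · simp
  · intro k _ hk; simp [hk]
  · simp

/-- the norm is a rational integer, and there is an adjoint element -/
theorem Ctx.exists_norm (c : Ctx F) (a : Fin 4 → ℤ) : ∃ (n : ℤ) (a' : Fin 4 → ℤ),
    ∏ i, c.cj a i = (n : 𝓞 F) ∧ ∀ i, c.cj a i * c.cj a' i = (n : 𝓞 F) := by
  obtain ⟨μ, C, -, hμ, -⟩ := c.exists_mul
  let A : Matrix (Fin 4) (Fin 4) ℤ := LinearMap.toMatrix' (μ a)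
  have hA : ∀ x, A.mulVec x = μ a x := fun x => by
    rw [← Matrix.toLin'_apply, Matrix.toLin'_toMatrix']
  have hV : Matrix.vandermonde c.ϑ * (Int.castRingHom (𝓞 F)).mapMatrix A
      = Matrix.diagonal (c.cj a) * Matrix.vandermonde c.ϑ := by
    ext1 i l
    have h1 := hμ a (Pi.single l 1) i
    rw [mul_cj_single, Int.cast_one, one_mul, ← hA, Matrix.mulVec_single_one] at h1
    rw [Matrix.diagonal_mul, Matrix.vandermonde_apply, ← h1, Matrix.mul_apply, Ctx.cj, pv]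
    refine Finset.sum_congr rfl fun m _ => ?_
    simp [mul_comm]
  have hd := congrArg Matrix.det hV
  rw [Matrix.det_mul, Matrix.det_mul, Matrix.det_diagonal, ← RingHom.map_det, mul_comm] at hd
  have h0 : (Matrix.vandermonde c.ϑ).det ≠ 0 := Matrix.det_vandermonde_ne_zero_iff.mpr c.hinj
  refine ⟨A.det, A.adjugate.mulVec (Pi.single 0 1), (mul_right_cancel₀ h0 hd).symm, fun i => ?_⟩
  rw [← hμ, ← hA, Matrix.mulVec_mulVec, Matrix.mul_adjugate, Matrix.smul_mulVec,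
    Matrix.one_mulVec, ← Pi.single_smul, mul_cj_single]
  simp

/-- coordinates in terms of conjugates -/
theorem Ctx.exists_coord (c : Ctx F) : ∃ (d : ℤ) (e : Fin 4 → Fin 4 → 𝓞 F), d ≠ 0 ∧
    ∀ (K : Type) [CommRing K] (ψ : 𝓞 F →+* K) (x : Fin 4 → K) (l : Fin 4),
      (d : K) * x l = ∑ i, ψ (e l i) * ∑ k, x k * ψ (c.ϑ i) ^ (k : ℕ) := by
  have h0 : (Matrix.vandermonde c.ϑ).det ≠ 0 := Matrix.det_vandermonde_ne_zero_iff.mpr c.hinj
  obtain ⟨d, hd, w, hw⟩ := (Algebra.IsAlgebraic.isAlgebraic (R := ℤ)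
    (Matrix.vandermonde c.ϑ).det).exists_nonzero_dvd (mem_nonZeroDivisors_of_ne_zero h0)
  refine ⟨d, fun l i => w * (Matrix.vandermonde c.ϑ).adjugate l i, hd, fun K _ ψ x l => ?_⟩
  have h1 : ∀ k : Fin 4, ∑ i, ψ (w * (Matrix.vandermonde c.ϑ).adjugate l i) * ψ (c.ϑ i) ^ (k : ℕ)
      = if l = k then (d : K) else 0 := by
    intro k
    have h2 := congrFun (congrFun (Matrix.adjugate_mul (Matrix.vandermonde c.ϑ)) l) k
    rw [Matrix.mul_apply] at h2
    simp only [← map_pow, ← map_mul, ← map_sum, mul_assoc, ← Finset.mul_sum]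
    simp only [Matrix.vandermonde_apply] at h2
    rw [h2, Matrix.smul_apply, Matrix.one_apply]
    split_ifs
    · rw [smul_eq_mul, mul_one, mul_comm, ← hw]; simp
    · simp
  simp only [Finset.mul_sum]
  rw [Finset.sum_comm]
  simp only [mul_left_comm _ (x _), ← Finset.mul_sum, h1]
  simp [mul_comm]

end Vale.Agent.P018
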