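import Vale.Agent.P018.Q.Defs
import Vale.Agent.P018.Family

namespace Vale.Agent.P018

open Polynomial

/-- exponent vectors of degree `b` not divisible by `β_i ^ 2 β_j ^ 2` -/
def stdI (b : ℕ) (i j : Fin 4) : Finset (Fin 4 → ℕ) :=
  (Finset.piAntidiag Finset.univ b).filter fun I => I i ≤ 1 ∨ I j ≤ 1

theorem qt_mem {b : ℕ} {I : Fin 4 → ℕ} : I ∈ Finset.piAntidiag Finset.univ b ↔ ∑ i, I i = b := by
  simp [Finset.mem_piAntidiag]

theorem qt_card (n : ℕ) : 6 * (Finset.piAntidiag (Finset.univ : Finset (Fin 4)) n).card =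
    (n + 3) * (n + 2) * (n + 1) := by
  rw [fam_card_piAntidiag, Finset.card_univ, Fintype.card_fin, show 4 + n - 1 = n + 3 by omega,
    Nat.choose_symm_add]
  have := Nat.descFactorial_eq_factorial_mul_choose (n + 3) 3
  simp only [Nat.descFactorial, Nat.factorial] at this
  rw [← this, show n + 3 - 2 = n + 1 by omega, show n + 3 - 1 = n + 2 by omega, Nat.sub_zero]
  ring

theorem card_stdI (b : ℕ) (hb : 4 ≤ b) (i j : Fin 4) (hij : i ≠ j) :
    (stdI b i j).card = 2 * b ^ 2 + 2 := by
  obtain ⟨n, rfl⟩ := Nat.exists_eq_add_of_le' hb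
  have h1 := Finset.card_filter_add_card_filter_not (s := Finset.piAntidiag Finset.univ (n + 4))
    fun I : Fin 4 → ℕ => I i ≤ 1 ∨ I j ≤ 1
  have hs : ∑ k, (Pi.single i 2 + Pi.single j 2 : Fin 4 → ℕ) k = 4 := by
    simp [Finset.sum_add_distrib]
  have h2 : (Finset.piAntidiag (Finset.univ : Finset (Fin 4)) n).card =
      ((Finset.piAntidiag Finset.univ (n + 4)).filter
        fun I : Fin 4 → ℕ => ¬ (I i ≤ 1 ∨ I j ≤ 1)).card := by
    refine Finset.card_bij (fun I _ => I + (Pi.single i 2 + Pi.single j 2)) (fun I hI => ?_)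
      (fun _ _ _ _ h => add_right_cancel h) fun I hI => ?_
    · rw [Finset.mem_filter, qt_mem]
      refine ⟨?_, by simp [hij, hij.symm]⟩
      simp only [Pi.add_apply I, Finset.sum_add_distrib, hs, qt_mem.1 hI]
    · rw [Finset.mem_filter, qt_mem] at hI
      have hle : (Pi.single i 2 + Pi.single j 2 : Fin 4 → ℕ) ≤ I := fun k => by
        by_cases e1 : k = i
        · subst e1; simp [hij]; omega
        · by_cases e2 : k = j
          · subst e2; simp [hij.symm]; omega
          · simp [e1, e2]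
      obtain ⟨J, rfl⟩ := exists_add_of_le hle
      refine ⟨J, qt_mem.2 ?_, add_comm _ _⟩
      have := hI.1
      simp only [Pi.add_apply _ J, Finset.sum_add_distrib, hs] at this
      omega
  have h3 := qt_card n
  have h4 := qt_card (n + 4)
  unfold stdI
  nlinarith

theorem qt_peel {K R : Type} [Field K] [CommRing R] [IsDomain R] [Algebra K R] (U : Fin 4 → R)
    (p : Fin 4) (hU : U p ≠ 0) (S : (Fin 4 → ℕ) → Prop) [DecidablePred S]
    (hS : ∀ I, S (I + Pi.single p 1) ↔ S I)
    (h : ∀ (b : ℕ) (c : (Fin 4 → ℕ) → K),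
      ∑ I ∈ (Finset.piAntidiag Finset.univ b).filter S, c I • ∏ i, U i ^ I i = 0 →
      ∀ I ∈ (Finset.piAntidiag Finset.univ b).filter S, I p = 0 → c I = 0)
    (b : ℕ) : ∀ c : (Fin 4 → ℕ) → K,
      ∑ I ∈ (Finset.piAntidiag Finset.univ b).filter S, c I • ∏ i, U i ^ I i = 0 →
      ∀ I ∈ (Finset.piAntidiag Finset.univ b).filter S, c I = 0 := by
  induction b with
  | zero =>
    intro c hc I hI
    refine h 0 c hc I hI ?_
    exact Finset.sum_eq_zero_iff.1 (qt_mem.1 (Finset.mem_filter.1 hI).1) p (Finset.mem_univ p)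
  | succ b ih =>
    intro c hc
    have hs : ∀ J : Fin 4 → ℕ, ∑ i, (J + Pi.single p 1 : Fin 4 → ℕ) i = ∑ i, J i + 1 := fun J => by
      simp [Finset.sum_add_distrib]
    have hsur : ∀ I ∈ (Finset.piAntidiag Finset.univ (b + 1)).filter S, I p ≠ 0 →
        ∃ J ∈ (Finset.piAntidiag Finset.univ b).filter S, J + Pi.single p 1 = I := by
      intro I hI h0
      have hle : (Pi.single p 1 : Fin 4 → ℕ) ≤ I := fun k => by
        by_cases h1 : k = p
        · subst h1; simp; omega
        · simp [h1]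
      obtain ⟨J, rfl⟩ := exists_add_of_le hle
      rw [add_comm (Pi.single p 1) J, Finset.mem_filter, qt_mem, hs, hS] at hI
      exact ⟨J, Finset.mem_filter.2 ⟨qt_mem.2 (by omega), hI.2⟩, add_comm _ _⟩
    have key := ih (fun J => c (J + Pi.single p 1)) (by
      refine (mul_eq_zero.1 (?_ : _ * U p = 0)).resolve_right hU
      rw [← hc, Finset.sum_mul]
      refine Finset.sum_of_injOn (fun J => J + Pi.single p 1) (fun _ _ _ _ h => add_right_cancel h)
        (fun J hJ => ?_) (fun I hI hn => ?_) fun J _ => ?_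
      · rw [Finset.mem_coe, Finset.mem_filter, qt_mem] at hJ ⊢
        exact ⟨by rw [hs, hJ.1], (hS J).2 hJ.2⟩
      · rw [h _ c hc I hI, zero_smul]
        by_contra h0
        obtain ⟨J, hJ, e⟩ := hsur I hI h0
        exact hn ⟨J, hJ, e⟩
      · simp only [Pi.add_apply, pow_add, Finset.prod_mul_distrib, smul_mul_assoc]
        rw [Finset.prod_eq_single p (f := fun i => U i ^ (Pi.single p 1 : Fin 4 → ℕ) i)
          (fun i _ hi => by simp [hi]) (by simp)]
        simp)
    intro I hI
    by_cases h0 : I p = 0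
    · exact h _ c hc I hI h0
    · obtain ⟨J, hJ, rfl⟩ := hsur I hI h0
      exact key J hJ

theorem qt_top {K α : Type} [Field K] (T : Finset α) (i j k : α → ℕ) {b : ℕ}
    (hb : ∀ a ∈ T, i a + j a + k a = b)
    (hinj : ∀ a ∈ T, ∀ a' ∈ T, j a = j a' → k a = k a' → a = a') (c : α → K) {u v w m : K[X]}
    (hm : m ≠ 0) (hu : IsCoprime m u) (hind : ∀ A B : K, m ∣ A • v + B • w → A = 0)
    (h : ∑ a ∈ T, c a • (u ^ i a * (m * v) ^ j a * (m * w) ^ k a) = 0) :
    ∀ a ∈ T, j a ≤ 1 → k a = 0 → c a = 0 := by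
  classical
  have key : ∀ n, (∀ a ∈ T, j a + k a < n → c a = 0) →
      m ∣ ∑ a ∈ T.filter fun a => j a + k a = n, c a • (v ^ j a * w ^ k a) := by
    intro n hn
    rw [← Finset.sum_filter_add_sum_filter_not T fun a => j a + k a = n] at h
    have h1 : m ^ n * m ∣ ∑ a ∈ T.filter fun a => j a + k a = n,
        c a • (u ^ i a * (m * v) ^ j a * (m * w) ^ k a) := by
      rw [eq_neg_of_add_eq_zero_left h, dvd_neg]
      refine Finset.dvd_sum fun a ha => ?_
      obtain ⟨ha, hne⟩ := Finset.mem_filter.1 ha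
      rcases lt_or_gt_of_ne hne with h' | h'
      · rw [hn a ha h', zero_smul]; exact dvd_zero _
      · obtain ⟨d, hd⟩ := Nat.exists_eq_add_of_lt h'
        refine ⟨c a • (m ^ d * u ^ i a * v ^ j a * w ^ k a), ?_⟩
        rw [mul_smul_comm]
        refine congrArg _ ?_
        linear_combination (exp := 1) (u ^ i a * v ^ j a * w ^ k a) * congrArg (m ^ ·) hd
    have h2 : ∑ a ∈ T.filter fun a => j a + k a = n,
        c a • (u ^ i a * (m * v) ^ j a * (m * w) ^ k a) = m ^ n * (u ^ (b - n) *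
          ∑ a ∈ T.filter fun a => j a + k a = n, c a • (v ^ j a * w ^ k a)) := by
      simp only [Finset.mul_sum, mul_smul_comm]
      refine Finset.sum_congr rfl fun a ha => congrArg _ ?_
      obtain ⟨ha, he⟩ := Finset.mem_filter.1 ha
      rw [show b - n = i a by have := hb a ha; omega, ← he]
      ring
    rw [h2, mul_dvd_mul_iff_left (pow_ne_zero _ hm)] at h1
    exact hu.pow_right.dvd_of_dvd_mul_left h1
  have h0 : ∀ a ∈ T, j a + k a < 1 → c a = 0 := fun a ha h' => by
    have := key 0 (by simp)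
    rw [Finset.sum_eq_single_of_mem a (Finset.mem_filter.2 ⟨ha, by omega⟩) fun a' ha' hne =>
      (hne (hinj _ (Finset.mem_filter.1 ha').1 _ ha (by have := (Finset.mem_filter.1 ha').2; omega)
        (by have := (Finset.mem_filter.1 ha').2; omega))).elim,
      show j a = 0 by omega, show k a = 0 by omega] at this
    refine hind _ 0 ?_
    simpa using this.mul_right v
  intro a ha hj hk
  rcases Nat.lt_or_ge (j a + k a) 1 with h' | h'
  · exact h0 a ha h'
  have h1 := key 1 h0
  refine hind _ (∑ a' ∈ (T.filter fun a => j a + k a = 1).erase a, c a') ?_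
  rw [← Finset.add_sum_erase _ _ (Finset.mem_filter.2 ⟨ha, by omega⟩), hk, show j a = 1 by omega,
    Finset.sum_congr rfl (g := fun a' => c a' • w) fun a' ha' => ?_] at h1
  · simpa [Finset.sum_smul] using h1
  · obtain ⟨hne, ha'⟩ := Finset.mem_erase.1 ha'
    obtain ⟨ha', he⟩ := Finset.mem_filter.1 ha'
    have : j a' = 0 := by
      by_contra h2
      exact hne (hinj _ ha' _ ha (by omega) (by omega))
    rw [this, show k a' = 1 by omega]
    simp

theorem qt_coprime {K : Type} [Field K] {x y x' y' : K} (h : x * y' ≠ x' * y) :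
    IsCoprime (C x * X + C y) (C x' * X + C y') := by
  have h0 : x * y' - x' * y ≠ 0 := sub_ne_zero.2 h
  refine ⟨C (-x' / (x * y' - x' * y)), C (x / (x * y' - x' * y)), ?_⟩
  have e1 : -x' / (x * y' - x' * y) * x + x / (x * y' - x' * y) * x' = 0 := by ring
  have e2 : -x' / (x * y' - x' * y) * y + x / (x * y' - x' * y) * y' = 1 := by field_simp; ring
  have e3 := congrArg (C : K → K[X]) e1
  have e4 := congrArg (C : K → K[X]) e2
  simp only [map_add, map_mul, map_zero, map_one] at e3 e4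
  linear_combination X * e3 + e4

theorem qt_squares {K : Type} [Field K] [CharZero K] {x y x' y' x'' y'' A B : K} (hx : x ≠ 0)
    (h1 : x * y' ≠ x' * y) (h2 : x' * y'' ≠ x'' * y')
    (h : (C x * X + C y) ^ 2 ∣ A • (C x' * X + C y') ^ 2 + B • (C x'' * X + C y'') ^ 2) :
    A = 0 := by
  obtain ⟨s, hs⟩ := h
  obtain ⟨r, hr⟩ : ∃ r, x * r + y = 0 := ⟨-y / x, by field_simp; ring⟩
  have e0 := congrArg (eval r) hs
  have e1 := congrArg (fun f => eval r (derivative f)) hs
  simp [hr, sq] at e0 e1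
  have e2 : x' * r + y' ≠ 0 := fun e => h1 (by linear_combination x * e - x' * hr)
  have e3 : 2 * A * (x' * r + y') * (x' * y'' - x'' * y') = 0 := by
    linear_combination (x'' * r + y'') * e1 - 2 * x'' * e0
  simpa [e2, sub_ne_zero.2 h2] using e3

/-- The standard monomials are linearly independent on the surface over a line. -/
theorem stdI_indep {K : Type} [Field K] [CharZero K] (x y θ : Fin 4 → K)
    (hθ : Function.Injective θ) (hx : ∀ i, x i ≠ 0)
    (hp : ∀ i j, i ≠ j → x i * y j ≠ x j * y i) (b : ℕ) (c : (Fin 4 → ℕ) → K)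
    (h : ∑ I ∈ stdI b 1 2, C (C (c I)) *
      ∏ i, ((X - C (C (θ i))) ^ I i * C ((C (x i) * X + C (y i)) ^ (2 * (b - I i)))) =
        (0 : K[X][X])) : ∀ I ∈ stdI b 1 2, c I = 0 := by
  let m : Fin 4 → K[X] := fun i => (C (x i) * X + C (y i)) ^ 2
  have hm : ∀ i, m i ≠ 0 := fun i => pow_ne_zero _ fun e => hx i (by
    simpa using congrArg (coeff · 1) e)
  have hc : ∀ i j, i ≠ j → IsCoprime (m i) (m j) := fun i j h => (qt_coprime (hp i j h)).pow
  let W : Fin 4 → K[X] := ![m 1 * m 2 * m 3, m 0 * m 2 * m 3, m 0 * m 1 * m 3, m 0 * m 1 * m 2]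
  let V : Fin 4 → K[X] := fun i => C (θ 0 - θ i) * W i
  have hd : ∀ i, i ≠ 0 → θ 0 - θ i ≠ 0 := fun i hi e => hi (hθ (sub_eq_zero.1 e)).symm
  have hu : ∀ i j, j ≠ 0 → IsCoprime (m i) (C (θ 0 - θ j)) := fun i j hj =>
    ⟨0, C (θ 0 - θ j)⁻¹, by rw [zero_mul, zero_add, ← map_mul, inv_mul_cancel₀ (hd j hj), map_one]⟩
  have hind : ∀ i j k, i ≠ 0 → i ≠ j → j ≠ k → ∀ (d d' A B : K), d ≠ 0 →
      m i ∣ A • (C d * (m 0 * m j)) + B • (C d' * (m 0 * m k)) → A = 0 := by
    intro i j k h0 h1 h2 d d' A B hd h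
    have : m i ∣ m 0 * ((A * d) • m j + (B * d') • m k) := by
      simp only [smul_eq_C_mul, map_mul] at h ⊢
      exact h.trans (dvd_of_eq (by ring))
    exact (mul_eq_zero.1 (qt_squares (hx i) (hp i j h1) (hp j k h2)
      ((hc i 0 h0).dvd_of_dvd_mul_left this))).resolve_right hd
  have inner := qt_peel (K := K) V 3 (mul_ne_zero (C_ne_zero.2 (hd 3 (by decide)))
      (mul_ne_zero (mul_ne_zero (hm 0) (hm 1)) (hm 2))) (fun I => (I 1 ≤ 1 ∨ I 2 ≤ 1) ∧ I 0 = 0)
      (fun I => by simp) fun b c h I hI h3 => by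
    have hT : ∀ J ∈ (Finset.piAntidiag Finset.univ b).filter
        (fun I : Fin 4 → ℕ => (I 1 ≤ 1 ∨ I 2 ≤ 1) ∧ I 0 = 0), J 0 = 0 ∧ J 1 + J 2 + J 3 = b := by
      intro J hJ
      rw [Finset.mem_filter, qt_mem, Fin.sum_univ_four] at hJ
      omega
    rcases (Finset.mem_filter.1 hI).2.1 with h1 | h1
    · refine qt_top _ (· 2) (· 1) (· 3) (b := b) (fun J hJ => by have := hT J hJ; omega)
        (fun J hJ J' hJ' e1 e2 => ?_) c (u := V 2) (hm 2)
        ((hu 2 2 (by decide)).mul_right (((hc 2 0 (by decide)).mul_right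
          (hc 2 1 (by decide))).mul_right (hc 2 3 (by decide))))
        (fun A B => hind 2 3 1 (by decide) (by decide) (by decide) _ (θ 0 - θ 3) A B
          (hd 1 (by decide))) (Eq.trans (Finset.sum_congr rfl fun J hJ => ?_) h) I hI h1 h3
      · have := hT J hJ; have := hT J' hJ'
        funext i; fin_cases i <;> simp <;> omega
      · simp only [Fin.prod_univ_four, (hT J hJ).1, V, W, Matrix.cons_val]
        refine congrArg _ (by ring)
    · refine qt_top _ (· 1) (· 2) (· 3) (b := b) (fun J hJ => by have := hT J hJ; omega)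
        (fun J hJ J' hJ' e1 e2 => ?_) c (u := V 1) (hm 1)
        ((hu 1 1 (by decide)).mul_right (((hc 1 0 (by decide)).mul_right
          (hc 1 2 (by decide))).mul_right (hc 1 3 (by decide))))
        (fun A B => hind 1 3 2 (by decide) (by decide) (by decide) _ (θ 0 - θ 3) A B
          (hd 2 (by decide))) (Eq.trans (Finset.sum_congr rfl fun J hJ => ?_) h) I hI h1 h3
      · have := hT J hJ; have := hT J' hJ'
        funext i; fin_cases i <;> simp <;> omega
      · simp only [Fin.prod_univ_four, (hT J hJ).1, V, W, Matrix.cons_val]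
        refine congrArg _ (by ring)
  refine qt_peel (K := K) (fun i => (X - C (C (θ i))) * C (W i)) 0
    (mul_ne_zero (X_sub_C_ne_zero _) (C_ne_zero.2
      (mul_ne_zero (mul_ne_zero (hm 1) (hm 2)) (hm 3)))) _ (fun I => by simp)
    (fun b c h I hI h0 => ?_) b c (Eq.trans (Finset.sum_congr rfl fun I hI => ?_) h)
  · refine inner b c ?_ I (by rw [← Finset.filter_filter]; exact Finset.mem_filter.2 ⟨hI, h0⟩)
    have e := congrArg (eval (C (θ 0))) h
    simp only [eval_finsetSum, eval_smul, eval_prod, eval_pow, eval_mul, eval_sub, eval_X, eval_C,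
      eval_zero, ← map_sub] at e
    rw [← Finset.filter_filter, Finset.sum_filter_of_ne fun J _ hJ => ?_]
    · exact e
    · by_contra h1
      exact hJ (by rw [Finset.prod_eq_zero (Finset.mem_univ 0) (by simp [V, h1]), smul_zero])
  · have hI' := qt_mem.1 (Finset.mem_filter.1 hI).1
    rw [Fin.sum_univ_four] at hI'
    rw [Algebra.smul_def, Polynomial.algebraMap_apply, Polynomial.algebraMap_eq]
    refine congrArg _ ?_
    simp only [Fin.prod_univ_four, W, m, Matrix.cons_val, map_mul, map_pow, mul_pow]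
    rw [show b - I 0 = I 1 + I 2 + I 3 by omega, show b - I 1 = I 0 + I 2 + I 3 by omega,
      show b - I 2 = I 0 + I 1 + I 3 by omega, show b - I 3 = I 0 + I 1 + I 2 by omega]
    ring

end Vale.Agent.P018
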