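import Vale.Agent.P018.Q.Defs
import Vale.Agent.P018.Q.Quartic

namespace Vale.Agent.P018

/-- the column polynomials of part I; variable `0` is the position on the line, variable `1` is
`1 / N` -/
noncomputable def colI (b : ℕ) (l l' θ : Fin 4 → ℂ) (I : Fin 4 → ℕ) : MvPolynomial (Fin 2) ℂ :=
  ∏ i, ((MvPolynomial.C 1 - MvPolynomial.C (θ i) * MvPolynomial.X 1) ^ I i *
    (MvPolynomial.C (l i) + MvPolynomial.C (l' i) * MvPolynomial.X 0) ^ (2 * (b - I i)))

open Polynomial Module

theorem rkI_coeff (A B : ℂ[X]) (g : Fin 2 →₀ ℕ) :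
    (aeval (MvPolynomial.X 1 : MvPolynomial (Fin 2) ℂ) A * aeval (MvPolynomial.X 0) B).coeff g =
      A.coeff (g 1) * B.coeff (g 0) := by
  induction A using Polynomial.induction_on' with
  | add p q hp hq => simp only [map_add, add_mul, MvPolynomial.coeff_add, coeff_add, hp, hq]
  | monomial n a =>
    induction B using Polynomial.induction_on' with
    | add p q hp hq => simp only [map_add, mul_add, MvPolynomial.coeff_add, coeff_add, hp, hq]
    | monomial m c =>
      have e : Finsupp.single 1 n + Finsupp.single 0 m = g ↔ n = g 1 ∧ m = g 0 := by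
        constructor
        · rintro rfl; simp
        · rintro ⟨rfl, rfl⟩; ext i; fin_cases i <;> simp
      simp only [aeval_monomial, MvPolynomial.algebraMap_eq, MvPolynomial.C_mul_X_pow_eq_monomial,
        MvPolynomial.monomial_mul, MvPolynomial.coeff_monomial, coeff_monomial, e]
      by_cases h1 : n = g 1 <;> by_cases h2 : m = g 0 <;> simp [h1, h2]

theorem rkI_chain {V W : Type} [AddCommGroup V] [Module ℂ V] [FiniteDimensional ℂ V]
    [AddCommGroup W] [Module ℂ W] (φ : ℕ → V →ₗ[ℂ] W) (U : ℕ → Submodule ℂ W)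
    [∀ j, FiniteDimensional ℂ (U j)] (h : ∀ j c, (∀ k < j, φ k c = 0) → φ j c ∈ U j) (n : ℕ) :
    finrank ℂ V ≤ finrank ℂ (⨅ k < n, LinearMap.ker (φ k) : Submodule ℂ V) +
      ∑ j ∈ Finset.range n, finrank ℂ (U j) := by
  induction n with
  | zero =>
    rw [show (⨅ k < 0, LinearMap.ker (φ k) : Submodule ℂ V) = ⊤ by simp]
    simp
  | succ n ih =>
    let ψ := (φ n).restrict (p := ⨅ k < n, LinearMap.ker (φ k)) (q := U n)
      fun c hc => h n c (by simpa using hc)
    have h1 := ψ.finrank_range_add_finrank_ker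
    have h2 := (LinearMap.range ψ).finrank_le
    have h3 : finrank ℂ (LinearMap.ker ψ) ≤
        finrank ℂ (⨅ k < n + 1, LinearMap.ker (φ k) : Submodule ℂ V) := by
      rw [← Submodule.finrank_map_subtype_eq]
      refine Submodule.finrank_mono ?_
      rintro _ ⟨⟨c, hc⟩, h0, rfl⟩
      simp only [Submodule.mem_iInf, LinearMap.mem_ker] at hc ⊢
      intro k hk
      rcases Nat.lt_succ_iff_lt_or_eq.1 hk with hk | rfl
      · exact hc k hk
      · exact congrArg Subtype.val h0
    rw [Finset.sum_range_succ]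
    omega

theorem rkI_dvd {ι : Type} [Fintype ι] {b j : ℕ} {θ : ℂ} (hθ : θ ≠ 0) (L : ℂ[X]) (A B : ι → ℂ[X])
    (hA : ∀ a, (A a).natDegree ≤ b)
    (hAB : ∀ a, (1 - C θ * X) ^ (b + 1 - j) ∣ A a ∨ L ∣ B a) (c : ι → ℂ)
    (h : ∀ k < j, ∑ a, c a • (A a).coeff k • B a = 0) :
    L ∣ ∑ a, c a • (A a).coeff j • B a := by
  rw [← Ideal.mem_span_singleton, ← Submodule.restrictScalars_mem ℂ,
    ← Subspace.forall_mem_dualAnnihilator_apply_eq_zero_iff]
  intro f hf
  rw [Submodule.mem_dualAnnihilator] at hf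
  have hc : ∀ k, (∑ a, (c a * f (B a)) • A a).coeff k = f (∑ a, c a • (A a).coeff k • B a) := by
    intro k
    simp only [finsetSum_coeff, coeff_smul, map_sum, map_smul, smul_eq_mul]
    exact Finset.sum_congr rfl fun a _ => by ring
  have h1 : X ^ j ∣ ∑ a, (c a * f (B a)) • A a :=
    X_pow_dvd_iff.2 fun k hk => by rw [hc, h k hk, map_zero]
  have h2 : (1 - C θ * X) ^ (b + 1 - j) ∣ ∑ a, (c a * f (B a)) • A a := by
    refine Finset.dvd_sum fun a _ => ?_
    rcases hAB a with h | h
    · exact dvd_smul_of_dvd _ h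
    · rw [hf (B a) (Ideal.mem_span_singleton.2 h), mul_zero, zero_smul]; exact dvd_zero _
  have h3 : IsCoprime (X : ℂ[X]) (1 - C θ * X) := ⟨C θ, 1, by ring⟩
  have h4 : (1 - C θ * X).natDegree = 1 := by
    rw [show 1 - C θ * X = C (-θ) * X + C 1 by simp; ring, natDegree_linear (neg_ne_zero.2 hθ)]
  have h5 : (1 - C θ * X) ≠ 0 := fun e => by simp [e] at h4
  rw [← hc, eq_zero_of_dvd_of_natDegree_lt (h3.pow.mul_dvd h1 h2) ?_, coeff_zero]
  rw [natDegree_mul (pow_ne_zero _ X_ne_zero) (pow_ne_zero _ h5), natDegree_pow, natDegree_pow, h4,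
    natDegree_X]
  refine (natDegree_sum_le_of_forall_le _ _ fun a _ =>
    (natDegree_smul_le _ _).trans (hA a)).trans_lt (by omega)

/-- rank constraints for the column polynomials of part I -/
theorem rank_colI {ι : Type} [Fintype ι] [DecidableEq ι] (b : ℕ) (l l' θ : Fin 4 → ℂ)
    (hθ : ∀ i, θ i ≠ 0) (hl' : ∀ i, l' i ≠ 0) (hp : ∀ i j, i ≠ j → l i * l' j ≠ l j * l' i)
    (I : ι → Fin 4 → ℕ) (hI : ∀ j, ∑ i, I j i = b) (g : ι → (Fin 2 →₀ ℕ))
    (hdet : (Matrix.of fun r j => (colI b l l' θ (I j)).coeff (g r)).det ≠ 0) (J : ℕ) :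
    (Finset.univ.filter fun r => g r 1 ≤ J).card ≤
      ∑ j ∈ Finset.range (J + 1), (6 * b + 1 - 8 * j) := by
  let L : Fin 4 → ℂ[X] := fun i => C (l' i) * X + C (l i)
  let A : ι → ℂ[X] := fun a => ∏ i, (1 - C (θ i) * X) ^ I a i
  let B : ι → ℂ[X] := fun a => ∏ i, L i ^ (2 * (b - I a i))
  have hL : ∀ i, (L i).natDegree = 1 := fun i => natDegree_linear (hl' i)
  have hL0 : ∀ i, L i ≠ 0 := fun i e => by simpa [e] using hL i
  have hM : ∀ r a, (colI b l l' θ (I a)).coeff (g r) = (A a).coeff (g r 1) * (B a).coeff (g r 0) := by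
    intro r a
    rw [← rkI_coeff]
    simp [colI, A, B, L, Finset.prod_mul_distrib, add_comm]
  have hA : ∀ a, (A a).natDegree ≤ b := fun a => by
    refine (natDegree_prod_le _ _).trans ((Finset.sum_le_sum fun i _ => ?_).trans (hI a).le)
    refine natDegree_pow_le.trans ?_
    have : (1 - C (θ i) * X).natDegree ≤ 1 := by compute_degree
    nlinarith
  have hB : ∀ a, (B a).natDegree ≤ 6 * b := fun a => by
    refine (natDegree_prod_le _ _).trans ?_
    have := hI a
    simp only [natDegree_pow, hL, Fin.sum_univ_four] at this ⊢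
    omega
  let φ : ℕ → (ι → ℂ) →ₗ[ℂ] ℂ[X] := fun k =>
    Fintype.linearCombination ℂ fun a => (A a).coeff k • B a
  let U : ℕ → Submodule ℂ ℂ[X] := fun j =>
    (degreeLT ℂ (6 * b + 1 - 8 * j)).map (LinearMap.mulLeft ℂ (∏ i, L i ^ (2 * j)))
  have key := rkI_chain φ U (fun j c hc => ?_) (J + 1)
  · let M : Matrix ι ι ℂ := Matrix.of fun r j => (colI b l l' θ (I j)).coeff (g r)
    let π := (LinearMap.funLeft ℂ ℂ (Subtype.val : {r // g r 1 ≤ J} → ι)).comp M.mulVecLin
    have hπ : Function.Surjective π :=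
      (LinearMap.funLeft_surjective_of_injective ℂ ℂ _ Subtype.val_injective).comp
        (Matrix.mulVec_surjective_iff_isUnit.2
          ((Matrix.isUnit_iff_isUnit_det M).2 (isUnit_iff_ne_zero.2 hdet)))
    have h1 := π.finrank_range_add_finrank_ker
    rw [LinearMap.range_eq_top.2 hπ, finrank_top, finrank_fintype_fun_eq_card,
      Fintype.card_subtype] at h1
    have h2 : finrank ℂ (⨅ k < J + 1, LinearMap.ker (φ k) : Submodule ℂ (ι → ℂ)) ≤
        finrank ℂ (LinearMap.ker π) := by
      refine Submodule.finrank_mono fun c hc => ?_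
      simp only [Submodule.mem_iInf, LinearMap.mem_ker] at hc ⊢
      funext r
      have := congrArg (coeff · (g r 0)) (hc (g r 1) (Nat.lt_succ_of_le r.2))
      simp only [φ, Fintype.linearCombination_apply, finsetSum_coeff, coeff_smul, smul_eq_mul,
        coeff_zero] at this
      simp only [π, M, LinearMap.comp_apply, LinearMap.funLeft_apply, Matrix.mulVecLin_apply,
        Matrix.mulVec, dotProduct, Matrix.of_apply, hM, Pi.zero_apply]
      rw [← this]
      exact Finset.sum_congr rfl fun a _ => mul_comm _ _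
    have h3 : ∑ j ∈ Finset.range (J + 1), finrank ℂ (U j) ≤
        ∑ j ∈ Finset.range (J + 1), (6 * b + 1 - 8 * j) := by
      refine Finset.sum_le_sum fun j _ => (Submodule.finrank_map_le _ _).trans ?_
      rw [(degreeLTEquiv ℂ _).finrank_eq]
      simp
    omega
  · have hd : ∏ i, L i ^ (2 * j) ∣ φ j c := by
      refine Fintype.prod_dvd_of_coprime
        (fun i k hik => (qt_coprime fun e => hp k i hik.symm (by linear_combination e)).pow)
        fun i => rkI_dvd (hθ i) _ A B hA (fun a => ?_) c hc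
      by_cases h : b + 1 - j ≤ I a i
      · exact Or.inl ((pow_dvd_pow _ h).trans (Finset.dvd_prod_of_mem _ (Finset.mem_univ i)))
      · exact Or.inr ((pow_dvd_pow _ (by omega)).trans
          (Finset.dvd_prod_of_mem _ (Finset.mem_univ i)))
    obtain ⟨u, hu⟩ := hd
    refine ⟨u, mem_degreeLT.2 ?_, hu.symm⟩
    rcases eq_or_ne u 0 with rfl | h0
    · simp
    have h1 : (φ j c).natDegree ≤ 6 * b := natDegree_sum_le_of_forall_le _ _ fun a _ =>
      (natDegree_smul_le _ _).trans ((natDegree_smul_le _ _).trans (hB a))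
    rw [hu, natDegree_mul (Finset.prod_ne_zero_iff.2 fun i _ => pow_ne_zero _ (hL0 i)) h0,
      natDegree_prod _ _ fun i _ => pow_ne_zero _ (hL0 i)] at h1
    simp only [natDegree_pow, hL, Fin.sum_univ_four] at h1
    rw [← natDegree_lt_iff_degree_lt h0]
    omega

end Vale.Agent.P018
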