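import Vale.Agent.P018.Q.DetGen
import Vale.Agent.P018.Q.RankI
import Vale.Agent.P018.Q.Minors
import Vale.Agent.P018.Q.Mul
import Vale.Agent.P018.Relation

namespace Vale.Agent.P018

open NumberField Polynomial Filter

variable {F : Type} [Field F] [NumberField F]

theorem boxI_entry {K : Type} [CommRing K] (b : ℕ) (V M : K) (L β t : Fin 4 → K)
    (h : ∀ i, (V * L i) ^ 2 * β i = M * t i) (I : Fin 4 → ℕ) (hI : ∑ i, I i = b) :
    (V ^ 2 * ∏ i, L i ^ 2) ^ b * ∏ i, β i ^ I i =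
      M ^ b * ∏ i, (t i ^ I i * L i ^ (2 * (b - I i))) := by
  have h1 : ∀ i, (V ^ 2) ^ I i * ((L i ^ 2) ^ b * β i ^ I i) =
      M ^ I i * (t i ^ I i * L i ^ (2 * (b - I i))) := by
    intro i
    have h2 : I i ≤ b :=
      hI ▸ Finset.single_le_sum (f := I) (fun _ _ => Nat.zero_le _) (Finset.mem_univ i)
    obtain ⟨k, hk⟩ := Nat.exists_eq_add_of_le h2
    rw [← mul_assoc (M ^ I i), ← mul_pow, ← h i, hk, Nat.add_sub_cancel_left]
    ring
  have h2 := Finset.prod_congr (s₁ := Finset.univ) rfl fun i _ => h1 i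
  rw [Finset.prod_mul_distrib, Finset.prod_mul_distrib, Finset.prod_mul_distrib,
    Finset.prod_pow_eq_pow_sum, Finset.prod_pow_eq_pow_sum, hI, Finset.prod_pow] at h2
  rw [← h2, mul_pow, mul_assoc]

theorem boxI_l1 (b : ℕ) (l l' θ : Fin 4 → ℂ) (A : ℝ) (hA : 1 ≤ A) (hl : ∀ i, ‖l i‖ ≤ 2 * A)
    (hl' : ∀ i, ‖l' i‖ ≤ A) (hθ : ∀ i, ‖θ i‖ ≤ A) (I : Fin 4 → ℕ) (hI : ∑ i, I i = b) :
    l1 (colI b l l' θ I) ≤ ((3 * A) ^ b * (3 * A) ^ (2 * b)) ^ 4 := by
  unfold colI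
  refine (l1_prod_le _ _).trans ?_
  calc _ ≤ ∏ _i : Fin 4, (3 * A) ^ b * (3 * A) ^ (2 * b) := by
        refine Finset.prod_le_prod (fun i _ => l1_nonneg _) fun i _ => ?_
        have h2 : I i ≤ b :=
          hI ▸ Finset.single_le_sum (f := I) (fun _ _ => Nat.zero_le _) (Finset.mem_univ i)
        have h3 : l1 (MvPolynomial.C 1 - MvPolynomial.C (θ i) * MvPolynomial.X 1 :
            MvPolynomial (Fin 2) ℂ) ≤ 3 * A := by
          rw [sub_eq_add_neg, ← neg_mul, ← map_neg]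
          refine (l1_add_le _ _).trans ?_
          have := l1_mul_le (MvPolynomial.C (-θ i) : MvPolynomial (Fin 2) ℂ) (MvPolynomial.X 1)
          rw [l1_C, l1_X, norm_neg, mul_one] at this
          rw [l1_C, norm_one]
          linarith [hθ i]
        have h4 : l1 (MvPolynomial.C (l i) + MvPolynomial.C (l' i) * MvPolynomial.X 0 :
            MvPolynomial (Fin 2) ℂ) ≤ 3 * A := by
          refine (l1_add_le _ _).trans ?_
          have := l1_mul_le (MvPolynomial.C (l' i) : MvPolynomial (Fin 2) ℂ) (MvPolynomial.X 0)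
          rw [l1_C, l1_X, mul_one] at this
          rw [l1_C]
          linarith [hl i, hl' i]
        refine (l1_mul_le _ _).trans (mul_le_mul ?_ ?_ (l1_nonneg _) (by positivity))
        · exact (l1_pow_le _ _).trans ((pow_le_pow_left₀ (l1_nonneg _) h3 _).trans
            (pow_le_pow_right₀ (by linarith) h2))
        · exact (l1_pow_le _ _).trans ((pow_le_pow_left₀ (l1_nonneg _) h4 _).trans
            (pow_le_pow_right₀ (by linarith) (by omega)))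
    _ = _ := by simp

theorem boxI_cj_lin (c : Ctx F) (u v : ℤ) (ω ω' : Fin 4 → ℤ) (i : Fin 4) :
    c.cj (u • ω + v • ω') i = (u : 𝓞 F) * c.cj ω i + (v : 𝓞 F) * c.cj ω' i := by
  simp only [Ctx.cj, pv, Finset.mul_sum, ← Finset.sum_add_distrib]
  refine Finset.sum_congr rfl fun l _ => ?_
  simp only [Pi.add_apply, Pi.smul_apply, smul_eq_mul]
  push_cast
  ring

theorem boxI_emb_inj (φ : F →+* ℂ) {x : 𝓞 F} (hx : x ≠ 0) : emb φ x ≠ 0 := by
  rw [emb_apply, _root_.map_ne_zero]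
  exact RingOfIntegers.coe_ne_zero_iff.mpr hx

theorem boxI_bound {ι : Type} [Finite ι] (T : ι → 𝓞 F) :
    ∃ K : ℝ, 1 ≤ K ∧ ∀ (φ : F →+* ℂ) i, ‖emb φ (T i)‖ ≤ K := by
  obtain ⟨K, hK⟩ := Finite.exists_le fun x : (F →+* ℂ) × ι => ‖emb x.1 (T x.2)‖
  exact ⟨max 1 K, le_max_left _ _, fun φ i => (hK (φ, i)).trans (le_max_right _ _)⟩

/-- the height gain -/
theorem boxI_gain (c : Ctx F) (n : ℕ) (hn : n ≠ 0) (A B : Fin 4 → Fin 4 → 𝓞 F)
    (hA : ∀ k l, k ≠ l → A k l ≠ 0) : ∃ K : ℝ, 1 ≤ K ∧ ∀ (ω ω' : Fin 4 → ℤ) (H U : ℝ)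
      (Δ : Fin 4 → Fin 4 → 𝓞 F),
      Finset.univ.gcd (fun kl : Fin 4 × Fin 4 => pl ω ω' kl.1 kl.2) = 1 → 0 < H →
      (∃ k l, H ≤ |(pl ω ω' k l : ℝ)|) → c.pc ω ω' 1 2 ≠ 0 →
      (∀ k l, k ≠ l → Δ 1 2 * A k l * c.pc ω ω' k l ^ n = Δ k l * B k l * c.pc ω ω' 1 2 ^ n) →
      (∀ (φ : F →+* ℂ) k l, k ≠ l → ‖emb φ (Δ k l)‖ ≤ U) → K * U < H ^ n → Δ 1 2 = 0 := by
  classical
  obtain ⟨d, e, hd, he⟩ := c.exists_coord
  let A' : Fin 4 × Fin 4 → 𝓞 F := fun kl => if kl.1 = kl.2 then 1 else A kl.1 kl.2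
  let T : Fin 4 × Fin 4 → 𝓞 F := fun kl =>
    B kl.1 kl.2 * (∏ x ∈ Finset.univ.erase kl, A' x) * ((d : 𝓞 F) ^ 2) ^ (16 * n + 1)
  obtain ⟨K1, hK1, hT⟩ := boxI_bound T
  obtain ⟨E, hE1, hE⟩ := boxI_bound fun x : Fin 4 × Fin 4 => e x.1 x.2
  refine ⟨K1 * (16 * E ^ 2) ^ n, one_le_mul_of_one_le_of_one_le hK1 (one_le_pow₀ (by nlinarith)),
    fun ω ω' H U Δ hg hH hkl h12 hrel hU hlt => ?_⟩
  have hco : ∀ (x : Fin 4 → ℤ) l, (d : 𝓞 F) * (x l : 𝓞 F) = ∑ i, e l i * c.cj x i :=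
    fun x l => he (𝓞 F) (RingHom.id _) (fun k => (x k : 𝓞 F)) l
  have hpl : ∀ k l, (d : 𝓞 F) ^ 2 * (pl ω ω' k l : 𝓞 F) =
      ∑ x : Fin 4 × Fin 4, e k x.1 * e l x.2 * c.pc ω ω' x.1 x.2 := by
    intro k l
    have e1 : (d : 𝓞 F) ^ 2 * (pl ω ω' k l : 𝓞 F) = ((d : 𝓞 F) * (ω k : 𝓞 F)) *
        ((d : 𝓞 F) * (ω' l : 𝓞 F)) - ((d : 𝓞 F) * (ω' k : 𝓞 F)) * ((d : 𝓞 F) * (ω l : 𝓞 F)) := by
      unfold pl; push_cast; ring
    rw [e1, hco, hco, hco, hco, Finset.sum_mul_sum, Finset.sum_mul_sum, Fintype.sum_prod_type,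
      ← Finset.sum_sub_distrib]
    refine Finset.sum_congr rfl fun i _ => ?_
    rw [← Finset.sum_sub_distrib]
    refine Finset.sum_congr rfl fun j _ => ?_
    unfold Ctx.pc
    ring
  obtain ⟨s, hs⟩ := Finset.gcd_eq_sum_mul Finset.univ
    (fun kl : Fin 4 × Fin 4 => pl ω ω' kl.1 kl.2)
  rw [hg] at hs
  have hd2 : (d : 𝓞 F) ^ 2 = ∑ x : Fin 4 × Fin 4,
      (∑ kl : Fin 4 × Fin 4, (s kl : 𝓞 F) * (e kl.1 x.1 * e kl.2 x.2)) * c.pc ω ω' x.1 x.2 := by
    have h1 : (1 : 𝓞 F) = ∑ kl : Fin 4 × Fin 4, (pl ω ω' kl.1 kl.2 : 𝓞 F) * (s kl : 𝓞 F) := by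
      exact_mod_cast congrArg (Int.cast : ℤ → 𝓞 F) hs
    simp only [Finset.sum_mul]
    rw [Finset.sum_comm, ← mul_one ((d : 𝓞 F) ^ 2), h1, Finset.mul_sum]
    refine Finset.sum_congr rfl fun kl _ => ?_
    rw [← mul_assoc, hpl, Finset.sum_mul]
    exact Finset.sum_congr rfl fun x _ => by ring
  set A0 : 𝓞 F := ∏ x, A' x with hA0
  have hA0' : ∀ k l, k ≠ l → A0 = A k l * ∏ x ∈ Finset.univ.erase (k, l), A' x := by
    intro k l h
    rw [hA0, ← Finset.mul_prod_erase _ _ (Finset.mem_univ (k, l))]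
    simp only [A', if_neg h]
  have hA0ne : A0 ≠ 0 := Finset.prod_ne_zero_iff.2 fun x _ => by
    simp only [A']
    split_ifs with h
    · exact one_ne_zero
    · exact hA _ _ h
  let J : Ideal (𝓞 F) :=
    Submodule.comap (LinearMap.mulLeft (𝓞 F) (Δ 1 2 * A0)) (Ideal.span {c.pc ω ω' 1 2 ^ n})
  have hJ : ∀ x, x ∈ J ↔ c.pc ω ω' 1 2 ^ n ∣ Δ 1 2 * A0 * x := fun x => Ideal.mem_span_singleton
  have hpc : ∀ k l, c.pc ω ω' k l ^ n ∈ J := by
    intro k l
    rw [hJ]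
    by_cases h : k = l
    · simp [h, Ctx.pc, hn]
    · refine ⟨Δ k l * B k l * ∏ x ∈ Finset.univ.erase (k, l), A' x, ?_⟩
      rw [hA0' k l h]
      linear_combination (∏ x ∈ Finset.univ.erase (k, l), A' x) * hrel k l h
  have hmem : ((d : 𝓞 F) ^ 2) ^ (16 * n + 1) ∈ J := by
    have h1 := Ideal.sum_pow_mem_span_pow (Finset.univ : Finset (Fin 4 × Fin 4)) (fun x =>
      (∑ kl : Fin 4 × Fin 4, (s kl : 𝓞 F) * (e kl.1 x.1 * e kl.2 x.2)) * c.pc ω ω' x.1 x.2) n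
    rw [← hd2, Finset.card_univ, Fintype.card_prod, Fintype.card_fin] at h1
    refine (Ideal.span_le.2 ?_) h1
    rintro _ ⟨x, _, rfl⟩
    beta_reduce
    rw [mul_pow, pow_succ' (c.pc ω ω' x.1 x.2), ← mul_assoc]
    exact J.mul_mem_left _ (hpc _ _)
  obtain ⟨y, hy⟩ := (hJ _).1 hmem
  have hy0 : y = 0 := by
    refine eq_zero_of_emb_lt_one y fun φ => ?_
    obtain ⟨k0, l0, h0⟩ := hkl
    obtain ⟨x, -, hx⟩ := Finset.exists_max_image (Finset.univ : Finset (Fin 4 × Fin 4))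
      (fun x => ‖emb φ (c.pc ω ω' x.1 x.2)‖) Finset.univ_nonempty
    set m := ‖emb φ (c.pc ω ω' x.1 x.2)‖ with hm
    have hm0 : 0 ≤ m := norm_nonneg _
    have h1 : H ≤ 16 * E ^ 2 * m := by
      have h2 := congrArg (fun t => ‖emb φ t‖) (hpl k0 l0)
      simp only [map_mul, map_pow, map_intCast, map_sum, norm_mul, norm_pow,
        Complex.norm_intCast] at h2
      have h3 : (1 : ℝ) ≤ |(d : ℝ)| := by exact_mod_cast Int.one_le_abs hd
      have h4 : ‖∑ x : Fin 4 × Fin 4, emb φ (e k0 x.1) * emb φ (e l0 x.2) *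
          emb φ (c.pc ω ω' x.1 x.2)‖ ≤ 16 * (E * E * m) := by
        refine (norm_sum_le _ _).trans ((Finset.sum_le_card_nsmul _ _ (E * E * m)
          fun x' _ => ?_).trans (le_of_eq (by simp)))
        rw [norm_mul, norm_mul]
        have := hE φ (k0, x'.1)
        have := hE φ (l0, x'.2)
        have := hx x' (Finset.mem_univ _)
        gcongr
      have h5 : 1 ≤ |(d : ℝ)| ^ 2 := one_le_pow₀ h3
      nlinarith
    have hx12 : x.1 ≠ x.2 := by
      intro h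
      have : m = 0 := by simp [hm, Ctx.pc, h]
      rw [this, mul_zero] at h1
      linarith
    have h6 : y * c.pc ω ω' x.1 x.2 ^ n = Δ x.1 x.2 * T x := by
      apply mul_left_cancel₀ (pow_ne_zero n h12)
      rw [hA0' _ _ hx12] at hy
      simp only [T]
      linear_combination (-(c.pc ω ω' x.1 x.2 ^ n)) * hy +
        ((∏ x' ∈ Finset.univ.erase x, A' x') * ((d : 𝓞 F) ^ 2) ^ (16 * n + 1)) * hrel _ _ hx12
    have h7 := congrArg (fun t => ‖emb φ t‖) h6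
    simp only [map_mul, map_pow, norm_mul, norm_pow] at h7
    have h8 : ‖emb φ y‖ * m ^ n ≤ U * K1 := by
      rw [h7]
      exact mul_le_mul (hU φ _ _ hx12) (hT φ x) (norm_nonneg _)
        ((norm_nonneg _).trans (hU φ _ _ hx12))
    have h9 : H ^ n ≤ (16 * E ^ 2) ^ n * m ^ n := by
      rw [← mul_pow]; exact pow_le_pow_left₀ hH.le h1 n
    by_contra hcon
    have h10 : m ^ n ≤ U * K1 :=
      le_trans (le_mul_of_one_le_left (by positivity) (not_lt.1 hcon)) h8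
    have h11 := mul_le_mul_of_nonneg_left h10 (show 0 ≤ (16 * E ^ 2) ^ n by positivity)
    linarith
  rw [hy0, mul_zero] at hy
  have hd0 : ((d : 𝓞 F) ^ 2) ^ (16 * n + 1) ≠ 0 :=
    pow_ne_zero _ (pow_ne_zero _ (Int.cast_ne_zero.2 hd))
  exact (mul_eq_zero.1 ((mul_eq_zero.1 hy).resolve_right hd0)).resolve_right hA0ne

theorem boxI_choose (m : ℕ) : 6 * (m + 3).choose 3 = (m + 3) * (m + 2) * (m + 1) := by
  have h := Nat.descFactorial_eq_factorial_mul_choose (m + 3) 3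
  simp only [Nat.descFactorial_succ, Nat.descFactorial_zero, Nat.factorial] at h
  rw [show m + 3 - 2 = m + 1 by omega, show m + 3 - 1 = m + 2 by omega, Nat.sub_zero] at h
  linarith

theorem boxI_num (γ βe η : ℝ) (hη : 0 ≤ η) (hβe : 0 ≤ βe) (h : 2 * βe - 2 / 3 * η < γ) :
    ∀ᶠ b : ℕ in atTop, 4 ≤ b ∧ 2 * (βe * b * ((2 * b ^ 2 + 2 : ℕ) : ℝ) - γ * (b : ℝ) ^ 3) <
      η * ((8 * (b - 1).choose 3 : ℕ) : ℝ) := by
  have hδ : 0 < γ + 2 / 3 * η - 2 * βe := by linarith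
  filter_upwards [eventually_ge_atTop 4, tendsto_natCast_atTop_atTop.eventually_gt_atTop
    ((2 * βe + 4 * η) / (γ + 2 / 3 * η - 2 * βe))] with b hb hb2
  refine ⟨hb, ?_⟩
  obtain ⟨m, rfl⟩ := Nat.exists_eq_add_of_le' hb
  rw [div_lt_iff₀ hδ] at hb2
  have h1 : (6 : ℝ) * ((m + 3).choose 3 : ℕ) = (m + 3) * (m + 2) * (m + 1) := by
    exact_mod_cast boxI_choose m
  rw [show m + 4 - 1 = m + 3 by omega]
  push_cast at hb2 ⊢
  have hm : (0 : ℝ) ≤ m := Nat.cast_nonneg m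
  set b : ℝ := m + 4 with hbd
  have hb4 : 4 ≤ b := by linarith
  have h2 : b ^ 3 - 6 * b ^ 2 ≤ 6 * ((m + 3).choose 3 : ℕ) := by
    rw [h1, hbd]; nlinarith
  have h3 := mul_le_mul_of_nonneg_left h2 hη
  have h4 := mul_lt_mul_of_pos_right hb2 (show 0 < b ^ 2 by positivity)
  have h5 : βe * b ≤ βe * b ^ 2 := mul_le_mul_of_nonneg_left (by nlinarith) hβe
  nlinarith

/-- size of the minors -/
theorem boxI_size (c : Ctx F) (C z βe γ : ℝ) (hC : 1 ≤ C) (b : ℕ)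
    (hw : ∀ S : Finset (ℕ × ℕ), S.card = 2 * b ^ 2 + 2 →
      (∀ J : ℕ, (S.filter fun x => x.2 ≤ J).card ≤
        ∑ j ∈ Finset.range (J + 1), (6 * b + 1 - 8 * j)) →
      γ * (b : ℝ) ^ 3 ≤ ∑ x ∈ S, (z * x.1 + x.2)) :
    ∃ K : ℝ, 0 ≤ K ∧ ∀ (X : ℝ) (M : ℕ) (Z : Finset ℤ) (p : ℤ → ℕ) (a β : ℤ → Fin 4 → ℤ)
      (ω ω' : Fin 4 → ℤ) (u v : ℤ → ℤ) (lam lam' : ℝ), 1 ≤ X → AllPt c C X M Z p a β →
      (∀ N ∈ Z, X / √(p N : ℝ) ≤ X ^ βe) → (∀ i j, i ≠ j → c.pc ω ω' i j ≠ 0) →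
      0 < lam → 0 < lam' → (∀ l, |(ω l : ℝ)| ≤ lam) → (∀ l, |(ω' l : ℝ)| ≤ lam') →
      (∀ N ∈ Z, a N = u N • ω + v N • ω' ∧ |(u N : ℝ)| * lam ≤ |(v N : ℝ)| * lam' ∧
        |(v N : ℝ)| * lam' ≤ C * (p N : ℝ) ^ (1 / 4 : ℝ)) → (∀ N ∈ Z, v N ≠ 0) →
      (∀ N ∈ Z, ∀ N' ∈ Z,
        |(u N : ℝ) * lam / (v N * lam') - (u N' : ℝ) * lam / (v N' * lam')| ≤ X ^ (-z)) →
      ∀ (l : Fin (2 * b ^ 2 + 2) → ℤ) (I : Fin (2 * b ^ 2 + 2) → Fin 4 → ℕ) (φ : F →+* ℂ),
        (∀ r, l r ∈ Z) → (∀ s, ∑ i, I s i = b) →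
        ‖emb φ (Matrix.of fun r s => ∏ m, c.cj (β (l r)) m ^ I s m).det‖ ≤
          K * X ^ (βe * b * ((2 * b ^ 2 + 2 : ℕ) : ℝ) - γ * (b : ℝ) ^ 3) := by
  classical
  obtain ⟨A, hA, hϑ, hup, -⟩ := size_bounds c.ϑ c.hind
  set K0 : ℝ := ((3 * A) ^ b * (3 * A) ^ (2 * b)) ^ 4 with hK0
  set C2 : ℝ := C * C * (2 * A * C) ^ 2 * ((C * C) ^ 2) ^ 4 with hC2
  refine ⟨(C2 ^ b) ^ (2 * b ^ 2 + 2) * (((2 * b ^ 2 + 2).factorial : ℝ) * K0 ^ (2 * b ^ 2 + 2)),
    by positivity, ?_⟩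
  intro X M Z p a β ω ω' u v lam lam' hX hP hβ hpc hlam hlam' hω hω' huv hv hclose l I φ hl hI
  have hX0 : 0 < X := by linarith
  let σ : ℤ → ℝ := fun N => (u N : ℝ) * lam / (v N * lam')
  let θ : Fin 4 → ℂ := fun i => emb φ (c.ϑ i)
  let l' : Fin 4 → ℂ := fun i => emb φ (c.cj ω i) / lam
  let m : Fin 4 → ℂ := fun i => emb φ (c.cj ω' i) / lam'
  let N0 := l 0
  let l0 : Fin 4 → ℂ := fun i => m i + l' i * σ N0
  let L : ℤ → Fin 4 → ℂ := fun N i => m i + l' i * σ N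
  let V : ℤ → ℝ := fun N => v N * lam'
  let τ : ℤ → Fin 2 → ℂ := fun N => ![((σ N - σ N0 : ℝ) : ℂ), (N : ℂ)⁻¹]
  let ρ : ℤ → ℂ := fun N => ((M : ℂ) * N / ((V N : ℂ) ^ 2 * ∏ i, L N i ^ 2)) ^ b
  have hlamc : (lam : ℂ) ≠ 0 := by exact_mod_cast hlam.ne'
  have hlamc' : (lam' : ℂ) ≠ 0 := by exact_mod_cast hlam'.ne'
  have hl'b : ∀ i, ‖l' i‖ ≤ A := fun i => by
    simp only [l', norm_div, Complex.norm_real, Real.norm_eq_abs, abs_of_pos hlam]
    rw [div_le_iff₀ hlam, Ctx.cj, map_pv]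
    exact hup φ i ω lam hω
  have hmb : ∀ i, ‖m i‖ ≤ A := fun i => by
    simp only [m, norm_div, Complex.norm_real, Real.norm_eq_abs, abs_of_pos hlam']
    rw [div_le_iff₀ hlam', Ctx.cj, map_pv]
    exact hup φ i ω' lam' hω'
  have hV : ∀ N ∈ Z, 0 < |V N| := fun N hN =>
    abs_pos.2 (mul_ne_zero (Int.cast_ne_zero.2 (hv N hN)) hlam'.ne')
  have hVe : ∀ N, |V N| = |(v N : ℝ)| * lam' := fun N => by
    simp only [V, abs_mul, abs_of_pos hlam']
  have hσ : ∀ N ∈ Z, |σ N| ≤ 1 := fun N hN => by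
    simp only [σ]
    rw [abs_div, div_le_one (hV N hN), abs_mul, abs_mul, abs_of_pos hlam, abs_of_pos hlam']
    exact (huv N hN).2.1
  have hLb : ∀ N ∈ Z, ∀ i, ‖L N i‖ ≤ 2 * A := fun N hN i => by
    refine (norm_add_le _ _).trans ?_
    rw [norm_mul, Complex.norm_real, Real.norm_eq_abs]
    have := mul_le_mul (hl'b i) (hσ N hN) (abs_nonneg _) (by linarith)
    linarith [hmb i]
  have hα : ∀ N ∈ Z, ∀ i, emb φ (c.cj (a N) i) = V N * L N i := fun N hN i => by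
    have hvc : ((v N : ℤ) : ℂ) ≠ 0 := Int.cast_ne_zero.2 (hv N hN)
    rw [(huv N hN).1, boxI_cj_lin]
    simp only [V, L, m, l', σ, map_add, map_mul, map_intCast]
    push_cast
    field_simp
    ring
  have hp4 : ∀ N ∈ Z, 0 < (p N : ℝ) ^ (1 / 4 : ℝ) := fun N hN => by
    have : (0 : ℝ) < p N := by exact_mod_cast (hP N hN).hp.pos
    positivity
  have hLl : ∀ N ∈ Z, ∀ i, 1 ≤ C * C * ‖L N i‖ := fun N hN i => by
    have h1 := (hP N hN).hα φ i
    rw [hα N hN, norm_mul, Complex.norm_real, Real.norm_eq_abs, hVe] at h1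
    have h2 := mul_le_mul_of_nonneg_right (huv N hN).2.2 (norm_nonneg (L N i))
    have h3 := mul_le_mul_of_nonneg_left h2 (show 0 ≤ C by linarith)
    refine le_of_mul_le_mul_right ?_ (hp4 N hN)
    linarith
  have hL0 : ∀ N ∈ Z, ∀ i, L N i ≠ 0 := fun N hN i h => by
    have := hLl N hN i
    rw [h, norm_zero, mul_zero] at this
    linarith
  have hN0 : ∀ N ∈ Z, (N : ℂ) ≠ 0 := fun N hN h => by
    have h1 : N = 0 := by exact_mod_cast h
    have := (hP N hN).hN1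
    rw [h1] at this
    simp at this
    linarith
  have hden : ∀ N ∈ Z, (V N : ℂ) ^ 2 * ∏ i, L N i ^ 2 ≠ 0 := fun N hN =>
    mul_ne_zero (pow_ne_zero _ (by exact_mod_cast abs_pos.1 (hV N hN)))
      (Finset.prod_ne_zero_iff.2 fun i _ => pow_ne_zero _ (hL0 N hN i))
  have hent : ∀ N ∈ Z, ∀ s, emb φ (∏ k, c.cj (β N) k ^ I s k) =
      ρ N * MvPolynomial.eval (τ N) (colI b l0 l' θ (I s)) := by
    intro N hN s
    have h1 := boxI_entry b (V N : ℂ) ((M : ℂ) * N) (L N) (fun i => emb φ (c.cj (β N) i))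
      (fun i => 1 - θ i * (N : ℂ)⁻¹) (fun i => by
        have h2 := congrArg (emb φ) ((hP N hN).hab i)
        rw [map_mul, map_pow, hα N hN, map_mul, map_sub, map_natCast, map_intCast] at h2
        rw [h2]
        have := hN0 N hN
        simp only [θ]
        field_simp) (I s) (hI s)
    have h3 : MvPolynomial.eval (τ N) (colI b l0 l' θ (I s)) =
        ∏ i, ((1 - θ i * (N : ℂ)⁻¹) ^ I s i * L N i ^ (2 * (b - I s i))) := by
      simp only [colI, map_prod, map_mul, map_pow, map_sub, map_add, MvPolynomial.eval_C,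
        MvPolynomial.eval_X, τ, Matrix.cons_val_zero, Matrix.cons_val_one]
      refine Finset.prod_congr rfl fun i _ => ?_
      congr 2
      simp only [l0, L]
      push_cast
      ring
    rw [h3, map_prod]
    simp only [map_pow, ρ]
    rw [div_pow, div_mul_eq_mul_div, eq_div_iff (pow_ne_zero _ (hden N hN)), mul_comm]
    exact h1
  have hdet : emb φ (Matrix.of fun r s => ∏ k, c.cj (β (l r)) k ^ I s k).det =
      (∏ r, ρ (l r)) * (Matrix.of fun r s =>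
        MvPolynomial.eval (τ (l r)) (colI b l0 l' θ (I s))).det := by
    rw [RingHom.map_det, ← Matrix.det_mul_column]
    congr 1
    ext r s
    simp only [RingHom.mapMatrix_apply, Matrix.map_apply, Matrix.of_apply]
    exact hent _ (hl r) s
  have hρ : ∀ N ∈ Z, ‖ρ N‖ ≤ (C2 * X ^ βe) ^ b := by
    intro N hN
    simp only [ρ]
    rw [norm_pow]
    refine pow_le_pow_left₀ (norm_nonneg _) ?_ b
    rw [norm_div, div_le_iff₀ (norm_pos_iff.2 (hden N hN)), norm_mul, norm_mul, norm_pow,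
      norm_prod, Complex.norm_natCast, Complex.norm_intCast, Complex.norm_real, Real.norm_eq_abs]
    have h1 : 1 ≤ ((C * C) ^ 2) ^ 4 * ∏ i, ‖L N i ^ 2‖ := by
      calc (1 : ℝ) = ∏ _i : Fin 4, (1 : ℝ) := by simp
        _ ≤ ∏ i : Fin 4, ((C * C) ^ 2 * ‖L N i ^ 2‖) := by
            refine Finset.prod_le_prod (fun _ _ => zero_le_one) fun i _ => ?_
            rw [norm_pow, ← mul_pow]
            exact one_le_pow₀ (hLl N hN i)
        _ = _ := by rw [Finset.prod_mul_distrib]; simp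
    have h2 : (p N : ℝ) ^ (1 / 4 : ℝ) ≤ 2 * A * C * |V N| := by
      have h3 := (hP N hN).hα φ 0
      rw [hα N hN, norm_mul, Complex.norm_real, Real.norm_eq_abs] at h3
      have h4 := mul_le_mul_of_nonneg_left (hLb N hN 0) (show 0 ≤ C * |V N| by positivity)
      linarith
    have hp0 : (0 : ℝ) < p N := by exact_mod_cast (hP N hN).hp.pos
    have h5 : √(p N : ℝ) ≤ (2 * A * C) ^ 2 * |V N| ^ 2 := by
      have h6 := pow_le_pow_left₀ (hp4 N hN).le h2 2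
      rw [← Real.rpow_natCast, ← Real.rpow_mul hp0.le, mul_pow] at h6
      rw [Real.sqrt_eq_rpow]
      norm_num at h6 ⊢
      exact h6
    have h7 := hβ N hN
    rw [div_le_iff₀ (Real.sqrt_pos.2 hp0)] at h7
    have hXb : 0 < X ^ βe := by positivity
    have h8 : (M : ℝ) * |(N : ℝ)| ≤ C * (C * X) :=
      mul_le_mul (hP N hN).hMC (hP N hN).hN2 (abs_nonneg _) (by linarith)
    have h9 : X ≤ X ^ βe * ((2 * A * C) ^ 2 * |V N| ^ 2) :=
      h7.trans (mul_le_mul_of_nonneg_left h5 hXb.le)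
    calc (M : ℝ) * |(N : ℝ)| ≤ C * C * X * 1 := by linarith
      _ ≤ C * C * (X ^ βe * ((2 * A * C) ^ 2 * |V N| ^ 2)) *
          (((C * C) ^ 2) ^ 4 * ∏ i, ‖L N i ^ 2‖) := by gcongr
      _ = _ := by rw [hC2]; ring
  have hω0 : ω ≠ 0 := by
    rintro rfl
    exact hpc 0 1 (by decide) (by simp [Ctx.pc, Ctx.cj, pv])
  have hdb := det_bound_gen 2 ![z, 1] (fun s => colI b l0 l' θ (I s)) K0
    (fun s => boxI_l1 b l0 l' θ A hA (hLb N0 (hl 0)) hl'b (hϑ φ) (I s) (hI s)) X hX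
    (fun r => τ (l r)) (fun r w => by
      fin_cases w
      · simp only [τ, Fin.zero_eta, Matrix.cons_val_zero, Complex.norm_real, Real.norm_eq_abs]
        exact hclose _ (hl r) _ (hl 0)
      · simp only [τ, Fin.mk_one, Matrix.cons_val_one, Matrix.cons_val_zero, norm_inv,
          Complex.norm_intCast]
        rw [Real.rpow_neg hX0.le, Real.rpow_one]
        exact inv_anti₀ hX0 (hP _ (hl r)).hN1) (γ * (b : ℝ) ^ 3) (fun g hg hd => by
      have hinj : Function.Injective fun r => (g r 0, g r 1) := fun r r' h => hg (by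
        ext w
        fin_cases w
        · exact congrArg Prod.fst h
        · exact congrArg Prod.snd h)
      have h1 := hw (Finset.univ.image fun r => (g r 0, g r 1))
        (by rw [Finset.card_image_of_injective _ hinj]; simp) (fun J => by
          rw [Finset.filter_image]
          refine Finset.card_image_le.trans ?_
          refine rank_colI b l0 l' θ (fun i => boxI_emb_inj φ ?_)
            (fun i => div_ne_zero (boxI_emb_inj φ (c.hind i ω hω0)) hlamc) (fun i j hij h => ?_)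
            I hI g hd J
          · have := c.hind i (Pi.single 1 1) (by simp)
            simpa [pv, Fin.sum_univ_four] using this
          · apply boxI_emb_inj φ (hpc i j hij)
            simp only [l0, m, l'] at h
            simp only [Ctx.pc, map_sub, map_mul]
            have e1 := mul_inv_cancel₀ hlamc
            have e2 := mul_inv_cancel₀ hlamc'
            simp only [div_eq_mul_inv] at h
            linear_combination (-(lam : ℂ) * lam') * h -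
              (emb φ (c.cj ω i) * emb φ (c.cj ω' j) - emb φ (c.cj ω j) * emb φ (c.cj ω' i)) *
                (e1 + (lam : ℂ) * (lam : ℂ)⁻¹ * e2))
      rw [Finset.sum_image fun r _ r' _ h => hinj h] at h1
      simpa [Fin.sum_univ_two] using h1)
  rw [Fintype.card_fin] at hdb
  have hρ' : ‖∏ r, ρ (l r)‖ ≤ ((C2 * X ^ βe) ^ b) ^ (2 * b ^ 2 + 2) := by
    rw [norm_prod]
    calc _ ≤ ∏ _r : Fin (2 * b ^ 2 + 2), (C2 * X ^ βe) ^ b :=
          Finset.prod_le_prod (fun _ _ => norm_nonneg _) fun r _ => hρ _ (hl r)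
      _ = _ := by simp
  rw [hdet, norm_mul]
  refine (mul_le_mul hρ' hdb (norm_nonneg _) (by positivity)).trans (le_of_eq ?_)
  rw [sub_eq_add_neg, Real.rpow_add hX0, Real.rpow_mul hX0.le, Real.rpow_mul hX0.le,
    Real.rpow_natCast, Real.rpow_natCast, mul_pow, mul_pow]
  ring

omit [NumberField F] in
theorem boxI_curve (b : ℕ) (x y θ : Fin 4 → F) (S : Finset (Fin 4 → ℕ)) (hS : ∀ I ∈ S, ∑ i, I i = b)
    (cI : (Fin 4 → ℕ) → F) :
    (∑ I ∈ S, C (C (cI I)) * ∏ i, ((X - C (C (θ i))) ^ I i *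
      C ((C (x i) * X + C (y i)) ^ (2 * (b - I i)))) : F[X][X]).natDegree ≤ 8 * b ∧
    ∀ j, ((∑ I ∈ S, C (C (cI I)) * ∏ i, ((X - C (C (θ i))) ^ I i *
      C ((C (x i) * X + C (y i)) ^ (2 * (b - I i)))) : F[X][X]).coeff j).natDegree ≤ 8 * b := by
  have e : ∀ I : Fin 4 → ℕ, (C (C (cI I)) * ∏ i, ((X - C (C (θ i))) ^ I i *
      C ((C (x i) * X + C (y i)) ^ (2 * (b - I i)))) : F[X][X]) =
      C (C (cI I) * ∏ i, (C (x i) * X + C (y i)) ^ (2 * (b - I i))) *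
        (∏ i, (X - C (θ i)) ^ I i).map C := by
    intro I
    rw [Finset.prod_mul_distrib, ← map_prod C, C_mul, Polynomial.map_prod]
    simp only [Polynomial.map_pow, Polynomial.map_sub, map_X, map_C]
    ring
  simp only [e]
  constructor
  · refine natDegree_sum_le_of_forall_le _ _ fun I hI => (natDegree_C_mul_le _ _).trans
      (natDegree_map_le.trans ((natDegree_prod_le _ _).trans ?_))
    refine le_trans (Finset.sum_le_sum fun i _ => natDegree_pow_le) ?_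
    simp only [natDegree_X_sub_C, mul_one, hS I hI]
    omega
  · intro j
    rw [finsetSum_coeff]
    refine natDegree_sum_le_of_forall_le _ _ fun I _ => ?_
    rw [coeff_C_mul, coeff_map]
    refine (natDegree_mul_C_le _ _).trans ((natDegree_C_mul_le _ _).trans
      ((natDegree_prod_le _ _).trans ?_))
    refine le_trans (Finset.sum_le_card_nsmul _ _ (2 * b) fun i _ => natDegree_pow_le.trans ?_)
      (by simp; omega)
    have := natDegree_linear_le (a := x i) (b := y i)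
    calc 2 * (b - I i) * (C (x i) * X + C (y i)).natDegree ≤ 2 * (b - I i) * 1 :=
          Nat.mul_le_mul_left _ this
      _ ≤ 2 * b := by omega

/-- Part I, surface step: the points of a short arc of an `α`-line lie on a curve. -/
theorem boxI (c : Ctx F) (C z βe η : ℝ) (hC : 1 ≤ C) (hz : 0 < z) (hz8 : z ≤ 1 / 8) (hβe : 0 ≤ βe)
    (hη : 0 ≤ η) (hnum : 2 * βe < 5 / 12 + 13 / 3 * z - 4 / 3 * z ^ 2 + 2 / 3 * η) :
    ∃ D : ℕ, ∀ᶠ X : ℝ in atTop, ∀ (M : ℕ) (Z : Finset ℤ) (p : ℤ → ℕ) (a b : ℤ → Fin 4 → ℤ)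
      (ω ω' : Fin 4 → ℤ) (u v : ℤ → ℤ) (lam lam' : ℝ), AllPt c C X M Z p a b →
      (∀ N ∈ Z, X / √(p N : ℝ) ≤ X ^ βe) →
      Finset.univ.gcd (fun kl : Fin 4 × Fin 4 => pl ω ω' kl.1 kl.2) = 1 →
      (∃ k l, X ^ η ≤ |(pl ω ω' k l : ℝ)|) → (∀ i j, i ≠ j → c.pc ω ω' i j ≠ 0) →
      0 < lam → 0 < lam' → (∀ l, |(ω l : ℝ)| ≤ lam) → (∀ l, |(ω' l : ℝ)| ≤ lam') →
      (∀ N ∈ Z, a N = u N • ω + v N • ω' ∧ |(u N : ℝ)| * lam ≤ |(v N : ℝ)| * lam' ∧
        |(v N : ℝ)| * lam' ≤ C * (p N : ℝ) ^ (1 / 4 : ℝ)) →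
      (∀ N ∈ Z, ∀ N' ∈ Z,
        |(u N : ℝ) * lam / (v N * lam') - (u N' : ℝ) * lam / (v N' * lam')| ≤ X ^ (-z)) →
      ∃ G : F[X][X], Curve F D G Z u v := by
  classical
  obtain ⟨γ, hγ1, hγ2⟩ := exists_between
    (show 2 * βe - 2 / 3 * η < 5 / 12 + 13 / 3 * z - 4 / 3 * z ^ 2 by linarith)
  obtain ⟨b, ⟨hb4, hbn⟩, hw⟩ :=
    ((boxI_num γ βe η hη hβe hγ1).and (weight_refined z γ hz hz8 hγ2)).exists
  obtain ⟨K1, hK1, hsize⟩ := boxI_size c C z βe γ hC b hw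
  set ρ := (b - 1).choose 3 with hρ
  have hρ0 : 0 < ρ := Nat.choose_pos (by omega)
  let f : Fin 4 → Fin 4 → Fin 4 → Fin 4 → 𝓞 F := fun i j k l =>
    (((c.ϑ l - c.ϑ k) * (∏ m ∈ Finset.univ.erase i, (c.ϑ i - c.ϑ m)) *
      ∏ m ∈ Finset.univ.erase j, (c.ϑ j - c.ϑ m))) ^ (4 * ρ)
  obtain ⟨K2, hK2, hgain⟩ := boxI_gain c (8 * ρ) (by omega) (fun k l => f 1 2 k l)
    (fun k l => f k l 1 2) fun k l hkl => pow_ne_zero _ (mul_ne_zero (mul_ne_zero
      (sub_ne_zero.2 fun h => hkl (c.hinj h).symm)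
      (Finset.prod_ne_zero_iff.2 fun m hm => sub_ne_zero.2 fun h =>
        Finset.ne_of_mem_erase hm (c.hinj h).symm))
      (Finset.prod_ne_zero_iff.2 fun m hm => sub_ne_zero.2 fun h =>
        Finset.ne_of_mem_erase hm (c.hinj h).symm))
  set E : ℝ := βe * b * ((2 * b ^ 2 + 2 : ℕ) : ℝ) - γ * (b : ℝ) ^ 3 with hE
  have hlim : Tendsto (fun X : ℝ => K2 * K1 ^ 2 * X ^ (-(η * ((8 * ρ : ℕ) : ℝ) - 2 * E))) atTop
      (nhds 0) := by
    simpa using (tendsto_rpow_neg_atTop (y := η * ((8 * ρ : ℕ) : ℝ) - 2 * E)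
      (by linarith)).const_mul (K2 * K1 ^ 2)
  have hex : ∀ i j : Fin 4, i ≠ j → Nonempty (Fin (2 * b ^ 2 + 2) ≃ stdI b i j) := fun i j h =>
    ⟨(Finset.equivFinOfCardEq (card_stdI b hb4 i j h)).symm⟩
  have hsum : ∀ i j, ∀ I ∈ stdI b i j, ∑ m, I m = b := fun i j I hI =>
    (Finset.mem_piAntidiag.1 (Finset.mem_filter.1 hI).1).1
  have h12 : (1 : Fin 4) ≠ 2 := by decide
  refine ⟨8 * b, ?_⟩
  filter_upwards [hlim.eventually (gt_mem_nhds zero_lt_one), eventually_ge_atTop 1] with X hX1 hX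
  intro M Z p a β ω ω' u v lam lam' hP hβ hg hkl hpc hlam hlam' hω hω' huv hclose
  have hX0 : 0 < X := by linarith
  have hv : ∀ N ∈ Z, v N ≠ 0 := by
    intro N hN h
    have h1 := (huv N hN).2.1
    rw [h, Int.cast_zero, abs_zero, zero_mul] at h1
    have h2 : u N = 0 := by
      have : |(u N : ℝ)| ≤ 0 := by nlinarith [abs_nonneg (u N : ℝ)]
      exact_mod_cast abs_nonpos_iff.1 this
    have h3 := (hP N hN).ha1
    rw [(huv N hN).1, h, h2, zero_smul, zero_smul, add_zero] at h3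
    exact zero_ne_one ((Finset.gcd_eq_zero_iff.2 fun _ _ => rfl).symm.trans h3)
  let x : Fin 4 → F := fun i => (c.cj ω i : 𝓞 F)
  let y : Fin 4 → F := fun i => (c.cj ω' i : 𝓞 F)
  let θ : Fin 4 → F := fun i => (c.ϑ i : 𝓞 F)
  have hθ : Function.Injective θ := fun i j h => c.hinj (RingOfIntegers.ext h)
  have hab : ∀ N ∈ Z, ∀ i, ((u N : F) * x i + (v N : F) * y i) ^ 2 * ((c.cj (β N) i : 𝓞 F) : F) =
      (M : F) * ((N : F) - θ i) := by
    intro N hN i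
    have h1 := congrArg (algebraMap (𝓞 F) F) ((hP N hN).hab i)
    rw [(huv N hN).1, boxI_cj_lin] at h1
    simpa only [map_mul, map_pow, map_add, map_sub, map_intCast, map_natCast] using h1
  let e12 := (hex 1 2 h12).some
  have hdet : ∀ l : Fin (2 * b ^ 2 + 2) → ℤ, (∀ r, l r ∈ Z) →
      (Matrix.of fun r s => ∏ m, ((c.cj (β (l r)) m : 𝓞 F) : F) ^ (e12 s : Fin 4 → ℕ) m).det
        = 0 := by
    intro l hl
    let Δ : Fin 4 → Fin 4 → 𝓞 F := fun i j => if h : i ≠ j then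
      (Matrix.of fun r s => ∏ m, c.cj (β (l r)) m ^ ((hex i j h).some s : Fin 4 → ℕ) m).det ^ 2
      else 0
    have hΔ : ∀ i j (h : i ≠ j), algebraMap (𝓞 F) F (Δ i j) = (Matrix.of fun r s =>
        ∏ m, ((c.cj (β (l r)) m : 𝓞 F) : F) ^ ((hex i j h).some s : Fin 4 → ℕ) m).det ^ 2 := by
      intro i j h
      simp only [Δ, dif_pos h]
      rw [map_pow, RingHom.map_det]
      refine congrArg (fun A : Matrix _ _ F => A.det ^ 2) ?_
      ext r s
      simp only [RingHom.mapMatrix_apply, Matrix.map_apply, Matrix.of_apply, map_prod, map_pow]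
    have h0 := hgain ω ω' (X ^ η) ((K1 * X ^ E) ^ 2) Δ hg (by positivity) hkl (hpc 1 2 h12)
      (fun k l' h => by
        have h1 := minors_compare x y θ hθ b hb4 (fun r m => ((c.cj (β (l r)) m : 𝓞 F) : F))
          (fun r => ⟨u (l r), v (l r), M * l r, M, Or.inr (Int.cast_ne_zero.2 (hv _ (hl r))),
            fun i => by rw [hab _ (hl r)]; ring⟩) 1 2 k l' h12 h (hex 1 2 h12).some
          (hex k l' h).some
        apply FaithfulSMul.algebraMap_injective (𝓞 F) F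
        simp only [map_mul, hΔ 1 2 h12, hΔ k l' h, f, Ctx.pc, map_pow, map_sub, map_prod]
        simp only [mul_pow, ← pow_mul] at h1 ⊢
        rw [show 2 * ρ * 2 = 4 * ρ by ring, show 4 * ρ * 2 = 8 * ρ by ring] at h1
        linear_combination h1)
      (fun φ k l' h => by
        simp only [Δ, dif_pos h]
        rw [map_pow, norm_pow]
        exact pow_le_pow_left₀ (norm_nonneg _) (hsize X M Z p a β ω ω' u v lam lam' hX hP hβ hpc
          hlam hlam' hω hω' huv hv hclose l _ φ hl fun s => hsum _ _ _ ((hex k l' h).some s).2) 2)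
      (by
        rw [neg_sub, Real.rpow_sub hX0, ← mul_div_assoc, div_lt_one (by positivity),
          Real.rpow_mul hX0.le η, Real.rpow_natCast, mul_comm 2 E, Real.rpow_mul hX0.le,
          Real.rpow_two] at hX1
        linarith)
    have h1 := hΔ 1 2 h12
    rw [h0, map_zero] at h1
    exact pow_eq_zero_iff two_ne_zero |>.1 h1.symm
  obtain ⟨cc, hc0, hc⟩ := exists_kernel Z
    (fun N s => ∏ m, ((c.cj (β N) m : 𝓞 F) : F) ^ (e12 s : Fin 4 → ℕ) m) hdet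
  let cI : (Fin 4 → ℕ) → F := fun I => if h : I ∈ stdI b 1 2 then cc (e12.symm ⟨I, h⟩) else 0
  have hcI : ∀ s, cI (e12 s) = cc s := fun s => by
    simp only [cI, dif_pos (e12 s).2, Subtype.coe_eta, Equiv.symm_apply_apply]
  have hω0 : ω ≠ 0 := by
    rintro rfl
    exact hpc 0 1 (by decide) (by simp [Ctx.pc, Ctx.cj, pv])
  obtain ⟨hd1, hd2⟩ := boxI_curve b x y θ (stdI b 1 2) (hsum 1 2) cI
  refine ⟨_, fun h => hc0 (funext fun s => ?_), hd1, hd2, fun N hN => ?_⟩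
  · rw [← hcI]
    refine stdI_indep x y θ hθ (fun i => RingOfIntegers.coe_ne_zero_iff.mpr (c.hind i ω hω0))
      (fun i j hij h' => ?_) b cI h _ (e12 s).2
    apply RingOfIntegers.coe_ne_zero_iff.mpr (hpc i j hij)
    change algebraMap (𝓞 F) F _ = 0
    simp only [Ctx.pc, map_sub, map_mul]
    exact sub_eq_zero.2 h'
  · have hvF : (v N : F) ≠ 0 := Int.cast_ne_zero.2 (hv N hN)
    have hM : (M : F) ^ b ≠ 0 := pow_ne_zero _ (Nat.cast_ne_zero.2 (hP N hN).hM0.ne')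
    apply mul_left_cancel₀ hM
    rw [mul_zero, evalEval_finsetSum, ← Finset.sum_coe_sort, ← Equiv.sum_comp e12, Finset.mul_sum,
      ← mul_zero (((v N : F) ^ 2 * ∏ i, (x i * ((u N : F) / v N) + y i) ^ 2) ^ b), ← hc N hN,
      Finset.mul_sum]
    refine Finset.sum_congr rfl fun s _ => ?_
    have h1 := boxI_entry b (v N : F) (M : F) (fun i => x i * ((u N : F) / v N) + y i)
      (fun i => ((c.cj (β N) i : 𝓞 F) : F)) (fun i => (N : F) - θ i) (fun i => by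
        rw [← hab N hN i]
        congr 2
        field_simp) (e12 s) (hsum _ _ _ (e12 s).2)
    rw [hcI]
    simp only [evalEval, eval_mul, eval_C, eval_prod, eval_pow, eval_sub, eval_X, eval_add]
    linear_combination (-cc s) * h1

end Vale.Agent.P018
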