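import Vale.Agent.P018.Q.DetGen

namespace Vale.Agent.P018

open Polynomial Filter Topology

theorem bxII_sqrt_poly (L : ℕ) :
    ∃ P Q : ℂ[X], P.eval 0 = 1 ∧ P ^ 2 = 1 + X + X ^ (L + 1) * Q := by
  induction L with
  | zero => exact ⟨1, -1, by simp, by ring⟩
  | succ L ih =>
    obtain ⟨P, Q, h0, hP⟩ := ih
    set c : ℂ := Q.eval 0 / 2 with hc
    have h1 : X ∣ Q - 2 * C c * P + C c ^ 2 * X ^ (L + 1) := by
      rw [X_dvd_iff, coeff_zero_eq_eval_zero]
      simp [h0, hc]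
      ring
    obtain ⟨Q', hQ'⟩ := h1
    refine ⟨P - C c * X ^ (L + 1), Q', by simp [h0], ?_⟩
    have : (P - C c * X ^ (L + 1)) ^ 2 =
        P ^ 2 + X ^ (L + 1) * (-(2 * C c * P) + C c ^ 2 * X ^ (L + 1)) := by ring
    rw [this, hP, pow_succ X (L + 1), mul_assoc (X ^ (L + 1)) X Q', ← hQ']
    ring

theorem bxII_sqrt_approx (L : ℕ) : ∃ (P : ℂ[X]) (δ K : ℝ), 0 < δ ∧ 0 < K ∧
    ∀ x w : ℂ, ‖x‖ ≤ δ → w ^ 2 = 1 + x → 0 ≤ w.re → ‖w - P.eval x‖ ≤ K * ‖x‖ ^ L := by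
  obtain ⟨P, Q, h0, hP⟩ := bxII_sqrt_poly L
  have h1 : ∀ᶠ x : ℂ in 𝓝 0, 1 / 2 < (P.eval x).re := by
    have hc : Continuous fun x : ℂ => (P.eval x).re := Complex.continuous_re.comp P.continuous
    exact hc.continuousAt.eventually (lt_mem_nhds (by simp [h0]; norm_num))
  have h2 : ∀ᶠ x : ℂ in 𝓝 0, ‖x * Q.eval x‖ < 1 := by
    have hc : Continuous fun x : ℂ => ‖x * Q.eval x‖ := (continuous_id.mul Q.continuous).norm
    exact hc.continuousAt.eventually (gt_mem_nhds (by simp))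
  obtain ⟨δ, hδ, hb⟩ := Metric.eventually_nhds_iff.1 (h1.and h2)
  refine ⟨P, δ / 2, 2, by linarith, by norm_num, fun x w hx hw hre => ?_⟩
  obtain ⟨h3, h4⟩ := hb (y := x) (by rw [dist_zero_right]; linarith)
  have h5 : (w - P.eval x) * (w + P.eval x) = -(x ^ L * (x * Q.eval x)) := by
    have := congrArg (eval x) hP
    simp only [eval_pow, eval_add, eval_one, eval_X, eval_mul] at this
    linear_combination hw - this
  have h6 : 1 / 2 ≤ ‖w + P.eval x‖ := by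
    have := Complex.re_le_norm (w + P.eval x)
    rw [Complex.add_re] at this
    linarith
  have h7 : ‖w - P.eval x‖ * ‖w + P.eval x‖ ≤ ‖x‖ ^ L := by
    rw [← norm_mul, h5, norm_neg, norm_mul, norm_pow]
    exact mul_le_of_le_one_right (by positivity) h4.le
  nlinarith [norm_nonneg (w - P.eval x)]

theorem bxII_l1_aeval (P : ℂ[X]) (B : ℝ) (hB : 0 ≤ B) : ∃ K : ℝ, 0 ≤ K ∧
    ∀ x : MvPolynomial (Fin 6) ℂ, l1 x ≤ B → l1 (aeval x P) ≤ K := by
  induction P using Polynomial.induction_on' with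
  | add p q hp hq =>
    obtain ⟨K1, h1, hp⟩ := hp
    obtain ⟨K2, h2, hq⟩ := hq
    refine ⟨K1 + K2, by positivity, fun x hx => ?_⟩
    rw [map_add]
    exact (l1_add_le _ _).trans (add_le_add (hp x hx) (hq x hx))
  | monomial n c =>
    refine ⟨‖c‖ * B ^ n, by positivity, fun x hx => ?_⟩
    rw [aeval_monomial]
    refine (l1_mul_le _ _).trans ?_
    rw [MvPolynomial.algebraMap_eq, l1_C]
    exact mul_le_mul_of_nonneg_left ((l1_pow_le _ _).trans (pow_le_pow_left₀ (l1_nonneg _) hx _))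
      (norm_nonneg _)

/-- weights: two light and four heavy variables -/
theorem bxII_weight {ι : Type} [Fintype ι] [DecidableEq ι] (z W : ℝ) (hz : 0 < z) (hW : 0 ≤ W)
    (g : ι → (Fin 6 →₀ ℕ)) (hg : Function.Injective g) :
    W * Fintype.card ι - (W + z + 1) ^ 3 / (6 * z) ≤
      ∑ r, ∑ v, (![z, 1, W, W, W, W] : Fin 6 → ℝ) v * g r v := by
  classical
  set A : Finset ι := Finset.univ.filter fun r => g r 2 = 0 ∧ g r 3 = 0 ∧ g r 4 = 0 ∧ g r 5 = 0
    with hA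
  have hinj : Set.InjOn (fun r => (g r 0, g r 1)) (A : Set ι) := by
    intro r hr r' hr' h
    simp only [hA, Finset.coe_filter, Finset.mem_univ, true_and, Set.mem_ofPred_eq] at hr hr'
    simp only [Prod.mk.injEq] at h
    apply hg
    ext v
    fin_cases v
    · exact h.1
    · exact h.2
    · exact hr.1.trans hr'.1.symm
    · exact hr.2.1.trans hr'.2.1.symm
    · exact hr.2.2.1.trans hr'.2.2.1.symm
    · exact hr.2.2.2.trans hr'.2.2.2.symm
  have h1 := weight_crude z W hz hW (A.image fun r => (g r 0, g r 1))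
  rw [Finset.card_image_of_injOn hinj, Finset.sum_image hinj] at h1
  have h2 : ∀ r, ∑ v, (![z, 1, W, W, W, W] : Fin 6 → ℝ) v * g r v =
      z * g r 0 + g r 1 + W * ((g r 2 + g r 3 + g r 4 + g r 5 : ℕ) : ℝ) := by
    intro r
    simp [Fin.sum_univ_succ]
    ring
  simp only [h2]
  rw [← Finset.sum_filter_add_sum_filter_not Finset.univ
    (fun r => g r 2 = 0 ∧ g r 3 = 0 ∧ g r 4 = 0 ∧ g r 5 = 0), ← hA]
  have h3 : ∑ r ∈ A, (z * g r 0 + g r 1) ≤
      ∑ r ∈ A, (z * g r 0 + g r 1 + W * ((g r 2 + g r 3 + g r 4 + g r 5 : ℕ) : ℝ)) :=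
    Finset.sum_le_sum fun r _ => le_add_of_nonneg_right (by positivity)
  set B : Finset ι := Finset.univ.filter
    fun r => ¬ (g r 2 = 0 ∧ g r 3 = 0 ∧ g r 4 = 0 ∧ g r 5 = 0) with hB
  have h4 : ∑ _r ∈ B, W ≤
      ∑ r ∈ B, (z * g r 0 + g r 1 + W * ((g r 2 + g r 3 + g r 4 + g r 5 : ℕ) : ℝ)) := by
    refine Finset.sum_le_sum fun r hr => ?_
    have h5 : 1 ≤ g r 2 + g r 3 + g r 4 + g r 5 := by
      have := (Finset.mem_filter.1 hr).2
      omega
    have h6 : (1 : ℝ) ≤ ((g r 2 + g r 3 + g r 4 + g r 5 : ℕ) : ℝ) := by exact_mod_cast h5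
    have h7 : 0 ≤ z * g r 0 + g r 1 := by positivity
    nlinarith
  have h8 : A.card + B.card = Fintype.card ι := by
    rw [hA, hB, Finset.card_filter_add_card_filter_not, Finset.card_univ]
  have h9 : (A.card : ℝ) + B.card = Fintype.card ι := by exact_mod_cast h8
  rw [Finset.sum_const, nsmul_eq_mul] at h4
  rw [← h9]
  linarith

/-- the analytic determinant bound -/
theorem bxII_det (z W Θ : ℝ) (hz : 0 < z) (hW : 0 ≤ W) (hΘ : 1 ≤ Θ) (a b : ℕ) :
    ∃ K : ℝ, 0 < K ∧ ∀ᶠ X : ℝ in atTop, ∀ (ι : Type) [Fintype ι] [DecidableEq ι]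
      (e : ι → Fin 4 → ℕ) (n : ι → ℕ) (k θ H : Fin 4 → ℂ) (σ0 : ℂ) (τ t R : ι → ℂ)
      (A w : ι → Fin 4 → ℂ), (∀ j, ∑ i, e j i = a) → (∀ j, n j ≤ b) → (∀ i, ‖k i‖ ≤ Θ) →
      (∀ i, ‖θ i‖ ≤ Θ) → (∀ i, ‖H i‖ ≤ Θ) → ‖σ0‖ ≤ 1 →
      (∀ l, ‖τ l‖ ≤ X ^ (-z)) → (∀ l, ‖t l‖ ≤ X ^ (-1 : ℝ)) →
      (∀ l i, A l i * (1 + k i * τ l) = R l * H i * w l i) →
      (∀ l i, w l i ^ 2 = (1 - θ i * t l) * (1 + k i * τ l)) → (∀ l i, 0 ≤ (w l i).re) →
      ‖(Matrix.of fun l j => (∏ i, A l i ^ e j i) * (σ0 + τ l) ^ n j).det‖ ≤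
        (∏ l, ‖R l‖ ^ a) * (((Fintype.card ι).factorial : ℝ) * K ^ Fintype.card ι *
          X ^ (-(W * Fintype.card ι - (W + z + 1) ^ 3 / (6 * z)))) := by
  set μ : ℝ := min z 1 with hμ
  have hμ0 : 0 < μ := lt_min hz one_pos
  obtain ⟨L, hL⟩ := exists_nat_ge ((W + 1) / μ)
  rw [div_le_iff₀ hμ0] at hL
  obtain ⟨P, δ, K0, hδ, hK0, hP⟩ := bxII_sqrt_approx L
  obtain ⟨K1, hK1, hl1⟩ := bxII_l1_aeval P ((1 + Θ) ^ 2 + 1) (by positivity)
  set K2 : ℝ := Θ * (K1 + 1) + (1 + Θ) with hK2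
  have hK2' : 1 ≤ K2 := by nlinarith
  refine ⟨(2 ^ a) ^ 4 * ((K2 ^ a) ^ 4 * K2 ^ b), by positivity, ?_⟩
  have ev1 : ∀ᶠ X : ℝ in atTop, 3 * Θ ^ 2 * X ^ (-μ) ≤ min δ (1 / 2) := by
    have := (tendsto_rpow_neg_atTop hμ0).const_mul (3 * Θ ^ 2)
    rw [mul_zero] at this
    exact this.eventually (ge_mem_nhds (lt_min hδ (by norm_num)))
  filter_upwards [ev1, eventually_ge_atTop 1, eventually_ge_atTop (K0 * (3 * Θ ^ 2) ^ L)]
    with X hX1 hX hX2
  intro ι _ _ e n k θ H σ0 τ t R A w he hn hk hθ hH hσ hτ ht hA hw hre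
  have hX0 : 0 < X := by linarith
  have hτ' : ∀ l, ‖τ l‖ ≤ X ^ (-μ) := fun l => (hτ l).trans
    (Real.rpow_le_rpow_of_exponent_le hX (neg_le_neg (min_le_left _ _)))
  have ht' : ∀ l, ‖t l‖ ≤ X ^ (-μ) := fun l => (ht l).trans
    (Real.rpow_le_rpow_of_exponent_le hX (neg_le_neg (min_le_right _ _)))
  have hY0 : 0 < X ^ (-μ) := Real.rpow_pos_of_pos hX0 _
  have hY1 : X ^ (-μ) ≤ 1 := Real.rpow_le_one_of_one_le_of_nonpos hX (by linarith)
  set Y := X ^ (-μ) with hY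
  have hΘY : Θ * Y ≤ Θ ^ 2 * Y := by gcongr; nlinarith
  have hkτ : ∀ l i, ‖k i * τ l‖ ≤ Θ * Y := fun l i => by
    rw [norm_mul]; exact mul_le_mul (hk i) (hτ' l) (norm_nonneg _) (by linarith)
  have hθt : ∀ l i, ‖θ i * t l‖ ≤ Θ * Y := fun l i => by
    rw [norm_mul]; exact mul_le_mul (hθ i) (ht' l) (norm_nonneg _) (by linarith)
  let x : ι → Fin 4 → ℂ := fun l i => (1 - θ i * t l) * (1 + k i * τ l) - 1
  have hx : ∀ l i, ‖x l i‖ ≤ 3 * Θ ^ 2 * Y := by
    intro l i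
    have e1 : x l i = k i * τ l - θ i * t l - (θ i * t l) * (k i * τ l) := by simp only [x]; ring
    have e2 : ‖(θ i * t l) * (k i * τ l)‖ ≤ (Θ * Y) * (Θ * Y) := by
      rw [norm_mul]; exact mul_le_mul (hθt l i) (hkτ l i) (norm_nonneg _) (by positivity)
    have e3 : (Θ * Y) * (Θ * Y) ≤ Θ ^ 2 * Y := by
      have : (Θ * Y) * (Θ * Y) = Θ ^ 2 * Y * Y := by ring
      rw [this]
      exact mul_le_of_le_one_right (by positivity) hY1
    rw [e1]
    have e4 := norm_sub_le (k i * τ l - θ i * t l) ((θ i * t l) * (k i * τ l))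
    have e5 := norm_sub_le (k i * τ l) (θ i * t l)
    linarith [hkτ l i, hθt l i]
  let ρ : ι → Fin 4 → ℂ := fun l i => w l i - P.eval (x l i)
  have hρ : ∀ l i, ‖ρ l i‖ ≤ X ^ (-W) := by
    intro l i
    have e1 := hP (x l i) (w l i) ((hx l i).trans (hX1.trans (min_le_left _ _)))
      (by rw [hw]; simp only [x]; ring) (hre l i)
    have e2 : ‖x l i‖ ^ L ≤ (3 * Θ ^ 2) ^ L * X ^ (-(W + 1)) := by
      refine (pow_le_pow_left₀ (norm_nonneg _) (hx l i) L).trans ?_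
      rw [mul_pow, hY, ← Real.rpow_mul_natCast hX0.le]
      gcongr
      linarith
    calc ‖ρ l i‖ ≤ K0 * ((3 * Θ ^ 2) ^ L * X ^ (-(W + 1))) := e1.trans (by gcongr)
      _ = (K0 * (3 * Θ ^ 2) ^ L) * X ^ (-(W + 1)) := by ring
      _ ≤ X ^ (1 : ℝ) * X ^ (-(W + 1)) := by rw [Real.rpow_one]; gcongr
      _ = X ^ (-W) := by rw [← Real.rpow_add hX0]; congr 1; ring
  let xp : Fin 4 → MvPolynomial (Fin 6) ℂ := fun i =>
    (MvPolynomial.C 1 + MvPolynomial.C (-θ i) * MvPolynomial.X 1) *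
      (MvPolynomial.C 1 + MvPolynomial.C (k i) * MvPolynomial.X 0) + MvPolynomial.C (-1)
  let Q : ι → MvPolynomial (Fin 6) ℂ := fun j =>
    (∏ i, (MvPolynomial.C (H i) * (aeval (xp i) P + MvPolynomial.X i.succ.succ)) ^ e j i *
      (MvPolynomial.C 1 + MvPolynomial.C (k i) * MvPolynomial.X 0) ^ (a - e j i)) *
      (MvPolynomial.C σ0 + MvPolynomial.X 0) ^ n j
  have hlin : ∀ (c : ℂ) (v : Fin 6), ‖c‖ ≤ Θ →
      l1 (MvPolynomial.C 1 + MvPolynomial.C c * MvPolynomial.X v : MvPolynomial (Fin 6) ℂ) ≤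
        1 + Θ := by
    intro c v hc
    refine (l1_add_le _ _).trans ?_
    have := l1_mul_le (MvPolynomial.C c : MvPolynomial (Fin 6) ℂ) (MvPolynomial.X v)
    rw [l1_C, l1_X, mul_one] at this
    rw [l1_C, norm_one]
    linarith
  have hxp : ∀ i, l1 (xp i) ≤ (1 + Θ) ^ 2 + 1 := by
    intro i
    refine (l1_add_le _ _).trans ?_
    rw [l1_C, norm_neg, norm_one, sq]
    refine add_le_add ((l1_mul_le _ _).trans ?_) le_rfl
    exact mul_le_mul (hlin _ _ (by rw [norm_neg]; exact hθ i)) (hlin _ _ (hk i)) (l1_nonneg _)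
      (by linarith)
  have hei : ∀ j i, e j i ≤ a := fun j i => (he j) ▸
    Finset.single_le_sum (f := e j) (fun _ _ => Nat.zero_le _) (Finset.mem_univ i)
  have hQ : ∀ j, l1 (Q j) ≤ (K2 ^ a) ^ 4 * K2 ^ b := by
    intro j
    refine (l1_mul_le _ _).trans (mul_le_mul ?_ ?_ (l1_nonneg _) (by positivity))
    · refine (l1_prod_le _ _).trans ?_
      calc _ ≤ ∏ _i : Fin 4, K2 ^ a := by
            refine Finset.prod_le_prod (fun _ _ => l1_nonneg _) fun i _ => ?_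
            have f1 : l1 (MvPolynomial.C (H i) * (aeval (xp i) P + MvPolynomial.X i.succ.succ)) ≤
                K2 := by
              refine (l1_mul_le _ _).trans ?_
              have f2 : l1 (aeval (xp i) P + MvPolynomial.X i.succ.succ) ≤ K1 + 1 := by
                refine (l1_add_le _ _).trans ?_
                rw [l1_X]
                exact add_le_add (hl1 _ (hxp i)) le_rfl
              rw [l1_C]
              have := mul_le_mul (hH i) f2 (l1_nonneg _) (by linarith)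
              linarith
            have f3 : l1 (MvPolynomial.C 1 + MvPolynomial.C (k i) * MvPolynomial.X 0 :
                MvPolynomial (Fin 6) ℂ) ≤ K2 := by
              refine (hlin _ _ (hk i)).trans ?_
              have : 0 ≤ Θ * (K1 + 1) := by positivity
              linarith
            refine (l1_mul_le _ _).trans ?_
            have f4 : K2 ^ a = K2 ^ e j i * K2 ^ (a - e j i) := by
              rw [← pow_add, Nat.add_sub_cancel' (hei j i)]
            rw [f4]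
            exact mul_le_mul ((l1_pow_le _ _).trans (pow_le_pow_left₀ (l1_nonneg _) f1 _))
              ((l1_pow_le _ _).trans (pow_le_pow_left₀ (l1_nonneg _) f3 _)) (l1_nonneg _)
              (by positivity)
        _ = _ := by simp
    · have f1 : l1 (MvPolynomial.C σ0 + MvPolynomial.X 0 : MvPolynomial (Fin 6) ℂ) ≤ K2 := by
        refine (l1_add_le _ _).trans ?_
        rw [l1_C, l1_X]
        have : 0 ≤ Θ * (K1 + 1) := by positivity
        linarith
      exact (l1_pow_le _ _).trans ((pow_le_pow_left₀ (l1_nonneg _) f1 _).trans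
        (pow_le_pow_right₀ hK2' (hn j)))
  let tt : ι → Fin 6 → ℂ := fun l => Fin.cons (τ l) (Fin.cons (t l) (ρ l))
  have htt : ∀ l v, ‖tt l v‖ ≤ X ^ (-(![z, 1, W, W, W, W] : Fin 6 → ℝ) v) := by
    intro l v
    fin_cases v
    · exact hτ l
    · exact ht l
    · exact hρ l 0
    · exact hρ l 1
    · exact hρ l 2
    · exact hρ l 3
  have hdb := det_bound_gen 6 ![z, 1, W, W, W, W] Q _ hQ X hX tt htt _
    (fun g hg _ => bxII_weight z W hz hW g hg)
  have hev : ∀ l j, (∏ i, (1 + k i * τ l) ^ a) * ((∏ i, A l i ^ e j i) * (σ0 + τ l) ^ n j) =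
      R l ^ a * MvPolynomial.eval (tt l) (Q j) := by
    intro l j
    have f0 : tt l 0 = τ l := rfl
    have f1 : tt l 1 = t l := rfl
    have f2 : ∀ i : Fin 4, tt l i.succ.succ = ρ l i := fun i => rfl
    have f3 : ∀ i, MvPolynomial.eval (tt l) (aeval (xp i) P) = P.eval (x l i) := by
      intro i
      have g1 : MvPolynomial.eval (tt l) (xp i) = x l i := by
        simp only [xp, x, map_add, map_mul, MvPolynomial.eval_C, MvPolynomial.eval_X, f0, f1]
        ring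
      rw [← g1, aeval_def, hom_eval₂, eval]
      congr 1
      ext c
      simp
    simp only [Q, map_mul, map_prod, map_pow, map_add, MvPolynomial.eval_C, MvPolynomial.eval_X,
      f0, f2, f3]
    rw [← he j, ← Finset.prod_pow_eq_pow_sum Finset.univ (e j) (R l), he j, ← mul_assoc,
      ← mul_assoc, ← Finset.prod_mul_distrib, ← Finset.prod_mul_distrib]
    congr 1
    refine Finset.prod_congr rfl fun i _ => ?_
    have f4 : (1 + k i * τ l) ^ a = (1 + k i * τ l) ^ e j i * (1 + k i * τ l) ^ (a - e j i) := by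
      rw [← pow_add, Nat.add_sub_cancel' (hei j i)]
    have f5 : P.eval (x l i) + ρ l i = w l i := by simp only [ρ]; ring
    rw [f4, f5, ← mul_assoc (R l ^ e j i), ← mul_pow, ← mul_assoc (R l), ← hA, mul_pow]
    ring
  have hdet : (∏ l, ∏ i, (1 + k i * τ l) ^ a) *
      (Matrix.of fun l j => (∏ i, A l i ^ e j i) * (σ0 + τ l) ^ n j).det =
      (∏ l, R l ^ a) * (Matrix.of fun l j => MvPolynomial.eval (tt l) (Q j)).det := by
    rw [← Matrix.det_mul_column, ← Matrix.det_mul_column]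
    congr 1
    ext l j
    exact hev l j
  have hlow : 1 ≤ ((2 ^ a) ^ 4 : ℝ) ^ Fintype.card ι * ‖∏ l, ∏ i, (1 + k i * τ l) ^ a‖ := by
    rw [norm_prod, ← Finset.card_univ, ← Finset.prod_const, ← Finset.prod_mul_distrib]
    refine Finset.one_le_prod fun l _ => ?_
    have : ((2 ^ a) ^ 4 : ℝ) = ∏ _i : Fin 4, (2 : ℝ) ^ a := by simp
    rw [this, norm_prod, ← Finset.prod_mul_distrib]
    refine Finset.one_le_prod fun i _ => ?_
    rw [norm_pow, ← mul_pow]
    refine one_le_pow₀ ?_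
    have f1 := norm_sub_le (1 + k i * τ l) (k i * τ l)
    rw [add_sub_cancel_right, norm_one] at f1
    have f2 : 3 * Θ ^ 2 * Y ≤ 1 / 2 := hX1.trans (min_le_right _ _)
    have f3 : 0 ≤ Θ ^ 2 * Y := by positivity
    linarith [hkτ l i]
  have hn1 := congrArg norm hdet
  rw [norm_mul, norm_mul, norm_prod _ (fun l => R l ^ a)] at hn1
  simp only [norm_pow] at hn1
  calc _ ≤ (((2 ^ a) ^ 4 : ℝ) ^ Fintype.card ι * ‖∏ l, ∏ i, (1 + k i * τ l) ^ a‖) *
        ‖(Matrix.of fun l j => (∏ i, A l i ^ e j i) * (σ0 + τ l) ^ n j).det‖ :=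
        le_mul_of_one_le_left (norm_nonneg _) hlow
    _ = ((2 ^ a) ^ 4 : ℝ) ^ Fintype.card ι * ((∏ l, ‖R l‖ ^ a) *
        ‖(Matrix.of fun l j => MvPolynomial.eval (tt l) (Q j)).det‖) := by rw [mul_assoc, hn1]
    _ ≤ ((2 ^ a) ^ 4 : ℝ) ^ Fintype.card ι * ((∏ l, ‖R l‖ ^ a) *
        (((Fintype.card ι).factorial : ℝ) * ((K2 ^ a) ^ 4 * K2 ^ b) ^ Fintype.card ι *
          X ^ (-(W * Fintype.card ι - (W + z + 1) ^ 3 / (6 * z))))) := by gcongr
    _ = _ := by rw [mul_pow ((2 ^ a) ^ 4 : ℝ)]; ring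

end Vale.Agent.P018
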