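import Vale.Agent.P018.Q.Defs

namespace Vale.Agent.P018

open Polynomial

/-- the monomials `∏ (N - θ_i) ^ I_i * β_i ^ (a - I_i) * s ^ j` -/
noncomputable def monII {K : Type} [Field K] (x y θ : Fin 4 → K) (a : ℕ)
    (Ij : (Fin 4 → ℕ) × ℕ) : K[X][X] :=
  (∏ i, ((X - C (C (θ i))) ^ Ij.1 i * C ((C (x i) * X + C (y i)) ^ (a - Ij.1 i)))) *
    C (X ^ Ij.2)

namespace MonIIAux

open Module

variable {K : Type} [Field K] (x y θ : Fin 4 → K)

/-- the linear forms -/
noncomputable def be (i : Fin 4) : K[X] := C (x i) * X + C (y i)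

/-- the cubics -/
noncomputable def qq (i : Fin 4) : K[X] := ∏ k ∈ Finset.univ.erase i, be x y k

/-- the index set -/
def idx (a b : ℕ) : Set ((Fin 4 → ℕ) × ℕ) := {Ij | ∑ i, Ij.1 i = a ∧ Ij.2 ≤ b}

theorem idx_finite (a b : ℕ) : (idx a b).Finite := by
  refine ((Fintype.piFinset (fun _ : Fin 4 => Finset.range (a + 1))) ×ˢ
    Finset.range (b + 1)).finite_toSet.subset (fun Ij h => ?_)
  simp only [Finset.coe_product, Set.mem_prod, Finset.mem_coe, Fintype.mem_piFinset,
    Finset.mem_range]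
  refine ⟨fun i => ?_, Nat.lt_succ_of_le h.2⟩
  have := Finset.single_le_sum (f := Ij.1) (fun i _ => Nat.zero_le _) (Finset.mem_univ i)
  have h1 := h.1
  omega

/-- the span of the monomials -/
noncomputable def V (a b : ℕ) : Submodule K K[X][X] :=
  Submodule.span K (monII x y θ a '' idx a b)

theorem V_fin (a b : ℕ) : Module.Finite K (V x y θ a b) :=
  Module.Finite.span_of_finite K ((idx_finite a b).image _)

theorem V_mem {a b : ℕ} {Ij : (Fin 4 → ℕ) × ℕ} (h : Ij ∈ idx a b) {f : K[X][X]}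
    (e : monII x y θ a Ij = f) : f ∈ V x y θ a b :=
  Submodule.subset_span (Set.mem_image_of_mem _ h) |> fun h' => e ▸ h'

theorem span_ind {ι M N : Type} [AddCommGroup M] [Module K M] [AddCommGroup N] [Module K N]
    (v : ι → M) (s : Set ι) (φ : M →ₗ[K] N) (W : Submodule K N) (h : ∀ i ∈ s, φ (v i) ∈ W) {f : M}
    (hf : f ∈ Submodule.span K (v '' s)) : φ f ∈ W := by
  have : Submodule.span K (v '' s) ≤ W.comap φ := by
    refine Submodule.span_le.2 ?_
    rintro _ ⟨i, hi, rfl⟩
    exact h i hi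
  exact this hf

theorem rank_step {M N : Type} [AddCommGroup M] [Module K M] [AddCommGroup N] [Module K N]
    (φ : M →ₗ[K] N) (U W : Submodule K M) [Module.Finite K U] (ψ : M →ₗ[K] M)
    (hψ : Function.Injective ψ) (h1 : ∀ f ∈ W, ψ f ∈ U) (h2 : ∀ f ∈ W, φ (ψ f) = 0) :
    finrank K (U.map φ) + finrank K W ≤ finrank K U := by
  have h := LinearMap.finrank_range_add_finrank_ker (φ.domRestrict U)
  rw [LinearMap.range_domRestrict] at h
  let χ : W →ₗ[K] LinearMap.ker (φ.domRestrict U) :=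
    { toFun := fun f => ⟨⟨ψ f.1, h1 f.1 f.2⟩, h2 f.1 f.2⟩
      map_add' := fun f g => Subtype.ext (Subtype.ext (map_add ψ _ _))
      map_smul' := fun r f => Subtype.ext (Subtype.ext (map_smul ψ _ _)) }
  have hχ : Function.Injective χ := fun f g h =>
    Subtype.ext (hψ (congrArg (fun z => z.1.1) h))
  have h4 := LinearMap.finrank_le_finrank_of_injective hχ
  omega

theorem V_ind {a b : ℕ} (W : Submodule K K[X][X]) (g : K[X][X])
    (h : ∀ Ij ∈ idx a b, g * monII x y θ a Ij ∈ W) {f : K[X][X]} (hf : f ∈ V x y θ a b) :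
    g * f ∈ W := by
  have := span_ind (monII x y θ a) (idx a b) (LinearMap.mulLeft K g) W
    (fun Ij hIj => by rw [LinearMap.mulLeft_apply]; exact h Ij hIj) hf
  rwa [LinearMap.mulLeft_apply] at this

theorem V_mono {a b : ℕ} {f : K[X][X]} (hf : f ∈ V x y θ a b) : f ∈ V x y θ a (b + 1) :=
  Submodule.span_mono (Set.image_mono (show idx a b ⊆ idx a (b + 1) from
    fun _ h => ⟨h.1, Nat.le_succ_of_le h.2⟩)) hf

theorem V_X {a b : ℕ} {f : K[X][X]} (hf : f ∈ V x y θ a b) : C X * f ∈ V x y θ a (b + 1) := by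
  refine V_ind x y θ _ _ (fun Ij h => V_mem x y θ (Ij := (Ij.1, Ij.2 + 1))
    ⟨h.1, Nat.succ_le_succ h.2⟩ ?_) hf
  simp only [monII, pow_succ, map_mul]
  ring

theorem V_be {a b : ℕ} (i : Fin 4) {f : K[X][X]} (hf : f ∈ V x y θ a b) :
    C (be x y i) * f ∈ V x y θ a (b + 1) := by
  have e : C (be x y i) * f = x i • (C X * f) + y i • f := by
    simp only [be, map_add, map_mul, Algebra.smul_def, Polynomial.algebraMap_apply,
      Algebra.algebraMap_self, RingHom.id_apply]
    ring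
  rw [e]
  exact add_mem (Submodule.smul_mem _ _ (V_X x y θ hf)) (Submodule.smul_mem _ _ (V_mono x y θ hf))

theorem V_u {a b : ℕ} (i : Fin 4) {f : K[X][X]} (hf : f ∈ V x y θ a b) :
    (X - C (C (θ i))) * C (qq x y i) * f ∈ V x y θ (a + 1) b := by
  refine V_ind x y θ _ _ (fun Ij h => V_mem x y θ
    (Ij := (Function.update Ij.1 i (Ij.1 i + 1), Ij.2)) ⟨?_, h.2⟩ ?_) hf
  · have h1 := h.1
    rw [← Finset.add_sum_erase _ _ (Finset.mem_univ i)] at h1
    show ∑ k, Function.update Ij.1 i (Ij.1 i + 1) k = a + 1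
    rw [Finset.sum_update_of_mem (Finset.mem_univ i), Finset.sdiff_singleton_eq_erase]
    omega
  · have hle : ∀ k, Ij.1 k ≤ a := fun k => h.1 ▸
      Finset.single_le_sum (f := Ij.1) (fun i _ => Nat.zero_le _) (Finset.mem_univ k)
    simp only [monII]
    rw [← Finset.mul_prod_erase _ _ (Finset.mem_univ i),
      ← Finset.mul_prod_erase Finset.univ _ (Finset.mem_univ i), Function.update_self,
      Nat.add_sub_add_right]
    have e : ∏ k ∈ Finset.univ.erase i, ((X - C (C (θ k))) ^ Function.update Ij.1 i (Ij.1 i + 1) k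
          * C ((C (x k) * X + C (y k)) ^ (a + 1 - Function.update Ij.1 i (Ij.1 i + 1) k)))
        = C (qq x y i) * ∏ k ∈ Finset.univ.erase i,
          ((X - C (C (θ k))) ^ Ij.1 k * C ((C (x k) * X + C (y k)) ^ (a - Ij.1 k))) := by
      rw [qq, map_prod, ← Finset.prod_mul_distrib]
      refine Finset.prod_congr rfl (fun k hk => ?_)
      rw [Function.update_of_ne (Finset.ne_of_mem_erase hk), Nat.sub_add_comm (hle k), pow_succ,
        map_mul, be]
      ring
    rw [e]
    ring

theorem be_qq (i : Fin 4) : be x y i * qq x y i = ∏ k, be x y k :=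
  Finset.mul_prod_erase _ _ (Finset.mem_univ i)

theorem V_Pi (hθ : θ 0 ≠ θ 1) {a b : ℕ} {f : K[X][X]} (hf : f ∈ V x y θ a b) :
    C (∏ k, be x y k) * f ∈ V x y θ (a + 1) (b + 1) := by
  have h0 := V_be x y θ 0 (V_u x y θ 0 hf)
  have h1 := V_be x y θ 1 (V_u x y θ 1 hf)
  have h2 := Submodule.smul_mem _ (θ 0 - θ 1)⁻¹ (sub_mem h1 h0)
  have e : C (be x y 1) * ((X - C (C (θ 1))) * C (qq x y 1) * f)
      - C (be x y 0) * ((X - C (C (θ 0))) * C (qq x y 0) * f)
      = (θ 0 - θ 1) • (C (∏ k, be x y k) * f) := by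
    have e0 := congrArg C (be_qq x y 0)
    have e1 := congrArg C (be_qq x y 1)
    rw [map_mul] at e0 e1
    simp only [Algebra.smul_def, Polynomial.algebraMap_apply, Algebra.algebraMap_self,
      RingHom.id_apply, map_sub]
    linear_combination (X - C (C (θ 1))) * f * e1 - (X - C (C (θ 0))) * f * e0
  rwa [e, smul_smul, inv_mul_cancel₀ (sub_ne_zero.2 hθ), one_smul] at h2

theorem lc_apply (n : ℕ) (f : K[X][X]) : (lcoeff K[X] n).restrictScalars K f = f.coeff n := rfl

theorem V_deg {a b : ℕ} {f : K[X][X]} (hf : f ∈ V x y θ a b) : f.coeff (a + 1) = 0 := by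
  have := span_ind (monII x y θ a) (idx a b) ((lcoeff K[X] (a + 1)).restrictScalars K) ⊥
    (fun Ij hIj => ?_) hf
  · rwa [lc_apply, Submodule.mem_bot] at this
  rw [lc_apply, Submodule.mem_bot]
  refine coeff_eq_zero_of_natDegree_lt (Nat.lt_succ_of_le ?_)
  rw [monII]
  refine le_trans (natDegree_mul_C_le _ _) (le_trans (natDegree_prod_le _ _) ?_)
  refine le_trans (Finset.sum_le_sum (fun i _ => le_trans (natDegree_mul_C_le _ _) ?_)) hIj.1.le
  refine le_trans natDegree_pow_le ?_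
  rw [natDegree_X_sub_C, mul_one]

/-- the top coefficients -/
noncomputable def T (a b : ℕ) : Submodule K K[X] :=
  (V x y θ a b).map ((lcoeff K[X] a).restrictScalars K)

theorem T_qq {a b : ℕ} (i : Fin 4) {g : K[X]} (hg : g ∈ T x y θ a b) :
    qq x y i * g ∈ T x y θ (a + 1) b := by
  obtain ⟨f, hf, rfl⟩ := hg
  refine ⟨_, V_u x y θ i hf, ?_⟩
  rw [lc_apply, lc_apply, mul_right_comm, coeff_mul_C, sub_mul, coeff_sub, coeff_X_mul, coeff_C_mul,
    V_deg x y θ hf]
  ring

theorem lin {M : Submodule K K[X]} {i j : Fin 4} (h : x i * y j ≠ x j * y i) {g : K[X]}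
    (hi : be x y i * g ∈ M) (hj : be x y j * g ∈ M) {e : ℕ} (he : e ≤ 1) : X ^ e * g ∈ M := by
  have hd := sub_ne_zero.2 h
  obtain rfl | rfl : e = 0 ∨ e = 1 := by omega
  · have h2 := M.smul_mem (x i * y j - x j * y i)⁻¹
      (sub_mem (M.smul_mem (x i) hj) (M.smul_mem (x j) hi))
    have e : x i • (be x y j * g) - x j • (be x y i * g) = (x i * y j - x j * y i) • (X ^ 0 * g) := by
      simp only [be, smul_eq_C_mul, map_sub, map_mul]
      ring
    rwa [e, smul_smul, inv_mul_cancel₀ hd, one_smul] at h2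
  · have h2 := M.smul_mem (x i * y j - x j * y i)⁻¹
      (sub_mem (M.smul_mem (y j) hi) (M.smul_mem (y i) hj))
    have e : y j • (be x y i * g) - y i • (be x y j * g) = (x i * y j - x j * y i) • (X ^ 1 * g) := by
      simp only [be, smul_eq_C_mul, map_sub, map_mul]
      ring
    rwa [e, smul_smul, inv_mul_cancel₀ hd, one_smul] at h2

theorem cubic (hp : ∀ i j, i ≠ j → x i * y j ≠ x j * y i) {M : Submodule K K[X]} {g : K[X]}
    (h : ∀ i, qq x y i * g ∈ M) {r : ℕ} (hr : r ≤ 3) : X ^ r * g ∈ M := by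
  have q0 : qq x y 0 = be x y 1 * be x y 2 * be x y 3 := by
    rw [qq, show Finset.univ.erase (0 : Fin 4) = {1, 2, 3} by decide]
    simp [mul_assoc]
  have q1 : qq x y 1 = be x y 0 * be x y 2 * be x y 3 := by
    rw [qq, show Finset.univ.erase (1 : Fin 4) = {0, 2, 3} by decide]
    simp [mul_assoc]
  have q2 : qq x y 2 = be x y 0 * be x y 1 * be x y 3 := by
    rw [qq, show Finset.univ.erase (2 : Fin 4) = {0, 1, 3} by decide]
    simp [mul_assoc]
  have q3 : qq x y 3 = be x y 0 * be x y 1 * be x y 2 := by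
    rw [qq, show Finset.univ.erase (3 : Fin 4) = {0, 1, 2} by decide]
    simp [mul_assoc]
  have h0 := h 0
  have h1 := h 1
  have h2 := h 2
  have h3 := h 3
  rw [q0] at h0
  rw [q1] at h1
  rw [q2] at h2
  rw [q3] at h3
  obtain ⟨e1, e2, e3, k1, k2, k3, rfl⟩ : ∃ e1 e2 e3, e1 ≤ 1 ∧ e2 ≤ 1 ∧ e3 ≤ 1 ∧
      r = e1 + e2 + e3 := ⟨min r 1, min (r - 1) 1, r - 2, by omega, by omega, by omega, by omega⟩
  have c : ∀ {p p' : K[X]}, p ∈ M → p' = p → p' ∈ M := fun h e => e ▸ h
  have a01 := lin x y (hp 2 3 (by decide)) (g := be x y 0 * be x y 1 * g) (c h3 (by ring))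
    (c h2 (by ring)) k3
  have a02 := lin x y (hp 1 3 (by decide)) (g := be x y 0 * be x y 2 * g) (c h3 (by ring))
    (c h1 (by ring)) k3
  have a12 := lin x y (hp 0 3 (by decide)) (g := be x y 1 * be x y 2 * g) (c h3 (by ring))
    (c h0 (by ring)) k3
  have b0 := lin x y (hp 1 2 (by decide)) (g := be x y 0 * X ^ e3 * g) (c a01 (by ring))
    (c a02 (by ring)) k2
  have b1 := lin x y (hp 0 2 (by decide)) (g := be x y 1 * X ^ e3 * g) (c a01 (by ring))
    (c a12 (by ring)) k2
  exact c (lin x y (hp 0 1 (by decide)) (g := X ^ e2 * X ^ e3 * g) (c b0 (by ring))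
    (c b1 (by ring)) k1) (by ring)

theorem T_pow (hp : ∀ i j, i ≠ j → x i * y j ≠ x j * y i) (a b : ℕ) :
    ∀ m ≤ 3 * a + b, X ^ m ∈ T x y θ a b := by
  induction a with
  | zero =>
    intro m hm
    refine ⟨C (X ^ m), V_mem x y θ (Ij := (0, m)) ⟨by simp, by simpa using hm⟩ (by simp [monII]),
      ?_⟩
    rw [lc_apply, coeff_C_zero]
  | succ a ih =>
    intro m hm
    have h1 := ih (m - 3) (by omega)
    have h2 := cubic x y hp (fun i => T_qq x y θ i h1) (r := min m 3) (by omega)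
    rwa [← pow_add, show min m 3 + (m - 3) = m by omega] at h2

theorem T_rank (hp : ∀ i j, i ≠ j → x i * y j ≠ x j * y i) (a b : ℕ) :
    3 * a + b + 1 ≤ finrank K (T x y θ a b) := by
  classical
  have := V_fin x y θ a b
  have h1 : degreeLT K (3 * a + b + 1) ≤ T x y θ a b := by
    rw [degreeLT_eq_span_X_pow, Submodule.span_le]
    intro p hp'
    simp only [Finset.coe_image, Finset.coe_range, Set.mem_image, Set.mem_Iio] at hp'
    obtain ⟨m, hm, rfl⟩ := hp'
    exact T_pow x y θ hp a b m (by omega)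
  have h2 : Module.Finite K (T x y θ a b) := Module.Finite.map _ _
  have h3 := Submodule.finrank_mono h1
  rwa [(degreeLTEquiv K _).finrank_eq, Module.finrank_fin_fun] at h3

theorem be_ne (hp : ∀ i j, i ≠ j → x i * y j ≠ x j * y i) (i : Fin 4) : be x y i ≠ 0 := by
  intro h
  obtain ⟨j, hj⟩ := exists_ne i
  have h0 := congrArg (fun p => p.coeff 0) h
  have h1 := congrArg (fun p => p.coeff 1) h
  simp [be] at h0 h1
  exact hp j i hj (by rw [h0, h1]; ring)

theorem V_rank (hθ : θ 0 ≠ θ 1) (hp : ∀ i j, i ≠ j → x i * y j ≠ x j * y i) (a c : ℕ) :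
    (a + 1) * (2 * a + c + 1) ≤ finrank K (V x y θ a (a + c)) := by
  induction a with
  | zero =>
    have := V_fin x y θ 0 (0 + c)
    have h1 := Submodule.finrank_map_le ((lcoeff K[X] 0).restrictScalars K) (V x y θ 0 (0 + c))
    have h2 := T_rank x y θ hp 0 (0 + c)
    rw [T] at h2
    omega
  | succ a ih =>
    have := V_fin x y θ (a + 1) (a + c + 1)
    have h1 := rank_step ((lcoeff K[X] (a + 1)).restrictScalars K) (V x y θ (a + 1) (a + c + 1))
      (V x y θ a (a + c)) (LinearMap.mulLeft K (C (∏ k, be x y k))) (fun f g h => ?_)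
      (fun f hf => ?_) (fun f hf => ?_)
    · have h2 := T_rank x y θ hp (a + 1) (a + c + 1)
      rw [T] at h2
      rw [show a + 1 + c = a + c + 1 by ring]
      have e : (a + 1 + 1) * (2 * (a + 1) + c + 1)
          = (a + 1) * (2 * a + c + 1) + (3 * (a + 1) + (a + c + 1) + 1) := by ring
      omega
    · rw [LinearMap.mulLeft_apply, LinearMap.mulLeft_apply] at h
      exact mul_left_cancel₀ (C_ne_zero.2
        (Finset.prod_ne_zero_iff.2 (fun k _ => be_ne x y hp k))) h
    · rw [LinearMap.mulLeft_apply]; exact V_Pi x y θ hθ hf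
    · rw [LinearMap.mulLeft_apply, lc_apply, coeff_C_mul, V_deg x y θ hf, mul_zero]

end MonIIAux

/-- many of these monomials are linearly independent -/
theorem monII_indep {K : Type} [Field K] [CharZero K] (x y θ : Fin 4 → K)
    (hθ : Function.Injective θ) (hp : ∀ i j, i ≠ j → x i * y j ≠ x j * y i) (a b : ℕ)
    (hab : a ≤ b) : ∃ S : Finset ((Fin 4 → ℕ) × ℕ), S.card = a ^ 2 + a * b ∧
      (∀ Ij ∈ S, ∑ i, Ij.1 i = a ∧ Ij.2 ≤ b) ∧
      LinearIndependent K (fun Ij : S => monII x y θ a Ij.1) := by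
  obtain ⟨c, rfl⟩ := Nat.exists_eq_add_of_le hab
  have h1 := MonIIAux.V_rank x y θ (fun h => absurd (hθ h) (by decide)) hp a c
  obtain ⟨B, hB, -, hspan, hind⟩ := exists_linearIndepOn_extension
    (linearIndepOn_empty K (monII x y θ a)) (Set.empty_subset (MonIIAux.idx a (a + c)))
  have hfin : B.Finite := (MonIIAux.idx_finite a (a + c)).subset hB
  have h2 : MonIIAux.V x y θ a (a + c) ≤ Submodule.span K (monII x y θ a '' B) :=
    Submodule.span_le.2 hspan
  have h3 : Module.Finite K (Submodule.span K (monII x y θ a '' B)) :=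
    Module.Finite.span_of_finite K (hfin.image _)
  have h4 := Submodule.finrank_mono h2
  classical
  have h5 : Module.finrank K (Submodule.span K (monII x y θ a '' B)) ≤ hfin.toFinset.card := by
    have h6 := finrank_span_finset_le_card (R := K) (hfin.toFinset.image (monII x y θ a))
    rw [Set.finrank, Finset.coe_image, hfin.coe_toFinset] at h6
    exact le_trans h6 Finset.card_image_le
  obtain ⟨S, hS, hcard⟩ := Finset.exists_subset_card_eq (s := hfin.toFinset)
    (n := a ^ 2 + a * (a + c)) (by nlinarith)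
  have hSB : (S : Set _) ⊆ B := fun z hz => hfin.mem_toFinset.1 (hS hz)
  exact ⟨S, hcard, fun Ij h => hB (hSB h), hind.mono hSB⟩

end Vale.Agent.P018
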