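import Vale.Agent.P018.Q.Norm16
import Vale.Agent.P018.Q.MonII

namespace Vale.Agent.P018

open Polynomial

section Bd

variable {K : Type} [Field K]

/-- bidegree bound -/
def bxBd (D : ℕ) (G : K[X][X]) : Prop := G.natDegree ≤ D ∧ ∀ j, (G.coeff j).natDegree ≤ D

theorem bxBd.mono {D D' : ℕ} {G : K[X][X]} (h : bxBd D G) (hD : D ≤ D') : bxBd D' G :=
  ⟨h.1.trans hD, fun j => (h.2 j).trans hD⟩

theorem bxBd.mul {D D' : ℕ} {G G' : K[X][X]} (h : bxBd D G) (h' : bxBd D' G') :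
    bxBd (D + D') (G * G') := by
  refine ⟨natDegree_mul_le.trans (add_le_add h.1 h'.1), fun j => ?_⟩
  rw [coeff_mul]
  exact natDegree_sum_le_of_forall_le _ _ fun x _ =>
    natDegree_mul_le.trans (add_le_add (h.2 _) (h'.2 _))

theorem bxBd_C {D : ℕ} {p : K[X]} (h : p.natDegree ≤ D) : bxBd D (C p) := by
  refine ⟨by simp, fun j => ?_⟩
  rw [coeff_C]
  split_ifs
  · exact h
  · simp

theorem bxBd_one : bxBd 0 (1 : K[X][X]) := by
  rw [← C_1]; exact bxBd_C (by simp)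

theorem bxBd.pow {D : ℕ} {G : K[X][X]} (h : bxBd D G) (n : ℕ) : bxBd (n * D) (G ^ n) := by
  induction n with
  | zero => simpa using bxBd_one
  | succ n ih => rw [pow_succ, Nat.succ_mul]; exact ih.mul h

theorem bxBd_prod {ι : Type} (s : Finset ι) (G : ι → K[X][X]) (D : ℕ)
    (h : ∀ i ∈ s, bxBd D (G i)) : bxBd (s.card * D) (∏ i ∈ s, G i) := by
  classical
  induction s using Finset.induction_on with
  | empty => simpa using bxBd_one
  | insert a s ha ih =>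
    rw [Finset.prod_insert ha, Finset.card_insert_of_notMem ha, Nat.succ_mul, add_comm]
    exact (h a (Finset.mem_insert_self _ _)).mul
      (ih fun i hi => h i (Finset.mem_insert_of_mem hi))

theorem bxBd_sum {ι : Type} (s : Finset ι) (G : ι → K[X][X]) (D : ℕ)
    (h : ∀ i ∈ s, bxBd D (G i)) : bxBd D (∑ i ∈ s, G i) := by
  refine ⟨natDegree_sum_le_of_forall_le _ _ fun i hi => (h i hi).1, fun j => ?_⟩
  rw [finsetSum_coeff]
  exact natDegree_sum_le_of_forall_le _ _ fun i hi => (h i hi).2 j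

theorem bxBd.smul {D : ℕ} {G : K[X][X]} (h : bxBd D G) (c : K) : bxBd D (c • G) := by
  refine ⟨(natDegree_smul_le _ _).trans h.1, fun j => ?_⟩
  rw [coeff_smul]
  exact (natDegree_smul_le _ _).trans (h.2 j)

theorem bxBd_X_sub (θ : K) : bxBd 1 (X - C (C θ) : K[X][X]) := by
  refine ⟨natDegree_X_sub_C_le _, fun j => ?_⟩
  rw [coeff_sub, coeff_X, coeff_C]
  refine (natDegree_sub_le _ _).trans (max_le ?_ ?_) <;> split_ifs <;> simp

theorem bxII_lin_deg (x y : K) (n : ℕ) : ((C x * X + C y) ^ n).natDegree ≤ n := by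
  refine natDegree_pow_le.trans ?_
  have : (C x * X + C y).natDegree ≤ 1 := natDegree_linear_le
  nlinarith

theorem bxBd_monII (x y θ : Fin 4 → K) (d b : ℕ) (Ij : (Fin 4 → ℕ) × ℕ)
    (h1 : ∑ i, Ij.1 i = d) (h2 : Ij.2 ≤ b) : bxBd (4 * d + b) (monII x y θ d Ij) := by
  unfold monII
  refine bxBd.mul ?_ (bxBd_C ((natDegree_X_pow_le _).trans h2))
  have := bxBd_prod Finset.univ (fun i => (X - C (C (θ i))) ^ Ij.1 i *
    C ((C (x i) * X + C (y i)) ^ (d - Ij.1 i))) d fun i _ => by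
      have hi : Ij.1 i ≤ d := h1 ▸
        Finset.single_le_sum (f := Ij.1) (fun _ _ => Nat.zero_le _) (Finset.mem_univ i)
      exact (((bxBd_X_sub (θ i)).pow _).mul (bxBd_C (bxII_lin_deg _ _ _))).mono (by omega)
  simpa using this

end Bd

/-- the identity for one column -/
theorem bxII_col {Ω : Type} [Field Ω] (m d : ℕ) (ε : Finset (Fin 4)) (I : Fin 4 → ℕ)
    (hI : ∑ i, I i = d) (hd : (ε.card = 1 ∧ d = m + 1) ∨ (ε.card = 3 ∧ d = m))
    (M v q : Ω) (α ℓ ν : Fin 4 → Ω) (hM : M ≠ 0) (hv : v ≠ 0) (hq : q ^ 2 = M * v)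
    (h : ∀ i, α i ^ 2 * (v * ℓ i) = M * ν i) :
    (∏ i, α i ^ (2 * I i + if i ∈ ε then 1 else 0)) * ∏ i, ℓ i ^ (m + 2) =
      ((M / v) ^ (m + 1) * (q / v)) * ((∏ i ∈ ε, α i * v * ℓ i / q) *
        ((∏ i, ℓ i ^ (m + 2 - d - if i ∈ ε then 1 else 0)) * ∏ i, ν i ^ I i * ℓ i ^ (d - I i))) := by
  have hq0 : q ≠ 0 := by
    intro h0
    rw [h0, zero_pow two_ne_zero] at hq
    exact mul_ne_zero hM hv hq.symm
  have hqv : (q / v) ^ 2 = M / v := by rw [div_pow, hq]; field_simp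
  have h1 : (M / v) ^ (m + 1) * (q / v) =
      (∏ i, (M / v) ^ I i) * ∏ i, (q / v) ^ (if i ∈ ε then 1 else 0) := by
    rw [Finset.prod_pow_eq_pow_sum, Finset.prod_pow_eq_pow_sum, hI, Finset.sum_boole]
    simp only [Finset.filter_mem_eq_inter, Finset.univ_inter, Nat.cast_id]
    rcases hd with ⟨h1, h2⟩ | ⟨h1, h2⟩
    · rw [h1, h2, pow_one]
    · rw [h1, h2, pow_succ, ← hqv]; ring
  have h2 : ∏ i ∈ ε, α i * v * ℓ i / q =
      ∏ i, (α i * v * ℓ i / q) ^ (if i ∈ ε then 1 else 0) := by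
    simp only [pow_ite, pow_one, pow_zero]
    rw [Finset.prod_ite_mem, Finset.univ_inter]
  rw [h1, h2]
  simp only [← Finset.prod_mul_distrib]
  refine Finset.prod_congr rfl fun i _ => ?_
  have hi : I i ≤ d := hI ▸
    Finset.single_le_sum (f := I) (fun _ _ => Nat.zero_le _) (Finset.mem_univ i)
  have hν : ν i = α i ^ 2 * ℓ i / (M / v) := by
    field_simp
    linear_combination (-1 : Ω) * h i
  obtain ⟨f, hf⟩ := Nat.exists_eq_add_of_le hi
  have hMv : M / v ≠ 0 := div_ne_zero hM hv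
  generalize M / v = κ at *
  rw [hν, hf, Nat.add_sub_cancel_left]
  by_cases hε : i ∈ ε
  · simp only [hε, if_true, pow_one]
    obtain ⟨g, hg⟩ : ∃ g, m + 2 = I i + f + 1 + g := ⟨m + 2 - (I i + f + 1), by omega⟩
    rw [hg, show I i + f + 1 + g - (I i + f) - 1 = g by omega, div_pow]
    field_simp
    ring
  · simp only [hε, if_false, pow_zero, Nat.sub_zero, add_zero]
    obtain ⟨g, hg⟩ : ∃ g, m + 2 = I i + f + g := ⟨m + 2 - (I i + f), by omega⟩
    rw [hg, Nat.add_sub_cancel_left, div_pow]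
    field_simp
    ring

theorem bxII_card (A B : ℕ) :
    ∑ ε : Finset (Fin 4), (if ε.card = 1 then A else if ε.card = 3 then B else 0) =
      4 * A + 4 * B := by
  have h : ∀ ε : Finset (Fin 4), (if ε.card = 1 then A else if ε.card = 3 then B else 0) =
      (if ε.card = 1 then 1 else 0) * A + (if ε.card = 3 then 1 else 0) * B := by
    intro ε
    split_ifs with h1 h2 <;> omega
  simp only [h, Finset.sum_add_distrib, ← Finset.sum_mul]
  rw [show ∑ ε : Finset (Fin 4), (if ε.card = 1 then 1 else 0) = 4 by decide,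
    show ∑ ε : Finset (Fin 4), (if ε.card = 3 then 1 else 0) = 4 by decide]

/-- from a linear relation between the columns to a plane curve -/
theorem bxII_alg (m b : ℕ) (hb : m + 1 ≤ b) : ∃ D : ℕ, ∀ (K : Type) [Field K] [CharZero K]
    (x y θ : Fin 4 → K), Function.Injective θ → (∀ i, x i ≠ 0) →
    (∀ i j, i ≠ j → x i * y j ≠ x j * y i) →
    ∃ (ι : Type) (_ : Fintype ι) (_ : DecidableEq ι) (e : ι → Fin 4 → ℕ) (n : ι → ℕ),
      Fintype.card ι = 4 * ((m + 1) ^ 2 + (m + 1) * b) + 4 * (m ^ 2 + m * b) ∧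
      (∀ j, ∑ i, e j i = 2 * m + 3) ∧ (∀ j, n j ≤ b) ∧
      ∀ c : ι → K, c ≠ 0 → ∃ G : K[X][X], G ≠ 0 ∧ bxBd D G ∧
        ∀ (M N u v : K) (α : Fin 4 → K), M ≠ 0 → v ≠ 0 →
          (∀ i, α i ^ 2 * (u * x i + v * y i) = M * (N - θ i)) →
          ∑ j, c j * ((∏ i, α i ^ e j i) * (u ^ n j * v ^ (b - n j))) = 0 →
          G.evalEval (u / v) N = 0 := by
  classical
  obtain ⟨D', hD'⟩ := norm16 (4 * (m + 2) + (4 * (m + 1) + b))
  refine ⟨D', fun K _ _ x y θ hθ hx hp => ?_⟩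
  obtain ⟨S1, hc1, hS1, hli1⟩ := monII_indep x y θ hθ hp (m + 1) b hb
  obtain ⟨S3, hc3, hS3, hli3⟩ := monII_indep x y θ hθ hp m b (by omega)
  let S : Finset (Fin 4) → Finset ((Fin 4 → ℕ) × ℕ) := fun ε =>
    if ε.card = 1 then S1 else if ε.card = 3 then S3 else ∅
  let d : Finset (Fin 4) → ℕ := fun ε => if ε.card = 1 then m + 1 else m
  have hS : ∀ ε, ∀ Ij ∈ S ε, (∑ i, Ij.1 i = d ε ∧ Ij.2 ≤ b) ∧
      ((ε.card = 1 ∧ d ε = m + 1) ∨ (ε.card = 3 ∧ d ε = m)) := by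
    intro ε Ij hIj
    by_cases h1 : ε.card = 1
    · simp only [S, d, h1, if_true] at hIj ⊢
      exact ⟨hS1 Ij hIj, Or.inl ⟨trivial, trivial⟩⟩
    · by_cases h3 : ε.card = 3
      · simp only [S, d, if_neg h1, if_pos h3] at hIj ⊢
        exact ⟨hS3 Ij hIj, Or.inr ⟨h3, trivial⟩⟩
      · simp [S, if_neg h1, if_neg h3] at hIj
  have hli : ∀ ε, LinearIndependent K (fun Ij : S ε => monII x y θ (d ε) Ij.1) := by
    intro ε
    by_cases h1 : ε.card = 1
    · have e1 : S ε = S1 := if_pos h1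
      have e2 : d ε = m + 1 := if_pos h1
      rw [e1, e2]; exact hli1
    · by_cases h3 : ε.card = 3
      · have e1 : S ε = S3 := by simp only [S, if_neg h1, if_pos h3]
        have e2 : d ε = m := if_neg h1
        rw [e1, e2]; exact hli3
      · have e1 : S ε = ∅ := by simp only [S, if_neg h1, if_neg h3]
        rw [e1]
        exact linearIndependent_empty_type
  refine ⟨(Σ ε : Finset (Fin 4), S ε), inferInstance, inferInstance,
    fun j i => 2 * j.2.1.1 i + if i ∈ j.1 then 1 else 0, fun j => j.2.1.2, ?_, ?_, ?_, ?_⟩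
  · rw [Fintype.card_sigma, ← hc1, ← hc3, ← bxII_card]
    refine Finset.sum_congr rfl fun ε _ => ?_
    rw [Fintype.card_coe]
    simp only [S]
    split_ifs <;> rfl
  · rintro ⟨ε, Ij, hIj⟩
    obtain ⟨⟨h1, -⟩, h2⟩ := hS ε Ij hIj
    simp only [Finset.sum_add_distrib, ← Finset.mul_sum, h1, Finset.sum_boole,
      Finset.filter_mem_eq_inter, Finset.univ_inter, Nat.cast_id]
    omega
  · rintro ⟨ε, Ij, hIj⟩
    exact (hS ε Ij hIj).1.2
  intro c hc
  let pre : Finset (Fin 4) → K[X] := fun ε =>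
    ∏ i, (C (x i) * X + C (y i)) ^ (m + 2 - d ε - if i ∈ ε then 1 else 0)
  let Θ : Finset (Fin 4) → K[X][X] := fun ε =>
    C (pre ε) * ∑ Ij : S ε, c ⟨ε, Ij⟩ • monII x y θ (d ε) Ij.1
  have hΘ0 : Θ ≠ 0 := by
    intro h0
    apply hc
    funext ⟨ε, Ij⟩
    have h1 : Θ ε = 0 := congrFun h0 ε
    have h2 : pre ε ≠ 0 := by
      refine Finset.prod_ne_zero_iff.2 fun i _ => pow_ne_zero _ fun h => hx i ?_
      have := congrArg (fun p => coeff p 1) h
      simpa [coeff_C] using this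
    have h3 := (mul_eq_zero.1 h1).resolve_left (C_ne_zero.2 h2)
    exact Fintype.linearIndependent_iff.1 (hli ε) (fun Ij => c ⟨ε, Ij⟩) h3 Ij
  have hΘd : ∀ ε, bxBd (4 * (m + 2) + (4 * (m + 1) + b)) (Θ ε) := by
    intro ε
    refine bxBd.mul (bxBd_C ?_) (bxBd_sum _ _ _ fun Ij _ => bxBd.smul ?_ _)
    · refine (natDegree_prod_le _ _).trans ?_
      calc _ ≤ ∑ _i : Fin 4, (m + 2) :=
            Finset.sum_le_sum fun i _ => (bxII_lin_deg _ _ _).trans (by omega)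
        _ = _ := by simp
    · obtain ⟨⟨h1, h2⟩, h3⟩ := hS ε Ij.1 Ij.2
      exact (bxBd_monII x y θ (d ε) b Ij.1 h1 h2).mono (by omega)
  obtain ⟨G, hG0, hG1, hG2, hG⟩ := hD' K x y θ hθ hx Θ hΘ0 hΘd
  refine ⟨G, hG0, ⟨hG1, hG2⟩, fun M N u v α hM hv hα hsum => ?_⟩
  let Ω := AlgebraicClosure K
  let ι : K →+* Ω := algebraMap K Ω
  have hι : Function.Injective ι := (algebraMap K Ω).injective
  obtain ⟨q, hq⟩ := IsAlgClosed.exists_pow_nat_eq (ι M * ι v) two_pos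
  have hM' : ι M ≠ 0 := (map_ne_zero ι).2 hM
  have hv' : ι v ≠ 0 := (map_ne_zero ι).2 hv
  let ℓ : Fin 4 → K := fun i => x i * (u / v) + y i
  have hℓ : ∀ i, α i ^ 2 * (v * ℓ i) = M * (N - θ i) := fun i => by
    rw [← hα i]
    simp only [ℓ]
    field_simp
  have hℓ' : ∀ i, ι (α i) ^ 2 * (ι v * ι (ℓ i)) = ι M * ι (N - θ i) := fun i => by
    have := congrArg ι (hℓ i)
    simpa only [map_mul, map_pow] using this
  refine hG (u / v) N Ω (fun i => ι (α i) * ι v * ι (ℓ i) / q) (fun i => ?_) ?_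
  · have e1 : (rad x y θ i).evalEval (u / v) N = (N - θ i) * ℓ i := by
      simp only [rad, ℓ, evalEval_mul, evalEval_C, evalEval_sub, evalEval_X, eval_add, eval_mul,
        eval_C, eval_X]
    rw [e1, map_mul, div_pow, hq]
    change _ = ι (N - θ i) * ι (ℓ i)
    rw [div_eq_iff (mul_ne_zero hM' hv')]
    linear_combination (ι v * ι (ℓ i)) * hℓ' i
  · have hq0 : q ≠ 0 := by
      intro h0
      rw [h0, zero_pow two_ne_zero] at hq
      exact mul_ne_zero hM' hv' hq.symm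
    have hκ : ((ι M / ι v) ^ (m + 1) * (q / ι v)) * ι v ^ b ≠ 0 :=
      mul_ne_zero (mul_ne_zero (pow_ne_zero _ (div_ne_zero hM' hv')) (div_ne_zero hq0 hv'))
        (pow_ne_zero _ hv')
    apply mul_left_cancel₀ hκ
    have h2 := congrArg (fun t => ι t * ∏ i, ι (ℓ i) ^ (m + 2)) hsum
    simp only [map_zero, zero_mul, map_sum, Finset.sum_mul] at h2
    rw [mul_zero, ← h2, Fintype.sum_sigma, Finset.mul_sum]
    refine Finset.sum_congr rfl fun ε _ => ?_
    have e1 : (Θ ε).evalEval (u / v) N = ∑ Ij : S ε, c ⟨ε, Ij⟩ *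
        (((∏ i, ℓ i ^ (m + 2 - d ε - if i ∈ ε then 1 else 0)) *
          ∏ i, (N - θ i) ^ Ij.1.1 i * ℓ i ^ (d ε - Ij.1.1 i)) * (u / v) ^ Ij.1.2) := by
      simp only [Θ, evalEval_mul, evalEval_finsetSum, evalEval_smul, Finset.mul_sum, smul_eq_mul]
      refine Finset.sum_congr rfl fun Ij _ => ?_
      simp only [pre, monII, evalEval_mul, evalEval_prod, evalEval_C, evalEval_pow, evalEval_sub,
        evalEval_X, eval_prod, eval_pow, eval_add, eval_mul, eval_C, eval_X, ℓ]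
      ring
    rw [e1]
    change _ * (_ * ι _) = _
    rw [map_sum, Finset.mul_sum, Finset.mul_sum]
    refine Finset.sum_congr rfl fun Ij _ => ?_
    obtain ⟨⟨h1, h3⟩, h4⟩ := hS ε Ij.1 Ij.2
    have e2 := bxII_col m (d ε) ε Ij.1.1 h1 h4 (ι M) (ι v) q (fun i => ι (α i)) (fun i => ι (ℓ i))
      (fun i => ι (N - θ i)) hM' hv' hq hℓ'
    have e3 : ι v ^ b * (ι u / ι v) ^ Ij.1.2 = ι u ^ Ij.1.2 * ι v ^ (b - Ij.1.2) := by
      obtain ⟨f, hf⟩ := Nat.exists_eq_add_of_le h3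
      rw [hf, Nat.add_sub_cancel_left, div_pow, ← mul_div_assoc, div_eq_iff (pow_ne_zero _ hv')]
      ring
    simp only [map_mul, map_prod, map_pow, map_div₀]
    rw [← e3]
    linear_combination (-(ι (c ⟨ε, Ij⟩) * (ι v ^ b * (ι u / ι v) ^ Ij.1.2))) * e2

end Vale.Agent.P018
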