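import Vale.Agent.P018.Q.Defs

namespace Vale.Agent.P018

open Polynomial

/-- the radicands `(N - θ_i) * (x_i s + y_i)` -/
noncomputable def rad {K : Type} [Field K] (x y θ : Fin 4 → K) (i : Fin 4) : K[X][X] :=
  (X - C (C (θ i))) * C (C (x i) * X + C (y i))

namespace Norm16Aux

open Finset Matrix

section kummer

variable {Ω : Type} [Field Ω] [CharZero Ω]

omit [CharZero Ω] in
theorem two_zero {L : Subfield Ω} {r : Ω} (hr : r ∉ L) {p q : Ω} (hp : p ∈ L) (hq : q ∈ L)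
    (h : p + q * r = 0) : p = 0 ∧ q = 0 := by
  by_cases h0 : q = 0
  · rw [h0, zero_mul, add_zero] at h; exact ⟨h, h0⟩
  · refine absurd ?_ hr
    have e : r = -p / q := by field_simp; linear_combination h
    rw [e]; exact L.div_mem (L.neg_mem hp) hq

/-- the quadratic extension -/
def quad (L : Subfield Ω) (r : Ω) (hr : r ∉ L) (h2 : r ^ 2 ∈ L) : Subfield Ω where
  carrier := {z | ∃ p ∈ L, ∃ q ∈ L, z = p + q * r}
  mul_mem' := by
    rintro _ _ ⟨p, hp, q, hq, rfl⟩ ⟨p', hp', q', hq', rfl⟩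
    exact ⟨p * p' + q * q' * r ^ 2, L.add_mem (L.mul_mem hp hp') (L.mul_mem (L.mul_mem hq hq') h2),
      p * q' + q * p', L.add_mem (L.mul_mem hp hq') (L.mul_mem hq hp'), by ring⟩
  one_mem' := ⟨1, L.one_mem, 0, L.zero_mem, by ring⟩
  add_mem' := by
    rintro _ _ ⟨p, hp, q, hq, rfl⟩ ⟨p', hp', q', hq', rfl⟩
    exact ⟨p + p', L.add_mem hp hp', q + q', L.add_mem hq hq', by ring⟩
  zero_mem' := ⟨0, L.zero_mem, 0, L.zero_mem, by ring⟩
  neg_mem' := by
    rintro _ ⟨p, hp, q, hq, rfl⟩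
    exact ⟨-p, L.neg_mem hp, -q, L.neg_mem hq, by ring⟩
  inv_mem' := by
    rintro _ ⟨p, hp, q, hq, rfl⟩
    by_cases h0 : p + q * r = 0
    · exact ⟨0, L.zero_mem, 0, L.zero_mem, by rw [h0]; simp⟩
    have h1 : p + -q * r ≠ 0 := fun h => h0 (by
      obtain ⟨h3, h4⟩ := two_zero hr hp (L.neg_mem hq) h
      rw [h3, neg_eq_zero.1 h4]; ring)
    have hN : p ^ 2 - q ^ 2 * r ^ 2 ∈ L :=
      L.sub_mem (L.pow_mem hp 2) (L.mul_mem (L.pow_mem hq 2) h2)
    have hN0 : p ^ 2 - q ^ 2 * r ^ 2 ≠ 0 := by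
      rw [show p ^ 2 - q ^ 2 * r ^ 2 = (p + q * r) * (p + -q * r) by ring]
      exact mul_ne_zero h0 h1
    refine ⟨p / (p ^ 2 - q ^ 2 * r ^ 2), L.div_mem hp hN, -q / (p ^ 2 - q ^ 2 * r ^ 2),
      L.div_mem (L.neg_mem hq) hN, ?_⟩
    refine inv_eq_of_mul_eq_one_right ?_
    field_simp
    ring

theorem kummer {ι : Type} [DecidableEq ι] (R : ι → Ω) (s : Finset ι) : ∀ L : Subfield Ω,
    (∀ i ∈ s, R i ^ 2 ∈ L) → (∀ δ ⊆ s, δ.Nonempty → ∏ i ∈ δ, R i ∉ L) →
    ∀ c : Finset ι → Ω, (∀ δ, c δ ∈ L) → ∑ δ ∈ s.powerset, (∏ i ∈ δ, R i) * c δ = 0 →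
    ∀ δ ⊆ s, c δ = 0 := by
  induction s using Finset.induction_on with
  | empty =>
    intro L _ _ c _ h δ hδ
    rw [subset_empty.1 hδ]
    simpa using h
  | insert j t hj ih =>
    intro L h1 h2 c hc h δ hδ
    have hr : R j ∉ L := by simpa using h2 {j} (by simp) (by simp)
    have hr2 : R j ^ 2 ∈ L := h1 j (mem_insert_self j t)
    have hsub : ∀ z ∈ L, z ∈ quad L (R j) hr hr2 := fun z hz => ⟨z, hz, 0, L.zero_mem, by ring⟩
    have key := ih (quad L (R j) hr hr2) (fun i hi => hsub _ (h1 i (mem_insert_of_mem hi))) ?_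
      (fun ε => c ε + c (insert j ε) * R j) (fun ε => ⟨_, hc _, _, hc _, rfl⟩) ?_
    · by_cases hjδ : j ∈ δ
      · have h3 := key (δ.erase j) (fun i hi => by
          rcases mem_insert.1 (hδ (mem_of_mem_erase hi)) with h4 | h4
          · exact absurd h4 (ne_of_mem_erase hi)
          · exact h4)
        have h4 := (two_zero hr (hc _) (hc _) h3).2
        rwa [insert_erase hjδ] at h4
      · exact (two_zero hr (hc _) (hc _) (key δ ((subset_insert_iff_of_notMem hjδ).1 hδ))).1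
    · rintro ε hε hne ⟨p, hp, q, hq, e⟩
      have hε' : ε ⊆ insert j t := hε.trans (subset_insert j t)
      have h3 : (∏ i ∈ ε, R i) ^ 2 ∈ L := by
        rw [← prod_pow]; exact L.prod_mem (fun i hi => h1 i (hε' hi))
      have h4 := (two_zero hr (L.sub_mem (L.add_mem (L.pow_mem hp 2)
        (L.mul_mem (L.pow_mem hq 2) hr2)) h3) (L.mul_mem (L.add_mem hp hp) hq)
        (by rw [e]; ring)).2
      rcases mul_eq_zero.1 h4 with h5 | h5
      · have h6 : p = 0 := by linear_combination (1 / 2 : Ω) * h5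
        refine h2 (insert j ε) (insert_subset_insert j hε) (insert_nonempty _ _) ?_
        rw [prod_insert (fun h => hj (hε h)), e, h6,
          show R j * (0 + q * R j) = q * R j ^ 2 by ring]
        exact L.mul_mem hq hr2
      · refine h2 ε hε' hne ?_
        rw [e, h5, zero_mul, add_zero]; exact hp
    · rw [sum_powerset_insert hj, ← sum_add_distrib] at h
      rw [← h]
      refine sum_congr rfl (fun ε hε => ?_)
      rw [prod_insert (fun h => hj (mem_powerset.1 hε h))]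
      ring

end kummer

section mat

variable {ι R S : Type} [Fintype ι] [DecidableEq ι] [CommRing R] [CommRing S]

/-- the multiplication matrix -/
def mat (a : ι → R) (Θ : Finset ι → R) : Matrix (Finset ι) (Finset ι) R :=
  fun δ δ' => Θ (symmDiff δ δ') * ∏ i ∈ δ \ δ', a i

theorem prod_mul (r : ι → S) (δ δ' : Finset ι) :
    (∏ i ∈ δ \ δ', r i ^ 2) * ∏ i ∈ δ', r i = (∏ i ∈ δ, r i) * ∏ i ∈ symmDiff δ δ', r i := by
  have e : ∀ (s : Finset ι) (f : ι → S), ∏ i ∈ s, f i = ∏ i, if i ∈ s then f i else 1 :=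
    fun s f => by rw [← prod_filter, filter_mem_eq_inter, univ_inter]
  rw [e (δ \ δ'), e δ', e δ, e (symmDiff δ δ'), ← prod_mul_distrib, ← prod_mul_distrib]
  refine prod_congr rfl (fun i _ => ?_)
  by_cases h1 : i ∈ δ <;> by_cases h2 : i ∈ δ' <;> simp [h1, h2, mem_symmDiff, sq]

theorem mat_mulVec (a : ι → R) (Θ : Finset ι → R) (φ : R →+* S) (r : ι → S)
    (hr : ∀ i, r i ^ 2 = φ (a i)) (δ : Finset ι) :
    ∑ δ', φ (mat a Θ δ δ') * ∏ i ∈ δ', r i
      = (∏ i ∈ δ, r i) * ∑ ε, (∏ i ∈ ε, r i) * φ (Θ ε) := by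
  rw [mul_sum]
  refine Fintype.sum_equiv ⟨symmDiff δ, symmDiff δ, symmDiff_symmDiff_cancel_left δ,
    symmDiff_symmDiff_cancel_left δ⟩ _ _ (fun δ' => ?_)
  simp only [mat, map_mul, map_prod, ← hr, Equiv.coe_fn_mk]
  rw [mul_assoc, prod_mul]
  ring

theorem det_zero [IsDomain S] (a : ι → R) (Θ : Finset ι → R) (φ : R →+* S) (r : ι → S)
    (hr : ∀ i, r i ^ 2 = φ (a i)) (h : ∑ ε, (∏ i ∈ ε, r i) * φ (Θ ε) = 0) :
    φ (mat a Θ).det = 0 := by
  rw [RingHom.map_det]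
  refine Matrix.exists_mulVec_eq_zero_iff.1 ⟨fun δ => ∏ i ∈ δ, r i, fun h0 => ?_, ?_⟩
  · have := congrFun h0 ∅
    simp at this
  · funext δ
    have := mat_mulVec a Θ φ r hr δ
    rw [h, mul_zero] at this
    exact this

theorem det_ne [IsDomain R] [IsDomain S] (a : ι → R) {Θ : Finset ι → R} (hΘ : Θ ≠ 0)
    (φ : R →+* S) (r : ι → S) (hr : ∀ i, r i ^ 2 = φ (a i))
    (hind : ∀ c : Finset ι → R, ∑ ε, (∏ i ∈ ε, r i) * φ (c ε) = 0 → c = 0) :
    (mat a Θ).det ≠ 0 := by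
  intro h
  obtain ⟨w, hw, h1⟩ := Matrix.exists_vecMul_eq_zero_iff.2 h
  have h2 : (∑ δ, (∏ i ∈ δ, r i) * φ (w δ)) * ∑ ε, (∏ i ∈ ε, r i) * φ (Θ ε) = 0 := by
    calc _ = ∑ δ, φ (w δ) * ∑ δ', φ (mat a Θ δ δ') * ∏ i ∈ δ', r i := by
          rw [sum_mul]
          exact sum_congr rfl (fun δ _ => by rw [mat_mulVec a Θ φ r hr]; ring)
      _ = ∑ δ', φ ((w ᵥ* mat a Θ) δ') * ∏ i ∈ δ', r i := by
          simp only [mul_sum, vecMul, dotProduct, map_sum, map_mul, sum_mul, mul_assoc]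
          exact sum_comm
      _ = 0 := by simp [h1]
  rcases mul_eq_zero.1 h2 with h3 | h3
  · exact hw (hind w h3)
  · exact hΘ (hind Θ h3)

end mat

section deg

variable {K : Type} [Field K]

/-- bidegree bound -/
def Bd (D : ℕ) (f : K[X][X]) : Prop := f.natDegree ≤ D ∧ ∀ j, (f.coeff j).natDegree ≤ D

theorem Bd.mul {D E : ℕ} {f g : K[X][X]} (hf : Bd D f) (hg : Bd E g) : Bd (D + E) (f * g) := by
  refine ⟨natDegree_mul_le.trans (add_le_add hf.1 hg.1), fun j => ?_⟩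
  rw [coeff_mul]
  exact natDegree_sum_le_of_forall_le _ _
    (fun p _ => natDegree_mul_le.trans (add_le_add (hf.2 _) (hg.2 _)))

theorem Bd.mono {D E : ℕ} {f : K[X][X]} (hf : Bd D f) (h : D ≤ E) : Bd E f :=
  ⟨hf.1.trans h, fun j => (hf.2 j).trans h⟩

theorem Bd.const {D : ℕ} {p : K[X]} (hp : p.natDegree ≤ D) : Bd D (C p) := by
  refine ⟨by simp, fun j => ?_⟩
  rw [coeff_C]
  split_ifs
  · exact hp
  · simp

theorem Bd.prod {ι : Type} {D : ℕ} (s : Finset ι) {f : ι → K[X][X]} (h : ∀ i ∈ s, Bd D (f i)) :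
    Bd (s.card * D) (∏ i ∈ s, f i) := by
  classical
  induction s using Finset.induction_on with
  | empty => simpa using Bd.const (K := K) (D := 0) (p := 1) (by simp)
  | insert j t hj ih =>
    rw [prod_insert hj, card_insert_of_notMem hj, add_mul, one_mul, add_comm]
    exact (h j (mem_insert_self j t)).mul (ih (fun i hi => h i (mem_insert_of_mem hi)))

theorem Bd.sum {ι : Type} {D : ℕ} (s : Finset ι) {f : ι → K[X][X]} (h : ∀ i ∈ s, Bd D (f i)) :
    Bd D (∑ i ∈ s, f i) := by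
  refine ⟨natDegree_sum_le_of_forall_le _ _ (fun i hi => (h i hi).1), fun j => ?_⟩
  rw [finsetSum_coeff]
  exact natDegree_sum_le_of_forall_le _ _ (fun i hi => (h i hi).2 j)

theorem Bd.det {ι : Type} [Fintype ι] [DecidableEq ι] {D : ℕ} {M : Matrix ι ι K[X][X]}
    (h : ∀ i j, Bd D (M i j)) : Bd (Fintype.card ι * D) M.det := by
  rw [Matrix.det_apply']
  refine Bd.sum _ (fun σ _ => ?_)
  have h1 : Bd 0 (((Equiv.Perm.sign σ : ℤ) : K[X][X])) := by
    rw [← map_intCast (C : K[X] →+* K[X][X])]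
    exact Bd.const (by simp)
  simpa using h1.mul (Bd.prod univ (fun i _ => h (σ i) i))

theorem bd_rad (x y θ : Fin 4 → K) (i : Fin 4) : Bd 2 (rad x y θ i) := by
  have h1 : Bd 1 (X - C (C (θ i)) : K[X][X]) := by
    refine ⟨(natDegree_X_sub_C _).le, fun j => ?_⟩
    rw [coeff_sub, coeff_X, coeff_C]
    split_ifs <;> simp
  exact h1.mul (Bd.const natDegree_linear_le)

theorem not_sq {x y θ : Fin 4 → K} (hθ : Function.Injective θ) (hx : ∀ i, x i ≠ 0)
    {δ : Finset (Fin 4)} (hδ : δ.Nonempty) {p q : K[X][X]} (hq : q ≠ 0) :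
    (∏ i ∈ δ, rad x y θ i) * (q * q) ≠ p * p := by
  intro h
  obtain ⟨i, hi⟩ := hδ
  have hl : ∀ k, C (x k) * X + C (y k) ≠ 0 := fun k h0 => hx k (by
    have := congrArg (fun f => f.coeff 1) h0
    simpa using this)
  have hg : (C (C (x i) * X + C (y i)) * ∏ k ∈ δ.erase i, rad x y θ k).eval (C (θ i)) ≠ 0 := by
    rw [eval_mul, eval_C, eval_prod]
    refine mul_ne_zero (hl i) (prod_ne_zero_iff.2 (fun k hk => ?_))
    rw [rad, eval_mul, eval_C, eval_sub, eval_X, eval_C, ← map_sub]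
    exact mul_ne_zero (C_ne_zero.2 (sub_ne_zero.2 (fun h0 => ne_of_mem_erase hk (hθ h0).symm)))
      (hl k)
  rw [← mul_prod_erase _ _ hi, rad, mul_assoc (X - C (C (θ i)))] at h
  generalize C (C (x i) * X + C (y i)) * ∏ k ∈ δ.erase i, rad x y θ k = g at h hg
  have hg0 : g ≠ 0 := fun h0 => hg (by rw [h0, eval_zero])
  have h1 : (X - C (C (θ i))) * g ≠ 0 := mul_ne_zero (X_sub_C_ne_zero _) hg0
  have h2 : (X - C (C (θ i))) * g * (q * q) ≠ 0 := mul_ne_zero h1 (mul_ne_zero hq hq)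
  have h3 := congrArg (rootMultiplicity (C (θ i))) h
  rw [rootMultiplicity_mul h2, rootMultiplicity_mul h1, rootMultiplicity_mul (mul_ne_zero hq hq),
    rootMultiplicity_mul (h ▸ h2), rootMultiplicity_X_sub_C_self,
    rootMultiplicity_eq_zero hg] at h3
  omega

end deg

theorem indep {R : Type} [CommRing R] [IsDomain R] [CharZero R] (a : Fin 4 → R)
    (ha : ∀ δ : Finset (Fin 4), δ.Nonempty → ∀ p q : R, q ≠ 0 →
      (∏ i ∈ δ, a i) * (q * q) ≠ p * p) {Θ : Finset (Fin 4) → R} (hΘ : Θ ≠ 0) :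
    (mat a Θ).det ≠ 0 := by
  let ψ := algebraMap (FractionRing R) (AlgebraicClosure (FractionRing R))
  let φ : R →+* AlgebraicClosure (FractionRing R) := ψ.comp (algebraMap R (FractionRing R))
  have hφ : Function.Injective φ := ψ.injective.comp (IsFractionRing.injective R _)
  have : CharZero (AlgebraicClosure (FractionRing R)) := (RingHom.charZero_iff hφ).1 inferInstance
  choose r hr using fun i => IsAlgClosed.exists_pow_nat_eq (φ (a i)) (n := 2) (by norm_num)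
  refine det_ne a hΘ φ r hr (fun c hc => ?_)
  have key := kummer r univ ψ.fieldRange (fun i _ => by rw [hr]; exact ⟨_, rfl⟩) ?_
    (fun δ => φ (c δ)) (fun δ => ⟨_, rfl⟩) (by rwa [powerset_univ])
  · funext δ
    exact hφ ((key δ (subset_univ _)).trans (map_zero φ).symm)
  · rintro δ - hδ ⟨z, hz⟩
    obtain ⟨p, q, hq, rfl⟩ := IsFractionRing.div_surjective (A := R) z
    have hq0 : q ≠ 0 := nonZeroDivisors.ne_zero hq
    refine ha δ hδ p q hq0 (hφ ?_)
    have h1 : φ q ≠ 0 := fun h0 => hq0 (hφ (h0.trans (map_zero φ).symm))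
    have h2 : (∏ i ∈ δ, r i) * φ q = φ p := by
      rw [← hz, map_div₀]
      exact div_mul_cancel₀ _ h1
    simp only [map_mul, map_prod, ← hr, ← h2, prod_pow]
    ring

end Norm16Aux

/-- A nontrivial relation between products of the square roots of the radicands gives a plane
curve. -/
theorem norm16 (D : ℕ) : ∃ D' : ℕ, ∀ (K : Type) [Field K] [CharZero K] (x y θ : Fin 4 → K),
    Function.Injective θ → (∀ i, x i ≠ 0) → ∀ Θ : Finset (Fin 4) → K[X][X], Θ ≠ 0 →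
    (∀ ε, (Θ ε).natDegree ≤ D ∧ ∀ j, ((Θ ε).coeff j).natDegree ≤ D) →
    ∃ G : K[X][X], G ≠ 0 ∧ G.natDegree ≤ D' ∧ (∀ j, (G.coeff j).natDegree ≤ D') ∧
      ∀ (s n : K) (Ω : Type) [Field Ω] [Algebra K Ω] (r : Fin 4 → Ω),
        (∀ i, r i ^ 2 = algebraMap K Ω ((rad x y θ i).evalEval s n)) →
        ∑ ε : Finset (Fin 4), (∏ i ∈ ε, r i) * algebraMap K Ω ((Θ ε).evalEval s n) = 0 →
        G.evalEval s n = 0 := by
  refine ⟨Fintype.card (Finset (Fin 4)) * (D + 4 * 2), fun K _ _ x y θ hθ hx Θ hΘ hD => ?_⟩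
  have hB : Norm16Aux.Bd (Fintype.card (Finset (Fin 4)) * (D + 4 * 2))
      (Norm16Aux.mat (rad x y θ) Θ).det := by
    refine Norm16Aux.Bd.det (fun δ δ' => Norm16Aux.Bd.mul (hD _) ?_)
    refine (Norm16Aux.Bd.prod _ (fun i _ => Norm16Aux.bd_rad x y θ i)).mono ?_
    exact Nat.mul_le_mul_right 2 (by simpa using Finset.card_le_univ (δ \ δ'))
  refine ⟨(Norm16Aux.mat (rad x y θ) Θ).det, Norm16Aux.indep _
    (fun δ hδ p q hq => Norm16Aux.not_sq hθ hx hδ hq) hΘ, hB.1, hB.2,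
    fun s n Ω _ _ r hr h => ?_⟩
  have h1 := Norm16Aux.det_zero (rad x y θ) Θ ((algebraMap K Ω).comp (evalEvalRingHom s n)) r
    (fun i => by rw [RingHom.comp_apply, coe_evalEvalRingHom]; exact hr i)
    (by simp only [RingHom.comp_apply]; exact h)
  rw [RingHom.comp_apply, coe_evalEvalRingHom] at h1
  exact (map_eq_zero_iff _ (algebraMap K Ω).injective).1 h1

end Vale.Agent.P018
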