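import Vale.Agent.P018.Q.DetGen
import Vale.Agent.P018.Q.Norm16
import Vale.Agent.P018.Q.MonII
import Vale.Agent.P018.Q.Mul
import Vale.Agent.P018.Relation
import Vale.Agent.P018.Q.BoxIIAux1
import Vale.Agent.P018.Q.BoxIIAux2

namespace Vale.Agent.P018

open NumberField Polynomial Filter

theorem bxII_num (z αe υ s : ℝ) (hz : 0 < z) (hs : 1 / 2 ≤ s) (hαe : 0 ≤ αe) (hυ : 0 ≤ υ)
    (hnum : 9 / 4 * (αe + s * υ) ^ 2 < z * (4 + 8 * s)) :
    ∃ (m b : ℕ) (W : ℝ), m + 1 ≤ b ∧ 0 ≤ W ∧ ∀ r : ℕ,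
      r = 4 * ((m + 1) ^ 2 + (m + 1) * b) + 4 * (m ^ 2 + m * b) →
      r * (αe * ((2 * m + 3 : ℕ) : ℝ) + υ * b) < W * r - (W + z + 1) ^ 3 / (6 * z) := by
  set γ := αe + s * υ with hγ
  have hγ0 : 0 ≤ γ := by have : 0 ≤ s * υ := mul_nonneg (by linarith) hυ; linarith
  set κ := √(z * (4 + 8 * s)) with hκ
  have hκ0 : 0 ≤ κ := Real.sqrt_nonneg _
  have hκ2 : κ ^ 2 = z * (4 + 8 * s) := Real.sq_sqrt (mul_nonneg hz.le (by linarith))
  have hκγ : 3 / 2 * γ < κ := by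
    refine lt_of_pow_lt_pow_left₀ 2 hκ0 ?_
    rw [hκ2]; linarith
  let f : ℝ → ℝ := fun x => (2 * (1 - 2 * x) ^ 2 + 4 * s * (1 - 2 * x)) * (κ - γ - υ * x) -
    (κ + (z + 1) * x) ^ 3 / (6 * z)
  have hf : Continuous f := by fun_prop
  have hf0 : 0 < f 0 := by
    have e1 : f 0 = (2 + 4 * s) * (2 / 3 * κ - γ) := by
      simp only [f, mul_zero, sub_zero, add_zero]
      rw [pow_succ κ 2, hκ2]
      field_simp
      ring
    rw [e1]
    exact mul_pos (by linarith) (by linarith)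
  have hg : Continuous fun x : ℝ => κ - γ - υ * x := by fun_prop
  have ev1 : ∀ᶠ x in nhds (0 : ℝ), 0 < f x ∧ 0 < κ - γ - υ * x :=
    (hf.continuousAt.eventually (lt_mem_nhds hf0)).and
      (hg.continuousAt.eventually (lt_mem_nhds (by simp only [mul_zero, sub_zero]; linarith)))
  have ht : Tendsto (fun m : ℕ => (((2 * m + 3 : ℕ) : ℝ))⁻¹) atTop (nhds 0) := by
    refine tendsto_inv_atTop_zero.comp (tendsto_natCast_atTop_atTop.comp ?_)
    exact tendsto_atTop_mono (fun m => by simp only [id]; omega) tendsto_id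
  obtain ⟨m, h1, h2⟩ := (ht.eventually ev1).exists
  set a : ℝ := ((2 * m + 3 : ℕ) : ℝ) with ha
  have ha' : a = 2 * m + 3 := by rw [ha]; push_cast; ring
  have hm0 : (0 : ℝ) ≤ m := Nat.cast_nonneg m
  have ha0 : 0 < a := by linarith
  have hb1 : s * a ≤ ⌈s * a⌉₊ := Nat.le_ceil _
  have hb2 : (⌈s * a⌉₊ : ℝ) < s * a + 1 := Nat.ceil_lt_add_one (mul_nonneg (by linarith) ha0.le)
  set b := ⌈s * a⌉₊ with hb
  refine ⟨m, b, κ * a, ?_, by positivity, fun r hr => ?_⟩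
  · have : (m : ℝ) + 1 ≤ b := by nlinarith
    exact_mod_cast this
  have hr' : (r : ℝ) = 4 * ((m + 1) ^ 2 + (m + 1) * b) + 4 * (m ^ 2 + m * b) := by
    rw [hr]; push_cast; ring
  have e1 : a ^ 2 * (2 * (1 - 2 * a⁻¹) ^ 2 + 4 * s * (1 - 2 * a⁻¹)) ≤ r := by
    have : a ^ 2 * (2 * (1 - 2 * a⁻¹) ^ 2 + 4 * s * (1 - 2 * a⁻¹)) =
        2 * (a - 2) ^ 2 + 4 * (a - 2) * (s * a) := by field_simp
    rw [this, hr']
    have h3 : 4 * (a - 2) * (s * a) ≤ 4 * (a - 2) * b :=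
      mul_le_mul_of_nonneg_left hb1 (by linarith)
    rw [ha'] at h3 ⊢
    nlinarith
  have e2 : a * (κ - γ - υ * a⁻¹) ≤ κ * a - (αe * a + υ * b) := by
    have : a * (κ - γ - υ * a⁻¹) = κ * a - (αe * a + υ * (s * a + 1)) := by
      rw [hγ]; field_simp; ring
    rw [this]
    have := mul_le_mul_of_nonneg_left hb2.le hυ
    linarith
  have e3 : (κ * a + z + 1) ^ 3 / (6 * z) = a ^ 3 * ((κ + (z + 1) * a⁻¹) ^ 3 / (6 * z)) := by
    field_simp
    ring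
  have e4 := mul_le_mul e1 e2 (mul_pos ha0 h2).le (Nat.cast_nonneg r)
  have e5 := mul_pos (pow_pos ha0 3) h1
  simp only [f] at e5
  rw [e3]
  nlinarith

theorem bxII_L (C C1 lam lam' u v Y : ℝ) (ω ω' : ℂ) (hC : 1 ≤ C) (hC1 : 1 ≤ C1) (hlam : 0 < lam)
    (hlam' : 0 < lam') (hv : v ≠ 0) (hY : 0 < Y) (hω : ‖ω‖ ≤ C1 * lam) (hω' : ‖ω'‖ ≤ C1 * lam')
    (huv : |u| * lam ≤ |v| * lam') (hvY : |v| * lam' ≤ C * Y) (hβ : Y ≤ C * ‖u * ω + v * ω'‖)
    (L : ℂ) (hL : L = ((u * lam / (v * lam') : ℝ) : ℂ) * (ω / lam) + ω' / lam') :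
    u * ω + v * ω' = (v * lam') * L ∧ 1 ≤ C ^ 2 * ‖L‖ ∧ ‖L‖ ≤ 2 * C1 := by
  have h1 : (lam : ℂ) ≠ 0 := by exact_mod_cast hlam.ne'
  have h2 : (lam' : ℂ) ≠ 0 := by exact_mod_cast hlam'.ne'
  have h3 : (v : ℂ) ≠ 0 := by exact_mod_cast hv
  have e1 : u * ω + v * ω' = (v * lam') * L := by
    rw [hL]; push_cast; field_simp
  have hv0 : 0 < |v| * lam' := mul_pos (abs_pos.2 hv) hlam'
  have e2 : ‖u * ω + v * ω'‖ = |v| * lam' * ‖L‖ := by
    rw [e1, norm_mul, norm_mul, Complex.norm_real, Complex.norm_real, Real.norm_eq_abs,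
      Real.norm_eq_abs, abs_of_pos hlam']
  refine ⟨e1, ?_, ?_⟩
  · rw [e2] at hβ
    have : |v| * lam' * ‖L‖ ≤ C * Y * ‖L‖ := mul_le_mul_of_nonneg_right hvY (norm_nonneg _)
    have h4 : Y * 1 ≤ Y * (C ^ 2 * ‖L‖) := by nlinarith
    exact le_of_mul_le_mul_left h4 hY
  · have h4 := norm_add_le (u * ω) (v * ω')
    rw [e2, norm_mul, norm_mul, Complex.norm_real, Complex.norm_real, Real.norm_eq_abs,
      Real.norm_eq_abs] at h4
    have h5 : |u| * ‖ω‖ ≤ |u| * (C1 * lam) := mul_le_mul_of_nonneg_left hω (abs_nonneg _)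
    have h6 : |v| * ‖ω'‖ ≤ |v| * (C1 * lam') := mul_le_mul_of_nonneg_left hω' (abs_nonneg _)
    have h7 : C1 * (|u| * lam) ≤ C1 * (|v| * lam') := mul_le_mul_of_nonneg_left huv (by linarith)
    have h8 : |v| * lam' * ‖L‖ ≤ |v| * lam' * (2 * C1) := by nlinarith
    exact le_of_mul_le_mul_left h8 hv0

theorem bxII_R (C1 P : ℝ) (α L θ t R : ℂ) (hC1 : 1 ≤ C1) (hP : 0 ≤ P) (hα : ‖α‖ ≤ C1 * P)
    (hL : ‖L‖ ≤ 2 * C1) (hθ : ‖θ * t‖ ≤ 1 / 2) (h : R ^ 2 * (1 - θ * t) = α ^ 2 * L) :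
    ‖R‖ ≤ 2 * C1 ^ 2 * P := by
  have h1 := congrArg norm h
  rw [norm_mul, norm_mul, norm_pow, norm_pow] at h1
  have h2 : 1 / 2 ≤ ‖1 - θ * t‖ := by
    have := norm_sub_norm_le (1 : ℂ) (θ * t)
    rw [norm_one] at this
    linarith
  have h3 : ‖α‖ ^ 2 * ‖L‖ ≤ (C1 * P) ^ 2 * (2 * C1) := by gcongr
  have h4 : ‖R‖ ^ 2 * (1 / 2) ≤ ‖R‖ ^ 2 * ‖1 - θ * t‖ := by gcongr
  refine le_of_pow_le_pow_left₀ two_ne_zero (by positivity) ?_
  have h5 : (C1 * P) ^ 2 * C1 ≤ (C1 * P) ^ 2 * C1 ^ 2 := by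
    gcongr; nlinarith
  nlinarith

theorem bxII_uv (lam lam' v Y : ℝ) (hlam : 0 < lam) (hlam' : 0 < lam') (h1 : |v| * lam' ≤ Y * lam)
    (h2 : |v| ≤ Y) (n b : ℕ) (hn : n ≤ b) : |v| ^ b * (lam' / lam) ^ n ≤ Y ^ b := by
  obtain ⟨f, rfl⟩ := Nat.exists_eq_add_of_le hn
  have h3 : |v| * (lam' / lam) ≤ Y := by
    rw [← mul_div_assoc, div_le_iff₀ hlam]; exact h1
  have h0 : 0 ≤ Y := (abs_nonneg _).trans h2
  calc |v| ^ (n + f) * (lam' / lam) ^ n = (|v| * (lam' / lam)) ^ n * |v| ^ f := by ring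
    _ ≤ Y ^ n * Y ^ f := by gcongr
    _ = _ := by ring

variable {F : Type} [Field F] [NumberField F]

theorem bxII_cj (c : Ctx F) (u v : ℤ) (ω ω' : Fin 4 → ℤ) (i : Fin 4) :
    c.cj (u • ω + v • ω') i = u * c.cj ω i + v * c.cj ω' i := by
  simp only [Ctx.cj, pv, Finset.mul_sum, ← Finset.sum_add_distrib]
  refine Finset.sum_congr rfl fun l _ => ?_
  simp only [Pi.add_apply, Pi.smul_apply, smul_eq_mul]
  push_cast
  ring

/-- Part II, surface step: the points of a short arc of a `β`-line lie on a curve. -/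
theorem boxII (c : Ctx F) (C z αe υ s : ℝ) (hC : 1 ≤ C) (hz : 0 < z) (hs : 1 / 2 ≤ s)
    (hαe : 0 ≤ αe) (hυ : 0 ≤ υ) (hnum : 9 / 4 * (αe + s * υ) ^ 2 < z * (4 + 8 * s)) :
    ∃ D : ℕ, ∀ᶠ X : ℝ in atTop, ∀ (M : ℕ) (Z : Finset ℤ) (p : ℤ → ℕ) (a b : ℤ → Fin 4 → ℤ)
      (ω ω' : Fin 4 → ℤ) (u v : ℤ → ℤ) (lam lam' : ℝ), AllPt c C X M Z p a b →
      (∀ N ∈ Z, (p N : ℝ) ^ (1 / 4 : ℝ) ≤ X ^ αe) → (∀ i j, i ≠ j → c.pc ω ω' i j ≠ 0) →
      0 < lam → 0 < lam' → (∀ l, |(ω l : ℝ)| ≤ lam) → (∀ l, |(ω' l : ℝ)| ≤ lam') →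
      (∀ N ∈ Z, b N = u N • ω + v N • ω' ∧ |(u N : ℝ)| * lam ≤ |(v N : ℝ)| * lam' ∧
        |(v N : ℝ)| * lam' ≤ C * X / √(p N : ℝ) ∧ |(v N : ℝ)| * lam' ≤ X ^ υ * lam ∧
        |(v N : ℝ)| ≤ X ^ υ) →
      (∀ N ∈ Z, ∀ N' ∈ Z,
        |(u N : ℝ) * lam / (v N * lam') - (u N' : ℝ) * lam / (v N' * lam')| ≤ X ^ (-z)) →
      ∃ G : F[X][X], Curve F D G Z u v := by
  classical
  obtain ⟨m, b0, W, hb, hW, hE⟩ := bxII_num z αe υ s hz hs hαe hυ hnum
  obtain ⟨D, hD⟩ := bxII_alg m b0 hb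
  obtain ⟨C1, hC1, hϑ, hup, -⟩ := size_bounds c.ϑ c.hind
  have hC2 : 1 ≤ C ^ 2 := one_le_pow₀ hC
  have hΘ : 1 ≤ C1 * C ^ 2 := one_le_mul_of_one_le_of_one_le hC1 hC2
  obtain ⟨K, hK, hdet⟩ := bxII_det z W (C1 * C ^ 2) hz hW hΘ (2 * m + 3) b0
  refine ⟨Fintype.card ((F →+* ℂ) × Fin 4 → Bool) * D, ?_⟩
  set r : ℕ := 4 * ((m + 1) ^ 2 + (m + 1) * b0) + 4 * (m ^ 2 + m * b0) with hr
  have hE0 := hE r rfl
  set E1 : ℝ := W * r - (W + z + 1) ^ 3 / (6 * z) with hE1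
  set S0 : ℝ := αe * ((2 * m + 3 : ℕ) : ℝ) + υ * b0 with hS0
  have ev1 : ∀ᶠ X : ℝ in atTop, (((2 * C1 ^ 2) ^ (2 * m + 3)) ^ r * (r.factorial * K ^ r)) *
      X ^ (-(E1 - r * S0)) < 1 := by
    have := (tendsto_rpow_neg_atTop (sub_pos.2 hE0)).const_mul
      (((2 * C1 ^ 2) ^ (2 * m + 3)) ^ r * (r.factorial * K ^ r))
    rw [mul_zero] at this
    exact this.eventually (gt_mem_nhds one_pos)
  filter_upwards [hdet, ev1, eventually_ge_atTop 1, eventually_ge_atTop (2 * C1)]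
    with X hdet hX1 hX hX2
  intro M Z p a b ω ω' u v lam lam' hpt hp hpc hlam hlam' hω hω' huv hclose
  rcases Z.eq_empty_or_nonempty with rfl | ⟨N0, hN0⟩
  · exact ⟨1, one_ne_zero, (bxBd_one.mono (Nat.zero_le _)).1, (bxBd_one.mono (Nat.zero_le _)).2,
      by simp⟩
  have hX0 : 0 < X := by linarith
  have hv0 : ∀ N ∈ Z, v N ≠ 0 := by
    intro N hN h0
    obtain ⟨h1, h2, -⟩ := huv N hN
    have h3 : u N = 0 := by
      rw [h0, Int.cast_zero, abs_zero, zero_mul] at h2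
      have h4 : |(u N : ℝ)| ≤ 0 := by
        by_contra h5
        exact absurd (mul_pos (not_le.1 h5) hlam) (not_lt.2 h2)
      exact_mod_cast abs_nonpos_iff.1 h4
    have h4 := (hpt N hN).hb1
    rw [h1, h0, h3, zero_smul, zero_smul, add_zero] at h4
    exact zero_ne_one ((Finset.gcd_eq_zero_iff.2 (fun _ _ => rfl)).symm.trans h4)
  have hvR : ∀ N ∈ Z, (v N : ℝ) ≠ 0 := fun N hN => by exact_mod_cast hv0 N hN
  have hvC : ∀ N ∈ Z, (v N : ℂ) ≠ 0 := fun N hN => by exact_mod_cast hv0 N hN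
  have hNC : ∀ N ∈ Z, (N : ℂ) ≠ 0 := fun N hN h => by
    have h1 := (hpt N hN).hN1
    have h2 : N = 0 := by exact_mod_cast h
    rw [h2, Int.cast_zero, abs_zero] at h1
    linarith
  have hM0 : M ≠ 0 := (hpt N0 hN0).hM0.ne'
  have hMC : (M : ℂ) ≠ 0 := by exact_mod_cast hM0
  have hlamC : (lam : ℂ) ≠ 0 := by exact_mod_cast hlam.ne'
  have hlamC' : (lam' : ℂ) ≠ 0 := by exact_mod_cast hlam'.ne'
  have hcj : ∀ (φ : F →+* ℂ) i (w : Fin 4 → ℤ) (P : ℝ), (∀ l, |(w l : ℝ)| ≤ P) →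
      ‖emb φ (c.cj w i)‖ ≤ C1 * P := fun φ i w P h => by
    rw [Ctx.cj, map_pv]; exact hup φ i w P h
  let σ : ℤ → ℝ := fun N => (u N : ℝ) * lam / (v N * lam')
  let L : (F →+* ℂ) → Fin 4 → ℤ → ℂ := fun φ i N =>
    (σ N : ℂ) * (emb φ (c.cj ω i) / lam) + emb φ (c.cj ω' i) / lam'
  have hβe : ∀ φ i, ∀ N ∈ Z, emb φ (c.cj (b N) i) =
      ((u N : ℝ) : ℂ) * emb φ (c.cj ω i) + ((v N : ℝ) : ℂ) * emb φ (c.cj ω' i) := by
    intro φ i N hN
    rw [(huv N hN).1, bxII_cj]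
    simp
  have hL : ∀ φ i, ∀ N ∈ Z, emb φ (c.cj (b N) i) = (v N * lam') * L φ i N ∧
      1 ≤ C ^ 2 * ‖L φ i N‖ ∧ ‖L φ i N‖ ≤ 2 * C1 := by
    intro φ i N hN
    have hp0 : (0 : ℝ) < p N := by exact_mod_cast (hpt N hN).hp.pos
    have := bxII_L C C1 lam lam' (u N) (v N) (X / √(p N : ℝ)) (emb φ (c.cj ω i))
      (emb φ (c.cj ω' i)) hC hC1 hlam hlam' (hvR N hN) (by positivity) (hcj φ i ω lam hω)
      (hcj φ i ω' lam' hω') (huv N hN).2.1 (by rw [← mul_div_assoc]; exact (huv N hN).2.2.1)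
      (by rw [← hβe φ i N hN]; exact (hpt N hN).hβ φ i) (L φ i N) rfl
    rw [← hβe φ i N hN] at this
    simpa using this
  have hL0 : ∀ φ i, L φ i N0 ≠ 0 := fun φ i h => by
    have := (hL φ i N0 hN0).2.1
    rw [h, norm_zero, mul_zero] at this
    linarith
  have hLinv : ∀ φ i, ‖(L φ i N0)⁻¹‖ ≤ C ^ 2 := fun φ i => by
    rw [norm_inv, inv_le_iff_one_le_mul₀ (norm_pos_iff.2 (hL0 φ i))]
    exact (hL φ i N0 hN0).2.1
  let k : (F →+* ℂ) → Fin 4 → ℂ := fun φ i => emb φ (c.cj ω i) / lam * (L φ i N0)⁻¹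
  have hk : ∀ φ i, ‖k φ i‖ ≤ C1 * C ^ 2 := fun φ i => by
    simp only [k]
    rw [norm_mul]
    refine mul_le_mul ?_ (hLinv φ i) (norm_nonneg _) (by linarith)
    rw [norm_div, Complex.norm_real, Real.norm_eq_abs, abs_of_pos hlam, div_le_iff₀ hlam]
    exact hcj φ i ω lam hω
  let τ : ℤ → ℂ := fun N => ((σ N - σ N0 : ℝ) : ℂ)
  have hLk : ∀ φ i N, L φ i N = L φ i N0 * (1 + k φ i * τ N) := fun φ i N => by
    have := hL0 φ i
    have e1 : L φ i N0 * (1 + k φ i * τ N) = L φ i N0 + emb φ (c.cj ω i) / lam * τ N := by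
      simp only [k]; field_simp
    rw [e1]
    simp only [L, τ]
    push_cast
    ring
  choose H0 hH0 using fun (φ : F →+* ℂ) i => IsAlgClosed.exists_pow_nat_eq (L φ i N0)⁻¹ two_pos
  choose R hR using fun N : ℤ =>
    IsAlgClosed.exists_pow_nat_eq ((M : ℂ) * N / (v N * lam')) two_pos
  have hH : ∀ φ i, ‖H0 φ i‖ ≤ C1 * C ^ 2 := fun φ i => by
    have h1 : ‖H0 φ i‖ ^ 2 ≤ C ^ 2 := by rw [← norm_pow, hH0]; exact hLinv φ i
    have h2 : ‖H0 φ i‖ ≤ C := le_of_pow_le_pow_left₀ two_ne_zero (by linarith) h1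
    nlinarith
  have hH0' : ∀ φ i, H0 φ i ≠ 0 := fun φ i h => by
    have := hH0 φ i
    rw [h, zero_pow two_ne_zero] at this
    exact inv_ne_zero (hL0 φ i) this.symm
  have hR0 : ∀ N ∈ Z, R N ≠ 0 := fun N hN h => by
    have := hR N
    rw [h, zero_pow two_ne_zero] at this
    exact div_ne_zero (mul_ne_zero hMC (hNC N hN)) (mul_ne_zero (hvC N hN) hlamC') this.symm
  have hrel : ∀ φ i, ∀ N ∈ Z, R N ^ 2 * (1 - emb φ (c.ϑ i) * (N : ℂ)⁻¹) =
      emb φ (c.cj (a N) i) ^ 2 * L φ i N := by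
    intro φ i N hN
    have h1 := congrArg (emb φ) ((hpt N hN).hab i)
    rw [map_mul, map_pow, (hL φ i N hN).1, map_mul, map_sub, map_natCast, map_intCast] at h1
    have h2 := hNC N hN
    have h3 := hvC N hN
    rw [hR]
    field_simp
    linear_combination (-1 : ℂ) * h1
  have ht : ∀ N ∈ Z, ‖(N : ℂ)⁻¹‖ ≤ X ^ (-1 : ℝ) := fun N hN => by
    rw [norm_inv, Complex.norm_intCast, Real.rpow_neg_one]
    exact inv_anti₀ hX0 (hpt N hN).hN1
  have hRb : ∀ N ∈ Z, ‖R N‖ ≤ 2 * C1 ^ 2 * X ^ αe := by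
    intro N hN
    obtain ⟨φ⟩ : Nonempty (F →+* ℂ) := inferInstance
    refine bxII_R C1 _ _ _ _ _ _ hC1 (by positivity)
      (hcj φ 0 (a N) _ fun l => ((hpt N hN).ha l).trans (hp N hN)) (hL φ 0 N hN).2.2 ?_
      (hrel φ 0 N hN)
    rw [norm_mul]
    refine (mul_le_mul (hϑ φ 0) (ht N hN) (norm_nonneg _) (by linarith)).trans ?_
    rw [Real.rpow_neg_one, ← div_eq_mul_inv, div_le_iff₀ hX0]
    linarith
  let w0 : (F →+* ℂ) → Fin 4 → ℤ → ℂ := fun φ i N =>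
    emb φ (c.cj (a N) i) * (1 + k φ i * τ N) / (R N * H0 φ i)
  have hw0 : ∀ φ i, ∀ N ∈ Z,
      w0 φ i N ^ 2 = (1 - emb φ (c.ϑ i) * (N : ℂ)⁻¹) * (1 + k φ i * τ N) := by
    intro φ i N hN
    have h1 := hrel φ i N hN
    rw [hLk φ i N] at h1
    simp only [w0]
    rw [div_pow, mul_pow (R N), hH0, div_eq_iff
      (mul_ne_zero (pow_ne_zero _ (hR0 N hN)) (inv_ne_zero (hL0 φ i)))]
    have h2 : (L φ i N0)⁻¹ * L φ i N0 = 1 := inv_mul_cancel₀ (hL0 φ i)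
    linear_combination (-(1 + k φ i * τ N) * (L φ i N0)⁻¹) * h1 -
      (emb φ (c.cj (a N) i) * (1 + k φ i * τ N)) ^ 2 * h2
  let cls : ℤ → ((F →+* ℂ) × Fin 4 → Bool) := fun N x => decide (0 ≤ (w0 x.1 x.2 N).re)
  have hω0 : ω ≠ 0 := by
    intro h
    apply hpc 0 1 (by decide)
    simp [Ctx.pc, Ctx.cj, pv, h]
  obtain ⟨ι, _, _, e, n, hcard, he, hn, hG⟩ := hD F (fun i => ((c.cj ω i : 𝓞 F) : F))
    (fun i => ((c.cj ω' i : 𝓞 F) : F)) (fun i => ((c.ϑ i : 𝓞 F) : F))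
    (fun i j h => c.hinj (RingOfIntegers.ext h))
    (fun i => RingOfIntegers.coe_ne_zero_iff.2 (c.hind i ω hω0))
    (fun i j hij h => hpc i j hij (RingOfIntegers.ext (by
      simp only [Ctx.pc, map_sub, map_mul, map_zero]
      exact sub_eq_zero.2 h)))
  let ent : ℤ → ι → 𝓞 F := fun N j =>
    (∏ i, c.cj (a N) i ^ e j i) * ((u N : 𝓞 F) ^ n j * (v N : 𝓞 F) ^ (b0 - n j))
  have key : ∀ sg : (F →+* ℂ) × Fin 4 → Bool, ∃ G : F[X][X], G ≠ 0 ∧ bxBd D G ∧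
      ∀ N ∈ Z, cls N = sg → G.evalEval ((u N : F) / (v N : F)) (N : F) = 0 := by
    intro sg
    have hz0 : ∀ l : ι → ℤ, (∀ j, l j ∈ Z.filter fun N => cls N = sg) →
        (Matrix.of fun i j => ((ent (l i) j : 𝓞 F) : F)).det = 0 := by
      intro l hl
      have hlZ : ∀ j, l j ∈ Z := fun j => (Finset.mem_filter.1 (hl j)).1
      have hlc : ∀ j, cls (l j) = sg := fun j => (Finset.mem_filter.1 (hl j)).2
      have h0 : (Matrix.of fun i j => ent (l i) j).det = 0 := by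
        refine eq_zero_of_emb_lt_one _ fun φ => ?_
        have hσ : ‖((σ N0 : ℝ) : ℂ)‖ ≤ 1 := by
          rw [Complex.norm_real, Real.norm_eq_abs]
          simp only [σ]
          rw [abs_div, abs_mul, abs_mul, abs_of_pos hlam, abs_of_pos hlam',
            div_le_one (mul_pos (abs_pos.2 (hvR N0 hN0)) hlam')]
          exact (huv N0 hN0).2.1
        have hb1 := hdet ι e n (k φ) (fun i => emb φ (c.ϑ i))
          (fun i => if sg (φ, i) then H0 φ i else -H0 φ i) (σ N0) (fun j => τ (l j))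
          (fun j => ((l j : ℤ) : ℂ)⁻¹) (fun j => R (l j)) (fun j i => emb φ (c.cj (a (l j)) i))
          (fun j i => if sg (φ, i) then w0 φ i (l j) else -w0 φ i (l j)) he hn (hk φ)
          (fun i => (hϑ φ i).trans (le_mul_of_one_le_right (by linarith) hC2))
          (fun i => by split_ifs; exacts [hH φ i, by rw [norm_neg]; exact hH φ i]) hσ
          (fun j => by
            simp only [τ]
            rw [Complex.norm_real, Real.norm_eq_abs]
            exact hclose _ (hlZ j) _ hN0)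
          (fun j => ht _ (hlZ j))
          (fun j i => by
            have h1 := hR0 _ (hlZ j)
            have h2 := hH0' φ i
            simp only [w0]
            split_ifs <;> field_simp)
          (fun j i => by
            split_ifs
            · exact hw0 φ i _ (hlZ j)
            · rw [neg_sq]; exact hw0 φ i _ (hlZ j))
          (fun j i => by
            have h1 : decide (0 ≤ (w0 φ i (l j)).re) = sg (φ, i) := congrFun (hlc j) (φ, i)
            split_ifs with h2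
            · exact of_decide_eq_true (h1.trans h2)
            · rw [← h1, decide_eq_true_eq, not_le] at h2
              rw [Complex.neg_re]; linarith)
        have hent : ∀ i j, emb φ (ent (l i) j) = (v (l i) : ℂ) ^ b0 * (((lam' / lam : ℝ) : ℂ) ^ n j *
            ((∏ i', emb φ (c.cj (a (l i)) i') ^ e j i') * ((σ N0 : ℂ) + τ (l i)) ^ n j)) := by
          intro i j
          have h1 : (u (l i) : ℂ) = v (l i) * (((lam' / lam : ℝ) : ℂ) * ((σ N0 : ℂ) + τ (l i))) := by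
            have h2 := hvC _ (hlZ i)
            have h3 : (σ N0 : ℂ) + τ (l i) = σ (l i) := by simp only [τ]; push_cast; ring
            rw [h3]
            simp only [σ]
            push_cast
            field_simp
          obtain ⟨f, hf⟩ := Nat.exists_eq_add_of_le (hn j)
          simp only [ent, map_mul, map_prod, map_pow, map_intCast]
          rw [h1, hf, Nat.add_sub_cancel_left, mul_pow, mul_pow]
          ring
        have hd1 : emb φ (Matrix.of fun i j => ent (l i) j).det =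
            (∏ i, (v (l i) : ℂ) ^ b0) * ((∏ j, ((lam' / lam : ℝ) : ℂ) ^ n j) *
            (Matrix.of fun i j => (∏ i', emb φ (c.cj (a (l i)) i') ^ e j i') *
              ((σ N0 : ℂ) + τ (l i)) ^ n j).det) := by
          rw [RingHom.map_det, ← Matrix.det_mul_row, ← Matrix.det_mul_column]
          congr 1
          ext i j
          exact hent i j
        have hb2 : ‖∏ i, (v (l i) : ℂ) ^ b0‖ * ‖∏ j, ((lam' / lam : ℝ) : ℂ) ^ n j‖ ≤
            ((X ^ υ) ^ b0) ^ r := by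
          rw [norm_prod, norm_prod, ← Finset.prod_mul_distrib, ← hcard, ← Finset.card_univ,
            ← Finset.prod_const]
          refine Finset.prod_le_prod (fun _ _ => by positivity) fun i _ => ?_
          rw [norm_pow, norm_pow, Complex.norm_intCast, Complex.norm_real, Real.norm_eq_abs,
            abs_of_pos (div_pos hlam' hlam)]
          exact bxII_uv lam lam' _ _ hlam hlam' (huv _ (hlZ i)).2.2.2.1 (huv _ (hlZ i)).2.2.2.2
            _ _ (hn i)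
        have hb3 : ∏ i, ‖R (l i)‖ ^ (2 * m + 3) ≤ ((2 * C1 ^ 2 * X ^ αe) ^ (2 * m + 3)) ^ r := by
          rw [← hcard, ← Finset.card_univ, ← Finset.prod_const]
          exact Finset.prod_le_prod (fun _ _ => by positivity) fun i _ =>
            pow_le_pow_left₀ (norm_nonneg _) (hRb _ (hlZ i)) _
        rw [hcard] at hb1
        rw [hd1, norm_mul, norm_mul, ← mul_assoc]
        have hb4 := hb1.trans (mul_le_mul_of_nonneg_right hb3 (by positivity))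
        refine lt_of_le_of_lt (mul_le_mul hb2 hb4 (norm_nonneg _) (by positivity)) ?_
        refine lt_of_eq_of_lt ?_ hX1
        have e1 : X ^ (-(E1 - r * S0)) =
            ((X ^ υ) ^ b0) ^ r * ((X ^ αe) ^ (2 * m + 3)) ^ r * X ^ (-E1) := by
          rw [← Real.rpow_mul_natCast hX0.le, ← Real.rpow_mul_natCast hX0.le,
            ← Real.rpow_mul_natCast hX0.le, ← Real.rpow_mul_natCast hX0.le, ← Real.rpow_add hX0,
            ← Real.rpow_add hX0]
          congr 1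
          rw [hS0]; ring
        rw [e1, mul_pow (2 * C1 ^ 2), mul_pow]
        ring
      have h1 := congrArg (algebraMap (𝓞 F) F) h0
      rw [RingHom.map_det, map_zero] at h1
      exact h1
    obtain ⟨cc, hc0, hc⟩ := exists_kernel (Z.filter fun N => cls N = sg)
      (fun N j => ((ent N j : 𝓞 F) : F)) hz0
    obtain ⟨G, hG0, hGd, hGz⟩ := hG cc hc0
    refine ⟨G, hG0, hGd, fun N hN hcl => ?_⟩
    refine hGz M N (u N) (v N) (fun i => ((c.cj (a N) i : 𝓞 F) : F)) (by exact_mod_cast hM0)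
      (by exact_mod_cast hv0 N hN) (fun i => ?_) ?_
    · have h1 := (hpt N hN).hab i
      rw [(huv N hN).1, bxII_cj] at h1
      have := congrArg (algebraMap (𝓞 F) F) h1
      simpa using this
    · rw [← hc N (Finset.mem_filter.2 ⟨hN, hcl⟩)]
      refine Finset.sum_congr rfl fun j _ => ?_
      refine congrArg (cc j * ·) ?_
      change _ = algebraMap (𝓞 F) F (ent N j)
      simp only [ent, map_mul, map_prod, map_pow, map_intCast]
  choose G hG0 hGd hGz using key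
  have hbd := bxBd_prod Finset.univ G D fun sg _ => hGd sg
  rw [Finset.card_univ] at hbd
  refine ⟨∏ sg, G sg, Finset.prod_ne_zero_iff.2 fun sg _ => hG0 sg, hbd.1, hbd.2, fun N hN => ?_⟩
  rw [evalEval_prod]
  exact Finset.prod_eq_zero (Finset.mem_univ (cls N)) (hGz _ N hN rfl)

end Vale.Agent.P018
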