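import Vale.Agent.P018.Q.Defs

namespace Vale.Agent.P018

open Polynomial in
/-- Hensel's lemma for arbitrary polynomials in an adically complete ring -/
theorem br_hensel {S : Type} [CommRing S] (I : Ideal S) [IsAdicComplete I S] (f : S[X]) (a₀ : S)
    (h₁ : f.eval a₀ ∈ I) (h₂ : ∀ b, b - a₀ ∈ I → IsUnit (f.derivative.eval b)) :
    ∃ a, f.eval a = 0 ∧ a - a₀ ∈ I := by
  classical
  let c : ℕ → S := fun n => Nat.recOn n a₀ fun _ b =>
    b - f.eval b * Ring.inverse (f.derivative.eval b)
  have hc : ∀ n, c (n + 1) = c n - f.eval (c n) * Ring.inverse (f.derivative.eval (c n)) :=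
    fun n => rfl
  have hc_mod : ∀ n, c n ≡ a₀ [SMOD I] := by
    intro n
    induction n with
    | zero => rfl
    | succ n ih =>
      rw [hc, sub_eq_add_neg, ← add_zero a₀]
      refine ih.add ?_
      rw [SModEq.zero, Ideal.neg_mem_iff]
      refine I.mul_mem_right _ ?_
      rw [← SModEq.zero] at h₁ ⊢
      exact (ih.eval f).trans h₁
  have hf'c : ∀ n, IsUnit (f.derivative.eval (c n)) := fun n =>
    h₂ _ (SModEq.sub_mem.mp (hc_mod n))
  have hfcI : ∀ n, f.eval (c n) ∈ I ^ (n + 1) := by
    intro n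
    induction n with
    | zero => rw [zero_add, pow_one]; exact h₁
    | succ n ih =>
      obtain ⟨e, he⟩ := exists_mul_sq_add_linear_part_eq_eval_add f (c n)
        (-(f.eval (c n) * Ring.inverse (f.derivative.eval (c n))))
      have h1 : f.derivative.eval (c n) * Ring.inverse (f.derivative.eval (c n)) = 1 :=
        Ring.mul_inverse_cancel _ (hf'c n)
      have h2 : f.eval (c (n + 1)) =
          (e * Ring.inverse (f.derivative.eval (c n)) ^ 2) * (f.eval (c n) * f.eval (c n)) := by
        rw [hc, sub_eq_add_neg, ← he]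
        linear_combination (-f.eval (c n)) * h1
      rw [h2]
      refine Ideal.mul_mem_left _ _ ?_
      rw [pow_succ]
      exact Ideal.mul_mem_mul ih (Ideal.pow_le_self (Nat.succ_ne_zero n) ih)
  have aux : ∀ m n, m ≤ n → c m ≡ c n [SMOD (I ^ m • ⊤ : Ideal S)] := by
    intro m n hmn
    rw [← Ideal.one_eq_top, Ideal.smul_eq_mul, mul_one]
    obtain ⟨k, rfl⟩ := Nat.exists_eq_add_of_le hmn
    clear hmn
    induction k with
    | zero => rw [add_zero]
    | succ k ih =>
      rw [← add_assoc, hc, ← add_zero (c m), sub_eq_add_neg]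
      refine ih.add ?_
      symm
      rw [SModEq.zero, Ideal.neg_mem_iff]
      refine Ideal.mul_mem_right _ _ (Ideal.pow_le_pow_right ?_ (hfcI _))
      rw [add_assoc]
      exact le_self_add
  obtain ⟨a, ha⟩ := IsPrecomplete.prec' c (aux _ _)
  refine ⟨a, ?_, ?_⟩
  · suffices ∀ n, f.eval a ≡ 0 [SMOD (I ^ n • ⊤ : Ideal S)] from IsHausdorff.haus' _ this
    intro n
    specialize ha n
    rw [← Ideal.one_eq_top, Ideal.smul_eq_mul, mul_one] at ha ⊢
    refine (ha.symm.eval f).trans ?_
    rw [SModEq.zero]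
    exact Ideal.pow_le_pow_right le_self_add (hfcI _)
  · specialize ha 1
    rw [pow_one, ← Ideal.one_eq_top, Ideal.smul_eq_mul, mul_one] at ha
    have h3 : a ≡ c 1 [SMOD I] := ha.symm
    rw [← SModEq.sub_mem]
    exact h3.trans (hc_mod 1)

open MvPolynomial in
/-- a polynomial in several variables seen as a polynomial in one of them -/
theorem br_poly {R S σ : Type} [CommRing R] [CommRing S] [Algebra R S] [DecidableEq σ]
    (Y : σ → S) (i : σ) (H : MvPolynomial σ R) : ∃ f : Polynomial S,
      (∀ a, f.eval a = aeval (Function.update Y i a) H) ∧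
      ∀ a, f.derivative.eval a = aeval (Function.update Y i a) (pderiv i H) := by
  induction H using MvPolynomial.induction_on with
  | C r => exact ⟨Polynomial.C (algebraMap R S r), by simp, by simp⟩
  | add p q hp hq =>
    obtain ⟨f, hf1, hf2⟩ := hp
    obtain ⟨g, hg1, hg2⟩ := hq
    exact ⟨f + g, fun a => by simp [hf1, hg1], fun a => by simp [hf2, hg2]⟩
  | mul_X p j hp =>
    obtain ⟨f, hf1, hf2⟩ := hp
    by_cases hj : j = i
    · subst hj
      refine ⟨f * Polynomial.X, fun a => by simp [hf1], fun a => ?_⟩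
      simp [hf1, hf2]
      ring
    · refine ⟨f * Polynomial.C (Y j), fun a => by simp [hf1, hj], fun a => ?_⟩
      simp [hf2, hj]
      ring

open MvPolynomial in
theorem br_dvd_eval {R σ : Type} [CommRing R] (π : R) (y y' : σ → R)
    (h : ∀ j, π ∣ y j - y' j) (P : MvPolynomial σ R) : π ∣ eval y P - eval y' P := by
  induction P using MvPolynomial.induction_on with
  | C r => simp
  | add p q hp hq =>
    have : eval y (p + q) - eval y' (p + q) = (eval y p - eval y' p) + (eval y q - eval y' q) := by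
      simp only [map_add]; ring
    rw [this]; exact dvd_add hp hq
  | mul_X p j hp =>
    have : eval y (p * X j) - eval y' (p * X j) =
        (eval y p - eval y' p) * y j + eval y' p * (y j - y' j) := by
      simp only [map_mul, eval_X]; ring
    rw [this]; exact dvd_add (hp.mul_right _) ((h j).mul_left _)

open MvPolynomial in
theorem br_aeval_congr {R S σ : Type} [CommRing R] [CommRing S] [Algebra R S]
    (Y Y' : σ → S) (P : MvPolynomial σ R) (h : ∀ j ∈ P.vars, Y j = Y' j) :
    aeval Y P = aeval Y' P := by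
  rw [aeval_def, aeval_def]
  classical
  exact eval₂_congr _ _ _ fun {i} {c} hi hc =>
    h i ((mem_vars_iff_mem_support i).mpr ⟨c, mem_support_iff.mpr hc, hi⟩)

theorem br_unit_of_dvd {R : Type} [CommRing R] (π : R) (E : ℕ) (hE : π ^ E = 0) (u v : R)
    (hu : IsUnit u) (h : π ∣ v - u) : IsUnit v := by
  obtain ⟨c, hc⟩ := h
  have h1 : IsNilpotent (π * c) := ⟨E, by rw [mul_pow, hE, zero_mul]⟩
  have h2 : v = u + π * c := by rw [← hc]; ring
  rw [h2]
  exact IsNilpotent.isUnit_add_left_of_commute h1 hu (Commute.all _ _)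

theorem br_unique {R : Type} [CommRing R] (π : R) (E : ℕ) (hE : π ^ E = 0) (f : Polynomial R)
    (a b : R) (ha : f.eval a = 0) (hb : f.eval b = 0) (hab : π ∣ b - a)
    (hu : IsUnit (f.derivative.eval a)) : b = a := by
  obtain ⟨c, hc⟩ := Polynomial.exists_mul_sq_add_linear_part_eq_eval_add f a (b - a)
  rw [add_sub_cancel, ha, hb] at hc
  have h1 : IsUnit (c * (b - a) + f.derivative.eval a) :=
    br_unit_of_dvd π E hE _ _ hu (by rw [add_sub_cancel_right]; exact hab.mul_left _)
  have h2 : (c * (b - a) + f.derivative.eval a) * (b - a) = 0 := by linear_combination hc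
  exact sub_eq_zero.mp (h1.mul_right_eq_zero.mp h2)

theorem br_eval_eq {R : Type} [CommRing R] (τ : R) (E : ℕ) (hE : τ ^ E = 0) (p q : Polynomial R)
    (h : ∀ d < E, p.coeff d = q.coeff d) : p.eval τ = q.eval τ := by
  have h1 : (Polynomial.X : Polynomial R) ^ E ∣ p - q :=
    Polynomial.X_pow_dvd_iff.mpr fun d hd => by rw [Polynomial.coeff_sub, h d hd, sub_self]
  obtain ⟨w, hw⟩ := h1
  have h2 := congrArg (Polynomial.eval τ) hw
  rw [Polynomial.eval_sub, Polynomial.eval_mul, Polynomial.eval_pow, Polynomial.eval_X, hE,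
    zero_mul] at h2
  exact sub_eq_zero.mp h2

/-- evaluation of power series at a nilpotent element -/
theorem br_ev {R : Type} [CommRing R] (τ : R) (E : ℕ) (hE : τ ^ E = 0) :
    ∃ ev : PowerSeries R →ₐ[R] R, ev PowerSeries.X = τ ∧
      ∀ f, ev f = ∑ k ∈ Finset.range (E + 2), PowerSeries.coeff k f * τ ^ k := by
  have hE2 : τ ^ (E + 2) = 0 := by rw [pow_add, hE, zero_mul]
  let L : PowerSeries R →ₗ[R] R := (Polynomial.leval τ).comp (PowerSeries.trunc (E + 2))
  have hL : ∀ f, L f = (PowerSeries.trunc (E + 2) f).eval τ := fun f => rfl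
  have h1 : L 1 = 1 := by rw [hL, PowerSeries.trunc_one, Polynomial.eval_one]
  have h2 : ∀ f g, L (f * g) = L f * L g := by
    intro f g
    rw [hL, hL, hL, ← Polynomial.eval_mul]
    refine br_eval_eq τ (E + 2) hE2 _ _ fun d hd => ?_
    rw [PowerSeries.coeff_trunc, if_pos hd, PowerSeries.coeff_mul, Polynomial.coeff_mul]
    refine Finset.sum_congr rfl fun x hx => ?_
    have := Finset.HasAntidiagonal.mem_antidiagonal.mp hx
    rw [PowerSeries.coeff_trunc, PowerSeries.coeff_trunc, if_pos (by omega), if_pos (by omega)]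
  refine ⟨AlgHom.ofLinearMap L h1 h2, ?_, fun f => ?_⟩
  · rw [AlgHom.ofLinearMap_apply, hL, PowerSeries.trunc_X, Polynomial.eval_X]
  · rw [AlgHom.ofLinearMap_apply, hL, Polynomial.eval,
      PowerSeries.eval₂_trunc_eq_sum_range]
    rfl

theorem br_sum_card (s : Finset ℕ) : s.card * (s.card - 1) ≤ 2 * ∑ x ∈ s, x := by
  induction s using Finset.induction_on_max with
  | empty => simp
  | insert a s ha ih =>
    have hna : a ∉ s := fun h => lt_irrefl _ (ha a h)
    have hle : s.card ≤ a := by
      have : s ⊆ Finset.range a := fun x hx => Finset.mem_range.mpr (ha x hx)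
      simpa using Finset.card_le_card this
    rw [Finset.card_insert_of_notMem hna, Finset.sum_insert hna, Nat.add_sub_cancel]
    rcases Nat.eq_zero_or_pos s.card with h | h
    · rw [h]; simp
    · obtain ⟨c, hc⟩ := Nat.exists_eq_add_of_le' h
      rw [hc] at ih hle ⊢
      rw [Nat.add_sub_cancel] at ih
      nlinarith

theorem br_det_zero {R : Type} [CommRing R] (π : R) (E D M : ℕ) (hE : π ^ E = 0)
    (hED : 2 * E ≤ D * (D - 1)) {ι : Type} [Fintype ι] [DecidableEq ι] (hι : Fintype.card ι = D)
    (τ : ι → R) (hτ : ∀ r, π ∣ τ r) (c : ι → ℕ → R) :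
    (Matrix.of fun r s => ∑ k ∈ Finset.range M, c s k * τ r ^ k).det = 0 := by
  classical
  have hexp : (Matrix.of fun r s => ∑ k ∈ Finset.range M, c s k * τ r ^ k).det
      = ∑ g ∈ Fintype.piFinset (fun _ : ι => Finset.range M),
        (∏ j, c j (g j)) * (Matrix.of fun l j => τ l ^ (g j)).det := by
    simp only [Matrix.det_apply', Matrix.of_apply, Finset.mul_sum, Finset.prod_univ_sum]
    rw [Finset.sum_comm]
    refine Finset.sum_congr rfl fun g _ => Finset.sum_congr rfl fun s _ => ?_
    rw [Finset.prod_mul_distrib]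
    ring
  rw [hexp]
  refine Finset.sum_eq_zero fun g _ => ?_
  by_cases hg : Function.Injective g
  · have h1 : E ≤ ∑ j, g j := by
      have h2 := br_sum_card (Finset.univ.image g)
      rw [Finset.card_image_of_injective _ hg, Finset.card_univ, hι,
        Finset.sum_image fun a _ b _ h => hg h] at h2
      omega
    rw [Matrix.det_apply', Finset.sum_eq_zero, mul_zero]
    intro s _
    have h3 : π ^ E ∣ ∏ j, τ (s j) ^ g j := by
      refine (pow_dvd_pow π h1).trans ?_
      rw [← Finset.prod_pow_eq_pow_sum]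
      exact Finset.prod_dvd_prod_of_dvd _ _ fun j _ => pow_dvd_pow_of_dvd (hτ _) _
    rw [hE, zero_dvd_iff] at h3
    simp only [Matrix.of_apply]
    rw [h3, mul_zero]
  · rw [Function.not_injective_iff] at hg
    obtain ⟨a, b, hab, hne⟩ := hg
    rw [Matrix.det_zero_of_column_eq hne (fun l => by simp [hab]), mul_zero]

end Vale.Agent.P018
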