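import Vale.Agent.P018.Q.Defs
import Vale.Agent.P018.Q.BranchAux

namespace Vale.Agent.P018

open MvPolynomial

theorem br_const {R σ : Type} [CommRing R] (Y : σ → PowerSeries R) (y : σ → R)
    (h : ∀ j, PowerSeries.constantCoeff (Y j) = y j) (P : MvPolynomial σ R) :
    PowerSeries.constantCoeff (aeval Y P) = eval y P := by
  induction P using MvPolynomial.induction_on with
  | C r => simp [PowerSeries.algebraMap_eq]
  | add p q hp hq => simp [hp, hq]
  | mul_X p j hp => simp [hp, h]

/-- formal implicit function theorem for a triangular system -/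
theorem branch_exists {R : Type} [CommRing R] {n : ℕ} (H : Fin n → MvPolynomial (Fin (n + 1)) R)
    (htri : ∀ k, ∀ j ∈ (H k).vars, j ≤ k.succ) (y : Fin (n + 1) → R)
    (h0 : ∀ k, eval y (H k) = 0) (hd : ∀ k, IsUnit (eval y (pderiv k.succ (H k)))) :
    ∃ Y : Fin (n + 1) → PowerSeries R, Y 0 = PowerSeries.C (y 0) + PowerSeries.X ∧
      (∀ j, PowerSeries.constantCoeff (Y j) = y j) ∧ ∀ k, aeval Y (H k) = 0 := by
  classical
  have key : ∀ m : ℕ, ∃ Y : Fin (n + 1) → PowerSeries R,
      Y 0 = PowerSeries.C (y 0) + PowerSeries.X ∧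
      (∀ j, PowerSeries.constantCoeff (Y j) = y j) ∧ ∀ k : Fin n, k.val < m → aeval Y (H k) = 0 := by
    intro m
    induction m with
    | zero =>
      refine ⟨Function.update (fun j => PowerSeries.C (y j)) 0
        (PowerSeries.C (y 0) + PowerSeries.X), by simp, fun j => ?_, fun k hk => by omega⟩
      by_cases hj : j = 0
      · subst hj; simp
      · simp [hj]
    | succ m ih =>
      obtain ⟨Y, hY0, hY1, hY2⟩ := ih
      by_cases hm : m < n
      swap
      · exact ⟨Y, hY0, hY1, fun k hk => hY2 k (by have := k.2; omega)⟩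
      set k : Fin n := ⟨m, hm⟩ with hk
      obtain ⟨f, hf1, hf2⟩ := br_poly Y k.succ (H k)
      have hmem : ∀ g : PowerSeries R, g ∈ Ideal.span {(PowerSeries.X : PowerSeries R)} ↔
          PowerSeries.constantCoeff g = 0 := fun g => by
        rw [Ideal.mem_span_singleton, PowerSeries.X_dvd_iff]
      have hupd : ∀ b, b - Y k.succ ∈ Ideal.span {(PowerSeries.X : PowerSeries R)} →
          ∀ j, PowerSeries.constantCoeff (Function.update Y k.succ b j) = y j := by
        intro b hb j
        by_cases hj : j = k.succ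
        · subst hj
          rw [hmem, map_sub, sub_eq_zero] at hb
          rw [Function.update_self, hb, hY1]
        · rw [Function.update_of_ne hj, hY1]
      obtain ⟨a, ha1, ha2⟩ := br_hensel (Ideal.span {(PowerSeries.X : PowerSeries R)}) f
        (Y k.succ) (by rw [hmem, hf1, Function.update_eq_self, br_const Y y hY1, h0])
        (fun b hb => by
          rw [hf2, PowerSeries.isUnit_iff_constantCoeff, br_const _ y (hupd b hb)]
          exact hd k)
      refine ⟨Function.update Y k.succ a, ?_, hupd a ha2, fun k' hk' => ?_⟩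
      · rw [Function.update_of_ne (Fin.succ_ne_zero k).symm, hY0]
      · rcases Nat.lt_succ_iff_lt_or_eq.mp hk' with h | h
        · rw [← hY2 k' h]
          refine br_aeval_congr _ _ _ fun j hj => Function.update_of_ne ?_ _ _
          intro hjk
          have h1 := htri k' j hj
          rw [hjk, Fin.succ_le_succ_iff, Fin.le_def] at h1
          simp only [hk] at h1
          omega
        · have : k' = k := Fin.ext h
          rw [this, ← hf1, ha1]
  obtain ⟨Y, h1, h2, h3⟩ := key n
  exact ⟨Y, h1, h2, fun k => h3 k k.2⟩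

/-- uniqueness of solutions of a triangular system in a residue class -/
theorem br_tri_unique {R : Type} [CommRing R] (π : R) (E : ℕ) (hE : π ^ E = 0)
    {n : ℕ} (H : Fin n → MvPolynomial (Fin (n + 1)) R)
    (htri : ∀ k, ∀ j ∈ (H k).vars, j ≤ k.succ) (y y' : Fin (n + 1) → R)
    (h0 : ∀ k, eval y (H k) = 0) (h0' : ∀ k, eval y' (H k) = 0)
    (hd : ∀ k, IsUnit (eval y (pderiv k.succ (H k))))
    (hcong : ∀ j, π ∣ y' j - y j) (hz : y' 0 = y 0) : y' = y := by
  classical
  have key : ∀ m : ℕ, ∀ j : Fin (n + 1), j.val ≤ m → y' j = y j := by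
    intro m
    induction m with
    | zero =>
      intro j hj
      have : j = 0 := Fin.ext (by simpa using hj)
      rw [this, hz]
    | succ m ih =>
      intro j hj
      rcases Nat.le_succ_iff.mp hj with h | h
      · exact ih j h
      · have hm : m < n := by have := j.2; omega
        set k : Fin n := ⟨m, hm⟩ with hk
        have hjk : j = k.succ := Fin.ext (by simp [hk, h])
        obtain ⟨f, hf1, hf2⟩ := br_poly y k.succ (H k)
        rw [hjk]
        refine br_unique π E hE f _ _ ?_ ?_ (hcong _) ?_
        · rw [hf1, Function.update_eq_self]; exact h0 k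
        · rw [hf1, ← h0' k, ← coe_aeval_eq_eval]
          refine br_aeval_congr _ _ _ fun i hi => ?_
          by_cases hik : i = k.succ
          · rw [hik, Function.update_self]
          · rw [Function.update_of_ne hik]
            have h1 := lt_of_le_of_ne (htri k i hi) hik
            rw [Fin.lt_def] at h1
            simp only [hk, Fin.val_succ] at h1
            exact (ih i (by omega)).symm
        · rw [hf2, Function.update_eq_self]; exact hd k
  funext j
  exact key j j le_rfl

/-- points in one residue class of a smooth branch give a vanishing determinant modulo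
`π ^ (D (D - 1) / 2)` -/
theorem class_det_zero {R : Type} [CommRing R] (π : R) (E D : ℕ) (hE : π ^ E = 0)
    (hED : 2 * E ≤ D * (D - 1)) {n : ℕ} (H : Fin n → MvPolynomial (Fin (n + 1)) R)
    (htri : ∀ k, ∀ j ∈ (H k).vars, j ≤ k.succ) (y0 : Fin (n + 1) → R)
    (h0 : ∀ k, eval y0 (H k) = 0) (hd : ∀ k, IsUnit (eval y0 (pderiv k.succ (H k))))
    {ι : Type} [Fintype ι] [DecidableEq ι] (hι : Fintype.card ι = D)
    (y : ι → Fin (n + 1) → R) (hy : ∀ r k, eval (y r) (H k) = 0)
    (hcong : ∀ r j, π ∣ y r j - y0 j) (φ : ι → MvPolynomial (Fin (n + 1)) R) :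
    (Matrix.of fun r s => eval (y r) (φ s)).det = 0 := by
  obtain ⟨Y, hY0, hY1, hY2⟩ := branch_exists H htri y0 h0 hd
  have hent : ∀ r s, eval (y r) (φ s) = ∑ k ∈ Finset.range (E + 2),
      PowerSeries.coeff k (aeval Y (φ s)) * (y r 0 - y0 0) ^ k := by
    intro r s
    have hτ : (y r 0 - y0 0) ^ E = 0 := by
      obtain ⟨c, hc⟩ := hcong r 0
      rw [hc, mul_pow, hE, zero_mul]
    obtain ⟨ev, hev1, hev2⟩ := br_ev (y r 0 - y0 0) E hτ
    have hC : ∀ a : R, ev (PowerSeries.C a) = a := fun a => by
      rw [← PowerSeries.algebraMap_eq, AlgHom.commutes]; rfl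
    have hcomp : ∀ P : MvPolynomial (Fin (n + 1)) R,
        eval (fun j => ev (Y j)) P = ev (aeval Y P) := fun P => by
      rw [← AlgHom.comp_apply, comp_aeval]; rfl
    have heq : (fun j => ev (Y j)) = y r := by
      refine br_tri_unique π E hE H htri (y r) _ (hy r) (fun k => ?_) (fun k => ?_) (fun j => ?_) ?_
      · rw [hcomp, hY2, map_zero]
      · exact br_unit_of_dvd π E hE _ _ (hd k) (br_dvd_eval π _ _ (hcong r) _)
      · have h1 : PowerSeries.X ∣ Y j - PowerSeries.C (y0 j) := by
          rw [PowerSeries.X_dvd_iff, map_sub, hY1, PowerSeries.constantCoeff_C, sub_self]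
        obtain ⟨W, hW⟩ := h1
        have h2 := congrArg ev hW
        rw [map_sub, map_mul, hC, hev1] at h2
        have h3 : ev (Y j) - y r j = (y r 0 - y0 0) * ev W - (y r j - y0 j) := by
          rw [← h2]; ring
        rw [h3]
        exact dvd_sub ((hcong r 0).mul_right _) (hcong r j)
      · simp only [hY0, map_add, hC, hev1]; ring
    rw [← hev2, ← hcomp, heq]
  simp only [hent]
  exact br_det_zero π E D (E + 2) hE hED hι (fun r => y r 0 - y0 0) (fun r => hcong r 0)
    (fun s k => PowerSeries.coeff k (aeval Y (φ s)))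

end Vale.Agent.P018
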