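import Vale.Agent.P018.Q.Cells

namespace Vale.Agent.P018

open NumberField Polynomial Filter

variable {F : Type} [Field F] [NumberField F]

/-- the data of a point in a cell -/
structure InCell (Cl X ε y η1 η H : ℝ) (p : ℕ) (e ω1 ω2 : Fin 4 → ℤ) (lam Del : ℕ) (u v : ℤ) :
    Prop where
  line : IsLine ω1 ω2 lam Del
  eq : e = u • ω1 + v • ω2
  cop : IsCoprime u v
  hD : (Del : ℝ) ^ 3 ≤ Cl * H ^ 2
  hu : |(u : ℝ)| * lam ≤ Cl * H
  hv : |(v : ℝ)| * Del ≤ Cl * H * lam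
  p1 : X ^ y ≤ p
  p2 : p ≤ X ^ (y + ε)
  l1 : X ^ η1 ≤ lam
  l2 : lam ≤ X ^ (η1 + ε)
  d1 : X ^ η ≤ Del
  d2 : Del ≤ X ^ (η + ε)

theorem InCell.c1 {Cl X ε y η1 η H : ℝ} {p : ℕ} {e ω1 ω2 : Fin 4 → ℤ} {lam Del : ℕ} {u v : ℤ}
    (h : InCell Cl X ε y η1 η H p e ω1 ω2 lam Del u v) (hX : 1 < X) (h16 : 16 ≤ X ^ ε) :
    2 * η1 ≤ η + 2 * ε := by
  have hX0 : 0 < X := by linarith
  refine ce_exp hX ?_
  calc X ^ (2 * η1) = (X ^ η1) ^ 2 := by
        rw [← Real.rpow_natCast, ← Real.rpow_mul hX0.le]; congr 1; push_cast; ring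
    _ ≤ (lam : ℝ) ^ 2 := by gcongr; exact h.l1
    _ ≤ 16 * Del := h.line.real.2.2.1
    _ ≤ X ^ ε * X ^ (η + ε) := by gcongr; exact h.d2
    _ = _ := by rw [← Real.rpow_add hX0]; congr 1; ring

theorem InCell.c2 {Cl X ε y η1 η H : ℝ} {p : ℕ} {e ω1 ω2 : Fin 4 → ℤ} {lam Del : ℕ} {u v : ℤ}
    (h : InCell Cl X ε y η1 η H p e ω1 ω2 lam Del u v) (hX : 1 < X) (s : ℝ)
    (hs : Cl * H ^ 2 ≤ X ^ s) : 3 * η ≤ s := by
  have hX0 : 0 < X := by linarith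
  refine ce_exp hX ?_
  calc X ^ (3 * η) = (X ^ η) ^ 3 := by
        rw [← Real.rpow_natCast, ← Real.rpow_mul hX0.le]; congr 1; push_cast; ring
    _ ≤ (Del : ℝ) ^ 3 := by gcongr; exact h.d1
    _ ≤ _ := h.hD.trans hs

/-- all size information on the coordinates along the line -/
theorem InCell.sizes {Cl X ε y η1 η H : ℝ} {p : ℕ} {e ω1 ω2 : Fin 4 → ℤ} {lam Del : ℕ} {u v : ℤ}
    (h : InCell Cl X ε y η1 η H p e ω1 ω2 lam Del u v) (hX : 1 < X) (hCl : 0 ≤ Cl) (hH : 0 ≤ H)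
    (s : ℝ) (hs : 17 * Cl * H ≤ X ^ s) :
    |(u : ℝ)| * lam ≤ 17 * Cl * H ∧ |(v : ℝ)| * (17 * (Del : ℝ) / lam) ≤ 17 * Cl * H ∧
      |(u : ℝ)| ≤ X ^ (s - η1) ∧ |(v : ℝ)| ≤ X ^ (s - η1) ∧
      17 * Cl * H ≤ X ^ (s - η1) * lam ∧ (lam : ℝ) ≤ 17 * (Del : ℝ) / lam ∧
      |(v : ℝ)| ≤ X ^ (s + η1 + ε - η) := by
  have hX0 : 0 < X := by linarith
  have hl : (0 : ℝ) < lam := by exact_mod_cast h.line.pos.1
  have hd : (0 : ℝ) < Del := by exact_mod_cast h.line.pos.2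
  have hCH : 0 ≤ Cl * H := mul_nonneg hCl hH
  have h1 : |(u : ℝ)| * lam ≤ 17 * Cl * H := by linarith [h.hu]
  have h2 : |(v : ℝ)| * (17 * (Del : ℝ) / lam) ≤ 17 * Cl * H := by
    rw [← mul_div_assoc, div_le_iff₀ hl]
    linarith [h.hv]
  have h5 : 17 * Cl * H ≤ X ^ (s - η1) * lam := by
    calc _ ≤ X ^ s := hs
      _ = X ^ (s - η1) * X ^ η1 := by rw [← Real.rpow_add hX0]; congr 1; ring
      _ ≤ _ := by gcongr; exact h.l1
  have h6 : (lam : ℝ) ≤ 17 * (Del : ℝ) / lam := by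
    rw [le_div_iff₀ hl]
    nlinarith [h.line.real.2.2.1]
  refine ⟨h1, h2, le_of_mul_le_mul_right (h1.trans h5) hl, le_of_mul_le_mul_right
    (le_trans (by gcongr) (h2.trans h5)) hl, h5, h6, ?_⟩
  refine le_of_mul_le_mul_right ?_ hd
  calc |(v : ℝ)| * Del ≤ Cl * H * lam := h.hv
    _ ≤ X ^ s * X ^ (η1 + ε) := by
        gcongr
        · linarith
        · exact h.l2
    _ = X ^ (s + η1 + ε - η) * X ^ η := by
        rw [← Real.rpow_add hX0, ← Real.rpow_add hX0]; congr 1; ring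
    _ ≤ _ := by gcongr; exact h.d1

theorem ce_prim_swap {ω ω' : Fin 4 → ℤ}
    (h : Finset.univ.gcd (fun kl : Fin 4 × Fin 4 => pl ω ω' kl.1 kl.2) = 1) :
    Finset.univ.gcd (fun kl : Fin 4 × Fin 4 => pl ω' ω kl.1 kl.2) = 1 := by
  have h1 : Finset.univ.gcd (fun kl : Fin 4 × Fin 4 => pl ω' ω kl.1 kl.2) ∣ 1 := by
    rw [← h]
    refine Finset.dvd_gcd fun kl _ => ?_
    rw [ce_pl_swap ω' ω, dvd_neg]
    exact Finset.gcd_dvd (Finset.mem_univ kl)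
  rw [← Finset.normalize_gcd]
  exact normalize_eq_one.mpr (isUnit_of_dvd_one h1)

theorem ce_quarter {X y : ℝ} {p : ℕ} (hX : 0 < X) (h : (p : ℝ) ≤ X ^ y) :
    (p : ℝ) ^ (1 / 4 : ℝ) ≤ X ^ (y / 4) := by
  calc (p : ℝ) ^ (1 / 4 : ℝ) ≤ (X ^ y) ^ (1 / 4 : ℝ) := by gcongr
    _ = _ := by rw [← Real.rpow_mul hX.le]; congr 1; ring

theorem cellI (c : Ctx F) (C Cl ε y η1 η : ℝ) (hC : 1 ≤ C) (hCl : 1 ≤ Cl) (hε : ε = 1 / 100000)
    (hy1 : 1 ≤ y) (hy2 : y ≤ 1377 / 1000) (hη1 : 0 ≤ η1) (hη : 0 ≤ η) :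
    ∀ᶠ X : ℝ in atTop, ∀ (M : ℕ) (Z : Finset ℤ) (p : ℤ → ℕ) (a b ω1 ω2 : ℤ → Fin 4 → ℤ)
      (lam Del : ℤ → ℕ) (u v : ℤ → ℤ), AllPt c C X M Z p a b →
      (∀ N ∈ Z, InCell Cl X ε y η1 η ((p N : ℝ) ^ (1 / 4 : ℝ)) (p N) (a N) (ω1 N) (ω2 N) (lam N)
        (Del N) (u N) (v N)) →
      (Z.card : ℝ) ≤ X ^ (1 - ε) := by
  classical
  have hε0 : 0 < ε := by rw [hε]; norm_num
  have hA16 := la_absorb 16 0 ε hε0
  have hAs := la_absorb (17 * Cl) ((y + ε) / 4) (y / 4 + ε) (by linarith)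
  have hAc := la_absorb Cl ((y + ε) / 2) (y / 2 + ε) (by linarith)
  have hsq : ∀ (X : ℝ) (p : ℕ), 0 < X → (p : ℝ) ≤ X ^ (y + ε) →
      ((p : ℝ) ^ (1 / 4 : ℝ)) ^ 2 ≤ X ^ ((y + ε) / 2) := by
    intro X p hX h
    calc ((p : ℝ) ^ (1 / 4 : ℝ)) ^ 2 ≤ (X ^ ((y + ε) / 4)) ^ 2 := by
          gcongr; exact ce_quarter hX h
      _ = _ := by rw [← Real.rpow_natCast, ← Real.rpow_mul hX.le]; congr 1; push_cast; ring
  by_cases hcon : 2 * η1 ≤ η + 2 * ε ∧ 3 * η ≤ y / 2 + ε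
  swap
  · filter_upwards [hA16, hAc, eventually_gt_atTop 1] with X hA16 hAc hX
    intro M Z p a b ω1 ω2 lam Del u v hpt hZ
    rw [Real.rpow_zero, mul_one] at hA16
    rcases Z.eq_empty_or_nonempty with rfl | ⟨N, hN⟩
    · simp only [Finset.card_empty, Nat.cast_zero]; positivity
    · refine absurd ⟨(hZ N hN).c1 hX hA16, (hZ N hN).c2 hX _ (le_trans ?_ hAc)⟩ hcon
      gcongr
      exact hsq X _ (by linarith) (hZ N hN).p2
  obtain ⟨hc1, hc2⟩ := hcon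
  obtain ⟨Cc, hCc, hcell⟩ := cell_count
  by_cases hη' : η ≤ 1 / 10
  · obtain ⟨Cf, Xf, hfib⟩ := fiberA c C
    filter_upwards [hAs, eventually_gt_atTop 1, eventually_ge_atTop Xf,
      la_absorb (Cc * 9 * |Cf|) (2 * η1 + 3 * η + 8 * ε + (y / 2 + 3 * ε - η)) (1 - ε)
        (by linarith)] with X hAs hX hXf hA
    intro M Z p a b ω1 ω2 lam Del u v hpt hZ
    have hX0 : 0 < X := by linarith
    have hsz := fun N (hN : N ∈ Z) => (hZ N hN).sizes hX (by linarith) (by positivity)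
      (y / 4 + ε) (le_trans (by gcongr; exact ce_quarter hX0 (hZ N hN).p2) hAs)
    have h1 := hcell X η1 η ε (9 * (X ^ (y / 4 + ε - η1) * X ^ (y / 4 + ε + η1 + ε - η)) * |Cf|)
      Z ω1 ω2 lam Del hX.le hη1 hη hε0.le (by positivity)
      (fun N hN => ⟨(hZ N hN).line, (hZ N hN).l1, (hZ N hN).l2, (hZ N hN).d2⟩)
      (fun N0 hN0 S hS hS' => ce_triv S u v _ _ _ (Real.one_le_rpow hX.le (by linarith))
        (Real.one_le_rpow hX.le (by linarith)) (abs_nonneg _)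
        (fun N hN => ⟨(hsz N (hS hN)).2.2.1, (hsz N (hS hN)).2.2.2.2.2.2⟩)
        (fun T hT hT' => (hfib X hXf M T p a b 0 1 (by decide) (hpt.subset (hT.trans hS))
          (fun N hN N' hN' => by
            have h2 : a N = a N' := by
              rw [(hZ N (hS (hT hN))).eq, (hZ N' (hS (hT hN'))).eq, (hS' N (hT hN)).1,
                (hS' N (hT hN)).2.1, (hS' N' (hT hN')).1, (hS' N' (hT hN')).2.1,
                (hT' N hN N' hN').1, (hT' N hN N' hN').2]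
            rw [h2, mul_comm])).trans (le_abs_self _)))
    refine h1.trans (le_trans (le_of_eq ?_) hA)
    rw [← Real.rpow_add hX0, Real.rpow_add hX0 (2 * η1 + 3 * η + 8 * ε),
      show y / 4 + ε - η1 + (y / 4 + ε + η1 + ε - η) = y / 2 + 3 * ε - η by ring]
    ring
  push Not at hη'
  set g : ℝ := 19 / 12 - y - 2 / 3 * η with hg
  have hg1 : 1 / 20 ≤ g := by rw [hg]; linarith
  have hg2 : g ≤ 5167 / 10000 := by rw [hg]; linarith
  set t : ℝ := 1 - 2 * η1 - 3 * η - 10 * ε with ht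
  have hline := lineI c (17 * Cl * C) y η (y / 4 + ε - η1) (241 / 1000 * g - 4 / 10000)
    ((10 * (5 / 4 : ℝ) ^ 2 * (2 * (y / 4 + ε - η1) + (1 - y / 2)) +
      2 * (10 * (5 / 4) + 6) * (1 - y / 2)) / (10 * (5 / 4) + 6) ^ 2 + ε)
    (134 / 1000 - 19 / 100 * (y - 1)) t (by nlinarith) (by linarith) hη (by linarith)
    (by linarith) (by linarith)
    (by
      have : η = 3 / 2 * (19 / 12 - y - g) := by rw [hg]; ring
      rw [this]
      nlinarith [mul_nonneg (sub_nonneg.mpr hg1) (sub_nonneg.mpr hg2)])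
    (by norm_num; linarith) (by norm_num; linarith) (by norm_num; linarith) (by linarith)
    (by linarith) (by linarith) (by rw [ht, hg]; norm_num; linarith) (by rw [ht, hg]; linarith)
    (by rw [ht]; linarith)
  filter_upwards [hline, hAs, eventually_gt_atTop 1,
    la_absorb (Cc * 2) (2 * η1 + 3 * η + 8 * ε + t) (1 - ε) (by rw [ht]; linarith),
    la_absorb 17 (η + ε) 1 (by linarith)] with X hline hAs hX hA hA17
  intro M Z p a b ω1 ω2 lam Del u v hpt hZ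
  have hX0 : 0 < X := by linarith
  have hCC : C ≤ 17 * Cl * C := by nlinarith
  have hsz := fun N (hN : N ∈ Z) => (hZ N hN).sizes hX (by linarith) (by positivity)
    (y / 4 + ε) (le_trans (by gcongr; exact ce_quarter hX0 (hZ N hN).p2) hAs)
  have h1 := hcell X η1 η ε (2 * X ^ t) Z ω1 ω2 lam Del hX.le hη1 hη hε0.le (by positivity)
    (fun N hN => ⟨(hZ N hN).line, (hZ N hN).l1, (hZ N hN).l2, (hZ N hN).d2⟩) ?_
  · refine h1.trans (le_trans (le_of_eq ?_) hA)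
    rw [Real.rpow_add hX0 (2 * η1 + 3 * η + 8 * ε)]
    ring
  intro N0 hN0 S hS hS'
  have hL := (hZ N0 hN0).line
  obtain ⟨hr1, hr2, -, k, l, hkl⟩ := hL.real
  have hl : (1 : ℝ) ≤ lam N0 := by exact_mod_cast hL.pos.1
  have hd : (0 : ℝ) < Del N0 := by exact_mod_cast hL.pos.2
  have hlX : (lam N0 : ℝ) ≤ X := (hZ N0 hN0).l2.trans (by
    calc X ^ (η1 + ε) ≤ X ^ (1 : ℝ) := Real.rpow_le_rpow_of_exponent_le hX.le (by linarith)
      _ = X := Real.rpow_one X)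
  have hlX' : 17 * (Del N0 : ℝ) / lam N0 ≤ X := by
    rw [Real.rpow_one] at hA17
    calc 17 * (Del N0 : ℝ) / lam N0 ≤ 17 * (Del N0 : ℝ) := div_le_self (by positivity) hl
      _ ≤ 17 * X ^ (η + ε) := by gcongr; exact (hZ N0 hN0).d2
      _ ≤ X := hA17
  have hH : ∀ N, 17 * Cl * (p N : ℝ) ^ (1 / 4 : ℝ) ≤ 17 * Cl * C * (p N : ℝ) ^ (1 / 4 : ℝ) :=
    fun N => mul_le_mul_of_nonneg_right (by nlinarith) (by positivity)
  refine ce_split S (fun N => |(u N : ℝ)| * lam N0 ≤ |(v N : ℝ)| * (17 * (Del N0 : ℝ) / lam N0)) _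
    (fun T hT hT' => ?_) (fun T hT hT' => ?_)
  · refine hline M T p a b (ω1 N0) (ω2 N0) u v (lam N0) (17 * (Del N0 : ℝ) / lam N0)
      ((hpt.subset (hT.trans hS)).mono hCC hX0.le) hL.prim ⟨k, l, hkl ▸ (hZ N0 hN0).d1⟩
      (by linarith) (by positivity) hlX hlX' hr1 hr2 fun N hN => ?_
    have hN' := hS (hT hN)
    obtain ⟨e1, e2, e3, e4⟩ := hS' N (hT hN)
    have h2 := hsz N hN'
    rw [e3, e4] at h2
    exact ⟨by rw [← e1, ← e2]; exact (hZ N hN').eq, (hZ N hN').cop, hT' N hN,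
      h2.2.1.trans (hH N), h2.2.2.1, h2.2.2.2.1, (hZ N hN').p1⟩
  · refine hline M T p a b (ω2 N0) (ω1 N0) v u (17 * (Del N0 : ℝ) / lam N0) (lam N0)
      ((hpt.subset (hT.trans hS)).mono hCC hX0.le) ?_
      ⟨k, l, by rw [ce_pl_swap, Int.cast_neg, abs_neg, hkl]; exact (hZ N0 hN0).d1⟩
      (by positivity) (by linarith) hlX' hlX hr2 hr1 fun N hN => ?_
    · exact ce_prim_swap hL.prim
    have hN' := hS (hT hN)
    obtain ⟨e1, e2, e3, e4⟩ := hS' N (hT hN)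
    have h2 := hsz N hN'
    rw [e3, e4] at h2
    exact ⟨by rw [← e1, ← e2, add_comm]; exact (hZ N hN').eq, (hZ N hN').cop.symm,
      (not_le.mp (hT' N hN)).le, h2.1.trans (hH N), h2.2.2.2.1, h2.2.2.1, (hZ N hN').p1⟩

end Vale.Agent.P018
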