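import Vale.Agent.P018.Q.CellI

namespace Vale.Agent.P018

open NumberField Polynomial Filter

variable {F : Type} [Field F] [NumberField F]

theorem ce_half {X y : ℝ} {p : ℕ} (hX : 0 < X) (h : X ^ y ≤ (p : ℝ)) :
    X / √(p : ℝ) ≤ X ^ (1 - y / 2) := by
  have hβ : X / √(X ^ y) = X ^ (1 - y / 2) := by
    rw [Real.sqrt_eq_rpow, ← Real.rpow_mul hX.le, Real.rpow_sub hX, Real.rpow_one]
    congr 2
    ring
  rw [← hβ]
  gcongr

theorem cellII (c : Ctx F) (C Cl ε y η1 η : ℝ) (hC : 1 ≤ C) (hCl : 1 ≤ Cl) (hε : ε = 1 / 100000)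
    (hy1 : 1377 / 1000 ≤ y) (hη1 : 0 ≤ η1) (hη : 0 ≤ η) :
    ∀ᶠ X : ℝ in atTop, ∀ (M : ℕ) (Z : Finset ℤ) (p : ℤ → ℕ) (a b ω1 ω2 : ℤ → Fin 4 → ℤ)
      (lam Del : ℤ → ℕ) (u v : ℤ → ℤ), AllPt c C X M Z p a b →
      (∀ N ∈ Z, InCell Cl X ε y η1 η (C * X / √(p N : ℝ)) (p N) (b N) (ω1 N) (ω2 N) (lam N)
        (Del N) (u N) (v N)) →
      (Z.card : ℝ) ≤ X ^ (1 - ε) := by
  classical
  have hε0 : 0 < ε := by rw [hε]; norm_num
  have hA16 := la_absorb 16 0 ε hε0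
  have hAs := la_absorb (17 * Cl * C) (1 - y / 2) (1 - y / 2 + 2 * ε) (by linarith)
  have hAc := la_absorb (Cl * C ^ 2) (2 - y) (2 - y + ε) (by linarith)
  have hsq : ∀ (X : ℝ) (p : ℕ), 0 < X → X ^ y ≤ (p : ℝ) →
      Cl * (C * X / √(p : ℝ)) ^ 2 ≤ Cl * C ^ 2 * X ^ (2 - y) := by
    intro X p hX h
    calc Cl * (C * X / √(p : ℝ)) ^ 2 = Cl * C ^ 2 * (X / √(p : ℝ)) ^ 2 := by ring
      _ ≤ Cl * C ^ 2 * (X ^ (1 - y / 2)) ^ 2 := by
          gcongr; exact ce_half hX h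
      _ = _ := by
          rw [← Real.rpow_natCast (X ^ (1 - y / 2)), ← Real.rpow_mul hX.le]
          congr 2; push_cast; ring
  by_cases hcon : 2 * η1 ≤ η + 2 * ε ∧ 3 * η ≤ 2 - y + ε
  swap
  · filter_upwards [hA16, hAc, eventually_gt_atTop 1] with X hA16 hAc hX
    intro M Z p a b ω1 ω2 lam Del u v hpt hZ
    rw [Real.rpow_zero, mul_one] at hA16
    rcases Z.eq_empty_or_nonempty with rfl | ⟨N, hN⟩
    · simp only [Finset.card_empty, Nat.cast_zero]; positivity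
    · exact absurd ⟨(hZ N hN).c1 hX hA16, (hZ N hN).c2 hX _
        (le_trans (hsq X _ (by linarith) (hZ N hN).p1) hAc)⟩ hcon
  obtain ⟨hc1, hc2⟩ := hcon
  obtain ⟨Cc, hCc, hcell⟩ := cell_count
  set υ : ℝ := 1 - y / 2 + 2 * ε - η1 with hυ
  set G : ℝ := (y + ε) / 4 + 655 / 1000 * υ with hG
  have hG1 : 48 / 100 ≤ G := by rw [hG, hυ]; linarith
  have hG2 : G ≤ 549 / 1000 := by rw [hG, hυ]; linarith
  set t : ℝ := 1 - 2 * η1 - 3 * η - 10 * ε with ht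
  have hline := lineII c (17 * Cl * C) (24351 / 100000 * (1029 / 1000 * G - 26352 / 100000) + ε)
    ((y + ε) / 4) υ (655 / 1000) ((2 * ((y + ε) / 4) + υ) / 8 + ε) t (by nlinarith)
    (by linarith) (by norm_num) (by linarith) (by rw [hυ]; linarith)
    (by
      rw [← hG]
      nlinarith [mul_nonneg (sub_nonneg.mpr hG1) (sub_nonneg.mpr hG2)])
    (by rw [hυ]; linarith) (by rw [hυ]; linarith) (by linarith)
    (by rw [ht, hG, hυ]; linarith)
  filter_upwards [hline, hAs, eventually_gt_atTop 1,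
    la_absorb (Cc * 2) (2 * η1 + 3 * η + 8 * ε + t) (1 - ε) (by rw [ht]; linarith),
    la_absorb 17 (η + ε) 1 (by linarith)] with X hline hAs hX hA hA17
  intro M Z p a b ω1 ω2 lam Del u v hpt hZ
  have hX0 : 0 < X := by linarith
  have hCC : C ≤ 17 * Cl * C := by nlinarith
  have hH : ∀ N, 17 * Cl * (C * X / √(p N : ℝ)) = 17 * Cl * C * X / √(p N : ℝ) :=
    fun N => by ring
  have hsz := fun N (hN : N ∈ Z) => (hZ N hN).sizes hX (by linarith) (by positivity)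
    (1 - y / 2 + 2 * ε) (le_trans (by
      rw [hH, mul_div_assoc]
      gcongr
      exact ce_half hX0 (hZ N hN).p1) hAs)
  have h1 := hcell X η1 η ε (2 * X ^ t) Z ω1 ω2 lam Del hX.le hη1 hη hε0.le (by positivity)
    (fun N hN => ⟨(hZ N hN).line, (hZ N hN).l1, (hZ N hN).l2, (hZ N hN).d2⟩) ?_
  · refine h1.trans (le_trans (le_of_eq ?_) hA)
    rw [Real.rpow_add hX0 (2 * η1 + 3 * η + 8 * ε)]
    ring
  intro N0 hN0 S hS hS'
  have hL := (hZ N0 hN0).line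
  obtain ⟨hr1, hr2, -, -⟩ := hL.real
  have hl : (1 : ℝ) ≤ lam N0 := by exact_mod_cast hL.pos.1
  have hd : (0 : ℝ) < Del N0 := by exact_mod_cast hL.pos.2
  have hlX : (lam N0 : ℝ) ≤ X := (hZ N0 hN0).l2.trans (by
    calc X ^ (η1 + ε) ≤ X ^ (1 : ℝ) := Real.rpow_le_rpow_of_exponent_le hX.le (by linarith)
      _ = X := Real.rpow_one X)
  have hlX' : 17 * (Del N0 : ℝ) / lam N0 ≤ X := by
    rw [Real.rpow_one] at hA17
    calc 17 * (Del N0 : ℝ) / lam N0 ≤ 17 * (Del N0 : ℝ) := div_le_self (by positivity) hl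
      _ ≤ 17 * X ^ (η + ε) := by gcongr; exact (hZ N0 hN0).d2
      _ ≤ X := hA17
  refine ce_split S (fun N => |(u N : ℝ)| * lam N0 ≤ |(v N : ℝ)| * (17 * (Del N0 : ℝ) / lam N0)) _
    (fun T hT hT' => ?_) (fun T hT hT' => ?_)
  · refine hline M T p a b (ω1 N0) (ω2 N0) u v (lam N0) (17 * (Del N0 : ℝ) / lam N0)
      ((hpt.subset (hT.trans hS)).mono hCC hX0.le)
      (by linarith) (by positivity) hlX hlX' hr1 hr2 fun N hN => ?_
    have hN' := hS (hT hN)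
    obtain ⟨e1, e2, e3, e4⟩ := hS' N (hT hN)
    have h2 := hsz N hN'
    rw [e3, e4] at h2
    exact ⟨by rw [← e1, ← e2]; exact (hZ N hN').eq, (hZ N hN').cop, hT' N hN,
      h2.2.1.trans (hH N).le, h2.2.1.trans h2.2.2.2.2.1, h2.2.2.2.1,
      ce_quarter hX0 (hZ N hN').p2⟩
  · refine hline M T p a b (ω2 N0) (ω1 N0) v u (17 * (Del N0 : ℝ) / lam N0) (lam N0)
      ((hpt.subset (hT.trans hS)).mono hCC hX0.le)
      (by positivity) (by linarith) hlX' hlX hr2 hr1 fun N hN => ?_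
    have hN' := hS (hT hN)
    obtain ⟨e1, e2, e3, e4⟩ := hS' N (hT hN)
    have h2 := hsz N hN'
    rw [e3, e4] at h2
    exact ⟨by rw [← e1, ← e2, add_comm]; exact (hZ N hN').eq, (hZ N hN').cop.symm,
      (not_le.mp (hT' N hN)).le, h2.1.trans (hH N).le,
      (h2.1.trans h2.2.2.2.2.1).trans (mul_le_mul_of_nonneg_left h2.2.2.2.2.2.1 (by positivity)),
      h2.2.2.1, ce_quarter hX0 (hZ N hN').p2⟩

end Vale.Agent.P018
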