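import Vale.Agent.P018.Q.Defs

namespace Vale.Agent.P018

/-- A reduced basis `ω1, ω2` of a primitive rank two lattice, `lam` the size of `ω1` and `Del` the
size of the Plücker vector. -/
structure IsLine (ω1 ω2 : Fin 4 → ℤ) (lam Del : ℕ) : Prop where
  prim : Finset.univ.gcd (fun kl : Fin 4 × Fin 4 => pl ω1 ω2 kl.1 kl.2) = 1
  h1 : ∀ l, (ω1 l).natAbs ≤ lam
  h1' : ∃ k, (ω1 k).natAbs = lam ∧ (ω2 k).natAbs < lam
  hD : ∀ k l, (pl ω1 ω2 k l).natAbs ≤ Del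
  hD' : ∃ k l, (pl ω1 ω2 k l).natAbs = Del
  hlam : lam ^ 2 ≤ 16 * Del
  h2 : ∀ l, (ω2 l).natAbs * lam ≤ 17 * Del

theorem lines_half (m n : ℤ) (hn : n ≠ 0) : ∃ t : ℤ, 2 * |m - t * n| ≤ |n| := by
  have h0 := Int.emod_nonneg m hn
  have h1 := Int.emod_lt_abs m hn
  have h2 := Int.emod_add_mul_ediv m n
  by_cases h : 2 * (m % n) ≤ |n|
  · refine ⟨m / n, ?_⟩
    have : m - m / n * n = m % n := by linarith
    rw [this, abs_of_nonneg h0]; exact h
  · refine ⟨m / n + n.sign, ?_⟩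
    have h3 : n.sign * n = |n| := by rw [Int.sign_mul_self_eq_abs]
    have : m - (m / n + n.sign) * n = m % n - |n| := by rw [← h3]; linarith
    rw [this, abs_of_nonpos (by linarith)]; linarith

theorem lines_bezout {a : Fin 4 → ℤ} (ha : Finset.univ.gcd a = 1) :
    ∃ c : Fin 4 → ℤ, ∑ k, a k * c k = 1 := by
  obtain ⟨c, hc⟩ := Finset.gcd_eq_sum_mul Finset.univ a
  exact ⟨c, by rw [← hc, ha]⟩

theorem lines_proj {a c : Fin 4 → ℤ} (hc : ∑ k, a k * c k = 1) (x : Fin 4 → ℤ) (l : Fin 4) :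
    x l - (∑ k, x k * c k) * a l = ∑ k, c k * pl a x k l := by
  simp only [Fin.sum_univ_four, pl] at hc ⊢
  linear_combination (-(x l)) * hc

/-- Dirichlet approximation: a vector nearly parallel to `a`. -/
theorem lines_dirichlet (a : Fin 4 → ℤ) (ha : Finset.univ.gcd a = 1) (k0 : Fin 4)
    (hk : ∀ l, |a l| ≤ |a k0|) :
    ∃ x : Fin 4 → ℤ, (∃ k l, pl a x k l ≠ 0) ∧ ∀ k l, |pl a x k l| ^ 3 ≤ 64 * |a k0| ^ 2 := by
  obtain ⟨c, hc⟩ := lines_bezout ha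
  have hn : a k0 ≠ 0 := by
    intro h0
    have : ∀ l, a l = 0 := fun l => by
      have := hk l
      rw [h0, abs_zero] at this
      exact abs_nonpos_iff.1 this
    simp [this] at hc
  have hpos : 0 < |a k0| := abs_pos.2 hn
  by_cases h1 : |a k0| = 1
  · obtain ⟨l0, hl0⟩ := exists_ne k0
    refine ⟨Pi.single l0 1, ⟨k0, l0, ?_⟩, fun k l => ?_⟩
    · simp [pl, hl0.symm, hn]
    · have e1 : ∀ j, |(Pi.single l0 1 : Fin 4 → ℤ) j| ≤ 1 := fun j => by
        by_cases h : j = l0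
        · simp [h]
        · simp [h]
      have e2 : ∀ i j, |a i * (Pi.single l0 1 : Fin 4 → ℤ) j| ≤ 1 := fun i j => by
        rw [abs_mul]
        exact mul_le_one₀ (h1 ▸ hk i) (abs_nonneg _) (e1 j)
      have e3 : |pl a (Pi.single l0 1) k l| ≤ 2 := by
        unfold pl
        have := abs_sub (a k * (Pi.single l0 1 : Fin 4 → ℤ) l)
          (a l * (Pi.single l0 1 : Fin 4 → ℤ) k)
        linarith [e2 k l, e2 l k]
      calc _ ≤ 2 ^ 3 := pow_le_pow_left₀ (abs_nonneg _) e3 3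
        _ ≤ _ := by rw [h1]; norm_num
  set h : ℤ := |a k0| with hh
  have hex : ∃ Q : ℕ, h ≤ ((Q : ℤ) + 1) ^ 3 := by
    refine ⟨h.toNat, ?_⟩
    rw [Int.toNat_of_nonneg hpos.le]
    nlinarith [mul_pos hpos hpos, mul_pos hpos (mul_pos hpos hpos)]
  classical
  set Q := Nat.find hex with hQ
  have hQ1 : h ≤ ((Q : ℤ) + 1) ^ 3 := Nat.find_spec hex
  have hQ0 : 0 < Q := by
    by_contra h0
    have : Q = 0 := by omega
    rw [this] at hQ1
    simp at hQ1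
    omega
  have hQ2 : (Q : ℤ) ^ 3 < h := by
    have := Nat.find_min hex (m := Q - 1) (by omega)
    rw [Nat.cast_sub hQ0] at this
    simpa using this
  have hQz : (1 : ℤ) ≤ Q := by exact_mod_cast hQ0
  have hQ3 : h ≤ 8 * (Q : ℤ) ^ 3 := by
    calc h ≤ ((Q : ℤ) + 1) ^ 3 := hQ1
      _ ≤ (2 * Q) ^ 3 := pow_le_pow_left₀ (by linarith) (by linarith) 3
      _ = _ := by ring
  obtain ⟨t1, ht1, t2, ht2, hne, heq⟩ := Finset.exists_ne_map_eq_of_card_lt_of_maps_to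
    (s := Finset.Icc (0 : ℤ) (Q ^ 3))
    (t := Fintype.piFinset (fun _ : Fin 3 => Finset.Ico (0 : ℤ) Q))
    (f := fun t j => (t * a (k0.succAbove j)) % a k0 * Q / h)
    (by
      rw [Fintype.card_piFinset, Int.card_Icc]
      simp only [Int.card_Ico, sub_zero, Int.toNat_natCast, Finset.prod_const, Finset.card_univ,
        Fintype.card_fin]
      have : ((Q : ℤ) ^ 3 + 1).toNat = Q ^ 3 + 1 := by
        have : ((Q : ℤ) ^ 3 + 1) = ((Q ^ 3 + 1 : ℕ) : ℤ) := by push_cast; ring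
        rw [this, Int.toNat_natCast]
      omega)
    (by
      intro t _
      refine Finset.mem_coe.2 (Fintype.mem_piFinset.2 (fun j => ?_))
      have b0 := Int.emod_nonneg (t * a (k0.succAbove j)) hn
      have b1 := Int.emod_lt_abs (t * a (k0.succAbove j)) hn
      refine Finset.mem_Ico.2 ⟨Int.ediv_nonneg (by positivity) hpos.le, ?_⟩
      rw [Int.ediv_lt_iff_lt_mul hpos]
      nlinarith)
  rw [Finset.mem_Icc] at ht1 ht2
  set x : Fin 4 → ℤ := fun l => t1 * a l / a k0 - t2 * a l / a k0 with hx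
  have hx0 : x k0 = t1 - t2 := by
    simp only [hx, Int.mul_ediv_cancel _ hn]
  have hp : ∀ l, pl a x k0 l = t2 * a l % a k0 - t1 * a l % a k0 := by
    intro l
    have b1 := Int.emod_add_mul_ediv (t1 * a l) (a k0)
    have b2 := Int.emod_add_mul_ediv (t2 * a l) (a k0)
    unfold pl
    rw [hx0]
    simp only [hx]
    linarith
  have hb : ∀ l, |pl a x k0 l| * Q ≤ h := by
    intro l
    by_cases hl : l = k0
    · rw [hl]; simp [pl, hpos.le]
    obtain ⟨j, rfl⟩ := Fin.exists_succAbove_eq hl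
    have b0 := congrFun heq j
    rw [hp]
    set r1 := t1 * a (k0.succAbove j) % a k0
    set r2 := t2 * a (k0.succAbove j) % a k0
    have c1 := Int.emod_add_mul_ediv (r1 * Q) h
    have c2 := Int.emod_add_mul_ediv (r2 * Q) h
    have c3 := Int.emod_nonneg (r1 * Q) hpos.ne'
    have c4 := Int.emod_nonneg (r2 * Q) hpos.ne'
    have c5 := Int.emod_lt_of_pos (r1 * Q) hpos
    have c6 := Int.emod_lt_of_pos (r2 * Q) hpos
    rw [b0] at c1
    have : |r2 - r1| * Q = |r2 * Q - r1 * Q| := by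
      rw [← sub_mul, abs_mul, abs_of_nonneg (by linarith : (0 : ℤ) ≤ Q)]
    rw [this, abs_le]
    constructor <;> linarith
  refine ⟨x, ?_, fun k l => ?_⟩
  · by_contra hcon
    push Not at hcon
    have b1 := lines_proj hc x k0
    simp only [hcon, mul_zero, Finset.sum_const_zero] at b1
    set s := ∑ k, x k * c k
    rw [hx0] at b1
    have b2 : |t1 - t2| = |s| * h := by rw [← abs_mul]; congr 1; linarith
    have b3 : s ≠ 0 := by
      intro h0; rw [h0] at b1; apply hne; linarith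
    have b4 : 1 ≤ |s| := Int.one_le_abs b3
    have b5 : |t1 - t2| ≤ (Q : ℤ) ^ 3 := by rw [abs_le]; constructor <;> linarith
    nlinarith
  · have b1 : a k0 * pl a x k l = a k * pl a x k0 l - a l * pl a x k0 k := by unfold pl; ring
    have b2 : h * |pl a x k l| ≤ h * (|pl a x k0 l| + |pl a x k0 k|) := by
      rw [hh, ← abs_mul, b1]
      refine le_trans (abs_sub _ _) ?_
      rw [abs_mul, abs_mul, mul_add]
      exact add_le_add (mul_le_mul_of_nonneg_right (hk k) (abs_nonneg _))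
        (mul_le_mul_of_nonneg_right (hk l) (abs_nonneg _))
    have b3 := le_of_mul_le_mul_left b2 hpos
    have b4 : |pl a x k l| * Q ≤ 2 * h := by nlinarith [hb l, hb k]
    have b5 := pow_le_pow_left₀ (by positivity) b4 3
    have b6 : h * |pl a x k l| ^ 3 ≤ h * (64 * h ^ 2) := by
      calc h * |pl a x k l| ^ 3 ≤ 8 * (Q : ℤ) ^ 3 * |pl a x k l| ^ 3 :=
            mul_le_mul_of_nonneg_right hQ3 (by positivity)
        _ = 8 * (|pl a x k l| * Q) ^ 3 := by ring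
        _ ≤ 8 * (2 * h) ^ 3 := by linarith
        _ = _ := by ring
    exact le_of_mul_le_mul_left b6 hpos

/-- Saturation. -/
theorem lines_saturate (a : Fin 4 → ℤ) (ha : Finset.univ.gcd a = 1) (x : Fin 4 → ℤ)
    (hx : ∃ k l, pl a x k l ≠ 0) :
    ∃ y : Fin 4 → ℤ, Finset.univ.gcd (fun kl : Fin 4 × Fin 4 => pl a y kl.1 kl.2) = 1 ∧
      ∀ k l, |pl a y k l| ≤ |pl a x k l| := by
  obtain ⟨c, hc⟩ := lines_bezout ha
  set g := Finset.univ.gcd (fun kl : Fin 4 × Fin 4 => pl a x kl.1 kl.2) with hg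
  have hd : ∀ k l, g ∣ pl a x k l := fun k l =>
    Finset.gcd_dvd (f := fun kl : Fin 4 × Fin 4 => pl a x kl.1 kl.2) (Finset.mem_univ (k, l))
  have hg0 : g ≠ 0 := by
    intro h0
    obtain ⟨k, l, hkl⟩ := hx
    exact hkl (zero_dvd_iff.1 (h0 ▸ hd k l))
  have h1 : ∀ l, g ∣ x l - (∑ k, x k * c k) * a l := fun l => by
    rw [lines_proj hc]
    exact Finset.dvd_sum (fun k _ => (hd k l).mul_left _)
  choose y hy using h1
  have h2 : ∀ k l, pl a x k l = g * pl a y k l := fun k l => by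
    unfold pl
    linear_combination a k * hy l - a l * hy k
  refine ⟨y, ?_, fun k l => ?_⟩
  · have h3 : g = normalize g *
        Finset.univ.gcd (fun kl : Fin 4 × Fin 4 => pl a y kl.1 kl.2) := by
      rw [← Finset.gcd_mul_left]
      conv_lhs => rw [hg]
      exact Finset.gcd_congr rfl (fun kl _ => h2 kl.1 kl.2)
    have h4 : normalize g = g := by rw [hg]; exact Finset.normalize_gcd
    rw [h4] at h3
    exact (mul_left_cancel₀ hg0 (by rw [mul_one]; exact h3)).symm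
  · rw [h2, abs_mul]
    exact le_mul_of_one_le_left (abs_nonneg _) (Int.one_le_abs hg0)

/-- Reduction of the basis. -/
theorem lines_reduce (a y : Fin 4 → ℤ) (hy : ∃ k l, pl a y k l ≠ 0) :
    ∃ (ω1 ω2 : Fin 4 → ℤ) (u v : ℤ) (k : Fin 4), (∀ i j, pl ω1 ω2 i j = pl a y i j) ∧
      a = u • ω1 + v • ω2 ∧ (∀ l, |ω1 l| ≤ |ω1 k|) ∧ ω1 k ≠ 0 ∧ 2 * |ω2 k| ≤ |ω1 k| ∧
      ∃ l, |ω1 k| ≤ |ω2 l| := by
  classical
  have hmax : ∀ ω : Fin 4 → ℤ, ∃ k, ∀ l, |ω l| ≤ |ω k| := fun ω => by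
    obtain ⟨k, -, hk⟩ := Finset.exists_max_image Finset.univ (fun l => |ω l|) Finset.univ_nonempty
    exact ⟨k, fun l => hk l (Finset.mem_univ l)⟩
  have hex : ∃ n : ℕ, ∃ (ω1 ω2 : Fin 4 → ℤ) (u v : ℤ) (k : Fin 4),
      (∀ i j, pl ω1 ω2 i j = pl a y i j) ∧ a = u • ω1 + v • ω2 ∧ (∀ l, |ω1 l| ≤ |ω1 k|) ∧
      |ω1 k| = n := by
    obtain ⟨k, hk⟩ := hmax a
    exact ⟨(a k).natAbs, a, y, 1, 0, k, fun _ _ => rfl, by simp, hk, by simp⟩
  obtain ⟨ω1, ω2, u, v, k, h1, h2, h3, h4⟩ := Nat.find_spec hex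
  have hk0 : ω1 k ≠ 0 := by
    intro h0
    have : ∀ l, ω1 l = 0 := fun l => by
      have := h3 l
      rw [h0, abs_zero] at this
      exact abs_nonpos_iff.1 this
    obtain ⟨i, j, hij⟩ := hy
    apply hij
    rw [← h1]; simp [pl, this]
  obtain ⟨t, ht⟩ := lines_half (ω2 k) (ω1 k) hk0
  set ω3 : Fin 4 → ℤ := fun l => ω2 l - t * ω1 l with hω3
  have e1 : ∀ i j, pl ω1 ω3 i j = pl a y i j := fun i j => by
    rw [← h1]; simp only [pl, hω3]; ring
  have e2 : a = (u + v * t) • ω1 + v • ω3 := by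
    rw [h2]; ext l; simp only [hω3, Pi.add_apply, Pi.smul_apply, smul_eq_mul]; ring
  refine ⟨ω1, ω3, u + v * t, v, k, e1, e2, h3, hk0, ht, ?_⟩
  obtain ⟨l, hl⟩ := hmax ω3
  refine ⟨l, ?_⟩
  have h5 : Nat.find hex ≤ (ω3 l).natAbs := by
    refine Nat.find_min' hex ⟨ω3, -ω1, v, -(u + v * t), l, fun i j => ?_, ?_, hl, by simp⟩
    · rw [← e1]; simp only [pl, Pi.neg_apply]; ring
    · rw [e2]; ext l; simp only [Pi.add_apply, Pi.smul_apply, smul_eq_mul, Pi.neg_apply]; ring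
  rw [h4, Int.abs_eq_natAbs]
  exact_mod_cast h5

/-- every primitive vector lies on a line of small height -/
theorem line_cover : ∃ C : ℝ, 1 ≤ C ∧ ∀ (a : Fin 4 → ℤ) (H : ℝ), 1 ≤ H →
    Finset.univ.gcd a = 1 → (∀ l, |(a l : ℝ)| ≤ H) →
    ∃ (ω1 ω2 : Fin 4 → ℤ) (lam Del : ℕ) (u v : ℤ), IsLine ω1 ω2 lam Del ∧
      a = u • ω1 + v • ω2 ∧ IsCoprime u v ∧ (Del : ℝ) ^ 3 ≤ C * H ^ 2 ∧
      |(u : ℝ)| * lam ≤ C * H ∧ |(v : ℝ)| * Del ≤ C * H * lam := by
  refine ⟨64, by norm_num, fun a H hH ha hb => ?_⟩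
  obtain ⟨k0, -, hk0⟩ := Finset.exists_max_image Finset.univ (fun l => |a l|) Finset.univ_nonempty
  obtain ⟨x, hx1, hx2⟩ := lines_dirichlet a ha k0 (fun l => hk0 l (Finset.mem_univ l))
  obtain ⟨y, hy1, hy2⟩ := lines_saturate a ha x hx1
  have hy3 : ∃ k l, pl a y k l ≠ 0 := by
    by_contra hcon
    push Not at hcon
    rw [Finset.gcd_eq_zero_iff.2 (fun kl _ => hcon kl.1 kl.2)] at hy1
    exact zero_ne_one hy1
  obtain ⟨ω1, ω2, u, v, k, h1, h2, h3, h4, h5, l0, h6⟩ := lines_reduce a y hy3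
  obtain ⟨ij, -, hij⟩ := Finset.exists_max_image Finset.univ
    (fun kl : Fin 4 × Fin 4 => |pl ω1 ω2 kl.1 kl.2|) Finset.univ_nonempty
  have hD : ∀ i j, |pl ω1 ω2 i j| ≤ |pl ω1 ω2 ij.1 ij.2| :=
    fun i j => hij (i, j) (Finset.mem_univ _)
  set lam : ℤ := |ω1 k| with hlam
  set Del : ℤ := |pl ω1 ω2 ij.1 ij.2| with hDel
  have hlam0 : 0 < lam := abs_pos.2 h4
  have e1 : ∀ l, 2 * (|ω2 l| * lam) ≤ 2 * Del + lam ^ 2 := fun l => by
    have b1 : ω2 l * ω1 k = pl ω1 ω2 k l + ω1 l * ω2 k := by unfold pl; ring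
    have b2 : |ω2 l| * lam ≤ Del + |ω1 l| * |ω2 k| := by
      rw [hlam, ← abs_mul, b1, ← abs_mul]
      exact le_trans (abs_add_le _ _) (by linarith [hD k l])
    nlinarith [h3 l, abs_nonneg (ω1 l), abs_nonneg (ω2 k)]
  have e2 : lam ^ 2 ≤ 2 * Del := by nlinarith [e1 l0]
  have c1 : (((ω1 k).natAbs : ℕ) : ℤ) = lam := by rw [hlam, Int.natCast_natAbs]
  have c2 : (((pl ω1 ω2 ij.1 ij.2).natAbs : ℕ) : ℤ) = Del := by rw [hDel, Int.natCast_natAbs]
  have r1 : (((ω1 k).natAbs : ℕ) : ℝ) = (lam : ℝ) := by rw [← c1, Int.cast_natCast]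
  have r2 : (((pl ω1 ω2 ij.1 ij.2).natAbs : ℕ) : ℝ) = (Del : ℝ) := by
    rw [← c2, Int.cast_natCast]
  have hal : ∀ l, a l = u * ω1 l + v * ω2 l := fun l => by rw [h2]; simp
  have hlamr : (0 : ℝ) < lam := by exact_mod_cast hlam0
  have hv : |(v : ℝ)| * Del ≤ 2 * H * lam := by
    have b1 : v * pl ω1 ω2 ij.1 ij.2 = ω1 ij.1 * a ij.2 - ω1 ij.2 * a ij.1 := by
      rw [hal, hal]; unfold pl; ring
    have b2 : |v| * Del ≤ lam * |a ij.2| + lam * |a ij.1| := by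
      rw [hDel, ← abs_mul, b1]
      refine le_trans (abs_sub _ _) ?_
      rw [abs_mul, abs_mul]
      exact add_le_add (mul_le_mul_of_nonneg_right (h3 _) (abs_nonneg _))
        (mul_le_mul_of_nonneg_right (h3 _) (abs_nonneg _))
    have b3 : |(v : ℝ)| * Del ≤ lam * |(a ij.2 : ℝ)| + lam * |(a ij.1 : ℝ)| := by
      exact_mod_cast b2
    nlinarith [hb ij.1, hb ij.2]
  refine ⟨ω1, ω2, (ω1 k).natAbs, (pl ω1 ω2 ij.1 ij.2).natAbs, u, v,
    ⟨?_, fun l => ?_, ⟨k, rfl, ?_⟩, fun i j => ?_, ⟨ij.1, ij.2, rfl⟩, ?_, fun l => ?_⟩, h2, ?_, ?_,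
    ?_, ?_⟩
  · rw [← hy1]; exact Finset.gcd_congr rfl (fun kl _ => h1 _ _)
  · zify; exact h3 l
  · zify; linarith [abs_nonneg (ω2 k)]
  · zify; exact hD i j
  · zify; linarith [abs_nonneg (pl ω1 ω2 ij.1 ij.2)]
  · zify; linarith [e1 l, abs_nonneg (pl ω1 ω2 ij.1 ij.2)]
  · obtain ⟨c, hc⟩ := lines_bezout ha
    refine ⟨∑ l, ω1 l * c l, ∑ l, ω2 l * c l, ?_⟩
    rw [← hc, Finset.sum_mul, Finset.sum_mul, ← Finset.sum_add_distrib]
    exact Finset.sum_congr rfl (fun l _ => by rw [hal]; ring)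
  · rw [r2]
    have b1 : Del ^ 3 ≤ 64 * |a k0| ^ 2 := by
      refine le_trans (pow_le_pow_left₀ (abs_nonneg _) ?_ 3) (hx2 ij.1 ij.2)
      rw [hDel, h1]; exact hy2 _ _
    have b2 : (Del : ℝ) ^ 3 ≤ 64 * |(a k0 : ℝ)| ^ 2 := by exact_mod_cast b1
    have b3 := pow_le_pow_left₀ (abs_nonneg _) (hb k0) 2
    linarith
  · rw [r1]
    have b1 : |u| * lam ≤ |a k| + |v| * |ω2 k| := by
      have : u * ω1 k = a k - v * ω2 k := by rw [hal]; ring
      rw [hlam, ← abs_mul, this, ← abs_mul]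
      exact abs_sub _ _
    have b2 : 2 * (|u| * lam) ≤ 2 * |a k| + |v| * lam := by nlinarith [abs_nonneg v]
    have b3 : 2 * (|(u : ℝ)| * lam) ≤ 2 * |(a k : ℝ)| + |(v : ℝ)| * lam := by exact_mod_cast b2
    have b4 : (lam : ℝ) ^ 2 ≤ 2 * Del := by exact_mod_cast e2
    have b5 : |(v : ℝ)| * lam * lam ≤ 4 * H * lam := by nlinarith [abs_nonneg (v : ℝ)]
    have b6 := le_of_mul_le_mul_right b5 hlamr
    linarith [hb k]
  · rw [r1, r2]
    nlinarith

/-- the number of reduced bases with given sizes -/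
theorem line_count : ∃ C : ℝ, ∀ (S : Finset ((Fin 4 → ℤ) × (Fin 4 → ℤ))) (L1 L2 D : ℝ),
    1 ≤ L1 → 1 ≤ L2 → 1 ≤ D →
    (∀ x ∈ S, ∃ lam Del : ℕ, IsLine x.1 x.2 lam Del ∧ L1 ≤ lam ∧ lam ≤ L2 ∧ Del ≤ D) →
    (S.card : ℝ) ≤ C * L2 ^ 5 * (D / L1) ^ 3 := by
  refine ⟨4 * 3 ^ 5 * 50 ^ 3, fun S L1 L2 D hL1 hL2 hD hS => ?_⟩
  classical
  rcases S.eq_empty_or_nonempty with rfl | ⟨x0, hx0⟩
  · simp only [Finset.card_empty, Nat.cast_zero]; positivity
  have hDL : 1 ≤ 16 * (D / L1) := by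
    obtain ⟨lam, Del, h1, h2, -, h4⟩ := hS x0 hx0
    have b1 : (lam : ℝ) ^ 2 ≤ 16 * Del := by exact_mod_cast h1.hlam
    rw [← mul_div_assoc, le_div_iff₀ (by linarith)]
    nlinarith
  set n : ℕ := ⌊L2⌋₊ with hn
  set m : ℕ := ⌊17 * (D / L1)⌋₊ with hm
  have hn1 : ((2 * n + 1 : ℕ) : ℝ) ≤ 3 * L2 := by
    have := Nat.floor_le (a := L2) (by linarith)
    push_cast; linarith
  have hm1 : ((2 * m + 1 : ℕ) : ℝ) ≤ 50 * (D / L1) := by
    have := Nat.floor_le (a := 17 * (D / L1)) (by linarith)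
    push_cast; linarith
  have hI : ∀ r : ℕ, (Finset.Icc (-(r : ℤ)) r).card = 2 * r + 1 := fun r => by
    rw [Int.card_Icc]; omega
  have hmem : ∀ (z : ℤ) (r : ℕ), z.natAbs ≤ r → z ∈ Finset.Icc (-(r : ℤ)) r := fun z r h => by
    rw [Finset.mem_Icc]; omega
  have hsub : S ⊆ Finset.univ.biUnion (fun k : Fin 4 =>
      Fintype.piFinset (fun _ : Fin 4 => Finset.Icc (-(n : ℤ)) n) ×ˢ
      Fintype.piFinset (fun l : Fin 4 =>
        if l = k then Finset.Icc (-(n : ℤ)) n else Finset.Icc (-(m : ℤ)) m)) := by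
    intro x hx
    obtain ⟨lam, Del, h1, h2, h3, h4⟩ := hS x hx
    obtain ⟨k, -, hk⟩ := h1.h1'
    have b1 : lam ≤ n := Nat.le_floor h3
    refine Finset.mem_biUnion.2 ⟨k, Finset.mem_univ _, Finset.mem_product.2
      ⟨Fintype.mem_piFinset.2 (fun l => hmem _ _ (le_trans (h1.h1 l) b1)),
        Fintype.mem_piFinset.2 (fun l => ?_)⟩⟩
    by_cases hl : l = k
    · rw [if_pos hl, hl]; exact hmem _ _ (by omega)
    · rw [if_neg hl]
      refine hmem _ _ (Nat.le_floor ?_)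
      have b2 : ((x.2 l).natAbs : ℝ) * lam ≤ 17 * Del := by exact_mod_cast h1.h2 l
      rw [← mul_div_assoc, le_div_iff₀ (by linarith)]
      nlinarith [(Nat.cast_nonneg _ : (0 : ℝ) ≤ (x.2 l).natAbs)]
  have hcard : S.card ≤ 4 * ((2 * n + 1) ^ 5 * (2 * m + 1) ^ 3) := by
    refine le_trans (Finset.card_le_card hsub) (le_trans Finset.card_biUnion_le (le_of_eq ?_))
    have : ∀ k : Fin 4, (Fintype.piFinset (fun _ : Fin 4 => Finset.Icc (-(n : ℤ)) n) ×ˢ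
        Fintype.piFinset (fun l : Fin 4 =>
          if l = k then Finset.Icc (-(n : ℤ)) n else Finset.Icc (-(m : ℤ)) m)).card
        = (2 * n + 1) ^ 5 * (2 * m + 1) ^ 3 := by
      intro k
      rw [Finset.card_product, Fintype.card_piFinset, Fintype.card_piFinset]
      simp only [apply_ite Finset.card, hI, Fin.prod_univ_four]
      fin_cases k <;> simp <;> ring
    rw [Finset.sum_congr rfl (fun k _ => this k)]
    simp
  calc (S.card : ℝ) ≤ 4 * (((2 * n + 1 : ℕ) : ℝ) ^ 5 * ((2 * m + 1 : ℕ) : ℝ) ^ 3) := by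
        exact_mod_cast hcard
    _ ≤ 4 * ((3 * L2) ^ 5 * (50 * (D / L1)) ^ 3) := by gcongr
    _ = _ := by ring

end Vale.Agent.P018
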