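import Vale.Agent.P018.Q.LineII
import Vale.Agent.P018.Q.Lines

namespace Vale.Agent.P018

open NumberField Polynomial Filter

variable {F : Type} [Field F] [NumberField F]

theorem IsLine.uniq {ω1 ω2 : Fin 4 → ℤ} {lam Del lam' Del' : ℕ} (h : IsLine ω1 ω2 lam Del)
    (h' : IsLine ω1 ω2 lam' Del') : lam = lam' ∧ Del = Del' := by
  obtain ⟨k, hk, -⟩ := h.h1'
  obtain ⟨k', hk', -⟩ := h'.h1'
  obtain ⟨i, j, hij⟩ := h.hD'
  obtain ⟨i', j', hij'⟩ := h'.hD'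
  exact ⟨le_antisymm (hk ▸ h'.h1 k) (hk' ▸ h.h1 k'),
    le_antisymm (hij ▸ h'.hD i j) (hij' ▸ h.hD i' j')⟩

theorem IsLine.pos {ω1 ω2 : Fin 4 → ℤ} {lam Del : ℕ} (h : IsLine ω1 ω2 lam Del) :
    1 ≤ lam ∧ 1 ≤ Del := by
  obtain ⟨k, -, hk⟩ := h.h1'
  have h1 : 1 ≤ lam := by omega
  refine ⟨h1, ?_⟩
  have := h.hlam
  by_contra h2
  have h3 : Del = 0 := by omega
  rw [h3] at this
  nlinarith

theorem IsLine.real {ω1 ω2 : Fin 4 → ℤ} {lam Del : ℕ} (h : IsLine ω1 ω2 lam Del) :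
    (∀ l, |(ω1 l : ℝ)| ≤ lam) ∧ (∀ l, |(ω2 l : ℝ)| ≤ 17 * (Del : ℝ) / lam) ∧
      (lam : ℝ) ^ 2 ≤ 16 * Del ∧ ∃ k l, |(pl ω1 ω2 k l : ℝ)| = Del := by
  have hl : (0 : ℝ) < lam := by exact_mod_cast h.pos.1
  refine ⟨fun l => ?_, fun l => ?_, by exact_mod_cast h.hlam, ?_⟩
  · have := h.h1 l
    rw [← Int.cast_abs, ← Int.natCast_natAbs]
    exact_mod_cast this
  · have := h.h2 l
    rw [le_div_iff₀ hl, ← Int.cast_abs, ← Int.natCast_natAbs]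
    exact_mod_cast this
  · obtain ⟨k, l, hkl⟩ := h.hD'
    refine ⟨k, l, ?_⟩
    rw [← hkl, ← Int.cast_abs, ← Int.natCast_natAbs]
    simp

/-- summing over the lines of one cell -/
theorem cell_count : ∃ Cl : ℝ, 0 ≤ Cl ∧ ∀ (X η1 η ε B : ℝ) (Z : Finset ℤ) (ω1 ω2 : ℤ → Fin 4 → ℤ)
    (lam Del : ℤ → ℕ), 1 ≤ X → 0 ≤ η1 → 0 ≤ η → 0 ≤ ε → 0 ≤ B →
    (∀ N ∈ Z, IsLine (ω1 N) (ω2 N) (lam N) (Del N) ∧ X ^ η1 ≤ lam N ∧ lam N ≤ X ^ (η1 + ε) ∧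
      Del N ≤ X ^ (η + ε)) →
    (∀ N0 ∈ Z, ∀ S ⊆ Z, (∀ N ∈ S, ω1 N = ω1 N0 ∧ ω2 N = ω2 N0 ∧ lam N = lam N0 ∧ Del N = Del N0) →
      (S.card : ℝ) ≤ B) →
    (Z.card : ℝ) ≤ Cl * X ^ (2 * η1 + 3 * η + 8 * ε) * B := by
  classical
  obtain ⟨C, hC⟩ := line_count
  refine ⟨|C|, abs_nonneg _, ?_⟩
  intro X η1 η ε B Z ω1 ω2 lam Del hX hη1 hη hε hB hZ hS
  have hX0 : 0 < X := by linarith
  have h1 := hC (Z.image fun N => (ω1 N, ω2 N)) (X ^ η1) (X ^ (η1 + ε)) (X ^ (η + ε))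
    (Real.one_le_rpow hX hη1) (Real.one_le_rpow hX (by linarith))
    (Real.one_le_rpow hX (by linarith)) (fun x hx => by
      obtain ⟨N, hN, rfl⟩ := Finset.mem_image.mp hx
      exact ⟨lam N, Del N, hZ N hN⟩)
  have h2 : (X ^ (η1 + ε)) ^ 5 * (X ^ (η + ε) / X ^ η1) ^ 3 = X ^ (2 * η1 + 3 * η + 8 * ε) := by
    rw [← Real.rpow_sub hX0, ← Real.rpow_natCast, ← Real.rpow_natCast, ← Real.rpow_mul hX0.le,
      ← Real.rpow_mul hX0.le, ← Real.rpow_add hX0]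
    congr 1
    push_cast
    ring
  refine card_le_of_cover Z ((Z.image fun N => (ω1 N, ω2 N)).image fun x =>
    Z.filter fun N => (ω1 N, ω2 N) = x) _ B hB ?_ ?_ ?_
  · refine (Nat.cast_le.mpr Finset.card_image_le).trans (h1.trans ?_)
    rw [mul_assoc, h2]
    gcongr
    exact le_abs_self _
  · intro N hN
    exact ⟨_, Finset.mem_image_of_mem _ (Finset.mem_image_of_mem _ hN),
      Finset.mem_filter.mpr ⟨hN, rfl⟩⟩
  · intro T hT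
    obtain ⟨x, hx, rfl⟩ := Finset.mem_image.mp hT
    obtain ⟨N0, hN0, rfl⟩ := Finset.mem_image.mp hx
    refine hS N0 hN0 _ (Finset.filter_subset _ _) fun N hN => ?_
    obtain ⟨hN1, hN2⟩ := Finset.mem_filter.mp hN
    have h3 : ω1 N = ω1 N0 := congrArg Prod.fst hN2
    have h4 : ω2 N = ω2 N0 := congrArg Prod.snd hN2
    have h5 := (hZ N hN1).1
    rw [h3, h4] at h5
    exact ⟨h3, h4, h5.uniq (hZ N0 hN0).1⟩

theorem ce_split (S : Finset ℤ) (P : ℤ → Prop) (B : ℝ)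
    (h1 : ∀ T ⊆ S, (∀ N ∈ T, P N) → (T.card : ℝ) ≤ B)
    (h2 : ∀ T ⊆ S, (∀ N ∈ T, ¬ P N) → (T.card : ℝ) ≤ B) : (S.card : ℝ) ≤ 2 * B := by
  classical
  have h3 := Finset.card_filter_add_card_filter_not (s := S) P
  have h4 := h1 _ (Finset.filter_subset P S) fun N hN => (Finset.mem_filter.mp hN).2
  have h5 := h2 _ (Finset.filter_subset (fun N => ¬ P N) S) fun N hN => (Finset.mem_filter.mp hN).2
  rw [← h3]
  push_cast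
  linarith

theorem ce_card_abs (U : ℝ) (hU : 1 ≤ U) : ((Finset.Icc (-⌊U⌋) ⌊U⌋).card : ℝ) ≤ 3 * U := by
  rw [Int.card_Icc]
  have h0 : 0 ≤ ⌊U⌋ := Int.floor_nonneg.mpr (by linarith)
  have h1 : ((⌊U⌋ + 1 - -⌊U⌋).toNat : ℤ) = ⌊U⌋ + 1 - -⌊U⌋ := Int.toNat_of_nonneg (by omega)
  have h2 : (((⌊U⌋ + 1 - -⌊U⌋).toNat : ℕ) : ℝ) = (⌊U⌋ : ℝ) + 1 - -⌊U⌋ := by exact_mod_cast h1
  rw [h2]
  linarith [Int.floor_le U]

theorem ce_triv (S : Finset ℤ) (u v : ℤ → ℤ) (U V k : ℝ) (hU : 1 ≤ U) (hV : 1 ≤ V) (hk : 0 ≤ k)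
    (huv : ∀ N ∈ S, |(u N : ℝ)| ≤ U ∧ |(v N : ℝ)| ≤ V)
    (hf : ∀ T ⊆ S, (∀ N ∈ T, ∀ N' ∈ T, u N = u N' ∧ v N = v N') → (T.card : ℝ) ≤ k) :
    (S.card : ℝ) ≤ 9 * (U * V) * k := by
  classical
  refine card_le_of_cover S (((Finset.Icc (-⌊U⌋) ⌊U⌋) ×ˢ (Finset.Icc (-⌊V⌋) ⌊V⌋)).image fun x =>
    S.filter fun N => u N = x.1 ∧ v N = x.2) _ k hk ?_ ?_ ?_
  · refine (Nat.cast_le.mpr Finset.card_image_le).trans ?_
    rw [Finset.card_product, Nat.cast_mul]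
    have h1 := ce_card_abs U hU
    have h2 := ce_card_abs V hV
    calc _ ≤ (3 * U) * (3 * V) := by gcongr
      _ = _ := by ring
  · intro N hN
    refine ⟨_, Finset.mem_image_of_mem _ (a := (u N, v N)) ?_, Finset.mem_filter.mpr ⟨hN, rfl, rfl⟩⟩
    rw [Finset.mem_product, Finset.mem_Icc, Finset.mem_Icc, ← abs_le, ← abs_le, Int.le_floor,
      Int.le_floor, Int.cast_abs, Int.cast_abs]
    exact huv N hN
  · intro T hT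
    obtain ⟨x, -, rfl⟩ := Finset.mem_image.mp hT
    refine hf _ (Finset.filter_subset _ _) fun N hN N' hN' => ?_
    have h1 := (Finset.mem_filter.mp hN).2
    have h2 := (Finset.mem_filter.mp hN').2
    exact ⟨h1.1.trans h2.1.symm, h1.2.trans h2.2.symm⟩

theorem ce_pl_swap (ω ω' : Fin 4 → ℤ) (k l : Fin 4) : pl ω' ω k l = -pl ω ω' k l := by
  simp only [pl]; ring

theorem ce_exp {X a b : ℝ} (hX : 1 < X) (h : X ^ a ≤ X ^ b) : a ≤ b :=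
  (Real.rpow_le_rpow_left_iff hX).mp h

end Vale.Agent.P018
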