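import Vale.Agent.P018.Q.Mul

namespace Vale.Agent.P018

open NumberField Polynomial

variable {F : Type} [Field F] [NumberField F]

theorem fib_ker (c : Ctx F) (i : Fin 4) {q : ℤ[X]} (h : aeval (c.ϑ i) q = 0) : c.g ∣ q := by
  rw [← modByMonic_eq_zero_iff_dvd c.hmon]
  have h1 : aeval (c.ϑ i) (q %ₘ c.g) = 0 := by
    rw [aeval_modByMonic_eq_self_of_root (c.hroot i), h]
  have hd : (q %ₘ c.g).natDegree < 4 := by
    rw [← c.hdeg]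
    exact natDegree_modByMonic_lt q c.hmon fun e => by simpa [e] using c.hdeg
  rw [aeval_eq_sum_range' hd, Finset.sum_range] at h1
  have h2 : (fun l : Fin 4 => (q %ₘ c.g).coeff l) = 0 := by
    by_contra h3
    exact c.hind i _ h3 (by simpa [pv] using h1)
  ext k
  by_cases hk : k < 4
  · exact congrFun h2 ⟨k, hk⟩
  · exact coeff_eq_zero_of_natDegree_lt (by omega)

theorem fib_prime (c : Ctx F) {p : ℕ} (hp : p.Prime) {N : ℤ} (h : (p : ℤ) ∣ c.g.eval N)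
    (i : Fin 4) : ∃ P : Ideal (𝓞 F), P.IsPrime ∧ (∀ n : ℤ, (n : 𝓞 F) ∈ P ↔ (p : ℤ) ∣ n) ∧
      (N : 𝓞 F) - c.ϑ i ∈ P ∧ ∀ a, (p : ℤ) ∣ pv a N → c.cj a i ∈ P := by
  have : Fact p.Prime := ⟨hp⟩
  let _ : Algebra ℤ[X] (𝓞 F) := (aeval (c.ϑ i) : ℤ[X] →ₐ[ℤ] 𝓞 F).toRingHom.toAlgebra
  have : Algebra.IsIntegral ℤ[X] (𝓞 F) := Algebra.IsIntegral.tower_top ℤ
  let ev : ℤ[X] →+* ZMod p := (Int.castRingHom (ZMod p)).comp (evalRingHom N)
  have hev : ∀ q, q ∈ RingHom.ker ev ↔ (p : ℤ) ∣ q.eval N := fun q =>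
    ZMod.intCast_zmod_eq_zero_iff_dvd _ _
  have : (RingHom.ker ev).IsPrime := RingHom.ker_isPrime ev
  obtain ⟨P, -, h1, h2⟩ := Ideal.exists_ideal_over_prime_of_isIntegral (S := 𝓞 F)
    (RingHom.ker ev) ⊥ fun q hq => (hev q).2 (h.trans (eval_dvd (fib_ker c i hq)))
  have key : ∀ q : ℤ[X], aeval (c.ϑ i) q ∈ P ↔ (p : ℤ) ∣ q.eval N := fun q => by
    rw [← hev, ← h2]; rfl
  refine ⟨P, h1, fun n => by simpa using key (C n), ?_, fun a ha => ?_⟩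
  · have := (key (C N - X)).2 (by simp)
    rwa [map_sub, aeval_C, aeval_X] at this
  have := (key (pv a X)).2 (by simpa [pv, eval_finsetSum] using ha)
  simpa [pv, Ctx.cj] using this

theorem fib_disc (c : Ctx F) : ∃ D : ℝ, ∀ (i j : Fin 4), i ≠ j → ∀ (P : Ideal (𝓞 F)) (p : ℕ),
    (∀ n : ℤ, (n : 𝓞 F) ∈ P ↔ (p : ℤ) ∣ n) → c.ϑ i - c.ϑ j ∈ P → (p : ℝ) ≤ D := by
  have h0 : ∀ x : Fin 4 × Fin 4, ∃ d : ℕ, x.1 ≠ x.2 → 0 < d ∧ c.ϑ x.1 - c.ϑ x.2 ∣ (d : 𝓞 F) :=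
    fun x => ⟨Ideal.absNorm (Ideal.span {c.ϑ x.1 - c.ϑ x.2}), fun hx => ⟨Nat.pos_of_ne_zero fun e =>
      hx (c.hinj (sub_eq_zero.1 (Ideal.span_singleton_eq_bot.1 (Ideal.absNorm_eq_zero_iff.1 e)))),
      Ideal.mem_span_singleton.1 (Ideal.absNorm_mem _)⟩⟩
  choose d hd using h0
  refine ⟨((∑ x, d x : ℕ) : ℝ), fun i j hij P p hP h => ?_⟩
  obtain ⟨h1, h2⟩ := hd (i, j) hij
  have h3 := (hP (d (i, j))).1 (by simpa using P.mem_of_dvd h2 h)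
  have h4 := Nat.le_of_dvd h1 (Int.natCast_dvd_natCast.1 h3)
  exact Nat.cast_le.2 (h4.trans (Finset.single_le_sum (f := d) (fun _ _ => Nat.zero_le _)
    (Finset.mem_univ (i, j))))

theorem IsPt.fib_one_le {c : Ctx F} {C X : ℝ} {M : ℕ} {N : ℤ} {p : ℕ} {a b : Fin 4 → ℤ}
    (h : IsPt c C X M N p a b) : 1 ≤ C := le_trans (by exact_mod_cast h.hM0) h.hMC

/-- the prime ideal attached to a point -/
theorem fib_pt (c : Ctx F) (C : ℝ) : ∃ X0 : ℝ, 1 ≤ X0 ∧ ∀ X : ℝ, X0 ≤ X →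
    ∀ (M : ℕ) (N : ℤ) (p : ℕ) (a b : Fin 4 → ℤ) (i j : Fin 4), i ≠ j → IsPt c C X M N p a b →
    ∃ P : Ideal (𝓞 F), P.IsPrime ∧ (∀ n : ℤ, (n : 𝓞 F) ∈ P ↔ (p : ℤ) ∣ n) ∧
      (N : 𝓞 F) - c.ϑ i ∈ P ∧ c.cj a i ∈ P ∧ c.cj a j ∉ P ∧ (M : 𝓞 F) ∉ P := by
  obtain ⟨D, hD⟩ := fib_disc c
  refine ⟨max 1 (max (C + 1) (D + 1)), le_max_left _ _, fun X hX M N p a b i j hij h => ?_⟩
  obtain ⟨P, h1, h2, h3, h4⟩ := fib_prime c h.hp h.hgN i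
  have a1 : C + 1 ≤ p := ((le_max_left _ _).trans ((le_max_right _ _).trans hX)).trans h.hXp
  have a2 : D + 1 ≤ p := ((le_max_right _ _).trans ((le_max_right _ _).trans hX)).trans h.hXp
  have hM : (M : 𝓞 F) ∉ P := fun e => by
    have h5 := Nat.le_of_dvd h.hM0 (Int.natCast_dvd_natCast.1 ((h2 M).1 (by simpa using e)))
    have h6 : (p : ℝ) ≤ M := by exact_mod_cast h5
    linarith [h.hMC]
  refine ⟨P, h1, h2, h3, h4 a h.hdvd, fun e => ?_, hM⟩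
  have h5 : (M : 𝓞 F) * ((N : 𝓞 F) - c.ϑ j) ∈ P := by
    rw [← h.hab j, sq, mul_assoc]; exact P.mul_mem_right _ e
  have h6 := P.sub_mem ((h1.mem_or_mem h5).resolve_left hM) h3
  rw [sub_sub_sub_cancel_left] at h6
  linarith [hD i j hij P p h2 h6]

theorem fib_A (c : Ctx F) (C : ℝ) : ∃ (K : ℕ) (X0 : ℝ), ∀ X : ℝ, X0 ≤ X → ∀ (M : ℕ)
    (Z : Finset ℤ) (p : ℤ → ℕ) (a b : ℤ → Fin 4 → ℤ) (i j : Fin 4), i ≠ j →
    AllPt c C X M Z p a b →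
    (∀ N ∈ Z, ∀ N' ∈ Z, c.cj (a N) i * c.cj (a N') j = c.cj (a N) j * c.cj (a N') i) →
    Z.card ≤ K := by
  obtain ⟨X0, -, h0⟩ := fib_pt c C
  refine ⟨(Finset.Icc (-⌈2 * C⌉) ⌈2 * C⌉).card, X0, fun X hX M Z p a b i j hij hZ hr => ?_⟩
  rcases Z.eq_empty_or_nonempty with rfl | ⟨N0, hN0⟩
  · simp
  have h := hZ N0 hN0
  obtain ⟨P, h1, h2, h3, h4, h5, h6⟩ := h0 X hX M N0 _ _ _ i j hij h
  have hd : ∀ N ∈ Z, (p N0 : ℤ) ∣ N - N0 := fun N hN => by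
    have a1 : c.cj (a N) i ∈ P :=
      (h1.mem_or_mem (by rw [hr N hN N0 hN0]; exact P.mul_mem_left _ h4)).resolve_right h5
    have a2 : (M : 𝓞 F) * ((N : 𝓞 F) - c.ϑ i) ∈ P := by
      rw [← (hZ N hN).hab i, sq, mul_assoc]; exact P.mul_mem_right _ a1
    have a3 := P.sub_mem ((h1.mem_or_mem a2).resolve_left h6) h3
    exact (h2 _).1 (by simpa using a3)
  have hp : (0 : ℝ) < p N0 := by exact_mod_cast h.hp.pos
  refine Finset.card_le_card_of_injOn (fun N => (N - N0) / p N0) (fun N hN => ?_)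
    fun N hN N' hN' e => ?_
  · obtain ⟨k, hk⟩ := hd N hN
    have a1 : (N - N0) / p N0 = k := by
      rw [hk, Int.mul_ediv_cancel_left _ (by exact_mod_cast hp.ne')]
    have a2 : (N : ℝ) - N0 = p N0 * k := by exact_mod_cast hk
    have a3 := abs_sub (N : ℝ) N0
    rw [a2, abs_mul, abs_of_pos hp] at a3
    have a4 := mul_le_mul_of_nonneg_left h.hXp (zero_le_one.trans h.fib_one_le)
    have a5 : |(k : ℝ)| ≤ 2 * C :=
      le_of_mul_le_mul_left (by linarith [h.hN2, (hZ N hN).hN2]) hp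
    have a6 : |k| ≤ ⌈2 * C⌉ := by exact_mod_cast a5.trans (Int.le_ceil _)
    simpa [a1] using abs_le.1 a6
  · have a1 := Int.ediv_mul_cancel (hd N hN)
    have a2 := Int.ediv_mul_cancel (hd N' hN')
    simp only at e
    rw [e, a2] at a1
    omega

/-- points with a constant ratio `α_i / α_j` -/
theorem fiberA (c : Ctx F) (C : ℝ) : ∃ C' X0 : ℝ, ∀ X : ℝ, X0 ≤ X → ∀ (M : ℕ) (Z : Finset ℤ)
    (p : ℤ → ℕ) (a b : ℤ → Fin 4 → ℤ) (i j : Fin 4), i ≠ j → AllPt c C X M Z p a b →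
    (∀ N ∈ Z, ∀ N' ∈ Z, c.cj (a N) i * c.cj (a N') j = c.cj (a N) j * c.cj (a N') i) →
    (Z.card : ℝ) ≤ C' := by
  obtain ⟨K, X0, h⟩ := fib_A c C
  exact ⟨K, X0, fun X hX M Z p a b i j hij h1 h2 => by exact_mod_cast h X hX M Z p a b i j hij h1 h2⟩

theorem fib_q2 (p : ℕ) : ((p : ℝ) ^ (1 / 4 : ℝ)) ^ 2 = √(p : ℝ) := by
  rw [← Real.rpow_natCast, ← Real.rpow_mul (Nat.cast_nonneg p), Real.sqrt_eq_rpow]
  norm_num

theorem fib_q4 (p : ℕ) : ((p : ℝ) ^ (1 / 4 : ℝ)) ^ 4 = p := by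
  rw [← Real.rpow_natCast, ← Real.rpow_mul (Nat.cast_nonneg p)]
  norm_num

theorem fib_size (c : Ctx F) : ∃ C1 : ℝ, 1 ≤ C1 ∧ (∀ (φ : F →+* ℂ) i, ‖emb φ (c.ϑ i)‖ ≤ C1) ∧
    ∀ (φ : F →+* ℂ) i (a : Fin 4 → ℤ) (P : ℝ), (∀ l, |(a l : ℝ)| ≤ P) →
      ‖emb φ (c.cj a i)‖ ≤ C1 * P := by
  obtain ⟨C1, h1, h2, h3, -⟩ := size_bounds c.ϑ c.hind
  exact ⟨C1, h1, h2, fun φ i a P h => by rw [Ctx.cj, map_pv]; exact h3 φ i a P h⟩

theorem fib_cj_sub (c : Ctx F) (a a' : Fin 4 → ℤ) (i : Fin 4) :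
    c.cj (a - a') i = c.cj a i - c.cj a' i := by
  simp [Ctx.cj, pv, sub_mul, Finset.sum_sub_distrib]

/-- points with bounded Plücker coordinates -/
theorem fib_class (c : Ctx F) (C B : ℝ) : ∃ (K : ℕ) (X0 : ℝ), ∀ X : ℝ, X0 ≤ X → ∀ (M : ℕ)
    (Z : Finset ℤ) (p : ℤ → ℕ) (a b : ℤ → Fin 4 → ℤ) (i j : Fin 4), i ≠ j →
    AllPt c C X M Z p a b →
    (∀ N ∈ Z, ∀ N' ∈ Z, ∀ φ : F →+* ℂ, ‖emb φ (c.pc (a N) (a N') i j)‖ ≤ B) → Z.card ≤ K := by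
  classical
  obtain ⟨X0, -, h0⟩ := fib_pt c C
  obtain ⟨K, X1, hA⟩ := fib_A c C
  obtain ⟨C1, hC1, -, hs⟩ := fib_size c
  have hfin : {x : 𝓞 F | ∀ φ : F →+* ℂ, ‖emb φ x‖ ≤ B}.Finite :=
    ((Embeddings.finite_of_norm_le F ℂ B).preimage
      RingOfIntegers.coe_injective.injOn).subset fun x hx => ⟨x.isIntegral_coe, hx⟩
  refine ⟨K * (hfin.toFinset ×ˢ Fintype.piFinset fun _ : Fin 4 =>
    Finset.Icc ⌊-(2 * C1)⌋ ⌊2 * C1⌋).card, max X0 X1, fun X hX M Z p a b i j hij hZ hr => ?_⟩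
  rcases Z.eq_empty_or_nonempty with rfl | hne
  · simp
  obtain ⟨N1, hN1, hmax⟩ := Z.exists_max_image p hne
  have h := hZ N1 hN1
  obtain ⟨P, h1, h2, -, h4, h5, -⟩ := h0 X ((le_max_left _ _).trans hX) M N1 _ _ _ i j hij h
  have hp : (0 : ℝ) < p N1 := by exact_mod_cast h.hp.pos
  set q : ℝ := (p N1 : ℝ) ^ (1 / 4 : ℝ) with hq
  have hq0 : 0 < q := Real.rpow_pos_of_pos hp _
  refine Finset.card_le_mul_card_image_of_maps_to
    (f := fun N => (c.pc (a N) (a N1) i j, fun l => ⌊(a N l : ℝ) * (2 * C1 / q)⌋))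
    (fun N hN => ?_) K fun y _ => ?_
  · refine Finset.mem_product.2 ⟨hfin.mem_toFinset.2 (hr N hN N1 hN1),
      Fintype.mem_piFinset.2 fun l => ?_⟩
    have a1 : |(a N l : ℝ)| ≤ q := ((hZ N hN).ha l).trans
      (Real.rpow_le_rpow (Nat.cast_nonneg _) (by exact_mod_cast hmax N hN) (by norm_num))
    have a2 : |(a N l : ℝ) * (2 * C1 / q)| ≤ 2 * C1 := by
      rw [abs_mul, abs_of_pos (by positivity : 0 < 2 * C1 / q), ← mul_div_assoc, div_le_iff₀ hq0,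
        mul_comm]
      exact mul_le_mul_of_nonneg_left a1 (by positivity)
    exact Finset.mem_Icc.2 ⟨Int.floor_mono (abs_le.1 a2).1, Int.floor_mono (abs_le.1 a2).2⟩
  · refine hA X ((le_max_right _ _).trans hX) M _ p a b i j hij
      (fun N hN => hZ N (Finset.mem_filter.1 hN).1) fun N hN N' hN' => ?_
    have e := (Finset.mem_filter.1 hN).2.trans (Finset.mem_filter.1 hN').2.symm
    obtain ⟨e1, e2⟩ := Prod.ext_iff.1 e
    have a1 : c.cj (a N - a N') i ∈ P := by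
      refine (h1.mem_or_mem (y := c.cj (a N1) j) ?_).resolve_right h5
      have : c.cj (a N - a N') i * c.cj (a N1) j = c.cj (a N - a N') j * c.cj (a N1) i := by
        simp only [Ctx.pc] at e1
        rw [fib_cj_sub, fib_cj_sub]; linear_combination e1
      rw [this]; exact P.mul_mem_left _ h4
    obtain ⟨n, -, hn, -⟩ := c.exists_norm (a N - a N')
    have a2 : (p N1 : ℤ) ∣ n := (h2 n).1 (by
      rw [← hn, ← Finset.mul_prod_erase _ _ (Finset.mem_univ i)]; exact P.mul_mem_right _ a1)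
    have a3 : ∀ l, |(((a N - a N') l : ℤ) : ℝ)| ≤ q / (2 * C1) := fun l => by
      have := (Int.abs_sub_lt_one_of_floor_eq_floor (congrFun e2 l)).le
      rw [← sub_mul, abs_mul, abs_of_pos (by positivity : 0 < 2 * C1 / q), ← mul_div_assoc,
        div_le_one hq0, ← le_div_iff₀ (by positivity)] at this
      simpa using this
    let φ : F →+* ℂ := Classical.arbitrary _
    have a4 : |(n : ℝ)| ≤ (q / 2) ^ 4 := by
      have := congrArg (fun t => ‖emb φ t‖) hn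
      simp only [map_prod, norm_prod, map_intCast, Complex.norm_intCast] at this
      rw [← this]
      refine (Finset.prod_le_prod (fun _ _ => norm_nonneg _) fun l _ => hs φ l _ _ a3).trans
        (le_of_eq ?_)
      rw [Finset.prod_const, Finset.card_univ, Fintype.card_fin]
      congr 1
      field_simp
    have a5 : n = 0 := by
      refine Int.eq_zero_of_abs_lt_dvd a2 ?_
      rw [div_pow, hq, fib_q4] at a4
      have : |(n : ℝ)| < p N1 := by linarith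
      exact_mod_cast this
    rw [a5, Int.cast_zero, Finset.prod_eq_zero_iff] at hn
    obtain ⟨l, -, hl⟩ := hn
    have a6 : a N = a N' := sub_eq_zero.1 (by by_contra h7; exact c.hind l _ h7 hl)
    rw [a6, mul_comm]

theorem fib_sign {x y : ℂ} {E L : ℝ} (hL : 0 < L) (h1 : ‖x ^ 2 - y ^ 2‖ ≤ E * L) (h2 : L ≤ ‖x‖) :
    ‖x - 1 * y‖ ≤ E ∨ ‖x - (-1) * y‖ ≤ E := by
  rw [sq_sub_sq, norm_mul] at h1
  rw [one_mul, neg_one_mul, sub_neg_eq_add]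
  have h3 := norm_add_le (x + y) (x - y)
  rw [show x + y + (x - y) = 2 * x by ring, norm_mul, Complex.norm_two] at h3
  rcases le_total L ‖x + y‖ with h | h
  · left
    refine le_of_mul_le_mul_right (le_trans ?_ h1) hL
    rw [mul_comm]
    exact mul_le_mul_of_nonneg_right h (norm_nonneg _)
  · right
    exact le_of_mul_le_mul_right
      (le_trans (mul_le_mul_of_nonneg_left (by linarith) (norm_nonneg _)) h1) hL

theorem fib_pair {c : Ctx F} {C X C1 : ℝ} (hX : 0 < X)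
    (hθ : ∀ (φ : F →+* ℂ) i, ‖emb φ (c.ϑ i)‖ ≤ C1) {M : ℕ} {N N0 : ℤ} {p p0 : ℕ}
    {a b a0 b0 : Fin 4 → ℤ} (h : IsPt c C X M N p a b) (h0 : IsPt c C X M N0 p0 a0 b0)
    {i j : Fin 4} (hr : c.cj b i * c.cj b0 j = c.cj b j * c.cj b0 i) (φ : F →+* ℂ) :
    ‖emb φ (c.cj a i) * emb φ (c.cj a0 j) - 1 * (emb φ (c.cj a j) * emb φ (c.cj a0 i))‖ ≤
      4 * C ^ 7 * C1 * ((p : ℝ) ^ (1 / 4 : ℝ) * (p0 : ℝ) ^ (1 / 4 : ℝ)) / X ∨
    ‖emb φ (c.cj a i) * emb φ (c.cj a0 j) - (-1) * (emb φ (c.cj a j) * emb φ (c.cj a0 i))‖ ≤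
      4 * C ^ 7 * C1 * ((p : ℝ) ^ (1 / 4 : ℝ) * (p0 : ℝ) ^ (1 / 4 : ℝ)) / X := by
  have hC := h.fib_one_le
  have hq : 0 < (p : ℝ) ^ (1 / 4 : ℝ) := Real.rpow_pos_of_pos (by exact_mod_cast h.hp.pos) _
  have hq0 : 0 < (p0 : ℝ) ^ (1 / 4 : ℝ) := Real.rpow_pos_of_pos (by exact_mod_cast h0.hp.pos) _
  have b1 := h.hβ φ i
  have b2 := h0.hβ φ j
  have a1 := h.hα φ i
  have a2 := h0.hα φ j
  rw [← fib_q2] at b1 b2
  generalize (p : ℝ) ^ (1 / 4 : ℝ) = q at hq b1 a1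
  generalize (p0 : ℝ) ^ (1 / 4 : ℝ) = q0 at hq0 b2 a2
  refine fib_sign (L := q * q0 / C ^ 2) (by positivity) ?_ ?_
  · have e : ((c.cj a i * c.cj a0 j) ^ 2 - (c.cj a j * c.cj a0 i) ^ 2) * (c.cj b i * c.cj b0 j) =
        (M : 𝓞 F) ^ 2 * (((N - N0 : ℤ) : 𝓞 F) * (c.ϑ i - c.ϑ j)) := by
      push_cast
      linear_combination (c.cj a0 j ^ 2 * c.cj b0 j) * h.hab i +
        ((M : 𝓞 F) * ((N : 𝓞 F) - c.ϑ i)) * h0.hab j - (c.cj a j * c.cj a0 i) ^ 2 * hr -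
        (c.cj a0 i ^ 2 * c.cj b0 i) * h.hab j - ((M : 𝓞 F) * ((N : 𝓞 F) - c.ϑ j)) * h0.hab i
    have e2 := congrArg (fun t => ‖emb φ t‖) e
    simp only [map_mul, map_sub (emb φ) (_ ^ 2), map_pow, norm_mul, norm_pow, map_natCast,
      map_intCast, Complex.norm_natCast, Complex.norm_intCast] at e2
    have c1 : |((N - N0 : ℤ) : ℝ)| ≤ 2 * C * X := by
      push_cast; linarith [abs_sub (N : ℝ) N0, h.hN2, h0.hN2]
    have c2 : ‖emb φ (c.ϑ i - c.ϑ j)‖ ≤ 2 * C1 := by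
      rw [map_sub]; linarith [norm_sub_le (emb φ (c.ϑ i)) (emb φ (c.ϑ j)), hθ φ i, hθ φ j]
    have c3 : (M : ℝ) ^ 2 * (|((N - N0 : ℤ) : ℝ)| * ‖emb φ (c.ϑ i - c.ϑ j)‖) ≤
        C ^ 2 * (2 * C * X * (2 * C1)) := by
      have := h.hMC
      gcongr
    have c4 : X / q ^ 2 * (X / q0 ^ 2) ≤ C * ‖emb φ (c.cj b i)‖ * (C * ‖emb φ (c.cj b0 j)‖) := by
      gcongr
    rw [← e2] at c3
    have hD := norm_nonneg ((emb φ (c.cj a i) * emb φ (c.cj a0 j)) ^ 2 -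
      (emb φ (c.cj a j) * emb φ (c.cj a0 i)) ^ 2)
    generalize ‖(emb φ (c.cj a i) * emb φ (c.cj a0 j)) ^ 2 -
      (emb φ (c.cj a j) * emb φ (c.cj a0 i)) ^ 2‖ = D at c3 hD
    have c5 := mul_le_mul_of_nonneg_left c4 hD
    have c6 := mul_le_mul_of_nonneg_left c3 (sq_nonneg C)
    refine le_of_mul_le_mul_right (a := X / q ^ 2 * (X / q0 ^ 2)) ?_ (by positivity)
    have c7 : 4 * C ^ 7 * C1 * (q * q0) / X * (q * q0 / C ^ 2) * (X / q ^ 2 * (X / q0 ^ 2)) =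
        C ^ 2 * (C ^ 2 * (2 * C * X * (2 * C1))) := by field_simp; ring
    rw [c7]
    linarith
  · rw [norm_mul, div_le_iff₀ (by positivity)]
    calc q * q0 ≤ C * ‖emb φ (c.cj a i)‖ * (C * ‖emb φ (c.cj a0 j)‖) := by gcongr
      _ = _ := by ring

theorem fib_trans {A B A0 B0 A1 B1 σ : ℂ} {C C1 K X q q0 q1 : ℝ} (hC : 1 ≤ C) (hC1 : 1 ≤ C1)
    (hK : 0 ≤ K) (hX : 0 < X) (hq : 0 < q) (hq0 : 0 < q0) (hq1 : 0 < q1)
    (h1 : ‖A * B0 - σ * (B * A0)‖ ≤ K * (q * q0) / X)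
    (h2 : ‖A1 * B0 - σ * (B1 * A0)‖ ≤ K * (q1 * q0) / X) (hB : ‖B‖ ≤ C1 * q) (hB1 : ‖B1‖ ≤ C1 * q1)
    (hB0 : q0 ≤ C * ‖B0‖) (h3 : q ^ 2 ≤ C * X) (h4 : q1 ^ 2 ≤ C * X) :
    ‖A * B1 - B * A1‖ ≤ 2 * C ^ 2 * C1 * K := by
  have e : (A * B1 - B * A1) * B0 = B1 * (A * B0 - σ * (B * A0)) - B * (A1 * B0 - σ * (B1 * A0)) := by
    ring
  have a1 : ‖A * B1 - B * A1‖ * ‖B0‖ ≤
      C1 * q1 * (K * (q * q0) / X) + C1 * q * (K * (q1 * q0) / X) := by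
    rw [← norm_mul, e]
    refine (norm_sub_le _ _).trans ?_
    rw [norm_mul, norm_mul]
    gcongr
  have a2 : q * q1 / X ≤ C := by
    rw [div_le_iff₀ hX]; nlinarith [sq_nonneg (q - q1)]
  refine le_of_mul_le_mul_right ?_ hq0
  calc ‖A * B1 - B * A1‖ * q0 ≤ ‖A * B1 - B * A1‖ * (C * ‖B0‖) := by gcongr
    _ = C * (‖A * B1 - B * A1‖ * ‖B0‖) := by ring
    _ ≤ C * (C1 * q1 * (K * (q * q0) / X) + C1 * q * (K * (q1 * q0) / X)) := by gcongr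
    _ = 2 * C * C1 * K * q0 * (q * q1 / X) := by ring
    _ ≤ 2 * C * C1 * K * q0 * C := by gcongr
    _ = _ := by ring

theorem IsPt.fib_sqrt {c : Ctx F} {C X : ℝ} {M : ℕ} {N : ℤ} {p : ℕ} {a b : Fin 4 → ℤ}
    (h : IsPt c C X M N p a b) : ((p : ℝ) ^ (1 / 4 : ℝ)) ^ 2 ≤ C * X := by
  obtain ⟨l, hl⟩ : ∃ l, b l ≠ 0 := by
    by_contra h1
    push Not at h1
    have := h.hb1
    rw [Finset.gcd_eq_zero_iff.2 fun l _ => h1 l] at this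
    exact zero_ne_one this
  have h1 : (1 : ℝ) ≤ |(b l : ℝ)| := by exact_mod_cast Int.one_le_abs hl
  have h2 := h1.trans (h.hb l)
  rwa [le_div_iff₀ (Real.sqrt_pos.2 (by exact_mod_cast h.hp.pos)), one_mul, ← fib_q2] at h2

/-- points with a constant ratio `β_i / β_j` -/
theorem fiberB (c : Ctx F) (C : ℝ) : ∃ C' X0 : ℝ, ∀ X : ℝ, X0 ≤ X → ∀ (M : ℕ) (Z : Finset ℤ)
    (p : ℤ → ℕ) (a b : ℤ → Fin 4 → ℤ) (i j : Fin 4), i ≠ j → AllPt c C X M Z p a b →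
    (∀ N ∈ Z, ∀ N' ∈ Z, c.cj (b N) i * c.cj (b N') j = c.cj (b N) j * c.cj (b N') i) →
    (Z.card : ℝ) ≤ C' := by
  classical
  obtain ⟨C1, hC1, hθ, hs⟩ := fib_size c
  obtain ⟨K, X0, hK⟩ := fib_class c C (2 * C ^ 2 * C1 * (4 * C ^ 7 * C1))
  refine ⟨(K * (Finset.univ : Finset ((F →+* ℂ) → Prop)).card : ℕ), max 1 X0,
    fun X hX M Z p a b i j hij hZ hr => Nat.cast_le.2 ?_⟩
  have hX0 : 0 < X := zero_lt_one.trans_le ((le_max_left _ _).trans hX)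
  rcases Z.eq_empty_or_nonempty with rfl | ⟨N0, hN0⟩
  · simp
  have h0 := hZ N0 hN0
  have hC := h0.fib_one_le
  have hq : ∀ N ∈ Z, 0 < (p N : ℝ) ^ (1 / 4 : ℝ) := fun N hN =>
    Real.rpow_pos_of_pos (by exact_mod_cast (hZ N hN).hp.pos) _
  refine Finset.card_le_mul_card_image_of_maps_to (f := fun N (φ : F →+* ℂ) =>
    ‖emb φ (c.cj (a N) i) * emb φ (c.cj (a N0) j) -
      1 * (emb φ (c.cj (a N) j) * emb φ (c.cj (a N0) i))‖ ≤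
      4 * C ^ 7 * C1 * ((p N : ℝ) ^ (1 / 4 : ℝ) * (p N0 : ℝ) ^ (1 / 4 : ℝ)) / X)
    (fun _ _ => Finset.mem_univ _) K fun y _ => ?_
  refine hK X ((le_max_right _ _).trans hX) M _ p a b i j hij
    (fun N hN => hZ N (Finset.mem_filter.1 hN).1) fun N hN N' hN' φ => ?_
  obtain ⟨h1, e1⟩ := Finset.mem_filter.1 hN
  obtain ⟨h2, e2⟩ := Finset.mem_filter.1 hN'
  have e := (congrFun (e1.trans e2.symm) φ).to_iff
  have key := fun σ u v => fib_trans (A := emb φ (c.cj (a N) i)) (A0 := emb φ (c.cj (a N0) i))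
    (A1 := emb φ (c.cj (a N') i)) (σ := σ) (K := 4 * C ^ 7 * C1) hC hC1 (by positivity) hX0
    (hq N h1) (hq N0 hN0) (hq N' h2) u v (hs φ j _ _ (hZ N h1).ha) (hs φ j _ _ (hZ N' h2).ha)
    (h0.hα φ j) (hZ N h1).fib_sqrt (hZ N' h2).fib_sqrt
  rw [Ctx.pc, map_sub, map_mul, map_mul]
  rcases fib_pair hX0 hθ (hZ N h1) h0 (hr N h1 N0 hN0) φ with u | u
  · exact key 1 u (e.1 u)
  · rcases fib_pair hX0 hθ (hZ N' h2) h0 (hr N' h2 N0 hN0) φ with v | v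
    · exact key 1 (e.2 v) v
    · exact key (-1) u v

end Vale.Agent.P018
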