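import Vale.Agent.P018.Q.Affine
import Vale.Agent.P018.Q.Fiber

namespace Vale.Agent.P018

open NumberField Polynomial

variable {F : Type} [Field F] [NumberField F]

/-- conjugates of a vector of rational polynomials -/
noncomputable def Ctx.cjP (c : Ctx F) (q : Fin 4 → ℚ[X]) (i : Fin 4) : F[X] :=
  ∑ l, (q l).map (algebraMap ℚ F) * C (((c.ϑ i : 𝓞 F) : F) ^ (l : ℕ))

/-- the points of `T` lie on a polynomial family of solutions -/
structure Cfg (c : Ctx F) (M D : ℕ) (B : ℝ) (T : Finset ℤ) (a b : ℤ → Fin 4 → ℤ) (t : ℤ → ℤ)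
    (qN : ℚ[X]) (qa qb : Fin 4 → ℚ[X]) : Prop where
  inj : Set.InjOn t T
  bd : ∀ N ∈ T, |(t N : ℝ)| ≤ B
  dN : qN.natDegree ≤ D
  da : ∀ l, (qa l).natDegree ≤ D
  db : ∀ l, (qb l).natDegree ≤ D
  eN : ∀ N ∈ T, qN.eval (t N : ℚ) = N
  ea : ∀ N ∈ T, ∀ l, (qa l).eval (t N : ℚ) = a N l
  eb : ∀ N ∈ T, ∀ l, (qb l).eval (t N : ℚ) = b N l
  rel : ∀ i, c.cjP qa i ^ 2 * c.cjP qb i =
    C (M : F) * (qN.map (algebraMap ℚ F) - C ((c.ϑ i : 𝓞 F) : F))

theorem cfg_cj_coe (c : Ctx F) (a : Fin 4 → ℤ) (i : Fin 4) :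
    ((c.cj a i : 𝓞 F) : F) = ∑ l, (a l : F) * ((c.ϑ i : 𝓞 F) : F) ^ (l : ℕ) := by
  have := map_pv (algebraMap (𝓞 F) F) a (c.ϑ i)
  exact this.trans (by simp [pv])

theorem cfg_hindQ (c : Ctx F) (i : Fin 4) (v : Fin 4 → ℚ) (hv : v ≠ 0) :
    ∑ l, algebraMap ℚ F (v l) * ((c.ϑ i : 𝓞 F) : F) ^ (l : ℕ) ≠ 0 := by
  classical
  set d : ℕ := ∏ l, (v l).den with hd
  have hd0 : (d : ℚ) ≠ 0 := by
    rw [hd]
    exact_mod_cast Finset.prod_ne_zero_iff.2 fun l _ => (v l).den_nz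
  have hex : ∀ l, ∃ a : ℤ, (a : ℚ) = d * v l := fun l => by
    obtain ⟨k, hk⟩ : (v l).den ∣ d := Finset.dvd_prod_of_mem _ (Finset.mem_univ l)
    refine ⟨(v l).num * k, ?_⟩
    rw [hk]
    push_cast
    rw [← Rat.mul_den_eq_num]
    ring
  choose a ha using hex
  have ha0 : a ≠ 0 := by
    rintro rfl
    refine hv (funext fun l => ?_)
    have := ha l
    simpa [hd0] using this.symm
  intro h
  refine c.hind i a ha0 (RingOfIntegers.ext ?_)
  have e := cfg_cj_coe c a i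
  rw [Ctx.cj] at e
  rw [e]
  have e2 : ∀ l, (a l : F) = algebraMap ℚ F d * algebraMap ℚ F (v l) := fun l => by
    rw [← map_mul, ← ha, map_intCast]
  simp only [e2, mul_assoc]
  rw [← Finset.mul_sum, h, mul_zero]
  rfl

theorem cfg_theta_ne (c : Ctx F) (i : Fin 4) (r : ℚ) :
    algebraMap ℚ F r - ((c.ϑ i : 𝓞 F) : F) ≠ 0 := by
  have := cfg_hindQ c i ![r, -1, 0, 0] (fun h => by simpa using congrFun h 1)
  simpa [Fin.sum_univ_four, sub_eq_add_neg] using this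

theorem cfg_theta_inj (c : Ctx F) : Function.Injective fun i => ((c.ϑ i : 𝓞 F) : F) :=
  fun _ _ h => c.hinj (RingOfIntegers.ext h)

theorem cfg_cjP_le (c : Ctx F) (q : Fin 4 → ℚ[X]) (e : ℕ) (h : ∀ l, (q l).natDegree ≤ e)
    (i : Fin 4) : (c.cjP q i).natDegree ≤ e := by
  refine natDegree_sum_le_of_forall_le _ _ fun l _ => ?_
  refine (natDegree_mul_C_le _ _).trans ?_
  exact natDegree_map_le.trans (h l)

theorem cfg_cjP_deg (c : Ctx F) (q : Fin 4 → ℚ[X]) (hq : q ≠ 0) : ∃ e : ℕ,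
    (∀ l, (q l).natDegree ≤ e) ∧ (∃ l, q l ≠ 0 ∧ (q l).natDegree = e) ∧
      ∀ i, c.cjP q i ≠ 0 ∧ (c.cjP q i).natDegree = e := by
  classical
  obtain ⟨l0, hl0⟩ : ∃ l, q l ≠ 0 := Function.ne_iff.1 hq
  obtain ⟨l, hl, hmax⟩ := (Finset.univ.filter fun l => q l ≠ 0).exists_max_image
    (fun l => (q l).natDegree) ⟨l0, by simpa using hl0⟩
  have hl' : q l ≠ 0 := by simpa using hl
  have hle : ∀ k, (q k).natDegree ≤ (q l).natDegree := fun k => by
    by_cases hk : q k = 0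
    · simp [hk]
    · exact hmax k (by simpa using hk)
  refine ⟨(q l).natDegree, hle, ⟨l, hl', rfl⟩, fun i => ?_⟩
  have hc : (c.cjP q i).coeff (q l).natDegree ≠ 0 := by
    have := cfg_hindQ c i (fun k => (q k).coeff (q l).natDegree) fun h =>
      hl' (leadingCoeff_eq_zero.1 (congrFun h l))
    simpa only [Ctx.cjP, finsetSum_coeff, coeff_mul_C, coeff_map] using this
  exact ⟨fun h => hc (by rw [h, coeff_zero]),
    le_antisymm (cfg_cjP_le c q _ hle i) (le_natDegree_of_ne_zero hc)⟩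

theorem cfg_rhs_ne (c : Ctx F) (qN : ℚ[X]) (i : Fin 4) :
    qN.map (algebraMap ℚ F) - C ((c.ϑ i : 𝓞 F) : F) ≠ 0 := fun h => by
  have := congrArg (fun p => coeff p 0) h
  simp only [coeff_sub, coeff_map, coeff_C_zero, coeff_zero] at this
  exact cfg_theta_ne c i _ this

theorem cfg_dvd {K : Type} [Field K] {A B Q : K[X]} {m θ : K} (hm : m ≠ 0)
    (h : A ^ 2 * B = C m * (Q - C θ)) : A ∣ Q - C θ ∧ A ∣ derivative Q := by
  have e : Q - C θ = A ^ 2 * (B * C m⁻¹) := by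
    rw [← mul_assoc, h, mul_right_comm, ← C_mul, mul_inv_cancel₀ hm, C_1, one_mul]
  refine ⟨e ▸ (dvd_pow_self A two_ne_zero).mul_right _, ?_⟩
  have e2 := congrArg derivative e
  rw [derivative_sub, derivative_C, sub_zero, derivative_mul, derivative_sq] at e2
  rw [e2]
  exact dvd_add (((dvd_mul_left A _).mul_right _).mul_right _)
    ((dvd_pow_self A two_ne_zero).mul_right _)

theorem cfg_prod_dvd {K : Type} [Field K] {A B : Fin 4 → K[X]} {Q : K[X]} {m : K} {θ : Fin 4 → K}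
    (hm : m ≠ 0) (hθ : Function.Injective θ) (h : ∀ i, A i ^ 2 * B i = C m * (Q - C (θ i))) :
    ∏ i, A i ∣ derivative Q := by
  refine Fintype.prod_dvd_of_coprime (fun i j hij => ?_) fun i => (cfg_dvd hm (h i)).2
  have h1 := (cfg_dvd hm (h i)).1
  have h2 := (cfg_dvd hm (h j)).1
  have hne : θ i - θ j ≠ 0 := sub_ne_zero.2 fun e => hij (hθ e)
  refine IsCoprime.mono h1 h2 ⟨-C (θ i - θ j)⁻¹, C (θ i - θ j)⁻¹, ?_⟩
  have : C (θ i - θ j)⁻¹ * (C (θ i) - C (θ j)) = (1 : K[X]) := by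
    rw [← C_sub, ← C_mul, inv_mul_cancel₀ hne, C_1]
  linear_combination this

theorem cfg_eq_zero {K : Type} [Field K] (f : K[X]) (S : Finset ℤ) (w : ℤ → K) (D : ℕ)
    (hw : Set.InjOn w S) (hf : f.natDegree ≤ D) (hS : D < S.card)
    (h : ∀ N ∈ S, f.eval (w N) = 0) : f = 0 := by
  classical
  refine eq_zero_of_natDegree_lt_card_of_eval_eq_zero' f (S.image w) (fun x hx => ?_) ?_
  · obtain ⟨N, hN, rfl⟩ := Finset.mem_image.1 hx
    exact h N hN
  · rw [Finset.card_image_of_injOn hw]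
    omega

theorem cfg_hab (c : Ctx F) {C X : ℝ} {M : ℕ} {N : ℤ} {p : ℕ} {a b : Fin 4 → ℤ}
    (h : IsPt c C X M N p a b) (i : Fin 4) :
    ((c.cj a i : 𝓞 F) : F) ^ 2 * ((c.cj b i : 𝓞 F) : F) = (M : F) * ((N : F) - (c.ϑ i : 𝓞 F)) := by
  have := congrArg (algebraMap (𝓞 F) F) (h.hab i)
  simpa using this

theorem cfg_alpha_ne (c : Ctx F) {C X : ℝ} {M : ℕ} {N : ℤ} {p : ℕ} {a b : Fin 4 → ℤ}
    (h : IsPt c C X M N p a b) (i : Fin 4) : ((c.cj a i : 𝓞 F) : F) ≠ 0 := fun h0 => by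
  have e := cfg_hab c h i
  rw [h0, zero_pow two_ne_zero, zero_mul] at e
  have h1 := cfg_theta_ne c i N
  rw [map_intCast] at h1
  exact mul_ne_zero (Nat.cast_ne_zero.2 h.hM0.ne') h1 e.symm

theorem cfg_eval_cjP (c : Ctx F) (q : Fin 4 → ℚ[X]) (a : Fin 4 → ℤ) (t : ℤ)
    (h : ∀ l, (q l).eval (t : ℚ) = a l) (i : Fin 4) :
    (c.cjP q i).eval (t : F) = ((c.cj a i : 𝓞 F) : F) := by
  rw [cfg_cj_coe, Ctx.cjP, eval_finsetSum]
  refine Finset.sum_congr rfl fun l _ => ?_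
  rw [eval_mul, eval_C, ← map_intCast (algebraMap ℚ F) t, eval_map_apply, h, map_intCast]

theorem cfg_ratY (c : Ctx F) {C X : ℝ} {M D : ℕ} {Z : Finset ℤ} {p : ℤ → ℕ}
    {a b : ℤ → Fin 4 → ℤ} {w0 w1 : ℤ → ℤ} (hP : AllPt c C X M Z p a b)
    (hw : Set.InjOn (fun N => (w1 N : F) / (w0 N : F)) Z) (hZ : D < Z.card)
    (hN : RatFn F D Z w0 w1 (fun N => (N : F))) (hA : RatDir F D Z w0 w1 a) (j l : Fin 4) :
    RatFn F (9 * D) Z w0 w1 (fun N => ((a N j ^ 2 * b N l : ℤ) : F)) := by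
  classical
  obtain ⟨num, den, hden, hn1, hn2, hN⟩ := hN
  obtain ⟨q, hq, hqd, hq'⟩ := hA
  obtain ⟨d, e, hd, he⟩ := c.exists_coord
  set θ : Fin 4 → F := fun i => ((c.ϑ i : 𝓞 F) : F) with hθ
  set A : Fin 4 → F[X] := fun i => ∑ k, q k * Polynomial.C (θ i ^ (k : ℕ)) with hA
  have hAd : ∀ i, (A i).natDegree ≤ D := fun i =>
    natDegree_sum_le_of_forall_le _ _ fun k _ => (natDegree_mul_C_le _ _).trans (hqd k)
  have key : ∀ N ∈ Z, ∀ i k, (a N k : F) * (A i).eval ((w1 N : F) / (w0 N : F)) =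
      (q k).eval ((w1 N : F) / (w0 N : F)) * ((c.cj (a N) i : 𝓞 F) : F) := by
    intro N hN i k
    rw [cfg_cj_coe, hA, eval_finsetSum, Finset.mul_sum, Finset.mul_sum]
    refine Finset.sum_congr rfl fun m _ => ?_
    rw [eval_mul, eval_C, ← mul_assoc, hq' N hN k m]
    ring
  have hA0 : ∀ i, A i ≠ 0 := fun i h0 => by
    refine hq (funext fun k => cfg_eq_zero (q k) Z _ D hw (hqd k) hZ fun N hN => ?_)
    have := key N hN i k
    rw [h0, eval_zero, mul_zero] at this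
    exact (mul_eq_zero.1 this.symm).resolve_right (cfg_alpha_ne c (hP N hN) i)
  refine ⟨∑ i, Polynomial.C ((e l i : 𝓞 F) : F) * (q j ^ 2 * (Polynomial.C (M : F) *
      (num - Polynomial.C (θ i) * den)) * ∏ k ∈ Finset.univ.erase i, A k ^ 2),
    Polynomial.C (d : F) * (den * ∏ k, A k ^ 2), ?_, ?_, ?_, fun N hNZ => ?_⟩
  · exact mul_ne_zero (C_ne_zero.2 (Int.cast_ne_zero.2 hd))
      (mul_ne_zero hden (Finset.prod_ne_zero_iff.2 fun k _ => pow_ne_zero _ (hA0 k)))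
  · refine natDegree_sum_le_of_forall_le _ _ fun i _ => (natDegree_C_mul_le _ _).trans ?_
    have h1 : (q j ^ 2).natDegree ≤ 2 * D := natDegree_pow_le.trans (Nat.mul_le_mul_left _ (hqd j))
    have h2 : (Polynomial.C (M : F) * (num - Polynomial.C (θ i) * den)).natDegree ≤ D :=
      (natDegree_C_mul_le _ _).trans ((natDegree_sub_le _ _).trans
        (max_le hn1 ((natDegree_C_mul_le _ _).trans hn2)))
    have h3 : (∏ k ∈ Finset.univ.erase i, A k ^ 2).natDegree ≤ 6 * D := by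
      refine (natDegree_prod_le _ _).trans ?_
      refine (Finset.sum_le_sum (g := fun _ => 2 * D) fun k _ =>
        natDegree_pow_le.trans (Nat.mul_le_mul_left _ (hAd k))).trans ?_
      simp [Finset.card_erase_of_mem]
      omega
    have h4 := natDegree_mul_le (p := q j ^ 2)
      (q := Polynomial.C (M : F) * (num - Polynomial.C (θ i) * den))
    refine natDegree_mul_le.trans ?_
    omega
  · refine (natDegree_C_mul_le _ _).trans (natDegree_mul_le.trans ?_)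
    have h3 : (∏ k, A k ^ 2).natDegree ≤ 8 * D := by
      refine (natDegree_prod_le _ _).trans ?_
      refine (Finset.sum_le_sum (g := fun _ => 2 * D) fun k _ =>
        natDegree_pow_le.trans (Nat.mul_le_mul_left _ (hAd k))).trans ?_
      simp
      omega
    omega
  · have h1 := he F (algebraMap (𝓞 F) F) (fun k => (b N k : F)) l
    have h2 : ∀ i, ∑ k, (b N k : F) * algebraMap (𝓞 F) F (c.ϑ i) ^ (k : ℕ) =
        ((c.cj (b N) i : 𝓞 F) : F) := fun i => (cfg_cj_coe c _ i).symm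
    simp only [h2] at h1
    have h3 := hN N hNZ
    rw [eval_finsetSum]
    simp only [eval_mul, eval_C, eval_pow, eval_sub, eval_prod]
    push_cast
    set w := (w1 N : F) / (w0 N : F)
    calc _ = den.eval w * (∏ k, (A k).eval w ^ 2) * (a N j : F) ^ 2 * ((d : F) * b N l) := by ring
      _ = _ := by
        rw [h1, Finset.mul_sum]
        refine Finset.sum_congr rfl fun i _ => ?_
        rw [← Finset.mul_prod_erase _ _ (Finset.mem_univ i), ← h3]
        have h4 := key N hNZ i j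
        have h5 := cfg_hab c (hP N hNZ) i
        have h6 : ((a N j : F) * (A i).eval w) ^ 2 * ((c.cj (b N) i : 𝓞 F) : F) =
            (q j).eval w ^ 2 * ((M : F) * ((N : F) - θ i)) := by
          rw [h4, mul_pow, mul_assoc, h5]
        have h7 : algebraMap (𝓞 F) F (e l i) = ((e l i : 𝓞 F) : F) := rfl
        rw [h7]
        linear_combination (den.eval w * (∏ k ∈ Finset.univ.erase i, (A k).eval w ^ 2) *
          ((e l i : 𝓞 F) : F)) * h6

theorem cfg_sizes (c : Ctx F) {C X : ℝ} {M : ℕ} {N : ℤ} {p : ℕ} {a b : Fin 4 → ℤ}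
    (h : IsPt c C X M N p a b) (hX : 1 ≤ X) (hC : C ≤ X) :
    |(N : ℝ)| ≤ X ^ 2 ∧ (∀ l, |(a l : ℝ)| ≤ X ^ 2) ∧
      ∀ j l, |((a j ^ 2 * b l : ℤ) : ℝ)| ≤ X ^ 2 := by
  have hCX : C * X ≤ X ^ 2 := by nlinarith
  have hp1 : (1 : ℝ) ≤ p := by exact_mod_cast h.hp.one_le
  have hs : 0 < √(p : ℝ) := Real.sqrt_pos.2 (by linarith)
  have e4 : ((p : ℝ) ^ (1 / 4 : ℝ)) ^ 2 = √(p : ℝ) := by
    rw [← Real.rpow_natCast, ← Real.rpow_mul (by linarith), Real.sqrt_eq_rpow]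
    norm_num
  have h41 : (1 : ℝ) ≤ (p : ℝ) ^ (1 / 4 : ℝ) := Real.one_le_rpow hp1 (by norm_num)
  obtain ⟨l0, hl0⟩ : ∃ l, b l ≠ 0 := by
    by_contra hcon
    push Not at hcon
    have := h.hb1
    rw [Finset.gcd_eq_zero_iff.2 fun l _ => hcon l] at this
    exact zero_ne_one this
  have hb1 : (1 : ℝ) ≤ |(b l0 : ℝ)| := by exact_mod_cast Int.one_le_abs hl0
  have hsp : √(p : ℝ) ≤ C * X := by
    have := hb1.trans (h.hb l0)
    rwa [le_div_iff₀ hs, one_mul] at this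
  refine ⟨h.hN2.trans hCX, fun l => (h.ha l).trans ?_, fun j l => ?_⟩
  · nlinarith
  · push_cast
    rw [abs_mul, abs_pow]
    have h1 : |(a j : ℝ)| ^ 2 ≤ √(p : ℝ) := e4 ▸ pow_le_pow_left₀ (abs_nonneg _) (h.ha j) 2
    calc _ ≤ √(p : ℝ) * (C * X / √(p : ℝ)) := mul_le_mul h1 (h.hb l) (abs_nonneg _) hs.le
      _ = C * X := by field_simp
      _ ≤ _ := hCX

theorem cfg_piece (c : Ctx F) {C X B : ℝ} {M D : ℕ} {T : Finset ℤ} {p : ℤ → ℕ}
    {a b : ℤ → Fin 4 → ℤ} (hP : AllPt c C X M T p a b) (hT : 3 * D < T.card) {t : ℤ → ℤ}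
    {qN : ℚ[X]} {qY : Fin 4 × Fin 4 → ℚ[X]} {qa cc : Fin 4 → ℚ[X]} (h1 : Set.InjOn t T)
    (h2 : ∀ N ∈ T, |(t N : ℝ)| ≤ B) (h3 : qN.natDegree ≤ D) (h4 : ∀ k, (qY k).natDegree ≤ D)
    (h5 : ∀ l, (qa l).natDegree ≤ D) (h6 : ∑ l, cc l * qa l ^ 2 = 1)
    (h7 : ∀ N ∈ T, qN.eval (t N : ℚ) = N ∧
      (∀ k, (qY k).eval (t N : ℚ) = (a N k.1 ^ 2 * b N k.2 : ℤ)) ∧
      ∀ l, (qa l).eval (t N : ℚ) = a N l) :
    Cfg c M D B T a b t qN qa fun l => ∑ k, cc k * qY (k, l) := by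
  have hinj : ∀ (K : Type) [Field K] [CharZero K], Set.InjOn (fun N => (t N : K)) T :=
    fun K _ _ x hx y hy hxy => h1 hx hy (Int.cast_injective (α := K) hxy)
  have hsq : ∀ j, (qa j ^ 2).natDegree ≤ 2 * D := fun j =>
    natDegree_pow_le.trans (Nat.mul_le_mul_left _ (h5 j))
  have hid : ∀ j k l, qa j ^ 2 * qY (k, l) = qa k ^ 2 * qY (j, l) := fun j k l => by
    refine sub_eq_zero.1 (cfg_eq_zero _ T _ (3 * D) (hinj ℚ) ?_ hT fun N hN => ?_)
    · refine (natDegree_sub_le _ _).trans (max_le (natDegree_mul_le.trans ?_)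
        (natDegree_mul_le.trans ?_))
      · have := hsq j
        have := h4 (k, l)
        omega
      · have := hsq k
        have := h4 (j, l)
        omega
    · simp only [eval_sub, eval_mul, eval_pow, (h7 N hN).2.1, (h7 N hN).2.2]
      push_cast
      ring
  have hid2 : ∀ j l, qa j ^ 2 * ∑ k, cc k * qY (k, l) = qY (j, l) := fun j l => by
    rw [Finset.mul_sum, ← one_mul (qY (j, l)), ← h6, Finset.sum_mul]
    refine Finset.sum_congr rfl fun k _ => ?_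
    rw [mul_left_comm, hid, mul_assoc]
  obtain ⟨j, hj⟩ : ∃ j, qa j ≠ 0 := by
    by_contra hcon
    push Not at hcon
    simp [hcon] at h6
  have hdb : ∀ l, (∑ k, cc k * qY (k, l)).natDegree ≤ D := fun l => by
    by_cases h0 : ∑ k, cc k * qY (k, l) = 0
    · simp [h0]
    · have := congrArg natDegree (hid2 j l)
      rw [natDegree_mul (pow_ne_zero _ hj) h0] at this
      have := h4 (j, l)
      omega
  have heb : ∀ N ∈ T, ∀ l, (∑ k, cc k * qY (k, l)).eval (t N : ℚ) = b N l := fun N hN l => by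
    have := congrArg (eval (t N : ℚ)) h6
    simp only [eval_finsetSum, eval_mul, eval_pow, (h7 N hN).2.2, eval_one] at this
    simp only [eval_finsetSum, eval_mul, (h7 N hN).2.1]
    push_cast
    calc _ = (∑ x, eval (t N : ℚ) (cc x) * (a N x : ℚ) ^ 2) * b N l := by
          rw [Finset.sum_mul]
          exact Finset.sum_congr rfl fun k _ => by ring
      _ = _ := by rw [this, one_mul]
  refine ⟨h1, h2, h3, h5, hdb, fun N hN => (h7 N hN).1, fun N hN => (h7 N hN).2.2, heb,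
    fun i => ?_⟩
  refine sub_eq_zero.1 (cfg_eq_zero _ T _ (3 * D) (hinj F) ?_ hT fun N hN => ?_)
  · refine (natDegree_sub_le _ _).trans (max_le (natDegree_mul_le.trans ?_)
      ((natDegree_C_mul_le _ _).trans ?_))
    · have e1 : (c.cjP qa i ^ 2).natDegree ≤ 2 * D :=
        natDegree_pow_le.trans (Nat.mul_le_mul_left _ (cfg_cjP_le c qa D h5 i))
      have := cfg_cjP_le c _ D hdb i
      omega
    · rw [natDegree_sub_C, natDegree_map]
      omega
  · rw [eval_sub, eval_mul, eval_pow, cfg_eval_cjP c qa (a N) (t N) (h7 N hN).2.2,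
      cfg_eval_cjP c _ (b N) (t N) (heb N hN), cfg_hab c (hP N hN), eval_mul, eval_C, eval_sub,
      eval_C, ← map_intCast (algebraMap ℚ F) (t N), eval_map_apply, (h7 N hN).1, map_intCast,
      sub_self]

/-- Points on a rational curve: up to `X ^ ε` points and pieces they lie on polynomial families. -/
theorem config (c : Ctx F) (C : ℝ) (D K : ℕ) (ε : ℝ) (hε : 0 < ε) : ∃ (C' X0 : ℝ) (D' K' : ℕ),
    ∀ X : ℝ, X0 ≤ X → ∀ (M : ℕ) (Z : Finset ℤ) (p : ℤ → ℕ) (a b : ℤ → Fin 4 → ℤ)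
    (w0 w1 : ℤ → ℤ), AllPt c C X M Z p a b → Param X K Z w0 w1 →
    RatFn F D Z w0 w1 (fun N => (N : F)) → RatDir F D Z w0 w1 a →
    ∃ (Z0 : Finset ℤ) (𝒯 : Finset (Finset ℤ)), (Z0.card : ℝ) ≤ C' * X ^ ε ∧
      (𝒯.card : ℝ) ≤ C' * X ^ ε ∧ (∀ N ∈ Z, N ∈ Z0 ∨ ∃ T ∈ 𝒯, N ∈ T) ∧
      ∀ T ∈ 𝒯, T ⊆ Z ∧ ∃ t qN qa qb, Cfg c M D' (X ^ K') T a b t qN qa qb := by
  classical
  obtain ⟨C0, hC0⟩ := affine_reduction (Fin 4 × Fin 4) (9 * D) (K + 2) ε hε
  refine ⟨(1 + 27 * D) * |C0| + D, max 2 C, 9 * D, K + 2 + 1,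
    fun X hX M Z p a b w0 w1 hP hw hN hA => ?_⟩
  have hX2 : 2 ≤ X := (le_max_left _ _).trans hX
  have hXC : C ≤ X := (le_max_right _ _).trans hX
  have hX1 : 1 ≤ X := by linarith
  have hε1 : 1 ≤ X ^ ε := Real.one_le_rpow hX1 hε.le
  have hD : (0 : ℝ) ≤ D := Nat.cast_nonneg _
  have hab : 0 ≤ |C0| := abs_nonneg _
  have hpos : 0 ≤ (1 + 27 * D) * |C0| := by positivity
  by_cases hZ : Z.card ≤ D
  · refine ⟨Z, ∅, ?_, ?_, fun N hN => Or.inl hN, by simp⟩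
    · have : (Z.card : ℝ) ≤ D := by exact_mod_cast hZ
      nlinarith
    · rw [Finset.card_empty, Nat.cast_zero]
      positivity
  push Not at hZ
  have hK : X ^ K ≤ X ^ (K + 2) := pow_le_pow_right₀ hX1 (by omega)
  have hK2 : X ^ 2 ≤ X ^ (K + 2) := pow_le_pow_right₀ hX1 (by omega)
  have hinj : Set.InjOn (fun N => (w1 N : F) / (w0 N : F)) Z := fun x hx y hy hxy => by
    refine hw.2 x hx y hy ?_
    have hx0 : (w0 x : F) ≠ 0 := Int.cast_ne_zero.2 (hw.1 x hx).2.1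
    have hy0 : (w0 y : F) ≠ 0 := Int.cast_ne_zero.2 (hw.1 y hy).2.1
    have := (div_eq_div_iff hx0 hy0).1 hxy
    exact_mod_cast this
  obtain ⟨Z0, 𝒯, g1, g2, g3, g4⟩ := hC0 F X hX2 Z w0 w1 (fun k N => a N k.1 ^ 2 * b N k.2) a
    ⟨fun N hN => ⟨(hw.1 N hN).1, (hw.1 N hN).2.1, (hw.1 N hN).2.2.1.trans hK,
      (hw.1 N hN).2.2.2.trans hK⟩, hw.2⟩
    (fun N hN => (cfg_sizes c (hP N hN) hX1 hXC).1.trans hK2)
    (by
      obtain ⟨num, den, h0, h1, h2, h3⟩ := hN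
      exact ⟨num, den, h0, by omega, by omega, h3⟩)
    (fun k => ⟨fun N hN => ((cfg_sizes c (hP N hN) hX1 hXC).2.2 _ _).trans hK2,
      cfg_ratY c hP hinj hZ hN hA k.1 k.2⟩)
    (fun N hN => ⟨(hP N hN).ha1, fun l => ((cfg_sizes c (hP N hN) hX1 hXC).2.1 l).trans hK2⟩)
    (by
      obtain ⟨q, h0, h1, h2⟩ := hA
      exact ⟨q, h0, fun l => (h1 l).trans (by omega), h2⟩)
  have hC : C0 * X ^ ε ≤ |C0| * X ^ ε := mul_le_mul_of_nonneg_right (le_abs_self _) (by linarith)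
  refine ⟨Z0 ∪ (𝒯.filter fun T => T.card ≤ 27 * D).biUnion id,
    𝒯.filter fun T => 27 * D < T.card, ?_, ?_, fun N hN => ?_, fun T hT => ?_⟩
  · have e1 : ((𝒯.filter fun T => T.card ≤ 27 * D).biUnion id).card ≤ 𝒯.card * (27 * D) :=
      (Finset.card_biUnion_le_card_mul _ _ _ fun T hT => (Finset.mem_filter.1 hT).2).trans
        (Nat.mul_le_mul_right _ (Finset.card_filter_le _ _))
    have e2 := (Finset.card_union_le Z0 _).trans (Nat.add_le_add_left e1 _)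
    have e3 : ((Z0 ∪ (𝒯.filter fun T => T.card ≤ 27 * D).biUnion id).card : ℝ) ≤
        Z0.card + 𝒯.card * (27 * D) := by exact_mod_cast e2
    have e4 : (𝒯.card : ℝ) * (27 * D) ≤ |C0| * X ^ ε * (27 * D) :=
      mul_le_mul_of_nonneg_right (g2.trans hC) (by positivity)
    nlinarith
  · have e3 : ((𝒯.filter fun T => 27 * D < T.card).card : ℝ) ≤ 𝒯.card := by
      exact_mod_cast Finset.card_filter_le _ _
    have e4 : 0 ≤ (27 * D * |C0| + D) * X ^ ε := by positivity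
    nlinarith
  · rcases g3 N hN with h | ⟨T, hT, hNT⟩
    · exact Or.inl (Finset.mem_union_left _ h)
    · by_cases hc : T.card ≤ 27 * D
      · exact Or.inl (Finset.mem_union_right _
          (Finset.mem_biUnion.2 ⟨T, Finset.mem_filter.2 ⟨hT, hc⟩, hNT⟩))
      · exact Or.inr ⟨T, Finset.mem_filter.2 ⟨hT, by omega⟩, hNT⟩
  · obtain ⟨hT1, hT2⟩ := Finset.mem_filter.1 hT
    obtain ⟨hsub, t, qN, qY, qa, cc, k1, k2, k3, k4, k5, k6, k7⟩ := g4 T hT1
    exact ⟨hsub, t, qN, qa, _, cfg_piece c (fun N hN => hP N (hsub hN)) (by omega) k1 k2 k3 k4 k5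
      k6 k7⟩

/-- degrees in a polynomial family: with `e` the degree of `α`, all conjugates have the same
degree, and `4 e < deg N`. -/
theorem Cfg.degrees {c : Ctx F} {M D : ℕ} {B : ℝ} {T : Finset ℤ} {a b : ℤ → Fin 4 → ℤ}
    {t : ℤ → ℤ} {qN : ℚ[X]} {qa qb : Fin 4 → ℚ[X]} (h : Cfg c M D B T a b t qN qa qb)
    (hM : 0 < M) : ∃ e e' : ℕ, (∀ l, (qa l).natDegree ≤ e) ∧ (∀ l, (qb l).natDegree ≤ e') ∧
      (∃ l, qb l ≠ 0 ∧ (qb l).natDegree = e') ∧
      (∀ i, c.cjP qa i ≠ 0 ∧ (c.cjP qa i).natDegree = e) ∧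
      (∀ i, c.cjP qb i ≠ 0 ∧ (c.cjP qb i).natDegree = e') ∧ qN.natDegree = 2 * e + e' ∧
      (e = 0 ∨ 2 * e < e') := by
  have hM' : (M : F) ≠ 0 := Nat.cast_ne_zero.2 hM.ne'
  have hne : c.cjP qa 0 ^ 2 * c.cjP qb 0 ≠ 0 := by
    rw [h.rel]
    exact mul_ne_zero (C_ne_zero.2 hM') (cfg_rhs_ne c qN 0)
  have ha : qa ≠ 0 := by
    rintro rfl
    exact hne (by simp [Ctx.cjP])
  have hb : qb ≠ 0 := by
    rintro rfl
    exact hne (by simp [Ctx.cjP])
  obtain ⟨e, h1, -, h3⟩ := cfg_cjP_deg c qa ha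
  obtain ⟨e', h1', h2', h3'⟩ := cfg_cjP_deg c qb hb
  have hdeg : qN.natDegree = 2 * e + e' := by
    have := congrArg natDegree (h.rel 0)
    rw [natDegree_mul (pow_ne_zero _ (h3 0).1) (h3' 0).1, natDegree_pow, (h3 0).2, (h3' 0).2,
      natDegree_C_mul hM', natDegree_sub_C, natDegree_map] at this
    exact this.symm
  refine ⟨e, e', h1, h1', h2', h3, h3', hdeg, ?_⟩
  rcases Nat.eq_zero_or_pos e with he | he
  · exact Or.inl he
  right
  have hd := cfg_prod_dvd hM' (cfg_theta_inj c) h.rel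
  have hdQ : (qN.map (algebraMap ℚ F)).natDegree = 2 * e + e' := by rw [natDegree_map, hdeg]
  have hne' : derivative (qN.map (algebraMap ℚ F)) ≠ 0 := fun h0 => by
    have := derivative_eq_zero.1 h0
    omega
  have h4 := natDegree_le_of_dvd hd hne'
  rw [natDegree_prod _ _ fun i _ => (h3 i).1, natDegree_derivative, hdQ] at h4
  simp only [(h3 _).2, Finset.sum_const, Finset.card_univ, Fintype.card_fin, smul_eq_mul] at h4
  omega

end Vale.Agent.P018
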