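import Vale.Agent.P018.Q.RatII

namespace Vale.Agent.P018

open NumberField Polynomial

variable {F : Type} [Field F] [NumberField F]

lemma cII_final {x n y C1 r D : ℝ} (hn : 0 ≤ n) (hr : 1 ≤ r) (h0 : 0 ≤ D) (hx : x ≤ n * y)
    (hy : y ≤ D ∨ y ≤ C1 * r) : x ≤ n * max C1 D * r := by
  have h1 : y ≤ max C1 D * r := by
    rcases hy with h | h
    · have := le_max_right C1 D
      nlinarith
    · exact h.trans (mul_le_mul_of_nonneg_right (le_max_left _ _) (by linarith))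
  calc x ≤ n * y := hx
    _ ≤ n * (max C1 D * r) := mul_le_mul_of_nonneg_left h1 hn
    _ = _ := by ring

lemma cII_reduce (x0 x1 : ℤ) (h0 : x0 ≠ 0) : ∃ w0 w1 : ℤ, IsCoprime w0 w1 ∧ w0 ≠ 0 ∧
    |(w0 : ℝ)| ≤ |(x0 : ℝ)| ∧ |(w1 : ℝ)| ≤ |(x1 : ℝ)| ∧ (w1 : F) / w0 = (x1 : F) / x0 := by
  have hg : 0 < Int.gcd x0 x1 := Int.gcd_pos_of_ne_zero_left _ h0
  obtain ⟨w0, w1, h1, h2, h3⟩ := Int.exists_gcd_one hg
  set g := Int.gcd x0 x1
  have hw : w0 ≠ 0 := by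
    rintro rfl
    exact h0 (by rw [h2, zero_mul])
  have hg1 : (1 : ℝ) ≤ g := by exact_mod_cast hg
  have key : ∀ w : ℤ, |(w : ℝ)| ≤ |((w * (g : ℤ) : ℤ) : ℝ)| := by
    intro w
    push_cast
    rw [abs_mul, abs_of_nonneg (by linarith : (0 : ℝ) ≤ g)]
    exact le_mul_of_one_le_right (abs_nonneg _) hg1
  refine ⟨w0, w1, Int.isCoprime_iff_gcd_eq_one.mpr h1, hw, h2 ▸ key w0, h3 ▸ key w1, ?_⟩
  have hgF : (g : F) ≠ 0 := by exact_mod_cast hg.ne'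
  have hwF : (w0 : F) ≠ 0 := by exact_mod_cast hw
  rw [h2, h3]
  push_cast
  field_simp

/-- the direction of `a` is a quadratic function of a small rational parameter -/
theorem cII_dir (c : Ctx F) (C : ℝ) (K : ℕ) (ε : ℝ) (hε : 0 < ε) : ∃ C' X0 : ℝ,
    ∀ X : ℝ, X0 ≤ X → ∀ (M : ℕ) (Z : Finset ℤ) (p : ℤ → ℕ) (a b : ℤ → Fin 4 → ℤ)
    (k0 k1 k2 : F), AllPt c C X M Z p a b → k0 ≠ 0 →
    (∀ N ∈ Z, k0 * ((c.cj (b N) 0 : 𝓞 F) : F) + k1 * ((c.cj (b N) 1 : 𝓞 F) : F) +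
      k2 * ((c.cj (b N) 2 : 𝓞 F) : F) = 0) →
    ∀ q : Fin 4 → F[X], (∀ l, (q l).natDegree ≤ 2) →
    (∀ N ∈ Z, ∃ x0 x1 : ℤ, x0 ≠ 0 ∧ |(x0 : ℝ)| ≤ X ^ K ∧ |(x1 : ℝ)| ≤ X ^ K ∧
      ∃ lam : F, lam ≠ 0 ∧ ∀ l, (q l).eval ((x1 : F) / x0) = lam * a N l) →
    (Z.card : ℝ) ≤ C' * X ^ ε := by
  classical
  obtain ⟨C1, X1, h1⟩ := rII_core c C 8 K ε hε
  obtain ⟨C2, X2, h2⟩ := fiberA c C
  refine ⟨max C2 0 * max C1 (max C2 0 * 2), max 1 (max X1 X2), ?_⟩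
  intro X hX M Z p a b k0 k1 k2 hpt hk hrel q hqd hq
  have hX1 : 1 ≤ X := le_trans (le_max_left _ _) hX
  have hXa : X1 ≤ X := le_trans (le_trans (le_max_left _ _) (le_max_right _ _)) hX
  have hXb : X2 ≤ X := le_trans (le_trans (le_max_right _ _) (le_max_right _ _)) hX
  have hq' : ∀ N, ∃ (w0 w1 : ℤ) (lam : F), N ∈ Z → (IsCoprime w0 w1 ∧ w0 ≠ 0 ∧
      |(w0 : ℝ)| ≤ X ^ K ∧ |(w1 : ℝ)| ≤ X ^ K) ∧ lam ≠ 0 ∧
      ∀ l, (q l).eval ((w1 : F) / w0) = lam * a N l := by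
    intro N
    by_cases hN : N ∈ Z
    · obtain ⟨x0, x1, e0, e1, e2, lam, e3, e4⟩ := hq N hN
      obtain ⟨w0, w1, f0, f1, f2, f3, f4⟩ := cII_reduce (F := F) x0 x1 e0
      exact ⟨w0, w1, lam, fun _ => ⟨⟨f0, f1, f2.trans e1, f3.trans e2⟩, e3, by rwa [f4]⟩⟩
    · exact ⟨0, 0, 0, fun h => absurd h hN⟩
  choose w0 w1 lam hw using hq'
  set s : ℤ → F := fun N => (w1 N : F) / (w0 N : F) with hs
  set A : Fin 4 → F[X] := fun i => ∑ l, q l * Polynomial.C (((c.ϑ i : 𝓞 F) : F) ^ (l : ℕ))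
    with hA
  have hAe : ∀ N ∈ Z, ∀ i, (A i).eval (s N) = lam N * ((c.cj (a N) i : 𝓞 F) : F) := by
    intro N hN i
    rw [rII_cj, Finset.mul_sum, hA]
    simp only [eval_finsetSum, eval_mul, eval_C, hs, (hw N hN).2.2, mul_assoc]
  have hAd : ∀ i, (A i).natDegree ≤ 2 := fun i =>
    natDegree_sum_le_of_forall_le _ _ fun l _ => (natDegree_mul_C_le _ _).trans (hqd l)
  obtain ⟨Z', hZ', hinj, hcard⟩ := rII_thin Z s (max C2 0) (by
    intro T hT h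
    refine le_max_of_le_left (h2 X hXb M T p a b 0 1 (by decide) (rII_sub hpt hT) ?_)
    intro N hN N' hN'
    apply rII_cross
    apply mul_left_cancel₀ (mul_ne_zero (hw N (hT hN)).2.1 (hw N' (hT hN')).2.1)
    have e0 := hAe N (hT hN) 0
    have e1 := hAe N (hT hN) 1
    have e2 := hAe N' (hT hN') 0
    have e3 := hAe N' (hT hN') 1
    rw [h N hN N' hN'] at e0 e1
    rw [e2] at e0
    rw [e3] at e1
    linear_combination (-lam N' * ((c.cj (a N') 1 : 𝓞 F) : F)) * e0 +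
      lam N' * ((c.cj (a N') 0 : 𝓞 F) : F) * e1)
  have hn : (0 : ℝ) ≤ max C2 0 := le_max_right _ _
  refine cII_final hn (Real.one_le_rpow hX1 hε.le) (by positivity) hcard ?_
  set S : F[X] := Polynomial.C k0 * (A 1 ^ 2 * A 2 ^ 2) + Polynomial.C k1 * (A 0 ^ 2 * A 2 ^ 2) +
    Polynomial.C k2 * (A 0 ^ 2 * A 1 ^ 2) with hS
  set S' : F[X] := Polynomial.C (k0 * ((c.ϑ 0 : 𝓞 F) : F)) * (A 1 ^ 2 * A 2 ^ 2) +
    Polynomial.C (k1 * ((c.ϑ 1 : 𝓞 F) : F)) * (A 0 ^ 2 * A 2 ^ 2) +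
    Polynomial.C (k2 * ((c.ϑ 2 : 𝓞 F) : F)) * (A 0 ^ 2 * A 1 ^ 2) with hS'
  have hSe : ∀ N ∈ Z, S.eval (s N) * (N : F) = S'.eval (s N) := by
    intro N hN
    have hM : (M : F) ≠ 0 := by exact_mod_cast (hpt N hN).hM0.ne'
    apply mul_left_cancel₀ hM
    simp only [hS, hS', eval_add, eval_mul, eval_pow, eval_C, hAe N hN]
    have r0 := rII_rel (hpt N hN) 0
    have r1 := rII_rel (hpt N hN) 1
    have r2 := rII_rel (hpt N hN) 2
    have r3 := hrel N hN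
    set a0 := ((c.cj (a N) 0 : 𝓞 F) : F)
    set a1 := ((c.cj (a N) 1 : 𝓞 F) : F)
    set a2 := ((c.cj (a N) 2 : 𝓞 F) : F)
    linear_combination lam N ^ 4 * ((a0 ^ 2 * a1 ^ 2 * a2 ^ 2) * r3 - k0 * (a1 ^ 2 * a2 ^ 2) * r0 -
      k1 * (a0 ^ 2 * a2 ^ 2) * r1 - k2 * (a0 ^ 2 * a1 ^ 2) * r2)
  by_cases hS0 : S = 0
  · left
    set ρ : ℤ → F := fun N => ((c.cj (a N) 1 : 𝓞 F) : F) / ((c.cj (a N) 0 : 𝓞 F) : F) with hρ
    obtain ⟨Z'', hZ'', hinj', hcard'⟩ := rII_thin Z' ρ (max C2 0) (by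
      intro T hT h
      refine le_max_of_le_left
        (h2 X hXb M T p a b 0 1 (by decide) (rII_sub hpt (hT.trans hZ')) ?_)
      intro N hN N' hN'
      apply rII_cross
      have e := h N hN N' hN'
      simp only [hρ] at e
      rw [div_eq_div_iff (rII_ne c (hpt N (hZ' (hT hN))).ha1 0)
        (rII_ne c (hpt N' (hZ' (hT hN'))).ha1 0)] at e
      linear_combination -e)
    refine hcard'.trans (mul_le_mul_of_nonneg_left ?_ hn)
    have hne : k0 * (((c.ϑ 0 : 𝓞 F) : F) - ((c.ϑ 2 : 𝓞 F) : F)) ≠ 0 :=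
      mul_ne_zero hk (rII_theta c (by decide))
    have h3 := rII_roots Z'' ρ hinj'
      (Polynomial.C (k0 * (((c.ϑ 0 : 𝓞 F) : F) - ((c.ϑ 2 : 𝓞 F) : F))) * Polynomial.X ^ 2 +
        Polynomial.C 0 * Polynomial.X +
        Polynomial.C (k1 * (((c.ϑ 1 : 𝓞 F) : F) - ((c.ϑ 2 : 𝓞 F) : F))))
      (by
        intro h
        have := natDegree_quadratic (b := 0)
          (c := k1 * (((c.ϑ 1 : 𝓞 F) : F) - ((c.ϑ 2 : 𝓞 F) : F))) hne
        rw [h] at this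
        simp at this)
      (by
        intro N hN
        have hN' := hZ' (hZ'' hN)
        have e1 := hSe N hN'
        have e2 : S.eval (s N) = 0 := by rw [hS0, eval_zero]
        rw [e2, zero_mul] at e1
        simp only [hS, hS', eval_add, eval_mul, eval_pow, eval_C, hAe N hN'] at e1 e2
        have n0 := rII_ne c (hpt N hN').ha1 0
        have n2 := rII_ne c (hpt N hN').ha1 2
        apply mul_left_cancel₀ (mul_ne_zero (pow_ne_zero 4 (hw N hN').2.1)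
          (mul_ne_zero (pow_ne_zero 2 n0) (pow_ne_zero 2 n2)))
        have e3 : ρ N * ((c.cj (a N) 0 : 𝓞 F) : F) = ((c.cj (a N) 1 : 𝓞 F) : F) := by
          simp only [hρ]
          field_simp
        simp only [eval_add, eval_mul, eval_pow, eval_C, eval_X]
        rw [← e3] at e1 e2
        linear_combination (-1 : F) * e1 - ((c.ϑ 2 : 𝓞 F) : F) * e2)
    have h4 := h3.trans natDegree_quadratic_le
    exact_mod_cast h4
  right
  have hd : ∀ (k : F) i j, (Polynomial.C k * (A i ^ 2 * A j ^ 2)).natDegree ≤ 8 := by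
    intro k i j
    refine (natDegree_C_mul_le _ _).trans (natDegree_mul_le.trans ?_)
    have := natDegree_pow_le (p := A i) (n := 2)
    have := natDegree_pow_le (p := A j) (n := 2)
    have := hAd i
    have := hAd j
    omega
  refine h1 X hXa M Z' p a b k0 k1 k2 w0 w1 (rII_sub hpt hZ') hk (fun N hN => hrel N (hZ' hN))
    ⟨fun N hN => (hw N (hZ' hN)).1, fun N hN N' hN' h => ?_⟩
    ⟨S', S, hS0, ?_, ?_, fun N hN => hSe N (hZ' hN)⟩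
    ⟨q, ?_, fun l => (hqd l).trans (by norm_num), fun N hN j k => ?_⟩
  · apply hinj hN hN'
    simp only [hs]
    rw [div_eq_div_iff (by exact_mod_cast (hw N (hZ' hN)).1.2.1)
      (by exact_mod_cast (hw N' (hZ' hN')).1.2.1)]
    exact_mod_cast h
  · exact natDegree_add_le_of_degree_le (natDegree_add_le_of_degree_le (hd _ _ _) (hd _ _ _))
      (hd _ _ _)
  · exact natDegree_add_le_of_degree_le (natDegree_add_le_of_degree_le (hd _ _ _) (hd _ _ _))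
      (hd _ _ _)
  · intro h
    apply hS0
    simp [hS, hA, h]
  · rw [(hw N (hZ' hN)).2.2, (hw N (hZ' hN)).2.2]
    ring

lemma cII_comb2 (c : Ctx F) (a a0 a1 : Fin 4 → ℤ) (d y0 y1 : F)
    (h : ∀ l, d * (a l : F) = y0 * a0 l + y1 * a1 l) (i : Fin 4) :
    d * ((c.cj a i : 𝓞 F) : F) =
      y0 * ((c.cj a0 i : 𝓞 F) : F) + y1 * ((c.cj a1 i : 𝓞 F) : F) := by
  simp only [rII_cj, Finset.mul_sum, ← Finset.sum_add_distrib]
  refine Finset.sum_congr rfl fun l _ => ?_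
  linear_combination ((c.ϑ i : 𝓞 F) : F) ^ (l : ℕ) * h l

lemma cII_union {Z : Finset ℤ} (P : ℤ → Prop) {x y : ℝ}
    (h1 : ∀ T ⊆ Z, (∀ N ∈ T, P N) → (T.card : ℝ) ≤ x)
    (h2 : ∀ T ⊆ Z, (∀ N ∈ T, ¬ P N) → (T.card : ℝ) ≤ y) : (Z.card : ℝ) ≤ x + y := by
  classical
  have := Finset.card_filter_add_card_filter_not (s := Z) P
  have e1 := h1 _ (Finset.filter_subset P Z) fun N hN => (Finset.mem_filter.mp hN).2
  have e2 := h2 _ (Finset.filter_subset (fun N => ¬ P N) Z)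
    fun N hN => (Finset.mem_filter.mp hN).2
  rw [← this]
  push_cast
  linarith

/-- all `a` lie on a line, with small integral coordinates -/
theorem cII_line (c : Ctx F) (C : ℝ) (K : ℕ) (ε : ℝ) (hε : 0 < ε) : ∃ C' X0 : ℝ,
    ∀ X : ℝ, X0 ≤ X → ∀ (M : ℕ) (Z : Finset ℤ) (p : ℤ → ℕ) (a b : ℤ → Fin 4 → ℤ)
    (k0 k1 k2 : F), AllPt c C X M Z p a b → k0 ≠ 0 →
    (∀ N ∈ Z, k0 * ((c.cj (b N) 0 : 𝓞 F) : F) + k1 * ((c.cj (b N) 1 : 𝓞 F) : F) +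
      k2 * ((c.cj (b N) 2 : 𝓞 F) : F) = 0) →
    ∀ a0 a1 : Fin 4 → ℤ,
    (∀ N ∈ Z, ∃ x0 x1 d : ℤ, d ≠ 0 ∧ |(x0 : ℝ)| ≤ X ^ K ∧ |(x1 : ℝ)| ≤ X ^ K ∧
      ∀ l, (d : F) * (a N l : F) = x0 * a0 l + x1 * a1 l) →
    (Z.card : ℝ) ≤ C' * X ^ ε := by
  classical
  obtain ⟨C1, X1, h1⟩ := cII_dir c C K ε hε
  obtain ⟨C2, X2, h2⟩ := fiberA c C
  refine ⟨max C2 0 + C1, max 1 (max X1 X2), ?_⟩
  intro X hX M Z p a b k0 k1 k2 hpt hk hrel a0 a1 hx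
  have hX1 : 1 ≤ X := le_trans (le_max_left _ _) hX
  have hXa : X1 ≤ X := le_trans (le_trans (le_max_left _ _) (le_max_right _ _)) hX
  have hXb : X2 ≤ X := le_trans (le_trans (le_max_right _ _) (le_max_right _ _)) hX
  choose! x0 x1 d hx using hx
  have hr := Real.one_le_rpow hX1 hε.le
  rw [add_mul]
  refine cII_union (fun N => x0 N = 0) (fun T hT h => ?_) (fun T hT h => ?_)
  · refine le_trans ?_ (le_mul_of_one_le_right (le_max_right _ _) hr)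
    refine le_max_of_le_left (h2 X hXb M T p a b 0 1 (by decide) (rII_sub hpt hT) ?_)
    intro N hN N' hN'
    apply rII_cross
    have d1 : (d N : F) ≠ 0 := by exact_mod_cast (hx N (hT hN)).1
    have d2 : (d N' : F) ≠ 0 := by exact_mod_cast (hx N' (hT hN')).1
    apply mul_left_cancel₀ (mul_ne_zero d1 d2)
    have e := cII_comb2 c _ _ _ _ _ _ (hx N (hT hN)).2.2.2
    have e' := cII_comb2 c _ _ _ _ _ _ (hx N' (hT hN')).2.2.2
    rw [h N hN] at e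
    rw [h N' hN'] at e'
    simp only [Int.cast_zero, zero_mul, zero_add] at e e'
    calc _ = (d N * ((c.cj (a N) 0 : 𝓞 F) : F)) * (d N' * ((c.cj (a N') 1 : 𝓞 F) : F)) := by ring
      _ = (d N * ((c.cj (a N) 1 : 𝓞 F) : F)) * (d N' * ((c.cj (a N') 0 : 𝓞 F) : F)) := by
        rw [e, e, e', e']; ring
      _ = _ := by ring
  · refine h1 X hXa M T p a b k0 k1 k2 (rII_sub hpt hT) hk (fun N hN => hrel N (hT hN))
      (fun l => Polynomial.C (a1 l : F) * Polynomial.X + Polynomial.C (a0 l : F))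
      (fun l => natDegree_linear_le.trans (by norm_num)) (fun N hN => ?_)
    obtain ⟨e0, e1, e2, e3⟩ := hx N (hT hN)
    have d1 : (d N : F) ≠ 0 := by exact_mod_cast e0
    have d2 : (x0 N : F) ≠ 0 := by exact_mod_cast h N hN
    refine ⟨x0 N, x1 N, h N hN, e1, e2, d N / x0 N, div_ne_zero d1 d2, fun l => ?_⟩
    simp only [eval_add, eval_mul, eval_C, eval_X]
    field_simp
    linear_combination -e3 l

/-- all `a` lie on a conic through three points, with small integral coordinates -/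
theorem cII_plane (c : Ctx F) (C : ℝ) (K : ℕ) (ε : ℝ) (hε : 0 < ε) : ∃ C' X0 : ℝ,
    ∀ X : ℝ, X0 ≤ X → ∀ (M : ℕ) (Z : Finset ℤ) (p : ℤ → ℕ) (a b : ℤ → Fin 4 → ℤ)
    (k0 k1 k2 : F), AllPt c C X M Z p a b → k0 ≠ 0 →
    (∀ N ∈ Z, k0 * ((c.cj (b N) 0 : 𝓞 F) : F) + k1 * ((c.cj (b N) 1 : 𝓞 F) : F) +
      k2 * ((c.cj (b N) 2 : 𝓞 F) : F) = 0) →
    ∀ (a0 a1 a2 : Fin 4 → ℤ) (m1 m2 n : F), n ≠ 0 →
    (∀ N ∈ Z, ∃ x0 x1 x2 d : ℤ, d ≠ 0 ∧ |(x0 : ℝ)| ≤ X ^ K ∧ |(x1 : ℝ)| ≤ X ^ K ∧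
      |(x2 : ℝ)| ≤ X ^ K ∧ m1 * x0 * x1 + m2 * x0 * x2 + n * x1 * x2 = 0 ∧
      ∀ l, (d : F) * (a N l : F) = x0 * a0 l + x1 * a1 l + x2 * a2 l) →
    (Z.card : ℝ) ≤ C' * X ^ ε := by
  classical
  obtain ⟨C1, X1, h1⟩ := cII_dir c C K ε hε
  obtain ⟨C2, X2, h2⟩ := cII_line c C K ε hε
  refine ⟨C2 + (C2 + C1), max X1 X2, ?_⟩
  intro X hX M Z p a b k0 k1 k2 hpt hk hrel a0 a1 a2 m1 m2 n hn hx
  have hXa : X1 ≤ X := le_trans (le_max_left _ _) hX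
  have hXb : X2 ≤ X := le_trans (le_max_right _ _) hX
  choose! x0 x1 x2 d hx using hx
  rw [add_mul, add_mul]
  refine cII_union (fun N => x1 N = 0) (fun T hT h => ?_) (fun T hT h => ?_)
  · refine h2 X hXb M T p a b k0 k1 k2 (rII_sub hpt hT) hk (fun N hN => hrel N (hT hN)) a0 a2
      (fun N hN => ?_)
    obtain ⟨e0, e1, e2, e3, e4, e5⟩ := hx N (hT hN)
    refine ⟨x0 N, x2 N, d N, e0, e1, e3, fun l => ?_⟩
    rw [e5, h N hN]
    simp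
  refine cII_union (fun N => x2 N = 0) (fun T' hT' h' => ?_) (fun T' hT' h' => ?_)
  · refine h2 X hXb M T' p a b k0 k1 k2 (rII_sub hpt (hT'.trans hT)) hk
      (fun N hN => hrel N (hT (hT' hN))) a0 a1 (fun N hN => ?_)
    obtain ⟨e0, e1, e2, e3, e4, e5⟩ := hx N (hT (hT' hN))
    refine ⟨x0 N, x1 N, d N, e0, e1, e2, fun l => ?_⟩
    rw [e5, h' N hN]
    simp
  refine h1 X hXa M T' p a b k0 k1 k2 (rII_sub hpt (hT'.trans hT)) hk
    (fun N hN => hrel N (hT (hT' hN)))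
    (fun l => Polynomial.C (m1 * a1 l) * Polynomial.X ^ 2 +
      Polynomial.C (-n * a0 l + m2 * a1 l + m1 * a2 l) * Polynomial.X + Polynomial.C (m2 * a2 l))
    (fun l => natDegree_quadratic_le) (fun N hN => ?_)
  obtain ⟨e0, e1, e2, e3, e4, e5⟩ := hx N (hT (hT' hN))
  have d0 : (d N : F) ≠ 0 := by exact_mod_cast e0
  have d1 : (x1 N : F) ≠ 0 := by exact_mod_cast h N (hT' hN)
  have d2 : (x2 N : F) ≠ 0 := by exact_mod_cast h' N hN
  have d3 : m1 * x1 N + m2 * x2 N ≠ 0 := by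
    intro h0
    apply mul_ne_zero (mul_ne_zero hn d1) d2
    linear_combination e4 - (x0 N : F) * h0
  refine ⟨x2 N, x1 N, h' N hN, e3, e2, (m1 * x1 N + m2 * x2 N) * d N / (x2 N) ^ 2,
    div_ne_zero (mul_ne_zero d3 d0) (pow_ne_zero 2 d2), fun l => ?_⟩
  simp only [eval_add, eval_mul, eval_C, eval_X, eval_pow]
  field_simp
  linear_combination -(m1 * x1 N + m2 * x2 N) * e5 l - (a0 l : F) * e4

lemma cII_size {c : Ctx F} {C X : ℝ} {M : ℕ} {N : ℤ} {p : ℕ} {a b : Fin 4 → ℤ}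
    (h : IsPt c C X M N p a b) (hX : 1 ≤ X) (hC : C ≤ X) (l : Fin 4) : |(a l : ℝ)| ≤ X ^ 2 := by
  obtain ⟨j, hj⟩ := Function.ne_iff.mp (rII_gcd h.hb1)
  have h1 : (1 : ℝ) ≤ |(b j : ℝ)| := by exact_mod_cast Int.one_le_abs hj
  have hp : (1 : ℝ) ≤ p := hX.trans h.hXp
  have h2 := h1.trans (h.hb j)
  rw [le_div_iff₀ (Real.sqrt_pos.mpr (by linarith)), one_mul] at h2
  calc |(a l : ℝ)| ≤ (p : ℝ) ^ (1 / 4 : ℝ) := h.ha l
    _ ≤ (p : ℝ) ^ (1 / 2 : ℝ) := Real.rpow_le_rpow_of_exponent_le hp (by norm_num)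
    _ = √(p : ℝ) := (Real.sqrt_eq_rpow _).symm
    _ ≤ C * X := h2
    _ ≤ X ^ 2 := by nlinarith

lemma cII_minor (c : Ctx F) (a0 a1 : Fin 4 → ℤ) (h : ∀ j k, pl a0 a1 j k = 0) :
    ((c.cj a0 0 : 𝓞 F) : F) * ((c.cj a1 1 : 𝓞 F) : F) =
      ((c.cj a0 1 : 𝓞 F) : F) * ((c.cj a1 0 : 𝓞 F) : F) := by
  simp only [rII_cj, Finset.sum_mul_sum]
  rw [Finset.sum_comm]
  refine Finset.sum_congr rfl fun j _ => Finset.sum_congr rfl fun k _ => ?_
  have : ((pl a0 a1 j k : ℤ) : F) = 0 := by rw [h]; simp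
  simp only [pl] at this
  push_cast at this
  linear_combination (-((c.ϑ 0 : 𝓞 F) : F) ^ (k : ℕ) * ((c.ϑ 1 : 𝓞 F) : F) ^ (j : ℕ)) * this

lemma cII_pl_le (a0 a1 : Fin 4 → ℤ) (X : ℝ) (hX : 2 ≤ X) (h0 : ∀ l, |(a0 l : ℝ)| ≤ X ^ 2)
    (h1 : ∀ l, |(a1 l : ℝ)| ≤ X ^ 2) (j k : Fin 4) : |((pl a0 a1 j k : ℤ) : ℝ)| ≤ X ^ 5 := by
  simp only [pl]
  push_cast
  have h2 : (0 : ℝ) ≤ X ^ 2 := by positivity
  calc _ ≤ |(a0 j : ℝ) * a1 k| + |(a0 k : ℝ) * a1 j| := abs_sub _ _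
    _ = |(a0 j : ℝ)| * |(a1 k : ℝ)| + |(a0 k : ℝ)| * |(a1 j : ℝ)| := by rw [abs_mul, abs_mul]
    _ ≤ X ^ 2 * X ^ 2 + X ^ 2 * X ^ 2 := by gcongr <;> simp [h0, h1]
    _ = 2 * X ^ 4 := by ring
    _ ≤ X * X ^ 4 := by gcongr
    _ = X ^ 5 := by ring

/-- all `a` lie in the span of two small vectors -/
theorem cII_span (c : Ctx F) (C : ℝ) (ε : ℝ) (hε : 0 < ε) : ∃ C' X0 : ℝ,
    ∀ X : ℝ, X0 ≤ X → ∀ (M : ℕ) (Z : Finset ℤ) (p : ℤ → ℕ) (a b : ℤ → Fin 4 → ℤ)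
    (k0 k1 k2 : F), AllPt c C X M Z p a b → k0 ≠ 0 →
    (∀ N ∈ Z, k0 * ((c.cj (b N) 0 : 𝓞 F) : F) + k1 * ((c.cj (b N) 1 : 𝓞 F) : F) +
      k2 * ((c.cj (b N) 2 : 𝓞 F) : F) = 0) →
    ∀ a0 a1 : Fin 4 → ℤ, (∀ l, |(a0 l : ℝ)| ≤ X ^ 2) → (∀ l, |(a1 l : ℝ)| ≤ X ^ 2) →
    (∀ N ∈ Z, ∃ y0 y1 : F, ∀ l, (a N l : F) = y0 * a0 l + y1 * a1 l) →
    (Z.card : ℝ) ≤ C' * X ^ ε := by
  classical
  obtain ⟨C1, X1, h1⟩ := cII_line c C 5 ε hε
  obtain ⟨C2, X2, h2⟩ := fiberA c C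
  refine ⟨max C1 (max C2 0), max (max 2 C) (max X1 X2), ?_⟩
  intro X hX M Z p a b k0 k1 k2 hpt hk hrel a0 a1 ha0 ha1 hy
  have hX2 : 2 ≤ X := le_trans (le_trans (le_max_left _ _) (le_max_left _ _)) hX
  have hXC : C ≤ X := le_trans (le_trans (le_max_right _ _) (le_max_left _ _)) hX
  have hXa : X1 ≤ X := le_trans (le_trans (le_max_left _ _) (le_max_right _ _)) hX
  have hXb : X2 ≤ X := le_trans (le_trans (le_max_right _ _) (le_max_right _ _)) hX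
  have hX1 : 1 ≤ X := by linarith
  have hr := Real.one_le_rpow hX1 hε.le
  by_cases hm : ∀ j k, pl a0 a1 j k = 0
  · have h3 := h2 X hXb M Z p a b 0 1 (by decide) hpt (by
      intro N hN N' hN'
      apply rII_cross
      obtain ⟨y0, y1, e⟩ := hy N hN
      obtain ⟨y0', y1', e'⟩ := hy N' hN'
      have f := cII_comb2 c (a N) a0 a1 1 y0 y1 (by simpa using e)
      have f' := cII_comb2 c (a N') a0 a1 1 y0' y1' (by simpa using e')
      simp only [one_mul] at f f'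
      rw [f, f, f', f']
      linear_combination (y0 * y1' - y1 * y0') * cII_minor c a0 a1 hm)
    have h4 : C2 ≤ max C1 (max C2 0) := le_max_of_le_right (le_max_left _ _)
    have h5 : 0 ≤ max C1 (max C2 0) := le_max_of_le_right (le_max_right _ _)
    nlinarith
  · push Not at hm
    obtain ⟨j, k, hjk⟩ := hm
    refine (h1 X hXa M Z p a b k0 k1 k2 hpt hk hrel a0 a1 (fun N hN => ?_)).trans
      (mul_le_mul_of_nonneg_right (le_max_left _ _) (by linarith))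
    have haN := cII_size (hpt N hN) hX1 hXC
    obtain ⟨y0, y1, e⟩ := hy N hN
    refine ⟨pl (a N) a1 j k, pl a0 (a N) j k, pl a0 a1 j k, hjk, cII_pl_le _ _ X hX2 haN ha1 j k,
      cII_pl_le _ _ X hX2 ha0 haN j k, fun l => ?_⟩
    simp only [pl]
    push_cast
    rw [e l, e j, e k]
    ring

omit [NumberField F] in
lemma cII_quad (q : Fin 4 → Fin 4 → F) (P0 P1 P2 x : Fin 4 → F) (d y0 y1 y2 : F)
    (h : ∀ i, d * x i = y0 * P0 i + y1 * P1 i + y2 * P2 i)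
    (h0 : ∑ i, ∑ j, q i j * P0 i * P0 j = 0) (h1 : ∑ i, ∑ j, q i j * P1 i * P1 j = 0)
    (h2 : ∑ i, ∑ j, q i j * P2 i * P2 j = 0) :
    d ^ 2 * ∑ i, ∑ j, q i j * x i * x j =
      (∑ i, ∑ j, q i j * (P0 i * P1 j + P1 i * P0 j)) * y0 * y1 +
      (∑ i, ∑ j, q i j * (P0 i * P2 j + P2 i * P0 j)) * y0 * y2 +
      (∑ i, ∑ j, q i j * (P1 i * P2 j + P2 i * P1 j)) * y1 * y2 := by
  have : d ^ 2 * ∑ i, ∑ j, q i j * x i * x j = ∑ i, ∑ j, q i j * (d * x i) * (d * x j) := by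
    simp only [Finset.mul_sum]
    exact Finset.sum_congr rfl fun i _ => Finset.sum_congr rfl fun j _ => by ring
  rw [this]
  simp only [h, Fin.sum_univ_four] at h0 h1 h2 ⊢
  linear_combination y0 ^ 2 * h0 + y1 ^ 2 * h1 + y2 ^ 2 * h2

lemma cII_det_le (B : Matrix (Fin 4) (Fin 4) ℤ) (X : ℝ) (hX : 24 ≤ X)
    (h : ∀ i j, |(B i j : ℝ)| ≤ X ^ 2) : |((B.det : ℤ) : ℝ)| ≤ X ^ 9 := by
  have h1 := Matrix.det_le (A := B.map (Int.cast : ℤ → ℝ)) (abv := AbsoluteValue.abs) (x := X ^ 2)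
    (fun i j => by simpa using h i j)
  rw [← Int.cast_det] at h1
  simp only [AbsoluteValue.abs_apply, Fintype.card_fin, nsmul_eq_mul] at h1
  calc _ ≤ _ := h1
    _ = 24 * X ^ 8 := by norm_num [Nat.factorial]; ring
    _ ≤ X * X ^ 8 := by gcongr
    _ = X ^ 9 := by ring

/-- coordinates with respect to three independent vectors of a plane -/
lemma cII_cramer (g : Fin 4 → F) (hg : g ≠ 0) (a0 a1 a2 : Fin 4 → ℤ) (X : ℝ) (hX : 24 ≤ X)
    (b0 : ∀ l, |(a0 l : ℝ)| ≤ X ^ 2) (b1 : ∀ l, |(a1 l : ℝ)| ≤ X ^ 2)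
    (b2 : ∀ l, |(a2 l : ℝ)| ≤ X ^ 2) (g0 : ∑ l, g l * a0 l = 0) (g1 : ∑ l, g l * a1 l = 0)
    (g2 : ∑ l, g l * a2 l = 0)
    (hind : ∀ y0 y1 y2 : F, (∀ l, y0 * a0 l + y1 * a1 l + y2 * a2 l = 0) →
      y0 = 0 ∧ y1 = 0 ∧ y2 = 0) :
    ∃ d : ℤ, d ≠ 0 ∧
      (∀ x : Fin 4 → F, ∑ l, g l * x l = 0 → ∃ y0 y1 y2 : F,
        ∀ l, d * x l = y0 * a0 l + y1 * a1 l + y2 * a2 l) ∧
      ∀ a : Fin 4 → ℤ, (∀ l, |(a l : ℝ)| ≤ X ^ 2) → ∑ l, g l * a l = 0 → ∃ x0 x1 x2 : ℤ,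
        |(x0 : ℝ)| ≤ X ^ 9 ∧ |(x1 : ℝ)| ≤ X ^ 9 ∧ |(x2 : ℝ)| ≤ X ^ 9 ∧
        ∀ l, (d : F) * a l = x0 * a0 l + x1 * a1 l + x2 * a2 l := by
  classical
  obtain ⟨k, hk⟩ := Function.ne_iff.mp hg
  simp only [Pi.zero_apply] at hk
  set e : Fin 4 → ℤ := fun l => if l = k then 1 else 0 with he
  set A : Matrix (Fin 4) (Fin 4) ℤ := Matrix.of fun l j => (![a0, a1, a2, e] j) l with hA
  have ge : ∑ l, g l * e l = g k := by simp [he]
  have key : ∀ (x : Fin 4 → F) (y : Fin 4 → F), ∑ l, g l * x l = 0 →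
      (∀ l, x l = y 0 * a0 l + y 1 * a1 l + y 2 * a2 l + y 3 * e l) →
      ∀ l, x l = y 0 * a0 l + y 1 * a1 l + y 2 * a2 l := by
    intro x y hx hy
    have h3 : y 3 = 0 := by
      apply (mul_eq_zero.mp (?_ : y 3 * g k = 0)).resolve_right hk
      simp only [hy, Fin.sum_univ_four] at hx g0 g1 g2 ge
      linear_combination hx - y 0 * g0 - y 1 * g1 - y 2 * g2 - y 3 * ge
    intro l
    rw [hy l, h3, zero_mul, add_zero]
  have hmv : ∀ (y : Fin 4 → F) l, (A.map (Int.cast : ℤ → F)).mulVec y l =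
      y 0 * a0 l + y 1 * a1 l + y 2 * a2 l + y 3 * e l := by
    intro y l
    simp [Matrix.mulVec, dotProduct, Fin.sum_univ_four, hA]
    ring
  have hdet : (A.map (Int.cast : ℤ → F)).det ≠ 0 := by
    intro h
    obtain ⟨y, hy0, hy⟩ := Matrix.exists_mulVec_eq_zero_iff.mpr h
    have h1 : ∀ l, (0 : F) = y 0 * a0 l + y 1 * a1 l + y 2 * a2 l + y 3 * e l := fun l => by
      rw [← hmv, hy]; rfl
    have h2 := key 0 y (by simp) h1
    obtain ⟨e0, e1, e2⟩ := hind (y 0) (y 1) (y 2) (fun l => (h2 l).symm)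
    have e3 := h1 k
    simp only [e0, e1, e2, he, zero_mul, zero_add, if_true, Int.cast_one, mul_one] at e3
    apply hy0
    funext j
    fin_cases j
    · exact e0
    · exact e1
    · exact e2
    · exact e3.symm
  rw [← Int.cast_det] at hdet
  refine ⟨A.det, by exact_mod_cast hdet, fun x hx => ?_, fun a ha hx => ?_⟩
  · have h1 := Matrix.mulVec_cramer (A.map (Int.cast : ℤ → F)) x
    rw [← Int.cast_det] at h1
    refine ⟨_, _, _, key (fun l => A.det * x l) ((A.map (Int.cast : ℤ → F)).cramer x) ?_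
      (fun l => ?_)⟩
    · simp only [Fin.sum_univ_four] at hx ⊢
      linear_combination (A.det : F) * hx
    · rw [← hmv, h1]
      rfl
  · have h1 := Matrix.mulVec_cramer A a
    have hb : ∀ j, |((A.cramer a j : ℤ) : ℝ)| ≤ X ^ 9 := by
      intro j
      rw [Matrix.cramer_apply]
      refine cII_det_le _ X hX fun l i => ?_
      rw [Matrix.updateCol_apply]
      split_ifs
      · exact ha l
      · have h1X : (1 : ℝ) ≤ X ^ 2 := by nlinarith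
        fin_cases i
        · exact b0 l
        · exact b1 l
        · exact b2 l
        · change |((e l : ℤ) : ℝ)| ≤ X ^ 2
          simp only [he]
          split_ifs
          · simpa using h1X
          · simp only [Int.cast_zero, abs_zero]
            positivity
    refine ⟨_, _, _, hb 0, hb 1, hb 2, key (fun l => A.det * a l)
      (fun j => ((A.cramer a j : ℤ) : F)) ?_ (fun l => ?_)⟩
    · simp only [Fin.sum_univ_four] at hx ⊢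
      linear_combination (A.det : F) * hx
    · have h2 : A.det * a l = A.cramer a 0 * a0 l + A.cramer a 1 * a1 l + A.cramer a 2 * a2 l +
          A.cramer a 3 * e l := by
        have h3 := congrFun h1 l
        simp only [Matrix.mulVec, dotProduct, Fin.sum_univ_four, Pi.smul_apply, smul_eq_mul] at h3
        rw [← h3]
        simp [hA]
        ring
      exact_mod_cast h2

/-- Part II: `α` lies on a plane conic (possibly degenerate) -/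
theorem conicII (c : Ctx F) (C : ℝ) (ε : ℝ) (hε : 0 < ε) : ∃ C' X0 : ℝ,
    ∀ X : ℝ, X0 ≤ X → ∀ (M : ℕ) (Z : Finset ℤ) (p : ℤ → ℕ) (a b : ℤ → Fin 4 → ℤ)
    (ω ω' : Fin 4 → ℤ) (u v : ℤ → ℤ), AllPt c C X M Z p a b →
    (∀ i j, i ≠ j → c.pc ω ω' i j ≠ 0) → (∀ N ∈ Z, b N = u N • ω + v N • ω' ∧ v N ≠ 0) →
    ∀ (l : Fin 4 → F) (q : Fin 4 → Fin 4 → F) (ξ : Fin 4 → F), l ≠ 0 → ∑ i, l i * ξ i = 0 →
    ∑ i, ∑ j, q i j * ξ i * ξ j ≠ 0 →
    (∀ N ∈ Z, ∑ i, l i * ((c.cj (a N) i : 𝓞 F) : F) = 0 ∧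
      ∑ i, ∑ j, q i j * ((c.cj (a N) i : 𝓞 F) : F) * ((c.cj (a N) j : 𝓞 F) : F) = 0) →
    (Z.card : ℝ) ≤ C' * X ^ ε := by
  classical
  obtain ⟨C1, X1, h1⟩ := cII_span c C ε hε
  obtain ⟨C2, X2, h2⟩ := cII_plane c C 9 ε hε
  refine ⟨max 0 (max C1 C2), max (max 24 C) (max X1 X2), ?_⟩
  intro X hX M Z p a b ω ω' u v hpt hpc hb l q ξ hl hlξ hqξ hZ
  have hX2 : 24 ≤ X := le_trans (le_trans (le_max_left _ _) (le_max_left _ _)) hX
  have hXC : C ≤ X := le_trans (le_trans (le_max_right _ _) (le_max_left _ _)) hX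
  have hXa : X1 ≤ X := le_trans (le_trans (le_max_left _ _) (le_max_right _ _)) hX
  have hXb : X2 ≤ X := le_trans (le_trans (le_max_right _ _) (le_max_right _ _)) hX
  have hX1 : 1 ≤ X := by linarith
  have hr : 0 ≤ X ^ ε := by positivity
  have hk := rII_k0 c ω ω' hpc
  have hrel : ∀ N ∈ Z, ((c.pc ω ω' 1 2 : 𝓞 F) : F) * ((c.cj (b N) 0 : 𝓞 F) : F) +
      ((c.pc ω ω' 2 0 : 𝓞 F) : F) * ((c.cj (b N) 1 : 𝓞 F) : F) +
      ((c.pc ω ω' 0 1 : 𝓞 F) : F) * ((c.cj (b N) 2 : 𝓞 F) : F) = 0 :=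
    fun N hN => by rw [(hb N hN).1]; exact rII_k c ω ω' _ _
  have hsz : ∀ N ∈ Z, ∀ l, |(a N l : ℝ)| ≤ X ^ 2 := fun N hN => cII_size (hpt N hN) hX1 hXC
  rcases Z.eq_empty_or_nonempty with rfl | ⟨N0, hN0⟩
  · simp only [Finset.card_empty, Nat.cast_zero]
    exact mul_nonneg (le_max_left _ _) hr
  by_cases hsp : ∃ N0 ∈ Z, ∃ N1 ∈ Z, ∀ N ∈ Z, ∃ y0 y1 : F,
      ∀ l, (a N l : F) = y0 * a N0 l + y1 * a N1 l
  · obtain ⟨N0, hN0, N1, hN1, h⟩ := hsp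
    exact (h1 X hXa M Z p a b _ _ _ hpt hk hrel _ _ (hsz N0 hN0) (hsz N1 hN1) h).trans
      (mul_le_mul_of_nonneg_right (le_max_of_le_right (le_max_left _ _)) hr)
  refine le_trans ?_ (mul_le_mul_of_nonneg_right (le_max_of_le_right (le_max_right C1 C2)) hr)
  push Not at hsp
  obtain ⟨N1, hN1, hn1⟩ := hsp N0 hN0 N0 hN0
  obtain ⟨N2, hN2, hn2⟩ := hsp N0 hN0 N1 hN1
  have hind : ∀ y0 y1 y2 : F, (∀ l, y0 * a N0 l + y1 * a N1 l + y2 * a N2 l = 0) →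
      y0 = 0 ∧ y1 = 0 ∧ y2 = 0 := by
    intro y0 y1 y2 h
    have e2 : y2 = 0 := by
      by_contra hne
      obtain ⟨l, hl⟩ := hn2 (-y0 / y2) (-y1 / y2)
      apply hl
      field_simp
      linear_combination h l
    have e1 : y1 = 0 := by
      by_contra hne
      obtain ⟨l, hl⟩ := hn1 (-y0 / y1) 0
      apply hl
      field_simp
      linear_combination h l - (a N2 l : F) * e2
    refine ⟨?_, e1, e2⟩
    obtain ⟨j, hj⟩ := Function.ne_iff.mp (rII_gcd (hpt N0 hN0).ha1)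
    have hj' : (a N0 j : F) ≠ 0 := by exact_mod_cast hj
    have := h j
    rw [e1, e2, zero_mul, zero_mul, add_zero, add_zero] at this
    exact (mul_eq_zero.mp this).resolve_right hj'
  set θ : Fin 4 → F := fun i => ((c.ϑ i : 𝓞 F) : F) with hθ
  have hθi : Function.Injective θ := fun i j h => c.hinj (RingOfIntegers.coe_injective h)
  set g : Fin 4 → F := fun k => ∑ i, l i * θ i ^ (k : ℕ) with hg
  have hg0 : g ≠ 0 := fun h =>
    hl (Matrix.eq_zero_of_forall_pow_sum_mul_pow_eq_zero hθi fun k => congrFun h k)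
  have hgx : ∀ x : Fin 4 → F, ∑ k, g k * x k = ∑ i, l i * ∑ k, x k * θ i ^ (k : ℕ) := by
    intro x
    simp only [hg, Finset.sum_mul, Finset.mul_sum]
    rw [Finset.sum_comm]
    exact Finset.sum_congr rfl fun i _ => Finset.sum_congr rfl fun k _ => by ring
  have hga : ∀ N ∈ Z, ∑ k, g k * a N k = 0 := by
    intro N hN
    rw [hgx, ← (hZ N hN).1]
    simp only [rII_cj, hθ]
  obtain ⟨d, hd, hF, hI⟩ := cII_cramer g hg0 (a N0) (a N1) (a N2) X hX2 (hsz N0 hN0) (hsz N1 hN1)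
    (hsz N2 hN2) (hga N0 hN0) (hga N1 hN1) (hga N2 hN2) hind
  have hconj : ∀ (x : Fin 4 → F) (y0 y1 y2 : F),
      (∀ l, d * x l = y0 * a N0 l + y1 * a N1 l + y2 * a N2 l) →
      ∀ i, d * (∑ k, x k * θ i ^ (k : ℕ)) = y0 * ((c.cj (a N0) i : 𝓞 F) : F) +
        y1 * ((c.cj (a N1) i : 𝓞 F) : F) + y2 * ((c.cj (a N2) i : 𝓞 F) : F) := by
    intro x y0 y1 y2 h i
    simp only [rII_cj, Finset.mul_sum, ← Finset.sum_add_distrib, hθ]
    refine Finset.sum_congr rfl fun l _ => ?_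
    linear_combination ((c.ϑ i : 𝓞 F) : F) ^ (l : ℕ) * h l
  have hquad := fun x y0 y1 y2 h => cII_quad q _ _ _ x d y0 y1 y2 h (hZ N0 hN0).2 (hZ N1 hN1).2
    (hZ N2 hN2).2
  set m1 := ∑ i, ∑ j, q i j * (((c.cj (a N0) i : 𝓞 F) : F) * ((c.cj (a N1) j : 𝓞 F) : F) +
    ((c.cj (a N1) i : 𝓞 F) : F) * ((c.cj (a N0) j : 𝓞 F) : F))
  set m2 := ∑ i, ∑ j, q i j * (((c.cj (a N0) i : 𝓞 F) : F) * ((c.cj (a N2) j : 𝓞 F) : F) +
    ((c.cj (a N2) i : 𝓞 F) : F) * ((c.cj (a N0) j : 𝓞 F) : F))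
  set n := ∑ i, ∑ j, q i j * (((c.cj (a N1) i : 𝓞 F) : F) * ((c.cj (a N2) j : 𝓞 F) : F) +
    ((c.cj (a N2) i : 𝓞 F) : F) * ((c.cj (a N1) j : 𝓞 F) : F))
  have hall : ∀ N ∈ Z, ∃ x0 x1 x2 : ℤ, |(x0 : ℝ)| ≤ X ^ 9 ∧ |(x1 : ℝ)| ≤ X ^ 9 ∧
      |(x2 : ℝ)| ≤ X ^ 9 ∧ m1 * x0 * x1 + m2 * x0 * x2 + n * x1 * x2 = 0 ∧
      ∀ l, (d : F) * (a N l : F) = x0 * a N0 l + x1 * a N1 l + x2 * a N2 l := by
    intro N hN
    obtain ⟨x0, x1, x2, e0, e1, e2, e3⟩ := hI (a N) (hsz N hN) (hga N hN)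
    refine ⟨x0, x1, x2, e0, e1, e2, ?_, e3⟩
    rw [← hquad _ _ _ _ (hconj _ _ _ _ e3)]
    have := (hZ N hN).2
    simp only [rII_cj] at this
    simp only [hθ]
    rw [this, mul_zero]
  have hne : m1 ≠ 0 ∨ m2 ≠ 0 ∨ n ≠ 0 := by
    by_contra hcon
    push Not at hcon
    obtain ⟨z1, z2, z3⟩ := hcon
    have hdet : IsUnit (Matrix.vandermonde θ).det :=
      (Matrix.det_vandermonde_ne_zero_iff.mpr hθi).isUnit
    set x : Fin 4 → F := (Matrix.vandermonde θ)⁻¹.mulVec ξ with hx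
    have hxi : ∀ i, ∑ k, x k * θ i ^ (k : ℕ) = ξ i := by
      intro i
      have h3 : (Matrix.vandermonde θ).mulVec x = ξ := by
        rw [hx, Matrix.mulVec_mulVec, Matrix.mul_nonsing_inv _ hdet, Matrix.one_mulVec]
      rw [← congrFun h3 i]
      simp [Matrix.mulVec, dotProduct, mul_comm]
    obtain ⟨y0, y1, y2, hy⟩ := hF x (by rw [hgx]; simp only [hxi]; exact hlξ)
    have h4 := hquad _ _ _ _ (hconj _ _ _ _ hy)
    simp only [hxi, z1, z2, z3, zero_mul, add_zero] at h4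
    exact mul_ne_zero (pow_ne_zero 2 (by exact_mod_cast hd)) hqξ h4
  rcases hne with h | h | h
  · refine h2 X hXb M Z p a b _ _ _ hpt hk hrel (a N2) (a N0) (a N1) m2 n m1 h (fun N hN => ?_)
    obtain ⟨x0, x1, x2, e0, e1, e2, e3, e4⟩ := hall N hN
    exact ⟨x2, x0, x1, d, hd, e2, e0, e1, by linear_combination e3,
      fun l => by linear_combination e4 l⟩
  · refine h2 X hXb M Z p a b _ _ _ hpt hk hrel (a N1) (a N0) (a N2) m1 n m2 h (fun N hN => ?_)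
    obtain ⟨x0, x1, x2, e0, e1, e2, e3, e4⟩ := hall N hN
    exact ⟨x1, x0, x2, d, hd, e1, e0, e2, by linear_combination e3,
      fun l => by linear_combination e4 l⟩
  · refine h2 X hXb M Z p a b _ _ _ hpt hk hrel (a N0) (a N1) (a N2) m1 m2 n h (fun N hN => ?_)
    obtain ⟨x0, x1, x2, e0, e1, e2, e3, e4⟩ := hall N hN
    exact ⟨x0, x1, x2, d, hd, e0, e1, e2, e3, e4⟩

end Vale.Agent.P018
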