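import Vale.Agent.P018.Q.Defs

namespace Vale.Agent.P018

open Module

theorem nested_ext {K V α : Type} [Field K] [AddCommGroup V] [Module K V] (J : ℕ)
    (𝓜 : ℕ → Finset α) (f : ℕ → α → V) (m : ℕ) (hm : m ≤ J) (N0 S0 : ℕ)
    (h0 : ∃ (lev : Fin N0 → ℕ) (x : Fin N0 → α), (∀ r, lev r ≤ J ∧ x r ∈ 𝓜 (lev r)) ∧
      LinearIndependent K (fun r => f (lev r) (x r)) ∧ ∑ r, lev r = S0)
    (N : ℕ) (hN : N0 ≤ N) (hdim : N ≤ finrank K (Submodule.span K (f m '' 𝓜 m))) :
    ∃ (lev : Fin N → ℕ) (x : Fin N → α), (∀ r, lev r ≤ J ∧ x r ∈ 𝓜 (lev r)) ∧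
      LinearIndependent K (fun r => f (lev r) (x r)) ∧ ∑ r, lev r = S0 + m * (N - N0) := by
  induction N, hN using Nat.le_induction with
  | base => simpa using h0
  | succ N hN ih =>
    obtain ⟨lev, x, h1, h2, h3⟩ := ih (by omega)
    have hy : ∃ y ∈ 𝓜 m, f m y ∉ Submodule.span K (Set.range fun r => f (lev r) (x r)) := by
      by_contra hc
      push Not at hc
      have h4 : Submodule.span K (f m '' 𝓜 m) ≤
          Submodule.span K (Set.range fun r => f (lev r) (x r)) := by
        rw [Submodule.span_le]
        rintro _ ⟨y, hy, rfl⟩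
        exact hc y hy
      have : FiniteDimensional K (Submodule.span K (Set.range fun r => f (lev r) (x r))) :=
        FiniteDimensional.span_of_finite K (Set.finite_range _)
      have h5 := Submodule.finrank_mono h4
      rw [finrank_span_eq_card h2, Fintype.card_fin] at h5
      omega
    obtain ⟨y, hy1, hy2⟩ := hy
    refine ⟨Fin.snoc lev m, Fin.snoc x y, fun r => ?_, ?_, ?_⟩
    · induction r using Fin.lastCases with
      | last => simpa using ⟨hm, hy1⟩
      | cast r => simpa using h1 r
    · have e : (fun r : Fin (N + 1) => f ((Fin.snoc lev m : Fin (N + 1) → ℕ) r)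
          ((Fin.snoc x y : Fin (N + 1) → α) r)) =
          Fin.snoc (fun r => f (lev r) (x r)) (f m y) := by
        funext r
        induction r using Fin.lastCases with
        | last => simp
        | cast r => simp
      rw [e, linearIndependent_finSnoc]
      exact ⟨h2, hy2⟩
    · rw [Fin.sum_univ_castSucc]
      simp only [Fin.snoc_castSucc, Fin.snoc_last, h3]
      rw [show N + 1 - N0 = (N - N0) + 1 by omega]
      ring

/-- choice of a basis adapted to an increasing chain of spans -/
theorem nested_basis {K V α : Type} [Field K] [AddCommGroup V] [Module K V] (J : ℕ)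
    (𝓜 : ℕ → Finset α) (f : ℕ → α → V) (n : ℕ → ℕ) (hn : Monotone n)
    (hnest : ∀ m, m < J → Submodule.span K (f m '' 𝓜 m) ≤ Submodule.span K (f (m + 1) '' 𝓜 (m + 1)))
    (hdim : ∀ m, m ≤ J → n m ≤ finrank K (Submodule.span K (f m '' 𝓜 m))) :
    ∃ (lev : Fin (n J) → ℕ) (x : Fin (n J) → α), (∀ r, lev r ≤ J ∧ x r ∈ 𝓜 (lev r)) ∧
      LinearIndependent K (fun r => f (lev r) (x r)) ∧
      ∑ r, lev r = ∑ m ∈ Finset.range J, (m + 1) * (n (m + 1) - n m) := by
  have _ := hnest
  have key : ∀ j, j ≤ J → ∃ (lev : Fin (n j) → ℕ) (x : Fin (n j) → α),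
      (∀ r, lev r ≤ J ∧ x r ∈ 𝓜 (lev r)) ∧ LinearIndependent K (fun r => f (lev r) (x r)) ∧
      ∑ r, lev r = ∑ m ∈ Finset.range j, (m + 1) * (n (m + 1) - n m) := by
    intro j
    induction j with
    | zero =>
      intro hj
      simpa using nested_ext J 𝓜 f 0 hj 0 0
        ⟨Fin.elim0, Fin.elim0, fun r => r.elim0, linearIndependent_empty_type, by simp⟩
        (n 0) (Nat.zero_le _) (hdim 0 hj)
    | succ j ih =>
      intro hj
      rw [Finset.sum_range_succ]
      exact nested_ext J 𝓜 f (j + 1) hj (n j) _ (ih (by omega)) (n (j + 1))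
        (hn (Nat.le_succ j)) (hdim _ hj)
  exact key J le_rfl

theorem nested_rank {K V V' : Type} [Field K] [AddCommGroup V] [Module K V] [AddCommGroup V']
    [Module K V'] (P : Submodule K V) [FiniteDimensional K P] (f : V →ₗ[K] V') :
    finrank K (P.map f) + finrank K (P ⊓ LinearMap.ker f : Submodule K V) = finrank K P := by
  rw [← LinearMap.finrank_range_add_finrank_ker (f.domRestrict P), LinearMap.range_domRestrict,
    LinearMap.ker_domRestrict, ← Submodule.finrank_map_subtype_eq P,
    Submodule.map_comap_subtype]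

theorem nested_num (a : ℕ → ℕ) (g b D1 : ℕ) (h1 : ∀ j, a (j + 2) + a j ≤ 2 * a (j + 1))
    (h2 : a 1 ≤ 2 * a 0) (h3 : a 0 ≤ a b) (hD : (b + 1) * a 0 ≤ D1) (hg : g * (D1 + 1) ≤ a D1) :
    a 0 + g * b ≤ a b := by
  have c1 : ∀ i j, a (j + i + 1) + a j ≤ a (j + i) + a (j + 1) := by
    intro i j
    induction i with
    | zero => simp [add_comm]
    | succ i ih =>
      have := h1 (j + i)
      rw [show j + (i + 1) = j + i + 1 by ring, show j + i + 1 + 1 = j + i + 2 by ring]
      omega
  have c2 : ∀ j, a j ≤ (j + 1) * a 0 := by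
    intro j
    induction j with
    | zero => simp
    | succ j ih =>
      have := c1 j 0
      simp only [Nat.zero_add] at this
      rw [Nat.add_mul (j + 1)]
      omega
  rcases Nat.eq_zero_or_pos g with rfl | hg0
  · simpa using h3
  have c3 : g ≤ a 0 := by
    have := le_trans hg (c2 D1)
    rw [mul_comm g] at this
    exact Nat.le_of_mul_le_mul_left this (by omega)
  have c4 : b + 1 ≤ D1 := le_trans (Nat.le_mul_of_pos_right _ (by omega)) hD
  have c5 : a b + g ≤ a (b + 1) := by
    by_contra hc
    have c6 : ∀ i, a (b + i) + i ≤ a b + i * g := by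
      intro i
      induction i with
      | zero => simp
      | succ i ih =>
        have := c1 i b
        rw [show b + (i + 1) = b + i + 1 by ring, Nat.add_mul]
        omega
    obtain ⟨i, rfl⟩ : ∃ i, D1 = b + i := ⟨D1 - b, by omega⟩
    have c7 := c6 i
    have c8 := c2 b
    nlinarith
  have c9 : ∀ j, j ≤ b → a 0 + g * j ≤ a j := by
    intro j
    induction j with
    | zero => simp
    | succ j ih =>
      intro hj
      have h4 := ih (by omega)
      obtain ⟨i, rfl⟩ : ∃ i, b = j + i := ⟨b - j, by omega⟩
      have := c1 i j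
      rw [Nat.mul_add]
      omega
  exact c9 b le_rfl

/-- the chain `W, W + t W, ...` -/
def nestedA {K L : Type} [Field K] [CommRing L] [Algebra K L] (W : Submodule K L) (t : L) :
    ℕ → Submodule K L
  | 0 => W
  | j + 1 => nestedA W t j ⊔ (nestedA W t j).map (LinearMap.mulLeft K t)

instance nestedA_fin {K L : Type} [Field K] [CommRing L] [Algebra K L] (W : Submodule K L)
    [FiniteDimensional K W] (t : L) (j : ℕ) : FiniteDimensional K (nestedA W t j) := by
  induction j with
  | zero => exact inferInstanceAs (FiniteDimensional K W)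
  | succ j ih => exact Submodule.finiteDimensional_sup _ _

theorem nestedA_mono {K L : Type} [Field K] [CommRing L] [Algebra K L] (W : Submodule K L)
    (t : L) : Monotone (nestedA W t) :=
  monotone_nat_of_le_succ fun _ => le_sup_left

theorem nestedA_mem {K L : Type} [Field K] [CommRing L] [Algebra K L] (W : Submodule K L)
    (t : L) {w : L} (hw : w ∈ W) (j : ℕ) : t ^ j * w ∈ nestedA W t j := by
  induction j with
  | zero => simpa [nestedA] using hw
  | succ j ih =>
    refine Submodule.mem_sup_right ⟨_, ih, ?_⟩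
    simp only [LinearMap.mulLeft_apply]
    ring

theorem nestedA_le {K L : Type} [Field K] [CommRing L] [Algebra K L] (W : Submodule K L)
    (t : L) (j : ℕ) : nestedA W t j ≤
      W * Submodule.span K (Set.range fun i : Fin (j + 1) => t ^ (i : ℕ)) := by
  induction j with
  | zero =>
    intro w hw
    have := Submodule.mul_mem_mul (show w ∈ W from hw)
      (Submodule.subset_span (R := K) (s := Set.range fun i : Fin (0 + 1) => t ^ (i : ℕ)) ⟨0, rfl⟩)
    simpa using this
  | succ j ih =>
    refine sup_le (le_trans ih (mul_le_mul' le_rfl (Submodule.span_mono ?_))) ?_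
    · rintro _ ⟨i, rfl⟩
      exact ⟨i.castSucc, rfl⟩
    · refine le_trans (Submodule.map_mono ih) ?_
      rw [Submodule.map_le_iff_le_comap, Submodule.mul_le]
      intro w hw z hz
      rw [Submodule.mem_comap, LinearMap.mulLeft_apply, mul_left_comm]
      refine Submodule.mul_mem_mul hw ?_
      have : Submodule.span K (Set.range fun i : Fin (j + 1) => t ^ (i : ℕ)) ≤
          (Submodule.span K (Set.range fun i : Fin (j + 1 + 1) => t ^ (i : ℕ))).comap
            (LinearMap.mulLeft K t) := by
        rw [Submodule.span_le]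
        rintro _ ⟨i, rfl⟩
        exact Submodule.subset_span ⟨i.succ, by simp [pow_succ']⟩
      exact this hz

/-- increments of the dimension under multiplication by `1, t, ..., t ^ b` -/
theorem increments {K L : Type} [Field K] [CommRing L] [Algebra K L] (W : Submodule K L)
    [FiniteDimensional K W] (t : L) (g b D1 : ℕ) (w : Fin g → L) (hw : ∀ i, w i ∈ W)
    (hD1 : (b + 1) * finrank K W ≤ D1)
    (hind : LinearIndependent K (fun x : Fin g × Fin (D1 + 1) => t ^ (x.2 : ℕ) * w x.1)) :
    finrank K W + g * b ≤
      finrank K (W * Submodule.span K (Set.range fun j : Fin (b + 1) => t ^ (j : ℕ)) :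
        Submodule K L) := by
  have hfin : FiniteDimensional K (W * Submodule.span K
      (Set.range fun j : Fin (b + 1) => t ^ (j : ℕ)) : Submodule K L) :=
    Module.Finite.iff_fg.2 ((Module.Finite.iff_fg.1 inferInstance).mul
      (Submodule.fg_span (Set.finite_range _)))
  refine le_trans (nested_num (fun j => finrank K (nestedA W t j)) g b D1 (fun j => ?_) ?_
    (Submodule.finrank_mono (nestedA_mono W t (Nat.zero_le b))) hD1 ?_)
    (Submodule.finrank_mono (nestedA_le W t b))
  · have h1 := Submodule.finrank_sup_add_finrank_inf_eq (nestedA W t (j + 1))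
      ((nestedA W t (j + 1)).map (LinearMap.mulLeft K t))
    have h2 := nested_rank (nestedA W t (j + 1)) (LinearMap.mulLeft K t)
    have h3 := nested_rank (nestedA W t j) (LinearMap.mulLeft K t)
    have hle : nestedA W t j ≤ nestedA W t (j + 1) := le_sup_left
    have h4 := Submodule.finrank_mono (inf_le_inf_right (LinearMap.ker (LinearMap.mulLeft K t)) hle)
    have h5 : (nestedA W t j).map (LinearMap.mulLeft K t) ≤
        nestedA W t (j + 1) ⊓ (nestedA W t (j + 1)).map (LinearMap.mulLeft K t) :=
      le_inf le_sup_right (Submodule.map_mono hle)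
    have h6 := Submodule.finrank_mono h5
    have h7 : finrank K (nestedA W t (j + 2)) = finrank K (nestedA W t (j + 1) ⊔
      (nestedA W t (j + 1)).map (LinearMap.mulLeft K t) : Submodule K L) := rfl
    omega
  · have h1 := Submodule.finrank_add_le_finrank_add_finrank (nestedA W t 0)
      ((nestedA W t 0).map (LinearMap.mulLeft K t))
    have h2 := nested_rank (nestedA W t 0) (LinearMap.mulLeft K t)
    have h7 : finrank K (nestedA W t 1) = finrank K (nestedA W t 0 ⊔
      (nestedA W t 0).map (LinearMap.mulLeft K t) : Submodule K L) := rfl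
    omega
  · have h1 : Submodule.span K (Set.range fun x : Fin g × Fin (D1 + 1) => t ^ (x.2 : ℕ) * w x.1) ≤
        nestedA W t D1 := by
      rw [Submodule.span_le]
      rintro _ ⟨x, rfl⟩
      exact nestedA_mono W t (Nat.le_of_lt_succ x.2.isLt) (nestedA_mem W t (hw x.1) _)
    have h2 := Submodule.finrank_mono h1
    rw [finrank_span_eq_card hind] at h2
    simpa using h2

end Vale.Agent.P018
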