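import Vale.Agent.P018.Q.Defs
import Vale.Agent.P018.Q.Nested

namespace Vale.Agent.P018

open MvPolynomial Module

/-- dimension of the image of the polynomials of total degree at most `m` -/
noncomputable def grow {K B σ : Type} [Field K] [CommRing B] [Algebra K B]
    (Ψ : MvPolynomial σ K →ₐ[K] B) (m : ℕ) : ℕ :=
  finrank K ((restrictTotalDegree σ K m).map Ψ.toLinearMap)

section aux

variable {K B T σ : Type} [Field K] [CommRing B] [Algebra K B] [CommRing T] [Algebra K T]

theorem growth_split {V V₁ V₂ : Type} [AddCommGroup V] [Module K V] [AddCommGroup V₁]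
    [Module K V₁] [AddCommGroup V₂] [Module K V₂] (P : Submodule K V) [FiniteDimensional K P]
    (f : V →ₗ[K] V₁) (g : V →ₗ[K] V₂) (h : LinearMap.ker f ≤ LinearMap.ker g) :
    finrank K (P.map f) = finrank K (P.map g) +
      finrank K ((P ⊓ LinearMap.ker g : Submodule K V).map f) := by
  have h1 := nested_rank P f
  have h2 := nested_rank P g
  have h3 := nested_rank (P ⊓ LinearMap.ker g) f
  rw [inf_assoc, inf_eq_right.2 h] at h3
  omega

theorem growth_inj {V V₁ : Type} [AddCommGroup V] [Module K V] [AddCommGroup V₁]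
    [Module K V₁] (P : Submodule K V) (f : V →ₗ[K] V₁) (h : Function.Injective f)
    (Q : Submodule K V₁) [FiniteDimensional K Q] (hQ : P.map f ≤ Q) :
    finrank K P ≤ finrank K Q := by
  rw [(Submodule.equivMapOfInjective f h P).finrank_eq]
  exact Submodule.finrank_mono hQ

theorem growth_deg_mono {m n : ℕ} (h : m ≤ n) :
    restrictTotalDegree σ K m ≤ restrictTotalDegree σ K n := fun _ hp =>
  (mem_restrictTotalDegree _ _ _).2 (le_trans ((mem_restrictTotalDegree _ _ _).1 hp) h)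

theorem growth_mul_inj {b : B} (hb : b ∈ nonZeroDivisors B) :
    Function.Injective (LinearMap.mulLeft K b) := by
  rw [injective_iff_map_eq_zero]
  intro x hx
  exact (mem_nonZeroDivisors_iff.1 hb).1 x hx

theorem growth_mono [Finite σ] (Ψ : MvPolynomial σ K →ₐ[K] B) {m n : ℕ} (h : m ≤ n) :
    grow Ψ m ≤ grow Ψ n :=
  Submodule.finrank_mono (Submodule.map_mono (growth_deg_mono h))

theorem growth_le_of_ker [Finite σ] (Ψ : MvPolynomial σ K →ₐ[K] B) (Φ : MvPolynomial σ K →ₐ[K] T)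
    (h : ∀ p, Ψ p = 0 → Φ p = 0) (m : ℕ) : grow Φ m ≤ grow Ψ m := by
  have := growth_split (restrictTotalDegree σ K m) Ψ.toLinearMap Φ.toLinearMap h
  unfold grow
  omega

theorem growth_step [Finite σ] (Ψ : MvPolynomial σ K →ₐ[K] B) (Φ : MvPolynomial σ K →ₐ[K] T)
    (h : ∀ p, Ψ p = 0 → Φ p = 0) (f : MvPolynomial σ K) (hf : Ψ f ∈ nonZeroDivisors B)
    (hf0 : Φ f = 0) {d : ℕ} (hd : f.totalDegree ≤ d) (m : ℕ) :
    grow Ψ m + grow Φ (m + d) ≤ grow Ψ (m + d) := by
  have h1 := growth_split (restrictTotalDegree σ K (m + d)) Ψ.toLinearMap Φ.toLinearMap h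
  have h2 := growth_inj ((restrictTotalDegree σ K m).map Ψ.toLinearMap) _ (growth_mul_inj hf)
    ((restrictTotalDegree σ K (m + d) ⊓ LinearMap.ker Φ.toLinearMap :
      Submodule K (MvPolynomial σ K)).map Ψ.toLinearMap) (by
      rintro _ ⟨_, ⟨p, hp, rfl⟩, rfl⟩
      refine ⟨f * p, ⟨(mem_restrictTotalDegree _ _ _).2 ?_, ?_⟩, by simp⟩
      · have := (mem_restrictTotalDegree _ _ _).1 hp
        have := totalDegree_mul f p
        omega
      · simp [hf0])
  unfold grow
  omega

theorem growth_ge [Finite σ] (Ψ : MvPolynomial σ K →ₐ[K] B) {κ : Type} [Fintype κ]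
    (p : κ → MvPolynomial σ K) {m : ℕ} (hp : ∀ k, (p k).totalDegree ≤ m)
    (h : LinearIndependent K fun k => Ψ (p k)) : Fintype.card κ ≤ grow Ψ m := by
  rw [← finrank_span_eq_card h]
  refine Submodule.finrank_mono (Submodule.span_le.2 ?_)
  rintro _ ⟨k, rfl⟩
  exact ⟨p k, (mem_restrictTotalDegree _ _ _).2 (hp k), rfl⟩

theorem growth_num (h : ℕ → ℕ) (c C s d m0 : ℕ) (h1 : ∀ m, h m ≤ c * m + C)
    (h2 : ∀ m, m0 ≤ m → h m + s ≤ h (m + d)) : s ≤ c * d := by
  have h3 : ∀ k, k * s ≤ h (m0 + k * d) := by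
    intro k
    induction k with
    | zero => simp
    | succ k ih =>
      have := h2 (m0 + k * d) (by omega)
      rw [Nat.add_mul, Nat.add_mul, Nat.one_mul, Nat.one_mul, ← add_assoc]
      omega
  by_contra hc
  have h4 := le_trans (h3 (c * m0 + C + 1)) (h1 _)
  have h5 : (c * m0 + C + 1) * (c * d + 1) ≤ (c * m0 + C + 1) * s :=
    Nat.mul_le_mul_left _ (by omega)
  nlinarith

theorem growth_sep [IsDomain B] {ι : Type} [Fintype ι] (Ψ : ι → (MvPolynomial σ K →ₐ[K] B))
    (h : ∀ i j, i ≠ j → ∃ g, Ψ j g = 0 ∧ Ψ i g ≠ 0) :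
    ∃ (f : ι → MvPolynomial σ K) (d : ℕ), (∀ i, (f i).totalDegree ≤ d) ∧ (∀ i, Ψ i (f i) ≠ 0) ∧
      ∀ i j, j ≠ i → Ψ j (f i) = 0 := by
  classical
  choose! g hg1 hg2 using h
  refine ⟨fun i => ∏ j ∈ Finset.univ.erase i, g i j,
    Finset.univ.sup fun i => (∏ j ∈ Finset.univ.erase i, g i j).totalDegree,
    fun i => Finset.le_sup (f := fun i => (∏ j ∈ Finset.univ.erase i, g i j).totalDegree)
      (Finset.mem_univ i), fun i => ?_, fun i j hj => ?_⟩
  · rw [map_prod, Finset.prod_ne_zero_iff]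
    exact fun j hj => hg2 i j (Finset.ne_of_mem_erase hj).symm
  · rw [map_prod]
    exact Finset.prod_eq_zero (Finset.mem_erase.2 ⟨hj, Finset.mem_univ j⟩) (hg1 i j hj.symm)

theorem growth_prod [IsDomain B] [Finite σ] {ι κ : Type} [Fintype ι] [Fintype κ]
    (Ψ : ι → (MvPolynomial σ K →ₐ[K] B)) (f : ι → MvPolynomial σ K) {d m : ℕ}
    (hd : ∀ i, (f i).totalDegree ≤ d) (h1 : ∀ i, Ψ i (f i) ≠ 0)
    (h2 : ∀ i j, j ≠ i → Ψ j (f i) = 0) (p : κ → MvPolynomial σ K)
    (hp : ∀ k, (p k).totalDegree ≤ m) (h : ∀ i, LinearIndependent K fun k => Ψ i (p k)) :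
    Fintype.card ι * Fintype.card κ ≤ grow (AlgHom.pi Ψ) (m + d) := by
  classical
  rw [← Fintype.card_prod]
  refine growth_ge _ (fun x : ι × κ => f x.1 * p x.2) (fun x => ?_) ?_
  · have := totalDegree_mul (f x.1) (p x.2)
    have := hd x.1
    have := hp x.2
    omega
  · rw [Fintype.linearIndependent_iff]
    rintro a ha ⟨j, k⟩
    have h3 := congrFun ha j
    rw [Finset.sum_apply, Fintype.sum_prod_type, Finset.sum_eq_single j] at h3
    · refine Fintype.linearIndependent_iff.1 (h j) (fun k => a (j, k)) ?_ k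
      refine (mul_eq_zero.1 ?_).resolve_left (h1 j)
      rw [Finset.mul_sum]
      simpa using h3
    · intro i _ hi
      simp [h2 i j hi.symm]
    · simp

theorem growth_pow (t : B) (ht : ∀ q : Polynomial K, Polynomial.aeval t q = 0 → q = 0) (m : ℕ) :
    LinearIndependent K fun k : Fin (m + 1) => t ^ (k : ℕ) := by
  have h1 : LinearIndependent K fun k : ℕ => (Polynomial.X : Polynomial K) ^ k := by
    have := (Polynomial.basisMonomials K).linearIndependent
    simpa [Polynomial.coe_basisMonomials, Polynomial.monomial_one_right_eq_X_pow] using this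
  have h2 := (h1.comp (fun k : Fin (m + 1) => (k : ℕ)) Fin.val_injective).map'
    (Polynomial.aeval t).toLinearMap (LinearMap.ker_eq_bot'.2 ht)
  simpa [Function.comp_def] using h2

theorem growth_induction (Q : ℕ → Submodule K (MvPolynomial σ K)) (h0 : 1 ∈ Q 0)
    (h1 : ∀ m p, p ∈ Q m → p ∈ Q (m + 1)) (h2 : ∀ m p i, p ∈ Q m → X i * p ∈ Q (m + 1)) (m : ℕ) :
    restrictTotalDegree σ K m ≤ Q m := by
  classical
  rw [restrictTotalDegree, restrictSupport_eq_span, Submodule.span_le]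
  rintro _ ⟨s, hs, rfl⟩
  have hs' : Finsupp.degree s ≤ m := hs
  clear hs
  induction m generalizing s with
  | zero =>
    rw [(Finsupp.degree_eq_zero_iff s).1 (Nat.le_zero.1 hs')]
    exact h0
  | succ m ih =>
    by_cases hs0 : s = 0
    · exact h1 m _ (ih s (by rw [hs0]; simp))
    · obtain ⟨i, hi⟩ := Finsupp.ne_iff.1 hs0
      have e : s = Finsupp.single i 1 + (s - Finsupp.single i 1) := by
        rw [add_tsub_cancel_of_le]
        rw [Finsupp.single_le_iff]
        exact Nat.one_le_iff_ne_zero.2 hi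
      have hdeg : Finsupp.degree (s - Finsupp.single i 1) ≤ m := by
        rw [e, map_add, Finsupp.degree_single] at hs'
        omega
      have := h2 m _ i (ih _ hdeg)
      rw [e]
      simpa [X, monomial_mul] using this

theorem growth_plane_succ (m : ℕ) : finrank K (restrictTotalDegree (Fin 2) K (m + 1)) ≤
    finrank K (restrictTotalDegree (Fin 2) K m) + (m + 2) := by
  classical
  let v : Fin (m + 2) → MvPolynomial (Fin 2) K := fun i => X 0 ^ (i : ℕ) * X 1 ^ (m + 1 - i)
  have : FiniteDimensional K (Submodule.span K (Set.range v)) :=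
    FiniteDimensional.span_of_finite K (Set.finite_range _)
  have h1 : restrictTotalDegree (Fin 2) K (m + 1) ≤
      restrictTotalDegree (Fin 2) K m ⊔ Submodule.span K (Set.range v) := by
    rw [restrictTotalDegree, restrictSupport_eq_span, Submodule.span_le]
    rintro _ ⟨s, hs, rfl⟩
    have hs1 : (s.sum fun _ e => e) = s 0 + s 1 := by
      rw [Finsupp.sum_fintype _ _ (fun _ => rfl), Fin.sum_univ_two]
    have hs2 : (s.sum fun _ e => e) ≤ m + 1 := hs
    by_cases h : s 0 + s 1 ≤ m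
    · refine Submodule.mem_sup_left ((mem_restrictTotalDegree _ _ _).2 ?_)
      rw [totalDegree_monomial _ one_ne_zero, hs1]
      exact h
    · refine Submodule.mem_sup_right (Submodule.subset_span ⟨⟨s 0, by omega⟩, ?_⟩)
      simp only [v]
      rw [show m + 1 - s 0 = s 1 by omega, monomial_eq, C_1, one_mul,
        Finsupp.prod_fintype _ _ (fun _ => pow_zero _), Fin.prod_univ_two]
  have h2 := Submodule.finrank_mono h1
  have h3 := Submodule.finrank_add_le_finrank_add_finrank (restrictTotalDegree (Fin 2) K m)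
    (Submodule.span K (Set.range v))
  have h4 : finrank K (Submodule.span K (Set.range v)) ≤ m + 2 := by
    simpa [Set.finrank] using finrank_range_le_card (R := K) v
  omega

theorem growth_plane_add (m D : ℕ) : finrank K (restrictTotalDegree (Fin 2) K (m + D)) ≤
    finrank K (restrictTotalDegree (Fin 2) K m) + D * (m + D + 1) := by
  induction D with
  | zero => simp
  | succ D ih =>
    have := growth_plane_succ (K := K) (m + D)
    rw [← add_assoc]
    nlinarith

theorem growth_plane (D : ℕ) (Ψ : MvPolynomial (Fin 2) K →ₐ[K] B) (G : MvPolynomial (Fin 2) K)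
    (hG : G ≠ 0) (hD : G.totalDegree ≤ D) (h0 : Ψ G = 0) (m : ℕ) :
    grow Ψ m ≤ D * m + D * (D + 1) := by
  have h1 := nested_rank (restrictTotalDegree (Fin 2) K (m + D)) Ψ.toLinearMap
  have h2 := growth_inj (restrictTotalDegree (Fin 2) K m) _
    (growth_mul_inj (K := K) (mem_nonZeroDivisors_of_ne_zero hG))
    (restrictTotalDegree (Fin 2) K (m + D) ⊓ LinearMap.ker Ψ.toLinearMap) (by
      rintro _ ⟨p, hp, rfl⟩
      refine ⟨(mem_restrictTotalDegree _ _ _).2 ?_, by simp [h0]⟩
      have := (mem_restrictTotalDegree _ _ _).1 hp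
      have := totalDegree_mul G p
      simp only [LinearMap.mulLeft_apply]
      omega)
  have h3 := growth_plane_add (K := K) m D
  have h4 := growth_mono Ψ (Nat.le_add_right m D)
  unfold grow at h4 ⊢
  nlinarith

theorem growth_iSup {V ι : Type} [AddCommGroup V] [Module K V] (s : Finset ι)
    (S : ι → Submodule K V) [∀ i, FiniteDimensional K (S i)] :
    finrank K (s.sup S : Submodule K V) ≤ ∑ i ∈ s, finrank K (S i) := by
  classical
  induction s using Finset.induction_on with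
  | empty => simp
  | insert a s ha ih =>
    rw [Finset.sup_insert, Finset.sum_insert ha]
    exact le_trans (Submodule.finrank_add_le_finrank_add_finrank _ _) (by omega)

/-- the span of the products of square roots and plane polynomials -/
noncomputable def growthU (Ψ : MvPolynomial (Fin 2) K →ₐ[K] B) (x : Fin 3 → B) (n : ℕ) :
    Submodule K B :=
  Finset.univ.sup fun T : Finset (Fin 3) =>
    ((restrictTotalDegree (Fin 2) K n).map Ψ.toLinearMap).map (LinearMap.mulLeft K (∏ k ∈ T, x k))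

theorem growthU_mem (Ψ : MvPolynomial (Fin 2) K →ₐ[K] B) (x : Fin 3 → B) {n : ℕ}
    (T : Finset (Fin 3)) {q : MvPolynomial (Fin 2) K} (hq : q.totalDegree ≤ n) :
    (∏ k ∈ T, x k) * Ψ q ∈ growthU Ψ x n :=
  Finset.le_sup (f := fun T : Finset (Fin 3) =>
    ((restrictTotalDegree (Fin 2) K n).map Ψ.toLinearMap).map
      (LinearMap.mulLeft K (∏ k ∈ T, x k))) (Finset.mem_univ T)
    ⟨_, ⟨q, (mem_restrictTotalDegree _ _ _).2 hq, rfl⟩, rfl⟩

theorem growthU_mul (Ψ : MvPolynomial (Fin 2) K →ₐ[K] B) (x : Fin 3 → B) {n n' : ℕ} (a : B)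
    (h : ∀ (T : Finset (Fin 3)) (q : MvPolynomial (Fin 2) K), q.totalDegree ≤ n →
      a * ((∏ k ∈ T, x k) * Ψ q) ∈ growthU Ψ x n') {b : B} (hb : b ∈ growthU Ψ x n) :
    a * b ∈ growthU Ψ x n' := by
  have : growthU Ψ x n ≤ (growthU Ψ x n').comap (LinearMap.mulLeft K a) := by
    refine Finset.sup_le fun T _ => ?_
    rintro _ ⟨_, ⟨q, hq, rfl⟩, rfl⟩
    exact h T q ((mem_restrictTotalDegree _ _ _).1 hq)
  exact this hb

theorem growthU_rank (Ψ : MvPolynomial (Fin 2) K →ₐ[K] B) (x : Fin 3 → B) (n : ℕ) :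
    finrank K (growthU Ψ x n) ≤ 8 * grow Ψ n := by
  refine le_trans (growth_iSup _ _) (le_trans (Finset.sum_le_sum fun T _ =>
    Submodule.finrank_map_le _ _) ?_)
  simp [grow]

instance growthU_fin (Ψ : MvPolynomial (Fin 2) K →ₐ[K] B) (x : Fin 3 → B) (n : ℕ) :
    FiniteDimensional K (growthU Ψ x n) :=
  Submodule.finiteDimensional_finset_sup _ _

theorem growthU_step (Ψ : MvPolynomial (Fin 2) K →ₐ[K] B) (x : Fin 3 → B)
    (d e : Fin 3 → MvPolynomial (Fin 2) K) {D : ℕ}
    (hde : ∀ k, (d k).totalDegree ≤ D ∧ (e k).totalDegree ≤ D)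
    (hx : ∀ k, x k ^ 2 * Ψ (d k) = Ψ (e k)) (a : B)
    (ha : (∃ r : MvPolynomial (Fin 2) K, r.totalDegree ≤ 1 ∧ a = Ψ r) ∨ ∃ k, a = x k) {n : ℕ}
    {b : B} (hb : b ∈ growthU Ψ x n) :
    (Ψ (∏ k, d k) * a) * b ∈ growthU Ψ x (n + (1 + 3 * D)) := by
  have hd : ∀ S : Finset (Fin 3), (∏ k ∈ S, d k).totalDegree ≤ S.card * D := fun S =>
    le_trans (totalDegree_finsetProd _ _)
      (by simpa using Finset.sum_le_card_nsmul S _ D fun k _ => (hde k).1)
  have hd3 : (∏ k, d k).totalDegree ≤ 3 * D := by simpa using hd Finset.univ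
  refine growthU_mul Ψ x _ (fun T q hq => ?_) hb
  rcases ha with ⟨r, hr, rfl⟩ | ⟨k, rfl⟩
  · have h1 := totalDegree_mul ((∏ k, d k) * r) q
    have h2 := totalDegree_mul (∏ k, d k) r
    have := growthU_mem Ψ x T (q := (∏ k, d k) * r * q) (n := n + (1 + 3 * D)) (by omega)
    rw [map_mul, map_mul, mul_left_comm] at this
    exact this
  · by_cases hk : k ∈ T
    · have h1 := totalDegree_mul (e k * ∏ j ∈ Finset.univ.erase k, d j) q
      have h2 := totalDegree_mul (e k) (∏ j ∈ Finset.univ.erase k, d j)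
      have h3 := hd (Finset.univ.erase k)
      have h4 := (hde k).2
      rw [Finset.card_erase_of_mem (Finset.mem_univ k), Finset.card_univ, Fintype.card_fin] at h3
      have := growthU_mem Ψ x (T.erase k) (q := e k * (∏ j ∈ Finset.univ.erase k, d j) * q)
        (n := n + (1 + 3 * D)) (by omega)
      rw [map_mul, map_mul, ← hx] at this
      rw [← Finset.mul_prod_erase _ _ hk, ← Finset.mul_prod_erase _ _ (Finset.mem_univ k), map_mul]
      refine (congrArg (· ∈ growthU Ψ x (n + (1 + 3 * D))) ?_).mp this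
      ring
    · have h1 := totalDegree_mul (∏ k, d k) q
      have := growthU_mem Ψ x (insert k T) (q := (∏ k, d k) * q) (n := n + (1 + 3 * D)) (by omega)
      rw [map_mul, Finset.prod_insert hk] at this
      refine (congrArg (· ∈ growthU Ψ x (n + (1 + 3 * D))) ?_).mp this
      ring

end aux

/-- Bezout type bound from linear growth -/
theorem bezout_grow {K B σ : Type} [Field K] [CommRing B] [IsDomain B] [Algebra K B] [Fintype σ]
    (Ψ : MvPolynomial σ K →ₐ[K] B) (c C : ℕ) (hg : ∀ m, grow Ψ m ≤ c * m + C)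
    (S : Finset (σ → K)) (hS : ∀ y ∈ S, ∀ f, Ψ f = 0 → eval y f = 0)
    (f : MvPolynomial σ K) (hf : Ψ f ≠ 0) (hfS : ∀ y ∈ S, eval y f = 0) :
    S.card ≤ c * f.totalDegree := by
  let Φ : S → (MvPolynomial σ K →ₐ[K] K) := fun y => aeval y.1
  have hΦ : ∀ y p, Φ y p = eval y.1 p := fun y p => by simp [Φ, aeval_eq_eval]
  obtain ⟨g, d, h1, h2, h3⟩ := growth_sep Φ (fun y y' hy => by
    obtain ⟨s, hs⟩ := Function.ne_iff.1 (fun h => hy (Subtype.ext h) : y.1 ≠ y'.1)
    exact ⟨X s - MvPolynomial.C (y'.1 s), by simp [Φ], by simpa [Φ, sub_eq_zero] using hs⟩)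
  have h4 := growth_prod Φ g h1 h2 h3 (fun _ : Unit => 1) (m := 0) (fun _ => by simp)
    (fun y => by simp)
  simp only [Fintype.card_coe, Fintype.card_unique, mul_one, zero_add] at h4
  refine growth_num (grow Ψ) c C _ _ d hg fun m hm => ?_
  have h5 := growth_step Ψ (AlgHom.pi Φ) (fun p hp => funext fun y => by
    simpa [hΦ] using hS y.1 y.2 p hp) f (mem_nonZeroDivisors_of_ne_zero hf)
    (funext fun y => by simpa [hΦ] using hfS y.1 y.2) le_rfl m
  have h6 := growth_mono (AlgHom.pi Φ) (show d ≤ m + f.totalDegree by omega)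
  omega

/-- the number of branches with distinct kernels is bounded by the growth rate -/
theorem kernels_count {K B σ ι : Type} [Field K] [CommRing B] [IsDomain B] [Algebra K B]
    [Fintype σ] [Fintype ι] (Ψ : ι → (MvPolynomial σ K →ₐ[K] B)) (c C : ℕ) (s : σ)
    (hs : ∀ i (q : Polynomial K), Polynomial.aeval (Ψ i (X s)) q = 0 → q = 0)
    (hne : ∀ i j, i ≠ j → RingHom.ker (Ψ i) ≠ RingHom.ker (Ψ j))
    (hg : ∀ m, grow (Pi.algHom K (fun _ : ι => B) Ψ) m ≤ c * m + C) : Fintype.card ι ≤ c := by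
  have hg' : ∀ m, grow (AlgHom.pi Ψ) m ≤ c * m + C := hg
  have hind : ∀ i m, LinearIndependent K fun k : Fin (m + 1) => Ψ i (X s ^ (k : ℕ)) :=
    fun i m => by simpa using growth_pow _ (hs i) m
  have hdeg : ∀ m (k : Fin (m + 1)), (X s ^ (k : ℕ) : MvPolynomial σ K).totalDegree ≤ m :=
    fun m k => by rw [totalDegree_X_pow]; exact Nat.le_of_lt_succ k.isLt
  have hlow : ∀ i m, m + 1 ≤ grow (Ψ i) m := fun i m => by
    simpa using growth_ge (Ψ i) _ (hdeg m) (hind i m)
  have hup : ∀ i m, grow (Ψ i) m ≤ c * m + C := fun i m =>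
    le_trans (growth_le_of_ker (AlgHom.pi Ψ) (Ψ i) (fun p hp => congrFun hp i) m) (hg' m)
  obtain ⟨f, d, h1, h2, h3⟩ := growth_sep Ψ (fun i j hij => by
    by_contra hc
    push Not at hc
    have h4 : ∃ g, Ψ i g = 0 ∧ Ψ j g ≠ 0 := by
      by_contra hc'
      push Not at hc'
      exact hne i j hij (Ideal.ext fun p => ⟨hc' p, hc p⟩)
    obtain ⟨g, hg1, hg2⟩ := h4
    have := growth_num (grow (Ψ j)) c C (c * g.totalDegree + 1) g.totalDegree
      (c * g.totalDegree) (hup j) fun m hm => by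
        have h5 := growth_step (Ψ j) (Ψ i) hc g (mem_nonZeroDivisors_of_ne_zero hg2) hg1 le_rfl m
        have h6 := hlow i (m + g.totalDegree)
        omega
    omega)
  have h4 := growth_prod Ψ f h1 h2 h3 _ (hdeg (c * d + C)) (fun i => hind i _)
  have h5 := le_trans h4 (hg' _)
  rw [Fintype.card_fin] at h5
  by_contra hc
  have h6 : (c + 1) * (c * d + C + 1) ≤ Fintype.card ι * (c * d + C + 1) :=
    Nat.mul_le_mul_right _ (by omega)
  nlinarith

/-- linear growth on a plane curve -/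
theorem grow_plane (D : ℕ) : ∃ c C : ℕ, ∀ (K B : Type) [Field K] [CommRing B] [Algebra K B]
    (Ψ : MvPolynomial (Fin 2) K →ₐ[K] B) (G : MvPolynomial (Fin 2) K), G ≠ 0 →
    G.totalDegree ≤ D → Ψ G = 0 → ∀ m, grow Ψ m ≤ c * m + C :=
  ⟨D, D * (D + 1), fun _ _ _ _ _ Ψ G h1 h2 h3 m => growth_plane D Ψ G h1 h2 h3 m⟩

/-- linear growth on an iterated double cover of a plane curve -/
theorem grow_cover (D : ℕ) : ∃ c C : ℕ, ∀ (K B : Type) [Field K] [CommRing B] [Algebra K B]
    (Ψ : MvPolynomial (Fin 5) K →ₐ[K] B) (G : MvPolynomial (Fin 2) K)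
    (d e : Fin 3 → MvPolynomial (Fin 2) K), G ≠ 0 → G.totalDegree ≤ D →
    (∀ k, (d k).totalDegree ≤ D ∧ (e k).totalDegree ≤ D) →
    Ψ (rename (Fin.castLE (by norm_num)) G) = 0 →
    (∀ k, Ψ (rename (Fin.castLE (by norm_num)) (d k)) ∈ nonZeroDivisors B) →
    (∀ k : Fin 3, Ψ (X (Fin.addNat k 2)) ^ 2 * Ψ (rename (Fin.castLE (by norm_num)) (d k)) =
      Ψ (rename (Fin.castLE (by norm_num)) (e k))) →
    ∀ m, grow Ψ m ≤ c * m + C := by
  refine ⟨8 * (D * (1 + 3 * D)), 8 * (D * (D + 1)), ?_⟩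
  intro K B _ _ _ Ψ G d e hG hD hde h0 hnz hx m
  let Ψ0 : MvPolynomial (Fin 2) K →ₐ[K] B := Ψ.comp (rename (Fin.castLE (by norm_num)))
  let x : Fin 3 → B := fun k => Ψ (X (Fin.addNat k 2))
  have hδ : Ψ0 (∏ k, d k) ∈ nonZeroDivisors B := by
    rw [map_prod]
    exact prod_mem fun k _ => hnz k
  have hstep := fun a ha n b hb => growthU_step Ψ0 x d e hde hx a ha (n := n) (b := b) hb
  have h1 := growth_induction (K := K) (σ := Fin 5) (fun m => (growthU Ψ0 x (m * (1 + 3 * D))).comap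
    ((LinearMap.mulLeft K (Ψ0 (∏ k, d k) ^ m)).comp Ψ.toLinearMap)) (by
      simpa using growthU_mem Ψ0 x ∅ (q := 1) (n := 0) (by simp)) (fun m p hp => by
      have := hstep 1 (Or.inl ⟨1, by simp, by simp⟩) _ _ hp
      rw [Submodule.mem_comap, Nat.add_mul, Nat.one_mul]
      refine (congrArg (· ∈ growthU Ψ0 x _) ?_).mp this
      simp only [LinearMap.comp_apply, LinearMap.mulLeft_apply, AlgHom.toLinearMap_apply]
      ring) (fun m p i hp => by
      have hi : (∃ r : MvPolynomial (Fin 2) K, r.totalDegree ≤ 1 ∧ Ψ (X i) = Ψ0 r) ∨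
          ∃ k, Ψ (X i) = x k := by
        by_cases h2 : i.val < 2
        · exact Or.inl ⟨X ⟨i.val, h2⟩, by simp, by simp [Ψ0]⟩
        · refine Or.inr ⟨⟨i.val - 2, by omega⟩, ?_⟩
          simp only [x]
          congr 2
          ext
          simp only [Fin.addNat_mk]
          omega
      have := hstep _ hi _ _ hp
      rw [Submodule.mem_comap, Nat.add_mul, Nat.one_mul]
      refine (congrArg (· ∈ growthU Ψ0 x _) ?_).mp this
      simp only [LinearMap.comp_apply, LinearMap.mulLeft_apply, AlgHom.toLinearMap_apply, map_mul]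
      ring) m
  have h2 := growth_inj ((restrictTotalDegree (Fin 5) K m).map Ψ.toLinearMap) _
    (growth_mul_inj (K := K) (pow_mem hδ m)) (growthU Ψ0 x (m * (1 + 3 * D))) (by
      rintro _ ⟨_, ⟨p, hp, rfl⟩, rfl⟩
      exact h1 hp)
  have h3 := growthU_rank Ψ0 x (m * (1 + 3 * D))
  have h4 := growth_plane D Ψ0 G hG hD h0 (m * (1 + 3 * D))
  unfold grow at h3 h4 ⊢
  nlinarith

end Vale.Agent.P018
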