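import Vale.Agent.P018.Q.Defs

namespace Vale.Agent.P018

open NumberField

theorem loc_primes (n0 : ℕ) (hn0 : n0 ≠ 0) : ∃ p : ℕ → ℕ, Function.Injective p ∧
    ∀ i, (p i).Prime ∧ n0 ≤ p i ∧ p i ≤ 2 ^ (i + 1) * n0 := by
  have h : ∀ i : ℕ, ∃ p : ℕ, p.Prime ∧ 2 ^ i * n0 < p ∧ p ≤ 2 * (2 ^ i * n0) := fun i =>
    Nat.exists_prime_lt_and_le_two_mul _ (by positivity)
  choose p hp1 hp2 hp3 using h
  have hmono : StrictMono p := strictMono_nat_of_lt_succ fun i => by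
    have h1 := hp3 i
    have h2 := hp2 (i + 1)
    rw [pow_succ] at h2
    nlinarith
  refine ⟨p, hmono.injective, fun i => ⟨hp1 i, ?_, ?_⟩⟩
  · have h1 : 1 ≤ 2 ^ i := Nat.one_le_two_pow
    have h2 := hp2 i
    nlinarith
  · have h1 := hp3 i
    rw [pow_succ]
    nlinarith

open Polynomial in
theorem loc_hom (P : ℤ[X]) (u v : ℤ) : ∃ A : ℤ, ∀ (L : Type) [Field L], (v : L) ≠ 0 →
    (A : L) = (v : L) ^ P.natDegree * eval₂ (Int.castRingHom L) ((u : L) / (v : L)) P := by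
  refine ⟨eval u (scaleRoots P v), fun L _ hv => ?_⟩
  have h1 := scaleRoots_eval₂_mul (p := P) (Int.castRingHom L) ((u : L) / (v : L)) v
  simp only [eq_intCast] at h1
  rw [mul_div_cancel₀ _ hv] at h1
  rw [← h1]
  have h2 := eval₂_hom (p := scaleRoots P v) (Int.castRingHom L) u
  simp only [eq_intCast] at h2
  exact h2.symm

open Polynomial in
theorem loc_evalEval (G : ℤ[X][X]) (L : Type) [Field L] (x : L) (N : ℤ) :
    (G.map (mapRingHom (Int.castRingHom L))).evalEval x (N : L) =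
      eval₂ (Int.castRingHom L) x (G.eval (C N)) := by
  have h1 := map_mapRingHom_eval_map (Int.castRingHom L) G (C N)
  rw [map_C] at h1
  rw [evalEval, eval₂_eq_eval_map, ← h1]
  rfl

theorem loc_int_dvd {F : Type} [Field F] [NumberField F] (m a : ℤ) (ha : a ≠ 0)
    (h : IsIntegral ℤ ((m : F) * (a : F)⁻¹)) : a ∣ m := by
  have h1 : (m : F) * (a : F)⁻¹ = algebraMap ℚ F ((m : ℚ) * (a : ℚ)⁻¹) := by simp
  rw [h1, isIntegral_algebraMap_iff (algebraMap ℚ F).injective] at h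
  obtain ⟨y, hy⟩ := IsIntegrallyClosed.isIntegral_iff.mp h
  refine ⟨y, ?_⟩
  have ha' : (a : ℚ) ≠ 0 := by exact_mod_cast ha
  have h2 : (m : ℚ) = a * y := by
    simp only [algebraMap_int_eq, eq_intCast] at hy
    rw [hy]; field_simp
  exact_mod_cast h2

theorem loc_integral {F : Type} [Field F] (m q : ℤ) (hmq : IsCoprime m q) (w : F)
    (h1 : IsIntegral ℤ ((m : F) * w)) (h2 : IsIntegral ℤ ((q : F) * w)) : IsIntegral ℤ w := by
  obtain ⟨a, b, hab⟩ := hmq
  have h3 : w = a • ((m : F) * w) + b • ((q : F) * w) := by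
    have : (a : F) * m + b * q = 1 := by exact_mod_cast congrArg (fun t : ℤ => (t : F)) hab
    simp only [zsmul_eq_mul]
    linear_combination (-w) * this
  rw [h3]
  exact (h1.zsmul a).add (h2.zsmul b)

/-- sign patterns for square roots modulo an odd prime -/
theorem loc_signs (F : Type) [Field F] [NumberField F] (π : ℕ) (hπ : π.Prime) (h2 : π ≠ 2)
    (Z : Finset ℤ) (z : ℤ → 𝓞 F) (hz : ∀ N ∈ Z, IsCoprime (z N) (π : 𝓞 F))
    (hsq : ∀ N ∈ Z, ∀ N' ∈ Z, (π : 𝓞 F) ∣ z N ^ 2 - z N' ^ 2) :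
    ∃ 𝒯 : Finset (Finset ℤ), 𝒯.card ≤ 2 ^ Module.finrank ℚ F ∧ (∀ N ∈ Z, ∃ T ∈ 𝒯, N ∈ T) ∧
      ∀ T ∈ 𝒯, T ⊆ Z ∧ ∀ N ∈ T, ∀ N' ∈ T, (π : 𝓞 F) ∣ z N - z N' := by
  classical
  rcases Z.eq_empty_or_nonempty with rfl | ⟨N0, hN0⟩
  · exact ⟨∅, by simp, by simp, by simp⟩
  have hp : Prime (π : ℤ) := Nat.prime_iff_prime_int.mp hπ
  set p : Ideal ℤ := Ideal.span {(π : ℤ)} with hpdef
  have hp0 : p ≠ ⊥ := by
    rw [hpdef, Ne, Ideal.span_singleton_eq_bot]; exact hp.ne_zero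
  have hpm : p.IsMaximal := by
    rw [hpdef]; exact PrincipalIdealRing.isMaximal_of_irreducible hp.irreducible
  set Ps := IsDedekindDomain.primesOverFinset p (𝓞 F) with hPs
  have hcard : Ps.card ≤ Module.finrank ℚ F :=
    Ideal.card_primesOverFinset_le_finrank (𝓞 F) ℚ F hp0
  have hmem : ∀ Q : Ideal (𝓞 F), Q.IsPrime → (π : 𝓞 F) ∈ Q → Q ∈ Ps := by
    intro Q hQ hπQ
    rw [hPs, IsDedekindDomain.mem_primesOverFinset_iff hp0]
    refine ⟨hQ, ⟨?_⟩⟩
    refine hpm.eq_of_le (Ideal.comap_ne_top _ hQ.ne_top) ?_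
    rw [hpdef, Ideal.span_singleton_le_iff_mem, Ideal.mem_comap]
    simpa using hπQ
  have h2c : IsCoprime (2 : 𝓞 F) (π : 𝓞 F) := by
    have h3 : IsCoprime (2 : ℤ) (π : ℤ) := by
      have := Nat.isCoprime_iff_coprime.mpr ((Nat.coprime_primes Nat.prime_two hπ).mpr h2.symm)
      simpa using this
    simpa using h3.map (Int.castRingHom (𝓞 F))
  let pat : ℤ → Finset (Ideal (𝓞 F)) := fun N => Ps.filter fun Q => z N - z N0 ∈ Q
  refine ⟨Ps.powerset.image fun S => Z.filter fun N => pat N = S, ?_, fun N hN => ?_, ?_⟩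
  · refine Finset.card_image_le.trans ?_
    rw [Finset.card_powerset]
    exact Nat.pow_le_pow_right (by norm_num) hcard
  · refine ⟨_, Finset.mem_image_of_mem _ (Finset.mem_powerset.mpr
      (Finset.filter_subset (fun Q => z N - z N0 ∈ Q) Ps)), ?_⟩
    exact Finset.mem_filter.mpr ⟨hN, rfl⟩
  · intro T hT
    obtain ⟨S, -, rfl⟩ := Finset.mem_image.mp hT
    refine ⟨Finset.filter_subset _ _, fun N hN N' hN' => ?_⟩
    obtain ⟨hN, h1⟩ := Finset.mem_filter.mp hN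
    obtain ⟨hN', h1'⟩ := Finset.mem_filter.mp hN'
    have hpat : pat N = pat N' := h1.trans h1'.symm
    have hd : ∀ Q : Ideal (𝓞 F), Q.IsPrime → (π : 𝓞 F) ∈ Q → z N - z N' ∈ Q := by
      intro Q hQ hπQ
      have hQ' := hmem Q hQ hπQ
      have hiff : z N - z N0 ∈ Q ↔ z N' - z N0 ∈ Q := by
        have h3 : Q ∈ pat N ↔ Q ∈ pat N' := by rw [hpat]
        simpa [pat, hQ'] using h3
      have hor : ∀ M ∈ Z, z M - z N0 ∈ Q ∨ z M + z N0 ∈ Q := by
        intro M hM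
        apply hQ.mem_or_mem
        obtain ⟨c, hc⟩ := hsq M hM N0 hN0
        have : (z M - z N0) * (z M + z N0) = π * c := by rw [← hc]; ring
        rw [this]
        exact Q.mul_mem_right _ hπQ
      by_cases h3 : z N - z N0 ∈ Q
      · have := Q.sub_mem h3 (hiff.mp h3)
        rwa [sub_sub_sub_cancel_right] at this
      · have h4 := (hor N hN).resolve_left h3
        have h5 := (hor N' hN').resolve_left fun h => h3 (hiff.mpr h)
        have := Q.sub_mem h4 h5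
        rwa [add_sub_add_right_eq_sub] at this
    have hco : IsCoprime (π : 𝓞 F) (z N + z N') := by
      rw [← Ideal.isCoprime_span_singleton_iff, Ideal.isCoprime_iff_sup_eq]
      by_contra hne
      obtain ⟨Q, hQ, hle⟩ := Ideal.exists_le_maximal _ hne
      have hπQ : (π : 𝓞 F) ∈ Q := hle (Ideal.mem_sup_left (Ideal.mem_span_singleton_self _))
      have hsQ : z N + z N' ∈ Q := hle (Ideal.mem_sup_right (Ideal.mem_span_singleton_self _))
      have h3 := Q.add_mem hsQ (hd Q hQ.isPrime hπQ)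
      have h4 : z N + z N' + (z N - z N') = 2 * z N := by ring
      rw [h4] at h3
      obtain ⟨a, b, hab⟩ := h2c.mul_left (hz N hN)
      apply hQ.ne_top
      rw [Ideal.eq_top_iff_one, ← hab]
      exact Q.add_mem (Q.mul_mem_left _ h3) (Q.mul_mem_left _ hπQ)
    refine hco.dvd_of_dvd_mul_right ?_
    have : (z N - z N') * (z N + z N') = z N ^ 2 - z N' ^ 2 := by ring
    rw [this]
    exact hsq N hN N' hN'

theorem loc_det_le {D : ℕ} (A : Matrix (Fin D) (Fin D) ℂ) (h : Fin D → ℝ)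
    (hA : ∀ r s, ‖A r s‖ ≤ h s) : ‖A.det‖ ≤ (D.factorial : ℝ) * ∏ s, h s := by
  rw [Matrix.det_apply']
  refine (norm_sum_le _ _).trans ?_
  have h1 : (D.factorial : ℝ) * ∏ s, h s = ∑ _σ : Equiv.Perm (Fin D), ∏ s, h s := by
    rw [Finset.sum_const, Finset.card_univ, Fintype.card_perm, Fintype.card_fin, nsmul_eq_mul]
  rw [h1]
  refine Finset.sum_le_sum fun s _ => ?_
  have hs : ‖((Equiv.Perm.sign s : ℤ) : ℂ)‖ = 1 := by
    rcases Int.units_eq_one_or (Equiv.Perm.sign s) with h | h <;> simp [h]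
  rw [norm_mul, hs, one_mul, norm_prod]
  exact Finset.prod_le_prod (fun j _ => norm_nonneg _) fun j _ => hA _ _

open MvPolynomial in
theorem loc_lift {F σ : Type} [Field F] (S : Subring F) (P : MvPolynomial σ F)
    (h : ∀ e, P.coeff e ∈ S) : ∃ P' : MvPolynomial σ S, map S.subtype P' = P := by
  apply (mem_range_map_iff_coeffs_subset (f := S.subtype)).mpr
  intro c hc
  obtain ⟨e, -, he⟩ := mem_coeffs_iff.mp hc
  exact ⟨⟨c, he ▸ h e⟩, rfl⟩

end Vale.Agent.P018
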