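import Vale.Agent.P018.Q.Branch
import Vale.Agent.P018.Q.Growth
import Vale.Agent.P018.Relation
import Vale.Agent.P018.Q.LocAux

namespace Vale.Agent.P018

open NumberField Filter

variable {F : Type} [Field F] [NumberField F]

/-- elements of `F` whose denominator is prime to `π` -/
def locR (F : Type) [Field F] [NumberField F] (π : ℕ) : Subring F where
  carrier := {x | ∃ m : ℤ, IsCoprime m (π : ℤ) ∧ IsIntegral ℤ ((m : F) * x)}
  mul_mem' := by
    rintro x x' ⟨m, h1, h2⟩ ⟨m', h1', h2'⟩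
    refine ⟨m * m', h1.mul_left h1', ?_⟩
    have : ((m * m' : ℤ) : F) * (x * x') = (m : F) * x * ((m' : F) * x') := by push_cast; ring
    rw [this]; exact h2.mul h2'
  one_mem' := ⟨1, isCoprime_one_left, by simpa using isIntegral_one⟩
  add_mem' := by
    rintro x x' ⟨m, h1, h2⟩ ⟨m', h1', h2'⟩
    refine ⟨m * m', h1.mul_left h1', ?_⟩
    have : ((m * m' : ℤ) : F) * (x + x') = m' • ((m : F) * x) + m • ((m' : F) * x') := by
      simp only [zsmul_eq_mul]; push_cast; ring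
    rw [this]; exact (h2.zsmul m').add (h2'.zsmul m)
  zero_mem' := ⟨1, isCoprime_one_left, by simpa using isIntegral_zero⟩
  neg_mem' := by
    rintro x ⟨m, h1, h2⟩
    refine ⟨m, h1, ?_⟩
    rw [mul_neg]; exact h2.neg

theorem coe_mem_locR (π : ℕ) (z : 𝓞 F) : (z : F) ∈ locR F π :=
  ⟨1, isCoprime_one_left, by simpa using z.isIntegral_coe⟩

theorem inv_mem_locR (π : ℕ) (hπ : π.Prime) (z : 𝓞 F) (n : ℤ) (hz : z ∣ (n : 𝓞 F))
    (hn : ¬ (π : ℤ) ∣ n) : (z : F)⁻¹ ∈ locR F π := by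
  obtain ⟨w, hw⟩ := hz
  have hn0 : n ≠ 0 := fun h => hn (h ▸ dvd_zero _)
  have hF : (n : F) = (z : F) * (w : F) := by
    have := congrArg (fun t : 𝓞 F => (t : F)) hw
    simpa using this
  have hz0 : (z : F) ≠ 0 := by
    intro h
    rw [h, zero_mul] at hF
    exact hn0 (by exact_mod_cast hF)
  refine ⟨n, ((Nat.prime_iff_prime_int.mp hπ).irreducible.coprime_iff_not_dvd.mpr hn).symm, ?_⟩
  have : (n : F) * (z : F)⁻¹ = (w : F) := by rw [hF]; field_simp
  rw [this]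
  exact w.isIntegral_coe

theorem loc_int_mem (π : ℕ) (n : ℤ) : (n : F) ∈ locR F π := intCast_mem _ n

theorem loc_int_inv (π : ℕ) (hπ : π.Prime) (n : ℤ) (hn : ¬ (π : ℤ) ∣ n) :
    (n : F)⁻¹ ∈ locR F π := by
  have := inv_mem_locR π hπ (n : 𝓞 F) n dvd_rfl hn
  simpa using this

theorem loc_not_inv (π : ℕ) (hπ : π.Prime) : (π : F)⁻¹ ∉ locR F π := by
  rintro ⟨m, h1, h2⟩
  have hp : Prime (π : ℤ) := Nat.prime_iff_prime_int.mp hπ
  have h3 : (π : ℤ) ∣ m := loc_int_dvd (F := F) m π hp.ne_zero (by simpa using h2)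
  exact hp.irreducible.coprime_iff_not_dvd.mp h1.symm h3

theorem loc_dvd (π : ℕ) (hπ : π.Prime) (a : 𝓞 F) (E : ℕ)
    (h : (a : F) / (π : F) ^ E ∈ locR F π) : (π : 𝓞 F) ^ E ∣ a := by
  obtain ⟨m, h1, h2⟩ := h
  have hπ0 : (π : F) ^ E ≠ 0 := pow_ne_zero _ (by exact_mod_cast hπ.ne_zero)
  have h3 : IsIntegral ℤ ((a : F) / (π : F) ^ E) := by
    refine loc_integral m ((π : ℤ) ^ E) h1.pow_right _ h2 ?_
    have : (((π : ℤ) ^ E : ℤ) : F) * ((a : F) / (π : F) ^ E) = a := by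
      push_cast; field_simp
    rw [this]
    exact a.isIntegral_coe
  obtain ⟨w, hw⟩ : ∃ w : 𝓞 F, (w : F) = (a : F) / (π : F) ^ E := ⟨⟨_, h3⟩, rfl⟩
  refine ⟨w, ?_⟩
  apply RingOfIntegers.ext
  have : ((((π : 𝓞 F) ^ E * w : 𝓞 F)) : F) = (π : F) ^ E * (w : F) := by simp
  rw [this, hw]
  field_simp

/-- a few primes of size `X ^ w`, one of which avoids any given integer of polynomial size -/
theorem primes_avoid (K : ℕ) (w : ℝ) (hw : 0 < w) : ∃ k : ℕ, ∀ X : ℝ, 2 ≤ X →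
    ∃ Pr : Finset ℕ, Pr.card ≤ k ∧ (∀ π ∈ Pr, π.Prime ∧ X ^ w ≤ π ∧ (π : ℝ) ≤ k * X ^ w) ∧
      ∀ n : ℤ, n ≠ 0 → |(n : ℝ)| ≤ X ^ K → ∃ π ∈ Pr, ¬ (π : ℤ) ∣ n := by
  obtain ⟨J, hJ⟩ : ∃ J : ℕ, (K : ℝ) < w * J := by
    obtain ⟨J, hJ⟩ := exists_nat_gt ((K : ℝ) / w)
    exact ⟨J, by rwa [div_lt_iff₀' hw] at hJ⟩
  refine ⟨2 ^ (J + 1) + J, fun X hX => ?_⟩
  have hX1 : (1 : ℝ) < X := by linarith
  have hXw : 1 ≤ X ^ w := Real.one_le_rpow hX1.le hw.le
  set n0 : ℕ := ⌈X ^ w⌉₊ with hn0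
  have hn1 : X ^ w ≤ n0 := Nat.le_ceil _
  have hn2 : (n0 : ℝ) ≤ 2 * X ^ w := by
    have := Nat.ceil_lt_add_one (show 0 ≤ X ^ w by linarith)
    linarith
  have hn3 : n0 ≠ 0 := by
    intro h
    rw [h] at hn1
    simp only [Nat.cast_zero] at hn1
    linarith
  obtain ⟨p, hinj, hp⟩ := loc_primes n0 hn3
  refine ⟨(Finset.range J).image p, ?_, ?_, ?_⟩
  · refine Finset.card_image_le.trans ?_
    simp
  · intro π hπ
    obtain ⟨i, hi, rfl⟩ := Finset.mem_image.mp hπ
    obtain ⟨h1, h2, h3⟩ := hp i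
    refine ⟨h1, hn1.trans (by exact_mod_cast h2), ?_⟩
    have h4 : 2 ^ (i + 1) ≤ 2 ^ J :=
      Nat.pow_le_pow_right (by norm_num) (Finset.mem_range.mp hi)
    have h5 : p i ≤ 2 ^ J * n0 := h3.trans (Nat.mul_le_mul_right _ h4)
    have h6 : (p i : ℝ) ≤ 2 ^ J * n0 := by exact_mod_cast h5
    have h7 : (2 : ℝ) ^ J * n0 ≤ 2 ^ J * (2 * X ^ w) := by gcongr
    have h8 : (0 : ℝ) ≤ J * X ^ w := by positivity
    push_cast
    rw [pow_succ]
    linarith
  · intro n hn hnX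
    by_contra hall
    push Not at hall
    have h1 : ∏ π ∈ (Finset.range J).image p, π ∣ n.natAbs := by
      refine Finset.prod_primes_dvd _ (fun π hπ => ?_) fun π hπ => ?_
      · obtain ⟨i, -, rfl⟩ := Finset.mem_image.mp hπ
        exact (hp i).1.prime
      · exact Int.natCast_dvd.mp (hall π hπ)
    have h2 := Nat.le_of_dvd (Int.natAbs_pos.mpr hn) h1
    rw [Finset.prod_image fun a _ b _ h => hinj h] at h2
    have h3 : n0 ^ J ≤ ∏ i ∈ Finset.range J, p i := by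
      have := Finset.pow_card_le_prod (Finset.range J) p n0 fun i _ => (hp i).2.1
      simpa using this
    have h4 : ((n0 : ℝ)) ^ J ≤ |(n : ℝ)| := by
      have h5 : n0 ^ J ≤ n.natAbs := h3.trans h2
      have h6 : ((n0 ^ J : ℕ) : ℝ) ≤ (n.natAbs : ℝ) := by exact_mod_cast h5
      rw [Nat.cast_natAbs] at h6
      push_cast at h6
      exact h6
    have h5 : (X ^ w) ^ J ≤ (n0 : ℝ) ^ J := by gcongr
    have h6 : X ^ K < (X ^ w) ^ J := by
      rw [← Real.rpow_natCast X K, ← Real.rpow_mul_natCast (by linarith)]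
      exact Real.rpow_lt_rpow_of_exponent_lt hX1 hJ
    linarith

open Polynomial in
/-- residue classes of smooth points of a plane curve -/
theorem plane_classes (D : ℕ) (π : ℕ) (hπ : π.Prime) (G : ℤ[X][X]) (hG : G.natDegree ≤ D)
    (Z : Finset ℤ) (u v : ℤ → ℤ) (hv : ∀ N ∈ Z, ¬ (π : ℤ) ∣ v N)
    (h0 : ∀ N ∈ Z, (G.map (mapRingHom (Int.castRingHom F))).evalEval
      ((u N : F) / (v N : F)) (N : F) = 0)
    (h1 : ∀ N ∈ Z, ((derivative G).map (mapRingHom (Int.castRingHom F))).evalEval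
        ((u N : F) / (v N : F)) (N : F) ≠ 0 ∧
      (((derivative G).map (mapRingHom (Int.castRingHom F))).evalEval
        ((u N : F) / (v N : F)) (N : F))⁻¹ ∈ locR F π) :
    ∃ 𝒯 : Finset (Finset ℤ), 𝒯.card ≤ D * π ∧ (∀ N ∈ Z, ∃ T ∈ 𝒯, N ∈ T) ∧ ∀ T ∈ 𝒯, T ⊆ Z ∧
      ∀ N ∈ T, ∀ N' ∈ T, ((u N : F) / (v N : F) - (u N' : F) / (v N' : F)) / π ∈ locR F π ∧
        ((N : F) - (N' : F)) / π ∈ locR F π := by
  classical
  have : Fact π.Prime := ⟨hπ⟩
  have hπ0 : (π : F) ≠ 0 := by exact_mod_cast hπ.ne_zero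
  have hvF : ∀ N ∈ Z, (v N : F) ≠ 0 := fun N hN h =>
    hv N hN (by rw [show v N = 0 by exact_mod_cast h]; exact dvd_zero _)
  have hvZ : ∀ N ∈ Z, (v N : ZMod π) ≠ 0 := fun N hN h =>
    hv N hN ((ZMod.intCast_zmod_eq_zero_iff_dvd _ _).mp h)
  let cl : ℤ → ZMod π × ZMod π := fun N => ((u N : ZMod π) / (v N : ZMod π), (N : ZMod π))
  let Gs : ZMod π → (ZMod π)[X] := fun s =>
    (G.map (mapRingHom (Int.castRingHom (ZMod π)))).map (evalRingHom s)
  have hroot : ∀ N ∈ Z, (Gs (cl N).1).eval (cl N).2 = 0 := by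
    intro N hN
    obtain ⟨A, hA⟩ := loc_hom (G.eval (C N)) (u N) (v N)
    have h2 := hA F (hvF N hN)
    rw [← loc_evalEval, h0 N hN, mul_zero] at h2
    have h3 : A = 0 := by exact_mod_cast h2
    have h4 := hA (ZMod π) (hvZ N hN)
    rw [h3, Int.cast_zero, ← loc_evalEval] at h4
    simp only [Gs, cl]
    rw [map_evalRingHom_eval]
    exact (mul_eq_zero.mp h4.symm).resolve_left (pow_ne_zero _ (hvZ N hN))
  have hne : ∀ N ∈ Z, Gs (cl N).1 ≠ 0 := by
    intro N hN hz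
    obtain ⟨A, hA⟩ := loc_hom ((derivative G).eval (C N)) (u N) (v N)
    have h2 := hA F (hvF N hN)
    rw [← loc_evalEval] at h2
    have h4 := hA (ZMod π) (hvZ N hN)
    rw [← loc_evalEval, ← map_evalRingHom_eval, ← derivative_map, ← derivative_map] at h4
    have h5 : derivative (Gs (cl N).1) = 0 := by rw [hz, derivative_zero]
    simp only [Gs, cl] at h5
    rw [h5, eval_zero, mul_zero, ZMod.intCast_zmod_eq_zero_iff_dvd] at h4
    obtain ⟨a, ha⟩ := h4
    obtain ⟨h6, h7⟩ := h1 N hN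
    apply loc_not_inv (F := F) π hπ
    have h8 := (locR F π).mul_mem ((locR F π).mul_mem (loc_int_mem π a) h7)
      ((locR F π).pow_mem (loc_int_inv π hπ (v N) (hv N hN)) ((derivative G).eval (C N)).natDegree)
    rw [ha] at h2
    push_cast at h2
    have hv0 := hvF N hN
    generalize ((derivative G).map (mapRingHom (Int.castRingHom F))).evalEval
        ((u N : F) / (v N : F)) (N : F) = e at h2 h6 h8
    have h9 : (a : F) * e⁻¹ * (v N : F)⁻¹ ^ ((derivative G).eval (C N)).natDegree = (π : F)⁻¹ := by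
      have h10 : (a : F) = (π : F)⁻¹ * ((v N : F) ^ ((derivative G).eval (C N)).natDegree * e) := by
        rw [← h2]; field_simp
      rw [h10, inv_pow]
      field_simp
    rwa [h9] at h8
  refine ⟨(Z.image cl).image fun c => Z.filter fun N => cl N = c, ?_, fun N hN => ?_, ?_⟩
  · refine Finset.card_image_le.trans ?_
    have h2 := Finset.card_le_mul_card_image_of_maps_to (f := Prod.fst) (s := Z.image cl)
      (t := Finset.univ) (fun _ _ => Finset.mem_univ _) D (fun s _ => ?_)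
    · rwa [Finset.card_univ, ZMod.card] at h2
    · rcases ((Z.image cl).filter fun a => a.1 = s).eq_empty_or_nonempty with h | ⟨c, hc⟩
      · rw [h]; simp
      · obtain ⟨hc1, hc2⟩ := Finset.mem_filter.mp hc
        obtain ⟨N0, hN0, rfl⟩ := Finset.mem_image.mp hc1
        have hG0 : Gs s ≠ 0 := hc2 ▸ hne N0 hN0
        have hdeg : (Gs s).natDegree ≤ D :=
          natDegree_map_le.trans (natDegree_map_le.trans hG)
        calc _ ≤ (Gs s).roots.toFinset.card := by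
              refine Finset.card_le_card_of_injOn Prod.snd (fun c hc => ?_) fun c hc c' hc' h => ?_
              · obtain ⟨hc1, hc2⟩ := Finset.mem_filter.mp hc
                obtain ⟨N, hN, rfl⟩ := Finset.mem_image.mp hc1
                rw [Finset.mem_coe, Multiset.mem_toFinset, mem_roots hG0, IsRoot, ← hc2]
                exact hroot N hN
              · exact Prod.ext ((Finset.mem_filter.mp hc).2.trans
                  (Finset.mem_filter.mp hc').2.symm) h
          _ ≤ (Gs s).roots.card := Multiset.toFinset_card_le _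
          _ ≤ D := (card_roots' _).trans hdeg
  · exact ⟨_, Finset.mem_image_of_mem _ (Finset.mem_image_of_mem _ hN),
      Finset.mem_filter.mpr ⟨hN, rfl⟩⟩
  · intro T hT
    obtain ⟨c, -, rfl⟩ := Finset.mem_image.mp hT
    refine ⟨Finset.filter_subset _ _, fun N hN N' hN' => ?_⟩
    obtain ⟨hN, h2⟩ := Finset.mem_filter.mp hN
    obtain ⟨hN', h2'⟩ := Finset.mem_filter.mp hN'
    have h3 : cl N = cl N' := h2.trans h2'.symm
    have h4 : (u N : ZMod π) / (v N : ZMod π) = (u N' : ZMod π) / (v N' : ZMod π) :=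
      congrArg Prod.fst h3
    have h5 : (N : ZMod π) = (N' : ZMod π) := congrArg Prod.snd h3
    constructor
    · rw [div_eq_div_iff (hvZ N hN) (hvZ N' hN')] at h4
      have h6 : ((u N * v N' - u N' * v N : ℤ) : ZMod π) = 0 := by
        push_cast; rw [h4, sub_self]
      obtain ⟨a, ha⟩ := (ZMod.intCast_zmod_eq_zero_iff_dvd _ _).mp h6
      have h7 : (u N : F) * v N' - u N' * v N = π * a := by exact_mod_cast ha
      have h8 : ((u N : F) / (v N : F) - (u N' : F) / (v N' : F)) / π =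
          a * (v N : F)⁻¹ * (v N' : F)⁻¹ := by
        have := hvF N hN
        have := hvF N' hN'
        field_simp
        linear_combination h7
      rw [h8]
      exact (locR F π).mul_mem ((locR F π).mul_mem (loc_int_mem π a)
        (loc_int_inv π hπ _ (hv N hN))) (loc_int_inv π hπ _ (hv N' hN'))
    · have h6 : ((N - N' : ℤ) : ZMod π) = 0 := by
        push_cast; rw [h5, sub_self]
      obtain ⟨a, ha⟩ := (ZMod.intCast_zmod_eq_zero_iff_dvd _ _).mp h6
      have h7 : (N : F) - N' = π * a := by exact_mod_cast ha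
      rw [h7, mul_div_cancel_left₀ _ hπ0]
      exact loc_int_mem π a

/-- square roots of congruent units fall into boundedly many residue classes -/
theorem sign_classes (F : Type) [Field F] [NumberField F] : ∃ k : ℕ, ∀ π : ℕ, π.Prime → π ≠ 2 →
    ∀ (Z : Finset ℤ) (x : ℤ → F),
    (∀ N ∈ Z, x N ≠ 0 ∧ x N ∈ locR F π ∧ (x N)⁻¹ ∈ locR F π) →
    (∀ N ∈ Z, ∀ N' ∈ Z, (x N ^ 2 - x N' ^ 2) / π ∈ locR F π) →
    ∃ 𝒯 : Finset (Finset ℤ), 𝒯.card ≤ k ∧ (∀ N ∈ Z, ∃ T ∈ 𝒯, N ∈ T) ∧ ∀ T ∈ 𝒯, T ⊆ Z ∧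
      ∀ N ∈ T, ∀ N' ∈ T, (x N - x N') / π ∈ locR F π := by
  refine ⟨2 ^ Module.finrank ℚ F, fun π hπ h2 Z x hx hsq => ?_⟩
  have hp : Prime (π : ℤ) := Nat.prime_iff_prime_int.mp hπ
  have hπ0 : (π : F) ≠ 0 := by exact_mod_cast hπ.ne_zero
  have hm : ∀ N, ∃ m : ℤ, IsCoprime m (π : ℤ) ∧ (N ∈ Z → IsIntegral ℤ ((m : F) * x N)) := by
    intro N
    by_cases hN : N ∈ Z
    · obtain ⟨m, h3, h4⟩ := (hx N hN).2.1
      exact ⟨m, h3, fun _ => h4⟩
    · exact ⟨1, isCoprime_one_left, fun h => absurd h hN⟩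
  choose m hm1 hm2 using hm
  set M : ℤ := ∏ N ∈ Z, m N with hM
  have hMc : IsCoprime M (π : ℤ) := IsCoprime.prod_left fun N _ => hm1 N
  have hMd : ¬ (π : ℤ) ∣ M := hp.irreducible.coprime_iff_not_dvd.mp hMc.symm
  have hM0 : (M : F) ≠ 0 := fun h =>
    hMd (by rw [show M = 0 by exact_mod_cast h]; exact dvd_zero _)
  have hz : ∀ N, ∃ z : 𝓞 F, N ∈ Z → (z : F) = M * x N := by
    intro N
    by_cases hN : N ∈ Z
    · obtain ⟨c, hc⟩ : m N ∣ M := Finset.dvd_prod_of_mem _ hN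
      have h3 : IsIntegral ℤ ((M : F) * x N) := by
        have : (M : F) * x N = c • ((m N : F) * x N) := by
          rw [hc, zsmul_eq_mul]; push_cast; ring
        rw [this]
        exact (hm2 N hN).zsmul c
      exact ⟨⟨_, h3⟩, fun _ => rfl⟩
    · exact ⟨0, fun h => absurd h hN⟩
  choose z hz using hz
  have hA : ∀ N ∈ Z, IsCoprime (z N) (π : 𝓞 F) := by
    intro N hN
    obtain ⟨hx0, -, m', h3, h4⟩ := hx N hN
    obtain ⟨w, hw⟩ : ∃ w : 𝓞 F, (w : F) = (m' : F) * (x N)⁻¹ := ⟨⟨_, h4⟩, rfl⟩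
    have h5 : z N * w = ((M * m' : ℤ) : 𝓞 F) := by
      apply RingOfIntegers.ext
      have h6 : ((z N * w : 𝓞 F) : F) = (z N : F) * (w : F) := by simp
      have h7 : (((M * m' : ℤ) : 𝓞 F) : F) = (M : F) * m' := by simp
      rw [h6, h7, hz N hN, hw]
      field_simp
    have h6 : IsCoprime ((M * m' : ℤ) : 𝓞 F) (π : 𝓞 F) := by
      simpa using (hMc.mul_left h3).map (Int.castRingHom (𝓞 F))
    rw [← h5] at h6
    exact h6.of_mul_left_left
  have hB : ∀ N ∈ Z, ∀ N' ∈ Z, (π : 𝓞 F) ∣ z N ^ 2 - z N' ^ 2 := by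
    intro N hN N' hN'
    have h4 : ((z N ^ 2 - z N' ^ 2 : 𝓞 F) : F) / (π : F) ^ 1 =
        (M : F) ^ 2 * ((x N ^ 2 - x N' ^ 2) / π) := by
      have : ((z N ^ 2 - z N' ^ 2 : 𝓞 F) : F) = (z N : F) ^ 2 - (z N' : F) ^ 2 := by simp
      rw [this, hz N hN, hz N' hN']
      ring
    have h3 := loc_dvd π hπ (z N ^ 2 - z N' ^ 2) 1 (by
      rw [h4]
      exact (locR F π).mul_mem ((locR F π).pow_mem (loc_int_mem π M) 2) (hsq N hN N' hN'))
    rwa [pow_one] at h3
  obtain ⟨𝒯, h3, h4, h5⟩ := loc_signs F π hπ h2 Z z hA hB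
  refine ⟨𝒯, h3, h4, fun T hT => ⟨(h5 T hT).1, fun N hN N' hN' => ?_⟩⟩
  obtain ⟨c, hc⟩ := (h5 T hT).2 N hN N' hN'
  have h6 : (z N : F) - z N' = π * c := by
    have := congrArg (fun t : 𝓞 F => (t : F)) hc
    simpa using this
  rw [hz N ((h5 T hT).1 hN), hz N' ((h5 T hT).1 hN')] at h6
  have h7 : (x N - x N') / π = (M : F)⁻¹ * c := by
    field_simp
    linear_combination h6
  rw [h7]
  exact (locR F π).mul_mem (loc_int_inv π hπ M hMd) (coe_mem_locR π c)

open MvPolynomial in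
/-- the number of points in one residue class which lie on one branch -/
theorem class_bound {n D : ℕ} (π E : ℕ) (hπ : π.Prime) (hED : 2 * E ≤ D * (D - 1))
    (H : Fin n → MvPolynomial (Fin (n + 1)) F) (hH : ∀ k e, (H k).coeff e ∈ locR F π)
    (htri : ∀ k, ∀ j ∈ (H k).vars, j ≤ k.succ) (T : Finset ℤ) (y : ℤ → Fin (n + 1) → F)
    (hinj : Set.InjOn y T) (hyR : ∀ N ∈ T, ∀ j, y N j ∈ locR F π)
    (h0 : ∀ N ∈ T, ∀ k, eval (y N) (H k) = 0)
    (hd : ∀ N ∈ T, ∀ k, eval (y N) (pderiv k.succ (H k)) ≠ 0 ∧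
      (eval (y N) (pderiv k.succ (H k)))⁻¹ ∈ locR F π)
    (hcong : ∀ N ∈ T, ∀ N' ∈ T, ∀ j, (y N j - y N' j) / π ∈ locR F π)
    {B : Type} [CommRing B] [IsDomain B] [Algebra F B]
    (Ψ : MvPolynomial (Fin (n + 1)) F →ₐ[F] B) (c C D0 : ℕ) (hg : ∀ m, grow Ψ m ≤ c * m + C)
    (hker : ∀ N ∈ T, ∀ f, Ψ f = 0 → eval (y N) f = 0)
    (φ : Fin D → MvPolynomial (Fin (n + 1)) F) (hφR : ∀ s e, (φ s).coeff e ∈ locR F π)
    (hφD : ∀ s, (φ s).totalDegree ≤ D0) (hφ : LinearIndependent F fun s => Ψ (φ s))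
    (m : ℤ → Fin D → 𝓞 F) (ρ : ℤ → F) (ν : Fin D → F) (hν : ∀ s, ν s ≠ 0 ∧ ν s ∈ locR F π)
    (hρ : ∀ N ∈ T, ρ N ≠ 0 ∧ ρ N ∈ locR F π)
    (hm : ∀ N ∈ T, ∀ s, (m N s : F) = ρ N * ν s * eval (y N) (φ s))
    (h : Fin D → ℝ) (hh : ∀ N ∈ T, ∀ s (ψ : F →+* ℂ), ‖emb ψ (m N s)‖ ≤ h s)
    (hlt : (D.factorial : ℝ) * ∏ s, h s < (π : ℝ) ^ E) : T.card ≤ c * D0 := by
  classical
  rcases T.eq_empty_or_nonempty with rfl | ⟨N0, hN0⟩
  · simp
  have hπ0 : (π : F) ≠ 0 := by exact_mod_cast hπ.ne_zero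
  choose H' hH' using fun k => loc_lift (locR F π) (H k) (hH k)
  choose φ' hφ' using fun s => loc_lift (locR F π) (φ s) (hφR s)
  set I : Ideal (locR F π) := Ideal.span {(π : locR F π) ^ E} with hI
  have hinjS : Function.Injective (locR F π).subtype := Subtype.val_injective
  let y' : T → Fin (n + 1) → locR F π := fun N j => ⟨y N j, hyR N N.2 j⟩
  have hev : ∀ (N : T) (P : MvPolynomial (Fin (n + 1)) (locR F π)),
      ((eval (y' N) P : locR F π) : F) = eval (y N) (map (locR F π).subtype P) := fun N P =>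
    map_eval (locR F π).subtype (y' N) P
  have hevq : ∀ (N : T) (P : MvPolynomial (Fin (n + 1)) (locR F π)),
      eval (fun j => Ideal.Quotient.mk I (y' N j)) (map (Ideal.Quotient.mk I) P) =
        Ideal.Quotient.mk I (eval (y' N) P) := fun N P =>
    (map_eval (Ideal.Quotient.mk I) (y' N) P).symm
  have hz : ∀ (N : T) k, eval (y' N) (H' k) = 0 := fun N k => by
    apply hinjS
    rw [map_zero]
    exact (hev N _).trans (by rw [hH']; exact h0 N N.2 k)
  have hdet : ∀ l : Fin D → ℤ, (∀ j, l j ∈ T) →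
      (Matrix.of fun i j => eval (y (l i)) (φ j)).det = 0 := by
    intro l hl
    have h1 := class_det_zero (Ideal.Quotient.mk I (π : locR F π)) E D
      (by rw [← map_pow, Ideal.Quotient.eq_zero_iff_mem]; exact Ideal.mem_span_singleton_self _)
      hED (fun k => map (Ideal.Quotient.mk I) (H' k))
      (fun k j hj => htri k j (by
        rw [← hH', vars_map_of_injective _ hinjS]; exact vars_map _ _ hj))
      (fun j => Ideal.Quotient.mk I (y' ⟨N0, hN0⟩ j))
      (fun k => by rw [hevq, hz, map_zero])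
      (fun k => by
        rw [pderiv_map, hevq]
        refine IsUnit.map _ ?_
        obtain ⟨h2, h3⟩ := hd N0 hN0 k
        refine IsUnit.of_mul_eq_one ⟨_, h3⟩ ?_
        apply hinjS
        rw [map_mul, map_one]
        have h4 : (locR F π).subtype (eval (y' ⟨N0, hN0⟩) (pderiv k.succ (H' k))) =
            eval (y N0) (pderiv k.succ (H k)) :=
          (hev _ _).trans (by rw [← pderiv_map, hH'])
        rw [h4]
        exact mul_inv_cancel₀ h2)
      (Fintype.card_fin D) (fun r j => Ideal.Quotient.mk I (y' ⟨l r, hl r⟩ j))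
      (fun r k => by rw [hevq, hz, map_zero])
      (fun r j => by
        rw [← map_sub]
        refine map_dvd _ ⟨⟨_, hcong (l r) (hl r) N0 hN0 j⟩, ?_⟩
        apply hinjS
        have : (locR F π).subtype (π * ⟨_, hcong (l r) (hl r) N0 hN0 j⟩) =
            (π : F) * ((y (l r) j - y N0 j) / π) := by simp
        rw [this, mul_div_cancel₀ _ hπ0]
        rfl)
      (fun s => map (Ideal.Quotient.mk I) (φ' s))
    have h2 : Ideal.Quotient.mk I
        (Matrix.of fun r s => eval (y' ⟨l r, hl r⟩) (φ' s)).det = 0 := by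
      rw [RingHom.map_det, ← h1]
      congr 1
      ext r s
      exact (hevq _ _).symm
    rw [Ideal.Quotient.eq_zero_iff_mem, hI, Ideal.mem_span_singleton] at h2
    obtain ⟨w, hw⟩ := h2
    have h3 : (Matrix.of fun i j => eval (y (l i)) (φ j)).det = (π : F) ^ E * w := by
      have h4 := congrArg (locR F π).subtype hw
      rw [RingHom.map_det, map_mul, map_pow, map_natCast] at h4
      refine Eq.trans ?_ h4
      congr 1
      ext r s
      exact ((hev ⟨l r, hl r⟩ (φ' s)).trans (by rw [hφ']; rfl)).symm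
    set A : Matrix (Fin D) (Fin D) (𝓞 F) := Matrix.of fun r s => m (l r) s with hA
    have h4 : ((A.det : 𝓞 F) : F) = (∏ r, ρ (l r)) * ((∏ s, ν s) *
        (Matrix.of fun i j => eval (y (l i)) (φ j)).det) := by
      rw [← Matrix.det_mul_row, ← Matrix.det_mul_column]
      refine (RingHom.map_det (algebraMap (𝓞 F) F) A).trans ?_
      congr 1
      ext r s
      simp only [Matrix.of_apply, ← mul_assoc]
      exact hm (l r) (hl r) s
    have h5 : (π : 𝓞 F) ^ E ∣ A.det := by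
      refine loc_dvd π hπ _ E ?_
      have : ((A.det : 𝓞 F) : F) / (π : F) ^ E = (∏ r, ρ (l r)) * ((∏ s, ν s) * w) := by
        rw [h4, h3]
        field_simp
      rw [this]
      exact (locR F π).mul_mem (prod_mem fun r _ => (hρ _ (hl r)).2)
        ((locR F π).mul_mem (prod_mem fun s _ => (hν s).2) w.2)
    obtain ⟨W, hW⟩ := h5
    have h6 : W = 0 := by
      refine eq_zero_of_emb_lt_one W fun ψ => ?_
      have h7 : ‖emb ψ A.det‖ ≤ (D.factorial : ℝ) * ∏ s, h s := by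
        rw [RingHom.map_det]
        exact loc_det_le _ h fun r s => hh (l r) (hl r) s ψ
      rw [hW, map_mul, map_pow, map_natCast, norm_mul, norm_pow, Complex.norm_natCast] at h7
      have h8 : (0 : ℝ) < (π : ℝ) ^ E := pow_pos (by exact_mod_cast hπ.pos) _
      by_contra h9
      have h10 : (π : ℝ) ^ E * 1 ≤ (π : ℝ) ^ E * ‖emb ψ W‖ :=
        mul_le_mul_of_nonneg_left (not_lt.mp h9) h8.le
      linarith
    rw [hW, h6, mul_zero] at h4
    have h7 : (∏ r, ρ (l r)) ≠ 0 := Finset.prod_ne_zero_iff.mpr fun r _ => (hρ _ (hl r)).1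
    have h8 : (∏ s, ν s) ≠ 0 := Finset.prod_ne_zero_iff.mpr fun s _ => (hν s).1
    have h9 : (∏ r, ρ (l r)) * ((∏ s, ν s) *
        (Matrix.of fun i j => eval (y (l i)) (φ j)).det) = 0 := by rw [← h4]; rfl
    exact ((mul_eq_zero.mp ((mul_eq_zero.mp h9).resolve_left h7)).resolve_left h8)
  obtain ⟨a, ha0, ha⟩ := exists_kernel T (fun N s => eval (y N) (φ s)) hdet
  have hb := bezout_grow Ψ c C hg (T.image y)
    (fun z hz f hf => by
      obtain ⟨N, hN, rfl⟩ := Finset.mem_image.mp hz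
      exact hker N hN f hf)
    (∑ s, a s • φ s)
    (by
      intro h1
      rw [map_sum] at h1
      simp only [map_smul] at h1
      exact ha0 (funext (Fintype.linearIndependent_iff.mp hφ a h1)))
    (fun z hz => by
      obtain ⟨N, hN, rfl⟩ := Finset.mem_image.mp hz
      rw [map_sum, ← ha N hN]
      exact Finset.sum_congr rfl fun s _ => by rw [smul_eval])
  rw [Finset.card_image_of_injOn hinj] at hb
  refine hb.trans (Nat.mul_le_mul_left _ ?_)
  exact totalDegree_finsetSum_le fun s _ => (totalDegree_smul_le _ _).trans (hφD s)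

end Vale.Agent.P018
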