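import Vale.Agent.P018.Q.IntKer
import Vale.Agent.P018.Q.Loc

namespace Vale.Agent.P018

open Polynomial in
/-- the homogenised integer value of a bivariate integer polynomial -/
noncomputable def ccVal (D : ℕ) (G : ℤ[X][X]) (u v N : ℤ) : ℤ :=
  ∑ j ∈ Finset.range (D + 1), ∑ i ∈ Finset.range (D + 1),
    (G.coeff j).coeff i * u ^ i * v ^ (D - i) * N ^ j

open Polynomial in
theorem cc_val_eq (D : ℕ) (F : Type) [Field F] (G : ℤ[X][X]) (h1 : G.natDegree ≤ D)
    (h2 : ∀ j, (G.coeff j).natDegree ≤ D) (u v N : ℤ) (hv : (v : F) ≠ 0) :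
    (ccVal D G u v N : F) = (v : F) ^ D *
      (G.map (mapRingHom (Int.castRingHom F))).evalEval ((u : F) / (v : F)) (N : F) := by
  rw [← map_evalRingHom_eval, eval_eq_sum_range' (n := D + 1)
    (Nat.lt_succ_of_le (natDegree_map_le.trans (natDegree_map_le.trans h1))), Finset.mul_sum,
    ccVal, Int.cast_sum]
  refine Finset.sum_congr rfl fun j _ => ?_
  rw [coeff_map, coeff_map, coe_evalRingHom, coe_mapRingHom, eval_eq_sum_range' (n := D + 1)
    (Nat.lt_succ_of_le (natDegree_map_le.trans (h2 j))), Finset.sum_mul, Finset.mul_sum,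
    Int.cast_sum]
  refine Finset.sum_congr rfl fun i hi => ?_
  have hi' : i ≤ D := Nat.lt_succ_iff.mp (Finset.mem_range.mp hi)
  obtain ⟨k, rfl⟩ := Nat.exists_eq_add_of_le hi'
  rw [coeff_map, Nat.add_sub_cancel_left, eq_intCast]
  push_cast
  rw [div_pow, pow_add]
  field_simp

open Polynomial in
theorem cc_val_le (D : ℕ) (G : ℤ[X][X]) (B H : ℝ) (hH : 1 ≤ H)
    (hB : ∀ i j, |((G.coeff j).coeff i : ℝ)| ≤ B) (u v N : ℤ) (hu : |(u : ℝ)| ≤ H)
    (hv : |(v : ℝ)| ≤ H) (hN : |(N : ℝ)| ≤ H) :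
    |(ccVal D G u v N : ℝ)| ≤ (D + 1) ^ 2 * B * H ^ (2 * D) := by
  have hB0 : 0 ≤ B := (abs_nonneg _).trans (hB 0 0)
  have key : ∀ j ∈ Finset.range (D + 1), ∀ i ∈ Finset.range (D + 1),
      |(((G.coeff j).coeff i * u ^ i * v ^ (D - i) * N ^ j : ℤ) : ℝ)| ≤ B * H ^ (2 * D) := by
    intro j hj i hi
    have hi' : i ≤ D := Nat.lt_succ_iff.mp (Finset.mem_range.mp hi)
    have hj' : j ≤ D := Nat.lt_succ_iff.mp (Finset.mem_range.mp hj)
    push_cast
    rw [abs_mul, abs_mul, abs_mul, abs_pow, abs_pow, abs_pow]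
    have e : B * H ^ (2 * D) = B * H ^ i * H ^ (D - i) * H ^ D := by
      rw [mul_assoc, mul_assoc, ← pow_add, ← pow_add]
      congr 2
      omega
    rw [e]
    have a1 := hB i j
    have a2 : |(N : ℝ)| ^ j ≤ H ^ D :=
      (pow_le_pow_left₀ (abs_nonneg _) hN j).trans (pow_le_pow_right₀ hH hj')
    have hH0 : 0 ≤ H := by linarith
    gcongr
  rw [ccVal, Int.cast_sum]
  refine (Finset.abs_sum_le_sum_abs _ _).trans ?_
  refine (Finset.sum_le_card_nsmul _ _ ((D + 1) * (B * H ^ (2 * D))) fun j hj => ?_).trans ?_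
  · rw [Int.cast_sum]
    refine (Finset.abs_sum_le_sum_abs _ _).trans ?_
    refine (Finset.sum_le_card_nsmul _ _ _ (key j hj)).trans (le_of_eq ?_)
    rw [Finset.card_range, nsmul_eq_mul]
    push_cast
    rfl
  · rw [Finset.card_range, nsmul_eq_mul]
    push_cast
    exact le_of_eq (by ring)

open Polynomial in
theorem cc_deriv (D : ℕ) (G : ℤ[X][X]) (B : ℝ) (h1 : G.natDegree ≤ D)
    (h2 : ∀ j, (G.coeff j).natDegree ≤ D) (hB : ∀ i j, |((G.coeff j).coeff i : ℝ)| ≤ B) (k : ℕ) :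
    (derivative^[k] G).natDegree ≤ D ∧ (∀ j, ((derivative^[k] G).coeff j).natDegree ≤ D) ∧
      ∀ i j, |(((derivative^[k] G).coeff j).coeff i : ℝ)| ≤ (D + 1) ^ k * B := by
  have hB0 : 0 ≤ B := (abs_nonneg _).trans (hB 0 0)
  refine ⟨(natDegree_iterate_derivative G k).trans ((Nat.sub_le _ _).trans h1), fun j => ?_,
    fun i j => ?_⟩
  · rw [coeff_iterate_derivative]
    exact (natDegree_smul_le _ _).trans (h2 _)
  · rw [coeff_iterate_derivative]
    by_cases hj : j + k ≤ D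
    · rw [coeff_smul, nsmul_eq_mul]
      push_cast
      rw [abs_mul, Nat.abs_cast]
      have a1 : (((j + k).descFactorial k : ℕ) : ℝ) ≤ ((D : ℝ) + 1) ^ k := by
        have := (Nat.descFactorial_le_pow (j + k) k).trans
          (Nat.pow_le_pow_left (hj.trans (Nat.le_succ D)) k)
        exact_mod_cast this
      exact mul_le_mul a1 (hB _ _) (abs_nonneg _) (by positivity)
    · rw [coeff_eq_zero_of_natDegree_lt (show G.natDegree < j + k by omega), smul_zero, coeff_zero,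
        Int.cast_zero, abs_zero]
      positivity

theorem cc_ivt (p : ℕ → Prop) (h0 : p 0) (d : ℕ) (hd : ¬ p d) : ∃ i < d, p i ∧ ¬ p (i + 1) := by
  induction d with
  | zero => exact absurd h0 hd
  | succ d ih =>
    by_cases h : p d
    · exact ⟨d, Nat.lt_succ_self d, h, hd⟩
    · obtain ⟨i, hi, hp⟩ := ih h
      exact ⟨i, Nat.lt_succ_of_lt hi, hp⟩

open Polynomial in
theorem cc_iter_ne (G : ℤ[X][X]) (hG : G ≠ 0) (i : ℕ) (hi : i ≤ G.natDegree) :
    (derivative^[i] G).coeff (G.natDegree - i) ≠ 0 := by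
  rw [coeff_iterate_derivative, Nat.sub_add_cancel hi, nsmul_eq_mul]
  refine mul_ne_zero ?_ (leadingCoeff_ne_zero.mpr hG)
  exact Nat.cast_ne_zero.mpr (Nat.descFactorial_pos.mpr hi).ne'

open Polynomial in
/-- Reduction to smooth points of integral curves of small height. -/
theorem curve_levels (D K : ℕ) : ∃ K' : ℕ, ∀ (X : ℝ), 2 ≤ X → ∀ (F : Type) [Field F] [CharZero F]
    (G : F[X][X]) (Z : Finset ℤ) (u v : ℤ → ℤ),
    (∀ N ∈ Z, v N ≠ 0 ∧ |(u N : ℝ)| ≤ X ^ K ∧ |(v N : ℝ)| ≤ X ^ K ∧ |(N : ℝ)| ≤ X ^ K) →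
    Curve F D G Z u v → ∃ (Z0 : Finset ℤ) (𝒯 : Finset (Finset ℤ)), Z0 ⊆ Z ∧
      (∃ q : F[X], q ≠ 0 ∧ q.natDegree ≤ D ∧ ∀ N ∈ Z0, q.eval ((u N : F) / (v N : F)) = 0) ∧
      𝒯.card ≤ D ∧ (∀ N ∈ Z, N ∈ Z0 ∨ ∃ T ∈ 𝒯, N ∈ T) ∧ ∀ T ∈ 𝒯, T ⊆ Z ∧
        ∃ G' : ℤ[X][X], G' ≠ 0 ∧ G'.natDegree ≤ D ∧ (∀ j, (G'.coeff j).natDegree ≤ D) ∧
          ∀ N ∈ T, (G'.map (mapRingHom (Int.castRingHom F))).evalEval
              ((u N : F) / (v N : F)) (N : F) = 0 ∧
            ∃ n : ℤ, n ≠ 0 ∧ |(n : ℝ)| ≤ X ^ K' ∧ (n : F) = (v N : F) ^ D *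
              ((derivative G').map (mapRingHom (Int.castRingHom F))).evalEval
                ((u N : F) / (v N : F)) (N : F) := by
  classical
  obtain ⟨c, hc⟩ := int_curve D
  refine ⟨(D + 1) ^ (D + 2) * c + K * (c + 2 * D), ?_⟩
  intro X hX F _ _ G Z u v hZ hG
  have hX1 : 1 ≤ X := by linarith
  have hH : 1 ≤ X ^ K := one_le_pow₀ hX1
  obtain ⟨G0, hB, hne, hd1, hd2, hev⟩ := hc F G Z u v (X ^ K) hH hZ hG
  have hinjQ : Function.Injective (Int.castRingHom ℚ) := Int.cast_injective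
  have hinjF : Function.Injective (Int.castRingHom F) := Int.cast_injective
  have hG0 : G0 ≠ 0 := by
    rintro rfl
    exact hne (Polynomial.map_zero _)
  have h1 : G0.natDegree ≤ D := by
    rwa [natDegree_map_eq_of_injective (map_injective _ hinjQ)] at hd1
  have h2 : ∀ j, (G0.coeff j).natDegree ≤ D := by
    intro j
    have := hd2 j
    rwa [coeff_map, coe_mapRingHom, natDegree_map_eq_of_injective hinjQ] at this
  have hder := cc_deriv D G0 _ h1 h2 hB
  set d := G0.natDegree with hd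
  set p : ℤ → ℕ → Prop := fun N i => ccVal D (derivative^[i] G0) (u N) (v N) N = 0 with hp
  have hvF : ∀ N ∈ Z, (v N : F) ≠ 0 := fun N hN => Int.cast_ne_zero.mpr (hZ N hN).1
  have hzero : ∀ N ∈ Z, ∀ i, p N i →
      ((derivative^[i] G0).map (mapRingHom (Int.castRingHom F))).evalEval
        ((u N : F) / (v N : F)) (N : F) = 0 := by
    intro N hN i hi
    have h3 := cc_val_eq D F _ (hder i).1 (hder i).2.1 (u N) (v N) N (hvF N hN)
    rw [hi, Int.cast_zero] at h3
    exact (mul_eq_zero.mp h3.symm).resolve_left (pow_ne_zero _ (hvF N hN))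
  refine ⟨Z.filter fun N => p N d,
    (Finset.range d).image fun i => Z.filter fun N => p N i ∧ ¬ p N (i + 1),
    Finset.filter_subset _ _, ?_, ?_, ?_, ?_⟩
  · refine ⟨((derivative^[d] G0).coeff 0).map (Int.castRingHom F), ?_,
      natDegree_map_le.trans ((hder d).2.1 0), fun N hN => ?_⟩
    · have h3 := cc_iter_ne G0 hG0 d le_rfl
      rw [← hd, Nat.sub_self] at h3
      exact (Polynomial.map_ne_zero_iff hinjF).mpr h3
    · rw [Finset.mem_filter] at hN
      have h3 := hzero N hN.1 d hN.2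
      have h4 : (derivative^[d] G0).natDegree = 0 := by
        have := natDegree_iterate_derivative G0 d
        omega
      rw [eq_C_of_natDegree_eq_zero h4, map_C, evalEval_C] at h3
      exact h3
  · exact Finset.card_image_le.trans (by rw [Finset.card_range]; exact h1)
  · intro N hN
    by_cases hpd : p N d
    · exact Or.inl (Finset.mem_filter.mpr ⟨hN, hpd⟩)
    · have hp0 : p N 0 := by
        have h3 := cc_val_eq D ℚ G0 h1 h2 (u N) (v N) N (Int.cast_ne_zero.mpr (hZ N hN).1)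
        rw [hev N hN, mul_zero] at h3
        exact_mod_cast h3
      obtain ⟨i, hi, hpi⟩ := cc_ivt (p N) hp0 d hpd
      exact Or.inr ⟨_, Finset.mem_image_of_mem _ (Finset.mem_range.mpr hi),
        Finset.mem_filter.mpr ⟨hN, hpi⟩⟩
  · intro T hT
    obtain ⟨i, hi, rfl⟩ := Finset.mem_image.mp hT
    have hi' : i < d := Finset.mem_range.mp hi
    refine ⟨Finset.filter_subset _ _, derivative^[i] G0, ?_, (hder i).1, (hder i).2.1,
      fun N hN => ?_⟩
    · intro h
      have h3 := cc_iter_ne G0 hG0 i hi'.le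
      rw [h, coeff_zero] at h3
      exact h3 rfl
    · rw [Finset.mem_filter] at hN
      obtain ⟨hN, hN1, hN2⟩ := hN
      refine ⟨hzero N hN i hN1, ccVal D (derivative^[i + 1] G0) (u N) (v N) N, hN2, ?_, ?_⟩
      · obtain ⟨-, a1, a2, a3⟩ := hZ N hN
        refine (cc_val_le D _ _ _ hH (hder (i + 1)).2.2 _ _ _ a1 a2 a3).trans ?_
        have b1 : ((D : ℝ) + 1) ^ (i + 1) ≤ ((D : ℝ) + 1) ^ D :=
          pow_le_pow_right₀ (by linarith [(Nat.cast_nonneg D : (0 : ℝ) ≤ D)]) (by omega)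
        have b2 : (((D + 1) ^ (D + 2) * c : ℕ) : ℝ) ≤ X ^ ((D + 1) ^ (D + 2) * c) := by
          refine le_trans ?_ (pow_le_pow_left₀ zero_le_two hX _)
          exact_mod_cast Nat.lt_two_pow_self.le
        push_cast at b2
        calc ((D : ℝ) + 1) ^ 2 * ((D + 1) ^ (i + 1) * (c * (X ^ K) ^ c)) * (X ^ K) ^ (2 * D)
            ≤ ((D : ℝ) + 1) ^ 2 * ((D + 1) ^ D * (c * (X ^ K) ^ c)) * (X ^ K) ^ (2 * D) := by
              gcongr
          _ = (((D : ℝ) + 1) ^ (D + 2) * c) * X ^ (K * (c + 2 * D)) := by ring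
          _ ≤ X ^ ((D + 1) ^ (D + 2) * c) * X ^ (K * (c + 2 * D)) := by gcongr
          _ = _ := (pow_add _ _ _).symm
      · rw [cc_val_eq D F _ (hder (i + 1)).1 (hder (i + 1)).2.1 (u N) (v N) N (hvF N hN),
          Function.iterate_succ_apply']

open Polynomial in
theorem cc_eval_equiv {F : Type} [Field F] (y : Fin 2 → F) (G : ℤ[X][X]) :
    MvPolynomial.eval y (MvPolynomial.map (Int.castRingHom F) (Bivariate.equivMvPolynomial ℤ G))
      = (G.map (mapRingHom (Int.castRingHom F))).evalEval (y 0) (y 1) := by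
  induction G using Polynomial.induction_on' with
  | add p q hp hq => rw [map_add, map_add, map_add, Polynomial.map_add, evalEval_add, hp, hq]
  | monomial n p =>
    induction p using Polynomial.induction_on' with
    | add p q hp hq =>
      rw [map_add, map_add, map_add, map_add, Polynomial.map_add, evalEval_add, hp, hq]
    | monomial m a =>
      simp_rw [← Polynomial.C_mul_X_pow_eq_monomial]
      simp [evalEval_C]

open Polynomial in
/-- passage from `R[X][X]` to polynomials in the first two of `n + 2` variables -/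
theorem exists_mv (D : ℕ) {F : Type} [Field F] [CharZero F] (G' : ℤ[X][X]) (h0 : G' ≠ 0)
    (h1 : G'.natDegree ≤ D) (h2 : ∀ j, (G'.coeff j).natDegree ≤ D) :
    ∃ G2 : MvPolynomial (Fin 2) F, G2 ≠ 0 ∧ G2.totalDegree ≤ 2 * D ∧
      (∀ e, ∃ z : ℤ, G2.coeff e = z) ∧ ∀ y : Fin 2 → F,
        MvPolynomial.eval y G2 =
          (G'.map (mapRingHom (Int.castRingHom F))).evalEval (y 0) (y 1) ∧
        MvPolynomial.eval y (MvPolynomial.pderiv 1 G2) =
          ((derivative G').map (mapRingHom (Int.castRingHom F))).evalEval (y 0) (y 1) := by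
  have hinjF : Function.Injective (Int.castRingHom F) := Int.cast_injective
  refine ⟨MvPolynomial.map (Int.castRingHom F) (Bivariate.equivMvPolynomial ℤ G'), ?_, ?_,
    fun e => ⟨_, MvPolynomial.coeff_map _ _ _⟩, fun y => ⟨cc_eval_equiv y G', ?_⟩⟩
  · intro h
    rw [← map_zero (MvPolynomial.map (σ := Fin 2) (Int.castRingHom F))] at h
    have h3 := MvPolynomial.map_injective _ hinjF h
    exact h0 ((map_eq_zero_iff _ (Bivariate.equivMvPolynomial ℤ).injective).mp h3)
  · have e : G' = ∑ j ∈ Finset.range (D + 1), ∑ i ∈ Finset.range (D + 1),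
        C (C ((G'.coeff j).coeff i)) * (C X) ^ i * X ^ j := by
      conv_lhs => rw [G'.as_sum_range' (D + 1) (Nat.lt_succ_of_le h1)]
      refine Finset.sum_congr rfl fun j _ => ?_
      rw [← C_mul_X_pow_eq_monomial, ← Finset.sum_mul]
      congr 1
      conv_lhs => rw [(G'.coeff j).as_sum_range' (D + 1) (Nat.lt_succ_of_le (h2 j))]
      rw [map_sum]
      refine Finset.sum_congr rfl fun i _ => ?_
      rw [← C_mul_X_pow_eq_monomial, C_mul, C_pow]
    rw [e, map_sum, map_sum]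
    refine MvPolynomial.totalDegree_finsetSum_le fun j hj => ?_
    rw [map_sum, map_sum]
    refine MvPolynomial.totalDegree_finsetSum_le fun i hi => ?_
    have hi' : i ≤ D := Nat.lt_succ_iff.mp (Finset.mem_range.mp hi)
    have hj' : j ≤ D := Nat.lt_succ_iff.mp (Finset.mem_range.mp hj)
    simp only [map_mul, map_pow, Bivariate.equivMvPolynomial_C_C, Bivariate.equivMvPolynomial_C_X,
      Bivariate.equivMvPolynomial_X, MvPolynomial.map_C, MvPolynomial.map_X]
    refine (MvPolynomial.totalDegree_mul _ _).trans ?_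
    refine (add_le_add (MvPolynomial.totalDegree_mul _ _) le_rfl).trans ?_
    rw [MvPolynomial.totalDegree_C, MvPolynomial.totalDegree_X_pow, MvPolynomial.totalDegree_X_pow]
    omega
  · rw [MvPolynomial.pderiv_map, Bivariate.pderiv_one_equivMvPolynomial, cc_eval_equiv]

open MvPolynomial in
theorem cc_grow_comp {K B B' σ : Type} [Field K] [CommRing B] [Algebra K B] [CommRing B']
    [Algebra K B'] [Fintype σ] (Ψ : MvPolynomial σ K →ₐ[K] B) (φ : B →ₐ[K] B') (m : ℕ) :
    grow (φ.comp Ψ) m ≤ grow Ψ m := by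
  unfold grow
  rw [AlgHom.comp_toLinearMap, Submodule.map_comp]
  exact Submodule.finrank_map_le _ _

theorem cc_aeval_inj {F : Type} [Field F] (a : F) (q : Polynomial F)
    (h : Polynomial.aeval (PowerSeries.C a + PowerSeries.X : PowerSeries F) q = 0) : q = 0 := by
  have e : (PowerSeries.C a + PowerSeries.X : PowerSeries F) =
      Polynomial.coeToPowerSeries.algHom F (Polynomial.X + Polynomial.C a) := by
    simp [add_comm]
  rw [e, Polynomial.aeval_algHom_apply, Polynomial.coeToPowerSeries.algHom_apply] at h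
  simp only [Algebra.algebraMap_self, PowerSeries.map_id, id_eq,
    Polynomial.coe_eq_zero_iff] at h
  exact Polynomial.comp_X_add_C_eq_zero_iff.mp h

open MvPolynomial in
/-- branches through the points, and grouping by their kernels -/
theorem branch_groups {F : Type} [Field F] {n : ℕ} (H : Fin n → MvPolynomial (Fin (n + 1)) F)
    (htri : ∀ k, ∀ j ∈ (H k).vars, j ≤ k.succ) (Z : Finset ℤ) (y : ℤ → Fin (n + 1) → F)
    (h0 : ∀ N ∈ Z, ∀ k, eval (y N) (H k) = 0)
    (hd : ∀ N ∈ Z, ∀ k, eval (y N) (pderiv k.succ (H k)) ≠ 0) :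
    ∃ Ψ : ℤ → (MvPolynomial (Fin (n + 1)) F →ₐ[F] PowerSeries F),
      (∀ N ∈ Z, (∀ k, Ψ N (H k) = 0) ∧
        (∀ f, PowerSeries.constantCoeff (Ψ N f) = eval (y N) f) ∧
        ∀ q : Polynomial F, Polynomial.aeval (Ψ N (X 0)) q = 0 → q = 0) ∧
      ∀ c C : ℕ, (∀ S ⊆ Z, ∀ m,
          grow (Pi.algHom F (fun _ : S => PowerSeries F) fun N : S => Ψ N) m ≤ c * m + C) →
        ∃ R ⊆ Z, R.card ≤ c ∧ (∀ N0 ∈ R, ∀ m, grow (Ψ N0) m ≤ c * m + C) ∧
          ∀ N ∈ Z, ∃ N0 ∈ R, ∀ f, Ψ N0 f = 0 → eval (y N) f = 0 := by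
  classical
  have hex : ∀ N : ℤ, ∃ Y : Fin (n + 1) → PowerSeries F, N ∈ Z →
      Y 0 = PowerSeries.C (y N 0) + PowerSeries.X ∧
      (∀ j, PowerSeries.constantCoeff (Y j) = y N j) ∧ ∀ k, aeval Y (H k) = 0 := by
    intro N
    by_cases hN : N ∈ Z
    · obtain ⟨Y, hY⟩ := branch_exists H htri (y N) (h0 N hN) fun k => (hd N hN k).isUnit
      exact ⟨Y, fun _ => hY⟩
    · exact ⟨0, fun h => absurd h hN⟩
  choose Y hY using hex
  have hA : ∀ N ∈ Z, (∀ k, aeval (Y N) (H k) = 0) ∧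
      (∀ f, PowerSeries.constantCoeff (aeval (Y N) f) = eval (y N) f) ∧
      ∀ q : Polynomial F, Polynomial.aeval (aeval (Y N) (X 0 : MvPolynomial (Fin (n + 1)) F)) q
        = 0 → q = 0 := by
    intro N hN
    obtain ⟨a1, a2, a3⟩ := hY N hN
    refine ⟨a3, fun f => ?_, fun q hq => ?_⟩
    · induction f using MvPolynomial.induction_on with
      | C r => simp
      | add p q hp hq => rw [map_add, map_add, map_add, hp, hq]
      | mul_X p j hp => rw [map_mul, map_mul, map_mul, hp, aeval_X, eval_X, a2]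
    · rw [aeval_X, a1] at hq
      exact cc_aeval_inj _ _ hq
  refine ⟨fun N => aeval (Y N), hA, fun c C hg => ?_⟩
  set κ : ℤ → Ideal (MvPolynomial (Fin (n + 1)) F) := fun N =>
    RingHom.ker (aeval (Y N) : MvPolynomial (Fin (n + 1)) F →ₐ[F] PowerSeries F) with hκ
  obtain ⟨R, hRZ, hinj, himg⟩ := Finset.exists_subset_injOn_image_eq_of_surjOn (f := κ)
    (Z : Set ℤ) (Z.image κ) (by rw [Finset.coe_image]; exact Set.surjOn_image _ _)
  have hRZ' : R ⊆ Z := Finset.coe_subset.mp hRZ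
  refine ⟨R, hRZ', ?_, fun N0 hN0 m => ?_, fun N hN => ?_⟩
  · rw [← Fintype.card_coe]
    have hg' := hg R hRZ'
    refine kernels_count (K := F) (B := PowerSeries F) (σ := Fin (n + 1)) (ι := R)
      (fun N : R => aeval (Y N)) c C 0 (fun i => (hA i (hRZ' i.2)).2.2) ?_ hg'
    intro i j hij h
    exact hij (Subtype.ext (hinj i.2 j.2 h))
  · refine le_trans ?_ (hg R hRZ' m)
    have e : (aeval (Y N0) : MvPolynomial (Fin (n + 1)) F →ₐ[F] PowerSeries F) =
        (Pi.evalAlgHom F (fun _ : R => PowerSeries F) ⟨N0, hN0⟩).comp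
          (AlgHom.pi fun N : R =>
            (aeval (Y N) : MvPolynomial (Fin (n + 1)) F →ₐ[F] PowerSeries F)) :=
      AlgHom.ext fun _ => rfl
    exact (congrArg (fun Ψ => grow Ψ m) e).le.trans (cc_grow_comp _ _ m)
  · have h1 : κ N ∈ R.image κ := by rw [himg]; exact Finset.mem_image_of_mem _ hN
    obtain ⟨N0, hN0, h2⟩ := Finset.mem_image.mp h1
    refine ⟨N0, hN0, fun f hf => ?_⟩
    have h3 : f ∈ κ N0 := hf
    rw [h2] at h3
    have h4 : aeval (Y N) f = 0 := h3
    rw [← (hA N hN).2.1 f, h4, map_zero]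

/-- a finite set with small fibres is a union of few sets on which the map is injective -/
theorem split_inj {β : Type} (Z : Finset ℤ) (f : ℤ → β) (k : ℕ)
    (h : ∀ S ⊆ Z, (∀ N ∈ S, ∀ N' ∈ S, f N = f N') → S.card ≤ k) :
    ∃ 𝒯 : Finset (Finset ℤ), 𝒯.card ≤ k ∧ (∀ N ∈ Z, ∃ T ∈ 𝒯, N ∈ T) ∧
      ∀ T ∈ 𝒯, T ⊆ Z ∧ Set.InjOn f T := by
  classical
  induction k generalizing Z with
  | zero =>
    refine ⟨∅, le_rfl, fun N hN => ?_, fun T hT => absurd hT (Finset.notMem_empty T)⟩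
    have := h {N} (Finset.singleton_subset_iff.mpr hN) (by simp)
    simp at this
  | succ k ih =>
    obtain ⟨R, hRZ, hinj, himg⟩ := Finset.exists_subset_injOn_image_eq_of_surjOn (f := f)
      (Z : Set ℤ) (Z.image f) (by rw [Finset.coe_image]; exact Set.surjOn_image _ _)
    have hRZ' : R ⊆ Z := Finset.coe_subset.mp hRZ
    obtain ⟨𝒯, h1, h2, h3⟩ := ih (Z \ R) (by
      intro S hS hf
      rcases S.eq_empty_or_nonempty with rfl | ⟨N, hN⟩
      · simp
      have hNZ : N ∈ Z := (Finset.mem_sdiff.mp (hS hN)).1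
      have a1 : f N ∈ R.image f := by rw [himg]; exact Finset.mem_image_of_mem _ hNZ
      obtain ⟨r, hr, hrN⟩ := Finset.mem_image.mp a1
      have hrS : r ∉ S := fun hh => (Finset.mem_sdiff.mp (hS hh)).2 hr
      have a2 : ∀ x ∈ insert r S, f x = f N := by
        intro x hx
        rcases Finset.mem_insert.mp hx with rfl | hx
        · exact hrN
        · exact hf x hx N hN
      have a3 := h (insert r S) (Finset.insert_subset (hRZ' hr) (hS.trans Finset.sdiff_subset))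
        (fun x hx x' hx' => (a2 x hx).trans (a2 x' hx').symm)
      rw [Finset.card_insert_of_notMem hrS] at a3
      omega)
    refine ⟨insert R 𝒯, (Finset.card_insert_le _ _).trans (by omega), fun N hN => ?_,
      fun T hT => ?_⟩
    · by_cases hNR : N ∈ R
      · exact ⟨R, Finset.mem_insert_self _ _, hNR⟩
      · obtain ⟨T, hT, hNT⟩ := h2 N (Finset.mem_sdiff.mpr ⟨hN, hNR⟩)
        exact ⟨T, Finset.mem_insert_of_mem hT, hNT⟩
    · rcases Finset.mem_insert.mp hT with rfl | hT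
      · exact ⟨hRZ', hinj⟩
      · exact ⟨(h3 T hT).1.trans Finset.sdiff_subset, (h3 T hT).2⟩

/-- cardinality of a covered set -/
theorem card_le_of_cover (Z : Finset ℤ) (𝒯 : Finset (Finset ℤ)) (k B : ℝ) (hB : 0 ≤ B)
    (hk : (𝒯.card : ℝ) ≤ k) (hc : ∀ N ∈ Z, ∃ T ∈ 𝒯, N ∈ T) (hT : ∀ T ∈ 𝒯, (T.card : ℝ) ≤ B) :
    (Z.card : ℝ) ≤ k * B := by
  classical
  have h1 : Z ⊆ 𝒯.biUnion id := fun N hN => by
    obtain ⟨T, hT, hNT⟩ := hc N hN
    exact Finset.mem_biUnion.mpr ⟨T, hT, hNT⟩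
  have h2 : Z.card ≤ ∑ T ∈ 𝒯, T.card := (Finset.card_le_card h1).trans Finset.card_biUnion_le
  have h3 : (Z.card : ℝ) ≤ ∑ T ∈ 𝒯, (T.card : ℝ) := by exact_mod_cast h2
  refine h3.trans ((Finset.sum_le_card_nsmul _ _ B hT).trans ?_)
  rw [nsmul_eq_mul]
  exact mul_le_mul_of_nonneg_right hk hB

end Vale.Agent.P018
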