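import Vale.Agent.P018.Q.Fiber

namespace Vale.Agent.P018

open NumberField Polynomial Filter

variable {F : Type} [Field F] [NumberField F]

theorem la_cj_lin (c : Ctx F) (ω ω' : Fin 4 → ℤ) (u v : ℤ) (i : Fin 4) :
    c.cj (u • ω + v • ω') i = (u : 𝓞 F) * c.cj ω i + (v : 𝓞 F) * c.cj ω' i := by
  simp only [Ctx.cj, pv, Finset.mul_sum, ← Finset.sum_add_distrib]
  refine Finset.sum_congr rfl fun l _ => ?_
  simp only [Pi.add_apply, Pi.smul_apply, smul_eq_mul]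
  push_cast
  ring

theorem la_cross (c : Ctx F) (ω ω' : Fin 4 → ℤ) (u v u' v' : ℤ) (i j : Fin 4) :
    c.cj (u • ω + v • ω') i * c.cj (u' • ω + v' • ω') j -
      c.cj (u • ω + v • ω') j * c.cj (u' • ω + v' • ω') i =
      ((u * v' - u' * v : ℤ) : 𝓞 F) * c.pc ω ω' i j := by
  simp only [la_cj_lin, Ctx.pc]
  push_cast
  ring

theorem la_cross_of_ratio (c : Ctx F) (ω ω' : Fin 4 → ℤ) (u v u' v' : ℤ) (hv : v ≠ 0)
    (hv' : v' ≠ 0) (h : (u : F) / (v : F) = (u' : F) / (v' : F)) (i j : Fin 4) :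
    c.cj (u • ω + v • ω') i * c.cj (u' • ω + v' • ω') j =
      c.cj (u • ω + v • ω') j * c.cj (u' • ω + v' • ω') i := by
  rw [← sub_eq_zero, la_cross]
  have h1 : (v : F) ≠ 0 := by exact_mod_cast hv
  have h2 : (v' : F) ≠ 0 := by exact_mod_cast hv'
  rw [div_eq_div_iff h1 h2] at h
  have h3 : u * v' = u' * v := by exact_mod_cast h
  rw [h3, sub_self]
  simp

theorem la_cross_of_pc (c : Ctx F) (ω ω' : Fin 4 → ℤ) (u v u' v' : ℤ) (i j : Fin 4)
    (h : c.pc ω ω' i j = 0) :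
    c.cj (u • ω + v • ω') i * c.cj (u' • ω + v' • ω') j =
      c.cj (u • ω + v • ω') j * c.cj (u' • ω + v' • ω') i := by
  rw [← sub_eq_zero, la_cross, h, mul_zero]

theorem la_card_roots {E : Type} [Field E] (Z : Finset ℤ) (f : ℤ → E) (q : E[X]) (hq : q ≠ 0)
    (D : ℕ) (hD : q.natDegree ≤ D) (h : ∀ N ∈ Z, q.eval (f N) = 0) (k : ℝ) (hk0 : 0 ≤ k)
    (hk : ∀ S ⊆ Z, (∀ N ∈ S, ∀ N' ∈ S, f N = f N') → (S.card : ℝ) ≤ k) :
    (Z.card : ℝ) ≤ D * k := by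
  classical
  have h1 : Z.card = ∑ x ∈ q.roots.toFinset, (Z.filter fun N => f N = x).card := by
    refine Finset.card_eq_sum_card_fiberwise fun N hN => ?_
    simp only [Finset.mem_coe, Multiset.mem_toFinset, mem_roots hq, IsRoot.def]
    exact h N hN
  rw [h1]
  push_cast
  calc ∑ x ∈ q.roots.toFinset, ((Z.filter fun N => f N = x).card : ℝ)
      ≤ ∑ _x ∈ q.roots.toFinset, k := by
        refine Finset.sum_le_sum fun x _ => hk _ (Finset.filter_subset _ _) fun N hN N' hN' => ?_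
        rw [(Finset.mem_filter.mp hN).2, (Finset.mem_filter.mp hN').2]
    _ = q.roots.toFinset.card * k := by simp
    _ ≤ D * k := by
        gcongr
        exact_mod_cast (Multiset.toFinset_card_le _).trans ((card_roots' q).trans hD)

theorem AllPt.subset {c : Ctx F} {C X : ℝ} {M : ℕ} {Z Z' : Finset ℤ} {p : ℤ → ℕ}
    {a b : ℤ → Fin 4 → ℤ} (h : AllPt c C X M Z p a b) (hZ : Z' ⊆ Z) : AllPt c C X M Z' p a b :=
  fun N hN => h N (hZ hN)

theorem IsPt.mono {c : Ctx F} {C C' X : ℝ} {M : ℕ} {N : ℤ} {p : ℕ} {a b : Fin 4 → ℤ}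
    (h : IsPt c C X M N p a b) (hC : C ≤ C') (hX : 0 ≤ X) : IsPt c C' X M N p a b where
  hp := h.hp
  hXp := h.hXp
  hN1 := h.hN1
  hN2 := h.hN2.trans (by gcongr)
  hM0 := h.hM0
  hMC := h.hMC.trans hC
  ha1 := h.ha1
  hb1 := h.hb1
  hab := h.hab
  hdvd := h.hdvd
  hgN := h.hgN
  hnorm := by
    obtain ⟨m, h1, h2, h3⟩ := h.hnorm
    exact ⟨m, h1, h2.trans hC, h3⟩
  ha := h.ha
  hα := fun φ i => (h.hα φ i).trans (by gcongr)
  hb := fun l => (h.hb l).trans (by gcongr)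
  hβ := fun φ i => (h.hβ φ i).trans (by gcongr)

theorem AllPt.mono {c : Ctx F} {C C' X : ℝ} {M : ℕ} {Z : Finset ℤ} {p : ℤ → ℕ}
    {a b : ℤ → Fin 4 → ℤ} (h : AllPt c C X M Z p a b) (hC : C ≤ C') (hX : 0 ≤ X) :
    AllPt c C' X M Z p a b := fun N hN => (h N hN).mono hC hX

theorem la_one_le_of_gcd {a : Fin 4 → ℤ} (h : Finset.univ.gcd a = 1) :
    ∃ l, (1 : ℝ) ≤ |(a l : ℝ)| := by
  by_contra hc
  push Not at hc
  have : a = 0 := by
    funext l
    have h1 : |a l| < 1 := by exact_mod_cast hc l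
    simpa using Int.abs_lt_one_iff.mp h1
  rw [this] at h
  have h2 : (Finset.univ.gcd (0 : Fin 4 → ℤ)) = 0 :=
    Finset.gcd_eq_zero_iff.mpr fun _ _ => rfl
  rw [h2] at h
  exact zero_ne_one h

theorem IsPt.one_le {c : Ctx F} {C X : ℝ} {M : ℕ} {N : ℤ} {p : ℕ} {a b : Fin 4 → ℤ}
    (h : IsPt c C X M N p a b) : 1 ≤ C * X / √(p : ℝ) := by
  obtain ⟨l, hl⟩ := la_one_le_of_gcd h.hb1
  exact hl.trans (h.hb l)

/-- absorbing constants -/
theorem la_absorb (C s t : ℝ) (hst : s < t) : ∀ᶠ X : ℝ in atTop, C * X ^ s ≤ X ^ t := by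
  filter_upwards [(tendsto_rpow_atTop (sub_pos.mpr hst)).eventually_ge_atTop C,
    eventually_gt_atTop 0] with X h1 hX
  calc C * X ^ s ≤ X ^ (t - s) * X ^ s := by gcongr
    _ = X ^ t := by rw [← Real.rpow_add hX]; congr 1; ring

end Vale.Agent.P018
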