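import Vale.Agent.P018.Q.PadicI
import Vale.Agent.P018.Q.LinAux

namespace Vale.Agent.P018

open NumberField Polynomial Filter

variable {F : Type} [Field F] [NumberField F]

/-- bound for one group of points sharing the kernel of a branch -/
theorem cI_group (c : Ctx F) (C υ βe w κ ε : ℝ) (D K K' c0 C0 : ℕ) (hC : 1 ≤ C) (hκ : 0 < κ)
    (hυ : 0 ≤ υ) (hβe : 0 ≤ βe) (hw : 0 < w) (hε : 0 < ε)
    (hnum : 10 * κ ^ 2 * (2 * υ + βe) + 2 * (10 * κ + 6) * βe < w * (10 * κ + 6) ^ 2) :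
    ∃ C' : ℝ, 0 ≤ C' ∧ ∀ᶠ X : ℝ in atTop, ∀ (M : ℕ) (Z : Finset ℤ) (p : ℤ → ℕ)
      (a b : ℤ → Fin 4 → ℤ) (ω ω' : Fin 4 → ℤ) (u v : ℤ → ℤ) (P : ℝ) (G' : ℤ[X][X])
      (Ψ : MvPolynomial (Fin 2) F →ₐ[F] PowerSeries F), AllPt c C X M Z p a b →
      (∀ i j, i ≠ j → c.pc ω ω' i j ≠ 0) →
      (∀ l, |(ω l : ℝ)| ≤ X ^ K ∧ |(ω' l : ℝ)| ≤ X ^ K) →
      (∀ N ∈ Z, a N = u N • ω + v N • ω' ∧ v N ≠ 0 ∧ IsCoprime (u N) (v N) ∧
        |(u N : ℝ)| ≤ X ^ υ ∧ |(v N : ℝ)| ≤ X ^ υ) →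
      0 < P → P ≤ X ^ 2 → (∀ N ∈ Z, P ≤ p N) → X / √P ≤ X ^ βe →
      (∀ N ∈ Z, ¬ Six c ω ω' N (u N) (v N)) →
      G' ≠ 0 → G'.natDegree ≤ D → (∀ j, (G'.coeff j).natDegree ≤ D) →
      (∀ N ∈ Z, (G'.map (mapRingHom (Int.castRingHom F))).evalEval
          ((u N : F) / (v N : F)) (N : F) = 0 ∧
        ∃ n : ℤ, n ≠ 0 ∧ |(n : ℝ)| ≤ X ^ K' ∧ (n : F) = (v N : F) ^ D *
          ((derivative G').map (mapRingHom (Int.castRingHom F))).evalEval
            ((u N : F) / (v N : F)) (N : F)) →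
      (∀ m, grow Ψ m ≤ c0 * m + C0) →
      (∀ N ∈ Z, ∀ f, Ψ f = 0 → MvPolynomial.eval ![(u N : F) / (v N : F), (N : F)] f = 0) →
      (∀ q : F[X], aeval (Ψ (MvPolynomial.X 0)) q = 0 → q = 0) →
      (Z.card : ℝ) ≤ C' * (X ^ w +
        X ^ ε * ((X / √P) ^ (1 / 5 : ℝ) + X ^ (7 / 15 : ℝ) / P ^ (1 / 3 : ℝ))) := by
  classical
  obtain ⟨J, b', C1, hb', hpad⟩ := padicI c C υ βe w κ D K' c0 C0 hC hκ hυ hβe hw hnum
  obtain ⟨K2, hsec⟩ := sections_exist c K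
  set K3 : ℕ := max K2 ⌈υ⌉₊ with hK3
  have hdim := fun m : ℕ => dimI (2 * m + 1) (m + b') (by omega) (by omega)
  choose D1 hD1 using hdim
  have hN := fun m : ℕ => ratI_N c C (D1 m) K3 ε hε
  choose CN XN hN using hN
  have hL := fun m : ℕ => ratI_lam c C (D1 m) K3 ε hε
  choose CL XL hL using hL
  set C2 : ℝ := ∑ m ∈ Finset.range (J + 1), (|CN m| + |CL m|) with hC2
  have hC2' : ∀ m, m ≤ J → CN m ≤ C2 ∧ CL m ≤ C2 := by
    intro m hm
    have := Finset.single_le_sum (f := fun m => |CN m| + |CL m|)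
      (fun i _ => by positivity) (Finset.mem_range.mpr (Nat.lt_succ_of_le hm))
    constructor
    · linarith [le_abs_self (CN m), abs_nonneg (CL m)]
    · linarith [le_abs_self (CL m), abs_nonneg (CN m)]
  have hC20 : 0 ≤ C2 := Finset.sum_nonneg fun i _ => by positivity
  refine ⟨|C1| + C2, by positivity, ?_⟩
  have hev : ∀ᶠ X : ℝ in atTop, ∀ m ∈ Finset.range (J + 1), XN m ≤ X ∧ XL m ≤ X :=
    (Filter.eventually_all_finset _).mpr fun m _ =>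
      (eventually_ge_atTop _).and (eventually_ge_atTop _)
  filter_upwards [hpad, hev, eventually_ge_atTop 2] with X hpad hev hX2
  intro M Z p a b ω ω' u v P G' Ψ hpt hpc hω huv hP0 hP2 hP hβ hsix hG0 hG1 hG2 hG hgr hker htr
  have hX1 : (1 : ℝ) ≤ X := by linarith
  have hX0 : (0 : ℝ) < X := by linarith
  set R : ℝ := X ^ ε * ((X / √P) ^ (1 / 5 : ℝ) + X ^ (7 / 15 : ℝ) / P ^ (1 / 3 : ℝ)) with hR
  have hR0 : 0 ≤ R := by positivity
  have hXw : 0 ≤ X ^ w := by positivity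
  have hυK : X ^ υ ≤ X ^ K3 := by
    rw [← Real.rpow_natCast]
    refine Real.rpow_le_rpow_of_exponent_le hX1 ((Nat.le_ceil υ).trans ?_)
    exact_mod_cast le_max_right _ _
  have huv' : ∀ N ∈ Z, a N = u N • ω + v N • ω' ∧ v N ≠ 0 ∧ IsCoprime (u N) (v N) ∧
      |(u N : ℝ)| ≤ X ^ K3 ∧ |(v N : ℝ)| ≤ X ^ K3 := fun N hN =>
    ⟨(huv N hN).1, (huv N hN).2.1, (huv N hN).2.2.1, (huv N hN).2.2.2.1.trans hυK,
      (huv N hN).2.2.2.2.trans hυK⟩
  by_cases hall : ∀ m, m ≤ J → 2 * (2 * m + 1) + 6 * (m + b') ≤ Module.finrank F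
      (spanI (c.cf ω) (c.cf ω') c.θf (Ψ (MvPolynomial.X 0)) (Ψ (MvPolynomial.X 1))
        (2 * m + 1) (m + b')) + 2
  · have h1 := hpad M Z p a b ω ω' u v G' Ψ hpt hpc
      (fun N hN => ⟨(huv N hN).1, (huv N hN).2.1, (huv N hN).2.2.2.1, (huv N hN).2.2.2.2⟩)
      (fun N hN => le_trans (by gcongr; exact hP N hN) hβ) hG0 hG1 hG2 hG hgr hker htr hall
    have h2 : C1 * X ^ w ≤ |C1| * X ^ w := by gcongr; exact le_abs_self _
    nlinarith [abs_nonneg C1]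
  push Not at hall
  obtain ⟨m, hm, hlt⟩ := hall
  obtain ⟨P0, Q0, P1, Q1, hht, hs0, hs1, hli⟩ := hsec X hX2 ω ω' hpc hω
  have hθ : Function.Injective c.θf := fun i j h => c.hinj (Subtype.ext h)
  have hp' : ∀ i j, i ≠ j → c.cf ω i * c.cf ω' j ≠ c.cf ω j * c.cf ω' i := by
    intro i j hij h
    apply hpc i j hij
    simp only [Ctx.pc, Ctx.cf] at h ⊢
    rw [← sub_eq_zero] at h
    exact_mod_cast h
  have hx : ∀ i, c.cf ω i ≠ 0 := by
    intro i h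
    have hω0 : ω ≠ 0 := by
      rintro rfl
      apply hp' 0 1 (by decide)
      simp [Ctx.cf, Ctx.cj, pv]
    exact c.hind i ω hω0 (Subtype.ext h)
  have hfin : ∀ B : ℝ, B ≤ C2 → (Z.card : ℝ) ≤ B * X ^ ε *
      ((X / √P) ^ (1 / 5 : ℝ) + X ^ (7 / 15 : ℝ) / P ^ (1 / 3 : ℝ)) →
      (Z.card : ℝ) ≤ (|C1| + C2) * (X ^ w + R) := by
    intro B hB h
    rw [mul_assoc, ← hR] at h
    have : B * R ≤ C2 * R := by gcongr
    nlinarith [abs_nonneg C1, mul_nonneg (abs_nonneg C1) hXw, mul_nonneg (abs_nonneg C1) hR0,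
      mul_nonneg hC20 hXw]
  have hmr := hev m (Finset.mem_range.mpr (Nat.lt_succ_of_le hm))
  have hΨ : ∀ q : F[X], Ψ (aeval (MvPolynomial.X 0 : MvPolynomial (Fin 2) F) q) =
      aeval (Ψ (MvPolynomial.X 0)) q := fun q => (aeval_algHom_apply Ψ _ q).symm
  have hE : ∀ (y : Fin 2 → F) (q : F[X]),
      MvPolynomial.eval y (aeval (MvPolynomial.X 0 : MvPolynomial (Fin 2) F) q) =
        q.eval (y 0) := by
    intro y q
    have := (aeval_algHom_apply (MvPolynomial.aeval y : MvPolynomial (Fin 2) F →ₐ[F] F)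
      (MvPolynomial.X 0) q).symm
    simpa [MvPolynomial.coe_aeval_eq_eval, coe_aeval_eq_eval] using this
  rcases hD1 m F (PowerSeries F) (c.cf ω) (c.cf ω') c.θf hθ hx hp' _ _ _ _ hs0 hs1 hli
    (Ψ (MvPolynomial.X 0)) (Ψ (MvPolynomial.X 1)) htr with h | ⟨c0', c1', h1, h2, h3, h4⟩ |
      ⟨h0, c0', c1', h1, h2, h3, h4⟩
  · omega
  · refine hfin _ (hC2' m hm).1
      (hN m X hmr.1 M Z p a b ω ω' u v P hpt hpc huv' hP0 hP2 hP hsix ⟨c0', c1', h1, h2, h3, ?_⟩)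
    intro N hN'
    have h5 := hker N hN' (aeval (MvPolynomial.X 0 : MvPolynomial (Fin 2) F) c1' *
      MvPolynomial.X 1 - aeval (MvPolynomial.X 0 : MvPolynomial (Fin 2) F) c0') (by
        rw [map_sub, map_mul, hΨ, hΨ, h4, sub_self])
    rw [map_sub, map_mul, hE, hE, MvPolynomial.eval_X, sub_eq_zero] at h5
    simpa using h5
  · have hht' : ∀ k, |(P0.coeff k : ℝ)| ≤ X ^ K3 ∧ |(Q0.coeff k : ℝ)| ≤ X ^ K3 ∧
        |(P1.coeff k : ℝ)| ≤ X ^ K3 ∧ |(Q1.coeff k : ℝ)| ≤ X ^ K3 := by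
      intro k
      have h6 : X ^ K2 ≤ X ^ K3 := pow_le_pow_right₀ hX1 (le_max_left _ _)
      exact ⟨(hht k).1.trans h6, (hht k).2.1.trans h6, (hht k).2.2.1.trans h6,
        (hht k).2.2.2.trans h6⟩
    refine hfin _ (hC2' m hm).2
      (hL m X hmr.2 M Z p a b ω ω' u v P hpt hpc huv' hP0 hP2 hP hsix P0 Q0 P1 Q1 hht' hs0 hs1
        (fun h => h0 (by rw [← Polynomial.map_mul, h, Polynomial.map_mul])) c0' c1' h1 h2 h3 ?_)
    intro N hN'
    have h5 := hker N hN' (∑ k ∈ Finset.range (D1 m + 1),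
      (MvPolynomial.C (c1'.coeff k) * MvPolynomial.X 0 + MvPolynomial.C (c0'.coeff k)) *
        (MvPolynomial.X 1 * aeval (MvPolynomial.X 0 : MvPolynomial (Fin 2) F)
            (Q0.map (Int.castRingHom F)) -
          aeval (MvPolynomial.X 0 : MvPolynomial (Fin 2) F) (P0.map (Int.castRingHom F))) ^ k *
        (aeval (MvPolynomial.X 0 : MvPolynomial (Fin 2) F) (P1.map (Int.castRingHom F)) -
          MvPolynomial.X 1 * aeval (MvPolynomial.X 0 : MvPolynomial (Fin 2) F)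
            (Q1.map (Int.castRingHom F))) ^ (D1 m - k)) (by
        rw [← h4, map_sum]
        refine Finset.sum_congr rfl fun k _ => ?_
        simp only [map_mul, map_add, map_pow, map_sub, hΨ, MvPolynomial.algHom_C])
    rw [← h5, map_sum]
    refine Finset.sum_congr rfl fun k _ => ?_
    have hq : ∀ (q : ℤ[X]) (t : F), (q.map (Int.castRingHom F)).eval t = aeval t q := by
      intro q t
      rw [eval_map, aeval_def]
      rfl
    simp only [map_mul, map_add, map_pow, map_sub, hE, MvPolynomial.eval_C, MvPolynomial.eval_X,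
      hq, Matrix.cons_val_zero, Matrix.cons_val_one]

/-- Part I, curve step -/
theorem curveI (c : Ctx F) (C υ βe w κ r r' : ℝ) (D K : ℕ) (hC : 1 ≤ C) (hκ : 0 < κ) (hυ : 0 ≤ υ)
    (hβe : 0 ≤ βe) (hw : 0 < w) (hw1 : w < 1) (hr : 0 < r) (hr5 : βe / 5 < r) (hr' : r' < r)
    (hnum : 10 * κ ^ 2 * (2 * υ + βe) + 2 * (10 * κ + 6) * βe < w * (10 * κ + 6) ^ 2) :
    ∀ᶠ X : ℝ in atTop, ∀ (M : ℕ) (Z : Finset ℤ) (p : ℤ → ℕ) (a b : ℤ → Fin 4 → ℤ)
      (ω ω' : Fin 4 → ℤ) (u v : ℤ → ℤ) (P : ℝ) (G : F[X][X]), AllPt c C X M Z p a b →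
      (∀ i j, i ≠ j → c.pc ω ω' i j ≠ 0) →
      (∀ l, |(ω l : ℝ)| ≤ X ^ K ∧ |(ω' l : ℝ)| ≤ X ^ K) →
      (∀ N ∈ Z, a N = u N • ω + v N • ω' ∧ v N ≠ 0 ∧ IsCoprime (u N) (v N) ∧
        |(u N : ℝ)| ≤ X ^ υ ∧ |(v N : ℝ)| ≤ X ^ υ) →
      0 < P → P ≤ X ^ 2 → (∀ N ∈ Z, P ≤ p N) → X / √P ≤ X ^ βe →
      X ^ (7 / 15 : ℝ) / P ^ (1 / 3 : ℝ) ≤ X ^ r' → Curve F D G Z u v →
      ∃ Z6 ⊆ Z, (∀ N ∈ Z6, Six c ω ω' N (u N) (v N)) ∧
        ((Z \ Z6).card : ℝ) ≤ X ^ w + X ^ r := by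
  classical
  have hk2 : 0 < (10 * κ + 6) ^ 2 := by positivity
  set L : ℝ := 10 * κ ^ 2 * (2 * υ + βe) + 2 * (10 * κ + 6) * βe with hL
  have hL0 : 0 ≤ L := by positivity
  set w' : ℝ := (L / (10 * κ + 6) ^ 2 + w) / 2 with hw'
  have hLw : L / (10 * κ + 6) ^ 2 < w := by rw [div_lt_iff₀ hk2]; exact hnum
  have hw'0 : 0 < w' := by
    have : 0 ≤ L / (10 * κ + 6) ^ 2 := by positivity
    rw [hw']; linarith
  have hw'w : w' < w := by rw [hw']; linarith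
  have hnum' : L < w' * (10 * κ + 6) ^ 2 := by
    rw [← div_lt_iff₀ hk2, hw']; linarith
  set r0 : ℝ := max (βe / 5) r' with hr0
  have hr0r : r0 < r := max_lt hr5 hr'
  set ε : ℝ := (r - r0) / 2 with hε
  have hε0 : 0 < ε := by rw [hε]; linarith
  set K1 : ℕ := max 2 ⌈υ⌉₊ with hK1
  obtain ⟨K', hlev⟩ := curve_levels D K1
  obtain ⟨c0, C0, hgrow⟩ := grow_plane (2 * D)
  obtain ⟨C', hC'0, hgrp⟩ := cI_group c C υ βe w' κ ε D K K' c0 C0 hC hκ hυ hβe hw'0 hε0 hnum'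
  obtain ⟨Cf, Xf, hfib⟩ := fiberA c C
  filter_upwards [hgrp, eventually_ge_atTop 2, eventually_ge_atTop C, eventually_ge_atTop Xf,
    la_absorb (D * c0 * C') w' w hw'w, la_absorb (2 * (D * c0 * C' * 2)) (ε + r0) r (by linarith),
    la_absorb (2 * (D * |Cf|)) 0 r hr] with X hgrp hX2 hXC hXf hA1 hA2 hA3
  intro M Z p a b ω ω' u v P G hpt hpc hω huv hP0 hP2 hP hβ hr'' hcurve
  have hX1 : (1 : ℝ) ≤ X := by linarith
  have hX0 : (0 : ℝ) < X := by linarith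
  refine ⟨Z.filter fun N => Six c ω ω' N (u N) (v N), Finset.filter_subset _ _,
    fun N hN => (Finset.mem_filter.mp hN).2, ?_⟩
  set Z' := Z \ Z.filter fun N => Six c ω ω' N (u N) (v N) with hZ'
  have hsub : Z' ⊆ Z := Finset.sdiff_subset
  have hsix : ∀ N ∈ Z', ¬ Six c ω ω' N (u N) (v N) := fun N hN h =>
    (Finset.mem_sdiff.mp hN).2 (Finset.mem_filter.mpr ⟨hsub hN, h⟩)
  have hυK : X ^ υ ≤ X ^ K1 := by
    rw [← Real.rpow_natCast]
    refine Real.rpow_le_rpow_of_exponent_le hX1 ((Nat.le_ceil υ).trans ?_)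
    exact_mod_cast le_max_right _ _
  obtain ⟨Z0, 𝒯, hZ0, ⟨q, hq0, hqD, hq⟩, h𝒯, hcov, hT⟩ := hlev X hX2 F G Z' u v
    (fun N hN => ⟨(huv N (hsub hN)).2.1, (huv N (hsub hN)).2.2.2.1.trans hυK,
      (huv N (hsub hN)).2.2.2.2.trans hυK, by
        have h1 := (hpt N (hsub hN)).hN2
        have h2 : X ^ 2 ≤ X ^ K1 := pow_le_pow_right₀ hX1 (le_max_left _ _)
        nlinarith⟩)
    ⟨hcurve.1, hcurve.2.1, hcurve.2.2.1, fun N hN => hcurve.2.2.2 N (hsub hN)⟩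
  have hZ0c : (Z0.card : ℝ) ≤ D * |Cf| := by
    refine la_card_roots Z0 _ q hq0 D hqD hq _ (abs_nonneg _) fun S hS hSf => ?_
    have hS' : S ⊆ Z := hS.trans (hZ0.trans hsub)
    refine (hfib X hXf M S p a b 0 1 (by decide) (hpt.subset hS') fun N hN N' hN' => ?_).trans
      (le_abs_self _)
    rw [(huv N (hS' hN)).1, (huv N' (hS' hN')).1]
    exact la_cross_of_ratio c ω ω' _ _ _ _ (huv N (hS' hN)).2.1 (huv N' (hS' hN')).2.1
      (hSf N hN N' hN') 0 1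
  set B : ℝ := C' * (X ^ w' +
    X ^ ε * ((X / √P) ^ (1 / 5 : ℝ) + X ^ (7 / 15 : ℝ) / P ^ (1 / 3 : ℝ))) with hB
  have hB0 : 0 ≤ B := by positivity
  have hTc : ∀ T ∈ 𝒯, (T.card : ℝ) ≤ c0 * B := by
    intro T hT'
    obtain ⟨hTZ, G', hG0, hG1, hG2, hG⟩ := hT T hT'
    obtain ⟨G2, hg0, hg1, -, hg3⟩ := exists_mv (F := F) D G' hG0 hG1 hG2
    obtain ⟨Ψ, hΨ, hgroups⟩ := branch_groups (n := 1) (fun _ => G2)
      (fun k j _ => by have := j.2; have := k.2; rw [Fin.le_def]; simp; omega) T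
      (fun N => ![(u N : F) / (v N : F), (N : F)])
      (fun N hN k => by rw [(hg3 _).1]; exact (hG N hN).1)
      (fun N hN k => by
        have hk : k.succ = 1 := by have := k.2; apply Fin.ext; simp
        rw [hk, (hg3 _).2]
        obtain ⟨n, hn0, -, hn⟩ := (hG N hN).2
        intro h
        apply hn0
        have h2 : (n : F) = 0 := by
          rw [hn]
          exact mul_eq_zero_of_right _ h
        exact_mod_cast h2)
    obtain ⟨Rr, hRT, hRc, hRg, hR⟩ := hgroups c0 C0 fun S hS m =>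
      hgrow F _ _ G2 hg0 hg1 (by
        funext N
        exact (hΨ N (hS N.2)).1 0) m
    refine card_le_of_cover T (Rr.image fun N0 => T.filter fun N => ∀ f, Ψ N0 f = 0 →
      MvPolynomial.eval ![(u N : F) / (v N : F), (N : F)] f = 0) c0 B hB0 ?_ ?_ ?_
    · exact_mod_cast Finset.card_image_le.trans hRc
    · intro N hN
      obtain ⟨N0, hN0, h⟩ := hR N hN
      exact ⟨_, Finset.mem_image_of_mem _ hN0, Finset.mem_filter.mpr ⟨hN, h⟩⟩
    · intro S hS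
      obtain ⟨N0, hN0, rfl⟩ := Finset.mem_image.mp hS
      have hS1 := Finset.filter_subset (fun N => ∀ f, Ψ N0 f = 0 →
        MvPolynomial.eval ![(u N : F) / (v N : F), (N : F)] f = 0) T
      have hS2 := hS1.trans hTZ
      have hS3 := hS2.trans hsub
      exact hgrp M _ p a b ω ω' u v P G' (Ψ N0) (hpt.subset hS3) hpc hω
        (fun N hN => huv N (hS3 hN)) hP0 hP2 (fun N hN => hP N (hS3 hN)) hβ
        (fun N hN => hsix N (hS2 hN)) hG0 hG1 hG2 (fun N hN => hG N (hS1 hN)) (hRg N0 hN0)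
        (fun N hN => (Finset.mem_filter.mp hN).2) (hΨ N0 (hRT hN0)).2.2
  have hrest : ((Z' \ Z0).card : ℝ) ≤ D * (c0 * B) := by
    refine card_le_of_cover _ (𝒯.image fun T => T) D _ (by positivity) ?_ ?_ ?_
    · simpa using h𝒯
    · intro N hN
      rcases hcov N (Finset.mem_sdiff.mp hN).1 with h | ⟨T, h1, h2⟩
      · exact absurd h (Finset.mem_sdiff.mp hN).2
      · exact ⟨T, by simpa using h1, h2⟩
    · intro T hT'
      exact hTc T (by simpa using hT')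
  have hsplit : (Z'.card : ℝ) = (Z' \ Z0).card + Z0.card := by
    exact_mod_cast (Finset.card_sdiff_add_card_eq_card hZ0).symm
  have h5 : (X / √P) ^ (1 / 5 : ℝ) ≤ X ^ r0 := by
    calc (X / √P) ^ (1 / 5 : ℝ) ≤ (X ^ βe) ^ (1 / 5 : ℝ) := by gcongr
      _ = X ^ (βe / 5) := by rw [← Real.rpow_mul hX0.le]; congr 1; ring
      _ ≤ X ^ r0 := Real.rpow_le_rpow_of_exponent_le hX1 (le_max_left _ _)
  have h6 : X ^ (7 / 15 : ℝ) / P ^ (1 / 3 : ℝ) ≤ X ^ r0 :=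
    hr''.trans (Real.rpow_le_rpow_of_exponent_le hX1 (le_max_right _ _))
  have h7 : B ≤ C' * (X ^ w' + 2 * X ^ (ε + r0)) := by
    rw [hB, Real.rpow_add hX0]
    refine mul_le_mul_of_nonneg_left (add_le_add_right ?_ _) hC'0
    calc X ^ ε * ((X / √P) ^ (1 / 5 : ℝ) + X ^ (7 / 15 : ℝ) / P ^ (1 / 3 : ℝ))
        ≤ X ^ ε * (X ^ r0 + X ^ r0) := by gcongr
      _ = _ := by ring
  have h8 : (D : ℝ) * (c0 * B) ≤ D * (c0 * (C' * (X ^ w' + 2 * X ^ (ε + r0)))) := by gcongr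
  rw [Real.rpow_zero] at hA3
  rw [hsplit]
  have h9 : (D : ℝ) * (c0 * (C' * (X ^ w' + 2 * X ^ (ε + r0)))) =
      D * c0 * C' * X ^ w' + (2 * (D * c0 * C' * 2) * X ^ (ε + r0)) / 2 := by ring
  linarith

end Vale.Agent.P018
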