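import Vale.Agent.P018.Q.DimII
import Vale.Agent.P018.Q.Mul
import Vale.Agent.P018.Q.CurveCommon

namespace Vale.Agent.P018

open NumberField MvPolynomial

section alg
variable {F : Type} [Field F]

/-- the projective coordinates -/
noncomputable def p2x : Fin 4 → MvPolynomial (Fin 5) F := ![1, X 2, X 3, X 4]

/-- the linear forms on the line -/
noncomputable def p2b (ω ω' : Fin 4 → F) (i : Fin 4) : MvPolynomial (Fin 5) F :=
  C (ω i) * X 0 + C (ω' i)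

/-- the factors of the quartic -/
noncomputable def p2n (θ : Fin 4 → F) (i : Fin 4) : MvPolynomial (Fin 5) F := X 1 - C (θ i)

/-- the test polynomials -/
noncomputable def p2φ (ω ω' θ : Fin 4 → F) (J m : ℕ) (e : (Fin 4 → ℕ) × ℕ) :
    MvPolynomial (Fin 5) F :=
  (∏ i, p2x i ^ e.1 i) * X 0 ^ e.2 * (p2n θ 0 ^ m * p2b ω ω' 0 ^ (J - m))

/-- the index sets -/
def p2M (m : ℕ) : Finset ((Fin 4 → ℕ) × ℕ) :=
  Finset.Nat.antidiagonalTuple 4 (2 * m) ×ˢ Finset.range (m + 1)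

theorem p2_mem_M {m : ℕ} {e : (Fin 4 → ℕ) × ℕ} : e ∈ p2M m ↔ ∑ i, e.1 i = 2 * m ∧ e.2 ≤ m := by
  simp [p2M, Finset.Nat.mem_antidiagonalTuple]

/-- the equations -/
noncomputable def p2H (ω ω' θ : Fin 4 → F) (G2 : MvPolynomial (Fin 2) F) :
    Fin 4 → MvPolynomial (Fin 5) F :=
  Fin.cases (rename (Fin.castLE (by norm_num)) G2) fun k : Fin 3 =>
    X (k.addNat 2) ^ 2 * p2b ω ω' k.succ * p2n θ 0 - p2b ω ω' 0 * p2n θ k.succ

theorem p2_sum (J : ℕ) :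
    ∑ m ∈ Finset.range J, (m + 1) * (8 * (m + 1) - 8 * m) = 4 * J * (J + 1) := by
  induction J with
  | zero => simp
  | succ J ih =>
    rw [Finset.sum_range_succ, ih, show 8 * (J + 1) - 8 * J = 8 by omega]
    ring

theorem p2_basis {L : Type} [CommRing L] [IsDomain L] [Algebra F L] (ω ω' θ : Fin 4 → F)
    (hθ : θ 0 ≠ θ 1) (J : ℕ) (Ψ : MvPolynomial (Fin 5) F →ₐ[F] L)
    (hrel : Ψ (X 2) ^ 2 * Ψ (p2b ω ω' 1) * Ψ (p2n θ 0) = Ψ (p2b ω ω' 0) * Ψ (p2n θ 1))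
    (hn : Ψ (p2n θ 0) ≠ 0) (hb : Ψ (p2b ω ω' 0) ≠ 0)
    (hdim : ∀ m, 1 ≤ m → m ≤ J → 8 * m ≤ Module.finrank F (spanII (K := F)
        ![1, Ψ (X 2), Ψ (X 3), Ψ (X 4)] (Ψ (X 0)) (2 * m) m)) :
    ∃ (lev : Fin (8 * J) → ℕ) (x : Fin (8 * J) → (Fin 4 → ℕ) × ℕ),
      (∀ r, lev r ≤ J ∧ x r ∈ p2M (lev r)) ∧
      LinearIndependent F (fun r => Ψ (p2φ ω ω' θ J (lev r) (x r))) ∧
      ∑ r, lev r = 4 * J * (J + 1) := by
  have hx : ∀ i, Ψ (p2x i) = ![1, Ψ (X 2), Ψ (X 3), Ψ (X 4)] i := by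
    intro i
    fin_cases i <;> simp [p2x]
  have hφ : ∀ m e, Ψ (p2φ ω ω' θ J m e) = (∏ i, ![1, Ψ (X 2), Ψ (X 3), Ψ (X 4)] i ^ e.1 i) *
      Ψ (X 0) ^ e.2 * (Ψ (p2n θ 0) ^ m * Ψ (p2b ω ω' 0) ^ (J - m)) := by
    intro m e
    simp only [p2φ, map_mul, map_pow, map_prod, hx]
  have hbb : ∀ i, Ψ (p2b ω ω' i) = algebraMap F L (ω i) * Ψ (X 0) + algebraMap F L (ω' i) := by
    intro i
    simp [p2b]
  have hnn : Ψ (p2n θ 0) - Ψ (p2n θ 1) = algebraMap F L (θ 1 - θ 0) := by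
    simp [p2n]
  rw [← p2_sum J]
  refine nested_basis (K := F) J p2M
    (fun m e => Ψ (p2φ ω ω' θ J m e)) (fun m => 8 * m)
    (fun a b h => Nat.mul_le_mul_left 8 h) ?_ ?_
  · intro m hm
    rw [Submodule.span_le]
    rintro _ ⟨e, he, rfl⟩
    obtain ⟨he1, he2⟩ := p2_mem_M.1 he
    have mem : ∀ (i : Fin 4) (j : ℕ), j ≤ m + 1 →
        Ψ (p2φ ω ω' θ J (m + 1) (e.1 + Pi.single i 2, j)) ∈ Submodule.span F
          ((fun e => Ψ (p2φ ω ω' θ J (m + 1) e)) '' p2M (m + 1)) := by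
      intro i j hj
      refine Submodule.subset_span ⟨_, p2_mem_M.2 ⟨?_, hj⟩, rfl⟩
      simp only [Pi.add_apply, Finset.sum_add_distrib, he1, Finset.sum_pi_single', Finset.mem_univ,
        if_true]
      ring
    have hd : θ 1 - θ 0 ≠ 0 := sub_ne_zero.2 hθ.symm
    have key : Ψ (p2φ ω ω' θ J m e) = (θ 1 - θ 0)⁻¹ •
        (ω 0 • Ψ (p2φ ω ω' θ J (m + 1) (e.1 + Pi.single 0 2, e.2 + 1)) +
        ω' 0 • Ψ (p2φ ω ω' θ J (m + 1) (e.1 + Pi.single 0 2, e.2)) -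
        ω 1 • Ψ (p2φ ω ω' θ J (m + 1) (e.1 + Pi.single 1 2, e.2 + 1)) -
        ω' 1 • Ψ (p2φ ω ω' θ J (m + 1) (e.1 + Pi.single 1 2, e.2))) := by
      rw [eq_inv_smul_iff₀ hd]
      obtain ⟨t, ht⟩ : ∃ t, J = m + 1 + t := ⟨J - (m + 1), by omega⟩
      have e1 : J - m = t + 1 := by omega
      have e2 : J - (m + 1) = t := by omega
      simp only [hφ, e1, e2, Algebra.smul_def, ← hnn, Fin.prod_univ_four, Pi.add_apply, pow_add]
      simp only [Pi.single_apply]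
      simp
      have hb0 := hbb 0
      have hb1 := hbb 1
      generalize Ψ (p2b ω ω' 0) = B0 at *
      generalize Ψ (p2b ω ω' 1) = B1 at *
      generalize Ψ (p2n θ 0) = n0 at *
      generalize Ψ (p2n θ 1) = n1 at *
      linear_combination
        (Ψ (X 2) ^ e.1 1 * Ψ (X 3) ^ e.1 2 * Ψ (X 4) ^ e.1 3 * Ψ (X 0) ^ e.2 * n0 ^ m * B0 ^ t) *
          (hrel + n0 * hb0 - Ψ (X 2) ^ 2 * n0 * hb1)
    show Ψ (p2φ ω ω' θ J m e) ∈ _
    rw [key]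
    exact Submodule.smul_mem _ _ (Submodule.sub_mem _ (Submodule.sub_mem _ (Submodule.add_mem _
      (Submodule.smul_mem _ _ (mem _ _ (by omega))) (Submodule.smul_mem _ _ (mem _ _ (by omega))))
      (Submodule.smul_mem _ _ (mem _ _ (by omega)))) (Submodule.smul_mem _ _ (mem _ _ (by omega))))
  · intro m hm
    rcases Nat.eq_zero_or_pos m with rfl | hm0
    · simp
    refine (hdim m hm0 hm).trans (le_of_eq ?_)
    have hg : Ψ (p2n θ 0) ^ m * Ψ (p2b ω ω' 0) ^ (J - m) ≠ 0 :=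
      mul_ne_zero (pow_ne_zero _ hn) (pow_ne_zero _ hb)
    have hinj : Function.Injective (LinearMap.mulRight F
        (Ψ (p2n θ 0) ^ m * Ψ (p2b ω ω' 0) ^ (J - m))) := mul_left_injective₀ hg
    rw [(Submodule.equivMapOfInjective _ hinj _).finrank_eq, spanII, Submodule.map_span]
    refine congrArg (fun S : Set L => Module.finrank F (Submodule.span F S)) ?_
    ext z
    constructor
    · rintro ⟨_, ⟨j, I, h1, h2, rfl⟩, rfl⟩
      exact ⟨(I, j), p2_mem_M.2 ⟨h2, h1⟩, hφ m (I, j)⟩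
    · rintro ⟨e, he, rfl⟩
      obtain ⟨he1, he2⟩ := p2_mem_M.1 he
      exact ⟨_, ⟨e.2, e.1, he2, he1, rfl⟩, (hφ m e).symm⟩

theorem p2_deg (ω ω' θ : Fin 4 → F) {J m : ℕ} {e : (Fin 4 → ℕ) × ℕ} (hm : m ≤ J)
    (he : e ∈ p2M m) : (p2φ ω ω' θ J m e).totalDegree ≤ 4 * J := by
  obtain ⟨he1, he2⟩ := p2_mem_M.1 he
  have hx : ∀ i, (p2x (F := F) i).totalDegree ≤ 1 := by
    intro i
    fin_cases i <;> simp [p2x]
  have hb : (p2b ω ω' 0).totalDegree ≤ 1 := by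
    refine (totalDegree_add _ _).trans (max_le ((totalDegree_mul _ _).trans ?_) ?_) <;> simp
  have hn : (p2n θ 0).totalDegree ≤ 1 := by
    refine (totalDegree_sub _ _).trans (max_le ?_ ?_) <;> simp
  have h1 : (∏ i, p2x (F := F) i ^ e.1 i).totalDegree ≤ 2 * m := by
    refine (totalDegree_finsetProd _ _).trans ?_
    rw [← he1]
    exact Finset.sum_le_sum fun i _ => (totalDegree_pow _ _).trans
      ((Nat.mul_le_mul_left _ (hx i)).trans (by omega))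
  have h2 : ((X 0 : MvPolynomial (Fin 5) F) ^ e.2).totalDegree ≤ m := by
    rw [totalDegree_X_pow]; exact he2
  have h3 : (p2n θ 0 ^ m).totalDegree ≤ m :=
    (totalDegree_pow _ _).trans ((Nat.mul_le_mul_left _ hn).trans (by omega))
  have h4 : (p2b ω ω' 0 ^ (J - m)).totalDegree ≤ J - m :=
    (totalDegree_pow _ _).trans ((Nat.mul_le_mul_left _ hb).trans (by omega))
  have h5 := totalDegree_mul (∏ i, p2x (F := F) i ^ e.1 i) (X 0 ^ e.2)
  have h6 := totalDegree_mul (p2n θ 0 ^ m) (p2b ω ω' 0 ^ (J - m))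
  have h7 := totalDegree_mul ((∏ i, p2x (F := F) i ^ e.1 i) * X 0 ^ e.2)
    (p2n θ 0 ^ m * p2b ω ω' 0 ^ (J - m))
  unfold p2φ
  omega

theorem p2_tri (ω ω' θ : Fin 4 → F) (G2 : MvPolynomial (Fin 2) F) (k : Fin 4) :
    ∀ j ∈ (p2H ω ω' θ G2 k).vars, j ≤ k.succ := by
  have mul : ∀ (t : Fin 5) (p q : MvPolynomial (Fin 5) F), (∀ j ∈ p.vars, j ≤ t) →
      (∀ j ∈ q.vars, j ≤ t) → ∀ j ∈ (p * q).vars, j ≤ t := fun t p q hp hq j hj =>
    (Finset.mem_union.1 (vars_mul p q hj)).elim (hp j) (hq j)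
  have hX : ∀ (t i : Fin 5), i ≤ t → ∀ j ∈ (X i : MvPolynomial (Fin 5) F).vars, j ≤ t := by
    intro t i h j hj
    rw [vars_X, Finset.mem_singleton] at hj
    exact hj ▸ h
  have hC : ∀ (t : Fin 5) (a : F), ∀ j ∈ (C a : MvPolynomial (Fin 5) F).vars, j ≤ t := by
    intro t a j hj
    simp at hj
  have hb : ∀ (t : Fin 5) i, ∀ j ∈ (p2b ω ω' i).vars, j ≤ t := fun t i j hj =>
    (Finset.mem_union.1 (vars_add_subset _ _ hj)).elim
      (mul t _ _ (hC t _) (hX t 0 (Fin.zero_le _)) j) (hC t _ j)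
  have hn : ∀ (t : Fin 5), 1 ≤ t → ∀ i, ∀ j ∈ (p2n θ i).vars, j ≤ t := fun t ht i j hj =>
    (Finset.mem_union.1 (vars_sub_subset _ hj)).elim (hX t 1 ht j) (hC t _ j)
  refine Fin.cases ?_ (fun k => ?_) k
  · intro j hj
    obtain ⟨i, -, rfl⟩ := mem_vars_rename _ _ hj
    rw [Fin.le_def]
    have := i.2
    simp
    omega
  · intro j hj
    have h1 : (1 : Fin 5) ≤ k.succ.succ := by rw [Fin.le_def]; simp
    have h2 : k.addNat 2 ≤ k.succ.succ := by rw [Fin.le_def]; simp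
    exact (Finset.mem_union.1 (vars_sub_subset _ hj)).elim
      (mul _ _ _ (mul _ _ _ (fun j hj => hX _ _ h2 j (vars_pow _ _ hj)) (hb _ _)) (hn _ h1 _) j)
      (mul _ _ _ (hb _ _) (hn _ h1 _) j)

theorem p2_pderiv (ω ω' θ : Fin 4 → F) (G2 : MvPolynomial (Fin 2) F) (k : Fin 3)
    (y : Fin 5 → F) : eval y (pderiv k.succ.succ (p2H ω ω' θ G2 k.succ)) =
      2 * y (k.addNat 2) * (ω k.succ * y 0 + ω' k.succ) * (y 1 - θ 0) := by
  have e : k.succ.succ = k.addNat 2 := Fin.ext (by simp)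
  have h0 : (0 : Fin 5) ≠ k.addNat 2 := by rw [Ne, Fin.ext_iff]; simp
  have h1 : (1 : Fin 5) ≠ k.addNat 2 := by rw [Ne, Fin.ext_iff]; simp
  rw [e]
  simp [p2H, p2b, p2n, pderiv_X, h0, h1, Derivation.leibniz_pow]
  ring

theorem p2_pderiv0 (ω ω' θ : Fin 4 → F) (G2 : MvPolynomial (Fin 2) F) (y : Fin 5 → F) :
    eval y (pderiv (0 : Fin 4).succ (p2H ω ω' θ G2 0)) = eval ![y 0, y 1] (pderiv 1 G2) := by
  have e : (0 : Fin 4).succ = Fin.castLE (by norm_num : 2 ≤ 5) 1 := rfl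
  have e2 : p2H ω ω' θ G2 0 = rename (Fin.castLE (by norm_num)) G2 := rfl
  rw [e, e2, pderiv_rename (Fin.castLE_injective _), eval_rename]
  refine congrArg (fun z => eval z _) ?_
  funext i
  fin_cases i <;> rfl

theorem p2_eval0 (ω ω' θ : Fin 4 → F) (G2 : MvPolynomial (Fin 2) F) (y : Fin 5 → F) :
    eval y (p2H ω ω' θ G2 0) = eval ![y 0, y 1] G2 := by
  have e2 : p2H ω ω' θ G2 0 = rename (Fin.castLE (by norm_num)) G2 := rfl
  rw [e2, eval_rename]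
  refine congrArg (fun z => eval z _) ?_
  funext i
  fin_cases i <;> rfl

theorem p2_eval (ω ω' θ : Fin 4 → F) (G2 : MvPolynomial (Fin 2) F) (k : Fin 3) (y : Fin 5 → F) :
    eval y (p2H ω ω' θ G2 k.succ) =
      y (k.addNat 2) ^ 2 * (ω k.succ * y 0 + ω' k.succ) * (y 1 - θ 0) -
        (ω 0 * y 0 + ω' 0) * (y 1 - θ k.succ) := by
  simp [p2H, p2b, p2n]

/-- polynomials with coefficients in a subring -/
noncomputable def p2R (σ : Type) (R : Subring F) : Subring (MvPolynomial σ F) :=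
  (MvPolynomial.map R.subtype).range

theorem p2R_coeff {σ : Type} {R : Subring F} {p : MvPolynomial σ F} (h : p ∈ p2R σ R)
    (e : σ →₀ ℕ) : p.coeff e ∈ R := by
  obtain ⟨q, rfl⟩ := h
  rw [coeff_map]
  exact (q.coeff e).2

theorem p2R_X {σ : Type} (R : Subring F) (i : σ) : X i ∈ p2R σ R := ⟨X i, map_X _ _⟩

theorem p2R_C {σ : Type} {R : Subring F} {a : F} (h : a ∈ R) : C a ∈ p2R σ R :=
  ⟨C ⟨a, h⟩, map_C _ _⟩

theorem p2R_of {σ : Type} {R : Subring F} {p : MvPolynomial σ F} (h : ∀ e, p.coeff e ∈ R) :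
    p ∈ p2R σ R := by
  rw [p.as_sum]
  exact Subring.sum_mem _ fun e _ => ⟨monomial e ⟨_, h e⟩, map_monomial _ _ _⟩

theorem p2R_rename {σ τ : Type} {R : Subring F} {p : MvPolynomial σ F} (f : σ → τ)
    (h : p ∈ p2R σ R) : rename f p ∈ p2R τ R := by
  obtain ⟨q, rfl⟩ := h
  exact ⟨rename f q, map_rename _ _ _⟩

theorem p2R_b {R : Subring F} {ω ω' : Fin 4 → F} (h : ∀ i, ω i ∈ R) (h' : ∀ i, ω' i ∈ R) (i) :
    p2b ω ω' i ∈ p2R (Fin 5) R :=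
  add_mem (mul_mem (p2R_C (h i)) (p2R_X _ _)) (p2R_C (h' i))

theorem p2R_n {R : Subring F} {θ : Fin 4 → F} (h : ∀ i, θ i ∈ R) (i) :
    p2n θ i ∈ p2R (Fin 5) R := sub_mem (p2R_X _ _) (p2R_C (h i))

theorem p2R_φ {R : Subring F} {ω ω' θ : Fin 4 → F} (h : ∀ i, ω i ∈ R) (h' : ∀ i, ω' i ∈ R)
    (h'' : ∀ i, θ i ∈ R) (J m e) : p2φ ω ω' θ J m e ∈ p2R (Fin 5) R := by
  refine mul_mem (mul_mem (prod_mem fun i _ => pow_mem ?_ _) (pow_mem (p2R_X _ _) _))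
    (mul_mem (pow_mem (p2R_n h'' _) _) (pow_mem (p2R_b h h' _) _))
  fin_cases i
  · exact one_mem _
  · exact p2R_X _ _
  · exact p2R_X _ _
  · exact p2R_X _ _

theorem p2R_H {R : Subring F} {ω ω' θ : Fin 4 → F} (h : ∀ i, ω i ∈ R) (h' : ∀ i, ω' i ∈ R)
    (h'' : ∀ i, θ i ∈ R) {G2 : MvPolynomial (Fin 2) F} (hG : ∀ e, G2.coeff e ∈ R) (k) :
    p2H ω ω' θ G2 k ∈ p2R (Fin 5) R := by
  refine Fin.cases (p2R_rename _ (p2R_of hG)) (fun k => ?_) k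
  exact sub_mem (mul_mem (mul_mem (pow_mem (p2R_X _ _) _) (p2R_b h h' _)) (p2R_n h'' _))
    (mul_mem (p2R_b h h' _) (p2R_n h'' _))

/-- units of a subring -/
def p2U (R : Subring F) (z : F) : Prop := z ≠ 0 ∧ z ∈ R ∧ z⁻¹ ∈ R

theorem p2U.mul {R : Subring F} {x y : F} (hx : p2U R x) (hy : p2U R y) : p2U R (x * y) :=
  ⟨mul_ne_zero hx.1 hy.1, mul_mem hx.2.1 hy.2.1, by rw [mul_inv]; exact mul_mem hx.2.2 hy.2.2⟩

theorem p2U.inv {R : Subring F} {x : F} (hx : p2U R x) : p2U R x⁻¹ :=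
  ⟨inv_ne_zero hx.1, hx.2.2, by rw [inv_inv]; exact hx.2.1⟩

theorem p2U.div {R : Subring F} {x y : F} (hx : p2U R x) (hy : p2U R y) : p2U R (x / y) := by
  rw [div_eq_mul_inv]; exact hx.mul hy.inv

theorem p2U.pow {R : Subring F} {x : F} (hx : p2U R x) (n : ℕ) : p2U R (x ^ n) :=
  ⟨pow_ne_zero _ hx.1, pow_mem hx.2.1 _, by rw [← inv_pow]; exact pow_mem hx.2.2 _⟩

theorem p2c_mul {R : Subring F} {π a a' b b' : F} (ha : (a - a') / π ∈ R) (hb : (b - b') / π ∈ R)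
    (h1 : a' ∈ R) (h2 : b ∈ R) : (a * b - a' * b') / π ∈ R := by
  have : (a * b - a' * b') / π = (a - a') / π * b + a' * ((b - b') / π) := by ring
  rw [this]
  exact add_mem (mul_mem ha h2) (mul_mem h1 hb)

theorem p2c_inv {R : Subring F} {π a a' : F} (ha : (a - a') / π ∈ R) (h1 : p2U R a)
    (h2 : p2U R a') : (a⁻¹ - a'⁻¹) / π ∈ R := by
  have : (a⁻¹ - a'⁻¹) / π = -(a⁻¹ * a'⁻¹ * ((a - a') / π)) := by
    have := h1.1
    have := h2.1
    field_simp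
    ring
  rw [this]
  exact neg_mem (mul_mem (mul_mem h1.2.2 h2.2.2) ha)

theorem p2c_lin {R : Subring F} {π a a' : F} (ha : (a - a') / π ∈ R) {s : F} (hs : s ∈ R) (t : F) :
    (s * a + t - (s * a' + t)) / π ∈ R := by
  have : (s * a + t - (s * a' + t)) / π = s * ((a - a') / π) := by ring
  rw [this]
  exact mul_mem hs ha

/-- the local data of a point -/
structure P2Pt (R : Subring F) (ω ω' θ : Fin 4 → F) (M N u v : F) (α β : Fin 4 → F) : Prop where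
  uα : ∀ i, p2U R (α i)
  uβ : ∀ i, p2U R (β i)
  uv : p2U R v
  uM : p2U R M
  u2 : p2U R 2
  hu : u ∈ R
  hN : N ∈ R
  hab : ∀ i, α i ^ 2 * β i = M * (N - θ i)
  hβ : ∀ i, β i = u * ω i + v * ω' i

/-- the coordinates of a point -/
def p2y (N u v : F) (α : Fin 4 → F) : Fin 5 → F := ![u / v, N, α 1 / α 0, α 2 / α 0, α 3 / α 0]

theorem p2y_add (N u v : F) (α : Fin 4 → F) (k : Fin 3) :
    p2y N u v α (k.addNat 2) = α k.succ / α 0 := by
  fin_cases k <;> rfl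

section
variable {R : Subring F} {ω ω' θ : Fin 4 → F} {M N u v : F} {α β : Fin 4 → F}
  (h : P2Pt R ω ω' θ M N u v α β)
include h

theorem P2Pt.lin (i : Fin 4) : ω i * (u / v) + ω' i = β i / v := by
  have := h.uv.1
  rw [h.hβ]
  field_simp

theorem P2Pt.sub (i : Fin 4) : N - θ i = α i ^ 2 * β i / M := by
  have := h.uM.1
  rw [h.hab]
  field_simp

theorem P2Pt.mem (j : Fin 5) : p2y N u v α j ∈ R := by
  fin_cases j
  · show u / v ∈ R
    rw [div_eq_mul_inv]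
    exact mul_mem h.hu h.uv.2.2
  · exact h.hN
  · exact ((h.uα 1).div (h.uα 0)).2.1
  · exact ((h.uα 2).div (h.uα 0)).2.1
  · exact ((h.uα 3).div (h.uα 0)).2.1

theorem P2Pt.eval_H (G2 : MvPolynomial (Fin 2) F) (k : Fin 3) :
    eval (p2y N u v α) (p2H ω ω' θ G2 k.succ) = 0 := by
  rw [p2_eval, p2y_add]
  show (α k.succ / α 0) ^ 2 * (ω k.succ * (u / v) + ω' k.succ) * (N - θ 0) -
    (ω 0 * (u / v) + ω' 0) * (N - θ k.succ) = 0
  rw [h.lin, h.lin, h.sub, h.sub]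
  have := (h.uα 0).1
  have := h.uv.1
  have := h.uM.1
  field_simp
  ring

theorem P2Pt.unit_d (G2 : MvPolynomial (Fin 2) F) (k : Fin 3) :
    p2U R (eval (p2y N u v α) (pderiv k.succ.succ (p2H ω ω' θ G2 k.succ))) := by
  rw [p2_pderiv, p2y_add]
  show p2U R (2 * (α k.succ / α 0) * (ω k.succ * (u / v) + ω' k.succ) * (N - θ 0))
  rw [h.lin, h.sub]
  exact ((h.u2.mul ((h.uα _).div (h.uα 0))).mul ((h.uβ _).div h.uv)).mul
    ((((h.uα 0).pow 2).mul (h.uβ 0)).div h.uM)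

theorem P2Pt.sq (i : Fin 4) : (α i / α 0) ^ 2 =
    (ω 0 * (u / v) + ω' 0) * (1 * N + -θ i) * ((ω i * (u / v) + ω' i) * (1 * N + -θ 0))⁻¹ := by
  rw [one_mul, ← sub_eq_add_neg, ← sub_eq_add_neg, h.lin, h.lin, h.sub, h.sub]
  have := (h.uα 0).1
  have := (h.uβ 0).1
  have := (h.uβ i).1
  have := h.uv.1
  have := h.uM.1
  field_simp

theorem P2Pt.unit_lin (i : Fin 4) : p2U R (ω i * (u / v) + ω' i) := by
  rw [h.lin]; exact (h.uβ i).div h.uv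

theorem P2Pt.unit_sub (i : Fin 4) : p2U R (1 * N + -θ i) := by
  rw [one_mul, ← sub_eq_add_neg, h.sub]
  exact (((h.uα i).pow 2).mul (h.uβ i)).div h.uM

theorem P2Pt.cong {π N' u' v' : F} {α' β' : Fin 4 → F} (h' : P2Pt R ω ω' θ M N' u' v' α' β')
    (hω : ∀ i, ω i ∈ R) (h1 : (u / v - u' / v') / π ∈ R) (h2 : (N - N') / π ∈ R) (i : Fin 4) :
    ((α i / α 0) ^ 2 - (α' i / α' 0) ^ 2) / π ∈ R := by
  rw [h.sq, h'.sq]
  have hl := fun j => p2c_lin h1 (hω j) (ω' j)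
  have hs := fun j => p2c_lin h2 (one_mem R) (-θ j)
  exact p2c_mul (p2c_mul (hl 0) (hs i) (h'.unit_lin 0).2.1 (h.unit_sub i).2.1)
    (p2c_inv (p2c_mul (hl i) (hs 0) (h'.unit_lin i).2.1 (h.unit_sub 0).2.1)
      ((h.unit_lin i).mul (h.unit_sub 0)) ((h'.unit_lin i).mul (h'.unit_sub 0)))
    ((h'.unit_lin 0).mul (h'.unit_sub i)).2.1 ((h.unit_lin i).mul (h.unit_sub 0)).2.2

theorem P2Pt.entry {J m : ℕ} {e : (Fin 4 → ℕ) × ℕ} (hm : m ≤ J) (he : e ∈ p2M m) :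
    (∏ i, α i ^ e.1 i) * u ^ e.2 * v ^ (m - e.2) =
      (v / β 0) ^ J * M ^ m * eval (p2y N u v α) (p2φ ω ω' θ J m e) := by
  obtain ⟨he1, he2⟩ := p2_mem_M.1 he
  have h0 := (h.uα 0).1
  have hx : ∀ i, eval (p2y N u v α) (p2x i) = α i / α 0 := by
    intro i
    fin_cases i <;> simp [p2x, p2y, h0]
  have hb : eval (p2y N u v α) (p2b ω ω' 0) = β 0 / v := by
    rw [← h.lin]; simp [p2b, p2y]
  have hn : eval (p2y N u v α) (p2n θ 0) = α 0 ^ 2 * β 0 / M := by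
    rw [← h.sub]; simp [p2n, p2y]
  have hs : eval (p2y N u v α) (X 0) = u / v := by simp [p2y]
  simp only [p2φ, map_mul, map_pow, map_prod, hx, hb, hn, hs, div_pow, Finset.prod_div_distrib,
    Finset.prod_pow_eq_pow_sum, he1]
  obtain ⟨t, rfl⟩ : ∃ t, J = m + t := ⟨J - m, by omega⟩
  obtain ⟨r, hr⟩ : ∃ r, m = e.2 + r := ⟨m - e.2, by omega⟩
  have e1 : m - e.2 = r := by omega
  rw [e1, Nat.add_sub_cancel_left]
  have := (h.uβ 0).1
  have := h.uv.1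
  have := h.uM.1
  rw [hr]
  field_simp
  ring

end

end alg

end Vale.Agent.P018
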