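import Vale.Agent.P018.Q.DimII
import Vale.Agent.P018.Q.Mul
import Vale.Agent.P018.Q.CurveCommon
import Vale.Agent.P018.Q.PadicIIAux

namespace Vale.Agent.P018

open NumberField Polynomial Filter

variable {F : Type} [Field F] [NumberField F]

/-- the coordinates `(s, N, α_1 / α_0, α_2 / α_0, α_3 / α_0)` of a point over a `β`-line -/
noncomputable def Ctx.ptII (c : Ctx F) (a : Fin 4 → ℤ) (N u v : ℤ) : Fin 5 → F :=
  ![(u : F) / (v : F), (N : F), ((c.cj a 1 : 𝓞 F) : F) / ((c.cj a 0 : 𝓞 F) : F),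
    ((c.cj a 2 : 𝓞 F) : F) / ((c.cj a 0 : 𝓞 F) : F),
    ((c.cj a 3 : 𝓞 F) : F) / ((c.cj a 0 : 𝓞 F) : F)]

/-- conjugates in the field -/
noncomputable def p2c (c : Ctx F) (a : Fin 4 → ℤ) (i : Fin 4) : F := ((c.cj a i : 𝓞 F) : F)

/-- roots in the field -/
noncomputable def p2θ (c : Ctx F) (i : Fin 4) : F := ((c.ϑ i : 𝓞 F) : F)

theorem p2_cj_lin (c : Ctx F) (ω ω' : Fin 4 → ℤ) (u v : ℤ) (i : Fin 4) :
    c.cj (u • ω + v • ω') i = (u : 𝓞 F) * c.cj ω i + (v : 𝓞 F) * c.cj ω' i := by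
  simp only [Ctx.cj, pv, Pi.add_apply, Pi.smul_apply, smul_eq_mul, Finset.mul_sum,
    ← Finset.sum_add_distrib]
  refine Finset.sum_congr rfl fun l _ => ?_
  push_cast
  ring

theorem p2_avoid (c : Ctx F) (C υ αe : ℝ) (K : ℕ) (hC : 1 ≤ C) : ∃ K' : ℕ, ∀ᶠ X : ℝ in atTop,
    ∀ (M : ℕ) (N : ℤ) (p : ℕ) (a b ω ω' : Fin 4 → ℤ) (u v n : ℤ), IsPt c C X M N p a b →
      b = u • ω + v • ω' → v ≠ 0 → |(v : ℝ)| ≤ X ^ υ → (p : ℝ) ^ (1 / 4 : ℝ) ≤ X ^ αe → n ≠ 0 →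
      |(n : ℝ)| ≤ X ^ K → ∃ A : ℤ, A ≠ 0 ∧ |(A : ℝ)| ≤ X ^ K' ∧ ∀ π : ℕ, π.Prime →
        ¬ (π : ℤ) ∣ A → ¬ (π : ℤ) ∣ v ∧ p2U (locR F π) (n : F) ∧
          P2Pt (locR F π) (p2c c ω) (p2c c ω') (p2θ c) M N u v (p2c c a) (p2c c b) := by
  obtain ⟨C1, hC1, -, hsz, -⟩ := size_bounds c.ϑ c.hind
  refine ⟨1 + K + ⌈υ⌉₊ + (⌈αe⌉₊ * 4 + 1) + 1 + 2 * 4, ?_⟩
  filter_upwards [eventually_ge_atTop 2, eventually_ge_atTop C, eventually_ge_atTop (C1 * C)]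
    with X hX2 hXC hXC1 M N p a b ω ω' u v n h hb hv0 hv hp hn0 hn
  have hX1 : 1 ≤ X := by linarith
  obtain ⟨m, hm0, hmC, hprod⟩ := h.hnorm
  obtain ⟨Nb, b', hNb, -⟩ := c.exists_norm b
  have hb0 : b ≠ 0 := by
    intro e
    have := h.hb1
    rw [e] at this
    have h2 : Finset.univ.gcd (0 : Fin 4 → ℤ) = 0 := Finset.gcd_eq_zero_iff.2 fun _ _ => rfl
    rw [h2] at this
    exact zero_ne_one this
  have hNb0 : Nb ≠ 0 := by
    intro e
    rw [e, Int.cast_zero, Finset.prod_eq_zero_iff] at hNb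
    obtain ⟨i, -, hi⟩ := hNb
    exact c.hind i b hb0 hi
  have hp1 : (1 : ℝ) ≤ p := by exact_mod_cast h.hp.one_le
  have s1 : |(v : ℝ)| ≤ X ^ ⌈υ⌉₊ := by
    rw [← Real.rpow_natCast]
    exact hv.trans (Real.rpow_le_rpow_of_exponent_le hX1 (Nat.le_ceil _))
  have s2 : (p : ℝ) ≤ X ^ (⌈αe⌉₊ * 4) := by
    have e : ((p : ℝ) ^ (1 / 4 : ℝ)) ^ 4 = p := by
      rw [← Real.rpow_natCast, ← Real.rpow_mul (Nat.cast_nonneg p)]
      norm_num
    rw [← e, pow_mul]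
    refine pow_le_pow_left₀ (by positivity) (hp.trans ?_) _
    rw [← Real.rpow_natCast]
    exact Real.rpow_le_rpow_of_exponent_le hX1 (Nat.le_ceil _)
  have s3 : |(Nb : ℝ)| ≤ X ^ (2 * 4) := by
    obtain ⟨φ⟩ : Nonempty (F →+* ℂ) := inferInstance
    have e1 : |(Nb : ℝ)| = ∏ i, ‖pv b (emb φ (c.ϑ i))‖ := by
      have := congrArg (fun t => ‖emb φ t‖) hNb
      simp only [map_prod, Ctx.cj, map_pv, norm_prod, map_intCast, Complex.norm_intCast] at this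
      exact this.symm
    have e2 : ∀ i, ‖pv b (emb φ (c.ϑ i))‖ ≤ X ^ 2 := by
      intro i
      refine (hsz φ i b _ h.hb).trans ?_
      have e3 : C * X / √(p : ℝ) ≤ C * X := div_le_self (by positivity) (Real.one_le_sqrt.2 hp1)
      calc C1 * (C * X / √(p : ℝ)) ≤ C1 * (C * X) := by gcongr
        _ = C1 * C * X := by ring
        _ ≤ X * X := by gcongr
        _ = X ^ 2 := by ring
    rw [e1, pow_mul]
    calc ∏ i, ‖pv b (emb φ (c.ϑ i))‖ ≤ ∏ _i : Fin 4, X ^ 2 :=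
          Finset.prod_le_prod (fun i _ => norm_nonneg _) fun i _ => e2 i
      _ = (X ^ 2) ^ 4 := by simp
  have hM0 : (M : ℤ) ≠ 0 := by exact_mod_cast h.hM0.ne'
  have hp0 : (p : ℤ) ≠ 0 := by exact_mod_cast h.hp.ne_zero
  refine ⟨2 * n * v * (p * m) * M * Nb, by positivity, ?_, fun π hπ hA => ?_⟩
  · push_cast
    simp only [abs_mul, pow_add, pow_one, Nat.abs_cast, abs_two]
    have := h.hMC
    gcongr
    · exact hmC.trans hXC
    · exact h.hMC.trans hXC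
  have hz : ∀ z : 𝓞 F, z ∣ ((2 * n * v * (p * m) * M * Nb : ℤ) : 𝓞 F) →
      p2U (locR F π) (z : F) := by
    intro z hz
    refine ⟨fun e => ?_, coe_mem_locR π z, inv_mem_locR π hπ z _ hz hA⟩
    have e' : z = 0 := by exact_mod_cast e
    rw [e', zero_dvd_iff, Int.cast_eq_zero] at hz
    exact hA (hz ▸ dvd_zero _)
  have hz' : ∀ z : ℤ, z ∣ 2 * n * v * (p * m) * M * Nb → p2U (locR F π) (z : F) := by
    intro z h1
    have := hz (z : 𝓞 F) (Int.cast_dvd_cast _ _ h1)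
    simpa using this
  refine ⟨fun e => hA (e.trans ⟨2 * n * (p * m) * M * Nb, by ring⟩),
    hz' n ⟨2 * v * (p * m) * M * Nb, by ring⟩, fun i => hz _ ?_, fun i => hz _ ?_,
    hz' v ⟨2 * n * (p * m) * M * Nb, by ring⟩, ?_, ?_, ?_, ?_, fun i => ?_, fun i => ?_⟩
  · refine (Finset.dvd_prod_of_mem _ (Finset.mem_univ i)).trans ?_
    rw [hprod]
    exact ⟨2 * n * v * M * Nb, by push_cast; ring⟩
  · refine (Finset.dvd_prod_of_mem _ (Finset.mem_univ i)).trans ?_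
    rw [hNb]
    exact ⟨2 * n * v * (p * m) * M, by push_cast; ring⟩
  · simpa using hz' M ⟨2 * n * v * (p * m) * Nb, by ring⟩
  · simpa using hz' 2 ⟨n * v * (p * m) * M * Nb, by ring⟩
  · exact intCast_mem _ _
  · exact intCast_mem _ _
  · have := congrArg (fun z : 𝓞 F => (z : F)) (h.hab i)
    simpa [p2c, p2θ] using this
  · have := congrArg (fun z : 𝓞 F => (z : F)) (p2_cj_lin c ω ω' u v i)
    rw [← hb] at this
    simpa [p2c] using this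

theorem p2_exists_J {t w : ℝ} (ht : 0 ≤ t) (hw : 0 < w) (h : t < 8 * w) :
    ∃ J : ℕ, 1 ≤ J ∧ t * ((4 * J * (J + 1) : ℕ) : ℝ) < w * ((4 * J * (8 * J - 1) : ℕ) : ℝ) := by
  obtain ⟨J, hJ⟩ := exists_nat_gt ((w + t) / (8 * w - t))
  have h1 : 0 < 8 * w - t := by linarith
  have h2 : w + t < J * (8 * w - t) := (div_lt_iff₀ h1).1 hJ
  have h3 : 1 ≤ J := by
    rcases Nat.eq_zero_or_pos J with rfl | h
    · simp at h2; linarith
    · exact h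
  refine ⟨J, h3, ?_⟩
  have h4 : ((8 * J - 1 : ℕ) : ℝ) = 8 * J - 1 := by
    rw [Nat.cast_sub (by omega)]; push_cast; ring
  have h5 : (0 : ℝ) < J := by exact_mod_cast h3
  push_cast
  rw [h4]
  nlinarith

theorem p2_ev (A t1 t2 : ℝ) (h : t1 < t2) : ∀ᶠ X : ℝ in atTop, A * X ^ t1 < X ^ t2 := by
  filter_upwards [(tendsto_rpow_atTop (sub_pos.2 h)).eventually_gt_atTop A,
    eventually_gt_atTop 0] with X h1 h2
  have : X ^ t2 = X ^ (t2 - t1) * X ^ t1 := by rw [← Real.rpow_add h2]; ring_nf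
  rw [this]
  exact mul_lt_mul_of_pos_right h1 (Real.rpow_pos_of_pos h2 _)

/-- Part II: the `π`-adic determinant method on one branch kernel -/
theorem padicII (c : Ctx F) (C υ αe w : ℝ) (D K c0 C0 : ℕ) (hC : 1 ≤ C) (hυ : 0 ≤ υ)
    (hαe : 0 ≤ αe) (hw : 0 < w) (hnum : 2 * αe + υ < 8 * w) :
    ∃ (J : ℕ) (C' : ℝ), ∀ᶠ X : ℝ in atTop, ∀ (M : ℕ) (Z : Finset ℤ) (p : ℤ → ℕ)
      (a b : ℤ → Fin 4 → ℤ) (ω ω' : Fin 4 → ℤ) (u v : ℤ → ℤ) (G' : ℤ[X][X])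
      (Ψ : MvPolynomial (Fin 5) F →ₐ[F] PowerSeries F), AllPt c C X M Z p a b →
      (∀ N ∈ Z, b N = u N • ω + v N • ω' ∧ v N ≠ 0 ∧ |(u N : ℝ)| ≤ X ^ υ ∧ |(v N : ℝ)| ≤ X ^ υ) →
      (∀ N ∈ Z, (p N : ℝ) ^ (1 / 4 : ℝ) ≤ X ^ αe) →
      G' ≠ 0 → G'.natDegree ≤ D → (∀ j, (G'.coeff j).natDegree ≤ D) →
      (∀ N ∈ Z, (G'.map (mapRingHom (Int.castRingHom F))).evalEval
          ((u N : F) / (v N : F)) (N : F) = 0 ∧
        ∃ n : ℤ, n ≠ 0 ∧ |(n : ℝ)| ≤ X ^ K ∧ (n : F) = (v N : F) ^ D *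
          ((derivative G').map (mapRingHom (Int.castRingHom F))).evalEval
            ((u N : F) / (v N : F)) (N : F)) →
      (∀ m, grow Ψ m ≤ c0 * m + C0) →
      (∀ N ∈ Z, ∀ f, Ψ f = 0 → MvPolynomial.eval (c.ptII (a N) N (u N) (v N)) f = 0) →
      (∀ k : Fin 3, Ψ (MvPolynomial.X (k.addNat 2)) ^ 2 *
          (((c.cj ω k.succ : 𝓞 F) : F) • Ψ (MvPolynomial.X 0) +
            algebraMap F _ ((c.cj ω' k.succ : 𝓞 F) : F)) *
          (Ψ (MvPolynomial.X 1) - algebraMap F _ ((c.ϑ 0 : 𝓞 F) : F)) =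
        (((c.cj ω 0 : 𝓞 F) : F) • Ψ (MvPolynomial.X 0) +
            algebraMap F _ ((c.cj ω' 0 : 𝓞 F) : F)) *
          (Ψ (MvPolynomial.X 1) - algebraMap F _ ((c.ϑ k.succ : 𝓞 F) : F))) →
      Ψ (MvPolynomial.X 1) - algebraMap F _ ((c.ϑ 0 : 𝓞 F) : F) ≠ 0 →
      ((c.cj ω 0 : 𝓞 F) : F) • Ψ (MvPolynomial.X 0) +
        algebraMap F _ ((c.cj ω' 0 : 𝓞 F) : F) ≠ 0 →
      (∀ m, 1 ≤ m → m ≤ J → 8 * m ≤ Module.finrank F (spanII (K := F)
        ![1, Ψ (MvPolynomial.X 2), Ψ (MvPolynomial.X 3), Ψ (MvPolynomial.X 4)]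
          (Ψ (MvPolynomial.X 0)) (2 * m) m)) →
      (Z.card : ℝ) ≤ C' * X ^ w := by
  classical
  obtain ⟨C1, hC1, -, hsz, -⟩ := size_bounds c.ϑ c.hind
  obtain ⟨K', hK'⟩ := p2_avoid c C υ αe K hC
  obtain ⟨k, hk⟩ := primes_avoid K' w hw
  obtain ⟨k', hk'⟩ := sign_classes F
  obtain ⟨J, hJ1, hJ⟩ := p2_exists_J (t := 2 * αe + υ) (by positivity) hw hnum
  refine ⟨J, k * (D * k * (k' * (k' * (k' * ((c0 * (4 * J) : ℕ) : ℝ))))), ?_⟩
  filter_upwards [hK', p2_ev (((8 * J).factorial : ℝ) * (C1 ^ 2) ^ (4 * J * (J + 1))) _ _ hJ,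
    eventually_ge_atTop 2, (tendsto_rpow_atTop hw).eventually_ge_atTop 3] with X hK' hev hX2 hX3
  intro M Z p a b ω ω' u v G' Ψ hall hb hp hG0 hGd hGc hG hgrow hker hrel hn0 hb0 hdim
  have hX0 : 0 < X := by linarith
  obtain ⟨G2, -, -, hG2c, hG2⟩ := exists_mv D (F := F) G' hG0 hGd hGc
  have hΨb : ∀ i, Ψ (p2b (p2c c ω) (p2c c ω') i) = ((c.cj ω i : 𝓞 F) : F) • Ψ (MvPolynomial.X 0) +
      algebraMap F _ ((c.cj ω' i : 𝓞 F) : F) := by
    intro i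
    simp only [p2b, p2c, map_add, map_mul, MvPolynomial.algHom_C, Algebra.smul_def]
  have hΨn : ∀ i, Ψ (p2n (p2θ c) i) =
      Ψ (MvPolynomial.X 1) - algebraMap F _ ((c.ϑ i : 𝓞 F) : F) := by
    intro i
    simp only [p2n, p2θ, map_sub, MvPolynomial.algHom_C]
  obtain ⟨lev, x, hlx, hli, hsum⟩ := p2_basis (p2c c ω) (p2c c ω') (p2θ c)
    (fun e => absurd (c.hinj (by exact_mod_cast (show ((c.ϑ 0 : 𝓞 F) : F) = c.ϑ 1 from e)))
      (by decide)) J Ψ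
    (by rw [hΨb, hΨb, hΨn, hΨn]; exact hrel 0) (by rw [hΨn]; exact hn0) (by rw [hΨb]; exact hb0)
    hdim
  obtain ⟨Pr, hPr1, hPr2, hPr3⟩ := hk X hX2
  let Good : ℕ → ℤ → Prop := fun π N => ¬ (π : ℤ) ∣ v N ∧
    p2U (locR F π) (((derivative G').map (mapRingHom (Int.castRingHom F))).evalEval
      ((u N : F) / (v N : F)) (N : F)) ∧
    P2Pt (locR F π) (p2c c ω) (p2c c ω') (p2θ c) M N (u N) (v N) (p2c c (a N)) (p2c c (b N))
  have hgood : ∀ N ∈ Z, ∃ π ∈ Pr, Good π N := by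
    intro N hN
    obtain ⟨n, n0, n1, n2⟩ := (hG N hN).2
    obtain ⟨b1, b2, -, b4⟩ := hb N hN
    obtain ⟨A, a0, a1, a2⟩ := hK' M N (p N) (a N) (b N) ω ω' (u N) (v N) n (hall N hN) b1 b2 b4
      (hp N hN) n0 n1
    obtain ⟨π, k1, k2⟩ := hPr3 A a0 a1
    obtain ⟨k3, k4, k5⟩ := a2 π (hPr2 π k1).1 k2
    refine ⟨π, k1, k3, ?_, k5⟩
    have := k4.div (k5.uv.pow D)
    rwa [n2, mul_div_cancel_left₀ _ (k5.uv.pow D).1] at this
  -- one residue class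
  have cls : ∀ π ∈ Pr, ∀ T ⊆ Z, (∀ N ∈ T, Good π N) →
      (∀ N ∈ T, ∀ N' ∈ T, ∀ j, (p2y (N : F) (u N) (v N) (p2c c (a N)) j -
        p2y (N' : F) (u N') (v N') (p2c c (a N')) j) / π ∈ locR F π) →
      (T.card : ℝ) ≤ ((c0 * (4 * J) : ℕ) : ℝ) := by
    intro π hπ T hT hg hc
    obtain ⟨π1, π2, -⟩ := hPr2 π hπ
    have r1 : ∀ i, p2c c ω i ∈ locR F π := fun i => coe_mem_locR π _
    have r2 : ∀ i, p2c c ω' i ∈ locR F π := fun i => coe_mem_locR π _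
    have r3 : ∀ i, p2θ c i ∈ locR F π := fun i => coe_mem_locR π _
    have r4 : ∀ e, G2.coeff e ∈ locR F π := fun e => by
      obtain ⟨z, hz⟩ := hG2c e
      rw [hz]; exact intCast_mem _ _
    rcases T.eq_empty_or_nonempty with rfl | ⟨N0, hN0⟩
    · exact Nat.cast_le.2 (Nat.zero_le _)
    have uM := (hg N0 hN0).2.2.uM
    refine Nat.cast_le.2 (class_bound (n := 4) (D := 8 * J) π (4 * J * (8 * J - 1)) π1
      (le_of_eq (by ring)) (p2H (p2c c ω) (p2c c ω') (p2θ c) G2)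
      (fun k => p2R_coeff (p2R_H r1 r2 r3 r4 k)) (p2_tri _ _ _ G2) T
      (fun N => p2y (N : F) (u N) (v N) (p2c c (a N)))
      (fun N _ N' _ e => by exact_mod_cast (show (N : F) = N' from congrFun e 1))
      (fun N hN => (hg N hN).2.2.mem) (fun N hN k => ?_) (fun N hN k => ?_) hc Ψ c0 C0 (4 * J)
      hgrow (fun N hN => hker N (hT hN))
      (fun r => p2φ (p2c c ω) (p2c c ω') (p2θ c) J (lev r) (x r))
      (fun r => p2R_coeff (p2R_φ r1 r2 r3 _ _ _)) (fun r => p2_deg _ _ _ (hlx r).1 (hlx r).2) hli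
      (fun N r => (∏ i, c.cj (a N) i ^ (x r).1 i) * (u N : 𝓞 F) ^ (x r).2 *
        (v N : 𝓞 F) ^ (lev r - (x r).2))
      (fun N => ((v N : F) / p2c c (b N) 0) ^ J) (fun r => (M : F) ^ lev r)
      (fun r => ⟨(uM.pow _).1, (uM.pow _).2.1⟩)
      (fun N hN => ⟨(((hg N hN).2.2.uv.div ((hg N hN).2.2.uβ 0)).pow J).1,
        (((hg N hN).2.2.uv.div ((hg N hN).2.2.uβ 0)).pow J).2.1⟩)
      (fun N hN r => ?_) (fun r => (C1 ^ 2 * X ^ (2 * αe + υ)) ^ lev r) (fun N hN r ψ => ?_) ?_)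
    · refine Fin.cases ?_ (fun k => (hg N hN).2.2.eval_H G2 k) k
      rw [p2_eval0, (hG2 _).1]
      exact (hG N (hT hN)).1
    · refine Fin.cases ?_ (fun k => ⟨((hg N hN).2.2.unit_d G2 k).1,
        ((hg N hN).2.2.unit_d G2 k).2.2⟩) k
      rw [p2_pderiv0, (hG2 _).2]
      exact ⟨(hg N hN).2.1.1, (hg N hN).2.1.2.2⟩
    · rw [← (hg N hN).2.2.entry (hlx r).1 (hlx r).2]
      simp [p2c]
    · obtain ⟨e1, e2⟩ := p2_mem_M.1 (hlx r).2
      obtain ⟨-, -, b3, b4⟩ := hb N (hT hN)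
      have k1 : ∀ i, ‖emb ψ (c.cj (a N) i)‖ ≤ C1 * X ^ αe := by
        intro i
        rw [Ctx.cj, map_pv]
        exact (hsz ψ i _ _ (hall N (hT hN)).ha).trans
          (mul_le_mul_of_nonneg_left (hp N (hT hN)) (by linarith))
      have k2 : ∏ i, ‖emb ψ (c.cj (a N) i)‖ ^ (x r).1 i ≤ (C1 * X ^ αe) ^ (2 * lev r) := by
        rw [← e1, ← Finset.prod_pow_eq_pow_sum]
        exact Finset.prod_le_prod (fun i _ => by positivity)
          fun i _ => pow_le_pow_left₀ (norm_nonneg _) (k1 i) _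
      have k3 : |(u N : ℝ)| ^ (x r).2 * |(v N : ℝ)| ^ (lev r - (x r).2) ≤ (X ^ υ) ^ lev r := by
        calc _ ≤ (X ^ υ) ^ (x r).2 * (X ^ υ) ^ (lev r - (x r).2) := by gcongr
          _ = _ := by rw [← pow_add, Nat.add_sub_cancel' e2]
      have k4 : C1 ^ 2 * X ^ (2 * αe + υ) = (C1 * X ^ αe) ^ 2 * X ^ υ := by
        rw [Real.rpow_add hX0, mul_comm 2 αe, Real.rpow_mul hX0.le, Real.rpow_two]
        ring
      simp only [map_mul, map_pow, map_prod, map_intCast, norm_mul, norm_pow, norm_prod,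
        Complex.norm_intCast]
      rw [k4, mul_pow, ← pow_mul, mul_assoc]
      exact mul_le_mul k2 k3 (by positivity) (by positivity)
    · rw [Finset.prod_pow_eq_pow_sum, hsum, mul_pow, ← mul_assoc, ← Real.rpow_natCast (X ^ _),
        ← Real.rpow_mul hX0.le]
      refine hev.trans_le ?_
      rw [Real.rpow_mul hX0.le, Real.rpow_natCast]
      exact pow_le_pow_left₀ (by positivity) π2 _
  -- one step of splitting by signs
  have sgn : ∀ π ∈ Pr, ∀ (i : Fin 4) (B : ℝ), 0 ≤ B → ∀ T ⊆ Z, (∀ N ∈ T, Good π N) →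
      (∀ N ∈ T, ∀ N' ∈ T, ((u N : F) / (v N : F) - (u N' : F) / (v N' : F)) / π ∈ locR F π ∧
        ((N : F) - (N' : F)) / π ∈ locR F π) →
      (∀ T' ⊆ T, (∀ N ∈ T', ∀ N' ∈ T', (p2c c (a N) i / p2c c (a N) 0 -
        p2c c (a N') i / p2c c (a N') 0) / π ∈ locR F π) → (T'.card : ℝ) ≤ B) →
      (T.card : ℝ) ≤ k' * B := by
    intro π hπ i B hB T hT hg hc hB'
    obtain ⟨π1, π2, -⟩ := hPr2 π hπ
    have π3 : π ≠ 2 := by
      rintro rfl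
      norm_num at π2
      linarith
    obtain ⟨𝒯, t1, t2, t3⟩ := hk' π π1 π3 T (fun N => p2c c (a N) i / p2c c (a N) 0)
      (fun N hN => ((hg N hN).2.2.uα i).div ((hg N hN).2.2.uα 0))
      (fun N hN N' hN' => (hg N hN).2.2.cong (hg N' hN').2.2 (fun i => coe_mem_locR π _)
        (hc N hN N' hN').1 (hc N hN N' hN').2 i)
    exact card_le_of_cover T 𝒯 k' B hB (by exact_mod_cast t1) t2
      fun T' h => hB' T' (t3 T' h).1 (t3 T' h).2
  have main : ∀ π ∈ Pr, ((Z.filter (Good π)).card : ℝ) ≤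
      (D * (k * X ^ w)) * (k' * (k' * (k' * ((c0 * (4 * J) : ℕ) : ℝ)))) := by
    intro π hπ
    obtain ⟨π1, -, π3⟩ := hPr2 π hπ
    have hg : ∀ N ∈ Z.filter (Good π), Good π N := fun N hN => (Finset.mem_filter.1 hN).2
    obtain ⟨𝒯, t1, t2, t3⟩ := plane_classes (F := F) D π π1 G' hGd (Z.filter (Good π)) u v
      (fun N hN => (hg N hN).1) (fun N hN => (hG N (Finset.mem_filter.1 hN).1).1)
      (fun N hN => ⟨(hg N hN).2.1.1, (hg N hN).2.1.2.2⟩)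
    refine card_le_of_cover _ 𝒯 _ _ (by positivity) ?_ t2 fun T hT => ?_
    · calc (𝒯.card : ℝ) ≤ ((D * π : ℕ) : ℝ) := by exact_mod_cast t1
        _ = D * (π : ℝ) := by push_cast; ring
        _ ≤ _ := by gcongr
    obtain ⟨s0, c0'⟩ := t3 T hT
    have s0' : T ⊆ Z := s0.trans (Finset.filter_subset _ _)
    refine sgn π hπ 1 _ (by positivity) T s0' (fun N h => hg N (s0 h)) c0' fun T1 s1 c1 => ?_
    refine sgn π hπ 2 _ (by positivity) T1 (s1.trans s0') (fun N h => hg N (s0 (s1 h)))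
      (fun N h N' h' => c0' N (s1 h) N' (s1 h')) fun T2 s2 c2 => ?_
    refine sgn π hπ 3 _ (by positivity) T2 (s2.trans (s1.trans s0'))
      (fun N h => hg N (s0 (s1 (s2 h))))
      (fun N h N' h' => c0' N (s1 (s2 h)) N' (s1 (s2 h'))) fun T3 s3 c3 => ?_
    refine cls π hπ T3 (s3.trans (s2.trans (s1.trans s0')))
      (fun N h => hg N (s0 (s1 (s2 (s3 h))))) fun N h N' h' j => ?_
    fin_cases j
    · exact (c0' N (s1 (s2 (s3 h))) N' (s1 (s2 (s3 h')))).1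
    · exact (c0' N (s1 (s2 (s3 h))) N' (s1 (s2 (s3 h')))).2
    · exact c1 N (s2 (s3 h)) N' (s2 (s3 h'))
    · exact c2 N (s3 h) N' (s3 h')
    · exact c3 N h N' h'
  refine (card_le_of_cover Z (Pr.image fun π => Z.filter (Good π)) k
    ((D * (k * X ^ w)) * (k' * (k' * (k' * ((c0 * (4 * J) : ℕ) : ℝ))))) (by positivity)
    (by exact_mod_cast Finset.card_image_le.trans hPr1) (fun N hN => ?_) fun T hT => ?_).trans
    (le_of_eq (by ring))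
  · obtain ⟨π, k1, k2⟩ := hgood N hN
    exact ⟨_, Finset.mem_image_of_mem _ k1, Finset.mem_filter.2 ⟨hN, k2⟩⟩
  · obtain ⟨π, k1, rfl⟩ := Finset.mem_image.1 hT
    exact main π k1

end Vale.Agent.P018
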