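import Vale.Agent.P018.Q.ConicII
import Vale.Agent.P018.Q.PadicII
import Vale.Agent.P018.Q.LinAux

namespace Vale.Agent.P018

open NumberField Polynomial Filter

variable {F : Type} [Field F] [NumberField F]

theorem cII_ne (c : Ctx F) {C X : ℝ} {M : ℕ} {N : ℤ} {p : ℕ} {a b : Fin 4 → ℤ}
    (h : IsPt c C X M N p a b) (i : Fin 4) :
    ((c.cj a i : 𝓞 F) : F) ≠ 0 ∧ ((c.cj b i : 𝓞 F) : F) ≠ 0 := by
  have ha : a ≠ 0 := by
    rintro rfl
    obtain ⟨l, hl⟩ := la_one_le_of_gcd h.ha1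
    norm_num at hl
  have hb : b ≠ 0 := by
    rintro rfl
    obtain ⟨l, hl⟩ := la_one_le_of_gcd h.hb1
    norm_num at hl
  exact ⟨fun h0 => c.hind i a ha (Subtype.ext h0), fun h0 => c.hind i b hb (Subtype.ext h0)⟩

/-- bound for one group of points sharing the kernel of a branch -/
theorem cII_group (c : Ctx F) (C υ αe w : ℝ) (D K' c0 C0 : ℕ) (hC : 1 ≤ C)
    (hυ : 0 ≤ υ) (hαe : 0 ≤ αe) (hw : 0 < w) (hnum : 2 * αe + υ < 8 * w) :
    ∃ C' : ℝ, 0 ≤ C' ∧ ∀ᶠ X : ℝ in atTop, ∀ (M : ℕ) (Z : Finset ℤ) (p : ℤ → ℕ)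
      (a b : ℤ → Fin 4 → ℤ) (ω ω' : Fin 4 → ℤ) (u v : ℤ → ℤ) (G' : ℤ[X][X])
      (Ψ : MvPolynomial (Fin 5) F →ₐ[F] PowerSeries F), AllPt c C X M Z p a b →
      (∀ i j, i ≠ j → c.pc ω ω' i j ≠ 0) →
      (∀ N ∈ Z, b N = u N • ω + v N • ω' ∧ v N ≠ 0 ∧ IsCoprime (u N) (v N) ∧
        |(u N : ℝ)| ≤ X ^ υ ∧ |(v N : ℝ)| ≤ X ^ υ) →
      (∀ N ∈ Z, (p N : ℝ) ^ (1 / 4 : ℝ) ≤ X ^ αe) →
      G' ≠ 0 → G'.natDegree ≤ D → (∀ j, (G'.coeff j).natDegree ≤ D) →
      (∀ N ∈ Z, (G'.map (mapRingHom (Int.castRingHom F))).evalEval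
          ((u N : F) / (v N : F)) (N : F) = 0 ∧
        ∃ n : ℤ, n ≠ 0 ∧ |(n : ℝ)| ≤ X ^ K' ∧ (n : F) = (v N : F) ^ D *
          ((derivative G').map (mapRingHom (Int.castRingHom F))).evalEval
            ((u N : F) / (v N : F)) (N : F)) →
      (∀ m, grow Ψ m ≤ c0 * m + C0) →
      (∀ N ∈ Z, ∀ f, Ψ f = 0 → MvPolynomial.eval (c.ptII (a N) N (u N) (v N)) f = 0) →
      (∀ k : Fin 3, Ψ (MvPolynomial.X (k.addNat 2)) ^ 2 *
          (((c.cj ω k.succ : 𝓞 F) : F) • Ψ (MvPolynomial.X 0) +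
            algebraMap F _ ((c.cj ω' k.succ : 𝓞 F) : F)) *
          (Ψ (MvPolynomial.X 1) - algebraMap F _ ((c.ϑ 0 : 𝓞 F) : F)) =
        (((c.cj ω 0 : 𝓞 F) : F) • Ψ (MvPolynomial.X 0) +
            algebraMap F _ ((c.cj ω' 0 : 𝓞 F) : F)) *
          (Ψ (MvPolynomial.X 1) - algebraMap F _ ((c.ϑ k.succ : 𝓞 F) : F))) →
      Ψ (MvPolynomial.X 1) - algebraMap F _ ((c.ϑ 0 : 𝓞 F) : F) ≠ 0 →
      ((c.cj ω 0 : 𝓞 F) : F) • Ψ (MvPolynomial.X 0) +
        algebraMap F _ ((c.cj ω' 0 : 𝓞 F) : F) ≠ 0 →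
      (∀ q : F[X], aeval (Ψ (MvPolynomial.X 0)) q = 0 → q = 0) →
      (Z.card : ℝ) ≤ C' * X ^ w := by
  classical
  obtain ⟨J, C1, hpad⟩ := padicII c C υ αe w D K' c0 C0 hC hυ hαe hw hnum
  set K3 : ℕ := ⌈υ⌉₊ with hK3
  have hdim := fun m : ℕ => dimII (2 * (m + 1)) (m + 1) (by omega)
  choose D1 hD1 using hdim
  have hN := fun m : ℕ => secII c C (D1 m) K3 w hw
  choose CN XN hN using hN
  obtain ⟨CL, XL, hL⟩ := conicII c C w hw
  set C2 : ℝ := ∑ m ∈ Finset.range (J + 1), |CN m| with hC2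
  have hC2' : ∀ m, m ≤ J → CN m ≤ C2 := by
    intro m hm
    have := Finset.single_le_sum (f := fun m => |CN m|)
      (fun i _ => by positivity) (Finset.mem_range.mpr (Nat.lt_succ_of_le hm))
    linarith [le_abs_self (CN m)]
  have hC20 : 0 ≤ C2 := Finset.sum_nonneg fun i _ => by positivity
  refine ⟨|C1| + C2 + |CL|, by positivity, ?_⟩
  have hev : ∀ᶠ X : ℝ in atTop, ∀ m ∈ Finset.range (J + 1), XN m ≤ X :=
    (Filter.eventually_all_finset _).mpr fun m _ => eventually_ge_atTop _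
  filter_upwards [hpad, hev, eventually_ge_atTop 2, eventually_ge_atTop XL] with X hpad hev hX2 hXL
  intro M Z p a b ω ω' u v G' Ψ hpt hpc huv hα hG0 hG1 hG2 hG hgr hker hrel hn0 hb0 htr
  have hX1 : (1 : ℝ) ≤ X := by linarith
  have hX0 : (0 : ℝ) < X := by linarith
  have hXw : 0 ≤ X ^ w := by positivity
  have hυK : X ^ υ ≤ X ^ K3 := by
    rw [← Real.rpow_natCast]
    exact Real.rpow_le_rpow_of_exponent_le hX1 (Nat.le_ceil υ)
  have hfin : ∀ B : ℝ, B ≤ |C1| + C2 + |CL| → (Z.card : ℝ) ≤ B * X ^ w →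
      (Z.card : ℝ) ≤ (|C1| + C2 + |CL|) * X ^ w := fun B hB h => h.trans (by gcongr)
  by_cases hall : ∀ m, 1 ≤ m → m ≤ J → 8 * m ≤ Module.finrank F (spanII (K := F)
      ![1, Ψ (MvPolynomial.X 2), Ψ (MvPolynomial.X 3), Ψ (MvPolynomial.X 4)]
        (Ψ (MvPolynomial.X 0)) (2 * m) m)
  · refine hfin C1 (by linarith [le_abs_self C1, abs_nonneg CL])
      (hpad M Z p a b ω ω' u v G' Ψ hpt
      (fun N hN => ⟨(huv N hN).1, (huv N hN).2.1, (huv N hN).2.2.2.1, (huv N hN).2.2.2.2⟩)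
      hα hG0 hG1 hG2 hG hgr hker hrel hn0 hb0 hall)
  push Not at hall
  obtain ⟨m, hm1, hm, hlt⟩ := hall
  obtain ⟨m, rfl⟩ : ∃ m', m = m' + 1 := ⟨m - 1, by omega⟩
  have hmJ : m ≤ J := by omega
  have hΨ : ∀ q : F[X], Ψ (aeval (MvPolynomial.X 0 : MvPolynomial (Fin 5) F) q) =
      aeval (Ψ (MvPolynomial.X 0)) q := fun q => (aeval_algHom_apply Ψ _ q).symm
  have hE : ∀ (y : Fin 5 → F) (q : F[X]),
      MvPolynomial.eval y (aeval (MvPolynomial.X 0 : MvPolynomial (Fin 5) F) q) =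
        q.eval (y 0) := by
    intro y q
    have := (aeval_algHom_apply (MvPolynomial.aeval y : MvPolynomial (Fin 5) F →ₐ[F] F)
      (MvPolynomial.X 0) q).symm
    simpa [MvPolynomial.coe_aeval_eq_eval, coe_aeval_eq_eval] using this
  let xx : Fin 4 → MvPolynomial (Fin 5) F :=
    ![1, MvPolynomial.X 2, MvPolynomial.X 3, MvPolynomial.X 4]
  have hxΨ : ∀ i, Ψ (xx i) = (![1, Ψ (MvPolynomial.X 2), Ψ (MvPolynomial.X 3),
      Ψ (MvPolynomial.X 4)] : Fin 4 → PowerSeries F) i := by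
    intro i; fin_cases i <;> simp [xx]
  have hxE : ∀ N ∈ Z, ∀ i, MvPolynomial.eval (c.ptII (a N) N (u N) (v N)) (xx i) =
      ((c.cj (a N) i : 𝓞 F) : F) / ((c.cj (a N) 0 : 𝓞 F) : F) := by
    intro N hN i
    have h0 := (cII_ne c (hpt N hN) 0).1
    fin_cases i
    · simp [xx, h0]
    all_goals simp [xx, Ctx.ptII]
  rcases hD1 m F _ (Ψ (MvPolynomial.X 0)) (show (![1, Ψ (MvPolynomial.X 2), Ψ (MvPolynomial.X 3),
      Ψ (MvPolynomial.X 4)] : Fin 4 → PowerSeries F) 0 = 1 from rfl) htr with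
    h | h | ⟨l, q, ξ, h1, h2, h3, h4, h5⟩
  · omega
  · refine hfin _ (by linarith [hC2' m hmJ, abs_nonneg C1, abs_nonneg CL])
      (hN m X (hev m (Finset.mem_range.mpr (Nat.lt_succ_of_le hmJ))) M Z p a b ω ω' u v hpt hpc
        (fun N hN => ⟨(huv N hN).1, (huv N hN).2.1, (huv N hN).2.2.1,
          (huv N hN).2.2.2.1.trans hυK, (huv N hN).2.2.2.2.trans hυK⟩) fun i => ?_)
    obtain ⟨c0', c1', h1, h2, h3, h4⟩ := h i
    refine ⟨c0', c1', h1, h2, h3, fun N hN' => ?_⟩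
    have h5 := hker N hN' (aeval (MvPolynomial.X 0 : MvPolynomial (Fin 5) F) c1' * xx i -
      aeval (MvPolynomial.X 0 : MvPolynomial (Fin 5) F) c0') (by
        rw [map_sub, map_mul, hΨ, hΨ, hxΨ, h4, sub_self])
    rw [map_sub, map_mul, hE, hE, hxE N hN', sub_eq_zero] at h5
    simpa [Ctx.ptII] using h5
  · refine hfin _ (by linarith [le_abs_self CL, abs_nonneg C1])
      (hL X hXL M Z p a b ω ω' u v hpt hpc (fun N hN => ⟨(huv N hN).1, (huv N hN).2.1⟩)
        l q ξ h1 h2 h3 fun N hN' => ?_)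
    have h0 := (cII_ne c (hpt N hN') 0).1
    constructor
    · have h6 := hker N hN' (∑ i, l i • xx i) (by
        rw [← h4, map_sum]
        exact Finset.sum_congr rfl fun i _ => by rw [map_smul, hxΨ])
      rw [map_sum] at h6
      simp only [MvPolynomial.smul_eval, hxE N hN'] at h6
      have h7 : ∑ i, l i * ((c.cj (a N) i : 𝓞 F) : F) = (∑ i, l i *
          (((c.cj (a N) i : 𝓞 F) : F) / ((c.cj (a N) 0 : 𝓞 F) : F))) *
            ((c.cj (a N) 0 : 𝓞 F) : F) := by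
        rw [Finset.sum_mul]
        exact Finset.sum_congr rfl fun i _ => by field_simp
      rw [h7, h6, zero_mul]
    · have h6 := hker N hN' (∑ i, ∑ j, q i j • (xx i * xx j)) (by
        rw [← h5, map_sum]
        refine Finset.sum_congr rfl fun i _ => ?_
        rw [map_sum]
        exact Finset.sum_congr rfl fun j _ => by rw [map_smul, map_mul, hxΨ, hxΨ])
      simp only [map_sum, MvPolynomial.smul_eval, map_mul, hxE N hN'] at h6
      have h7 : ∑ i, ∑ j, q i j * ((c.cj (a N) i : 𝓞 F) : F) * ((c.cj (a N) j : 𝓞 F) : F) =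
          (∑ i, ∑ j, q i j * (((c.cj (a N) i : 𝓞 F) : F) / ((c.cj (a N) 0 : 𝓞 F) : F) *
            (((c.cj (a N) j : 𝓞 F) : F) / ((c.cj (a N) 0 : 𝓞 F) : F)))) *
            ((c.cj (a N) 0 : 𝓞 F) : F) ^ 2 := by
        rw [Finset.sum_mul]
        refine Finset.sum_congr rfl fun i _ => ?_
        rw [Finset.sum_mul]
        exact Finset.sum_congr rfl fun j _ => by field_simp
      rw [h7, h6, zero_mul]

/-- the linear polynomial `ω_i s + ω'_i` in two variables -/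
noncomputable def cIIb (c : Ctx F) (ω ω' : Fin 4 → ℤ) (i : Fin 4) : MvPolynomial (Fin 2) F :=
  MvPolynomial.C ((c.cj ω i : 𝓞 F) : F) * MvPolynomial.X 0 +
    MvPolynomial.C ((c.cj ω' i : 𝓞 F) : F)

/-- the linear polynomial `N - θ_i` in two variables -/
noncomputable def cIIn (c : Ctx F) (i : Fin 4) : MvPolynomial (Fin 2) F :=
  MvPolynomial.X 1 - MvPolynomial.C ((c.ϑ i : 𝓞 F) : F)

theorem cII_deg (c : Ctx F) (ω ω' : Fin 4 → ℤ) (i j : Fin 4) :
    (cIIb c ω ω' i * cIIn c j).totalDegree ≤ 2 := by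
  have h1 : (cIIb c ω ω' i).totalDegree ≤ 1 := by
    refine (MvPolynomial.totalDegree_add _ _).trans (max_le ?_ (by simp))
    refine (MvPolynomial.totalDegree_mul _ _).trans ?_
    simp
  have h2 : (cIIn c j).totalDegree ≤ 1 := by
    refine (MvPolynomial.totalDegree_sub _ _).trans (max_le ?_ (by simp))
    simp
  exact (MvPolynomial.totalDegree_mul _ _).trans (by omega)

/-- the triangular system of part II -/
noncomputable def cIIH (c : Ctx F) (ω ω' : Fin 4 → ℤ) (G2 : MvPolynomial (Fin 2) F) :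
    Fin 4 → MvPolynomial (Fin 5) F :=
  Fin.cons (MvPolynomial.rename (Fin.castLE (by norm_num)) G2) fun k : Fin 3 =>
    MvPolynomial.X (k.addNat 2) ^ 2 *
        MvPolynomial.rename (Fin.castLE (by norm_num)) (cIIb c ω ω' k.succ * cIIn c 0) -
      MvPolynomial.rename (Fin.castLE (by norm_num)) (cIIb c ω ω' 0 * cIIn c k.succ)

theorem cII_vars (f : MvPolynomial (Fin 2) F) (j : Fin 5)
    (hj : j ∈ (MvPolynomial.rename (Fin.castLE (by norm_num : 2 ≤ 5)) f).vars) : (j : ℕ) ≤ 1 := by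
  classical
  obtain ⟨i, -, rfl⟩ := Finset.mem_image.mp (MvPolynomial.vars_rename _ _ hj)
  have := i.2
  simp only [Fin.val_castLE]
  omega

theorem cII_tri (c : Ctx F) (ω ω' : Fin 4 → ℤ) (G2 : MvPolynomial (Fin 2) F) :
    ∀ k, ∀ j ∈ (cIIH c ω ω' G2 k).vars, j ≤ k.succ := by
  classical
  intro k
  refine Fin.cases ?_ (fun k => ?_) k
  · intro j hj
    have := cII_vars _ j hj
    rw [Fin.le_def]
    simpa using this
  · intro j hj
    simp only [cIIH, Fin.cons_succ] at hj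
    rw [Fin.le_def]
    simp only [Fin.val_succ]
    rcases Finset.mem_union.mp (MvPolynomial.vars_sub_subset _ hj) with h | h
    · rcases Finset.mem_union.mp (MvPolynomial.vars_mul _ _ h) with h | h
      · have := MvPolynomial.vars_pow _ _ h
        rw [MvPolynomial.vars_X, Finset.mem_singleton] at this
        rw [this]
        simp
      · have := cII_vars _ j h
        omega
    · have := cII_vars _ j h
      omega

theorem cII_eval (c : Ctx F) (a : Fin 4 → ℤ) (N u v : ℤ) (f : MvPolynomial (Fin 2) F) :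
    MvPolynomial.eval (c.ptII a N u v)
      (MvPolynomial.rename (Fin.castLE (by norm_num : 2 ≤ 5)) f) =
      MvPolynomial.eval ![(u : F) / (v : F), (N : F)] f := by
  rw [MvPolynomial.eval_rename]
  congr 2
  funext i
  fin_cases i <;> rfl

theorem cII_pt (c : Ctx F) (a : Fin 4 → ℤ) (N u v : ℤ) (k : Fin 3) :
    c.ptII a N u v (k.addNat 2) =
      ((c.cj a k.succ : 𝓞 F) : F) / ((c.cj a 0 : 𝓞 F) : F) := by
  fin_cases k <;> rfl

theorem cII_bn (c : Ctx F) {C X : ℝ} {M : ℕ} {N : ℤ} {p : ℕ} {a b : Fin 4 → ℤ}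
    (h : IsPt c C X M N p a b) (ω ω' : Fin 4 → ℤ) (u v : ℤ) (hb : b = u • ω + v • ω') (hv : v ≠ 0)
    (i : Fin 4) :
    MvPolynomial.eval ![(u : F) / (v : F), (N : F)] (cIIb c ω ω' i) =
        ((c.cj b i : 𝓞 F) : F) / v ∧
      MvPolynomial.eval ![(u : F) / (v : F), (N : F)] (cIIn c i) =
        ((c.cj a i : 𝓞 F) : F) ^ 2 * ((c.cj b i : 𝓞 F) : F) / M := by
  have hv' : (v : F) ≠ 0 := by exact_mod_cast hv
  have hM : (M : F) ≠ 0 := by exact_mod_cast h.hM0.ne'
  constructor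
  · rw [hb, la_cj_lin]
    simp only [cIIb, map_add, map_mul, MvPolynomial.eval_C, MvPolynomial.eval_X,
      Matrix.cons_val_zero, map_intCast]
    field_simp
  · have h1 := congrArg (algebraMap (𝓞 F) F) (h.hab i)
    simp only [map_mul, map_pow, map_sub, map_intCast, map_natCast] at h1
    simp only [cIIn, map_sub, MvPolynomial.eval_C, MvPolynomial.eval_X, Matrix.cons_val_one,
      Matrix.cons_val_zero]
    rw [eq_div_iff hM, mul_comm]
    exact h1.symm

/-- Part II, curve step -/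
theorem curveII (c : Ctx F) (C υ αe w : ℝ) (D K : ℕ) (hC : 1 ≤ C) (hυ : 0 ≤ υ)
    (hαe : 0 ≤ αe) (hw : 0 < w) (hw1 : w < 1) (hnum : 2 * αe + υ < 8 * w) :
    ∀ᶠ X : ℝ in atTop, ∀ (M : ℕ) (Z : Finset ℤ) (p : ℤ → ℕ) (a b : ℤ → Fin 4 → ℤ)
      (ω ω' : Fin 4 → ℤ) (u v : ℤ → ℤ) (G : F[X][X]), AllPt c C X M Z p a b →
      (∀ i j, i ≠ j → c.pc ω ω' i j ≠ 0) →
      (∀ l, |(ω l : ℝ)| ≤ X ^ K ∧ |(ω' l : ℝ)| ≤ X ^ K) →
      (∀ N ∈ Z, b N = u N • ω + v N • ω' ∧ v N ≠ 0 ∧ IsCoprime (u N) (v N) ∧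
        |(u N : ℝ)| ≤ X ^ υ ∧ |(v N : ℝ)| ≤ X ^ υ) →
      (∀ N ∈ Z, (p N : ℝ) ^ (1 / 4 : ℝ) ≤ X ^ αe) → Curve F D G Z u v →
      (Z.card : ℝ) ≤ X ^ w := by
  classical
  set w' : ℝ := ((2 * αe + υ) / 8 + w) / 2 with hw'
  have hw'0 : 0 < w' := by rw [hw']; linarith
  have hw'w : w' < w := by rw [hw']; linarith
  have hnum' : 2 * αe + υ < 8 * w' := by rw [hw']; linarith
  set K1 : ℕ := max 2 ⌈υ⌉₊ with hK1
  obtain ⟨K', hlev⟩ := curve_levels D K1
  obtain ⟨c0, C0, hgrow⟩ := grow_cover (2 * D + 2)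
  obtain ⟨C', hC'0, hgrp⟩ := cII_group c C υ αe w' D K' c0 C0 hC hυ hαe hw'0 hnum'
  obtain ⟨Cf, Xf, hfib⟩ := fiberB c C
  filter_upwards [hgrp, eventually_ge_atTop 2, eventually_ge_atTop C, eventually_ge_atTop Xf,
    la_absorb (2 * (D * c0 * C')) w' w hw'w,
    la_absorb (2 * (D * |Cf|)) 0 w hw] with X hgrp hX2 hXC hXf hA1 hA3
  intro M Z p a b ω ω' u v G hpt hpc hω huv hα hcurve
  have hX1 : (1 : ℝ) ≤ X := by linarith
  have hX0 : (0 : ℝ) < X := by linarith
  have hυK : X ^ υ ≤ X ^ K1 := by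
    rw [← Real.rpow_natCast]
    refine Real.rpow_le_rpow_of_exponent_le hX1 ((Nat.le_ceil υ).trans ?_)
    exact_mod_cast le_max_right _ _
  obtain ⟨Z0, 𝒯, hZ0, ⟨q, hq0, hqD, hq⟩, h𝒯, hcov, hT⟩ := hlev X hX2 F G Z u v
    (fun N hN => ⟨(huv N hN).2.1, (huv N hN).2.2.2.1.trans hυK,
      (huv N hN).2.2.2.2.trans hυK, by
        have h1 := (hpt N hN).hN2
        have h2 : X ^ 2 ≤ X ^ K1 := pow_le_pow_right₀ hX1 (le_max_left _ _)
        nlinarith⟩) hcurve
  have hZ0c : (Z0.card : ℝ) ≤ D * |Cf| := by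
    refine la_card_roots Z0 _ q hq0 D hqD hq _ (abs_nonneg _) fun S hS hSf => ?_
    have hS' : S ⊆ Z := hS.trans hZ0
    refine (hfib X hXf M S p a b 0 1 (by decide) (hpt.subset hS') fun N hN N' hN' => ?_).trans
      (le_abs_self _)
    rw [(huv N (hS' hN)).1, (huv N' (hS' hN')).1]
    exact la_cross_of_ratio c ω ω' _ _ _ _ (huv N (hS' hN)).2.1 (huv N' (hS' hN')).2.1
      (hSf N hN N' hN') 0 1
  set B : ℝ := C' * X ^ w' with hB
  have hB0 : 0 ≤ B := by positivity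
  have hTc : ∀ T ∈ 𝒯, (T.card : ℝ) ≤ c0 * B := by
    intro T hT'
    obtain ⟨hTZ, G', hG0, hG1, hG2, hG⟩ := hT T hT'
    obtain ⟨G2, hg0, hg1, -, hg3⟩ := exists_mv (F := F) D G' hG0 hG1 hG2
    have hbn := fun N (hN : N ∈ T) => cII_bn c (hpt N (hTZ hN)) ω ω' (u N) (v N)
      (huv N (hTZ hN)).1 (huv N (hTZ hN)).2.1
    have hne := fun N (hN : N ∈ T) => cII_ne c (hpt N (hTZ hN))
    have hvM : ∀ N ∈ T, (v N : F) ≠ 0 ∧ (M : F) ≠ 0 := fun N hN =>
      ⟨by exact_mod_cast (huv N (hTZ hN)).2.1, by exact_mod_cast (hpt N (hTZ hN)).hM0.ne'⟩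
    have hd0 : ∀ N ∈ T, ∀ i j, MvPolynomial.eval ![(u N : F) / (v N : F), (N : F)]
        (cIIb c ω ω' i * cIIn c j) ≠ 0 := by
      intro N hN i j
      rw [map_mul, (hbn N hN i).1, (hbn N hN j).2]
      exact mul_ne_zero (div_ne_zero (hne N hN i).2 (hvM N hN).1)
        (div_ne_zero (mul_ne_zero (pow_ne_zero _ (hne N hN j).1) (hne N hN j).2) (hvM N hN).2)
    obtain ⟨Ψ, hΨ, hgroups⟩ := branch_groups (n := 4) (cIIH c ω ω' G2) (cII_tri c ω ω' G2) T
      (fun N => c.ptII (a N) N (u N) (v N))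
      (fun N hN k => by
        refine Fin.cases ?_ (fun k => ?_) k
        · simp only [cIIH, Fin.cons_zero]
          rw [cII_eval, (hg3 _).1]
          exact (hG N hN).1
        · simp only [cIIH, Fin.cons_succ]
          rw [map_sub, map_mul, map_pow, MvPolynomial.eval_X, cII_eval, cII_eval, cII_pt,
            map_mul, map_mul, (hbn N hN _).1, (hbn N hN _).1, (hbn N hN _).2, (hbn N hN _).2]
          have h1 := (hne N hN 0).1
          have h2 := (hvM N hN).1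
          have h3 := (hvM N hN).2
          field_simp
          ring)
      (fun N hN k => by
        refine Fin.cases ?_ (fun k => ?_) k
        · simp only [cIIH, Fin.cons_zero]
          have h1 : (Fin.succ (0 : Fin 4)) = Fin.castLE (by norm_num : 2 ≤ 5) 1 := rfl
          rw [h1, MvPolynomial.pderiv_rename (Fin.castLE_injective _), cII_eval, (hg3 _).2]
          obtain ⟨n, hn0, -, hn⟩ := (hG N hN).2
          intro h
          apply hn0
          have h2 : (n : F) = 0 := by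
            rw [hn]
            exact mul_eq_zero_of_right _ h
          exact_mod_cast h2
        · simp only [cIIH, Fin.cons_succ]
          have h1 : k.succ.succ = k.addNat 2 := by
            apply Fin.ext
            simp
          have h2 : ∀ f : MvPolynomial (Fin 2) F, MvPolynomial.pderiv (k.addNat 2)
              (MvPolynomial.rename (Fin.castLE (by norm_num : 2 ≤ 5)) f) = 0 := fun f =>
            MvPolynomial.pderiv_eq_zero_of_notMem_vars fun h => by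
              have := cII_vars f _ h
              simp at this
          rw [h1, map_sub, h2, Derivation.leibniz, h2, Derivation.leibniz_pow,
            MvPolynomial.pderiv_X_self]
          simp only [smul_eq_mul, mul_zero, zero_add, sub_zero, map_mul, nsmul_eq_mul, mul_one,
            map_natCast, Nat.add_one_sub_one, pow_one, MvPolynomial.eval_X]
          rw [← map_mul, ← map_mul, cII_eval, cII_pt]
          exact mul_ne_zero (hd0 N hN _ _) (mul_ne_zero (by norm_num)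
            (div_ne_zero (hne N hN _).1 (hne N hN _).1)))
    have hΨd : ∀ N ∈ T, ∀ i j, Ψ N (MvPolynomial.rename (Fin.castLE (by norm_num : 2 ≤ 5))
        (cIIb c ω ω' i * cIIn c j)) ≠ 0 := by
      intro N hN i j h
      have h1 := (hΨ N hN).2.1 (MvPolynomial.rename (Fin.castLE (by norm_num : 2 ≤ 5))
        (cIIb c ω ω' i * cIIn c j))
      rw [h, map_zero, cII_eval] at h1
      exact hd0 N hN i j h1.symm
    have hΨr : ∀ N ∈ T, ∀ k : Fin 3, Ψ N (MvPolynomial.X (k.addNat 2)) ^ 2 *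
        Ψ N (MvPolynomial.rename (Fin.castLE (by norm_num : 2 ≤ 5))
          (cIIb c ω ω' k.succ * cIIn c 0)) =
        Ψ N (MvPolynomial.rename (Fin.castLE (by norm_num : 2 ≤ 5))
          (cIIb c ω ω' 0 * cIIn c k.succ)) := by
      intro N hN k
      have h1 := (hΨ N hN).1 k.succ
      simp only [cIIH, Fin.cons_succ] at h1
      rwa [map_sub, map_mul, map_pow, sub_eq_zero] at h1
    have hΨe : ∀ N i j, Ψ N (MvPolynomial.rename (Fin.castLE (by norm_num : 2 ≤ 5))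
        (cIIb c ω ω' i * cIIn c j)) =
        (((c.cj ω i : 𝓞 F) : F) • Ψ N (MvPolynomial.X 0) +
            algebraMap F _ ((c.cj ω' i : 𝓞 F) : F)) *
          (Ψ N (MvPolynomial.X 1) - algebraMap F _ ((c.ϑ j : 𝓞 F) : F)) := by
      intro N i j
      simp only [cIIb, cIIn, map_mul, map_add, map_sub, MvPolynomial.rename_C,
        MvPolynomial.rename_X, MvPolynomial.algHom_C, Algebra.smul_def, AlgHom.commutes]
      rfl
    obtain ⟨Rr, hRT, hRc, hRg, hR⟩ := hgroups c0 C0 fun S hS m =>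
      hgrow F _ _ G2 (fun k => cIIb c ω ω' k.succ * cIIn c 0)
        (fun k => cIIb c ω ω' 0 * cIIn c k.succ) hg0 (by omega)
        (fun k => ⟨(cII_deg c ω ω' _ _).trans (by omega), (cII_deg c ω ω' _ _).trans (by omega)⟩)
        (by
          funext N
          exact (hΨ N (hS N.2)).1 0)
        (fun k => by
          rw [mem_nonZeroDivisors_iff_right]
          intro x hx
          funext N
          have h1 := congrFun hx N
          exact (mul_eq_zero.mp h1).resolve_right (hΨd N (hS N.2) _ _))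
        (fun k => by
          funext N
          exact hΨr N (hS N.2) k) m
    refine card_le_of_cover T (Rr.image fun N0 => T.filter fun N => ∀ f, Ψ N0 f = 0 →
      MvPolynomial.eval (c.ptII (a N) N (u N) (v N)) f = 0) c0 B hB0 ?_ ?_ ?_
    · exact_mod_cast Finset.card_image_le.trans hRc
    · intro N hN
      obtain ⟨N0, hN0, h⟩ := hR N hN
      exact ⟨_, Finset.mem_image_of_mem _ hN0, Finset.mem_filter.mpr ⟨hN, h⟩⟩
    · intro S hS
      obtain ⟨N0, hN0, rfl⟩ := Finset.mem_image.mp hS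
      have hS1 := Finset.filter_subset (fun N => ∀ f, Ψ N0 f = 0 →
        MvPolynomial.eval (c.ptII (a N) N (u N) (v N)) f = 0) T
      have hS3 := hS1.trans hTZ
      have hd := hΨd N0 (hRT hN0) 0 0
      rw [hΨe] at hd
      refine hgrp M _ p a b ω ω' u v G' (Ψ N0) (hpt.subset hS3) hpc
        (fun N hN => huv N (hS3 hN)) (fun N hN => hα N (hS3 hN))
        hG0 hG1 hG2 (fun N hN => hG N (hS1 hN)) (hRg N0 hN0)
        (fun N hN => (Finset.mem_filter.mp hN).2) (fun k => ?_) (right_ne_zero_of_mul hd)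
        (left_ne_zero_of_mul hd) (hΨ N0 (hRT hN0)).2.2
      have h1 := hΨr N0 (hRT hN0) k
      rw [hΨe, hΨe] at h1
      rw [← h1, mul_assoc]
  have hrest : ((Z \ Z0).card : ℝ) ≤ D * (c0 * B) := by
    refine card_le_of_cover _ 𝒯 D _ (by positivity) (by exact_mod_cast h𝒯) ?_ hTc
    intro N hN
    rcases hcov N (Finset.mem_sdiff.mp hN).1 with h | ⟨T, h1, h2⟩
    · exact absurd h (Finset.mem_sdiff.mp hN).2
    · exact ⟨T, h1, h2⟩
  have hsplit : (Z.card : ℝ) = (Z \ Z0).card + Z0.card := by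
    exact_mod_cast (Finset.card_sdiff_add_card_eq_card hZ0).symm
  rw [Real.rpow_zero] at hA3
  rw [hsplit]
  have h9 : (D : ℝ) * (c0 * B) = (2 * (D * c0 * C') * X ^ w') / 2 := by rw [hB]; ring
  linarith

end Vale.Agent.P018
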