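import Vale.Agent.P018.Setup
import Vale.Agent.P018.Basic

namespace Vale.Agent.P018

open NumberField Polynomial

/-- The roots of a monic irreducible integer quartic inside a number field. -/
structure Ctx (F : Type) [Field F] [NumberField F] where
  ϑ : Fin 4 → 𝓞 F
  g : ℤ[X]
  hinj : Function.Injective ϑ
  hind : ∀ i (a : Fin 4 → ℤ), a ≠ 0 → pv a (ϑ i) ≠ 0
  hmon : g.Monic
  hdeg : g.natDegree = 4
  hroot : ∀ i, aeval (ϑ i) g = 0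

variable {F : Type} [Field F] [NumberField F]

/-- the conjugates (in `F`) of the element with integer coordinates `a` -/
noncomputable def Ctx.cj (c : Ctx F) (a : Fin 4 → ℤ) (i : Fin 4) : 𝓞 F := pv a (c.ϑ i)

/-- A solution of `α ^ 2 * β = M * (N - θ)` with all size information. -/
structure IsPt (c : Ctx F) (C X : ℝ) (M : ℕ) (N : ℤ) (p : ℕ) (a b : Fin 4 → ℤ) : Prop where
  hp : p.Prime
  hXp : X ≤ p
  hN1 : X ≤ |(N : ℝ)|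
  hN2 : |(N : ℝ)| ≤ C * X
  hM0 : 0 < M
  hMC : (M : ℝ) ≤ C
  ha1 : Finset.univ.gcd a = 1
  hb1 : Finset.univ.gcd b = 1
  hab : ∀ i, c.cj a i ^ 2 * c.cj b i = (M : 𝓞 F) * ((N : 𝓞 F) - c.ϑ i)
  hdvd : (p : ℤ) ∣ pv a N
  hgN : (p : ℤ) ∣ c.g.eval N
  hnorm : ∃ m : ℤ, m ≠ 0 ∧ |(m : ℝ)| ≤ C ∧ ∏ i, c.cj a i = (p : 𝓞 F) * (m : 𝓞 F)
  ha : ∀ l, |(a l : ℝ)| ≤ (p : ℝ) ^ (1 / 4 : ℝ)
  hα : ∀ (φ : F →+* ℂ) i, (p : ℝ) ^ (1 / 4 : ℝ) ≤ C * ‖emb φ (c.cj a i)‖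
  hb : ∀ l, |(b l : ℝ)| ≤ C * X / √(p : ℝ)
  hβ : ∀ (φ : F →+* ℂ) i, X / √(p : ℝ) ≤ C * ‖emb φ (c.cj b i)‖

/-- A finite set `Z` of values `N`, each with its data. -/
def AllPt (c : Ctx F) (C X : ℝ) (M : ℕ) (Z : Finset ℤ) (p : ℤ → ℕ) (a b : ℤ → Fin 4 → ℤ) : Prop :=
  ∀ N ∈ Z, IsPt c C X M N (p N) (a N) (b N)

/-- Plücker coordinates -/
def pl (ω ω' : Fin 4 → ℤ) (k l : Fin 4) : ℤ := ω k * ω' l - ω l * ω' k

/-- Plücker coordinates in the conjugate basis -/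
noncomputable def Ctx.pc (c : Ctx F) (ω ω' : Fin 4 → ℤ) (i j : Fin 4) : 𝓞 F :=
  c.cj ω i * c.cj ω' j - c.cj ω j * c.cj ω' i

/-- the linear polynomial `ω_i s + ω'_i` over `F` -/
noncomputable def Ctx.lin (c : Ctx F) (ω ω' : Fin 4 → ℤ) (i : Fin 4) : F[X] :=
  C ((c.cj ω i : 𝓞 F) : F) * X + C ((c.cj ω' i : 𝓞 F) : F)

/-- `G(s, N)` is a nonzero polynomial of bidegree at most `D` vanishing at all `(u/v, N)`. -/
def Curve (K : Type) [Field K] (D : ℕ) (G : K[X][X]) (Z : Finset ℤ) (u v : ℤ → ℤ) : Prop :=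
  G ≠ 0 ∧ G.natDegree ≤ D ∧ (∀ j, (G.coeff j).natDegree ≤ D) ∧
    ∀ N ∈ Z, G.evalEval ((u N : K) / (v N : K)) (N : K) = 0

/-- the point `(u/v, N)` lies on a special sextic section over the line -/
def Six (c : Ctx F) (ω ω' : Fin 4 → ℤ) (N u v : ℤ) : Prop :=
  ∃ (l0 l1 : ℚ) (P : ℚ[X]), P.natDegree ≤ 6 ∧
    (∀ i, (c.lin ω ω' i) ^ 2 ∣ P.map (algebraMap ℚ F) -
      C ((c.ϑ i : 𝓞 F) : F) * (C (algebraMap ℚ F l1) * X + C (algebraMap ℚ F l0)) ^ 6) ∧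
    l1 * ((u : ℚ) / v) + l0 ≠ 0 ∧
    P.eval ((u : ℚ) / v) = N * (l1 * ((u : ℚ) / v) + l0) ^ 6

/-- A rational parameter `w1 / w0` of polynomial height which separates the points of `Z`. -/
def Param (X : ℝ) (K : ℕ) (Z : Finset ℤ) (w0 w1 : ℤ → ℤ) : Prop :=
  (∀ N ∈ Z, IsCoprime (w0 N) (w1 N) ∧ w0 N ≠ 0 ∧ |(w0 N : ℝ)| ≤ X ^ K ∧ |(w1 N : ℝ)| ≤ X ^ K) ∧
    ∀ N ∈ Z, ∀ N' ∈ Z, w1 N * w0 N' = w1 N' * w0 N → N = N'

/-- `Y` is a rational function of degree at most `D` (over `E`) of the parameter `w1 / w0`. -/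
def RatFn (E : Type) [Field E] (D : ℕ) (Z : Finset ℤ) (w0 w1 : ℤ → ℤ) (Y : ℤ → E) : Prop :=
  ∃ num den : E[X], den ≠ 0 ∧ num.natDegree ≤ D ∧ den.natDegree ≤ D ∧
    ∀ N ∈ Z, den.eval ((w1 N : E) / (w0 N : E)) * Y N = num.eval ((w1 N : E) / (w0 N : E))

/-- The direction of the vector `a` is a rational function of degree at most `D` (over `E`)
of the parameter `w1 / w0`. -/
def RatDir (E : Type) [Field E] (D : ℕ) (Z : Finset ℤ) (w0 w1 : ℤ → ℤ)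
    (a : ℤ → Fin 4 → ℤ) : Prop :=
  ∃ q : Fin 4 → E[X], q ≠ 0 ∧ (∀ l, (q l).natDegree ≤ D) ∧
    ∀ N ∈ Z, ∀ j k, (a N j : E) * (q k).eval ((w1 N : E) / (w0 N : E)) =
      (a N k : E) * (q j).eval ((w1 N : E) / (w0 N : E))

end Vale.Agent.P018
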