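import Vale.Agent.P018.DetBound
import Vale.Agent.P018.Q.Defs

namespace Vale.Agent.P018

open Filter

/-- Determinant bound: only sets of exponents with a nonzero coefficient minor matter. -/
theorem det_bound_gen {ι : Type} [Fintype ι] [DecidableEq ι] (M : ℕ) (w : Fin M → ℝ)
    (P : ι → MvPolynomial (Fin M) ℂ) (K : ℝ) (hP : ∀ j, l1 (P j) ≤ K)
    (X : ℝ) (hX : 1 ≤ X) (τ : ι → Fin M → ℂ) (hτ : ∀ l v, ‖τ l v‖ ≤ X ^ (-w v)) (W : ℝ)
    (hW : ∀ g : ι → (Fin M →₀ ℕ), Function.Injective g →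
      (Matrix.of fun r j => (P j).coeff (g r)).det ≠ 0 → W ≤ ∑ r, ∑ v, w v * g r v) :
    ‖(Matrix.of fun l j => MvPolynomial.eval (τ l) (P j)).det‖ ≤
      ((Fintype.card ι).factorial : ℝ) * K ^ (Fintype.card ι) * X ^ (-W) := by
  classical
  have hX0 : 0 < X := by linarith
  have hY0 : 0 ≤ X ^ (-W) := Real.rpow_nonneg hX0.le _
  set E : Finset (Fin M →₀ ℕ) := Finset.univ.biUnion fun j => (P j).support with hE
  have hsup : ∀ j, (P j).support ⊆ E := fun j =>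
    Finset.subset_biUnion_of_mem (fun j => (P j).support) (Finset.mem_univ j)
  set m : ι → (Fin M →₀ ℕ) → ℂ := fun l e => ∏ v, τ l v ^ e v with hm
  have hev : ∀ l j, MvPolynomial.eval (τ l) (P j) = ∑ e ∈ E, (P j).coeff e * m l e := by
    intro l j
    rw [MvPolynomial.eval_eq']
    refine Finset.sum_subset (hsup j) fun e _ he => ?_
    rw [MvPolynomial.notMem_support_iff.mp he, zero_mul]
  have hdetT : ∀ A : Matrix ι ι ℂ,
      A.det = ∑ s : Equiv.Perm ι, ((Equiv.Perm.sign s : ℤ) : ℂ) * ∏ i, A i (s i) := by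
    intro A
    rw [← Matrix.det_transpose, Matrix.det_apply']
    rfl
  have hexp : (Matrix.of fun l j => MvPolynomial.eval (τ l) (P j)).det
      = ∑ g ∈ Fintype.piFinset (fun _ : ι => E),
        (∏ l, m l (g l)) * (Matrix.of fun r j => (P j).coeff (g r)).det := by
    simp only [hdetT, Matrix.of_apply, hev, Finset.mul_sum, Finset.prod_univ_sum]
    rw [Finset.sum_comm]
    refine Finset.sum_congr rfl fun g _ => Finset.sum_congr rfl fun s _ => ?_
    rw [Finset.prod_mul_distrib]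
    ring
  have hm1 : ∀ l e, ‖m l e‖ ≤ X ^ (-∑ v, w v * e v) := by
    intro l e
    simp only [hm]
    rw [norm_prod, ← Finset.sum_neg_distrib, Real.rpow_sum_of_pos hX0]
    refine Finset.prod_le_prod (fun v _ => norm_nonneg _) fun v _ => ?_
    rw [norm_pow, ← neg_mul, Real.rpow_mul_natCast hX0.le]
    exact pow_le_pow_left₀ (norm_nonneg _) (hτ l v) _
  have hterm : ∀ g : ι → (Fin M →₀ ℕ),
      ‖(∏ l, m l (g l)) * (Matrix.of fun r j => (P j).coeff (g r)).det‖ ≤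
        X ^ (-W) * ∑ s : Equiv.Perm ι, ∏ i, ‖(P (s i)).coeff (g i)‖ := by
    intro g
    have hnn : 0 ≤ ∑ s : Equiv.Perm ι, ∏ i, ‖(P (s i)).coeff (g i)‖ :=
      Finset.sum_nonneg fun _ _ => Finset.prod_nonneg fun _ _ => norm_nonneg _
    by_cases hd : (Matrix.of fun r j => (P j).coeff (g r)).det = 0
    · rw [hd, mul_zero, norm_zero]
      exact mul_nonneg hY0 hnn
    have hg : Function.Injective g := by
      by_contra hg
      rw [Function.not_injective_iff] at hg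
      obtain ⟨a, b, hab, hne⟩ := hg
      exact hd (Matrix.det_zero_of_row_eq hne (funext fun l => by simp [hab]))
    rw [norm_mul]
    refine mul_le_mul ?_ ?_ (norm_nonneg _) hY0
    · rw [norm_prod]
      refine (Finset.prod_le_prod (fun j _ => norm_nonneg _) fun j _ => hm1 j (g j)).trans ?_
      rw [← Real.rpow_sum_of_pos hX0, Finset.sum_neg_distrib]
      exact Real.rpow_le_rpow_of_exponent_le hX (neg_le_neg (hW g hg hd))
    · rw [hdetT]
      refine (norm_sum_le _ _).trans (Finset.sum_le_sum fun s _ => ?_)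
      have hs : ‖((Equiv.Perm.sign s : ℤ) : ℂ)‖ = 1 := by
        rcases Int.units_eq_one_or (Equiv.Perm.sign s) with h | h <;> simp [h]
      rw [norm_mul, hs, one_mul, norm_prod]
      rfl
  rw [hexp]
  refine (norm_sum_le _ _).trans ((Finset.sum_le_sum fun g _ => hterm g).trans ?_)
  rw [← Finset.mul_sum, Finset.sum_comm, mul_comm]
  refine mul_le_mul_of_nonneg_right ?_ hY0
  rw [← Fintype.card_perm, ← Finset.card_univ (α := Equiv.Perm ι), ← nsmul_eq_mul,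
    ← Finset.sum_const]
  refine Finset.sum_le_sum fun s _ => ?_
  rw [← Finset.prod_univ_sum (fun _ : ι => E) (fun i e => ‖(P (s i)).coeff e‖),
    ← Finset.card_univ, ← Finset.prod_const]
  refine Finset.prod_le_prod (fun j _ => Finset.sum_nonneg fun _ _ => norm_nonneg _) fun j _ => ?_
  rw [← db_l1_eq _ _ (hsup _)]
  exact hP _

/-- crude weight bound for pairs of exponents -/
theorem weight_crude (z W : ℝ) (hz : 0 < z) (hW : 0 ≤ W) (S : Finset (ℕ × ℕ)) :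
    W * S.card - (W + z + 1) ^ 3 / (6 * z) ≤ ∑ x ∈ S, (z * x.1 + x.2) := by
  classical
  have hw : ∀ v : Fin 2, 0 < (![z, 1] : Fin 2 → ℝ) v := by
    intro v
    fin_cases v
    · exact hz
    · exact one_pos
  have h2 := db_key 1 2 ![z, 1] hw (S.image fun x => (![x.1, x.2] : Fin 2 → ℕ)) W
  rw [Finset.sum_image (fun a _ b _ h => Prod.ext (congrFun h 0) (congrFun h 1)), if_pos hW] at h2
  simp only [Fin.sum_univ_two, Fin.prod_univ_two, Matrix.cons_val_zero, Matrix.cons_val_one,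
    one_mul, mul_one, Nat.factorial_one, Nat.cast_one, div_one, pow_one] at h2
  have h6 : ((Nat.factorial (1 + 2) : ℕ) : ℝ) = 6 := by norm_num [Nat.factorial]
  rw [h6, ← add_assoc] at h2
  have h3 : W * S.card - ∑ x ∈ S, (z * x.1 + x.2) = ∑ x ∈ S, (W - (z * x.1 + x.2)) := by
    rw [Finset.sum_sub_distrib, Finset.sum_const, nsmul_eq_mul, mul_comm]
  have h4 : ∑ x ∈ S, (W - (z * x.1 + x.2)) ≤
      ∑ x ∈ S, (if 0 ≤ W - (z * x.1 + x.2) then W - (z * x.1 + x.2) else 0) := by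
    refine Finset.sum_le_sum fun x _ => ?_
    split_ifs with h
    · exact le_rfl
    · linarith
  norm_num only at h2
  linarith

theorem dg_cap (b J : ℕ) (hJ : 8 * J ≤ 6 * b + 1) :
    ((∑ j ∈ Finset.range (J + 1), (6 * b + 1 - 8 * j) : ℕ) : ℝ) =
      (J + 1) * (6 * b + 1) - 4 * J * (J + 1) := by
  induction J with
  | zero => simp
  | succ J ih =>
    rw [Finset.sum_range_succ, Nat.cast_add, ih (by omega), Nat.cast_sub hJ]
    push_cast
    ring

theorem dg_sum_cap (b h : ℕ) :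
    ∑ J ∈ Finset.range h, (((J : ℝ) + 1) * (6 * b + 1) - 4 * J * (J + 1)) =
      (6 * b + 1) * h * (h + 1) / 2 - 4 * (h - 1) * h * (h + 1) / 3 := by
  induction h with
  | zero => simp
  | succ h ih =>
    rw [Finset.sum_range_succ, ih]
    push_cast
    ring

theorem dg_sum_sq (A : ℝ) (h : ℕ) :
    ∑ k ∈ Finset.range (h + 1), (A + 8 * (k : ℝ)) ^ 2 =
      (h + 1) * A ^ 2 + 8 * A * h * (h + 1) + 32 * h * (h + 1) * (2 * h + 1) / 3 := by
  induction h with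
  | zero => simp
  | succ h ih =>
    rw [Finset.sum_range_succ, ih]
    push_cast
    ring

theorem dg_layer (S : Finset (ℕ × ℕ)) (h : ℕ) :
    ∑ x ∈ S.filter (fun x => x.2 ≤ h), ((h : ℝ) - x.2) =
      ∑ J ∈ Finset.range h, ((S.filter fun x => x.2 ≤ J).card : ℝ) := by
  classical
  simp only [Finset.card_filter, Nat.cast_sum, Finset.sum_filter]
  rw [Finset.sum_comm]
  refine Finset.sum_congr rfl fun x _ => ?_
  have key : ∀ n : ℕ, ∑ J ∈ Finset.range n, (((if x.2 ≤ J then 1 else 0 : ℕ)) : ℝ) =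
      if x.2 ≤ n then (n : ℝ) - x.2 else 0 := by
    intro n
    induction n with
    | zero =>
      rw [Finset.sum_range_zero]
      split_ifs with h0
      · rw [Nat.le_zero.mp h0]; simp
      · rfl
    | succ n ih =>
      rw [Finset.sum_range_succ, ih]
      by_cases h1 : x.2 ≤ n
      · rw [if_pos h1, if_pos h1, if_pos (by omega)]
        push_cast
        ring
      · rw [if_neg h1, if_neg h1]
        split_ifs with h2
        · have h3 : x.2 = n + 1 := by omega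
          rw [h3]; simp
        · simp
  exact (key h).symm

theorem dg_rows (S : Finset (ℕ × ℕ)) (h : ℕ) (A : ℝ) (hA : 0 ≤ A) :
    ∑ x ∈ S.filter (fun x => x.2 ≤ h), (A + 8 * ((h : ℝ) - x.2) - x.1) ≤
      (∑ k ∈ Finset.range (h + 1), (A + 1 + 8 * (k : ℝ)) ^ 2) / 2 := by
  classical
  set B := S.sup (fun x => x.1) + 1 with hB
  have hsub : S.filter (fun x => x.2 ≤ h) ⊆ Finset.range B ×ˢ Finset.range (h + 1) := by
    intro x hx
    rw [Finset.mem_filter] at hx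
    refine Finset.mem_product.mpr ⟨Finset.mem_range.mpr ?_, Finset.mem_range.mpr (by omega)⟩
    exact Nat.lt_succ_of_le (Finset.le_sup (f := fun x => x.1) hx.1)
  have h1 : ∑ x ∈ S.filter (fun x => x.2 ≤ h), (A + 8 * ((h : ℝ) - x.2) - x.1) ≤
      ∑ x ∈ S.filter (fun x => x.2 ≤ h), (if 0 ≤ A + 8 * ((h : ℝ) - x.2) - 1 * x.1 then
        (A + 8 * ((h : ℝ) - x.2) - 1 * x.1 + 0) ^ 1 else 0) := by
    refine Finset.sum_le_sum fun x _ => ?_
    split_ifs with hx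
    · simp
    · linarith
  refine h1.trans ((Finset.sum_le_sum_of_subset_of_nonneg hsub fun x _ _ => ?_).trans ?_)
  · split_ifs with hx
    · rw [add_zero, pow_one]; exact hx
    · exact le_rfl
  rw [Finset.sum_product_right, Finset.sum_div, ← Finset.sum_range_reflect _ (h + 1)]
  refine Finset.sum_le_sum fun k hk => ?_
  have hk' : k ≤ h := by have := Finset.mem_range.mp hk; omega
  have e : ((h + 1 - 1 - k : ℕ) : ℝ) = h - k := by
    rw [Nat.add_sub_cancel, Nat.cast_sub hk']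
  have h2 := db_one_var 1 1 0 one_pos le_rfl B (A + 8 * (k : ℝ))
  rw [if_pos (by positivity)] at h2
  simp only [e, sub_sub_cancel]
  refine h2.trans (le_of_eq ?_)
  push_cast
  ring

theorem dg_upper (z : ℝ) (hz : 0 < z) (S : Finset (ℕ × ℕ)) (h : ℕ) (V : ℝ) (hV : 0 ≤ V) :
    (h + V) * (S.filter fun x => ¬ x.2 ≤ h).card - (V + z + 1) ^ 3 / (6 * z) ≤
      ∑ x ∈ S.filter (fun x => ¬ x.2 ≤ h), (z * x.1 + x.2) := by
  classical
  set T := S.filter fun x => ¬ x.2 ≤ h with hT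
  have hinj : Set.InjOn (fun x : ℕ × ℕ => (x.1, x.2 - h)) T := by
    intro a ha b hb hab
    have ha' := (Finset.mem_filter.mp (Finset.mem_coe.mp ha)).2
    have hb' := (Finset.mem_filter.mp (Finset.mem_coe.mp hb)).2
    have h1 : a.1 = b.1 := (Prod.ext_iff.mp hab).1
    have h2 : a.2 - h = b.2 - h := (Prod.ext_iff.mp hab).2
    exact Prod.ext h1 (by omega)
  have h1 := weight_crude z V hz hV (T.image fun x : ℕ × ℕ => (x.1, x.2 - h))
  rw [Finset.card_image_of_injOn hinj, Finset.sum_image hinj] at h1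
  have h2 : ∑ x ∈ T, (z * x.1 + x.2) = ∑ x ∈ T, (z * (x.1 : ℝ) + ((x.2 - h : ℕ) : ℝ))
      + h * T.card := by
    rw [mul_comm, ← nsmul_eq_mul, ← Finset.sum_const, ← Finset.sum_add_distrib]
    refine Finset.sum_congr rfl fun x hx => ?_
    have hx' := (Finset.mem_filter.mp hx).2
    rw [Nat.cast_sub (by omega)]
    ring
  rw [h2]
  linarith

theorem dg_main (z : ℝ) (hz : 0 < z) (hz8 : z ≤ 1 / 8) (b h : ℕ) (hh : 2 * h ≤ b)
    (S : Finset (ℕ × ℕ))
    (hS : ∀ J : ℕ, (S.filter fun x => x.2 ≤ J).card ≤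
      ∑ j ∈ Finset.range (J + 1), (6 * b + 1 - 8 * j)) :
    (h + 2 * b * z) * S.card - (2 * b * z + z + 1) ^ 3 / (6 * z)
      - (1 - 8 * z) * ((6 * b + 1) * h * (h + 1) / 2 - 4 * (h - 1) * h * (h + 1) / 3)
      - z * (((h + 1) * (2 * b + 1) ^ 2 + 8 * (2 * b + 1) * h * (h + 1)
        + 32 * h * (h + 1) * (2 * h + 1) / 3) / 2) ≤ ∑ x ∈ S, (z * x.1 + x.2) := by
  classical
  have h1 := dg_upper z hz S h (2 * b * z) (by positivity)
  have h2 := dg_rows S h (2 * b) (by positivity)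
  rw [dg_sum_sq] at h2
  have h3 : ∑ x ∈ S.filter (fun x => x.2 ≤ h), ((h : ℝ) - x.2) ≤
      (6 * b + 1) * h * (h + 1) / 2 - 4 * (h - 1) * h * (h + 1) / 3 := by
    rw [dg_layer, ← dg_sum_cap]
    refine Finset.sum_le_sum fun J hJ => ?_
    have hJ' := Finset.mem_range.mp hJ
    rw [← dg_cap b J (by omega)]
    exact_mod_cast hS J
  have h4 : ∑ x ∈ S.filter (fun x => x.2 ≤ h), (z * x.1 + x.2) =
      (h + 2 * b * z) * (S.filter fun x => x.2 ≤ h).card
        - (1 - 8 * z) * ∑ x ∈ S.filter (fun x => x.2 ≤ h), ((h : ℝ) - x.2)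
        - z * ∑ x ∈ S.filter (fun x => x.2 ≤ h), (2 * b + 8 * ((h : ℝ) - x.2) - x.1) := by
    rw [mul_comm, ← nsmul_eq_mul, ← Finset.sum_const, Finset.mul_sum, Finset.mul_sum,
      ← Finset.sum_sub_distrib, ← Finset.sum_sub_distrib]
    refine Finset.sum_congr rfl fun x _ => ?_
    ring
  have h5 : ((S.filter fun x => x.2 ≤ h).card : ℝ) + (S.filter fun x => ¬ x.2 ≤ h).card
      = S.card := by
    exact_mod_cast Finset.card_filter_add_card_filter_not (s := S) (fun x => x.2 ≤ h)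
  rw [← Finset.sum_filter_add_sum_filter_not S (fun x => x.2 ≤ h), h4, ← h5]
  have h6 := mul_le_mul_of_nonneg_left h3 (show 0 ≤ 1 - 8 * z by linarith)
  have h7 := mul_le_mul_of_nonneg_left h2 hz.le
  linarith

theorem dg_cube (z b : ℝ) (hz : 0 < z) (hz8 : z ≤ 1 / 8) (hb : 1 ≤ b) :
    (2 * b * z + z + 1) ^ 3 / (6 * z) ≤ 4 / 3 * z ^ 2 * b ^ 3 + (3 + 1 / z) * b ^ 2 := by
  rw [div_le_iff₀ (by positivity)]
  have e : (4 / 3 * z ^ 2 * b ^ 3 + (3 + 1 / z) * b ^ 2) * (6 * z) =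
      8 * z ^ 3 * b ^ 3 + 18 * z * b ^ 2 + 6 * b ^ 2 := by
    field_simp
    ring
  rw [e]
  have hb2 : b ≤ b ^ 2 := by nlinarith
  have hb3 : 1 ≤ b ^ 2 := by nlinarith
  have e2 : (2 * b * z + z + 1) ^ 3 = 8 * z ^ 3 * b ^ 3 + 12 * (z * (z + 1)) * (z * b ^ 2)
      + 6 * (z + 1) ^ 2 * (z * b) + (z + 1) ^ 3 := by ring
  have a1 : z * (z + 1) ≤ 1 / 2 := by nlinarith
  have a2 : (z + 1) ^ 2 ≤ 2 := by nlinarith
  have a3 : (z + 1) ^ 3 ≤ 6 := by nlinarith
  have a4 : z * b ≤ z * b ^ 2 := mul_le_mul_of_nonneg_left hb2 hz.le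
  have a5 : 0 ≤ z * b ^ 2 := by positivity
  have a6 : 0 ≤ z * b := by positivity
  rw [e2]
  nlinarith

theorem dg_cap_le (b h : ℕ) (hb : b = 2 * h ∨ b = 2 * h + 1) :
    (6 * (b : ℝ) + 1) * h * (h + 1) / 2 - 4 * (h - 1) * h * (h + 1) / 3 ≤
      7 / 12 * (b : ℝ) ^ 3 + 3 * (b : ℝ) ^ 2 := by
  have h0 : (0 : ℝ) ≤ h := Nat.cast_nonneg h
  have h1 : (h : ℝ) ≤ (h : ℝ) ^ 2 := by exact_mod_cast Nat.le_self_pow two_ne_zero h
  have h3 : (0 : ℝ) ≤ (h : ℝ) ^ 3 := by positivity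
  rcases hb with rfl | rfl
  · push_cast
    nlinarith
  · push_cast
    nlinarith

theorem dg_sq_le (b h : ℕ) (hb1 : 1 ≤ b) (hh : 2 * h ≤ b) :
    (((h : ℝ) + 1) * (2 * b + 1) ^ 2 + 8 * (2 * b + 1) * h * (h + 1)
        + 32 * h * (h + 1) * (2 * h + 1) / 3) / 2 ≤ 13 / 3 * (b : ℝ) ^ 3 + 40 * (b : ℝ) ^ 2 := by
  have h0 : (0 : ℝ) ≤ h := Nat.cast_nonneg h
  have h1 : (1 : ℝ) ≤ b := by exact_mod_cast hb1
  have h2 : (h : ℝ) ≤ b / 2 := by
    have : ((2 * h : ℕ) : ℝ) ≤ b := by exact_mod_cast hh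
    push_cast at this
    linarith
  have hb2 : (b : ℝ) ≤ (b : ℝ) ^ 2 := by nlinarith
  have hb3 : (1 : ℝ) ≤ (b : ℝ) ^ 2 := by nlinarith
  have : ((h : ℝ) + 1) * (2 * b + 1) ^ 2 + 8 * (2 * b + 1) * h * (h + 1)
        + 32 * h * (h + 1) * (2 * h + 1) / 3 ≤ ((b : ℝ) / 2 + 1) * (2 * b + 1) ^ 2
        + 8 * (2 * b + 1) * (b / 2) * (b / 2 + 1)
        + 32 * (b / 2) * (b / 2 + 1) * (2 * (b / 2) + 1) / 3 := by
    gcongr
  nlinarith

/-- refined weight bound -/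
theorem weight_refined (z γ : ℝ) (hz : 0 < z) (hz8 : z ≤ 1 / 8)
    (hγ : γ < 5 / 12 + 13 / 3 * z - 4 / 3 * z ^ 2) : ∀ᶠ b : ℕ in atTop, ∀ S : Finset (ℕ × ℕ),
    S.card = 2 * b ^ 2 + 2 →
    (∀ J : ℕ, (S.filter fun x => x.2 ≤ J).card ≤ ∑ j ∈ Finset.range (J + 1), (6 * b + 1 - 8 * j)) →
    γ * (b : ℝ) ^ 3 ≤ ∑ x ∈ S, (z * x.1 + x.2) := by
  set δ : ℝ := 5 / 12 + 13 / 3 * z - 4 / 3 * z ^ 2 - γ with hδ
  have hδ0 : 0 < δ := by linarith
  filter_upwards [eventually_ge_atTop 1, eventually_ge_atTop ⌈(12 + 1 / z) / δ⌉₊]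
    with b hb1 hb2 S hcard hS
  have hpar : b = 2 * (b / 2) ∨ b = 2 * (b / 2) + 1 := by omega
  set h := b / 2 with hh
  have hle : 2 * h ≤ b := by omega
  have hbR : (1 : ℝ) ≤ b := by exact_mod_cast hb1
  have hhR : (b : ℝ) - 1 ≤ 2 * h := by
    have : ((b : ℕ) : ℝ) ≤ ((2 * h + 1 : ℕ) : ℝ) := by exact_mod_cast (by omega : b ≤ 2 * h + 1)
    push_cast at this
    linarith
  have h0 : (0 : ℝ) ≤ h := Nat.cast_nonneg h
  have h1 := dg_main z hz hz8 b h hle S hS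
  have h2 := dg_cube z b hz hz8 hbR
  have h3 := mul_le_mul_of_nonneg_left (dg_cap_le b h hpar) (show 0 ≤ 1 - 8 * z by linarith)
  have h4 := mul_le_mul_of_nonneg_left (dg_sq_le b h hb1 hle) hz.le
  have h5 : (1 + 4 * z) * (b : ℝ) ^ 3 - (b : ℝ) ^ 2 ≤ (h + 2 * b * z) * S.card := by
    rw [hcard]
    push_cast
    have a1 : (0 : ℝ) ≤ h + 2 * b * z := by positivity
    have a2 : (0 : ℝ) ≤ (b : ℝ) ^ 2 := by positivity
    nlinarith [mul_le_mul_of_nonneg_right hhR a2]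
  have h6 : (12 + 1 / z) ≤ δ * b := by
    have := (Nat.le_ceil ((12 + 1 / z) / δ)).trans (Nat.cast_le.mpr hb2)
    rwa [div_le_iff₀ hδ0, mul_comm] at this
  have h7 : (12 + 1 / z) * (b : ℝ) ^ 2 ≤ δ * b * (b : ℝ) ^ 2 :=
    mul_le_mul_of_nonneg_right h6 (by positivity)
  have h8 : 0 ≤ z * (b : ℝ) ^ 2 := by positivity
  have h9 : z * (b : ℝ) ^ 2 ≤ 1 / 8 * (b : ℝ) ^ 2 := mul_le_mul_of_nonneg_right hz8 (by positivity)
  have h10 : γ = 5 / 12 + 13 / 3 * z - 4 / 3 * z ^ 2 - δ := by rw [hδ]; ring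
  rw [h10]
  nlinarith

end Vale.Agent.P018
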