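import Mathlib

/-! Polynomial lemmas for the dimension bound `dimI`. -/

namespace Vale.Agent.P018

open Polynomial Module

variable {K : Type} [Field K]

theorem dimI_mem_lt {p : K[X]} {d : ℕ} : p ∈ degreeLT K (d + 1) ↔ p.natDegree ≤ d := by
  rw [degreeLT_succ_eq_degreeLE, mem_degreeLE, natDegree_le_iff_degree_le]

theorem dimI_finrank_lt (d : ℕ) : finrank K (degreeLT K d) = d := by
  simpa using finrank_eq_card_basis (degreeLT.basis K d)

theorem dimI_l_deg {u v : K} (hu : u ≠ 0) : (C u * X + C v).natDegree = 1 := natDegree_linear hu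

theorem dimI_l_ne {u v : K} (hu : u ≠ 0) : C u * X + C v ≠ 0 := by
  intro h
  have := dimI_l_deg (v := v) hu
  rw [h] at this
  simp at this

theorem dimI_l_sq_deg {u v : K} (hu : u ≠ 0) : ((C u * X + C v) ^ 2).natDegree = 2 := by
  rw [natDegree_pow, dimI_l_deg hu]

theorem dimI_l_coprime {u v u' v' : K} (h : u * v' ≠ u' * v) :
    IsCoprime (C u * X + C v) (C u' * X + C v') := by
  have hd : u' * v - u * v' ≠ 0 := sub_ne_zero.2 h.symm
  refine ⟨C (u' / (u' * v - u * v')), C (-u / (u' * v - u * v')), ?_⟩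
  have h1 : u' / (u' * v - u * v') * u + -u / (u' * v - u * v') * u' = 0 := by
    field_simp
    ring
  have h2 : u' / (u' * v - u * v') * v + -u / (u' * v - u * v') * v' = 1 := by
    field_simp
    ring
  have h1' := congrArg (C : K → K[X]) h1
  have h2' := congrArg (C : K → K[X]) h2
  simp only [map_add, map_mul, map_zero, map_one] at h1' h2'
  linear_combination X * h1' + h2'

/-- quotients of a section -/
theorem dimI_quot {u v : K} (hu : u ≠ 0) {F : K[X]} {d : ℕ} (hF : F.natDegree ≤ d + 2)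
    (h : (C u * X + C v) ^ 2 ∣ F) : ∃ T : K[X], T.natDegree ≤ d ∧ F = (C u * X + C v) ^ 2 * T := by
  obtain ⟨T, hT⟩ := h
  refine ⟨T, ?_, hT⟩
  by_cases h0 : T = 0
  · simp [h0]
  · rw [hT, natDegree_mul (pow_ne_zero _ (dimI_l_ne hu)) h0, dimI_l_sq_deg hu] at hF
    omega

theorem dimI_sub_deg {P Q : K[X]} {d : ℕ} (hP : P.natDegree ≤ d) (hQ : Q.natDegree ≤ d) (t : K) :
    (P - C t * Q).natDegree ≤ d :=
  (natDegree_sub_le _ _).trans (max_le hP ((natDegree_C_mul_le _ _).trans hQ))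

/-- there is no nonzero section of degree two -/
theorem dimI_no_two [CharZero K] {x y θ : Fin 4 → K} (hθ : Function.Injective θ)
    (hx : ∀ i, x i ≠ 0) (hxy : ∀ i j, i ≠ j → x i * y j ≠ x j * y i) {P Q : K[X]}
    (hP : P.natDegree ≤ 2) (hQ : Q.natDegree ≤ 2)
    (h : ∀ i, (C (x i) * X + C (y i)) ^ 2 ∣ P - C (θ i) * Q) : P = 0 ∧ Q = 0 := by
  have hc : ∀ i, ∃ c : K, P - C (θ i) * Q = (C (x i) * X + C (y i)) ^ 2 * C c := by
    intro i
    obtain ⟨T, hT, hT'⟩ := dimI_quot (d := 0) (hx i) (dimI_sub_deg hP hQ (θ i)) (h i)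
    exact ⟨T.coeff 0, by rw [hT', ← eq_C_of_natDegree_le_zero hT]⟩
  choose c hc using hc
  have hev : ∀ t : K, (θ 1 - θ 2) * c 0 * (x 0 * t + y 0) ^ 2 +
      (θ 2 - θ 0) * c 1 * (x 1 * t + y 1) ^ 2 + (θ 0 - θ 1) * c 2 * (x 2 * t + y 2) ^ 2 = 0 := by
    intro t
    have h0 := congrArg (eval t) (hc 0)
    have h1 := congrArg (eval t) (hc 1)
    have h2 := congrArg (eval t) (hc 2)
    simp only [eval_sub, eval_mul, eval_C, eval_pow, eval_add, eval_X] at h0 h1 h2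
    linear_combination -(θ 1 - θ 2) * h0 - (θ 2 - θ 0) * h1 - (θ 0 - θ 1) * h2
  have e0 := hev 0
  have e1 := hev 1
  have e2 := hev (-1)
  have hne : ∀ i j : Fin 4, i ≠ j → θ i - θ j ≠ 0 := fun i j hij => sub_ne_zero.2 (hθ.ne hij)
  have hd : ∀ i j : Fin 4, i ≠ j → x i * y j - x j * y i ≠ 0 :=
    fun i j hij => sub_ne_zero.2 (hxy i j hij)
  have hc0 : c 0 = 0 := by
    have : 4 * ((θ 1 - θ 2) * (x 0 * y 1 - x 1 * y 0) * (x 0 * y 2 - x 2 * y 0)) * c 0 = 0 := by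
      linear_combination (4 * x 1 * x 2 - 4 * y 1 * y 2) * e0 +
        (2 * y 1 * y 2 - (y 1 * x 2 + x 1 * y 2)) * e1 +
        (2 * y 1 * y 2 + (y 1 * x 2 + x 1 * y 2)) * e2
    exact (mul_eq_zero.1 this).resolve_left (mul_ne_zero (by norm_num) (mul_ne_zero
      (mul_ne_zero (hne 1 2 (by decide)) (hd 0 1 (by decide))) (hd 0 2 (by decide))))
  have hc1 : c 1 = 0 := by
    have : 4 * ((θ 2 - θ 0) * (x 1 * y 0 - x 0 * y 1) * (x 1 * y 2 - x 2 * y 1)) * c 1 = 0 := by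
      linear_combination (4 * x 0 * x 2 - 4 * y 0 * y 2) * e0 +
        (2 * y 0 * y 2 - (y 0 * x 2 + x 0 * y 2)) * e1 +
        (2 * y 0 * y 2 + (y 0 * x 2 + x 0 * y 2)) * e2
    exact (mul_eq_zero.1 this).resolve_left (mul_ne_zero (by norm_num) (mul_ne_zero
      (mul_ne_zero (hne 2 0 (by decide)) (hd 1 0 (by decide))) (hd 1 2 (by decide))))
  have f0 := hc 0
  have f1 := hc 1
  rw [hc0, C_0, mul_zero] at f0
  rw [hc1, C_0, mul_zero] at f1
  have hQ0 : Q = 0 := by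
    have : C (θ 0 - θ 1) * Q = 0 := by
      rw [map_sub]
      linear_combination f1 - f0
    exact (mul_eq_zero.1 this).resolve_left (C_ne_zero.2 (hne 0 1 (by decide)))
  refine ⟨?_, hQ0⟩
  simpa [hQ0] using f0

/-- the determinant of two sections of complementary degrees -/
theorem dimI_det {x y θ : Fin 4 → K} (hx : ∀ i, x i ≠ 0)
    (hxy : ∀ i j, i ≠ j → x i * y j ≠ x j * y i) {P Q P' Q' : K[X]} {d d' : ℕ} (hd : d + d' = 8)
    (hP : P.natDegree ≤ d) (hQ : Q.natDegree ≤ d) (hP' : P'.natDegree ≤ d')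
    (hQ' : Q'.natDegree ≤ d') (h : ∀ i, (C (x i) * X + C (y i)) ^ 2 ∣ P - C (θ i) * Q)
    (h' : ∀ i, (C (x i) * X + C (y i)) ^ 2 ∣ P' - C (θ i) * Q') :
    ∃ c : K, P * Q' - P' * Q = C c * ∏ i, (C (x i) * X + C (y i)) ^ 2 := by
  have hdvd : ∏ i, (C (x i) * X + C (y i)) ^ 2 ∣ P * Q' - P' * Q := by
    refine Finset.prod_dvd_of_coprime (fun i _ j _ hij => ?_) fun i _ => ?_
    · exact (dimI_l_coprime (hxy i j hij)).pow
    · have : P * Q' - P' * Q = (P - C (θ i) * Q) * Q' - (P' - C (θ i) * Q') * Q := by ring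
      rw [this]
      exact dvd_sub ((h i).mul_right _) ((h' i).mul_right _)
  obtain ⟨T, hT⟩ := hdvd
  have hdeg : (P * Q' - P' * Q).natDegree ≤ 8 := by
    refine (natDegree_sub_le _ _).trans (max_le ?_ ?_)
    · exact natDegree_mul_le.trans (by omega)
    · exact natDegree_mul_le.trans (by omega)
  have hne : ∏ i, (C (x i) * X + C (y i)) ^ 2 ≠ 0 :=
    Finset.prod_ne_zero_iff.2 fun i _ => pow_ne_zero _ (dimI_l_ne (hx i))
  have h8 : (∏ i, (C (x i) * X + C (y i)) ^ 2).natDegree = 8 := by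
    rw [natDegree_prod _ _ fun i _ => pow_ne_zero _ (dimI_l_ne (hx i))]
    simp [dimI_l_sq_deg (hx _)]
  have hT0 : T.natDegree ≤ 0 := by
    by_cases h0 : T = 0
    · simp [h0]
    · rw [hT, natDegree_mul hne h0, h8] at hdeg
      omega
  exact ⟨T.coeff 0, by rw [hT, ← eq_C_of_natDegree_le_zero hT0, mul_comm]⟩

/-- the key identity for the quotients -/
theorem dimI_cross {x y θ : Fin 4 → K} (hx : ∀ i, x i ≠ 0) {P Q P' Q' : K[X]}
    {T T' : Fin 4 → K[X]} {c : K}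
    (hT : ∀ i, P - C (θ i) * Q = (C (x i) * X + C (y i)) ^ 2 * T i)
    (hT' : ∀ i, P' - C (θ i) * Q' = (C (x i) * X + C (y i)) ^ 2 * T' i)
    (hc : P * Q' - P' * Q = C c * ∏ i, (C (x i) * X + C (y i)) ^ 2) (i : Fin 4) :
    Q' * T i - Q * T' i = C c * ∏ j ∈ Finset.univ.erase i, (C (x j) * X + C (y j)) ^ 2 ∧
    P' * T i - P * T' i =
      C (θ i) * (C c * ∏ j ∈ Finset.univ.erase i, (C (x j) * X + C (y j)) ^ 2) := by
  have hl : (C (x i) * X + C (y i)) ^ 2 ≠ 0 := pow_ne_zero _ (dimI_l_ne (hx i))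
  rw [← Finset.mul_prod_erase _ _ (Finset.mem_univ i)] at hc
  constructor
  · refine mul_left_cancel₀ hl ?_
    linear_combination hc - Q' * hT i + Q * hT' i
  · refine mul_left_cancel₀ hl ?_
    linear_combination C (θ i) * hc - P' * hT i + P * hT' i

/-- formal injectivity -/
theorem dimI_inj {x y : Fin 4 → K} (hx : ∀ i, x i ≠ 0)
    (hxy : ∀ i j, i ≠ j → x i * y j ≠ x j * y i) {Q Q' : K[X]} {T T' : Fin 4 → K[X]} {c : K}
    (hc : c ≠ 0) (h : ∀ i, Q' * T i - Q * T' i =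
      C c * ∏ j ∈ Finset.univ.erase i, (C (x j) * X + C (y j)) ^ 2)
    (A : Fin 4 → K[X]) (hA : ∀ i, (A i).natDegree ≤ 1) (h0 : ∑ i, A i * T i = 0)
    (h1 : ∑ i, A i * T' i = 0) (i : Fin 4) : A i = 0 := by
  have hs : ∑ k, A k * ∏ j ∈ Finset.univ.erase k, (C (x j) * X + C (y j)) ^ 2 = 0 := by
    refine mul_left_cancel₀ (C_ne_zero.2 hc) ?_
    have : C c * ∑ k, A k * ∏ j ∈ Finset.univ.erase k, (C (x j) * X + C (y j)) ^ 2 =
        Q' * ∑ k, A k * T k - Q * ∑ k, A k * T' k := by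
      rw [Finset.mul_sum, Finset.mul_sum, Finset.mul_sum, ← Finset.sum_sub_distrib]
      refine Finset.sum_congr rfl fun k _ => ?_
      linear_combination (-A k) * h k
    rw [this, h0, h1]
    simp
  rw [← Finset.add_sum_erase _ _ (Finset.mem_univ i)] at hs
  have hd : (C (x i) * X + C (y i)) ^ 2 ∣
      A i * ∏ j ∈ Finset.univ.erase i, (C (x j) * X + C (y j)) ^ 2 := by
    rw [eq_neg_of_add_eq_zero_left hs, dvd_neg]
    refine Finset.dvd_sum fun k hk => Dvd.dvd.mul_left ?_ _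
    exact Finset.dvd_prod_of_mem (fun j => (C (x j) * X + C (y j)) ^ 2)
      (Finset.mem_erase.2 ⟨(Finset.ne_of_mem_erase hk).symm, Finset.mem_univ _⟩)
  have hcop : IsCoprime ((C (x i) * X + C (y i)) ^ 2)
      (∏ j ∈ Finset.univ.erase i, (C (x j) * X + C (y j)) ^ 2) :=
    IsCoprime.prod_right fun j hj =>
      (dimI_l_coprime (hxy i j (Finset.ne_of_mem_erase hj).symm)).pow
  refine eq_zero_of_dvd_of_natDegree_lt (hcop.dvd_of_dvd_mul_right hd) ?_
  rw [dimI_l_sq_deg (hx i)]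
  exact Nat.lt_succ_of_le (hA i)

/-- surjectivity -/
theorem dimI_surj {T T' : Fin 4 → K[X]} {d d' : ℕ} (hd : d + d' = 4)
    (hT : ∀ i, (T i).natDegree ≤ d) (hT' : ∀ i, (T' i).natDegree ≤ d')
    (hinj : ∀ A : Fin 4 → K[X], (∀ i, (A i).natDegree ≤ 1) → ∑ i, A i * T i = 0 →
      ∑ i, A i * T' i = 0 → ∀ i, A i = 0) (p q : K[X]) (hp : p.natDegree ≤ d + 1)
    (hq : q.natDegree ≤ d' + 1) : ∃ A : Fin 4 → K[X], (∀ i, (A i).natDegree ≤ 1) ∧
      ∑ i, A i * T i = p ∧ ∑ i, A i * T' i = q := by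
  have hm : ∀ (S : Fin 4 → K[X]) (e : ℕ), (∀ i, (S i).natDegree ≤ e) →
      ∀ A : Fin 4 → degreeLT K (1 + 1), ∑ i, (A i : K[X]) * S i ∈ degreeLT K (e + 1 + 1) := by
    intro S e hS A
    refine Submodule.sum_mem _ fun i _ => dimI_mem_lt.2 (natDegree_mul_le.trans ?_)
    have h1 := dimI_mem_lt.1 (A i).2
    have h2 := hS i
    omega
  let Φ : (Fin 4 → degreeLT K (1 + 1)) →ₗ[K] degreeLT K (d + 1 + 1) × degreeLT K (d' + 1 + 1) :=
    { toFun := fun A => (⟨_, hm T d hT A⟩, ⟨_, hm T' d' hT' A⟩)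
      map_add' := fun A B => by
        ext1 <;> ext1 <;> simp [add_mul, Finset.sum_add_distrib]
      map_smul' := fun r A => by
        ext1 <;> ext1 <;> simp [Finset.smul_sum] }
  have hΦ : Function.Injective Φ := by
    rw [injective_iff_map_eq_zero]
    intro A hA
    have h0 : ∑ i, (A i : K[X]) * T i = 0 := congrArg Subtype.val (congrArg Prod.fst hA)
    have h1 : ∑ i, (A i : K[X]) * T' i = 0 := congrArg Subtype.val (congrArg Prod.snd hA)
    funext i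
    exact Subtype.ext (hinj (fun i => A i) (fun i => dimI_mem_lt.1 (A i).2) h0 h1 i)
  have hrank : finrank K (Fin 4 → degreeLT K (1 + 1)) =
      finrank K (degreeLT K (d + 1 + 1) × degreeLT K (d' + 1 + 1)) := by
    rw [finrank_pi_fintype, finrank_prod]
    simp only [dimI_finrank_lt, Finset.sum_const, Finset.card_univ, Fintype.card_fin, smul_eq_mul]
    omega
  obtain ⟨A, hA⟩ := (LinearMap.injective_iff_surjective_of_finrank_eq_finrank hrank).1 hΦ
    (⟨p, dimI_mem_lt.2 hp⟩, ⟨q, dimI_mem_lt.2 hq⟩)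
  exact ⟨fun i => A i, fun i => dimI_mem_lt.1 (A i).2,
    congrArg Subtype.val (congrArg Prod.fst hA), congrArg Subtype.val (congrArg Prod.snd hA)⟩

theorem dimI_sq_dvd {u v : K} (hu : u ≠ 0) {F : K[X]} (h0 : F.eval (-v / u) = 0)
    (h1 : (derivative F).eval (-v / u) = 0) : (C u * X + C v) ^ 2 ∣ F := by
  obtain ⟨G, hG⟩ := dvd_iff_isRoot.2 h0
  have hG0 : G.eval (-v / u) = 0 := by
    rw [hG] at h1
    simpa using h1
  obtain ⟨H, hH⟩ := dvd_iff_isRoot.2 hG0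
  have hl : X - C (-v / u) = C u⁻¹ * (C u * X + C v) := by
    have h2 : (C u⁻¹ : K[X]) * C u = 1 := by rw [← map_mul, inv_mul_cancel₀ hu, map_one]
    have h3 : (C (-v / u) : K[X]) = -(C u⁻¹ * C v) := by
      rw [← map_mul, ← map_neg]
      congr 1
      ring
    rw [h3]
    linear_combination (-X) * h2
  refine ⟨C u⁻¹ ^ 2 * H, ?_⟩
  rw [hG, hH, hl]
  ring

theorem dimI_deg_two {R R' P P' : K[X]} (hR : R.coeff 3 ≠ 0) (hR' : R'.natDegree ≤ 2)
    (hP : P.natDegree ≤ 3) (h : R * P' = P * R') : P'.natDegree ≤ 2 := by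
  by_cases h0 : P' = 0
  · simp [h0]
  · have hR0 : R ≠ 0 := fun h1 => hR (by simp [h1])
    have h3 := le_natDegree_of_ne_zero hR
    have h4 : (R * P').natDegree ≤ 5 := by
      rw [h]
      exact natDegree_mul_le.trans (by omega)
    rw [natDegree_mul hR0 h0] at h4
    omega

/-- a section of degree five that is not proportional to a given one of degree three -/
theorem dimI_five [CharZero K] {x y θ : Fin 4 → K} (hθ : Function.Injective θ)
    (hx : ∀ i, x i ≠ 0) (hxy : ∀ i j, i ≠ j → x i * y j ≠ x j * y i) {P Q : K[X]}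
    (hP : P.natDegree ≤ 3) (hQ : Q.natDegree ≤ 3) (hne : P ≠ 0 ∨ Q ≠ 0)
    (h : ∀ i, (C (x i) * X + C (y i)) ^ 2 ∣ P - C (θ i) * Q) :
    ∃ P' Q' : K[X], P'.natDegree ≤ 5 ∧ Q'.natDegree ≤ 5 ∧
      (∀ i, (C (x i) * X + C (y i)) ^ 2 ∣ P' - C (θ i) * Q') ∧ P * Q' ≠ P' * Q := by
  obtain ⟨u, v, huv⟩ : ∃ u v : K, (C u * P + C v * Q).coeff 3 ≠ 0 := by
    by_cases hp : P.coeff 3 = 0
    · by_cases hq : Q.coeff 3 = 0
      · exfalso
        have hP2 : P.natDegree ≤ 2 := natDegree_le_pred hP hp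
        have hQ2 : Q.natDegree ≤ 2 := natDegree_le_pred hQ hq
        obtain ⟨h1, h2⟩ := dimI_no_two hθ hx hxy hP2 hQ2 h
        exact hne.elim (fun h => h h1) fun h => h h2
      · exact ⟨0, 1, by simpa using hq⟩
    · exact ⟨1, 0, by simpa using hp⟩
  let Φ : (degreeLT K (5 + 1) × degreeLT K (5 + 1)) →ₗ[K]
      (Fin 4 → K) × (Fin 4 → K) × (Fin 3 → K) :=
    { toFun := fun A => (fun i => ((A.1 : K[X]) - C (θ i) * A.2).eval (-y i / x i),
        fun i => (derivative ((A.1 : K[X]) - C (θ i) * (A.2 : K[X]))).eval (-y i / x i),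
        fun k => (C u * (A.1 : K[X]) + C v * A.2).coeff (3 + k))
      map_add' := fun A B => by
        refine Prod.ext ?_ (Prod.ext ?_ ?_) <;> funext i <;> simp <;> ring
      map_smul' := fun r A => by
        refine Prod.ext ?_ (Prod.ext ?_ ?_) <;> funext i <;> simp <;> ring }
  have hrank : finrank K ((Fin 4 → K) × (Fin 4 → K) × (Fin 3 → K)) <
      finrank K (degreeLT K (5 + 1) × degreeLT K (5 + 1)) := by
    simp [finrank_prod, dimI_finrank_lt]
  obtain ⟨A, hA, hA0⟩ := Submodule.exists_mem_ne_zero_of_ne_bot (Φ.ker_ne_bot_of_finrank_lt hrank)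
  have hA' : Φ A = 0 := hA
  have hA1 := dimI_mem_lt.1 A.1.2
  have hA2 := dimI_mem_lt.1 A.2.2
  have hsec : ∀ i, (C (x i) * X + C (y i)) ^ 2 ∣ (A.1 : K[X]) - C (θ i) * A.2 := fun i =>
    dimI_sq_dvd (hx i) (congrFun (congrArg Prod.fst hA') i)
      (congrFun (congrArg (fun z => z.2.1) hA') i)
  refine ⟨A.1, A.2, hA1, hA2, hsec, fun hprop => hA0 ?_⟩
  have hco : ∀ k : Fin 3, (C u * (A.1 : K[X]) + C v * A.2).coeff (3 + k) = 0 := fun k =>
    congrFun (congrArg (fun z => z.2.2) hA') k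
  have hR5 : (C u * (A.1 : K[X]) + C v * A.2).natDegree ≤ 5 :=
    (natDegree_add_le _ _).trans (max_le ((natDegree_C_mul_le _ _).trans hA1)
      ((natDegree_C_mul_le _ _).trans hA2))
  have hR2 : (C u * (A.1 : K[X]) + C v * A.2).natDegree ≤ 2 :=
    natDegree_le_pred (natDegree_le_pred (natDegree_le_pred hR5 (hco 2)) (hco 1)) (hco 0)
  have h1 : (A.1 : K[X]).natDegree ≤ 2 :=
    dimI_deg_two huv hR2 hP (by linear_combination (-C v) * hprop)
  have h2 : (A.2 : K[X]).natDegree ≤ 2 :=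
    dimI_deg_two huv hR2 hQ (by linear_combination (C u) * hprop)
  obtain ⟨h3, h4⟩ := dimI_no_two hθ hx hxy h1 h2 hsec
  exact Prod.ext (Subtype.ext h3) (Subtype.ext h4)

/-- a combination of degree three of two proportional sections of degree four -/
theorem dimI_three {P0 Q0 P1 Q1 : K[X]} (hP0 : P0.natDegree ≤ 4) (hQ0 : Q0.natDegree ≤ 4)
    (hP1 : P1.natDegree ≤ 4) (hQ1 : Q1.natDegree ≤ 4) (h : P0 * Q1 = P1 * Q0) :
    ∃ u v : K, (u ≠ 0 ∨ v ≠ 0) ∧ (C u * P0 + C v * P1).natDegree ≤ 3 ∧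
      (C u * Q0 + C v * Q1).natDegree ≤ 3 := by
  have h8 : P0.coeff 4 * Q1.coeff 4 = P1.coeff 4 * Q0.coeff 4 := by
    rw [← coeff_mul_add_eq_of_natDegree_le hP0 hQ1, ← coeff_mul_add_eq_of_natDegree_le hP1 hQ0, h]
  have hdeg : ∀ (u v : K) (A B : K[X]), A.natDegree ≤ 4 → B.natDegree ≤ 4 →
      u * A.coeff 4 + v * B.coeff 4 = 0 → (C u * A + C v * B).natDegree ≤ 3 := by
    intro u v A B hA hB huv
    have h4 : (C u * A + C v * B).natDegree ≤ 4 :=
      (natDegree_add_le _ _).trans (max_le ((natDegree_C_mul_le _ _).trans hA)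
        ((natDegree_C_mul_le _ _).trans hB))
    exact natDegree_le_pred h4 (by simpa using huv)
  by_cases hp : P0.coeff 4 = 0
  · by_cases hq : Q0.coeff 4 = 0
    · exact ⟨1, 0, Or.inl one_ne_zero, hdeg _ _ _ _ hP0 hP1 (by simp [hp]),
        hdeg _ _ _ _ hQ0 hQ1 (by simp [hq])⟩
    · exact ⟨Q1.coeff 4, -Q0.coeff 4, Or.inr (neg_ne_zero.2 hq),
        hdeg _ _ _ _ hP0 hP1 (by linear_combination h8), hdeg _ _ _ _ hQ0 hQ1 (by ring)⟩
  · exact ⟨P1.coeff 4, -P0.coeff 4, Or.inr (neg_ne_zero.2 hp),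
      hdeg _ _ _ _ hP0 hP1 (by ring), hdeg _ _ _ _ hQ0 hQ1 (by linear_combination -h8)⟩

end Vale.Agent.P018
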