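import Vale.Agent.P018.Q.Nested
import Vale.Agent.P018.Q.DimIAux1

/-! Subspace lemmas for the dimension bound `dimI`. -/

namespace Vale.Agent.P018

open Polynomial Module

section ring

variable {K L : Type} [Field K] [CommRing L] [Algebra K L]

/-- the span of `1, s, ..., s ^ d` -/
noncomputable def dimIU (K : Type) {L : Type} [Field K] [CommRing L] [Algebra K L] (s : L)
    (d : ℕ) : Submodule K L :=
  Submodule.span K (Set.range fun j : Fin (d + 1) => s ^ (j : ℕ))

theorem dimIU_pow_mem (s : L) {j d : ℕ} (h : j ≤ d) : s ^ j ∈ dimIU K s d :=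
  Submodule.subset_span ⟨⟨j, Nat.lt_succ_of_le h⟩, rfl⟩

theorem dimIU_one_mem (s : L) (d : ℕ) : (1 : L) ∈ dimIU K s d := by
  simpa using dimIU_pow_mem (K := K) s (Nat.zero_le d)

theorem dimIU_aeval_mem (s : L) {d : ℕ} {p : K[X]} (h : p.natDegree ≤ d) :
    aeval s p ∈ dimIU K s d := by
  rw [aeval_eq_sum_range' (Nat.lt_succ_of_le h)]
  exact Submodule.sum_mem _ fun j hj => Submodule.smul_mem _ _
    (dimIU_pow_mem s (Nat.le_of_lt_succ (Finset.mem_range.1 hj)))

theorem dimIU_exists (s : L) {d : ℕ} {f : L} (h : f ∈ dimIU K s d) :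
    ∃ p : K[X], p.natDegree ≤ d ∧ aeval s p = f := by
  induction h using Submodule.span_induction with
  | mem f hf =>
    obtain ⟨j, rfl⟩ := hf
    exact ⟨X ^ (j : ℕ), (natDegree_X_pow_le _).trans (Nat.le_of_lt_succ j.2), by simp⟩
  | zero => exact ⟨0, by simp, by simp⟩
  | add f g _ _ hf hg =>
    obtain ⟨p, hp, rfl⟩ := hf
    obtain ⟨q, hq, rfl⟩ := hg
    exact ⟨p + q, (natDegree_add_le _ _).trans (max_le hp hq), by simp⟩
  | smul c f _ hf =>
    obtain ⟨p, hp, rfl⟩ := hf
    exact ⟨c • p, (natDegree_smul_le _ _).trans hp, by simp⟩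

theorem dimIU_add (s : L) (a b : ℕ) : dimIU K s (a + b) = dimIU K s a * dimIU K s b := by
  refine le_antisymm (Submodule.span_le.2 ?_) (Submodule.mul_le.2 fun f hf g hg => ?_)
  · rintro _ ⟨j, rfl⟩
    have hj := j.2
    have : s ^ (j : ℕ) = s ^ (min (j : ℕ) a) * s ^ ((j : ℕ) - min (j : ℕ) a) := by
      rw [← pow_add]
      congr 1
      omega
    show s ^ (j : ℕ) ∈ dimIU K s a * dimIU K s b
    rw [this]
    exact Submodule.mul_mem_mul (dimIU_pow_mem s (by omega)) (dimIU_pow_mem s (by omega))
  · obtain ⟨p, hp, rfl⟩ := dimIU_exists s hf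
    obtain ⟨q, hq, rfl⟩ := dimIU_exists s hg
    rw [← map_mul]
    exact dimIU_aeval_mem s (natDegree_mul_le.trans (add_le_add hp hq))

theorem dimIU_fg (s : L) (d : ℕ) : (dimIU K s d).FG :=
  Submodule.fg_span (Set.finite_range _)

/-- the space `U d + lam U d'` -/
noncomputable def dimIH (K : Type) {L : Type} [Field K] [CommRing L] [Algebra K L] (s lam : L)
    (d d' : ℕ) : Submodule K L :=
  dimIU K s d ⊔ Submodule.span K {lam} * dimIU K s d'

theorem dimIH_fg (s lam : L) (d d' : ℕ) : (dimIH K s lam d d').FG :=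
  (dimIU_fg s d).sup ((Submodule.fg_span_singleton lam).mul (dimIU_fg s d'))

theorem dimIU_mul_H (s lam : L) (e d d' : ℕ) :
    dimIU K s e * dimIH K s lam d d' = dimIH K s lam (e + d) (e + d') := by
  unfold dimIH
  rw [Submodule.mul_sup, mul_left_comm, ← dimIU_add, ← dimIU_add]

theorem dimIH_mem (s lam : L) {d d' : ℕ} {p q : K[X]} (hp : p.natDegree ≤ d)
    (hq : q.natDegree ≤ d') : aeval s p + lam * aeval s q ∈ dimIH K s lam d d' :=
  Submodule.add_mem_sup (dimIU_aeval_mem s hp)
    (Submodule.mul_mem_mul (Submodule.mem_span_singleton_self lam) (dimIU_aeval_mem s hq))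

theorem dimIH_exists (s lam : L) {d d' : ℕ} {f : L} (h : f ∈ dimIH K s lam d d') :
    ∃ p q : K[X], p.natDegree ≤ d ∧ q.natDegree ≤ d' ∧ aeval s p + lam * aeval s q = f := by
  obtain ⟨u, hu, v, hv, rfl⟩ := Submodule.mem_sup.1 h
  obtain ⟨w, hw, rfl⟩ := Submodule.mem_span_singleton_mul.1 hv
  obtain ⟨p, hp, rfl⟩ := dimIU_exists s hu
  obtain ⟨q, hq, rfl⟩ := dimIU_exists s hw
  exact ⟨p, q, hp, hq, rfl⟩

theorem dimIH_finrank (s lam : L) (d d' : ℕ)
    (h : ∀ p q : K[X], p.natDegree ≤ d → q.natDegree ≤ d' →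
      aeval s p + lam * aeval s q = 0 → p = 0 ∧ q = 0) :
    d + 1 + (d' + 1) ≤ finrank K (dimIH K s lam d d') := by
  have : Module.Finite K (dimIH K s lam d d') := Module.Finite.iff_fg.2 (dimIH_fg s lam d d')
  let Φ : (degreeLT K (d + 1) × degreeLT K (d' + 1)) →ₗ[K] dimIH K s lam d d' :=
    { toFun := fun A => ⟨_, dimIH_mem s lam (dimI_mem_lt.1 A.1.2) (dimI_mem_lt.1 A.2.2)⟩
      map_add' := fun A B => by
        ext1
        simp
        ring
      map_smul' := fun r A => by
        ext1
        simp }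
  have hΦ : Function.Injective Φ := by
    rw [injective_iff_map_eq_zero]
    intro A hA
    obtain ⟨h1, h2⟩ := h _ _ (dimI_mem_lt.1 A.1.2) (dimI_mem_lt.1 A.2.2) (congrArg Subtype.val hA)
    exact Prod.ext (Subtype.ext h1) (Subtype.ext h2)
  have := LinearMap.finrank_le_finrank_of_injective hΦ
  rwa [finrank_prod, dimI_finrank_lt, dimI_finrank_lt] at this

theorem dimI_indep (t w0 w1 : L) (D : ℕ)
    (h : ∀ p q : K[X], p.natDegree ≤ D → q.natDegree ≤ D →
      aeval t p * w0 + aeval t q * w1 = 0 → p = 0 ∧ q = 0) :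
    LinearIndependent K (fun x : Fin 2 × Fin (D + 1) => t ^ (x.2 : ℕ) * ![w0, w1] x.1) := by
  rw [Fintype.linearIndependent_iff]
  intro g hg
  have hdeg : ∀ i : Fin 2, (∑ k : Fin (D + 1), monomial (k : ℕ) (g (i, k))).natDegree ≤ D :=
    fun i => natDegree_sum_le_of_forall_le _ _ fun k _ =>
      (natDegree_monomial_le _).trans (Nat.le_of_lt_succ k.2)
  have hco : ∀ (i : Fin 2) (k : Fin (D + 1)),
      (∑ k : Fin (D + 1), monomial (k : ℕ) (g (i, k))).coeff k = g (i, k) := by
    intro i k
    rw [finsetSum_coeff, Finset.sum_eq_single k]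
    · simp
    · intro j _ hj
      rw [coeff_monomial, if_neg fun h => hj (Fin.ext h)]
    · simp
  obtain ⟨h0, h1⟩ := h _ _ (hdeg 0) (hdeg 1) (by
    rw [Fintype.sum_prod_type, Fin.sum_univ_two] at hg
    rw [← hg]
    simp only [map_sum, aeval_monomial, Finset.sum_mul, Algebra.smul_def, mul_assoc]
    simp)
  rintro ⟨i, k⟩
  rw [← hco i k]
  fin_cases i
  · simp only [Fin.zero_eta]
    rw [h0, coeff_zero]
  · simp only [Fin.mk_one]
    rw [h1, coeff_zero]

theorem dimI_W_fg (s lam : L) (e d d' k : ℕ) : (dimIU K s e * dimIH K s lam d d' ^ k).FG :=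
  (dimIU_fg s e).mul ((dimIH_fg s lam d d').pow k)

theorem dimI_rank_mono {A B : Submodule K L} (hB : B.FG) (h : A ≤ B) :
    finrank K A ≤ finrank K B := by
  have : Module.Finite K B := Module.Finite.iff_fg.2 hB
  exact Submodule.finrank_mono h

theorem dimI_mem_W (s lam : L) (e d d' k : ℕ) {f g : L} (hf : f ∈ dimIU K s e)
    (hg : g ∈ dimIH K s lam d d') : f * g ∈ dimIU K s e * dimIH K s lam d d' ^ (k + 1) := by
  have h1 : (1 : L) ∈ dimIH K s lam d d' := Submodule.mem_sup_left (dimIU_one_mem s d)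
  have h2 := Submodule.pow_mem_pow _ h1 k
  rw [one_pow] at h2
  have h3 := Submodule.mul_mem_mul h2 hg
  rw [one_mul, ← pow_succ] at h3
  exact Submodule.mul_mem_mul hf h3

theorem dimI_lam_mem (s lam : L) (d d' : ℕ) : lam ∈ dimIH K s lam d d' := by
  have := Submodule.mul_mem_mul (Submodule.mem_span_singleton_self (R := K) lam)
    (dimIU_one_mem (K := K) s d')
  rw [mul_one] at this
  exact Submodule.mem_sup_right this

/-- growth in the case of two sections of degree four -/
theorem dimI_grow22 (s lam : L) (N D : ℕ) (hD : 3 * N ≤ D)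
    (h1 : ∀ p q : K[X], p.natDegree ≤ D → q.natDegree ≤ D →
      aeval s p + lam * aeval s q = 0 → p = 0 ∧ q = 0)
    (h2 : ∀ p q : K[X], p.natDegree ≤ D → q.natDegree ≤ D →
      aeval lam p * 1 + aeval lam q * s = 0 → p = 0 ∧ q = 0) (k : ℕ) :
    ∀ e, 1 ≤ e → e + 2 * k + 3 ≤ D → min N (2 * e + 6 * (k + 1)) ≤
      finrank K (dimIU K s e * dimIH K s lam 2 2 ^ (k + 1) : Submodule K L) := by
  induction k with
  | zero =>
    intro e _ he
    rw [zero_add, pow_one, dimIU_mul_H]
    have := dimIH_finrank s lam (e + 2) (e + 2) fun p q hp hq => h1 p q (by omega) (by omega)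
    omega
  | succ k ih =>
    intro e he1 he
    have hW := ih (e + 2) (by omega) (by omega)
    have hle : dimIU K s (e + 2) * dimIH K s lam 2 2 ^ (k + 1) * dimIU K lam 1 ≤
        dimIU K s e * dimIH K s lam 2 2 ^ (k + 1 + 1) := by
      rw [dimIU_add, pow_succ _ (k + 1), mul_right_comm (dimIU K s e), mul_assoc, mul_assoc,
        ← mul_assoc (dimIU K s e), ← mul_assoc (dimIU K s e)]
      refine mul_le_mul' le_rfl (Submodule.mul_le.2 fun f hf g hg => ?_)
      induction hg using Submodule.span_induction with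
      | mem g hg =>
        obtain ⟨j, rfl⟩ := hg
        fin_cases j
        · simpa [dimIH] using Submodule.mem_sup_left hf
        · simpa [mul_comm f, dimIH] using Submodule.mem_sup_right
            (Submodule.mul_mem_mul (Submodule.mem_span_singleton_self lam) hf)
      | zero => simp
      | add g g' _ _ hg hg' =>
        rw [mul_add]
        exact Submodule.add_mem _ hg hg'
      | smul c g _ hg =>
        rw [mul_smul_comm]
        exact Submodule.smul_mem _ _ hg
    have hmono := dimI_rank_mono (dimI_W_fg s lam e 2 2 (k + 1 + 1)) hle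
    have : FiniteDimensional K (dimIU K s (e + 2) * dimIH K s lam 2 2 ^ (k + 1) :
      Submodule K L) := Module.Finite.iff_fg.2 (dimI_W_fg s lam (e + 2) 2 2 (k + 1))
    have h1H : (1 : L) ∈ dimIH K s lam 2 2 := Submodule.mem_sup_left (dimIU_one_mem s 2)
    by_cases hN : N ≤ finrank K (dimIU K s (e + 2) * dimIH K s lam 2 2 ^ (k + 1) : Submodule K L)
    · have h3 : dimIU K s (e + 2) * dimIH K s lam 2 2 ^ (k + 1) ≤
          dimIU K s (e + 2) * dimIH K s lam 2 2 ^ (k + 1) * dimIU K lam 1 := fun f hf => by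
        simpa using Submodule.mul_mem_mul hf (dimIU_one_mem (K := K) lam 1)
      have := dimI_rank_mono (dimI_W_fg s lam e 2 2 (k + 1 + 1)) (h3.trans hle)
      omega
    · have hinc := increments (dimIU K s (e + 2) * dimIH K s lam 2 2 ^ (k + 1)) lam 2 1 D ![1, s]
        (by
          intro i
          fin_cases i
          · simpa using dimI_mem_W s lam (e + 2) 2 2 k (dimIU_one_mem s _) h1H
          · simpa using dimI_mem_W s lam (e + 2) 2 2 k
              (dimIU_pow_mem s (j := 1) (by omega)) h1H)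
        (by omega) (dimI_indep lam 1 s D h2)
      have hinc' : finrank K (dimIU K s (e + 2) * dimIH K s lam 2 2 ^ (k + 1) : Submodule K L) +
          2 * 1 ≤ finrank K (dimIU K s (e + 2) * dimIH K s lam 2 2 ^ (k + 1) * dimIU K lam 1 :
            Submodule K L) := hinc
      omega

end ring

section field

variable {K L : Type} [Field K] [Field L] [Algebra K L]

theorem dimI_rank_smul {u : L} (hu : u ≠ 0) {A B : Submodule K L} (hB : B.FG)
    (h : Submodule.span K {u} * A ≤ B) : finrank K A ≤ finrank K B := by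
  have : Module.Finite K B := Module.Finite.iff_fg.2 hB
  let Φ : A →ₗ[K] B :=
    { toFun := fun f => ⟨u * f, h (Submodule.mul_mem_mul (Submodule.mem_span_singleton_self u) f.2)⟩
      map_add' := fun f g => by
        ext1
        simp [mul_add]
      map_smul' := fun r f => by
        ext1
        simp }
  refine LinearMap.finrank_le_finrank_of_injective (f := Φ) fun f g hfg => ?_
  exact Subtype.ext (mul_left_cancel₀ hu (congrArg Subtype.val hfg))

/-- growth in the case of sections of degrees three and five -/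
theorem dimI_grow13 (s lam : L) (N D : ℕ) (hD : 3 * N ≤ D)
    (h1 : ∀ p q : K[X], p.natDegree ≤ D → q.natDegree ≤ D →
      aeval s p + lam * aeval s q = 0 → p = 0 ∧ q = 0) (k : ℕ) :
    ∀ e, e + k + 3 ≤ D → min N (2 * e + 6 * (k + 1)) ≤
      finrank K (dimIU K s e * dimIH K s lam 1 3 ^ (k + 1) : Submodule K L) := by
  have hlam : lam ≠ 0 := by
    intro h
    have := (h1 0 1 (by simp) (by simp) (by simp [h])).2
    exact one_ne_zero this
  induction k with
  | zero =>
    intro e he
    rw [zero_add, pow_one, dimIU_mul_H]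
    have := dimIH_finrank s lam (e + 1) (e + 3) fun p q hp hq => h1 p q (by omega) (by omega)
    omega
  | succ k ih =>
    intro e he
    have hW := ih (e + 1) (by omega)
    have hle : Submodule.span K {lam} *
        (dimIU K s (e + 1) * dimIH K s lam 1 3 ^ (k + 1) * dimIU K s 2) ≤
        dimIU K s e * dimIH K s lam 1 3 ^ (k + 1 + 1) := by
      have h3 : Submodule.span K {lam} *
          (dimIU K s (e + 1) * dimIH K s lam 1 3 ^ (k + 1) * dimIU K s 2) =
          dimIU K s e * dimIH K s lam 1 3 ^ (k + 1) * (Submodule.span K {lam} * dimIU K s 3) := by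
        rw [dimIU_add s e 1, dimIU_add s 1 2]
        ring
      rw [h3, pow_succ _ (k + 1), ← mul_assoc (dimIU K s e)]
      exact mul_le_mul' le_rfl le_sup_right
    have hmono := dimI_rank_smul hlam (dimI_W_fg s lam e 1 3 (k + 1 + 1)) hle
    have : FiniteDimensional K (dimIU K s (e + 1) * dimIH K s lam 1 3 ^ (k + 1) :
      Submodule K L) := Module.Finite.iff_fg.2 (dimI_W_fg s lam (e + 1) 1 3 (k + 1))
    have h1H : (1 : L) ∈ dimIH K s lam 1 3 := Submodule.mem_sup_left (dimIU_one_mem s 1)
    by_cases hN : N ≤ finrank K (dimIU K s (e + 1) * dimIH K s lam 1 3 ^ (k + 1) : Submodule K L)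
    · have h3 : dimIU K s (e + 1) * dimIH K s lam 1 3 ^ (k + 1) ≤
          dimIU K s (e + 1) * dimIH K s lam 1 3 ^ (k + 1) * dimIU K s 2 := fun f hf => by
        simpa using Submodule.mul_mem_mul hf (dimIU_one_mem (K := K) s 2)
      have := dimI_rank_mono ((dimI_W_fg s lam (e + 1) 1 3 (k + 1)).mul (dimIU_fg s 2)) h3
      omega
    · have hinc := increments (dimIU K s (e + 1) * dimIH K s lam 1 3 ^ (k + 1)) s 2 2 D ![1, lam]
        (by
          intro i
          fin_cases i
          · simpa using dimI_mem_W s lam (e + 1) 1 3 k (dimIU_one_mem s _) h1H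
          · simpa using dimI_mem_W s lam (e + 1) 1 3 k (dimIU_one_mem s _)
              (dimI_lam_mem s lam 1 3))
        (by omega) (dimI_indep s 1 lam D fun p q hp hq h => h1 p q hp hq (by
          rw [← h]
          ring))
      have hinc' : finrank K (dimIU K s (e + 1) * dimIH K s lam 1 3 ^ (k + 1) : Submodule K L) +
          2 * 2 ≤ finrank K (dimIU K s (e + 1) * dimIH K s lam 1 3 ^ (k + 1) * dimIU K s 2 :
            Submodule K L) := hinc
      omega

end field

end Vale.Agent.P018
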