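import Vale.Agent.P018.Q.Nested
import Vale.Agent.P018.Q.DimIAux2

namespace Vale.Agent.P018

open Polynomial Module

/-- `(P, Q)` is a section of degree `d`: all `P - θ_i Q` are divisible by `α_i ^ 2` -/
def IsSec {K : Type} [Field K] (x y θ : Fin 4 → K) (d : ℕ) (P Q : K[X]) : Prop :=
  P.natDegree ≤ d ∧ Q.natDegree ≤ d ∧ ∀ i, (C (x i) * X + C (y i)) ^ 2 ∣ P - C (θ i) * Q

/-- the space spanned by `s ^ j * ∏ (n - θ_i) ^ I_i * α_i ^ (2 (b - I_i))` -/
noncomputable def spanI {K L : Type} [Field K] [CommRing L] [Algebra K L] (x y θ : Fin 4 → K)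
    (s n : L) (a b : ℕ) : Submodule K L :=
  Submodule.span K {f | ∃ (j : ℕ) (I : Fin 4 → ℕ), j ≤ a ∧ ∑ i, I i = b ∧
    f = s ^ j * ∏ i, ((n - algebraMap K L (θ i)) ^ I i *
      (algebraMap K L (x i) * s + algebraMap K L (y i)) ^ (2 * (b - I i)))}

section ring

variable {K L : Type} [Field K] [CommRing L] [Algebra K L] (x y θ : Fin 4 → K) (s n : L)

theorem dimI_span_mul (a b a' b' : ℕ) :
    spanI x y θ s n a b * spanI x y θ s n a' b' ≤ spanI x y θ s n (a + a') (b + b') := by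
  unfold spanI
  rw [Submodule.span_mul_span]
  refine Submodule.span_mono ?_
  rintro _ ⟨_, ⟨j, I, hj, hI, rfl⟩, _, ⟨j', I', hj', hI', rfl⟩, rfl⟩
  refine ⟨j + j', I + I', add_le_add hj hj', ?_, ?_⟩
  · simp only [Pi.add_apply, Finset.sum_add_distrib, hI, hI']
  · beta_reduce
    rw [pow_add, mul_mul_mul_comm, ← Finset.prod_mul_distrib]
    congr 1
    refine Finset.prod_congr rfl fun i _ => ?_
    have h1 : I i ≤ b := hI ▸ Finset.single_le_sum (fun _ _ => Nat.zero_le _) (Finset.mem_univ i)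
    have h2 : I' i ≤ b' :=
      hI' ▸ Finset.single_le_sum (fun _ _ => Nat.zero_le _) (Finset.mem_univ i)
    have h3 : 2 * (b + b' - (I + I') i) = 2 * (b - I i) + 2 * (b' - I' i) := by
      rw [Pi.add_apply]
      omega
    rw [h3, Pi.add_apply, pow_add, pow_add]
    ring

theorem dimI_U_le (a : ℕ) : dimIU K s a ≤ spanI x y θ s n a 0 := by
  refine Submodule.span_mono ?_
  rintro _ ⟨j, rfl⟩
  exact ⟨j, 0, Nat.le_of_lt_succ j.2, by simp, by simp⟩

theorem dimI_g_mem (i : Fin 4) : (n - algebraMap K L (θ i)) * ∏ j ∈ Finset.univ.erase i,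
    (algebraMap K L (x j) * s + algebraMap K L (y j)) ^ 2 ∈ spanI x y θ s n 0 1 := by
  refine Submodule.subset_span ⟨0, Pi.single i 1, le_rfl, by simp, ?_⟩
  rw [← Finset.mul_prod_erase _ _ (Finset.mem_univ i), pow_zero, one_mul]
  congr 1
  · simp
  · refine Finset.prod_congr rfl fun j hj => ?_
    simp [Pi.single_eq_of_ne (Finset.ne_of_mem_erase hj)]

theorem dimI_span_fg (a b : ℕ) : (spanI x y θ s n a b).FG := by
  refine Submodule.fg_span (Set.Finite.subset (Set.finite_range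
    fun z : Fin (a + 1) × (Fin 4 → Fin (b + 1)) => s ^ (z.1 : ℕ) *
      ∏ i, ((n - algebraMap K L (θ i)) ^ (z.2 i : ℕ) *
        (algebraMap K L (x i) * s + algebraMap K L (y i)) ^ (2 * (b - z.2 i)))) ?_)
  rintro _ ⟨j, I, hj, hI, rfl⟩
  have h1 : ∀ i, I i < b + 1 := fun i => Nat.lt_succ_of_le
    (hI ▸ Finset.single_le_sum (fun _ _ => Nat.zero_le _) (Finset.mem_univ i))
  exact ⟨(⟨j, Nat.lt_succ_of_le hj⟩, fun i => ⟨I i, h1 i⟩), rfl⟩

theorem dimI_pow_le (b : ℕ) : spanI x y θ s n 0 1 ^ b ≤ spanI x y θ s n 0 b := by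
  induction b with
  | zero =>
    rw [pow_zero, Submodule.one_le]
    exact dimI_U_le x y θ s n 0 (dimIU_one_mem s 0)
  | succ b ih =>
    rw [pow_succ]
    exact (mul_le_mul' ih le_rfl).trans (dimI_span_mul x y θ s n 0 b 0 1)

theorem dimI_iter {u A B H G : Submodule K L} (h : u * (B * H) ≤ B * G) (b : ℕ) :
    u ^ b * (A * B * H ^ b) ≤ A * B * G ^ b := by
  induction b with
  | zero => simp
  | succ b ih =>
    calc u ^ (b + 1) * (A * B * H ^ (b + 1)) = u ^ b * (A * B * H ^ b) * (u * H) := by ring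
      _ ≤ A * B * G ^ b * (u * H) := mul_le_mul' ih le_rfl
      _ = A * G ^ b * (u * (B * H)) := by ring
      _ ≤ A * G ^ b * (B * G) := mul_le_mul' le_rfl h
      _ = A * B * G ^ (b + 1) := by ring

variable {x y θ}

theorem dimI_key (hx : ∀ i, x i ≠ 0) (hxy : ∀ i j, i ≠ j → x i * y j ≠ x j * y i)
    {P Q P' Q' : K[X]} {d d' : ℕ} (hd : d + d' = 4) (h : IsSec x y θ (d + 2) P Q)
    (h' : IsSec x y θ (d' + 2) P' Q') (hdet : P * Q' ≠ P' * Q) {p q : K[X]}
    (hp : p.natDegree ≤ d + 1) (hq : q.natDegree ≤ d' + 1) :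
    (aeval s P' - n * aeval s Q') * aeval s p + (n * aeval s Q - aeval s P) * aeval s q ∈
      dimIU K s 1 * spanI x y θ s n 0 1 := by
  choose T hT hT2 using fun i => dimI_quot (hx i) (dimI_sub_deg h.1 h.2.1 (θ i)) (h.2.2 i)
  choose T' hT' hT2' using fun i => dimI_quot (hx i) (dimI_sub_deg h'.1 h'.2.1 (θ i)) (h'.2.2 i)
  obtain ⟨c, hc⟩ := dimI_det hx hxy (by omega) h.1 h.2.1 h'.1 h'.2.1 h.2.2 h'.2.2
  have hc0 : c ≠ 0 := by
    rintro rfl
    exact hdet (by simpa [sub_eq_zero] using hc)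
  have hcr := dimI_cross hx hT2 hT2' hc
  obtain ⟨A, hA, rfl, rfl⟩ := dimI_surj hd hT hT'
    (dimI_inj hx hxy hc0 fun i => (hcr i).1) p q hp hq
  rw [map_sum, map_sum, Finset.mul_sum, Finset.mul_sum, ← Finset.sum_add_distrib]
  refine Submodule.sum_mem _ fun i _ => ?_
  have e1 := congrArg (aeval s) (hcr i).1
  have e2 := congrArg (aeval s) (hcr i).2
  simp only [map_sub, map_mul, map_prod, map_pow, map_add, aeval_C, aeval_X] at e1 e2
  have e3 : (aeval s P' - n * aeval s Q') * aeval s (A i * T i) +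
      (n * aeval s Q - aeval s P) * aeval s (A i * T' i) =
      aeval s (A i) * ((-c) • ((n - algebraMap K L (θ i)) * ∏ j ∈ Finset.univ.erase i,
        (algebraMap K L (x j) * s + algebraMap K L (y j)) ^ 2)) := by
    rw [map_mul, map_mul, Algebra.smul_def, map_neg]
    linear_combination aeval s (A i) * e2 - aeval s (A i) * n * e1
  rw [e3]
  exact Submodule.mul_mem_mul (dimIU_aeval_mem s (hA i))
    (Submodule.smul_mem _ _ (dimI_g_mem x y θ s n i))

/-- a relation between the two coordinates makes `n` a rational function of `s` -/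
theorem dimI_dep (hs : ∀ q : K[X], aeval s q = 0 → q = 0) {P Q P' Q' p q : K[X]} {D : ℕ}
    (hP : P.natDegree ≤ 5) (hQ : Q.natDegree ≤ 5) (hP' : P'.natDegree ≤ 5)
    (hQ' : Q'.natDegree ≤ 5) (hdet : P * Q' ≠ P' * Q) (hp : p.natDegree ≤ D)
    (hq : q.natDegree ≤ D) (hpq : ¬(p = 0 ∧ q = 0))
    (h : (aeval s P' - n * aeval s Q') * aeval s p + (n * aeval s Q - aeval s P) * aeval s q = 0) :
    ∃ c0 c1 : K[X], c1 ≠ 0 ∧ c0.natDegree ≤ D + 5 ∧ c1.natDegree ≤ D + 5 ∧
      aeval s c1 * n = aeval s c0 := by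
  have hdeg : ∀ A B : K[X], A.natDegree ≤ 5 → B.natDegree ≤ 5 →
      (q * A - p * B).natDegree ≤ D + 5 := fun A B hA hB =>
    (natDegree_sub_le _ _).trans (max_le (natDegree_mul_le.trans (add_le_add hq hA))
      (natDegree_mul_le.trans (add_le_add hp hB)))
  have hrel : aeval s (q * Q - p * Q') * n = aeval s (q * P - p * P') := by
    simp only [map_sub, map_mul]
    linear_combination h
  refine ⟨q * P - p * P', q * Q - p * Q', fun h1 => hpq ?_, hdeg _ _ hP hP', hdeg _ _ hQ hQ', hrel⟩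
  have h0 : q * P - p * P' = 0 := hs _ (by rw [← hrel, h1, map_zero, zero_mul])
  have hne : P * Q' - P' * Q ≠ 0 := sub_ne_zero.2 hdet
  constructor
  · refine (mul_eq_zero.1 ?_).resolve_right hne
    linear_combination Q * h0 - P * h1
  · refine (mul_eq_zero.1 ?_).resolve_right hne
    linear_combination Q' * h0 - P' * h1

end ring

section field

variable {K L : Type} [Field K] [Field L] [Algebra K L] {x y θ : Fin 4 → K} (s n : L)

theorem dimI_rank_le (hx : ∀ i, x i ≠ 0) (hxy : ∀ i j, i ≠ j → x i * y j ≠ x j * y i)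
    {P Q P' Q' : K[X]} {d d' : ℕ} (hd : d + d' = 4) (h : IsSec x y θ (d + 2) P Q)
    (h' : IsSec x y θ (d' + 2) P' Q') (hdet : P * Q' ≠ P' * Q)
    (h0 : aeval s P' - n * aeval s Q' ≠ 0) {a : ℕ} (ha : 1 ≤ a) (b : ℕ) :
    finrank K (dimIU K s a * dimIH K s
      ((n * aeval s Q - aeval s P) / (aeval s P' - n * aeval s Q')) d d' ^ b : Submodule K L) ≤
      finrank K (spanI x y θ s n a b) := by
  obtain ⟨a, rfl⟩ : ∃ a', a = a' + 1 := ⟨a - 1, by omega⟩
  refine dimI_rank_smul (pow_ne_zero b h0) (dimI_span_fg x y θ s n _ _) ?_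
  have h1 : Submodule.span K {aeval s P' - n * aeval s Q'} * (dimIU K s 1 * dimIH K s
      ((n * aeval s Q - aeval s P) / (aeval s P' - n * aeval s Q')) d d') ≤
      dimIU K s 1 * spanI x y θ s n 0 1 := by
    intro f hf
    obtain ⟨w, hw, rfl⟩ := Submodule.mem_span_singleton_mul.1 hf
    rw [dimIU_mul_H] at hw
    obtain ⟨p, q, hp, hq, rfl⟩ := dimIH_exists _ _ hw
    have := dimI_key s n hx hxy hd h h' hdet (p := p) (q := q) (by omega) (by omega)
    rwa [mul_add, ← mul_assoc, mul_div_cancel₀ _ h0]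
  have h2 := dimI_iter (A := dimIU K s a) h1 b
  rw [Submodule.span_pow, Set.singleton_pow, ← dimIU_add] at h2
  refine h2.trans ((mul_le_mul' (dimI_U_le x y θ s n _) (dimI_pow_le x y θ s n b)).trans ?_)
  simpa using dimI_span_mul x y θ s n (a + 1) 0 0 b

/-- either `n` is a rational function of `s` or `1, lam` are independent -/
theorem dimI_alt (hs : ∀ q : K[X], aeval s q = 0 → q = 0) {P Q P' Q' : K[X]} (D : ℕ)
    (hP : P.natDegree ≤ 5) (hQ : Q.natDegree ≤ 5) (hP' : P'.natDegree ≤ 5)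
    (hQ' : Q'.natDegree ≤ 5) (hdet : P * Q' ≠ P' * Q) :
    (∃ c0 c1 : K[X], c1 ≠ 0 ∧ c0.natDegree ≤ D + 5 ∧ c1.natDegree ≤ D + 5 ∧
      aeval s c1 * n = aeval s c0) ∨ (aeval s P' - n * aeval s Q' ≠ 0 ∧
      ∀ p q : K[X], p.natDegree ≤ D → q.natDegree ≤ D → aeval s p +
        (n * aeval s Q - aeval s P) / (aeval s P' - n * aeval s Q') * aeval s q = 0 →
        p = 0 ∧ q = 0) := by
  by_cases h0 : aeval s P' - n * aeval s Q' = 0
  · exact Or.inl (dimI_dep s n hs hP hQ hP' hQ' hdet (p := 1) (q := 0) (by simp) (by simp)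
      (by simp) (by simp [h0]))
  · by_contra hcon
    rw [not_or] at hcon
    refine hcon.2 ⟨h0, fun p q hp hq h => ?_⟩
    by_contra hpq
    refine hcon.1 (dimI_dep s n hs hP hQ hP' hQ' hdet hp hq hpq ?_)
    have := congrArg (fun z => (aeval s P' - n * aeval s Q') * z) h
    simp only [mul_zero] at this
    rwa [mul_add, ← mul_assoc, mul_div_cancel₀ _ h0] at this

theorem dimI_third {l0 l1 : L} (h0 : l0 ≠ 0) {p q : K[X]} {D : ℕ} (hp : p.natDegree ≤ D)
    (hq : q.natDegree ≤ D) (h : aeval (l1 / l0) p * 1 + aeval (l1 / l0) q * s = 0) :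
    ∑ k ∈ Finset.range (D + 1), (algebraMap K L (q.coeff k) * s + algebraMap K L (p.coeff k)) *
      l1 ^ k * l0 ^ (D - k) = 0 := by
  rw [aeval_eq_sum_range' (Nat.lt_succ_of_le hp), aeval_eq_sum_range' (Nat.lt_succ_of_le hq),
    Finset.sum_mul, Finset.sum_mul, ← Finset.sum_add_distrib] at h
  have h1 := congrArg (fun z => l0 ^ D * z) h
  simp only [mul_zero, Finset.mul_sum] at h1
  rw [← h1]
  refine Finset.sum_congr rfl fun k hk => ?_
  obtain ⟨m, rfl⟩ : ∃ m, D = k + m := ⟨D - k, by have := Finset.mem_range.1 hk; omega⟩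
  rw [Nat.add_sub_cancel_left, Algebra.smul_def, Algebra.smul_def, div_pow, pow_add]
  field_simp
  ring

theorem dimI_field [CharZero K] {a b : ℕ} (ha : 1 ≤ a) (hb : 1 ≤ b) (hθ : Function.Injective θ)
    (hx : ∀ i, x i ≠ 0) (hxy : ∀ i j, i ≠ j → x i * y j ≠ x j * y i) {P0 Q0 P1 Q1 : K[X]}
    (h0 : IsSec x y θ 4 P0 Q0) (h1 : IsSec x y θ 4 P1 Q1)
    (hli : LinearIndependent K ![(P0, Q0), (P1, Q1)]) (hs : ∀ q : K[X], aeval s q = 0 → q = 0)
    {D : ℕ} (hD : 3 * (2 * a + 6 * b) ≤ D) :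
    2 * a + 6 * b ≤ finrank K (spanI x y θ s n a b) ∨
    (∃ c0 c1 : K[X], c1 ≠ 0 ∧ c0.natDegree ≤ D + 5 ∧ c1.natDegree ≤ D + 5 ∧
      aeval s c1 * n = aeval s c0) ∨
    (P0 * Q1 ≠ P1 * Q0 ∧ ∃ c0 c1 : K[X], (c0 ≠ 0 ∨ c1 ≠ 0) ∧ c0.natDegree ≤ D + 5 ∧
      c1.natDegree ≤ D + 5 ∧ ∑ k ∈ Finset.range (D + 5 + 1),
        (algebraMap K L (c1.coeff k) * s + algebraMap K L (c0.coeff k)) *
          (n * aeval s Q0 - aeval s P0) ^ k * (aeval s P1 - n * aeval s Q1) ^ (D + 5 - k) = 0) := by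
  obtain ⟨b, rfl⟩ : ∃ b', b = b' + 1 := ⟨b - 1, by omega⟩
  by_cases hdet : P0 * Q1 = P1 * Q0
  · obtain ⟨u, v, huv, hP, hQ⟩ := dimI_three h0.1 h0.2.1 h1.1 h1.2.1 hdet
    have hne : C u * P0 + C v * P1 ≠ 0 ∨ C u * Q0 + C v * Q1 ≠ 0 := by
      by_contra hcon
      rw [not_or, not_not, not_not] at hcon
      obtain ⟨hu, hv⟩ := LinearIndependent.pair_iff.1 hli u v (Prod.ext
        (by simpa [smul_eq_C_mul] using hcon.1) (by simpa [smul_eq_C_mul] using hcon.2))
      exact huv.elim (fun h => h hu) fun h => h hv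
    have hsec : ∀ i, (C (x i) * X + C (y i)) ^ 2 ∣
        C u * P0 + C v * P1 - C (θ i) * (C u * Q0 + C v * Q1) := by
      intro i
      have : C u * P0 + C v * P1 - C (θ i) * (C u * Q0 + C v * Q1) =
          C u * (P0 - C (θ i) * Q0) + C v * (P1 - C (θ i) * Q1) := by ring
      rw [this]
      exact dvd_add ((h0.2.2 i).mul_left _) ((h1.2.2 i).mul_left _)
    obtain ⟨P', Q', hP', hQ', hsec', hdet'⟩ := dimI_five hθ hx hxy hP hQ hne hsec
    rcases dimI_alt s n hs D (hP.trans (by omega)) (hQ.trans (by omega)) hP' hQ' hdet' with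
      h | ⟨hl0, hind⟩
    · exact Or.inr (Or.inl h)
    · left
      have e1 := dimI_rank_le s n hx hxy (d := 1) (d' := 3) rfl ⟨hP, hQ, hsec⟩ ⟨hP', hQ', hsec'⟩
        hdet' hl0 ha (b + 1)
      have e2 := dimI_grow13 s _ _ D hD hind b a (by omega)
      omega
  · rcases dimI_alt s n hs D (h0.1.trans (by omega)) (h0.2.1.trans (by omega))
      (h1.1.trans (by omega)) (h1.2.1.trans (by omega)) hdet with h | ⟨hl0, hind⟩
    · exact Or.inr (Or.inl h)
    · by_cases h2 : ∀ p q : K[X], p.natDegree ≤ D → q.natDegree ≤ D →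
          aeval ((n * aeval s Q0 - aeval s P0) / (aeval s P1 - n * aeval s Q1)) p * 1 +
          aeval ((n * aeval s Q0 - aeval s P0) / (aeval s P1 - n * aeval s Q1)) q * s = 0 →
          p = 0 ∧ q = 0
      · left
        have e1 := dimI_rank_le s n hx hxy (d := 2) (d' := 2) rfl h0 h1 hdet hl0 ha (b + 1)
        have e2 := dimI_grow22 s _ _ D hD hind h2 b a ha (by omega)
        omega
      · push Not at h2
        obtain ⟨p, q, hp, hq, hrel, hpq⟩ := h2
        refine Or.inr (Or.inr ⟨hdet, p, q, ?_, by omega, by omega,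
          dimI_third s hl0 (by omega) (by omega) hrel⟩)
        by_cases hp0 : p = 0
        · exact Or.inr (hpq hp0)
        · exact Or.inl hp0

end field

theorem dimI_map {K L F : Type} [Field K] [CommRing L] [Algebra K L] [CommRing F] [Algebra K F]
    (φ : L →ₐ[K] F) (x y θ : Fin 4 → K) (s n : L) (a b : ℕ) :
    finrank K (spanI x y θ (φ s) (φ n) a b) ≤ finrank K (spanI x y θ s n a b) := by
  have : Module.Finite K (spanI x y θ s n a b) :=
    Module.Finite.iff_fg.2 (dimI_span_fg x y θ s n a b)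
  refine le_trans (dimI_rank_mono ((dimI_span_fg x y θ s n a b).map φ.toLinearMap) ?_)
    (Submodule.finrank_map_le φ.toLinearMap _)
  refine Submodule.span_le.2 ?_
  rintro _ ⟨j, I, hj, hI, rfl⟩
  refine ⟨_, Submodule.subset_span ⟨j, I, hj, hI, rfl⟩, ?_⟩
  simp

/-- Dimension bound on a curve over an `α`-line. Two independent sections of degree four are
given. Either the dimension is large, or `n` is a rational function of `s`, or the two sections
are independent over `K(s)` and `s` is a rational function of the pencil parameter. -/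
theorem dimI (a b : ℕ) (ha : 1 ≤ a) (hb : 1 ≤ b) : ∃ D1 : ℕ, ∀ (K L : Type) [Field K] [CharZero K]
    [CommRing L] [IsDomain L] [Algebra K L] (x y θ : Fin 4 → K), Function.Injective θ →
    (∀ i, x i ≠ 0) → (∀ i j, i ≠ j → x i * y j ≠ x j * y i) →
    ∀ (P0 Q0 P1 Q1 : K[X]), IsSec x y θ 4 P0 Q0 → IsSec x y θ 4 P1 Q1 →
    LinearIndependent K ![(P0, Q0), (P1, Q1)] →
    ∀ (s n : L), (∀ q : K[X], aeval s q = 0 → q = 0) →
    2 * a + 6 * b ≤ finrank K (spanI x y θ s n a b) + 2 ∨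
    (∃ c0 c1 : K[X], c1 ≠ 0 ∧ c0.natDegree ≤ D1 ∧ c1.natDegree ≤ D1 ∧
      aeval s c1 * n = aeval s c0) ∨
    (P0 * Q1 ≠ P1 * Q0 ∧ ∃ c0 c1 : K[X], (c0 ≠ 0 ∨ c1 ≠ 0) ∧ c0.natDegree ≤ D1 ∧
      c1.natDegree ≤ D1 ∧ ∑ k ∈ Finset.range (D1 + 1),
        (algebraMap K L (c1.coeff k) * s + algebraMap K L (c0.coeff k)) *
          (n * aeval s Q0 - aeval s P0) ^ k * (aeval s P1 - n * aeval s Q1) ^ (D1 - k) = 0) := by
  refine ⟨3 * (2 * a + 6 * b) + 5, ?_⟩
  intro K L _ _ _ _ _ x y θ hθ hx hxy P0 Q0 P1 Q1 h0 h1 hli s n hs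
  let φ : L →ₐ[K] FractionRing L := IsScalarTower.toAlgHom K L (FractionRing L)
  have hφ : Function.Injective φ := IsFractionRing.injective L (FractionRing L)
  have hs' : ∀ q : K[X], aeval (φ s) q = 0 → q = 0 := fun q hq =>
    hs q (hφ (by rw [← aeval_algHom_apply, hq, map_zero]))
  rcases dimI_field (φ s) (φ n) ha hb hθ hx hxy h0 h1 hli hs' le_rfl with h | h | h
  · exact Or.inl (h.trans ((dimI_map φ x y θ s n a b).trans (Nat.le_add_right _ _)))
  · obtain ⟨c0, c1, h1, h2, h3, h4⟩ := h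
    refine Or.inr (Or.inl ⟨c0, c1, h1, h2, h3, hφ ?_⟩)
    rw [map_mul, ← aeval_algHom_apply, ← aeval_algHom_apply, h4]
  · obtain ⟨hdet, c0, c1, h1, h2, h3, h4⟩ := h
    refine Or.inr (Or.inr ⟨hdet, c0, c1, h1, h2, h3, hφ ?_⟩)
    rw [map_zero, ← h4, map_sum]
    refine Finset.sum_congr rfl fun k _ => ?_
    simp only [map_mul, map_add, map_pow, map_sub, AlgHom.commutes, aeval_algHom_apply]

end Vale.Agent.P018
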