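import Vale.Agent.P018.Q.Nested

namespace Vale.Agent.P018

open Polynomial Module

/-- the space spanned by `x ^ I * s ^ j` -/
noncomputable def spanII {K L : Type} [Field K] [CommRing L] [Algebra K L] (x : Fin 4 → L)
    (s : L) (a b : ℕ) : Submodule K L :=
  Submodule.span K {f | ∃ (j : ℕ) (I : Fin 4 → ℕ), j ≤ b ∧ ∑ i, I i = a ∧
    f = (∏ i, x i ^ I i) * s ^ j}

section Orders

open scoped Pointwise

variable {K : Type} [Field K]

/-- series of distinct orders are independent -/
theorem dII_card_le (U : Submodule K (PowerSeries K)) [FiniteDimensional K U] (A : Finset ℕ)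
    (hA : ∀ n ∈ A, ∃ f ∈ U, PowerSeries.order f = (n : ℕ)) : A.card ≤ finrank K U := by
  classical
  choose! f hfU hf using hA
  have hli : LinearIndependent K fun n : A => (⟨f n, hfU n n.2⟩ : U) := by
    refine LinearIndependent.of_comp U.subtype ?_
    rw [Fintype.linearIndependent_iff]
    intro g hg
    by_contra hne
    push Not at hne
    obtain ⟨n, hn, hmin⟩ := Finset.exists_min_image (Finset.univ.filter fun n : A => g n ≠ 0)
      (fun n => (n : ℕ)) (by obtain ⟨n, hn⟩ := hne; exact ⟨n, by simpa using hn⟩)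
    have h1 := congrArg (PowerSeries.coeff (n : ℕ)) hg
    rw [map_sum, map_zero, Finset.sum_eq_single n] at h1
    · simp only [Function.comp, Submodule.subtype_apply, map_smul, smul_eq_mul] at h1
      exact mul_ne_zero (by simpa using hn) (PowerSeries.order_eq_nat.1 (hf n n.2)).1 h1
    · intro m _ hmn
      simp only [Function.comp, Submodule.subtype_apply, map_smul, smul_eq_mul]
      by_cases hm : g m = 0
      · rw [hm, zero_mul]
      · have h2 := hmin m (by simpa using hm)
        have h3 : (n : ℕ) < m := lt_of_le_of_ne h2 fun e => hmn (Subtype.ext e.symm)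
        rw [(PowerSeries.order_eq_nat.1 (hf m m.2)).2 _ h3, mul_zero]
    · simp
  simpa using hli.fintype_card_le_finrank

/-- the number of orders is at least the dimension -/
theorem dII_exists_orders (U : Submodule K (PowerSeries K)) [FiniteDimensional K U] :
    ∃ A : Finset ℕ, finrank K U ≤ A.card ∧
      ∀ n ∈ A, ∃ f ∈ U, PowerSeries.order f = (n : ℕ) := by
  classical
  let S : Set ℕ := {n | ∃ f ∈ U, PowerSeries.order f = (n : ℕ)}
  by_cases hS : S.Finite
  · refine ⟨hS.toFinset, ?_, fun n hn => by simpa [S] using hn⟩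
    let φ : U →ₗ[K] (hS.toFinset → K) :=
      LinearMap.pi fun n => (PowerSeries.coeff (n : ℕ)).comp U.subtype
    have hφ : Function.Injective φ := by
      rw [injective_iff_map_eq_zero]
      intro f hf
      by_contra hne
      have h0 : (f : PowerSeries K) ≠ 0 := fun e => hne (Subtype.ext e)
      have h1 : (PowerSeries.order (f : PowerSeries K)).toNat ∈ hS.toFinset := by
        rw [Set.Finite.mem_toFinset]
        exact ⟨f, f.2, (PowerSeries.coe_toNat_order h0).symm⟩
      exact PowerSeries.coeff_order h0 (congrFun hf ⟨_, h1⟩)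
    simpa using LinearMap.finrank_le_finrank_of_injective hφ
  · obtain ⟨A, hA, hc⟩ := Set.Infinite.exists_subset_card_eq hS (finrank K U)
    exact ⟨A, hc.ge, fun n hn => hA hn⟩

theorem dII_cd (U V : Submodule K (PowerSeries K)) [FiniteDimensional K U] [FiniteDimensional K V]
    [FiniteDimensional K (U * V : Submodule K (PowerSeries K))]
    (hU : 0 < finrank K U) (hV : 0 < finrank K V) :
    finrank K U + finrank K V ≤ finrank K (U * V : Submodule K (PowerSeries K)) + 1 := by
  classical
  obtain ⟨A, hA, hA'⟩ := dII_exists_orders U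
  obtain ⟨B, hB, hB'⟩ := dII_exists_orders V
  have h1 := cauchy_davenport_add_of_linearOrder_isCancelAdd
    (Finset.card_pos.1 (hU.trans_le hA)) (Finset.card_pos.1 (hV.trans_le hB))
  have h2 := dII_card_le (U * V) (A + B) fun n hn => by
    obtain ⟨p, hp, q, hq, rfl⟩ := Finset.mem_add.1 hn
    obtain ⟨f, hf, hf'⟩ := hA' p hp
    obtain ⟨g, hg, hg'⟩ := hB' q hq
    exact ⟨f * g, Submodule.mul_mem_mul hf hg, by
      rw [PowerSeries.order_mul, hf', hg', Nat.cast_add]⟩
  omega

end Orders

section Pow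

open scoped Pointwise

variable {K L : Type} [Field K] [CommRing L] [Algebra K L]

theorem dII_pow_eq [DecidableEq L] (x : Fin 4 → L) (a : ℕ) :
    Submodule.span K (Set.range x) ^ a =
      Submodule.span K (((Finset.univ.image x) ^ a : Finset L) : Set L) := by
  rw [Submodule.span_pow, Finset.coe_pow, Finset.coe_image, Finset.coe_univ, Set.image_univ]

theorem dII_fd (x : Fin 4 → L) (a : ℕ) :
    FiniteDimensional K (Submodule.span K (Set.range x) ^ a : Submodule K L) := by
  classical
  rw [dII_pow_eq]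
  exact FiniteDimensional.span_finset K _

theorem dII_finrank_le (x : Fin 4 → L) (a : ℕ) :
    finrank K (Submodule.span K (Set.range x) ^ a : Submodule K L) ≤ 4 ^ a := by
  classical
  rw [dII_pow_eq]
  refine (finrank_span_finset_le_card _).trans (Finset.card_pow_le.trans ?_)
  exact Nat.pow_le_pow_left (Finset.card_image_le.trans (by simp)) a

theorem dII_mem_pow (V : Submodule K L) (h1 : (1 : L) ∈ V) {m n : ℕ} (h : m ≤ n) {f : L}
    (hf : f ∈ V ^ m) : f ∈ V ^ n := by
  obtain ⟨k, rfl⟩ := Nat.exists_eq_add_of_le h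
  have := Submodule.mul_mem_mul hf (Submodule.pow_mem_pow V h1 k)
  rwa [one_pow, mul_one, ← pow_add] at this

theorem dII_mem_set_pow (x : Fin 4 → L) (a : ℕ) : ∀ f ∈ Set.range x ^ a,
    ∃ I : Fin 4 → ℕ, ∑ i, I i = a ∧ f = ∏ i, x i ^ I i := by
  induction a with
  | zero => intro f hf; exact ⟨0, by simp, by simpa using hf⟩
  | succ a ih =>
    intro f hf
    rw [pow_succ] at hf
    obtain ⟨g, hg, _, ⟨i, rfl⟩, rfl⟩ := Set.mem_mul.1 hf
    obtain ⟨I, hI, rfl⟩ := ih g hg
    refine ⟨I + Pi.single i 1, by simp [Finset.sum_add_distrib, hI], ?_⟩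
    simp only [Pi.add_apply, pow_add, Finset.prod_mul_distrib]
    congr 1
    rw [Finset.prod_eq_single i] <;> simp +contextual

theorem dII_le_spanII (x : Fin 4 → L) (s : L) (a b : ℕ) :
    Submodule.span K (Set.range x) ^ a *
      Submodule.span K (Set.range fun j : Fin (b + 1) => s ^ (j : ℕ)) ≤ spanII x s a b := by
  rw [Submodule.span_pow, Submodule.span_mul_span]
  refine Submodule.span_mono fun f hf => ?_
  obtain ⟨g, hg, _, ⟨j, rfl⟩, rfl⟩ := Set.mem_mul.1 hf
  obtain ⟨I, hI, rfl⟩ := dII_mem_set_pow x a g hg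
  exact ⟨j, I, Nat.lt_succ_iff.1 j.2, hI, rfl⟩

theorem dII_fd_spanII (x : Fin 4 → L) (s : L) (a b : ℕ) :
    FiniteDimensional K (spanII (K := K) x s a b) := by
  refine FiniteDimensional.span_of_finite K (Set.Finite.subset (Set.finite_range
    fun z : Fin (b + 1) × (Fin 4 → Fin (a + 1)) => (∏ i, x i ^ (z.2 i : ℕ)) * s ^ (z.1 : ℕ)) ?_)
  rintro f ⟨j, I, hj, hI, rfl⟩
  exact ⟨(⟨j, Nat.lt_succ_of_le hj⟩, fun i => ⟨I i, Nat.lt_succ_of_le (hI ▸
    Finset.single_le_sum (f := I) (fun _ _ => Nat.zero_le _) (Finset.mem_univ i))⟩), rfl⟩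

end Pow

section Plane

variable {K : Type} [Field K]

/-- the kernel of the evaluation at two power series is generated by one element, or maximal -/
theorem dII_lead (y : Fin 2 → PowerSeries K)
    (h2 : ∀ G : MvPolynomial (Fin 2) K, G.totalDegree ≤ 2 → MvPolynomial.aeval y G = 0 → G = 0) :
    ∃ p q : ℕ, p + q = 3 ∧ ∀ H : MvPolynomial (Fin 2) K, H ≠ 0 → MvPolynomial.aeval y H = 0 →
      ∃ m ∈ H.support, p ≤ m 0 ∧ q ≤ m 1 := by
  let P : Ideal (MvPolynomial (Fin 2) K) := RingHom.ker (MvPolynomial.aeval (R := K) y)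
  have hP : P.IsPrime := RingHom.ker_isPrime _
  by_cases h0 : P = ⊥
  · refine ⟨3, 0, rfl, fun H hH hH' => absurd ?_ hH⟩
    have : H ∈ P := hH'
    rwa [h0, Ideal.mem_bot] at this
  obtain ⟨G, hG, hGp⟩ := hP.exists_mem_prime_of_ne_bot h0
  let c : PowerSeries K →ₐ[K] K :=
    { PowerSeries.constantCoeff with
      commutes' := fun r => by simp }
  let Q : Ideal (MvPolynomial (Fin 2) K) := RingHom.ker (c.comp (MvPolynomial.aeval (R := K) y))
  have hQ : Q.IsPrime := RingHom.ker_isPrime _
  have hPQ : P < Q := by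
    refine lt_of_le_of_ne (fun H hH => ?_) fun e => ?_
    · have : MvPolynomial.aeval y H = 0 := hH
      change c (MvPolynomial.aeval y H) = 0
      rw [this, map_zero]
    · have h1 : (MvPolynomial.X 0 - MvPolynomial.C (c (y 0)) : MvPolynomial (Fin 2) K) ∈ Q := by
        change c (MvPolynomial.aeval y _) = 0
        rw [map_sub, map_sub, MvPolynomial.aeval_X, MvPolynomial.aeval_C, AlgHom.commutes]
        exact sub_self _
      rw [← e] at h1
      have h3 := h2 _ ((MvPolynomial.totalDegree_sub _ _).trans (by simp)) h1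
      have h4 := congrArg (MvPolynomial.coeff (Finsupp.single 0 1)) h3
      simp [MvPolynomial.coeff_X, MvPolynomial.coeff_C, Finsupp.ext_iff, Fin.forall_fin_two] at h4
  have hspan : Ideal.span {G} = P := by
    by_contra hne
    have hGP : Ideal.span {G} < P := lt_of_le_of_ne ((Ideal.span_singleton_le_iff_mem _).2 hG) hne
    have hGs : (Ideal.span {G}).IsPrime := (Ideal.span_singleton_prime hGp.ne_zero).2 hGp
    have hb : (⊥ : Ideal (MvPolynomial (Fin 2) K)) < Ideal.span {G} :=
      bot_lt_iff_ne_bot.2 (by simpa using hGp.ne_zero)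
    have hbp : (⊥ : Ideal (MvPolynomial (Fin 2) K)).IsPrime := Ideal.isPrime_bot
    have a1 := Ideal.height_add_one_le_of_lt_of_isPrime hb
    have a2 := Ideal.height_add_one_le_of_lt_of_isPrime hGP
    have a3 := Ideal.height_add_one_le_of_lt_of_isPrime hPQ
    have a4 := Q.height_le_ringKrullDim_of_isPrime
    rw [MvPolynomial.ringKrullDim_of_isNoetherianRing, ringKrullDim_eq_zero_of_field] at a4
    have a5 : (3 : ℕ∞) ≤ Q.height := by
      calc (3 : ℕ∞) = 0 + 1 + 1 + 1 := by norm_num
        _ ≤ (⊥ : Ideal (MvPolynomial (Fin 2) K)).height + 1 + 1 + 1 := by gcongr; exact zero_le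
        _ ≤ (Ideal.span {G}).height + 1 + 1 := by gcongr
        _ ≤ P.height + 1 := by gcongr
        _ ≤ Q.height := a3
    have a6 : ((3 : ℕ∞) : WithBot ℕ∞) ≤ 0 + (Nat.card (Fin 2) : ℕ) :=
      (WithBot.coe_le_coe.2 a5).trans a4
    rw [zero_add, Nat.card_eq_fintype_card, Fintype.card_fin] at a6
    exact absurd a6 (by decide)
  have hdeg : 3 ≤ (MonomialOrder.degLex.degree G) 0 + (MonomialOrder.degLex.degree G) 1 := by
    have e := MvPolynomial.degree_degLexDegree (f := G)
    rw [Finsupp.degree_eq_sum, Fin.sum_univ_two] at e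
    rw [e]
    by_contra hlt
    exact hGp.ne_zero (h2 G (by omega) hG)
  refine ⟨min ((MonomialOrder.degLex.degree G) 0) 3, 3 - min ((MonomialOrder.degLex.degree G) 0) 3,
    by omega, fun H hH hH' => ?_⟩
  have : H ∈ Ideal.span {G} := hspan ▸ hH'
  obtain ⟨R, rfl⟩ := Ideal.mem_span_singleton.1 this
  refine ⟨_, MonomialOrder.degLex.degree_mem_support hH, ?_⟩
  rw [MonomialOrder.degree_mul' hH, Finsupp.add_apply, Finsupp.add_apply]
  omega

/-- three exponents in each degree -/
def dIIexp (p : ℕ) (e k : ℕ) : ℕ × ℕ :=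
  if e = 0 then (if k = 0 then (0, 0) else if k = 1 then (1, 0) else (0, 1))
  else if k < p then (k, e + 1 - k) else (e + 1 - (k - p), k - p)

theorem dII_plane (V : Submodule K (PowerSeries K)) (h1 : 1 ∈ V) (y : Fin 2 → PowerSeries K)
    (hy : ∀ i, y i ∈ V) (a : ℕ) [FiniteDimensional K (V ^ a : Submodule K (PowerSeries K))]
    (h2 : ∀ G : MvPolynomial (Fin 2) K, G.totalDegree ≤ 2 → MvPolynomial.aeval y G = 0 → G = 0) :
    3 * a ≤ finrank K (V ^ a : Submodule K (PowerSeries K)) := by
  classical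
  obtain ⟨p, q, hpq, h⟩ := dII_lead y h2
  let m : Fin a × Fin 3 → (Fin 2 →₀ ℕ) := fun z =>
    Finsupp.single 0 (dIIexp p z.1 z.2).1 + Finsupp.single 1 (dIIexp p z.1 z.2).2
  have m0 : ∀ z, m z 0 = (dIIexp p z.1 z.2).1 := fun z => by simp [m]
  have m1 : ∀ z, m z 1 = (dIIexp p z.1 z.2).2 := fun z => by simp [m]
  have minj : Function.Injective m := by
    rintro ⟨e, k⟩ ⟨e', k'⟩ hzz
    have b0 := congrArg (· 0) hzz
    have b1 := congrArg (· 1) hzz
    simp only [m0, m1, dIIexp] at b0 b1
    have := k.2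
    have := k'.2
    rw [Prod.ext_iff, Fin.ext_iff, Fin.ext_iff]
    dsimp only
    split_ifs at b0 b1 <;> dsimp only at b0 b1 <;> omega
  have mdeg : ∀ z, m z 0 + m z 1 ≤ a ∧ (m z 0 < p ∨ m z 1 < q) := by
    rintro ⟨e, k⟩
    simp only [m0, m1, dIIexp]
    have := k.2
    have := e.2
    split_ifs <;> dsimp only <;> omega
  have hmem : ∀ z, y 0 ^ m z 0 * y 1 ^ m z 1 ∈ V ^ a := fun z => by
    refine dII_mem_pow V h1 (mdeg z).1 ?_
    rw [pow_add]
    exact Submodule.mul_mem_mul (Submodule.pow_mem_pow V (hy 0) _) (Submodule.pow_mem_pow V (hy 1) _)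
  have hli : LinearIndependent K fun z => (⟨_, hmem z⟩ : (V ^ a : Submodule K (PowerSeries K))) := by
    refine LinearIndependent.of_comp (V ^ a).subtype ?_
    rw [Fintype.linearIndependent_iff]
    intro g hg z
    let H : MvPolynomial (Fin 2) K := ∑ z, MvPolynomial.monomial (m z) (g z)
    have hc : ∀ z, MvPolynomial.coeff (m z) H = g z := fun z => by
      simp only [H, MvPolynomial.coeff_sum, MvPolynomial.coeff_monomial, minj.eq_iff]
      simp
    have hH : MvPolynomial.aeval y H = 0 := by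
      rw [← hg]
      simp only [H, map_sum, MvPolynomial.aeval_monomial, Function.comp, Submodule.subtype_apply]
      refine Finset.sum_congr rfl fun z _ => ?_
      rw [Finsupp.prod_fintype _ _ (by simp), Fin.prod_univ_two, Algebra.smul_def]
    by_contra hz
    obtain ⟨n, hn, hn'⟩ := h H (fun e => hz (by rw [← hc z, e, MvPolynomial.coeff_zero])) hH
    have hn2 := MvPolynomial.mem_support_iff.1 hn
    simp only [H, MvPolynomial.coeff_sum, MvPolynomial.coeff_monomial] at hn2
    obtain ⟨w, -, hw⟩ := Finset.exists_ne_zero_of_sum_ne_zero hn2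
    have e : m w = n := by
      by_contra e
      exact hw (if_neg e)
    have := (mdeg w).2
    rw [e] at this
    omega
  simpa [mul_comm] using hli.fintype_card_le_finrank

/-- homogenisation of a polynomial of degree at most two -/
theorem dII_homog (G : MvPolynomial (Fin 2) K) (hG : G.totalDegree ≤ 2) :
    ∃ q : Fin 3 → Fin 3 → K, G = ∑ i, ∑ j, q i j •
      ((![1, MvPolynomial.X 0, MvPolynomial.X 1] : Fin 3 → MvPolynomial (Fin 2) K) i *
        (![1, MvPolynomial.X 0, MvPolynomial.X 1] : Fin 3 → MvPolynomial (Fin 2) K) j) := by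
  classical
  set Z : Fin 3 → MvPolynomial (Fin 2) K := ![1, MvPolynomial.X 0, MvPolynomial.X 1] with hZ
  have key : ∀ m : Fin 2 →₀ ℕ, m 0 + m 1 ≤ 2 → ∃ i j, MvPolynomial.monomial m (1 : K) = Z i * Z j := by
    intro m hm
    have e : MvPolynomial.monomial m (1 : K) =
        MvPolynomial.X 0 ^ m 0 * (MvPolynomial.X 1 : MvPolynomial (Fin 2) K) ^ m 1 := by
      rw [MvPolynomial.monomial_eq, Finsupp.prod_fintype _ _ (by simp), Fin.prod_univ_two, map_one,
        one_mul]
    rw [e]
    have c0 : m 0 ≤ 2 := by omega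
    have c1 : m 1 ≤ 2 := by omega
    interval_cases h0 : m 0 <;> interval_cases h1 : m 1
    · exact ⟨0, 0, by simp [hZ]⟩
    · exact ⟨0, 2, by simp [hZ]⟩
    · exact ⟨2, 2, by simp [hZ, sq]⟩
    · exact ⟨0, 1, by simp [hZ]⟩
    · exact ⟨1, 2, by simp [hZ]⟩
    · omega
    · exact ⟨1, 1, by simp [hZ, sq]⟩
    · omega
    · omega
  have hm : ∀ m ∈ G.support, m 0 + m 1 ≤ 2 := fun m hm => by
    have := MvPolynomial.le_totalDegree hm
    rw [Finsupp.sum_fintype _ _ (by simp), Fin.sum_univ_two] at this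
    omega
  choose! u v huv using key
  refine ⟨fun i j => ∑ m ∈ G.support, if u m = i ∧ v m = j then MvPolynomial.coeff m G else 0, ?_⟩
  conv_lhs => rw [G.as_sum]
  simp only [Finset.sum_smul, ite_smul, zero_smul]
  rw [Finset.sum_congr rfl fun i _ => Finset.sum_comm, Finset.sum_comm]
  refine Finset.sum_congr rfl fun m hmm => ?_
  simp only [ite_and, Finset.sum_ite_irrel, Finset.sum_ite_eq, Finset.mem_univ, if_true,
    Finset.sum_const_zero]
  rw [← huv m (hm m hmm), MvPolynomial.smul_monomial, smul_eq_mul, mul_one]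

end Plane

theorem dII_main {K : Type} [Field K] [CharZero K] (x : Fin 4 → PowerSeries K) (hx : x 0 = 1)
    (a : ℕ) :
    3 * a ≤ finrank K (Submodule.span K (Set.range x) ^ a : Submodule K (PowerSeries K)) ∨
    (∃ (l : Fin 4 → K) (q : Fin 4 → Fin 4 → K) (ξ : Fin 4 → K), l ≠ 0 ∧ ∑ i, l i * ξ i = 0 ∧
      ∑ i, ∑ j, q i j * ξ i * ξ j ≠ 0 ∧ ∑ i, l i • x i = 0 ∧
      ∑ i, ∑ j, q i j • (x i * x j) = 0) := by
  have hV : ∀ i, x i ∈ Submodule.span K (Set.range x) := fun i => Submodule.subset_span ⟨i, rfl⟩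
  by_cases hli : LinearIndependent K x
  · left
    have h4 : finrank K (Submodule.span K (Set.range x)) = 4 := by
      simpa using finrank_span_eq_card hli
    have key : ∀ n : ℕ, 3 * n + 1 ≤
        finrank K (Submodule.span K (Set.range x) ^ n : Submodule K (PowerSeries K)) := by
      intro n
      induction n with
      | zero =>
        rw [pow_zero, Submodule.one_eq_span, finrank_span_singleton one_ne_zero]
      | succ n ih =>
        have f1 := dII_fd (K := K) x n
        have f2 := dII_fd (K := K) x (n + 1)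
        have f3 : FiniteDimensional K (Submodule.span K (Set.range x)) :=
          FiniteDimensional.span_of_finite K (Set.finite_range x)
        rw [pow_succ] at f2 ⊢
        have := dII_cd (Submodule.span K (Set.range x) ^ n) (Submodule.span K (Set.range x))
          (by omega) (by omega)
        omega
    exact (Nat.le_succ _).trans (key a)
  obtain ⟨l, hl, i0, hi0⟩ := Fintype.not_linearIndependent_iff.1 hli
  obtain ⟨k, hk0, hk⟩ : ∃ k, k ≠ 0 ∧ l k ≠ 0 := by
    by_contra hne
    push Not at hne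
    rw [Finset.sum_eq_single 0 (fun i _ hi => by rw [hne i hi, zero_smul]) (by simp), hx,
      smul_eq_zero] at hl
    by_cases h : i0 = 0
    · exact hi0 (h ▸ hl.resolve_right one_ne_zero)
    · exact hi0 (hne i0 h)
  have hs0 : k.succAbove 0 = 0 := Fin.succAbove_ne_zero_zero hk0
  let y : Fin 2 → PowerSeries K := ![x (k.succAbove 1), x (k.succAbove 2)]
  by_cases h2 : ∀ G : MvPolynomial (Fin 2) K, G.totalDegree ≤ 2 →
      MvPolynomial.aeval y G = 0 → G = 0
  · left
    have := dII_fd (K := K) x a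
    refine dII_plane _ (hx ▸ hV 0) y (fun i => ?_) a h2
    fin_cases i <;> exact hV _
  right
  push Not at h2
  obtain ⟨G, hG, hGy, hG0⟩ := h2
  obtain ⟨q, hq⟩ := dII_homog G hG
  obtain ⟨t, ht⟩ : ∃ t : Fin 2 → K, MvPolynomial.eval t G ≠ 0 := by
    by_contra hne
    push Not at hne
    exact hG0 (MvPolynomial.funext fun t => by rw [hne t, map_zero])
  let ξ : Fin 3 → K := ![1, t 0, t 1]
  refine ⟨l, Fin.insertNth (α := fun _ => Fin 4 → K) k 0
      fun i => Fin.insertNth (α := fun _ => K) k 0 (q i),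
    Fin.insertNth (α := fun _ => K) k (-(∑ i, l (k.succAbove i) * ξ i) / l k) ξ,
    fun e => hk (by rw [e]; rfl), ?_, ?_, hl, ?_⟩
  · rw [Fin.sum_univ_succAbove _ k]
    simp only [Fin.insertNth_apply_same, Fin.insertNth_apply_succAbove]
    field_simp
    ring
  · simp only [Fin.sum_univ_succAbove _ k, Fin.insertNth_apply_same,
      Fin.insertNth_apply_succAbove, Pi.zero_apply, zero_mul, Finset.sum_const_zero, zero_add]
    intro e
    apply ht
    rw [hq, ← e]
    simp only [map_sum, MvPolynomial.smul_eval, map_mul, mul_assoc]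
    refine Finset.sum_congr rfl fun i _ => Finset.sum_congr rfl fun j _ => ?_
    congr 2
    · fin_cases i <;> simp [ξ]
    · fin_cases j <;> simp [ξ]
  · simp only [Fin.sum_univ_succAbove _ k, Fin.insertNth_apply_same,
      Fin.insertNth_apply_succAbove, Pi.zero_apply, zero_smul, Finset.sum_const_zero, zero_add]
    rw [← hGy, hq]
    simp only [map_sum, map_smul, map_mul]
    refine Finset.sum_congr rfl fun i _ => Finset.sum_congr rfl fun j _ => ?_
    congr 2
    · fin_cases i <;> simp [y, hs0, hx]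
    · fin_cases j <;> simp [y, hs0, hx]

/-- Dimension bound on a branch over a `β`-line. Either the dimension is large, or all `x_i` are
rational functions of `s`, or `x` lies on a plane conic (or a line). -/
theorem dimII (a b : ℕ) (ha : 1 ≤ a) : ∃ D1 : ℕ, ∀ (K : Type) [Field K] [CharZero K]
    (x : Fin 4 → PowerSeries K) (s : PowerSeries K), x 0 = 1 →
    (∀ q : K[X], aeval s q = 0 → q = 0) →
    3 * a + 2 * b ≤ finrank K (spanII (K := K) x s a b) ∨
    (∀ i, ∃ c0 c1 : K[X], c1 ≠ 0 ∧ c0.natDegree ≤ D1 ∧ c1.natDegree ≤ D1 ∧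
      aeval s c1 * x i = aeval s c0) ∨
    (∃ (l : Fin 4 → K) (q : Fin 4 → Fin 4 → K) (ξ : Fin 4 → K), l ≠ 0 ∧ ∑ i, l i * ξ i = 0 ∧
      ∑ i, ∑ j, q i j * ξ i * ξ j ≠ 0 ∧ ∑ i, l i • x i = 0 ∧
      ∑ i, ∑ j, q i j • (x i * x j) = 0) := by
  refine ⟨(b + 1) * 4 ^ a, fun K _ _ x s hx hs => ?_⟩
  rcases dII_main x hx a with h3 | h3
  swap
  · exact Or.inr (Or.inr h3)
  have hV : ∀ i, x i ∈ Submodule.span K (Set.range x) := fun i => Submodule.subset_span ⟨i, rfl⟩
  have hW : ∀ i, x i ∈ Submodule.span K (Set.range x) ^ a := fun i =>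
    dII_mem_pow _ (hx ▸ hV 0) ha (by rw [pow_one]; exact hV i)
  by_cases hind : ∃ i, LinearIndependent K
      (fun z : Fin 2 × Fin ((b + 1) * 4 ^ a + 1) => s ^ (z.2 : ℕ) * ![x 0, x i] z.1)
  · left
    obtain ⟨i, hi⟩ := hind
    have f1 := dII_fd (K := K) x a
    have f2 := dII_fd_spanII (K := K) x s a b
    have h1 := increments (Submodule.span K (Set.range x) ^ a) s 2 b ((b + 1) * 4 ^ a) ![x 0, x i]
      (fun j => by fin_cases j <;> exact hW _)
      (Nat.mul_le_mul_left _ (dII_finrank_le x a)) hi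
    have h2 := Submodule.finrank_mono (dII_le_spanII (K := K) x s a b)
    omega
  right
  left
  intro i
  have hi := fun h => hind ⟨i, h⟩
  obtain ⟨g, hg, z, hz⟩ := Fintype.not_linearIndependent_iff.1 hi
  let c : Fin 2 → K[X] := fun k => ∑ n : Fin ((b + 1) * 4 ^ a + 1), monomial (n : ℕ) (g (k, n))
  have hc : ∀ k (n : Fin ((b + 1) * 4 ^ a + 1)), (c k).coeff n = g (k, n) := fun k n => by
    simp only [c, finsetSum_coeff, coeff_monomial, Fin.val_inj]
    simp
  have hd : ∀ k, (c k).natDegree ≤ (b + 1) * 4 ^ a := fun k =>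
    natDegree_sum_le_of_forall_le _ _ fun n _ =>
      (natDegree_monomial_le _).trans (Nat.lt_succ_iff.1 n.2)
  have hrel : aeval s (c 1) * x i = aeval s (-c 0) := by
    rw [Fintype.sum_prod_type, Fin.sum_univ_two] at hg
    simp only [Matrix.cons_val_zero, Matrix.cons_val_one, hx, mul_one] at hg
    rw [map_neg, eq_neg_iff_add_eq_zero, add_comm, ← hg]
    simp only [c, map_sum, aeval_monomial, Finset.sum_mul, Algebra.smul_def, mul_assoc]
  refine ⟨-c 0, c 1, fun h1 => ?_, by rw [natDegree_neg]; exact hd 0, hd 1, hrel⟩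
  rw [h1, map_zero, zero_mul] at hrel
  have h0 : c 0 = 0 := neg_eq_zero.1 (hs _ hrel.symm)
  obtain ⟨k, n⟩ := z
  apply hz
  rw [← hc]
  fin_cases k
  · exact (congrArg (coeff · n) h0).trans (coeff_zero _)
  · exact (congrArg (coeff · n) h1).trans (coeff_zero _)

end Vale.Agent.P018
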