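import Vale.Agent.P018.Q.Config

namespace Vale.Agent.P018

open NumberField Polynomial

variable {F : Type} [Field F] [NumberField F]

/-- the primitive of `∏ (z - w i)` vanishing at `0` -/
noncomputable def fiveP (w : Fin 4 → ℂ) (z : ℂ) : ℂ :=
  z ^ 5 / 5 - (w 0 + w 1 + w 2 + w 3) * z ^ 4 / 4 +
    (w 0 * w 1 + w 0 * w 2 + w 0 * w 3 + w 1 * w 2 + w 1 * w 3 + w 2 * w 3) * z ^ 3 / 3 -
    (w 0 * w 1 * w 2 + w 0 * w 1 * w 3 + w 0 * w 2 * w 3 + w 1 * w 2 * w 3) * z ^ 2 / 2 +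
    w 0 * w 1 * w 2 * w 3 * z

/-- the same as a polynomial -/
noncomputable def fivePoly (w : Fin 4 → ℂ) : ℂ[X] :=
  C (1 / 5) * X ^ 5 - C ((w 0 + w 1 + w 2 + w 3) / 4) * X ^ 4 +
    C ((w 0 * w 1 + w 0 * w 2 + w 0 * w 3 + w 1 * w 2 + w 1 * w 3 + w 2 * w 3) / 3) * X ^ 3 -
    C ((w 0 * w 1 * w 2 + w 0 * w 1 * w 3 + w 0 * w 2 * w 3 + w 1 * w 2 * w 3) / 2) * X ^ 2 +
    C (w 0 * w 1 * w 2 * w 3) * X

theorem five_eval (w : Fin 4 → ℂ) (z : ℂ) : (fivePoly w).eval z = fiveP w z := by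
  simp only [fivePoly, fiveP, eval_add, eval_sub, eval_mul, eval_C, eval_pow, eval_X]
  ring

theorem five_deriv (w : Fin 4 → ℂ) : derivative (fivePoly w) = ∏ i, (X - C (w i)) := by
  refine Polynomial.funext fun z => ?_
  simp only [fivePoly, derivative_add, derivative_sub, derivative_C_mul, derivative_X_pow,
    derivative_X, eval_add, eval_sub, eval_mul, eval_C, eval_pow, eval_X, Fin.prod_univ_four,
    eval_one]
  push_cast
  ring

theorem five_deg (w : Fin 4 → ℂ) : (fivePoly w).natDegree ≤ 5 := by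
  unfold fivePoly
  compute_degree

theorem five_diff {q : ℂ[X]} {c0 : ℂ} {w : Fin 4 → ℂ}
    (h : derivative q = C c0 * ∏ i, (X - C (w i))) (x y : ℂ) :
    q.eval x - q.eval y = c0 * (fiveP w x - fiveP w y) := by
  have h1 : derivative (q - C c0 * fivePoly w) = 0 := by
    rw [derivative_sub, derivative_C_mul, five_deriv, h, sub_self]
  have h2 := eq_C_of_derivative_eq_zero h1
  have hx := congrArg (eval x) h2
  have hy := congrArg (eval y) h2
  simp only [eval_sub, eval_mul, eval_C, five_eval] at hx hy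
  linear_combination hx - hy

theorem five_eq (w : Fin 4 → ℂ) (h : ∀ i, fiveP w (w i) = fiveP w (w 0)) (i : Fin 4) :
    w i = w 0 := by
  classical
  set q := fivePoly w - C (fiveP w (w 0)) with hq
  have hd : derivative q = ∏ i, (X - C (w i)) := by
    rw [hq, derivative_sub, derivative_C, sub_zero, five_deriv]
  have hm : (∏ i, (X - C (w i)) : ℂ[X]) ≠ 0 :=
    Finset.prod_ne_zero_iff.2 fun i _ => X_sub_C_ne_zero _
  have hq0 : q ≠ 0 := fun h0 => hm (by rw [← hd, h0, derivative_zero])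
  have hr : ∀ i, q.IsRoot (w i) := fun i => by
    rw [IsRoot, hq, eval_sub, five_eval, eval_C, h, sub_self]
  have hroots : (derivative q).roots = Finset.univ.val.map w := by
    rw [hd, ← roots_multiset_prod_X_sub_C (Finset.univ.val.map w), Multiset.map_map]
    rfl
  have hle : (derivative q).roots + (Finset.univ.image w).val ≤ q.roots := by
    refine Multiset.le_iff_count.2 fun z => ?_
    rw [Multiset.count_add]
    by_cases hz : z ∈ Finset.univ.image w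
    · obtain ⟨k, -, rfl⟩ := Finset.mem_image.1 hz
      rw [count_roots, count_roots, derivative_rootMultiplicity_of_root (hr k),
        Multiset.count_eq_one_of_mem (Finset.univ.image w).nodup hz]
      have := (rootMultiplicity_pos hq0).2 (hr k)
      omega
    · have e1 : Multiset.count z (derivative q).roots = 0 := by
        rw [hroots, Multiset.count_eq_zero]
        intro h1
        obtain ⟨k, -, rfl⟩ := Multiset.mem_map.1 h1
        exact hz (Finset.mem_image_of_mem _ (Finset.mem_univ k))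
      rw [e1, Multiset.count_eq_zero.2 hz]
      exact Nat.zero_le _
  have hc := Multiset.card_le_card hle
  have h5 : q.natDegree ≤ 5 := by
    rw [hq, natDegree_sub_C]
    exact five_deg w
  have h6 := card_roots' q
  rw [Multiset.card_add, hroots, Multiset.card_map] at hc
  have h7 : (Finset.univ.image w).card ≤ 1 := by
    have e : (Finset.univ : Finset (Fin 4)).val.card = 4 := by simp
    have e' : (Finset.univ.image w).val.card = (Finset.univ.image w).card := rfl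
    omega
  exact Finset.card_le_one.1 h7 _ (Finset.mem_image_of_mem _ (Finset.mem_univ i)) _
    (Finset.mem_image_of_mem _ (Finset.mem_univ 0))

theorem five_affine (v : Fin 4 → ℂ) (r s x y : ℂ) :
    fiveP (fun i => r * v i + s) (r * x + s) - fiveP (fun i => r * v i + s) (r * y + s) =
      r ^ 5 * (fiveP v x - fiveP v y) := by
  simp only [fiveP]
  ring

/-- the critical points of a quintic with bounded critical values are close together -/
theorem crit_close : ∃ κ : ℝ, 0 < κ ∧ ∀ (q : ℂ[X]) (c0 : ℂ) (w : Fin 4 → ℂ) (R : ℝ),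
    derivative q = C c0 * ∏ i, (X - C (w i)) → (∀ i j, ‖q.eval (w i) - q.eval (w j)‖ ≤ R) →
    ∀ i j, κ * ‖c0‖ * ‖w i - w j‖ ^ 5 ≤ R := by
  set G : (Fin 4 → ℂ) → ℝ := fun v => ∑ i, ‖fiveP v (v i) - fiveP v (v 0)‖ with hG
  have hGc : Continuous G := by
    refine continuous_finsetSum _ fun i _ => Continuous.norm ?_
    unfold fiveP
    fun_prop
  set S : Set (Fin 4 → ℂ) := Metric.sphere 0 1 ∩ {v | v 0 = 0} with hS
  have hSc : IsCompact S :=
    (isCompact_sphere _ _).inter_right (isClosed_eq (continuous_apply 0) continuous_const)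
  have hpos : ∀ v ∈ S, 0 < G v := by
    intro v hv
    refine lt_of_le_of_ne (Finset.sum_nonneg fun i _ => norm_nonneg _) fun h0 => ?_
    have h1 := (Finset.sum_eq_zero_iff_of_nonneg fun i _ => norm_nonneg _).1 h0.symm
    have h2 := five_eq v fun i => sub_eq_zero.1 (norm_eq_zero.1 (h1 i (Finset.mem_univ i)))
    have h3 : v = 0 := funext fun i => (h2 i).trans hv.2
    have h4 := hv.1
    rw [h3] at h4
    simp at h4
  obtain ⟨k, hk, hk'⟩ := hSc.exists_forall_le' hGc.continuousOn hpos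
  refine ⟨k / 128, by positivity, fun q c0 w R hq hR i j => ?_⟩
  have hR0 : 0 ≤ R := (norm_nonneg _).trans (hR 0 0)
  set u : Fin 4 → ℂ := fun i => w i - w 0 with hu
  have hij : ‖w i - w j‖ ≤ 2 * ‖u‖ := by
    have e : w i - w j = u i - u j := by simp [hu]
    rw [e, two_mul]
    exact (norm_sub_le _ _).trans (add_le_add (norm_le_pi_norm u i) (norm_le_pi_norm u j))
  rcases (norm_nonneg u).eq_or_lt with h0 | h0
  · have e : ‖w i - w j‖ = 0 := le_antisymm (by rw [← h0] at hij; simpa using hij) (norm_nonneg _)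
    rw [e]
    simpa using hR0
  have hr : ((‖u‖ : ℝ) : ℂ) ≠ 0 := by exact_mod_cast h0.ne'
  set v : Fin 4 → ℂ := ((‖u‖ : ℝ) : ℂ)⁻¹ • u with hv
  have hvS : v ∈ S := by
    refine ⟨?_, by simp [hv, hu]⟩
    rw [mem_sphere_zero_iff_norm, hv, norm_smul, norm_inv, Complex.norm_real, norm_norm,
      inv_mul_cancel₀ h0.ne']
  have hw : w = fun i => ((‖u‖ : ℝ) : ℂ) * v i + w 0 := by
    funext i
    rw [hv, Pi.smul_apply, smul_eq_mul, ← mul_assoc, mul_inv_cancel₀ hr, one_mul]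
    simp [hu]
  have h1 : ∀ i, ‖c0‖ * ‖u‖ ^ 5 * ‖fiveP v (v i) - fiveP v (v 0)‖ ≤ R := fun i => by
    have e := five_affine v (‖u‖ : ℝ) (w 0) (v i) (v 0)
    rw [← hw, ← congrFun hw i, ← congrFun hw 0] at e
    have e2 := hR i 0
    rwa [five_diff hq, e, norm_mul, norm_mul, norm_pow, Complex.norm_real, norm_norm,
      ← mul_assoc] at e2
  have h2 : ‖c0‖ * ‖u‖ ^ 5 * G v ≤ 4 * R := by
    rw [hG, Finset.mul_sum]
    refine (Finset.sum_le_sum fun i _ => h1 i).trans ?_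
    simp
  have h3 : ‖w i - w j‖ ^ 5 ≤ (2 * ‖u‖) ^ 5 := pow_le_pow_left₀ (norm_nonneg _) hij 5
  have h4 : ‖c0‖ * ‖u‖ ^ 5 * k ≤ ‖c0‖ * ‖u‖ ^ 5 * G v :=
    mul_le_mul_of_nonneg_left (hk' v hvS) (by positivity)
  calc _ ≤ k / 128 * ‖c0‖ * (2 * ‖u‖) ^ 5 := mul_le_mul_of_nonneg_left h3 (by positivity)
    _ = ‖c0‖ * ‖u‖ ^ 5 * k / 4 := by ring
    _ ≤ R := by linarith

/-- the second divided difference of a quintic at a double point -/
def fiveH (c2 c3 c4 c5 x t : ℂ) : ℂ :=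
  c5 * t ^ 3 + (2 * c5 * x + c4) * t ^ 2 + (3 * c5 * x ^ 2 + 2 * c4 * x + c3) * t +
    (4 * c5 * x ^ 3 + 3 * c4 * x ^ 2 + 2 * c3 * x + c2)

theorem five_det (c2 c3 c4 c5 m : ℂ) (w θ lam t : Fin 4 → ℂ) (bm : Matrix (Fin 4) (Fin 4) ℂ)
    (h : ∀ r i, (∑ l, bm r l * θ i ^ (l : ℕ)) * lam i ^ 2 = m * fiveH c2 c3 c4 c5 (w i) (t r)) :
    bm.det * (Matrix.vandermonde θ).det * ∏ i, lam i ^ 2 =
      m ^ 4 * ((Matrix.vandermonde t).det * (24 * c5 ^ 4) * (Matrix.vandermonde w).det) := by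
  set T : Matrix (Fin 4) (Fin 4) ℂ :=
    !![c2, 2 * c3, 3 * c4, 4 * c5; c3, 2 * c4, 3 * c5, 0; c4, 2 * c5, 0, 0; c5, 0, 0, 0] with hT
  have hdT : T.det = 24 * c5 ^ 4 := by
    rw [hT]
    simp [Matrix.det_succ_row_zero, Fin.sum_univ_succ, Fin.succAbove]
    ring
  have e : bm * (Matrix.vandermonde θ).transpose * Matrix.diagonal (fun i => lam i ^ 2) =
      m • (Matrix.vandermonde t * T * (Matrix.vandermonde w).transpose) := by
    ext r i
    rw [Matrix.mul_diagonal, Matrix.smul_apply, smul_eq_mul]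
    have e1 : (bm * (Matrix.vandermonde θ).transpose) r i = ∑ l, bm r l * θ i ^ (l : ℕ) := by
      simp [Matrix.mul_apply]
    rw [e1, h]
    congr 1
    simp [Matrix.mul_apply, Fin.sum_univ_four, hT, fiveH]
    ring
  have e2 := congrArg Matrix.det e
  rwa [Matrix.det_mul, Matrix.det_mul, Matrix.det_transpose, Matrix.det_diagonal, Matrix.det_smul,
    Matrix.det_mul, Matrix.det_mul, Matrix.det_transpose, hdT, Fintype.card_fin] at e2

theorem five_taylor (w : Fin 4 → ℂ) (i : Fin 4) (t : ℂ) :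
    fiveP w t - fiveP w (w i) = (t - w i) ^ 2 *
      fiveH (-(w 0 * w 1 * w 2 + w 0 * w 1 * w 3 + w 0 * w 2 * w 3 + w 1 * w 2 * w 3) / 2)
        ((w 0 * w 1 + w 0 * w 2 + w 0 * w 3 + w 1 * w 2 + w 1 * w 3 + w 2 * w 3) / 3)
        (-(w 0 + w 1 + w 2 + w 3) / 4) (1 / 5) (w i) t := by
  have h : ∏ k, (w i - w k) = 0 := Finset.prod_eq_zero (Finset.mem_univ i) (sub_self _)
  rw [Fin.prod_univ_four] at h
  simp only [fiveP, fiveH]
  linear_combination (t - w i) * h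

theorem five_vdm (v : Fin 4 → ℂ) (L : ℝ) (h : ∀ i j, ‖v i - v j‖ ≤ L) :
    ‖(Matrix.vandermonde v).det‖ ≤ L ^ 6 := by
  rw [Matrix.det_vandermonde, norm_prod]
  calc _ ≤ ∏ i : Fin 4, ∏ _j ∈ Finset.Ioi i, L := by
        refine Finset.prod_le_prod (fun _ _ => norm_nonneg _) fun i _ => ?_
        rw [norm_prod]
        exact Finset.prod_le_prod (fun _ _ => norm_nonneg _) fun j _ => h j i
    _ = L ^ 6 := by
        simp only [Finset.prod_const, Fin.card_Ioi, Fin.prod_univ_four]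
        simp
        ring

theorem five_one (v : Fin 4 → ℂ) (h : ∀ i, ‖v i‖ ≤ 1 / 20) : 1 / 10 ≤ ‖fiveP v 1 - fiveP v 0‖ := by
  have h2 : ∀ i j, ‖v i * v j‖ ≤ 1 / 400 := fun i j => by
    rw [norm_mul]
    exact (mul_le_mul (h i) (h j) (norm_nonneg _) (by norm_num)).trans (by norm_num)
  have h3 : ∀ i j k, ‖v i * v j * v k‖ ≤ 1 / 400 := fun i j k => by
    rw [norm_mul]
    exact (mul_le_mul (h2 i j) (h k) (norm_nonneg _) (by norm_num)).trans (by norm_num)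
  have h4 : ‖v 0 * v 1 * v 2 * v 3‖ ≤ 1 / 400 := by
    rw [norm_mul]
    exact (mul_le_mul (h3 _ _ _) (h _) (norm_nonneg _) (by norm_num)).trans (by norm_num)
  have e1 : ‖v 0 + v 1 + v 2 + v 3‖ ≤ 1 / 20 + 1 / 20 + 1 / 20 + 1 / 20 :=
    norm_add_le_of_le (norm_add_le_of_le (norm_add_le_of_le (h _) (h _)) (h _)) (h _)
  have e2 : ‖v 0 * v 1 + v 0 * v 2 + v 0 * v 3 + v 1 * v 2 + v 1 * v 3 + v 2 * v 3‖ ≤
      1 / 400 + 1 / 400 + 1 / 400 + 1 / 400 + 1 / 400 + 1 / 400 :=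
    norm_add_le_of_le (norm_add_le_of_le (norm_add_le_of_le (norm_add_le_of_le
      (norm_add_le_of_le (h2 _ _) (h2 _ _)) (h2 _ _)) (h2 _ _)) (h2 _ _)) (h2 _ _)
  have e3 : ‖v 0 * v 1 * v 2 + v 0 * v 1 * v 3 + v 0 * v 2 * v 3 + v 1 * v 2 * v 3‖ ≤
      1 / 400 + 1 / 400 + 1 / 400 + 1 / 400 :=
    norm_add_le_of_le (norm_add_le_of_le (norm_add_le_of_le (h3 _ _ _) (h3 _ _ _)) (h3 _ _ _))
      (h3 _ _ _)
  have e : (1 : ℂ) = 5 * (fiveP v 1 - fiveP v 0) + 5 / 4 * (v 0 + v 1 + v 2 + v 3) +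
      -5 / 3 * (v 0 * v 1 + v 0 * v 2 + v 0 * v 3 + v 1 * v 2 + v 1 * v 3 + v 2 * v 3) +
      5 / 2 * (v 0 * v 1 * v 2 + v 0 * v 1 * v 3 + v 0 * v 2 * v 3 + v 1 * v 2 * v 3) +
      -5 * (v 0 * v 1 * v 2 * v 3) := by
    simp only [fiveP]
    ring
  generalize fiveP v 1 - fiveP v 0 = y at e ⊢
  generalize v 0 * v 1 * v 2 * v 3 = y4 at e h4
  generalize v 0 * v 1 * v 2 + v 0 * v 1 * v 3 + v 0 * v 2 * v 3 + v 1 * v 2 * v 3 = y3 at e e3
  generalize v 0 * v 1 + v 0 * v 2 + v 0 * v 3 + v 1 * v 2 + v 1 * v 3 + v 2 * v 3 = y2 at e e2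
  generalize v 0 + v 1 + v 2 + v 3 = y1 at e e1
  have n := norm_add_le_of_le (norm_add_le_of_le (norm_add_le_of_le (norm_add_le_of_le
    (norm_mul_le 5 y) (norm_mul_le (5 / 4) y1)) (norm_mul_le (-5 / 3) y2))
    (norm_mul_le (5 / 2) y3)) (norm_mul_le (-5) y4)
  rw [← e] at n
  simp only [norm_one, norm_div, norm_neg, Complex.norm_ofNat] at n
  linarith

theorem five_far (w : Fin 4 → ℂ) (t : ℂ) (ρ : ℝ) (h : ∀ i, ‖w i - w 0‖ ≤ ρ)
    (ht : 20 * ρ ≤ ‖t - w 0‖) : ‖t - w 0‖ ^ 5 ≤ 10 * ‖fiveP w t - fiveP w (w 0)‖ := by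
  by_cases h0 : t - w 0 = 0
  · rw [h0]
    simp
  have hn : 0 < ‖t - w 0‖ := norm_pos_iff.2 h0
  have e := five_affine (fun i => (w i - w 0) / (t - w 0)) (t - w 0) (w 0) 1 0
  have hw : (fun i => (t - w 0) * ((w i - w 0) / (t - w 0)) + w 0) = w := by
    funext i
    field_simp
    ring
  rw [hw, mul_one, mul_zero, zero_add, sub_add_cancel] at e
  have h1 := five_one (fun i => (w i - w 0) / (t - w 0)) fun i => by
    rw [norm_div, div_le_iff₀ hn]
    linarith [h i]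
  rw [e, norm_mul, norm_pow]
  nlinarith [pow_pos hn 5]

theorem five_card (T : Finset ℤ) (t : ℤ → ℤ) (x R L : ℝ) (hL : 0 < L) (hR0 : 0 ≤ R)
    (hR : ∀ N ∈ T, |(t N : ℝ) - x| ≤ R)
    (h : ∀ f : Fin 4 → ℤ, Function.Injective f → (∀ r, f r ∈ T) →
      ¬ ∀ r r', |(t (f r) : ℝ) - t (f r')| ≤ L) : (T.card : ℝ) ≤ 3 * (2 * R / L + 1) := by
  have h1 : T.card ≤ 3 * (Finset.range (⌊2 * R / L⌋₊ + 1)).card := by
    refine Finset.card_le_mul_card_image_of_maps_to (f := fun N => ⌊(t N - x + R) / L⌋₊)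
      (fun N hN => ?_) 3 fun k _ => ?_
    · refine Finset.mem_range.2 (Nat.lt_succ_of_le (Nat.floor_mono ?_))
      have := (abs_le.1 (hR N hN)).2
      gcongr
      linarith
    · by_contra hc
      obtain ⟨f, hf⟩ := Function.Embedding.exists_of_card_le_finset (α := Fin 4)
        (s := T.filter fun N => ⌊(t N - x + R) / L⌋₊ = k) (by rw [Fintype.card_fin]; omega)
      have hf' : ∀ r, f r ∈ T ∧ ⌊(t (f r) - x + R) / L⌋₊ = k := fun r =>
        Finset.mem_filter.1 (hf ⟨r, rfl⟩)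
      refine h f f.injective (fun r => (hf' r).1) fun r r' => ?_
      have b : ∀ r, (k : ℝ) * L ≤ t (f r) - x + R ∧ t (f r) - x + R < (k + 1) * L := fun r => by
        have h0 : 0 ≤ (t (f r) - x + R) / L :=
          div_nonneg (by linarith [(abs_le.1 (hR _ (hf' r).1)).1]) hL.le
        have := (Nat.floor_eq_iff h0).1 (hf' r).2
        rwa [le_div_iff₀ hL, div_lt_iff₀ hL] at this
      rw [abs_le]
      constructor <;> nlinarith [b r, b r']
  rw [Finset.card_range] at h1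
  have h2 : (T.card : ℝ) ≤ 3 * (⌊2 * R / L⌋₊ + 1) := by exact_mod_cast h1
  have h3 := Nat.floor_le (a := 2 * R / L) (by positivity)
  linarith

theorem five_root {a y K : ℝ} (hK : 0 ≤ K) (h : y ^ 5 ≤ a * K ^ 5) :
    y ≤ max 1 a * K := by
  have h1 : 1 ≤ max 1 a := le_max_left _ _
  refine le_of_pow_le_pow_left₀ (n := 5) (by norm_num) (by positivity) (h.trans ?_)
  rw [mul_pow]
  refine mul_le_mul_of_nonneg_right ((le_max_right 1 a).trans ?_) (by positivity)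
  exact le_self_pow₀ h1 (by norm_num)

theorem five_core (θ : Fin 4 → ℂ) (hθ : Function.Injective θ) (C : ℝ) (hC : 1 ≤ C) :
    ∃ C' : ℝ, 0 ≤ C' ∧ ∀ (Y W : ℝ), 1 ≤ Y → 0 < W → ∀ (Q : ℂ[X]) (c0 m : ℂ) (w lam : Fin 4 → ℂ)
      (T : Finset ℤ) (t : ℤ → ℤ) (b : ℤ → Fin 4 → ℤ), c0 ≠ 0 → m ≠ 0 → ‖m‖ ≤ C → Set.InjOn t T →
      derivative Q = Polynomial.C c0 * ∏ i, (X - Polynomial.C (w i)) → (∀ i, Q.eval (w i) = θ i) →
      (∀ N ∈ T, ‖Q.eval (t N : ℂ)‖ ≤ C * Y ^ 15) →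
      (∀ N ∈ T, ∀ i, W ^ 3 ≤ C * ‖lam i * (t N - w i)‖) →
      (∀ N ∈ T, ∀ i, (lam i * (t N - w i)) ^ 2 * ∑ l, (b N l : ℂ) * θ i ^ (l : ℕ) =
        m * (Q.eval (t N : ℂ) - θ i)) → (T.card : ℝ) ≤ C' * (1 + Y ^ 7 / W ^ 4) := by
  obtain ⟨κ, hκ, hcrit⟩ := crit_close
  set Θ : ℝ := ‖θ‖ with hΘ
  have hΘ0 : 0 ≤ Θ := norm_nonneg _
  have hθi : ∀ i, ‖θ i‖ ≤ Θ := norm_le_pi_norm θ
  obtain ⟨V0, hV0⟩ : ∃ V0, V0 = ‖(Matrix.vandermonde θ).det‖ := ⟨_, rfl⟩
  have hV : 0 < V0 := hV0 ▸ norm_pos_iff.2 (Matrix.det_vandermonde_ne_zero_iff.2 hθ)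
  obtain ⟨C1, hC1⟩ : ∃ C1, C1 = max 1 (2 * Θ / κ) := ⟨_, rfl⟩
  obtain ⟨C2, hC2⟩ : ∃ C2, C2 = max 1 (10 * (C + Θ)) := ⟨_, rfl⟩
  have h1 : 1 ≤ C1 := hC1 ▸ le_max_left _ _
  have h2 : 1 ≤ C2 := hC2 ▸ le_max_left _ _
  obtain ⟨C3, hC3⟩ : ∃ C3, C3 = 21 * C1 + C2 := ⟨_, rfl⟩
  have h3 : 0 < C3 := by linarith
  have hC0 : 0 < C := by linarith
  have h10 : 0 < C1 := by linarith
  obtain ⟨C4, hC4⟩ : ∃ C4, C4 = (C * C3) ^ 8 * C ^ 4 * C1 ^ 6 := ⟨_, rfl⟩
  have h4 : 0 < C4 := by rw [hC4]; positivity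
  obtain ⟨c5, hc5⟩ : ∃ c5, c5 = min 1 (V0 / (2 * C4)) := ⟨_, rfl⟩
  have h5 : 0 < c5 := hc5 ▸ lt_min one_pos (by positivity)
  have h5' : C4 * c5 ^ 6 < V0 := by
    have e1 : c5 ^ 6 ≤ c5 := pow_le_of_le_one h5.le (hc5 ▸ min_le_left _ _) (by norm_num)
    have e2 : c5 ≤ V0 / (2 * C4) := hc5 ▸ min_le_right _ _
    rw [le_div_iff₀ (by positivity)] at e2
    nlinarith
  refine ⟨3 + 6 * C3 / c5, by positivity,
    fun Y W hY hW Q c0 m w lam T t b hc0 hm hmC hinj hQ hw hN hα hrel => ?_⟩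
  have hY0 : 0 < Y := by linarith
  have ha : 0 < ‖c0‖ := norm_pos_iff.2 hc0
  obtain ⟨s, hs, hs5⟩ : ∃ s : ℝ, 0 < s ∧ s ^ 5 = ‖c0‖ :=
    ⟨‖c0‖ ^ ((5 : ℕ) : ℝ)⁻¹, Real.rpow_pos_of_pos ha _, Real.rpow_inv_natCast_pow ha.le (by norm_num)⟩
  have hww : ∀ i j, ‖w i - w j‖ ≤ C1 / s := fun i j => by
    have e := hcrit Q c0 w (2 * Θ) hQ (fun i j => by
      rw [hw, hw, two_mul]
      exact (norm_sub_le _ _).trans (add_le_add (hθi i) (hθi j))) i j
    have e2 : (‖w i - w j‖ * s) ^ 5 ≤ 2 * Θ / κ * 1 ^ 5 := by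
      rw [mul_pow, hs5, one_pow, mul_one, le_div_iff₀ hκ]
      linarith
    have e3 := five_root zero_le_one e2
    rwa [mul_one, ← hC1, ← le_div_iff₀ hs] at e3
  have hwinj : Function.Injective w := fun i j e => hθ (by rw [← hw, ← hw, e])
  have hY3 : 1 ≤ Y ^ 3 := one_le_pow₀ hY
  have ht0 : ∀ N ∈ T, ‖(t N : ℂ) - w 0‖ ≤ (20 * C1 + C2) * Y ^ 3 / s := fun N hNT => by
    rw [le_div_iff₀ hs]
    rcases le_total (20 * (C1 / s)) ‖(t N : ℂ) - w 0‖ with h | h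
    · have e := five_far w (t N) _ (fun i => hww i 0) h
      have e1 := five_diff hQ (t N) (w 0)
      have e2 : ‖c0‖ * ‖fiveP w (t N) - fiveP w (w 0)‖ ≤ C * Y ^ 15 + Θ := by
        rw [← norm_mul, ← e1, hw]
        exact (norm_sub_le _ _).trans (add_le_add (hN N hNT) (hθi 0))
      have e3 : (‖(t N : ℂ) - w 0‖ * s) ^ 5 ≤ 10 * (C + Θ) * (Y ^ 3) ^ 5 := by
        have : Θ ≤ Θ * Y ^ 15 := le_mul_of_one_le_right hΘ0 (one_le_pow₀ hY)
        have e5 := mul_le_mul_of_nonneg_right e ha.le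
        rw [mul_pow, hs5, ← pow_mul, show 3 * 5 = 15 from rfl]
        linarith
      have e4 := five_root (by positivity) e3
      rw [← hC2] at e4
      nlinarith
    · have e : ‖(t N : ℂ) - w 0‖ * s ≤ 20 * C1 := by
        rw [← le_div_iff₀ hs, mul_div_assoc]
        exact h
      nlinarith
  have hti : ∀ N ∈ T, ∀ i, ‖(t N : ℂ) - w i‖ ≤ C3 * Y ^ 3 / s := fun N hNT i => by
    have e : (t N : ℂ) - w i = (t N - w 0) + (w 0 - w i) := by ring
    rw [e]
    refine (norm_add_le_of_le (ht0 N hNT) (hww 0 i)).trans ?_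
    rw [← add_div, hC3]
    gcongr
    nlinarith
  have hcard := five_card T t (w 0).re (C3 * Y ^ 3 / s) (c5 * W ^ 4 / (Y ^ 4 * s)) (by positivity)
    (by positivity) (fun N hNT => by
      have e := Complex.abs_re_le_norm ((t N : ℂ) - w 0)
      rw [Complex.sub_re, Complex.intCast_re] at e
      exact e.trans (hti N hNT 0)) ?_
  · refine hcard.trans ?_
    have e : 3 * (2 * (C3 * Y ^ 3 / s) / (c5 * W ^ 4 / (Y ^ 4 * s)) + 1) =
        3 + 6 * C3 / c5 * (Y ^ 7 / W ^ 4) := by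
      field_simp
      ring
    have e1 : 0 ≤ Y ^ 7 / W ^ 4 := by positivity
    have e2 : 0 ≤ 6 * C3 / c5 := by positivity
    rw [e]
    nlinarith
  intro f hf hfT hL
  have hne : ∀ r i, (t (f r) : ℂ) - w i ≠ 0 := fun r i h0 => by
    have := hα _ (hfT r) i
    rw [h0, mul_zero, norm_zero, mul_zero] at this
    exact absurd this (not_le.2 (by positivity))
  have hdet := five_det _ _ _ (1 / 5) (m * c0) w θ lam (fun r => (t (f r) : ℂ))
    (Matrix.of fun r l => (b (f r) l : ℂ)) fun r i => by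
      have e := hrel _ (hfT r) i
      rw [← hw i, five_diff hQ, five_taylor, hw i] at e
      refine mul_left_cancel₀ (pow_ne_zero 2 (hne r i)) ?_
      simp only [Matrix.of_apply]
      linear_combination e
  have htinj : Function.Injective fun r => (t (f r) : ℂ) := fun r r' e =>
    hf (hinj (hfT r) (hfT r') (Int.cast_injective (α := ℂ) e))
  have hint : (Matrix.of fun r l => (b (f r) l : ℂ)).det =
      ((Matrix.of fun r l => b (f r) l).det : ℤ) := by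
    rw [Int.cast_det]
    rfl
  have hd0 : (Matrix.of fun r l => b (f r) l).det ≠ 0 := fun h0 => by
    rw [hint, h0, Int.cast_zero, zero_mul, zero_mul] at hdet
    exact mul_ne_zero (pow_ne_zero 4 (mul_ne_zero hm hc0)) (mul_ne_zero (mul_ne_zero
      (Matrix.det_vandermonde_ne_zero_iff.2 htinj) (by norm_num))
      (Matrix.det_vandermonde_ne_zero_iff.2 hwinj)) hdet.symm
  have hd1 : 1 ≤ ‖(Matrix.of fun r l => (b (f r) l : ℂ)).det‖ := by
    rw [hint, Complex.norm_intCast]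
    exact_mod_cast Int.one_le_abs hd0
  have hn := congrArg norm hdet
  simp only [norm_mul, norm_pow, norm_prod, ← hV0, ← hs5] at hn
  have v1 := five_vdm (fun r => (t (f r) : ℂ)) _ fun r r' => by
    have := hL r r'
    rwa [← Int.cast_sub, ← Complex.norm_intCast, Int.cast_sub] at this
  have v2 := five_vdm w _ hww
  have v3 : ‖(24 : ℂ)‖ * ‖(1 / 5 : ℂ)‖ ^ 4 ≤ 1 := by
    simp
    norm_num
  have hl : ∀ i, (W ^ 3 * s / (C * C3 * Y ^ 3)) ^ 2 ≤ ‖lam i‖ ^ 2 := fun i => by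
    refine pow_le_pow_left₀ (by positivity) ?_ 2
    have e := hα _ (hfT 0) i
    have e1 := hti _ (hfT 0) i
    rw [le_div_iff₀ hs] at e1
    rw [norm_mul] at e
    rw [div_le_iff₀ (by positivity)]
    calc _ ≤ C * (‖lam i‖ * ‖(t (f 0) : ℂ) - w i‖) * s := mul_le_mul_of_nonneg_right e hs.le
      _ = C * ‖lam i‖ * (‖(t (f 0) : ℂ) - w i‖ * s) := by ring
      _ ≤ C * ‖lam i‖ * (C3 * Y ^ 3) := mul_le_mul_of_nonneg_left e1 (by positivity)
      _ = _ := by ring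
  have hl2 : ((W ^ 3 * s / (C * C3 * Y ^ 3)) ^ 2) ^ 4 ≤ ∏ i, ‖lam i‖ ^ 2 := by
    have := Finset.prod_le_prod (s := Finset.univ) (fun i _ => by positivity) fun i _ => hl i
    rwa [Finset.prod_const, Finset.card_univ, Fintype.card_fin] at this
  have key : 1 * V0 * ((W ^ 3 * s / (C * C3 * Y ^ 3)) ^ 2) ^ 4 ≤
      (C * s ^ 5) ^ 4 * ((c5 * W ^ 4 / (Y ^ 4 * s)) ^ 6 * 1 * (C1 / s) ^ 6) := by
    refine le_trans ?_ (hn.le.trans ?_)
    · gcongr
    · gcongr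
  have e1 : 1 * V0 * ((W ^ 3 * s / (C * C3 * Y ^ 3)) ^ 2) ^ 4 =
      V0 * (W ^ 24 * s ^ 8 / ((C * C3) ^ 8 * Y ^ 24)) := by
    field_simp
  have e2 : (C * s ^ 5) ^ 4 * ((c5 * W ^ 4 / (Y ^ 4 * s)) ^ 6 * 1 * (C1 / s) ^ 6) =
      C4 * c5 ^ 6 * (W ^ 24 * s ^ 8 / ((C * C3) ^ 8 * Y ^ 24)) := by
    rw [hC4]
    field_simp
  rw [e1, e2] at key
  exact absurd (le_of_mul_le_mul_right key (by positivity)) (not_le.2 h5')

/-- polynomial families with `α` linear and `N` quintic have few points -/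
theorem five_count (c : Ctx F) (C : ℝ) : ∃ C' X0 : ℝ, ∀ X : ℝ, X0 ≤ X → ∀ (M D : ℕ) (B P : ℝ)
    (T : Finset ℤ) (p : ℤ → ℕ) (a b : ℤ → Fin 4 → ℤ) (t : ℤ → ℤ) (qN : ℚ[X])
    (qa qb : Fin 4 → ℚ[X]), AllPt c C X M T p a b → Cfg c M D B T a b t qN qa qb →
    (∀ i, (c.cjP qa i).natDegree = 1) → qN.natDegree = 5 → 0 < P → (∀ N ∈ T, P ≤ p N) →
    (T.card : ℝ) ≤ C' * (1 + X ^ (7 / 15 : ℝ) / P ^ (1 / 3 : ℝ)) := by
  obtain ⟨φ⟩ : Nonempty (F →+* ℂ) := inferInstance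
  set θ : Fin 4 → ℂ := fun i => φ ((c.ϑ i : 𝓞 F) : F) with hθ
  have hθi : Function.Injective θ := φ.injective.comp (cfg_theta_inj c)
  obtain ⟨C', hC', hcore⟩ := five_core θ hθi (max 1 C) (le_max_left _ _)
  refine ⟨C', 1, fun X hX M D B P T p a b t qN qa qb hP hcfg hA hN hP0 hPp => ?_⟩
  have hX0 : 0 < X := by linarith
  rcases T.eq_empty_or_nonempty with rfl | ⟨N0, hN0⟩
  · rw [Finset.card_empty, Nat.cast_zero]
    positivity
  have hM : (M : ℂ) ≠ 0 := Nat.cast_ne_zero.2 (hP N0 hN0).hM0.ne'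
  set Q : ℂ[X] := (qN.map (algebraMap ℚ F)).map φ with hQ
  set A : Fin 4 → ℂ[X] := fun i => (c.cjP qa i).map φ with hAdef
  have hrel : ∀ i, A i ^ 2 * (c.cjP qb i).map φ = Polynomial.C (M : ℂ) * (Q - Polynomial.C (θ i)) :=
    fun i => by
      have := congrArg (Polynomial.map φ) (hcfg.rel i)
      rwa [Polynomial.map_mul, Polynomial.map_pow, Polynomial.map_mul, Polynomial.map_sub, map_C,
        map_C, map_natCast] at this
  have hA1 : ∀ i, (A i).natDegree = 1 := fun i => by rw [hAdef, natDegree_map, hA]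
  have hex : ∀ i, ∃ lam w : ℂ, A i = Polynomial.C lam * (Polynomial.X - Polynomial.C w) :=
    fun i => by
      obtain ⟨u, hu, v, huv⟩ := natDegree_eq_one.1 (hA1 i)
      refine ⟨u, -v / u, ?_⟩
      rw [← huv, mul_sub, ← C_mul, mul_div_cancel₀ _ hu, C_neg, sub_neg_eq_add]
  choose lam w hlw using hex
  have hQ5 : Q.natDegree = 5 := by rw [hQ, natDegree_map, natDegree_map, hN]
  have hQ' : derivative Q ≠ 0 := fun h0 => by
    have := derivative_eq_zero.1 h0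
    omega
  have hdvd : ∏ i, (Polynomial.X - Polynomial.C (w i)) ∣ derivative Q :=
    (Finset.prod_dvd_prod_of_dvd _ _ fun i _ => by rw [hlw]; exact dvd_mul_left _ _).trans
      (cfg_prod_dvd hM hθi hrel)
  have hder := eq_leadingCoeff_mul_of_monic_of_dvd_of_natDegree_le
    (monic_prod_of_monic _ _ fun i _ => monic_X_sub_C (w i)) hdvd (by
      rw [natDegree_derivative, hQ5, natDegree_prod_of_monic _ _ fun i _ => monic_X_sub_C (w i)]
      simp)
  have hev : ∀ (q : F[X]) (n : ℤ), (q.map φ).eval (n : ℂ) = φ (q.eval (n : F)) := fun q n => by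
    rw [← map_intCast φ n, eval_map_apply]
  have hQt : ∀ N ∈ T, Q.eval (t N : ℂ) = N := fun N hNT => by
    rw [hQ, hev, ← map_intCast (algebraMap ℚ F) (t N), eval_map_apply, hcfg.eN N hNT, map_intCast,
      map_intCast]
  have hAt : ∀ N ∈ T, ∀ i, lam i * (t N - w i) = φ ((c.cj (a N) i : 𝓞 F) : F) := fun N hNT i => by
    rw [← cfg_eval_cjP c qa (a N) (t N) (hcfg.ea N hNT), ← hev]
    change _ = (A i).eval _
    rw [hlw]
    simp
  have eY : ∀ n : ℕ, (X ^ (1 / 15 : ℝ)) ^ n = X ^ ((n : ℝ) / 15) := fun n => by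
    rw [← Real.rpow_natCast, ← Real.rpow_mul hX0.le]
    ring_nf
  have eW : ∀ n : ℕ, (P ^ (1 / 12 : ℝ)) ^ n = P ^ ((n : ℝ) / 12) := fun n => by
    rw [← Real.rpow_natCast, ← Real.rpow_mul hP0.le]
    ring_nf
  have hfin := hcore (X ^ (1 / 15 : ℝ)) (P ^ (1 / 12 : ℝ)) (Real.one_le_rpow hX (by norm_num))
    (Real.rpow_pos_of_pos hP0 _) Q _ M w lam T t b (leadingCoeff_ne_zero.2 hQ') hM
    (by rw [Complex.norm_natCast]; exact (hP N0 hN0).hMC.trans (le_max_right _ _)) hcfg.inj hder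
    (fun i => ?_) (fun N hNT => ?_) (fun N hNT i => ?_) fun N hNT i => ?_
  · rw [eY, eW] at hfin
    norm_num at hfin ⊢
    exact hfin
  · have := congrArg (eval (w i)) (hrel i)
    rw [hlw] at this
    simp only [eval_mul, eval_pow, eval_sub, eval_C, eval_X, sub_self, mul_zero] at this
    rw [zero_pow two_ne_zero, zero_mul] at this
    exact sub_eq_zero.1 ((mul_eq_zero.1 this.symm).resolve_left hM)
  · rw [hQt N hNT, Complex.norm_intCast, eY]
    norm_num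
    exact (hP N hNT).hN2.trans (mul_le_mul_of_nonneg_right (le_max_right _ _) hX0.le)
  · rw [hAt N hNT, eW]
    have e1 := (hP N hNT).hα φ i
    have e2 : P ^ (1 / 4 : ℝ) ≤ (p N : ℝ) ^ (1 / 4 : ℝ) :=
      Real.rpow_le_rpow hP0.le (hPp N hNT) (by norm_num)
    rw [emb_apply] at e1
    rw [show ((3 : ℕ) : ℝ) / 12 = 1 / 4 by norm_num]
    exact e2.trans (e1.trans (mul_le_mul_of_nonneg_right (le_max_right _ _) (norm_nonneg _)))
  · have e := congrArg φ (cfg_hab c (hP N hNT) i)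
    rw [hAt N hNT, hQt N hNT]
    rw [cfg_cj_coe c (b N)] at e
    simpa [hθ] using e

end Vale.Agent.P018
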