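import Vale.Agent.P018.Q.Defs

namespace Vale.Agent.P018

open Polynomial

theorem ik_aux {κ ι : Type} [Fintype κ] (Z : Finset ι) (r : ι → κ → ℤ) (k : ℕ) :
    ∀ (A : ℝ) (S : Finset (κ → ℤ)), 2 ≤ A → S.card ≤ k → (∀ j ∈ Z, ∀ l, |(r j l : ℝ)| ≤ A) →
    (∀ x ∈ S, ∀ l, |(x l : ℝ)| ≤ A) → ∃ S' : Finset (κ → ℤ),
      (∀ x ∈ S', (∀ l, |(x l : ℝ)| ≤ A ^ ((Fintype.card κ + 4) ^ k)) ∧
        ∀ j ∈ Z, ∑ l, r j l * x l = 0) ∧
      ∀ (K : Type) [Field K] [CharZero K] (x : κ → K),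
        (∀ j ∈ Z, ∑ l, (r j l : K) * x l = 0) →
        x ∈ Submodule.span K ((fun (y : κ → ℤ) (l : κ) => (y l : K)) '' (S : Set (κ → ℤ))) →
        x ∈ Submodule.span K ((fun (y : κ → ℤ) (l : κ) => (y l : K)) '' (S' : Set (κ → ℤ))) := by
  classical
  induction k with
  | zero =>
    intro A S _ hS _ _
    obtain rfl := Finset.card_eq_zero.1 (Nat.le_zero.1 hS)
    exact ⟨∅, by simp, fun _ _ _ _ _ h => h⟩
  | succ k ih =>
    intro A S hA hS hr hx
    have hA1 : 1 ≤ A := by linarith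
    by_cases h : ∀ x ∈ S, ∀ j ∈ Z, ∑ l, r j l * x l = 0
    · exact ⟨S, fun x hxS => ⟨fun l => (hx x hxS l).trans (le_self_pow₀ hA1 (by positivity)),
        h x hxS⟩, fun _ _ _ _ _ h => h⟩
    push Not at h
    obtain ⟨s, hs, j, hj, hd⟩ := h
    have hdot : ∀ x ∈ S, |((∑ l, r j l * x l : ℤ) : ℝ)| ≤ Fintype.card κ * (A * A) := fun x hxS => by
      push_cast
      refine (Finset.abs_sum_le_sum_abs _ _).trans
        ((Finset.sum_le_card_nsmul _ _ (A * A) fun l _ => ?_).trans (by simp))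
      rw [abs_mul]
      exact mul_le_mul (hr j hj l) (hx x hxS l) (abs_nonneg _) (by linarith)
    have hpow : A ≤ A ^ (Fintype.card κ + 4) := le_self_pow₀ hA1 (by omega)
    obtain ⟨S', h1, h2⟩ := ih (A ^ (Fintype.card κ + 4)) ((S.erase s).image fun x l =>
      (∑ l, r j l * s l) * x l - (∑ l, r j l * x l) * s l) (hA.trans hpow)
      (Finset.card_image_le.trans (by rw [Finset.card_erase_of_mem hs]; omega))
      (fun j hj l => (hr j hj l).trans hpow) (fun y hy l => by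
        obtain ⟨x, hxS, rfl⟩ := Finset.mem_image.1 hy
        have hxS := Finset.mem_of_mem_erase hxS
        have h3 : (Fintype.card κ : ℝ) ≤ A ^ Fintype.card κ :=
          le_trans (by exact_mod_cast Nat.lt_two_pow_self.le) (pow_le_pow_left₀ zero_le_two hA _)
        rw [Int.cast_sub, Int.cast_mul, Int.cast_mul]
        refine (abs_sub _ _).trans ?_
        rw [abs_mul, abs_mul]
        calc _ ≤ Fintype.card κ * (A * A) * A + Fintype.card κ * (A * A) * A :=
              add_le_add (mul_le_mul (hdot s hs) (hx x hxS l) (abs_nonneg _) (by positivity))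
                (mul_le_mul (hdot x hxS) (hx s hs l) (abs_nonneg _) (by positivity))
          _ = Fintype.card κ * 2 * A ^ 3 := by ring
          _ ≤ A ^ Fintype.card κ * A * A ^ 3 := by gcongr
          _ = _ := by ring)
    refine ⟨S', fun x hx => ⟨fun l => ((h1 x hx).1 l).trans (le_of_eq (by
      rw [← pow_mul, ← pow_succ'])), (h1 x hx).2⟩, fun K _ _ x hx0 hxS => h2 K x hx0 ?_⟩
    have hdK : ((∑ l, r j l * s l : ℤ) : K) ≠ 0 := Int.cast_ne_zero.2 hd
    rw [← Submodule.smul_mem_iff _ hdK]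
    have e : ((∑ l, r j l * s l : ℤ) : K) • x = ((∑ l, r j l * s l : ℤ) : K) • x -
        (∑ l, (r j l : K) * x l) • fun l => (s l : K) := by rw [hx0 j hj, zero_smul, sub_zero]
    rw [e]
    clear e hx0
    induction hxS using Submodule.span_induction with
    | mem y hy =>
      obtain ⟨y, hy, rfl⟩ := hy
      by_cases hys : y = s
      · subst hys
        push_cast
        rw [sub_self]
        exact Submodule.zero_mem _
      · refine Submodule.subset_span ⟨_, Finset.mem_coe.2 (Finset.mem_image_of_mem _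
          (Finset.mem_erase.2 ⟨hys, hy⟩)), ?_⟩
        ext l
        simp
    | zero => simp
    | add y z _ _ hy hz =>
      refine (congrArg (· ∈ _) ?_).mp (Submodule.add_mem _ hy hz)
      simp only [Pi.add_apply, mul_add, Finset.sum_add_distrib]
      module
    | smul a y _ hy =>
      refine (congrArg (· ∈ _) ?_).mp (Submodule.smul_mem _ a hy)
      simp only [Pi.smul_apply, smul_eq_mul, mul_left_comm _ a, ← Finset.mul_sum]
      module

/-- The kernel of an integer matrix (any number of rows) is spanned by small integer vectors. -/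
theorem int_kernel (κ : Type) [Fintype κ] : ∃ c : ℕ, ∀ (ι : Type) (Z : Finset ι) (r : ι → κ → ℤ)
    (H : ℝ), 1 ≤ H → (∀ j ∈ Z, ∀ l, |(r j l : ℝ)| ≤ H) → ∃ S : Finset (κ → ℤ),
      (∀ x ∈ S, (∀ l, |(x l : ℝ)| ≤ c * H ^ c) ∧ ∀ j ∈ Z, ∑ l, r j l * x l = 0) ∧
      ∀ (K : Type) [Field K] [CharZero K] (x : κ → K),
        (∀ j ∈ Z, ∑ l, (r j l : K) * x l = 0) →
        x ∈ Submodule.span K ((fun (y : κ → ℤ) (l : κ) => (y l : K)) '' (S : Set (κ → ℤ))) := by
  classical
  refine ⟨2 ^ ((Fintype.card κ + 4) ^ Fintype.card κ), fun ι Z r H hH hr => ?_⟩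
  obtain ⟨S, h1, h2⟩ := ik_aux Z r (Fintype.card κ) (2 * H)
    (Finset.univ.image fun l => Pi.single l 1) (by linarith) Finset.card_image_le
    (fun j hj l => (hr j hj l).trans (by linarith)) (fun x hx l => by
      obtain ⟨i, _, rfl⟩ := Finset.mem_image.1 hx
      rw [Pi.single_apply]
      split_ifs <;> simp <;> linarith)
  refine ⟨S, fun x hx => ⟨fun l => ((h1 x hx).1 l).trans ?_, (h1 x hx).2⟩,
    fun K _ _ x hx => h2 K x hx ?_⟩
  · rw [mul_pow]
    push_cast
    exact mul_le_mul_of_nonneg_left (pow_le_pow_right₀ hH Nat.lt_two_pow_self.le) (by positivity)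
  · rw [pi_eq_sum_univ' x]
    refine Submodule.sum_mem _ fun i _ => Submodule.smul_mem _ _ (Submodule.subset_span
      ⟨_, Finset.mem_coe.2 (Finset.mem_image_of_mem _ (Finset.mem_univ i)), ?_⟩)
    ext l
    simp [Pi.single_apply]

theorem ik_eval {K : Type} [Field K] (D : ℕ) (G : K[X][X]) (h1 : G.natDegree ≤ D)
    (h2 : ∀ j, (G.coeff j).natDegree ≤ D) (u v N : K) (hv : v ≠ 0) :
    ∑ p : Fin (D + 1) × Fin (D + 1), u ^ (p.2 : ℕ) * v ^ (D - p.2) * N ^ (p.1 : ℕ) *
      (G.coeff p.1).coeff p.2 = v ^ D * G.evalEval (u / v) N := by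
  rw [evalEval, eval_eq_sum_range' (Nat.lt_succ_of_le h1), eval_finsetSum, Finset.mul_sum,
    Fintype.sum_prod_type, ← Fin.sum_univ_eq_sum_range (fun j => v ^ D *
      eval (u / v) (G.coeff j * C N ^ j))]
  refine Finset.sum_congr rfl fun j _ => ?_
  rw [eval_mul, eval_pow, eval_C, eval_eq_sum_range' (Nat.lt_succ_of_le (h2 j)), Finset.sum_mul,
    Finset.mul_sum, ← Fin.sum_univ_eq_sum_range (fun i => v ^ D *
      ((G.coeff j).coeff i * (u / v) ^ i * N ^ (j : ℕ)))]
  refine Finset.sum_congr rfl fun i _ => ?_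
  rw [pow_sub₀ _ hv (Nat.lt_succ_iff.1 i.2), div_pow]
  field_simp

/-- A curve through rational points can be replaced by an integral one of small height. -/
theorem int_curve (D : ℕ) : ∃ c : ℕ, ∀ (K : Type) [Field K] [CharZero K] (G : K[X][X])
    (Z : Finset ℤ) (u v : ℤ → ℤ) (H : ℝ), 1 ≤ H →
    (∀ N ∈ Z, v N ≠ 0 ∧ |(u N : ℝ)| ≤ H ∧ |(v N : ℝ)| ≤ H ∧ |(N : ℝ)| ≤ H) → Curve K D G Z u v →
    ∃ G' : ℤ[X][X], (∀ i j, |((G'.coeff j).coeff i : ℝ)| ≤ c * H ^ c) ∧
      Curve ℚ D (G'.map (mapRingHom (Int.castRingHom ℚ))) Z u v := by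
  obtain ⟨c, hc⟩ := int_kernel (Fin (D + 1) × Fin (D + 1))
  refine ⟨c + 2 * D * c, fun K _ _ G Z u v H hH hZ hG => ?_⟩
  obtain ⟨S, h1, h2⟩ := hc ℤ Z (fun N p => u N ^ (p.2 : ℕ) * v N ^ (D - p.2) * N ^ (p.1 : ℕ))
    (H ^ (2 * D)) (one_le_pow₀ hH) fun N hN p => by
      obtain ⟨_, a1, a2, a3⟩ := hZ N hN
      push_cast
      rw [abs_mul, abs_mul, abs_pow, abs_pow, abs_pow]
      calc _ ≤ H ^ (p.2 : ℕ) * H ^ (D - p.2) * H ^ (p.1 : ℕ) := by gcongr
        _ ≤ _ := by
          rw [← pow_add, ← pow_add]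
          exact pow_le_pow_right₀ hH (by omega)
  have h3 := h2 K (fun p => (G.coeff p.1).coeff p.2) fun N hN => by
    push_cast
    rw [ik_eval D G hG.2.1 hG.2.2.1 _ _ _ (Int.cast_ne_zero.2 (hZ N hN).1), hG.2.2.2 N hN,
      mul_zero]
  obtain ⟨y, hy, hy0⟩ : ∃ y ∈ S, y ≠ 0 := by
    by_contra h
    push Not at h
    rw [Submodule.span_eq_bot.2 (by
      rintro _ ⟨y, hy, rfl⟩
      rw [h y hy]
      ext
      simp), Submodule.mem_bot] at h3
    refine hG.1 (Polynomial.ext fun j => Polynomial.ext fun i => ?_)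
    by_cases hj : j ≤ D
    · by_cases hi : i ≤ D
      · exact congrFun h3 (⟨j, by omega⟩, ⟨i, by omega⟩)
      · exact coeff_eq_zero_of_natDegree_lt ((hG.2.2.1 j).trans_lt (not_le.1 hi))
    · rw [coeff_eq_zero_of_natDegree_lt (hG.2.1.trans_lt (not_le.1 hj)), coeff_zero,
        coeff_zero, coeff_zero]
  obtain ⟨G', g1, g2, g3⟩ : ∃ G' : ℤ[X][X], G'.natDegree ≤ D ∧ (∀ j, (G'.coeff j).natDegree ≤ D) ∧
      ∀ p : Fin (D + 1) × Fin (D + 1), (G'.coeff p.1).coeff p.2 = y p := by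
    have hd : ∀ {R : Type} [Semiring R] (f : Fin (D + 1) → R),
        (∑ i : Fin (D + 1), monomial i (f i)).natDegree ≤ D ∧
        ∀ j : Fin (D + 1), (∑ i : Fin (D + 1), monomial i (f i)).coeff j = f j := fun f =>
      ⟨natDegree_sum_le_of_forall_le _ _ fun i _ =>
        (natDegree_monomial_le _).trans (Nat.lt_succ_iff.1 i.2), fun j => by
          simp [coeff_monomial, Fin.val_inj]⟩
    refine ⟨∑ j : Fin (D + 1), monomial j (∑ i : Fin (D + 1), monomial i (y (j, i))), (hd _).1,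
      fun j => ?_, fun p => by rw [(hd _).2, (hd _).2]⟩
    by_cases hj : j ≤ D
    · rw [(hd _).2 ⟨j, by omega⟩]
      exact (hd _).1
    · rw [coeff_eq_zero_of_natDegree_lt ((hd _).1.trans_lt (not_le.1 hj))]
      simp
  have g4 : (G'.map (mapRingHom (Int.castRingHom ℚ))).natDegree ≤ D := natDegree_map_le.trans g1
  have g5 : ∀ j, ((G'.map (mapRingHom (Int.castRingHom ℚ))).coeff j).natDegree ≤ D := fun j => by
    rw [coeff_map]
    exact natDegree_map_le.trans (g2 j)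
  have g6 : ∀ p : Fin (D + 1) × Fin (D + 1),
      ((G'.map (mapRingHom (Int.castRingHom ℚ))).coeff p.1).coeff p.2 = y p := fun p => by
    rw [coeff_map, coe_mapRingHom, coeff_map, g3, eq_intCast]
  refine ⟨G', fun i j => ?_, fun h => hy0 (funext fun p => ?_), g4, g5, fun N hN => ?_⟩
  · by_cases hj : j ≤ D
    · by_cases hi : i ≤ D
      · rw [g3 (⟨j, by omega⟩, ⟨i, by omega⟩)]
        refine ((h1 y hy).1 _).trans ?_
        rw [← pow_mul]
        gcongr <;> omega
      · rw [coeff_eq_zero_of_natDegree_lt ((g2 j).trans_lt (not_le.1 hi)), Int.cast_zero, abs_zero]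
        positivity
    · rw [coeff_eq_zero_of_natDegree_lt (g1.trans_lt (not_le.1 hj)), coeff_zero, Int.cast_zero,
        abs_zero]
      positivity
  · have := g6 p
    rw [h, coeff_zero, coeff_zero] at this
    exact Int.cast_eq_zero.1 this.symm
  · have hv : (v N : ℚ) ≠ 0 := Int.cast_ne_zero.2 (hZ N hN).1
    have h4 := ik_eval D _ g4 g5 (u N) (v N) N hv
    simp only [g6] at h4
    refine (mul_eq_zero.1 (h4.symm.trans ?_)).resolve_left (pow_ne_zero _ hv)
    exact_mod_cast (h1 y hy).2 N hN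

end Vale.Agent.P018
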