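import Vale.Agent.P018.Q.CurveI
import Vale.Agent.P018.Q.BoxI

namespace Vale.Agent.P018

open NumberField Polynomial Filter

variable {F : Type} [Field F] [NumberField F]

/-- cutting `[-1, 1]` into short intervals -/
theorem li_boxes (Z : Finset ℤ) (σ : ℤ → ℝ) (hσ : ∀ N ∈ Z, |σ N| ≤ 1) (Y : ℝ) (hY : 1 ≤ Y) :
    ∃ 𝒯 : Finset (Finset ℤ), (𝒯.card : ℝ) ≤ 4 * Y ∧ (∀ N ∈ Z, ∃ T ∈ 𝒯, N ∈ T) ∧
      ∀ T ∈ 𝒯, T ⊆ Z ∧ ∀ N ∈ T, ∀ N' ∈ T, |σ N - σ N'| ≤ Y⁻¹ := by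
  classical
  have hY0 : 0 < Y := by linarith
  refine ⟨(Finset.Icc ⌊-Y⌋ ⌊Y⌋).image fun k => Z.filter fun N => ⌊σ N * Y⌋ = k, ?_, ?_, ?_⟩
  · refine le_trans (Nat.cast_le.mpr Finset.card_image_le) ?_
    rw [Int.card_Icc]
    have h1 : ((⌊Y⌋ + 1 - ⌊-Y⌋).toNat : ℤ) = ⌊Y⌋ + 1 - ⌊-Y⌋ := by
      refine Int.toNat_of_nonneg ?_
      have : ⌊-Y⌋ ≤ ⌊Y⌋ := Int.floor_le_floor (by linarith)
      omega
    have h2 : (((⌊Y⌋ + 1 - ⌊-Y⌋).toNat : ℕ) : ℝ) = (⌊Y⌋ : ℝ) + 1 - ⌊-Y⌋ := by exact_mod_cast h1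
    rw [h2]
    linarith [Int.floor_le Y, Int.lt_floor_add_one (-Y)]
  · intro N hN
    have h := abs_le.mp (hσ N hN)
    refine ⟨_, Finset.mem_image_of_mem _ (Finset.mem_Icc.mpr ⟨?_, ?_⟩),
      Finset.mem_filter.mpr ⟨hN, rfl⟩⟩
    · exact Int.floor_le_floor (by nlinarith)
    · exact Int.floor_le_floor (by nlinarith)
  · intro T hT
    obtain ⟨k, -, rfl⟩ := Finset.mem_image.mp hT
    refine ⟨Finset.filter_subset _ _, fun N hN N' hN' => ?_⟩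
    have h1 := (Finset.mem_filter.mp hN).2
    have h2 := (Finset.mem_filter.mp hN').2
    have h3 := Int.abs_sub_lt_one_of_floor_eq_floor (h1.trans h2.symm)
    rw [← sub_mul, abs_mul, abs_of_pos hY0] at h3
    rw [← one_div, le_div_iff₀ hY0]
    exact h3.le

theorem li_v_ne {e ω ω' : Fin 4 → ℤ} {u v : ℤ} {lam lam' : ℝ} (he : Finset.univ.gcd e = 1)
    (h : e = u • ω + v • ω') (hlam : 0 < lam) (huv : |(u : ℝ)| * lam ≤ |(v : ℝ)| * lam') :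
    v ≠ 0 := by
  rintro rfl
  have h1 : |(u : ℝ)| * lam ≤ 0 := by simpa using huv
  have h2 : |(u : ℝ)| ≤ 0 := by
    by_contra h3
    push Not at h3
    nlinarith
  have h3 : u = 0 := by
    have := abs_nonpos_iff.mp h2
    exact_mod_cast this
  obtain ⟨l, hl⟩ := la_one_le_of_gcd he
  rw [h, h3] at hl
  norm_num at hl

theorem li_sigma {u v : ℤ} {lam lam' : ℝ} (hlam : 0 < lam) (hlam' : 0 < lam') (hv : v ≠ 0)
    (huv : |(u : ℝ)| * lam ≤ |(v : ℝ)| * lam') : |(u : ℝ) * lam / (v * lam')| ≤ 1 := by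
  have hv' : 0 < |(v : ℝ)| := abs_pos.mpr (by exact_mod_cast hv)
  rw [abs_div, abs_mul, abs_mul, abs_of_pos hlam, abs_of_pos hlam', div_le_one (by positivity)]
  exact huv

/-- Part I: the points over one line, for one ordering of the basis -/
theorem lineI (c : Ctx F) (C y η υ z w r t : ℝ) (hC : 1 ≤ C) (hy2 : y ≤ 2)
    (hη : 0 ≤ η) (hυ : 0 ≤ υ) (hz : 0 < z) (hz8 : z ≤ 1 / 8)
    (hbox : 2 * (1 - y / 2) < 5 / 12 + 13 / 3 * z - 4 / 3 * z ^ 2 + 2 / 3 * η)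
    (hw : 0 < w) (hw1 : w < 1)
    (hnum : 10 * (5 / 4 : ℝ) ^ 2 * (2 * υ + (1 - y / 2)) + 2 * (10 * (5 / 4) + 6) * (1 - y / 2) <
      w * (10 * (5 / 4) + 6) ^ 2)
    (hr : 0 < r) (hr5 : (1 - y / 2) / 5 < r) (hr' : 7 / 15 - y / 3 < r)
    (ht1 : z + w < t) (ht2 : z + r < t) (ht3 : (1 - y / 2) / 4 < t) :
    ∀ᶠ X : ℝ in atTop, ∀ (M : ℕ) (Z : Finset ℤ) (p : ℤ → ℕ) (a b : ℤ → Fin 4 → ℤ)
      (ω ω' : Fin 4 → ℤ) (u v : ℤ → ℤ) (lam lam' : ℝ), AllPt c C X M Z p a b →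
      Finset.univ.gcd (fun kl : Fin 4 × Fin 4 => pl ω ω' kl.1 kl.2) = 1 →
      (∃ k l, X ^ η ≤ |(pl ω ω' k l : ℝ)|) →
      0 < lam → 0 < lam' → lam ≤ X → lam' ≤ X →
      (∀ l, |(ω l : ℝ)| ≤ lam) → (∀ l, |(ω' l : ℝ)| ≤ lam') →
      (∀ N ∈ Z, a N = u N • ω + v N • ω' ∧ IsCoprime (u N) (v N) ∧
        |(u N : ℝ)| * lam ≤ |(v N : ℝ)| * lam' ∧
        |(v N : ℝ)| * lam' ≤ C * (p N : ℝ) ^ (1 / 4 : ℝ) ∧
        |(u N : ℝ)| ≤ X ^ υ ∧ |(v N : ℝ)| ≤ X ^ υ ∧ X ^ y ≤ p N) →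
      (Z.card : ℝ) ≤ X ^ t := by
  classical
  have hβe : 0 ≤ 1 - y / 2 := by linarith
  obtain ⟨D, hboxI⟩ := boxI c C z (1 - y / 2) η hC hz hz8 hβe hη hbox
  have hcurve := curveI c C υ (1 - y / 2) w (5 / 4) r (7 / 15 - y / 3) D 1 hC (by norm_num) hυ hβe
    hw hw1 hr hr5 hr' hnum
  set r0 : ℝ := max ((1 - y / 2) / 4) (7 / 15 - y / 3) with hr0
  have hr0t : r0 < t := max_lt ht3 (by linarith)
  set ε : ℝ := (t - r0) / 2 with hε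
  have hε0 : 0 < ε := by rw [hε]; linarith
  obtain ⟨C6, X6, hsix⟩ := six_count c C ⌈υ⌉₊ ε hε0
  obtain ⟨Cf, Xf, hfib⟩ := fiberA c C
  filter_upwards [hboxI, hcurve, eventually_ge_atTop 2, eventually_ge_atTop X6,
    eventually_ge_atTop Xf, la_absorb Cf 0 t (by linarith),
    la_absorb (3 * (|C6| * 2)) (ε + r0) t (by linarith), la_absorb (3 * 4) (z + w) t ht1,
    la_absorb (3 * 4) (z + r) t ht2] with X hboxI hcurve hX2 hX6 hXf hA0 hA1 hA2 hA3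
  intro M Z p a b ω ω' u v lam lam' hpt hprim hpl hl0 hl0' hlX hlX' hω hω' huv
  have hX1 : (1 : ℝ) ≤ X := by linarith
  have hX0 : (0 : ℝ) < X := by linarith
  by_cases hpc : ∀ i j, i ≠ j → c.pc ω ω' i j ≠ 0
  swap
  · push Not at hpc
    obtain ⟨i, j, hij, h0⟩ := hpc
    rw [Real.rpow_zero, mul_one] at hA0
    refine (hfib X hXf M Z p a b i j hij hpt fun N hN N' hN' => ?_).trans hA0
    rw [(huv N hN).1, (huv N' hN').1]
    exact la_cross_of_pc c ω ω' _ _ _ _ i j h0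
  have hv : ∀ N ∈ Z, v N ≠ 0 := fun N hN =>
    li_v_ne (hpt N hN).ha1 (huv N hN).1 hl0 (huv N hN).2.2.1
  have hP0 : 0 < X ^ y := by positivity
  have hP2 : X ^ y ≤ X ^ 2 := by
    rw [← Real.rpow_natCast]
    exact Real.rpow_le_rpow_of_exponent_le hX1 (by exact_mod_cast hy2)
  have hβ : X / √(X ^ y) = X ^ (1 - y / 2) := by
    rw [Real.sqrt_eq_rpow, ← Real.rpow_mul hX0.le, Real.rpow_sub hX0, Real.rpow_one]
    congr 2
    ring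
  have hr3 : X ^ (7 / 15 : ℝ) / (X ^ y) ^ (1 / 3 : ℝ) = X ^ (7 / 15 - y / 3) := by
    rw [← Real.rpow_mul hX0.le, Real.rpow_sub hX0]
    congr 2
    ring
  set Z6 := Z.filter fun N => Six c ω ω' N (u N) (v N) with hZ6
  have hZ6Z : Z6 ⊆ Z := Finset.filter_subset _ _
  have hυK : X ^ υ ≤ X ^ ⌈υ⌉₊ := by
    rw [← Real.rpow_natCast]
    exact Real.rpow_le_rpow_of_exponent_le hX1 (Nat.le_ceil υ)
  have h6 : (Z6.card : ℝ) ≤ |C6| * 2 * X ^ (ε + r0) := by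
    have h1 := hsix X hX6 M Z6 p a b ω ω' u v (X ^ y) (hpt.subset hZ6Z) hpc
      (fun N hN => ⟨(huv N (hZ6Z hN)).1, hv N (hZ6Z hN), (huv N (hZ6Z hN)).2.1,
        (huv N (hZ6Z hN)).2.2.2.2.1.trans hυK, (huv N (hZ6Z hN)).2.2.2.2.2.1.trans hυK⟩)
      hP0 hP2 (fun N hN => (huv N (hZ6Z hN)).2.2.2.2.2.2)
      (fun N hN => (Finset.mem_filter.mp hN).2)
    rw [hβ, hr3, ← Real.rpow_mul hX0.le] at h1
    have h2 : X ^ ((1 - y / 2) * (1 / 4)) ≤ X ^ r0 :=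
      Real.rpow_le_rpow_of_exponent_le hX1 (le_trans (le_of_eq (by ring)) (le_max_left _ _))
    have h3 : X ^ (7 / 15 - y / 3) ≤ X ^ r0 :=
      Real.rpow_le_rpow_of_exponent_le hX1 (le_max_right _ _)
    calc (Z6.card : ℝ) ≤ _ := h1
      _ ≤ |C6| * X ^ ε * (X ^ r0 + X ^ r0) := by gcongr; exact le_abs_self _
      _ = _ := by rw [Real.rpow_add hX0]; ring
  have hsub : Z \ Z6 ⊆ Z := Finset.sdiff_subset
  obtain ⟨𝒯, h𝒯, hcov, hT⟩ := li_boxes (Z \ Z6) (fun N => (u N : ℝ) * lam / (v N * lam'))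
    (fun N hN => li_sigma hl0 hl0' (hv N (hsub hN)) (huv N (hsub hN)).2.2.1) (X ^ z)
    (Real.one_le_rpow hX1 hz.le)
  have hrest : ((Z \ Z6).card : ℝ) ≤ 4 * X ^ z * (X ^ w + X ^ r) := by
    refine card_le_of_cover _ 𝒯 _ _ (by positivity) h𝒯 hcov fun T hT' => ?_
    obtain ⟨hT1, hT2⟩ := hT T hT'
    have hTZ : T ⊆ Z := hT1.trans hsub
    have hβ' : ∀ N ∈ T, X / √(p N : ℝ) ≤ X ^ (1 - y / 2) := fun N hN => by
      rw [← hβ]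
      gcongr
      exact (huv N (hTZ hN)).2.2.2.2.2.2
    obtain ⟨G, hG⟩ := hboxI M T p a b ω ω' u v lam lam' (hpt.subset hTZ) hβ' hprim hpl hpc hl0 hl0'
      hω hω' (fun N hN => ⟨(huv N (hTZ hN)).1, (huv N (hTZ hN)).2.2.1, (huv N (hTZ hN)).2.2.2.1⟩)
      (fun N hN N' hN' => by rw [Real.rpow_neg hX0.le]; exact hT2 N hN N' hN')
    obtain ⟨T6, hT6, hT6', hc⟩ := hcurve M T p a b ω ω' u v (X ^ y) G (hpt.subset hTZ) hpc
      (fun l => ⟨by rw [pow_one]; exact (hω l).trans hlX, by rw [pow_one]; exact (hω' l).trans hlX'⟩)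
      (fun N hN => ⟨(huv N (hTZ hN)).1, hv N (hTZ hN), (huv N (hTZ hN)).2.1,
        (huv N (hTZ hN)).2.2.2.2.1, (huv N (hTZ hN)).2.2.2.2.2.1⟩)
      hP0 hP2 (fun N hN => (huv N (hTZ hN)).2.2.2.2.2.2) hβ.le hr3.le hG
    have : T6 = ∅ := Finset.eq_empty_of_forall_notMem fun N hN =>
      (Finset.mem_sdiff.mp (hT1 (hT6 hN))).2
        (Finset.mem_filter.mpr ⟨hTZ (hT6 hN), hT6' N hN⟩)
    rwa [this, Finset.sdiff_empty] at hc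
  have hsplit : (Z.card : ℝ) = (Z \ Z6).card + Z6.card := by
    exact_mod_cast (Finset.card_sdiff_add_card_eq_card hZ6Z).symm
  rw [Real.rpow_add hX0] at hA2 hA3
  rw [hsplit]
  have h9 : 4 * X ^ z * (X ^ w + X ^ r) =
      3 * 4 * (X ^ z * X ^ w) / 3 + 3 * 4 * (X ^ z * X ^ r) / 3 := by ring
  linarith

end Vale.Agent.P018
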