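import Vale.Agent.P018.Q.CurveII
import Vale.Agent.P018.Q.BoxII
import Vale.Agent.P018.Q.LineI

namespace Vale.Agent.P018

open NumberField Polynomial Filter

variable {F : Type} [Field F] [NumberField F]

/-- Part II: the points over one line, for one ordering of the basis -/
theorem lineII (c : Ctx F) (C z αe υ s w t : ℝ) (hC : 1 ≤ C) (hz : 0 < z) (hs : 1 / 2 ≤ s)
    (hαe : 0 ≤ αe) (hυ : 0 ≤ υ) (hbox : 9 / 4 * (αe + s * υ) ^ 2 < z * (4 + 8 * s))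
    (hw : 0 < w) (hw1 : w < 1) (hnum : 2 * αe + υ < 8 * w) (ht : z + w < t) :
    ∀ᶠ X : ℝ in atTop, ∀ (M : ℕ) (Z : Finset ℤ) (p : ℤ → ℕ) (a b : ℤ → Fin 4 → ℤ)
      (ω ω' : Fin 4 → ℤ) (u v : ℤ → ℤ) (lam lam' : ℝ), AllPt c C X M Z p a b →
      0 < lam → 0 < lam' → lam ≤ X → lam' ≤ X →
      (∀ l, |(ω l : ℝ)| ≤ lam) → (∀ l, |(ω' l : ℝ)| ≤ lam') →
      (∀ N ∈ Z, b N = u N • ω + v N • ω' ∧ IsCoprime (u N) (v N) ∧
        |(u N : ℝ)| * lam ≤ |(v N : ℝ)| * lam' ∧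
        |(v N : ℝ)| * lam' ≤ C * X / √(p N : ℝ) ∧ |(v N : ℝ)| * lam' ≤ X ^ υ * lam ∧
        |(v N : ℝ)| ≤ X ^ υ ∧ (p N : ℝ) ^ (1 / 4 : ℝ) ≤ X ^ αe) →
      (Z.card : ℝ) ≤ X ^ t := by
  classical
  obtain ⟨D, hboxII⟩ := boxII c C z αe υ s hC hz hs hαe hυ hbox
  have hcurve := curveII c C υ αe w D 1 hC hυ hαe hw hw1 hnum
  obtain ⟨Cf, Xf, hfib⟩ := fiberB c C
  filter_upwards [hboxII, hcurve, eventually_ge_atTop 2,
    eventually_ge_atTop Xf, la_absorb Cf 0 t (by linarith), la_absorb 4 (z + w) t ht]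
    with X hboxII hcurve hX2 hXf hA0 hA2
  intro M Z p a b ω ω' u v lam lam' hpt hl0 hl0' hlX hlX' hω hω' huv
  have hX1 : (1 : ℝ) ≤ X := by linarith
  have hX0 : (0 : ℝ) < X := by linarith
  by_cases hpc : ∀ i j, i ≠ j → c.pc ω ω' i j ≠ 0
  swap
  · push Not at hpc
    obtain ⟨i, j, hij, h0⟩ := hpc
    rw [Real.rpow_zero, mul_one] at hA0
    refine (hfib X hXf M Z p a b i j hij hpt fun N hN N' hN' => ?_).trans hA0
    rw [(huv N hN).1, (huv N' hN').1]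
    exact la_cross_of_pc c ω ω' _ _ _ _ i j h0
  have hv : ∀ N ∈ Z, v N ≠ 0 := fun N hN =>
    li_v_ne (hpt N hN).hb1 (huv N hN).1 hl0 (huv N hN).2.2.1
  obtain ⟨𝒯, h𝒯, hcov, hT⟩ := li_boxes Z (fun N => (u N : ℝ) * lam / (v N * lam'))
    (fun N hN => li_sigma hl0 hl0' (hv N hN) (huv N hN).2.2.1) (X ^ z)
    (Real.one_le_rpow hX1 hz.le)
  have hrest : (Z.card : ℝ) ≤ 4 * X ^ z * X ^ w := by
    refine card_le_of_cover _ 𝒯 _ _ (by positivity) h𝒯 hcov fun T hT' => ?_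
    obtain ⟨hTZ, hT2⟩ := hT T hT'
    obtain ⟨G, hG⟩ := hboxII M T p a b ω ω' u v lam lam' (hpt.subset hTZ)
      (fun N hN => (huv N (hTZ hN)).2.2.2.2.2.2) hpc hl0 hl0' hω hω'
      (fun N hN => ⟨(huv N (hTZ hN)).1, (huv N (hTZ hN)).2.2.1, (huv N (hTZ hN)).2.2.2.1,
        (huv N (hTZ hN)).2.2.2.2.1, (huv N (hTZ hN)).2.2.2.2.2.1⟩)
      (fun N hN N' hN' => by rw [Real.rpow_neg hX0.le]; exact hT2 N hN N' hN')
    exact hcurve M T p a b ω ω' u v G (hpt.subset hTZ) hpc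
      (fun l => ⟨by rw [pow_one]; exact (hω l).trans hlX, by rw [pow_one]; exact (hω' l).trans hlX'⟩)
      (fun N hN => ⟨(huv N (hTZ hN)).1, hv N (hTZ hN), (huv N (hTZ hN)).2.1,
        le_of_mul_le_mul_right ((huv N (hTZ hN)).2.2.1.trans (huv N (hTZ hN)).2.2.2.2.1) hl0,
        (huv N (hTZ hN)).2.2.2.2.2.1⟩)
      (fun N hN => (huv N (hTZ hN)).2.2.2.2.2.2) hG
  rw [Real.rpow_add hX0] at hA2
  linarith

end Vale.Agent.P018
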