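import Vale.Agent.P018.Q.Mul
import Vale.Agent.P018.Main

namespace Vale.Agent.P018

open NumberField Polynomial Filter Topology

variable {F : Type} [Field F] [NumberField F]

theorem pt_int_dvd {a b : ℤ} (h : (a : 𝓞 F) ∣ (b : 𝓞 F)) : a ∣ b := by
  have h1 := map_dvd (Algebra.norm ℤ) h
  rw [← eq_intCast (algebraMap ℤ (𝓞 F)), ← eq_intCast (algebraMap ℤ (𝓞 F)),
    Algebra.norm_algebraMap, Algebra.norm_algebraMap] at h1
  exact (Int.pow_dvd_pow_iff Module.finrank_pos.ne').1 h1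

theorem pt_prod (c : Ctx F) (N : ℤ) :
    ∏ i, ((N : 𝓞 F) - c.ϑ i) = ((c.g.eval N : ℤ) : 𝓞 F) := by
  have hm : (∏ i, (X - C (c.ϑ i))).Monic := monic_prod_of_monic _ _ fun i _ => monic_X_sub_C _
  have hm' : (c.g.map (Int.castRingHom (𝓞 F))).Monic := c.hmon.map _
  have hd : (∏ i, (X - C (c.ϑ i))).degree = 4 := by
    rw [degree_prod]; simp
  have hd' : (c.g.map (Int.castRingHom (𝓞 F))).degree = 4 := by
    rw [c.hmon.degree_map, degree_eq_natDegree c.hmon.ne_zero, c.hdeg]; rfl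
  have h := eq_of_degree_le_of_eval_index_eq (f := ∏ i, (X - C (c.ϑ i)))
    (g := c.g.map (Int.castRingHom (𝓞 F))) Finset.univ c.hinj.injOn (by rw [hd]; simp)
    (hd.trans hd'.symm) (hm.leadingCoeff.trans hm'.leadingCoeff.symm) (fun i _ => by
      have h1 := c.hroot i
      rw [aeval_def, ← eval_map, algebraMap_int_eq] at h1
      rw [h1, eval_prod]
      exact Finset.prod_eq_zero (Finset.mem_univ i) (by simp))
  have h2 := congrArg (eval (N : 𝓞 F)) h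
  rw [eval_prod, eval_intCast_map] at h2
  simpa using h2

theorem pt_cj_smul (c : Ctx F) (n : ℤ) (x : Fin 4 → ℤ) (i : Fin 4) :
    c.cj (n • x) i = (n : 𝓞 F) * c.cj x i := by
  simp [Ctx.cj, pv, Finset.mul_sum, mul_assoc]

theorem pt_cj_inj (c : Ctx F) {x y : Fin 4 → ℤ} (i : Fin 4) (h : c.cj x i = c.cj y i) : x = y := by
  by_contra hne
  refine c.hind i (x - y) (sub_ne_zero.2 hne) ?_
  rw [← sub_eq_zero] at h
  rw [← h]
  simp [Ctx.cj, pv, sub_mul]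

theorem pt_cj_lin (c : Ctx F) (N : ℤ) (i : Fin 4) :
    c.cj ![N, -1, 0, 0] i = (N : 𝓞 F) - c.ϑ i := by
  simp [Ctx.cj, pv, Fin.sum_univ_four, sub_eq_add_neg]

theorem pt_short {p : ℕ} (hp : p.Prime) (N : ℤ) : ∃ a : Fin 4 → ℤ, a ≠ 0 ∧ Finset.univ.gcd a = 1 ∧
    (∀ l, |(a l : ℝ)| ≤ (p : ℝ) ^ (1 / 4 : ℝ)) ∧ (p : ℤ) ∣ pv a N := by
  obtain ⟨a0, h0, h1, h2⟩ := pigeon 3 p hp.one_le N
  have e4 : (1 / (((3 : ℕ) : ℝ) + 1)) = 1 / 4 := by norm_num
  rw [e4] at h1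
  obtain ⟨a, ha, hg⟩ := Finset.extract_gcd a0 (Finset.univ_nonempty (α := Fin 4))
  set g := Finset.univ.gcd a0 with hgdef
  obtain ⟨l0, hl0⟩ := Function.ne_iff.1 h0
  have hg0 : g ≠ 0 := fun h => hl0 (by rw [ha l0 (Finset.mem_univ _), h, zero_mul]; rfl)
  have hg1 : (1 : ℝ) ≤ |(g : ℝ)| := by exact_mod_cast Int.one_le_abs hg0
  have hl1 : a l0 ≠ 0 := fun h => hl0 (by rw [ha l0 (Finset.mem_univ _), h, mul_zero]; rfl)
  have hl2 : (1 : ℝ) ≤ |(a l0 : ℝ)| := by exact_mod_cast Int.one_le_abs hl1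
  have hmul : ∀ l, |(a0 l : ℝ)| = |(g : ℝ)| * |(a l : ℝ)| := fun l => by
    rw [ha l (Finset.mem_univ _)]; push_cast; rw [abs_mul]
  have hp1 : (1 : ℝ) < p := by exact_mod_cast hp.one_lt
  have hlt : (p : ℝ) ^ (1 / 4 : ℝ) < p := Real.rpow_lt_self_of_one_lt hp1 (by norm_num)
  refine ⟨a, fun h => hl1 (by rw [h]; rfl), hg, fun l => ?_, ?_⟩
  · have := h1 l
    rw [hmul] at this
    nlinarith [abs_nonneg (a l : ℝ)]
  · have h3 : ∑ l, a0 l * N ^ (l : ℕ) = g * pv a N := by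
      rw [pv, Finset.mul_sum]
      refine Finset.sum_congr rfl fun l _ => ?_
      rw [ha l (Finset.mem_univ _), Int.cast_id, mul_assoc]
    rw [h3] at h2
    refine ((Nat.prime_iff_prime_int.1 hp).dvd_or_dvd h2).resolve_left fun h4 => ?_
    have h5 : (p : ℤ) ≤ |g| := Int.le_of_dvd (abs_pos.2 hg0) ((dvd_abs _ _).2 h4)
    have h6 : (p : ℝ) ≤ |(g : ℝ)| := by exact_mod_cast h5
    have h7 := h1 l0
    rw [hmul] at h7
    nlinarith

theorem pt_alg (c : Ctx F) : ∃ D : ℕ, ∀ (p : ℕ) (N : ℤ) (a : Fin 4 → ℤ), p.Prime → D ≤ p → a ≠ 0 →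
    (p : ℤ) ∣ pv a N → (p : 𝓞 F) ^ 2 ∣ ∏ i, ((N : 𝓞 F) - c.ϑ i) →
    ∃ (m : ℤ) (M : ℕ) (b : Fin 4 → ℤ), m ≠ 0 ∧ ∏ i, c.cj a i = (p : 𝓞 F) * (m : 𝓞 F) ∧ 0 < M ∧
      (M : ℤ) ≤ m ^ 2 ∧ Finset.univ.gcd b = 1 ∧
      ∀ i, c.cj a i ^ 2 * c.cj b i = (M : 𝓞 F) * ((N : 𝓞 F) - c.ϑ i) := by
  obtain ⟨μ, -, -, hμ, -⟩ := c.exists_mul
  obtain ⟨d, e, hd, he⟩ := c.exists_coord
  refine ⟨d.natAbs + 1, fun p N a hp hD ha hpa hN => ?_⟩
  have hp0 : (p : 𝓞 F) ≠ 0 := Nat.cast_ne_zero.2 hp.ne_zero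
  obtain ⟨m', β, hm, hβ⟩ := exists_m_beta c.ϑ 2 one_le_two p hp0 N a (by simpa [pv] using hpa) hN
  obtain ⟨n, a', hn, ha'⟩ := c.exists_norm a
  have hα : ∀ i, c.cj a i ≠ 0 := fun i => c.hind i a ha
  change ∏ i, c.cj a i = _ at hm
  change ∀ i, c.cj a i ^ 2 * β i = _ at hβ
  obtain ⟨m, rfl⟩ : (p : ℤ) ∣ n := pt_int_dvd (F := F) ⟨m', by rw [← hn, hm]; simp⟩
  have hmm : m' = (m : 𝓞 F) := by
    refine mul_left_cancel₀ hp0 ?_
    rw [← hm, hn]; simp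
  subst hmm
  have hm0 : m ≠ 0 := by
    rintro rfl
    exact Finset.prod_ne_zero_iff.2 (fun i _ => hα i) (by rw [hm]; simp)
  set cc := μ ![N, -1, 0, 0] (μ a' a') with hcc
  have h1 : ∀ i, c.cj cc i = (p : 𝓞 F) ^ 2 * β i := by
    intro i
    refine mul_left_cancel₀ (pow_ne_zero 2 (hα i)) ?_
    rw [hcc, hμ, hμ, pt_cj_lin]
    have h2 := ha' i
    push_cast at h2
    linear_combination ((N : 𝓞 F) - c.ϑ i) * (c.cj a i * c.cj a' i + p * m) * h2 - p ^ 2 * hβ i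
  have hcop : IsCoprime ((p : ℤ) ^ 2) d := by
    refine IsCoprime.pow_left ((Nat.prime_iff_prime_int.1 hp).irreducible.coprime_iff_not_dvd.2 ?_)
    intro h
    have := Int.natAbs_le_of_dvd_ne_zero h hd
    simp at this
    omega
  have h2 : ∀ l, (p : ℤ) ^ 2 ∣ cc l := by
    intro l
    refine hcop.dvd_of_dvd_mul_left (pt_int_dvd (F := F) ⟨∑ i, e l i * β i, ?_⟩)
    have h3 := he (𝓞 F) (RingHom.id _) (fun k => (cc k : 𝓞 F)) l
    push_cast
    rw [h3, Finset.mul_sum]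
    refine Finset.sum_congr rfl fun i _ => ?_
    have h4 := h1 i
    rw [Ctx.cj, pv] at h4
    simp only [RingHom.id_apply, h4]
    ring
  choose b' hb' using h2
  have h3 : ∀ i, c.cj b' i = β i := by
    intro i
    refine mul_left_cancel₀ (pow_ne_zero 2 hp0) ?_
    have h4 : cc = ((p : ℤ) ^ 2) • b' := funext hb'
    rw [← h1, h4, pt_cj_smul]
    push_cast
    rfl
  obtain ⟨b, hb, hg⟩ := Finset.extract_gcd b' (Finset.univ_nonempty (α := Fin 4))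
  have hg0 : 0 ≤ Finset.univ.gcd b' := Finset.Int.finsetGcd_nonneg
  set g := Finset.univ.gcd b' with hgdef
  have h4 : b' = g • b := funext fun l => hb l (Finset.mem_univ _)
  have h5 : ∀ i, (g : 𝓞 F) * (c.cj a i ^ 2 * c.cj b i) = (m : 𝓞 F) ^ 2 * ((N : 𝓞 F) - c.ϑ i) := by
    intro i
    rw [← hβ, ← h3, h4, pt_cj_smul]
    ring
  have h6 : g • μ (μ a a) b = m ^ 2 • ![N, -1, 0, 0] := by
    refine pt_cj_inj c 0 ?_
    rw [pt_cj_smul, pt_cj_smul, hμ, hμ, pt_cj_lin, ← pow_two, h5]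
    push_cast
    rfl
  have h7 : g * (-μ (μ a a) b 1) = m ^ 2 := by
    have := congrFun h6 1
    simp only [Pi.smul_apply, smul_eq_mul, Matrix.cons_val_one, Matrix.cons_val_zero] at this
    linarith
  generalize -μ (μ a a) b 1 = w at h7
  have hm2 : 0 < m ^ 2 := by positivity
  have hg1 : 0 < g := by
    rcases hg0.lt_or_eq with h | h
    · exact h
    · rw [← h, zero_mul] at h7; omega
  have hw : 0 < w := by
    by_contra h
    nlinarith
  obtain ⟨M, rfl⟩ := Int.eq_ofNat_of_zero_le hw.le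
  refine ⟨m, M, b, hm0, hm, by exact_mod_cast hw, by nlinarith, hg, fun i => ?_⟩
  refine mul_left_cancel₀ (Int.cast_ne_zero.2 hg1.ne' : (g : 𝓞 F) ≠ 0) ?_
  have h8 := congrArg (fun z : ℤ => (z : 𝓞 F)) h7
  push_cast at h8
  rw [h5, ← h8]
  ring

/-- every bad `N` carries the data of a point -/
theorem pt_exists (c : Ctx F) (A : ℕ) : ∃ C X0 : ℝ, 1 ≤ C ∧ ∀ X : ℝ, X0 ≤ X →
    ∀ N ∈ Bad c.ϑ 2 A Set.univ X, ∃ (M p : ℕ) (a b : Fin 4 → ℤ), IsPt c C X M N p a b := by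
  obtain ⟨D, hD⟩ := pt_alg c
  obtain ⟨d, e, hd, he⟩ := c.exists_coord
  obtain ⟨C0, hC0, hϑ, hup, hlow⟩ := size_bounds c.ϑ c.hind
  have e4 : (1 / (((3 : ℕ) : ℝ) + 1)) = 1 / 4 := by norm_num
  rw [e4] at hlow
  obtain ⟨φ0⟩ : Nonempty (F →+* ℂ) := inferInstance
  set E : ℝ := ∑ l, ∑ i, ‖emb φ0 (e l i)‖ with hE
  have hE0 : 0 ≤ E := by positivity
  have hEl : ∀ l, ∑ i, ‖emb φ0 (e l i)‖ ≤ E := fun l =>
    Finset.single_le_sum (f := fun l => ∑ i, ‖emb φ0 (e l i)‖) (fun _ _ => by positivity)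
      (Finset.mem_univ l)
  have hA0 : (0 : ℝ) ≤ A := Nat.cast_nonneg A
  have c2 : C0 ≤ C0 ^ 2 := le_self_pow₀ hC0 two_ne_zero
  have c4 : C0 ^ 2 ≤ C0 ^ 4 := pow_le_pow_right₀ hC0 (by norm_num)
  set K : ℝ := (A + 1) * C0 ^ 4 with hK
  have hK1 : C0 ^ 4 ≤ K := by nlinarith
  have hK2 : (A : ℝ) ≤ K := by nlinarith
  have hKC : 2 * K ≤ (E + 2) * K := by nlinarith
  refine ⟨(E + 2) * K, max (D : ℝ) (2 * C0), by linarith, fun X hX N hN => ?_⟩
  have hX1 : (D : ℝ) ≤ X := le_of_max_le_left hX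
  have hX2 : 2 * C0 ≤ X := le_of_max_le_right hX
  simp only [Bad, Finset.mem_filter, Finset.mem_Icc, Set.mem_univ, true_and] at hN
  obtain ⟨hN0, hN1, p, hp, hXp, hdvd⟩ := hN
  rw [← abs_le, Int.le_floor, Int.cast_abs] at hN0
  obtain ⟨a, ha0, ha1, ha, hpa⟩ := pt_short hp N
  obtain ⟨m, M, b, hm0, hm, hM0, hMm, hb1, hab⟩ :=
    hD p N a hp (by exact_mod_cast hX1.trans hXp) ha0 hpa hdvd
  obtain ⟨-, h1⟩ := hlow p a m hp.one_le ha0 ha hm
  have hmC : |(m : ℝ)| ≤ C0 := by simpa using (h1 φ0).1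
  have hMC : (M : ℝ) ≤ C0 ^ 2 := by
    have h2 : (M : ℝ) ≤ (m : ℝ) ^ 2 := by exact_mod_cast hMm
    rw [← sq_abs] at h2
    exact h2.trans (pow_le_pow_left₀ (abs_nonneg _) hmC 2)
  have hM1 : (1 : ℝ) ≤ M := by exact_mod_cast hM0
  have hp0 : (0 : ℝ) < p := by exact_mod_cast hp.pos
  set P : ℝ := (p : ℝ) ^ (1 / 4 : ℝ) with hP
  have hP0 : 0 < P := by positivity
  have hP2 : √(p : ℝ) = P ^ 2 := by
    rw [hP, Real.sqrt_eq_rpow, ← Real.rpow_natCast, ← Real.rpow_mul hp0.le]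
    norm_num
  have hα1 : ∀ (φ : F →+* ℂ) i, P ≤ C0 * ‖emb φ (c.cj a i)‖ := fun φ i => by
    rw [Ctx.cj, map_pv]; exact (h1 φ).2 i
  have hα2 : ∀ (φ : F →+* ℂ) i, ‖emb φ (c.cj a i)‖ ≤ C0 * P := fun φ i => by
    rw [Ctx.cj, map_pv]; exact hup φ i a P ha
  have hn : ∀ (φ : F →+* ℂ) i, ‖emb φ (c.cj a i)‖ ^ 2 * ‖emb φ (c.cj b i)‖
      = M * ‖(N : ℂ) - emb φ (c.ϑ i)‖ := fun φ i => by
    simpa using congrArg (fun t => ‖emb φ t‖) (hab i)
  have hn1 : ∀ (φ : F →+* ℂ) i, ‖(N : ℂ) - emb φ (c.ϑ i)‖ ≤ (A + 1) * X := fun φ i => by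
    have h2 := norm_sub_le (N : ℂ) (emb φ (c.ϑ i))
    rw [Complex.norm_intCast] at h2
    linarith [hϑ φ i]
  have hn2 : ∀ (φ : F →+* ℂ) i, X / 2 ≤ ‖(N : ℂ) - emb φ (c.ϑ i)‖ := fun φ i => by
    have h2 := norm_sub_norm_le (N : ℂ) (emb φ (c.ϑ i))
    rw [Complex.norm_intCast] at h2
    linarith [hϑ φ i]
  have hβ1 : ∀ i, ‖emb φ0 (c.cj b i)‖ ≤ K * X / P ^ 2 := fun i => by
    rw [le_div_iff₀ (by positivity)]
    calc ‖emb φ0 (c.cj b i)‖ * P ^ 2 ≤ ‖emb φ0 (c.cj b i)‖ * (C0 * ‖emb φ0 (c.cj a i)‖) ^ 2 := by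
          gcongr
          exact hα1 φ0 i
      _ = C0 ^ 2 * (M * ‖(N : ℂ) - emb φ0 (c.ϑ i)‖) := by rw [← hn]; ring
      _ ≤ C0 ^ 2 * (C0 ^ 2 * ((A + 1) * X)) := by
          gcongr
          exact hn1 φ0 i
      _ = K * X := by rw [hK]; ring
  refine ⟨M, p, a, b, hp, hXp, hN1, hN0.trans (by gcongr <;> linarith), hM0, by linarith, ha1, hb1,
    hab, hpa, ?_, ⟨m, hm0, by linarith, hm⟩, ha, fun φ i => (hα1 φ i).trans (by gcongr; linarith),
    fun l => ?_, fun φ i => ?_⟩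
  · refine pt_int_dvd (F := F) ?_
    rw [← pt_prod, Int.cast_natCast]
    exact (dvd_pow_self _ two_ne_zero).trans hdvd
  · have h2 := congrArg norm (he ℂ (emb φ0) (fun k => (b k : ℂ)) l)
    rw [norm_mul, Complex.norm_intCast, Complex.norm_intCast] at h2
    have h3 : (1 : ℝ) ≤ |(d : ℝ)| := by exact_mod_cast Int.one_le_abs hd
    have hKX : 0 ≤ K * X / P ^ 2 := (norm_nonneg _).trans (hβ1 0)
    rw [hP2]
    calc |(b l : ℝ)| ≤ |(d : ℝ)| * |(b l : ℝ)| := le_mul_of_one_le_left (abs_nonneg _) h3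
      _ ≤ ∑ i, ‖emb φ0 (e l i)‖ * (K * X / P ^ 2) := by
          rw [h2]
          refine (norm_sum_le _ _).trans (Finset.sum_le_sum fun i _ => ?_)
          rw [norm_mul]
          gcongr
          have h4 := hβ1 i
          rwa [Ctx.cj, map_pv, pv] at h4
      _ ≤ (E + 2) * (K * X / P ^ 2) := by
          rw [← Finset.sum_mul]
          gcongr
          linarith [hEl l]
      _ = (E + 2) * K * X / P ^ 2 := by ring
  · rw [hP2, div_le_iff₀ (by positivity)]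
    calc X ≤ 2 * (M * ‖(N : ℂ) - emb φ (c.ϑ i)‖) := by
          nlinarith [hn2 φ i, norm_nonneg ((N : ℂ) - emb φ (c.ϑ i))]
      _ ≤ 2 * ((C0 * P) ^ 2 * ‖emb φ (c.cj b i)‖) := by
          rw [← hn]
          gcongr
          exact hα2 φ i
      _ = 2 * C0 ^ 2 * ‖emb φ (c.cj b i)‖ * P ^ 2 := by ring
      _ ≤ (E + 2) * K * ‖emb φ (c.cj b i)‖ * P ^ 2 := by
          gcongr ?_ * _ * _
          linarith

omit [NumberField F] in
theorem pt_tail (f : ℤ[X]) (e : ℕ) (hd : f.natDegree = e + 1) (k' k : ℕ) (hkk : k' ≤ k)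
    (ϑ : Fin (e + 1) → 𝓞 F) (hprod : ∀ n : ℤ, ∏ i, (((f.leadingCoeff * n : ℤ) : 𝓞 F) - ϑ i) =
      ((f.leadingCoeff ^ e * f.eval n : ℤ) : 𝓞 F))
    (hcore : ∀ A : ℕ, Tendsto (fun X : ℝ => ((Bad ϑ k' A Set.univ X).card : ℝ) / X) atTop (𝓝 0)) :
    Tail f k := by
  classical
  have hf0 : f ≠ 0 := by rintro rfl; simp at hd
  have hlc : f.leadingCoeff ≠ 0 := leadingCoeff_ne_zero.mpr hf0
  rw [Tail, Metric.tendsto_atTop]
  intro ε hε
  obtain ⟨M, hM⟩ := exists_nat_gt (2 / ε)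
  have hM0 : (0 : ℝ) < M := lt_trans (by positivity) hM
  have hM1 : (1 : ℝ) ≤ M := by
    have : 0 < M := by exact_mod_cast hM0
    exact_mod_cast this
  set A : ℕ := f.leadingCoeff.natAbs * M with hA
  have h1 := hcore A
  have h2 : Tendsto (fun X : ℕ => (X : ℝ) / M) atTop atTop :=
    tendsto_natCast_atTop_atTop.atTop_div_const hM0
  have h3 := (h1.comp h2).eventually (gt_mem_nhds zero_lt_one)
  obtain ⟨X0, hX0⟩ := eventually_atTop.mp (h3.and (eventually_gt_atTop 0))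
  refine ⟨X0, fun X hX => ?_⟩
  obtain ⟨h4, h5⟩ := hX0 X hX
  have hXr : (0 : ℝ) < X := by exact_mod_cast h5
  simp only [Function.comp] at h4
  rw [div_lt_one (by positivity)] at h4
  rw [Real.dist_eq, sub_zero, abs_of_nonneg (by positivity), div_lt_iff₀ hXr]
  set s := (Finset.Icc 1 X).filter fun n : ℕ =>
    ∃ p : ℕ, p.Prime ∧ X < p ∧ (p : ℤ) ^ k ∣ f.eval (n : ℤ) with hs
  have hsplit : s.card = (s.filter fun n : ℕ => (n : ℝ) ≤ (X : ℝ) / M).card +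
      (s.filter fun n : ℕ => ¬ (n : ℝ) ≤ (X : ℝ) / M).card :=
    (Finset.card_filter_add_card_filter_not (s := s) _).symm
  have hA1 : ((s.filter fun n : ℕ => (n : ℝ) ≤ (X : ℝ) / M).card : ℝ) ≤ (X : ℝ) / M := by
    have : (s.filter fun n : ℕ => (n : ℝ) ≤ (X : ℝ) / M) ⊆ Finset.Icc 1 ⌊(X : ℝ) / M⌋₊ := by
      intro n hn
      rw [Finset.mem_filter, hs, Finset.mem_filter, Finset.mem_Icc] at hn
      exact Finset.mem_Icc.mpr ⟨hn.1.1.1, Nat.le_floor hn.2⟩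
    have h6 := Finset.card_le_card this
    rw [Nat.card_Icc, Nat.add_sub_cancel] at h6
    exact (Nat.cast_le.mpr h6).trans (Nat.floor_le (by positivity))
  have hA2 : (s.filter fun n : ℕ => ¬ (n : ℝ) ≤ (X : ℝ) / M).card ≤
      (Bad ϑ k' A Set.univ ((X : ℝ) / M)).card := by
    refine Finset.card_le_card_of_injOn (fun n : ℕ => f.leadingCoeff * (n : ℤ)) (fun n hn => ?_)
      (fun n _ n' _ h => by exact_mod_cast mul_left_cancel₀ hlc h)
    simp only [Finset.coe_filter, hs, Finset.mem_filter, Finset.mem_Icc, Set.mem_ofPred_eq,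
      not_le] at hn
    obtain ⟨⟨⟨hn1, hn2⟩, p, hp, hXp, hdvd⟩, hn3⟩ := hn
    simp only [Bad, Finset.coe_filter, Set.mem_ofPred_eq, Finset.mem_Icc, Set.mem_univ, true_and]
    have hl1 : (1 : ℝ) ≤ |(f.leadingCoeff : ℝ)| := by
      exact_mod_cast Int.one_le_abs hlc
    have hnX : (n : ℝ) ≤ X := by exact_mod_cast hn2
    have habs : |((f.leadingCoeff * (n : ℤ) : ℤ) : ℝ)| = |(f.leadingCoeff : ℝ)| * n := by
      push_cast; rw [abs_mul, Nat.abs_cast]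
    have hAX : (A : ℝ) * ((X : ℝ) / M) = |(f.leadingCoeff : ℝ)| * X := by
      rw [hA]; push_cast
      rw [Nat.cast_natAbs]; push_cast
      field_simp
    refine ⟨?_, ?_, p, hp, ?_, ?_⟩
    · rw [← abs_le, Int.le_floor, Int.cast_abs, habs, hAX]
      gcongr
    · rw [habs]
      have : (0 : ℝ) ≤ n := by positivity
      nlinarith
    · have h7 : (X : ℝ) ≤ p := by exact_mod_cast hXp.le
      exact (div_le_self hXr.le hM1).trans h7
    · rw [hprod]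
      have h8 : (p : ℤ) ^ k' ∣ f.leadingCoeff ^ e * f.eval (n : ℤ) :=
        ((pow_dvd_pow _ hkk).trans hdvd).mul_left _
      have := map_dvd (Int.castRingHom (𝓞 F)) h8
      simpa using this
  have hA2' : ((s.filter fun n : ℕ => ¬ (n : ℝ) ≤ (X : ℝ) / M).card : ℝ) < (X : ℝ) / M :=
    lt_of_le_of_lt (by exact_mod_cast hA2) h4
  rw [hsplit]
  push_cast
  have h9 : 2 * ((X : ℝ) / M) ≤ ε * X := by
    rw [div_lt_iff₀ hε] at hM
    rw [← mul_div_assoc, div_le_iff₀ hM0]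
    nlinarith
  linarith

/-- reduction of the squarefree quartic problem to the number field estimate -/
theorem asymp42_of_core
    (h : ∀ (F : Type) [Field F] [NumberField F] (c : Ctx F) (A : ℕ),
      Tendsto (fun X : ℝ => ((Bad c.ϑ 2 A Set.univ X).card : ℝ) / X) atTop (𝓝 0)) :
    Asymp 4 2 := by
  intro f hirr hd hloc
  obtain ⟨F, _, _, ϑ, hinj, hind, hprod⟩ := exists_roots f hirr 3 hd
  have hf0 : f ≠ 0 := by rintro rfl; simp at hd
  have hlc : f.leadingCoeff ≠ 0 := leadingCoeff_ne_zero.mpr hf0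
  have hG : f.integralNormalization.map (Int.castRingHom (𝓞 F)) = ∏ i, (X - C (ϑ i)) := by
    refine eq_of_infinite_eval_eq _ _ (Set.infinite_of_injective_forall_mem
      (f := fun n : ℤ => ((f.leadingCoeff * n : ℤ) : 𝓞 F))
      (fun n n' e => mul_left_cancel₀ hlc (Int.cast_injective e)) fun n => ?_)
    have h1 := integralNormalization_eval₂_leadingCoeff_mul (p := f) (by omega) (RingHom.id ℤ) n
    rw [eval₂_id, eval₂_id, hd] at h1
    rw [Set.mem_ofPred_eq, eval_intCast_map, eval_prod]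
    simp only [eval_sub, eval_X, eval_C, hprod]
    exact congrArg (fun z : ℤ => (z : 𝓞 F)) h1
  let c : Ctx F := ⟨ϑ, f.integralNormalization, hinj, hind, monic_integralNormalization hf0,
    natDegree_integralNormalization.trans hd, fun i => by
      rw [aeval_def, ← eval_map, algebraMap_int_eq, hG, eval_prod]
      exact Finset.prod_eq_zero (Finset.mem_univ i) (by simp)⟩
  exact sieve f 2 le_rfl hirr hloc (pt_tail f 3 hd 2 2 le_rfl ϑ hprod (h F c))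

end Vale.Agent.P018
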