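import Vale.Agent.P018.Q.CellII
import Vale.Agent.P018.Q.Pt

namespace Vale.Agent.P018

open NumberField Polynomial Filter Topology

variable {F : Type} [Field F] [NumberField F]

theorem mn_idx {X ε x : ℝ} (hX : 1 < X) (hε : 0 < ε) (hx : 1 ≤ x) :
    X ^ ((⌊Real.logb X x / ε⌋₊ : ℝ) * ε) ≤ x ∧ x ≤ X ^ ((⌊Real.logb X x / ε⌋₊ : ℝ) * ε + ε) := by
  have hx0 : 0 < x := by linarith
  have h0 : 0 ≤ Real.logb X x := Real.logb_nonneg hX hx
  constructor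
  · rw [← Real.le_logb_iff_rpow_le hX hx0, ← le_div_iff₀ hε]
    exact Nat.floor_le (by positivity)
  · rw [← Real.logb_le_iff_le_rpow hX hx0]
    have := Nat.lt_floor_add_one (Real.logb X x / ε)
    rw [div_lt_iff₀ hε] at this
    linarith

theorem mn_idx_le {X ε x : ℝ} (hX : 1 < X) (hε : ε = 1 / 100000) (hx : 1 ≤ x) (hx3 : x ≤ X ^ 3) :
    ⌊Real.logb X x / ε⌋₊ ∈ Finset.range 300001 := by
  have h1 : Real.logb X x ≤ 3 := by
    rw [Real.logb_le_iff_le_rpow hX (by linarith)]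
    exact_mod_cast hx3
  rw [Finset.mem_range, Nat.lt_succ_iff]
  refine Nat.floor_le_of_le ?_
  rw [hε]
  push_cast
  linarith

theorem mn_cells (Cl X ε B : ℝ) (hX : 1 < X) (hε0 : 0 < ε) (hB : 0 ≤ B) (hCl : 1 ≤ Cl)
    (hcover : ∀ (a : Fin 4 → ℤ) (H : ℝ), 1 ≤ H →
      Finset.univ.gcd a = 1 → (∀ l, |(a l : ℝ)| ≤ H) →
      ∃ (ω1 ω2 : Fin 4 → ℤ) (lam Del : ℕ) (u v : ℤ), IsLine ω1 ω2 lam Del ∧
        a = u • ω1 + v • ω2 ∧ IsCoprime u v ∧ (Del : ℝ) ^ 3 ≤ Cl * H ^ 2 ∧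
        |(u : ℝ)| * lam ≤ Cl * H ∧ |(v : ℝ)| * Del ≤ Cl * H * lam)
    (Z : Finset ℤ) (p : ℤ → ℕ) (e : ℤ → Fin 4 → ℤ) (H : ℤ → ℝ) (I R : Finset ℕ)
    (hR : ∀ x : ℝ, 1 ≤ x → x ≤ X ^ 3 → ⌊Real.logb X x / ε⌋₊ ∈ R)
    (h1 : ∀ N ∈ Z, Finset.univ.gcd (e N) = 1 ∧ (∀ l, |(e N l : ℝ)| ≤ H N) ∧ 1 ≤ H N ∧
      16 * (Cl * H N ^ 2) ≤ X ^ 3 ∧ (1 : ℝ) ≤ p N ∧ ⌊Real.logb X (p N) / ε⌋₊ ∈ I)
    (hcell : ∀ i ∈ I, ∀ j ∈ R, ∀ k ∈ R, ∀ S ⊆ Z,
      ∀ (ω1 ω2 : ℤ → Fin 4 → ℤ) (lam Del : ℤ → ℕ) (u v : ℤ → ℤ),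
      (∀ N ∈ S, InCell Cl X ε (i * ε) (j * ε) (k * ε) (H N) (p N) (e N) (ω1 N) (ω2 N) (lam N)
        (Del N) (u N) (v N)) → (S.card : ℝ) ≤ B) :
    (Z.card : ℝ) ≤ I.card * R.card ^ 2 * B := by
  classical
  have h2 := fun N (hN : N ∈ Z) => hcover (e N) (H N) (h1 N hN).2.2.1 (h1 N hN).1 (h1 N hN).2.1
  choose! ω1 ω2 lam Del u v hL using h2
  let idx : ℤ → ℕ × ℕ × ℕ := fun N =>
    (⌊Real.logb X (p N) / ε⌋₊, ⌊Real.logb X (lam N) / ε⌋₊, ⌊Real.logb X (Del N) / ε⌋₊)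
  have hl : ∀ N ∈ Z, (1 : ℝ) ≤ lam N := fun N hN => by exact_mod_cast (hL N hN).1.pos.1
  have hd : ∀ N ∈ Z, (1 : ℝ) ≤ Del N := fun N hN => by exact_mod_cast (hL N hN).1.pos.2
  refine card_le_of_cover Z ((I ×ˢ R ×ˢ R).image fun x =>
    Z.filter fun N => idx N = x) _ B hB ?_ ?_ ?_
  · refine (Nat.cast_le.mpr Finset.card_image_le).trans (le_of_eq ?_)
    rw [Finset.card_product, Finset.card_product]
    push_cast
    ring
  · intro N hN
    refine ⟨_, Finset.mem_image_of_mem _ (a := idx N) ?_, Finset.mem_filter.mpr ⟨hN, rfl⟩⟩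
    have h3 : (Del N : ℝ) ≤ (Del N : ℝ) ^ 3 := le_self_pow₀ (hd N hN) (by norm_num)
    have h4 : (lam N : ℝ) ≤ (lam N : ℝ) ^ 2 := le_self_pow₀ (hl N hN) (by norm_num)
    have h5 := (hL N hN).1.real.2.2.1
    have h6 := (hL N hN).2.2.2.1
    have h7 := (h1 N hN).2.2.2.1
    have h8 := hd N hN
    exact Finset.mem_product.mpr ⟨(h1 N hN).2.2.2.2.2, Finset.mem_product.mpr
      ⟨hR _ (hl N hN) (by linarith), hR _ (hd N hN) (by linarith)⟩⟩
  · intro T hT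
    obtain ⟨⟨i, j, k⟩, hx, rfl⟩ := Finset.mem_image.mp hT
    obtain ⟨hi, hjk⟩ := Finset.mem_product.mp hx
    obtain ⟨hj, hk⟩ := Finset.mem_product.mp hjk
    refine hcell i hi j hj k hk _ (Finset.filter_subset _ _) ω1 ω2 lam Del u v fun N hN => ?_
    obtain ⟨hN1, hN2⟩ := Finset.mem_filter.mp hN
    simp only [idx, Prod.mk.injEq] at hN2
    obtain ⟨e1, e2, e3⟩ := hN2
    obtain ⟨a1, a2, a3, a4, a5, a6⟩ := hL N hN1
    have b1 := mn_idx hX hε0 (h1 N hN1).2.2.2.2.1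
    have b2 := mn_idx hX hε0 (hl N hN1)
    have b3 := mn_idx hX hε0 (hd N hN1)
    rw [e1] at b1
    rw [e2] at b2
    rw [e3] at b3
    exact ⟨a1, a2, a3, a4, a5, a6, b1.1, b1.2, b2.1, b2.2, b3.1, b3.2⟩

theorem main_count (c : Ctx F) (C : ℝ) (hC : 1 ≤ C) : ∃ C' δ : ℝ, 0 < δ ∧
    ∀ᶠ X : ℝ in atTop, ∀ (M : ℕ) (Z : Finset ℤ) (p : ℤ → ℕ) (a b : ℤ → Fin 4 → ℤ),
      AllPt c C X M Z p a b → (Z.card : ℝ) ≤ C' * X ^ (1 - δ) := by
  classical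
  obtain ⟨ε, hε⟩ : ∃ ε : ℝ, ε = 1 / 100000 := ⟨_, rfl⟩
  have hε0 : 0 < ε := by rw [hε]; norm_num
  obtain ⟨Cl, hCl, hcover⟩ := line_cover
  refine ⟨2 * (300001 * 300001 ^ 2), ε, hε0, ?_⟩
  have hI : ∀ᶠ X : ℝ in atTop, ∀ i ∈ Finset.Icc 100000 137700, ∀ j ∈ Finset.range 300001,
      ∀ k ∈ Finset.range 300001, ∀ (M : ℕ) (Z : Finset ℤ) (p : ℤ → ℕ) (a b ω1 ω2 : ℤ → Fin 4 → ℤ)
      (lam Del : ℤ → ℕ) (u v : ℤ → ℤ), AllPt c C X M Z p a b →
      (∀ N ∈ Z, InCell Cl X ε ((i : ℕ) * ε) ((j : ℕ) * ε) ((k : ℕ) * ε) ((p N : ℝ) ^ (1 / 4 : ℝ))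
        (p N) (a N) (ω1 N) (ω2 N) (lam N) (Del N) (u N) (v N)) → (Z.card : ℝ) ≤ X ^ (1 - ε) := by
    refine (eventually_all_finset _).mpr fun i hi => (eventually_all_finset _).mpr fun j _ =>
      (eventually_all_finset _).mpr fun k _ => ?_
    obtain ⟨h1, h2⟩ := Finset.mem_Icc.mp hi
    have h1' : (100000 : ℝ) ≤ i := by exact_mod_cast h1
    have h2' : (i : ℝ) ≤ 137700 := by exact_mod_cast h2
    exact cellI c C Cl ε _ _ _ hC hCl hε (by rw [hε]; linarith) (by rw [hε]; linarith)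
      (by positivity) (by positivity)
  have hII : ∀ᶠ X : ℝ in atTop, ∀ i ∈ Finset.Icc 137701 300000, ∀ j ∈ Finset.range 300001,
      ∀ k ∈ Finset.range 300001, ∀ (M : ℕ) (Z : Finset ℤ) (p : ℤ → ℕ) (a b ω1 ω2 : ℤ → Fin 4 → ℤ)
      (lam Del : ℤ → ℕ) (u v : ℤ → ℤ), AllPt c C X M Z p a b →
      (∀ N ∈ Z, InCell Cl X ε ((i : ℕ) * ε) ((j : ℕ) * ε) ((k : ℕ) * ε) (C * X / √(p N : ℝ))
        (p N) (b N) (ω1 N) (ω2 N) (lam N) (Del N) (u N) (v N)) → (Z.card : ℝ) ≤ X ^ (1 - ε) := by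
    refine (eventually_all_finset _).mpr fun i hi => (eventually_all_finset _).mpr fun j _ =>
      (eventually_all_finset _).mpr fun k _ => ?_
    obtain ⟨h1, h2⟩ := Finset.mem_Icc.mp hi
    have h1' : (137701 : ℝ) ≤ i := by exact_mod_cast h1
    exact cellII c C Cl ε _ _ _ hC hCl hε (by rw [hε]; linarith) (by positivity) (by positivity)
  filter_upwards [hI, hII, eventually_gt_atTop 1, eventually_ge_atTop (16 * (Cl * C ^ 2))]
    with X hI hII hX hXC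
  intro M Z p a b hpt
  have hX0 : 0 < X := by linarith
  have hp1 : ∀ N ∈ Z, (1 : ℝ) ≤ p N := fun N hN => by exact_mod_cast (hpt N hN).hp.one_le
  have hp2 : ∀ N ∈ Z, √(p N : ℝ) ≤ C * X := fun N hN => by
    have h1 := (hpt N hN).one_le
    rwa [le_div_iff₀ (Real.sqrt_pos.mpr (by linarith [hp1 N hN])), one_mul] at h1
  have hbig : ∀ H : ℝ, 0 ≤ H → H ≤ C * X → 16 * (Cl * H ^ 2) ≤ X ^ 3 := by
    intro H h0 h1
    calc 16 * (Cl * H ^ 2) ≤ 16 * (Cl * (C * X) ^ 2) := by gcongr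
      _ = 16 * (Cl * C ^ 2) * X ^ 2 := by ring
      _ ≤ X * X ^ 2 := by gcongr
      _ = X ^ 3 := by ring
  have hidx : ∀ N ∈ Z, 100000 ≤ ⌊Real.logb X (p N) / ε⌋₊ ∧ ⌊Real.logb X (p N) / ε⌋₊ ≤ 300000 := by
    intro N hN
    constructor
    · refine Nat.le_floor ?_
      have h1 : 1 ≤ Real.logb X (p N) := by
        rw [Real.le_logb_iff_rpow_le hX (by linarith [hp1 N hN]), Real.rpow_one]
        exact (hpt N hN).hXp
      rw [hε]
      push_cast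
      linarith
    · have h1 := hbig _ (Real.sqrt_nonneg _) (hp2 N hN)
      rw [Real.sq_sqrt (by positivity)] at h1
      have h2 := mn_idx_le hX hε (hp1 N hN) (by nlinarith [hp1 N hN])
      rw [Finset.mem_range] at h2
      omega
  have hB : 0 ≤ X ^ (1 - ε) := by positivity
  rw [mul_assoc 2]
  refine ce_split Z (fun N => ⌊Real.logb X (p N) / ε⌋₊ ≤ 137700) _ (fun T hT hT' => ?_)
    (fun T hT hT' => ?_)
  · refine (mn_cells Cl X ε _ hX hε0 hB hCl hcover T p a (fun N => (p N : ℝ) ^ (1 / 4 : ℝ))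
      (Finset.Icc 100000 137700) (Finset.range 300001) (fun x h1 h2 => mn_idx_le hX hε h1 h2)
      (fun N hN => ⟨(hpt N (hT hN)).ha1, (hpt N (hT hN)).ha,
        Real.one_le_rpow (hp1 N (hT hN)) (by norm_num), hbig _ (by positivity) ?_, hp1 N (hT hN),
        Finset.mem_Icc.mpr ⟨(hidx N (hT hN)).1, hT' N hN⟩⟩)
      (fun i hi j hj k hk S hS ω1 ω2 lam Del u v h =>
        hI i hi j hj k hk M S p a b ω1 ω2 lam Del u v (hpt.subset (hS.trans hT)) h)).trans ?_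
    · refine le_trans ?_ (hp2 N (hT hN))
      rw [Real.sqrt_eq_rpow]
      exact Real.rpow_le_rpow_of_exponent_le (hp1 N (hT hN)) (by norm_num)
    · rw [Nat.card_Icc, Finset.card_range]
      refine mul_le_mul_of_nonneg_right ?_ hB
      norm_num
  · refine (mn_cells Cl X ε _ hX hε0 hB hCl hcover T p b (fun N => C * X / √(p N : ℝ))
      (Finset.Icc 137701 300000) (Finset.range 300001) (fun x h1 h2 => mn_idx_le hX hε h1 h2)
      (fun N hN => ⟨(hpt N (hT hN)).hb1, (hpt N (hT hN)).hb,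
        (hpt N (hT hN)).one_le, hbig _ (by positivity) ?_, hp1 N (hT hN),
        Finset.mem_Icc.mpr ⟨Nat.succ_le_of_lt (not_le.mp (hT' N hN)), (hidx N (hT hN)).2⟩⟩)
      (fun i hi j hj k hk S hS ω1 ω2 lam Del u v h =>
        hII i hi j hj k hk M S p a b ω1 ω2 lam Del u v (hpt.subset (hS.trans hT)) h)).trans ?_
    · exact div_le_self (by positivity) (Real.one_le_sqrt.mpr (hp1 N (hT hN)))
    · rw [Nat.card_Icc, Finset.card_range]
      refine mul_le_mul_of_nonneg_right ?_ hB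
      norm_num

theorem core42 (c : Ctx F) (A : ℕ) :
    Tendsto (fun X : ℝ => ((Bad c.ϑ 2 A Set.univ X).card : ℝ) / X) atTop (𝓝 0) := by
  classical
  obtain ⟨C, X0, hC, hex⟩ := pt_exists c A
  obtain ⟨C', δ, hδ, hmain⟩ := main_count c C hC
  have hlim : Tendsto (fun X : ℝ => (C + 1) * |C'| * X ^ (-δ)) atTop (𝓝 0) := by
    have := (tendsto_rpow_neg_atTop hδ).const_mul ((C + 1) * |C'|)
    rwa [mul_zero] at this
  refine squeeze_zero' ?_ ?_ hlim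
  · filter_upwards [eventually_ge_atTop 0] with X hX; positivity
  filter_upwards [hmain, eventually_ge_atTop X0, eventually_gt_atTop 0] with X hmain hX0 hX
  choose! M p a b hpt using hex X hX0
  have h1 : ((Bad c.ϑ 2 A Set.univ X).card : ℝ) ≤ (C + 1) * (|C'| * X ^ (1 - δ)) := by
    refine card_le_of_cover _ ((Finset.range (⌊C⌋₊ + 1)).image fun m =>
      (Bad c.ϑ 2 A Set.univ X).filter fun N => M N = m) _ _ (by positivity) ?_ ?_ ?_
    · refine (Nat.cast_le.mpr Finset.card_image_le).trans ?_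
      rw [Finset.card_range]
      push_cast
      linarith [Nat.floor_le (show 0 ≤ C by linarith)]
    · intro N hN
      exact ⟨_, Finset.mem_image_of_mem _ (Finset.mem_range.mpr (Nat.lt_succ_of_le
        (Nat.le_floor (hpt N hN).hMC))), Finset.mem_filter.mpr ⟨hN, rfl⟩⟩
    · intro T hT
      obtain ⟨m, -, rfl⟩ := Finset.mem_image.mp hT
      refine (hmain m _ p a b fun N hN => ?_).trans (by gcongr; exact le_abs_self _)
      obtain ⟨h1, h2⟩ := Finset.mem_filter.mp hN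
      exact h2 ▸ hpt N h1
  rw [div_le_iff₀ hX]
  refine h1.trans (le_of_eq ?_)
  rw [sub_eq_add_neg, Real.rpow_add hX, Real.rpow_one]
  ring

/-- squarefree values of irreducible quartics -/
theorem asymp42 : Asymp 4 2 := asymp42_of_core fun _ _ _ c A => core42 c A

end Vale.Agent.P018
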