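import Vale.Agent.P018.Q.DimI

namespace Vale.Agent.P018

open Filter Topology Module

section alg

variable {K L : Type} [CommRing K] [CommRing L] [Algebra K L]

/-- the linear forms -/
def pIlin (x y : Fin 4 → K) (s : L) (i : Fin 4) : L :=
  algebraMap K L (x i) * s + algebraMap K L (y i)

/-- the test functions -/
def pIval (x y θ : Fin 4 → K) (s n : L) (B : ℕ) (q : ℕ × (Fin 4 → ℕ)) : L :=
  s ^ q.1 * ∏ i, ((n - algebraMap K L (θ i)) ^ q.2 i * pIlin x y s i ^ (2 * (B - q.2 i)))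

/-- the index sets -/
def pIind (a b : ℕ) : Finset (ℕ × (Fin 4 → ℕ)) :=
  Finset.range (a + 1) ×ˢ Finset.Nat.antidiagonalTuple 4 b

theorem mem_pIind {a b : ℕ} {q : ℕ × (Fin 4 → ℕ)} : q ∈ pIind a b ↔ q.1 ≤ a ∧ ∑ i, q.2 i = b := by
  rw [pIind, Finset.mem_product, Finset.mem_range, Finset.Nat.mem_antidiagonalTuple,
    Nat.lt_succ_iff]

theorem pI_le {I : Fin 4 → ℕ} {b : ℕ} (h : ∑ i, I i = b) (i : Fin 4) : I i ≤ b :=
  h ▸ Finset.single_le_sum (fun _ _ => Nat.zero_le _) (Finset.mem_univ i)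

theorem map_pIval {L' : Type} [CommRing L'] [Algebra K L'] (Ψ : L →ₐ[K] L') (x y θ : Fin 4 → K)
    (s n : L) (B : ℕ) (q : ℕ × (Fin 4 → ℕ)) :
    Ψ (pIval x y θ s n B q) = pIval x y θ (Ψ s) (Ψ n) B q := by
  simp [pIval, pIlin, map_prod]

theorem pIval_shift (x y θ : Fin 4 → K) (s n : L) {b B : ℕ} (hb : b ≤ B)
    {q : ℕ × (Fin 4 → ℕ)} (hq : ∑ i, q.2 i = b) :
    pIval x y θ s n B q = (∏ i, pIlin x y s i ^ (2 * (B - b))) * pIval x y θ s n b q := by
  rw [pIval, pIval, mul_left_comm, ← Finset.prod_mul_distrib]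
  refine congrArg _ (Finset.prod_congr rfl fun i _ => ?_)
  have := pI_le hq i
  rw [show 2 * (B - q.2 i) = 2 * (B - b) + 2 * (b - q.2 i) by omega, pow_add]
  ring

theorem pIval_succ (x y θ : Fin 4 → K) (s n : L) {B j : ℕ} {I : Fin 4 → ℕ} (i : Fin 4)
    (hi : I i < B) : (n - algebraMap K L (θ i)) * pIval x y θ s n B (j, I) =
      pIlin x y s i ^ 2 * pIval x y θ s n B (j, I + Pi.single i 1) := by
  simp only [pIval]
  rw [← Finset.mul_prod_erase _ _ (Finset.mem_univ i),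
    ← Finset.mul_prod_erase Finset.univ _ (Finset.mem_univ i)]
  have h1 : ∏ k ∈ Finset.univ.erase i, ((n - algebraMap K L (θ k)) ^ (I + Pi.single i 1 : Fin 4 → ℕ) k *
      pIlin x y s k ^ (2 * (B - (I + Pi.single i 1 : Fin 4 → ℕ) k))) =
      ∏ k ∈ Finset.univ.erase i, ((n - algebraMap K L (θ k)) ^ I k *
        pIlin x y s k ^ (2 * (B - I k))) :=
    Finset.prod_congr rfl fun k hk => by
      rw [Pi.add_apply, Pi.single_eq_of_ne (Finset.ne_of_mem_erase hk), add_zero]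
  rw [h1, Pi.add_apply, Pi.single_eq_same,
    show 2 * (B - I i) = 2 * (B - (I i + 1)) + 2 by omega]
  ring

theorem pIval_mul_mem (x y θ : Fin 4 → K) (s n : L) {a b B j : ℕ} {I : Fin 4 → ℕ} (i : Fin 4)
    (hj : j ≤ a) (hI : ∑ i, I i = b) : pIlin x y s i ^ 2 * pIval x y θ s n B (j, I) ∈
      Submodule.span K (pIval x y θ s n B '' pIind (a + 2) b) := by
  have h : ∀ t ≤ 2, pIval x y θ s n B (j + t, I) ∈
      Submodule.span K (pIval x y θ s n B '' pIind (a + 2) b) := fun t ht =>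
    Submodule.subset_span ⟨_, Finset.mem_coe.2 (mem_pIind.2 ⟨by simp only; omega, hI⟩), rfl⟩
  have e : pIlin x y s i ^ 2 * pIval x y θ s n B (j, I) =
      (x i ^ 2) • pIval x y θ s n B (j + 2, I) + (2 * x i * y i) • pIval x y θ s n B (j + 1, I)
        + (y i ^ 2) • pIval x y θ s n B (j + 0, I) := by
    simp only [pIval, Algebra.smul_def, map_mul, map_pow, map_ofNat]
    generalize ∏ i, ((n - algebraMap K L (θ i)) ^ I i * pIlin x y s i ^ (2 * (B - I i))) = P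
    rw [pIlin]
    ring
  rw [e]
  exact add_mem (add_mem (Submodule.smul_mem _ _ (h 2 le_rfl))
    (Submodule.smul_mem _ _ (h 1 one_le_two))) (Submodule.smul_mem _ _ (h 0 zero_le_two))

end alg

theorem pI_nest {K L : Type} [Field K] [CommRing L] [Algebra K L] (x y θ : Fin 4 → K)
    (hθ : θ 0 ≠ θ 1) (s n : L) {a b B : ℕ} (hb : b < B) :
    Submodule.span K (pIval x y θ s n B '' pIind a b) ≤
      Submodule.span K (pIval x y θ s n B '' pIind (a + 2) (b + 1)) := by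
  rw [Submodule.span_le]
  rintro _ ⟨⟨j, I⟩, hq, rfl⟩
  obtain ⟨hj, hI⟩ := mem_pIind.1 (Finset.mem_coe.1 hq)
  have h : ∀ i, (n - algebraMap K L (θ i)) * pIval x y θ s n B (j, I) ∈
      Submodule.span K (pIval x y θ s n B '' pIind (a + 2) (b + 1)) := fun i => by
    rw [pIval_succ x y θ s n i ((pI_le hI i).trans_lt hb)]
    refine pIval_mul_mem x y θ s n i hj ?_
    simp only [Pi.add_apply, Finset.sum_add_distrib, Finset.sum_pi_single', Finset.mem_univ,
      if_true]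
    exact congrArg (· + 1) hI
  have h2 := sub_mem (h 1) (h 0)
  have e : (n - algebraMap K L (θ 1)) * pIval x y θ s n B (j, I) -
      (n - algebraMap K L (θ 0)) * pIval x y θ s n B (j, I) =
      (θ 0 - θ 1) • pIval x y θ s n B (j, I) := by
    rw [Algebra.smul_def, map_sub]; ring
  rw [e, Submodule.smul_mem_iff _ (sub_ne_zero.2 hθ)] at h2
  exact h2

theorem pI_dim {K L : Type} [Field K] [CommRing L] [IsDomain L] [Algebra K L] (x y θ : Fin 4 → K)
    (s n : L) (hl : ∀ i, pIlin x y s i ≠ 0) (a : ℕ) {b B : ℕ} (hb : b ≤ B) :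
    finrank K (spanI x y θ s n a b) =
      finrank K (Submodule.span K (pIval x y θ s n B '' pIind a b)) := by
  set P := ∏ i, pIlin x y s i ^ (2 * (B - b)) with hP
  have hP0 : P ≠ 0 := Finset.prod_ne_zero_iff.2 fun i _ => pow_ne_zero _ (hl i)
  have hinj : Function.Injective (LinearMap.mulLeft K P) := mul_right_injective₀ hP0
  rw [(Submodule.equivMapOfInjective _ hinj (spanI x y θ s n a b)).finrank_eq, spanI,
    Submodule.map_span]
  have e : (LinearMap.mulLeft K P) '' {f | ∃ (j : ℕ) (I : Fin 4 → ℕ), j ≤ a ∧ ∑ i, I i = b ∧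
      f = s ^ j * ∏ i, ((n - algebraMap K L (θ i)) ^ I i *
        (algebraMap K L (x i) * s + algebraMap K L (y i)) ^ (2 * (b - I i)))} =
      pIval x y θ s n B '' pIind a b := by
    ext f
    constructor
    · rintro ⟨_, ⟨j, I, hj, hI, rfl⟩, rfl⟩
      exact ⟨(j, I), Finset.mem_coe.2 (mem_pIind.2 ⟨hj, hI⟩), pIval_shift x y θ s n hb hI⟩
    · rintro ⟨q, hq, rfl⟩
      obtain ⟨hj, hI⟩ := mem_pIind.1 (Finset.mem_coe.1 hq)
      exact ⟨_, ⟨q.1, q.2, hj, hI, rfl⟩, (pIval_shift x y θ s n hb hI).symm⟩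
  rw [e]

open MvPolynomial in
theorem pI_totalDegree {K : Type} [Field K] (x y θ : Fin 4 → K) {a b B : ℕ} (hb : b ≤ B)
    {q : ℕ × (Fin 4 → ℕ)} (hq : q ∈ pIind a b) :
    (pIval x y θ (X 0 : MvPolynomial (Fin 2) K) (X 1) B q).totalDegree ≤ a + 8 * B := by
  obtain ⟨hj, hI⟩ := mem_pIind.1 hq
  have h1 : ∀ i, (pIlin x y (X 0 : MvPolynomial (Fin 2) K) i).totalDegree ≤ 1 := fun i => by
    refine (totalDegree_add _ _).trans (max_le ((totalDegree_mul _ _).trans ?_) ?_) <;>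
      simp [algebraMap_eq]
  have h2 : ∀ i, (X 1 - algebraMap K (MvPolynomial (Fin 2) K) (θ i)).totalDegree ≤ 1 := fun i =>
    (totalDegree_sub_C_le _ _).trans (by simp)
  refine (totalDegree_mul _ _).trans (add_le_add ((totalDegree_pow _ _).trans (by simpa)) ?_)
  refine (totalDegree_finsetProd _ _).trans ?_
  refine (Finset.sum_le_sum (g := fun _ => 2 * B) fun i _ => ?_).trans (by simp; omega)
  refine (totalDegree_mul _ _).trans ((add_le_add
    ((totalDegree_pow _ _).trans (Nat.mul_le_mul_left _ (h2 i)))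
    ((totalDegree_pow _ _).trans (Nat.mul_le_mul_left _ (h1 i)))).trans ?_)
  have := pI_le hI i
  omega

open MvPolynomial in
theorem pI_coeff {K : Type} [Field K] (R : Subring K) (x y θ : Fin 4 → K) (hx : ∀ i, x i ∈ R)
    (hy : ∀ i, y i ∈ R) (hθ : ∀ i, θ i ∈ R) (B : ℕ) (q : ℕ × (Fin 4 → ℕ)) (e : Fin 2 →₀ ℕ) :
    (pIval x y θ (X 0 : MvPolynomial (Fin 2) K) (X 1) B q).coeff e ∈ R := by
  set T := (MvPolynomial.map (σ := Fin 2) R.subtype).range with hT
  have hX : ∀ i, (X i : MvPolynomial (Fin 2) K) ∈ T := fun i => ⟨X i, map_X _ _⟩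
  have hC : ∀ z ∈ R, algebraMap K (MvPolynomial (Fin 2) K) z ∈ T := fun z hz =>
    ⟨C ⟨z, hz⟩, map_C _ _⟩
  have h : pIval x y θ (X 0 : MvPolynomial (Fin 2) K) (X 1) B q ∈ T :=
    mul_mem (pow_mem (hX 0) _) (prod_mem fun i _ => mul_mem
      (pow_mem (sub_mem (hX 1) (hC _ (hθ i))) _)
      (pow_mem (add_mem (mul_mem (hC _ (hx i)) (hX 0)) (hC _ (hy i))) _))
  obtain ⟨g, hg⟩ := h
  rw [← hg, coeff_map]
  exact (g.coeff e).2

/-- the value of a test function at a point -/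
theorem pI_value {K : Type} [Field K] (x y θ α β : Fin 4 → K) (u v N M : K) (hv : v ≠ 0)
    (hα : ∀ i, α i = u * x i + v * y i) (hα0 : ∀ i, α i ≠ 0)
    (hβ : ∀ i, α i ^ 2 * β i = M * (N - θ i)) {m b' B : ℕ} (hb : m + b' ≤ B)
    {q : ℕ × (Fin 4 → ℕ)} (hq : q ∈ pIind (2 * m + 1) (m + b')) :
    u ^ q.1 * v ^ (2 * m + 1 - q.1) * ∏ i, β i ^ q.2 i =
      (v * v⁻¹ ^ (2 * b') * ∏ i, (v * (α i)⁻¹) ^ (2 * B)) * M ^ (m + b') *
        pIval x y θ (u / v) N B q := by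
  obtain ⟨hj, hI⟩ := mem_pIind.1 hq
  have hl : ∀ i, pIlin x y (u / v) i = α i / v := fun i => by
    rw [hα, pIlin]; simp only [Algebra.algebraMap_self, RingHom.id_apply]; field_simp
  have h1 : ∀ i, (v * (α i)⁻¹) ^ (2 * B) * (M ^ q.2 i *
      ((N - algebraMap K K (θ i)) ^ q.2 i * pIlin x y (u / v) i ^ (2 * (B - q.2 i)))) =
      (v ^ 2) ^ q.2 i * β i ^ q.2 i := fun i => by
    obtain ⟨d, hd⟩ := Nat.exists_eq_add_of_le ((pI_le hI i).trans hb)
    have h0 := hα0 i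
    rw [hl, ← mul_assoc (M ^ _), ← mul_pow, Algebra.algebraMap_self, RingHom.id_apply, ← hβ, hd,
      Nat.add_sub_cancel_left]
    simp only [mul_pow, div_pow, inv_pow]
    field_simp
    ring
  have h2 := Finset.prod_congr (s₁ := Finset.univ) rfl fun i _ => h1 i
  rw [Finset.prod_mul_distrib, Finset.prod_mul_distrib, Finset.prod_mul_distrib (f := fun i =>
    (v ^ 2) ^ q.2 i), Finset.prod_pow_eq_pow_sum, Finset.prod_pow_eq_pow_sum, hI] at h2
  obtain ⟨d, hd⟩ := Nat.exists_eq_add_of_le hj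
  have h3 : (v ^ 2) ^ (m + b') = v ^ q.1 * v ^ d * v ^ (2 * b') / v := by
    rw [← pow_add, ← hd]; field_simp; ring
  rw [pIval, hd, Nat.add_sub_cancel_left]
  calc u ^ q.1 * v ^ d * ∏ i, β i ^ q.2 i
      = (v * v⁻¹ ^ (2 * b')) * (u / v) ^ q.1 * ((v ^ 2) ^ (m + b') * ∏ i, β i ^ q.2 i) := by
        rw [h3, div_pow, inv_pow]; field_simp
    _ = _ := by rw [← h2]; ring

/-- the numerical condition -/
theorem pI_num (υ βe w κ : ℝ) (hκ : 0 < κ)
    (hnum : 10 * κ ^ 2 * (2 * υ + βe) + 2 * (10 * κ + 6) * βe < w * (10 * κ + 6) ^ 2) :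
    ∃ J b : ℕ, 1 ≤ b ∧ υ * (10 * J * (J + 1) + (10 * J + 6 * b)) +
      βe * (5 * J * (J + 1) + b * (10 * J + 6 * b)) <
        w * ((5 * J + 3 * b) * (10 * J + 6 * b - 1)) := by
  have h1 : Tendsto (fun b : ℕ => (⌈κ * b⌉₊ : ℝ) / b) atTop (𝓝 κ) :=
    (tendsto_nat_ceil_mul_div_atTop hκ.le).comp tendsto_natCast_atTop_atTop
  have h2 : Tendsto (fun b : ℕ => (b : ℝ)⁻¹) atTop (𝓝 0) := tendsto_inv_atTop_nhds_zero_nat
  let G : ℝ × ℝ → ℝ := fun z => w * ((5 * z.1 + 3) * (10 * z.1 + 6 - z.2)) -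
    (υ * (10 * z.1 * (z.1 + z.2) + (10 * z.1 + 6) * z.2) +
      βe * (5 * z.1 * (z.1 + z.2) + (10 * z.1 + 6)))
  have hG : Continuous G := by fun_prop
  have h3 := (hG.tendsto (κ, 0)).comp (h1.prodMk_nhds h2)
  have h4 : 0 < G (κ, 0) := by simp only [G]; nlinarith
  obtain ⟨b, hb, hb1⟩ := ((h3.eventually (lt_mem_nhds h4)).and (eventually_ge_atTop 1)).exists
  refine ⟨⌈κ * b⌉₊, b, hb1, ?_⟩
  have hb0 : (0 : ℝ) < b := by exact_mod_cast hb1
  simp only [Function.comp, G] at hb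
  generalize (⌈κ * b⌉₊ : ℝ) = J at hb ⊢
  have h5 := mul_pos hb (pow_pos hb0 2)
  rw [← sub_pos]
  refine h5.trans_eq ?_
  field_simp

end Vale.Agent.P018
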