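import Vale.Agent.P018.Q.SecI
import Vale.Agent.P018.Q.PadicIAux

namespace Vale.Agent.P018

open NumberField Polynomial Filter

variable {F : Type} [Field F] [NumberField F]

theorem pI_cf_lin (c : Ctx F) (ω ω' : Fin 4 → ℤ) (u v : ℤ) (i : Fin 4) :
    c.cf (u • ω + v • ω') i = u * c.cf ω i + v * c.cf ω' i := by
  simp only [Ctx.cf, Ctx.cj, pv, Pi.add_apply, Pi.smul_apply, smul_eq_mul]
  push_cast
  simp only [Finset.mul_sum, ← Finset.sum_add_distrib]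
  refine Finset.sum_congr rfl fun l _ => ?_
  simp only [map_intCast]
  ring

theorem pI_inv_int {π : ℕ} (hπ : π.Prime) {n : ℤ} (hn : ¬ (π : ℤ) ∣ n) :
    (n : F)⁻¹ ∈ locR F π := by
  simpa using inv_mem_locR π hπ (n : 𝓞 F) n dvd_rfl hn

/-- the bound for the points which are good for one auxiliary prime -/
theorem pI_prime (c : Ctx F) {C X : ℝ} {D c0 C0 J b' M : ℕ} {Z : Finset ℤ} {p : ℤ → ℕ}
    {a b : ℤ → Fin 4 → ℤ} {ω ω' : Fin 4 → ℤ} {u v : ℤ → ℤ} {G' : ℤ[X][X]}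
    {Ψ : MvPolynomial (Fin 2) F →ₐ[F] PowerSeries F} {π : ℕ} (hπ : π.Prime) (hM : M ≠ 0)
    (hpt : AllPt c C X M Z p a b) (hZ : ∀ N ∈ Z, a N = u N • ω + v N • ω') {U V : ℝ}
    (hU : ∀ N ∈ Z, |(u N : ℝ)| ≤ U ∧ |(v N : ℝ)| ≤ U)
    (hV : ∀ N ∈ Z, ∀ (ψ : F →+* ℂ) i, ‖emb ψ (c.cj (b N) i)‖ ≤ V)
    (hG0 : G' ≠ 0) (hG1 : G'.natDegree ≤ D) (hG2 : ∀ j, (G'.coeff j).natDegree ≤ D)
    (hG : ∀ N ∈ Z, (G'.map (mapRingHom (Int.castRingHom F))).evalEval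
      ((u N : F) / (v N : F)) (N : F) = 0)
    (hav : ∀ N ∈ Z, ¬ (π : ℤ) ∣ v N ∧ (∃ r : ℤ, ¬ (π : ℤ) ∣ r ∧ ∏ i, c.cj (a N) i = r) ∧
      ∃ n : ℤ, ¬ (π : ℤ) ∣ n ∧ (n : F) = (v N : F) ^ D *
        ((derivative G').map (mapRingHom (Int.castRingHom F))).evalEval
          ((u N : F) / (v N : F)) (N : F))
    (hg : ∀ m, grow Ψ m ≤ c0 * m + C0)
    (hker : ∀ N ∈ Z, ∀ f, Ψ f = 0 → MvPolynomial.eval ![(u N : F) / (v N : F), (N : F)] f = 0)
    {Dm E : ℕ} (hED : 2 * E ≤ Dm * (Dm - 1)) (lev : Fin Dm → ℕ) (x : Fin Dm → ℕ × (Fin 4 → ℕ))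
    (hx : ∀ r, lev r ≤ J ∧ x r ∈ pIind (2 * lev r + 1) (lev r + b'))
    (hli : LinearIndependent F fun r => pIval (c.cf ω) (c.cf ω') c.θf (Ψ (MvPolynomial.X 0))
      (Ψ (MvPolynomial.X 1)) (J + b') (x r))
    (hlt : (Dm.factorial : ℝ) * ∏ r, (U ^ (2 * lev r + 1) * V ^ (lev r + b')) < (π : ℝ) ^ E) :
    (Z.card : ℝ) ≤ (D * π : ℕ) * (c0 * (2 * J + 1 + 8 * (J + b')) : ℕ) := by
  have hv0 : ∀ N ∈ Z, (v N : F) ≠ 0 := fun N hN =>
    Int.cast_ne_zero.2 fun h => (hav N hN).1 (h ▸ dvd_zero _)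
  have hd : ∀ N ∈ Z, ((derivative G').map (mapRingHom (Int.castRingHom F))).evalEval
        ((u N : F) / (v N : F)) (N : F) ≠ 0 ∧
      (((derivative G').map (mapRingHom (Int.castRingHom F))).evalEval
        ((u N : F) / (v N : F)) (N : F))⁻¹ ∈ locR F π := fun N hN => by
    obtain ⟨-, -, n, hn, he⟩ := hav N hN
    have hn0 : (n : F) ≠ 0 := Int.cast_ne_zero.2 fun h => hn (h ▸ dvd_zero _)
    have h1 := right_ne_zero_of_mul (he ▸ hn0)
    refine ⟨h1, ?_⟩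
    have h2 := mul_mem (pow_mem (intCast_mem (locR F π) (v N)) D) (pI_inv_int (F := F) hπ hn)
    rwa [he, mul_inv, ← mul_assoc, mul_inv_cancel₀ (pow_ne_zero _ (hv0 N hN)), one_mul] at h2
  have hα : ∀ N ∈ Z, ∀ i, c.cf (a N) i ≠ 0 ∧ (c.cf (a N) i)⁻¹ ∈ locR F π := fun N hN i => by
    obtain ⟨-, ⟨r, hr, he⟩, -⟩ := hav N hN
    have h1 : c.cj (a N) i ∣ (r : 𝓞 F) := he ▸ Finset.dvd_prod_of_mem _ (Finset.mem_univ i)
    refine ⟨fun h => hr ?_, inv_mem_locR π hπ _ r h1 hr⟩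
    have h2 : c.cj (a N) i = 0 := RingOfIntegers.coe_eq_zero_iff.1 h
    rw [h2, zero_dvd_iff, Int.cast_eq_zero] at h1
    exact h1 ▸ dvd_zero _
  obtain ⟨G2, -, -, hc2, he2⟩ := exists_mv D (F := F) G' hG0 hG1 hG2
  obtain ⟨𝒯, hT1, hT2, hT3⟩ := plane_classes (F := F) D π hπ G' hG1 Z u v
    (fun N hN => (hav N hN).1) hG hd
  refine card_le_of_cover Z 𝒯 _ _ (Nat.cast_nonneg _) (Nat.cast_le.2 hT1) hT2 fun T hT => ?_
  obtain ⟨hTZ, hcong⟩ := hT3 T hT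
  refine Nat.cast_le.2 (class_bound (n := 1) π E hπ hED (fun _ => G2) (fun _ e => ?_)
    (fun k j _ => ?_) T (fun N => ![(u N : F) / (v N : F), (N : F)]) (fun N _ N' _ h => ?_)
    (fun N hN j => ?_) (fun N hN _ => ?_) (fun N hN k => ?_) (fun N hN N' hN' j => ?_) Ψ c0 C0 _ hg
    (fun N hN => hker N (hTZ hN))
    (fun r => pIval (c.cf ω) (c.cf ω') c.θf (MvPolynomial.X 0) (MvPolynomial.X 1) (J + b') (x r))
    (fun r e => pI_coeff _ _ _ _ (fun _ => coe_mem_locR π _) (fun _ => coe_mem_locR π _)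
      (fun _ => coe_mem_locR π _) _ _ e) (fun r => ?_) (by simpa only [map_pIval] using hli)
    (fun N r => (u N : 𝓞 F) ^ (x r).1 * (v N : 𝓞 F) ^ (2 * lev r + 1 - (x r).1) *
      ∏ i, c.cj (b N) i ^ (x r).2 i)
    (fun N => (v N : F) * (v N : F)⁻¹ ^ (2 * b') *
      ∏ i, ((v N : F) * (c.cf (a N) i)⁻¹) ^ (2 * (J + b')))
    (fun r => (M : F) ^ (lev r + b')) (fun r => ?_) (fun N hN => ?_) (fun N hN r => ?_) _
    (fun N hN r ψ => ?_) hlt)
  · obtain ⟨z, hz⟩ := hc2 e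
    rw [hz]
    exact intCast_mem _ z
  · rw [Subsingleton.elim k 0]
    exact Fin.le_last j
  · exact Int.cast_injective (α := F) (congrFun h 1)
  · fin_cases j
    · simp only [Fin.zero_eta, Matrix.cons_val_zero, div_eq_mul_inv]
      exact mul_mem (intCast_mem _ _) (pI_inv_int hπ (hav N (hTZ hN)).1)
    · exact intCast_mem (locR F π) N
  · rw [(he2 _).1]
    exact hG N (hTZ hN)
  · rw [Subsingleton.elim k 0, show (0 : Fin 1).succ = 1 from rfl, (he2 _).2]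
    exact hd N (hTZ hN)
  · fin_cases j
    · exact (hcong N hN N' hN').1
    · exact (hcong N hN N' hN').2
  · have h1 := (hx r).1
    exact (pI_totalDegree _ _ _ (by omega) (hx r).2).trans (by omega)
  · exact ⟨pow_ne_zero _ (Nat.cast_ne_zero.2 hM), pow_mem (natCast_mem _ _) _⟩
  · have h0 := hv0 N (hTZ hN)
    have h1 := hα N (hTZ hN)
    refine ⟨mul_ne_zero (mul_ne_zero h0 (pow_ne_zero _ (inv_ne_zero h0)))
      (Finset.prod_ne_zero_iff.2 fun i _ => pow_ne_zero _ (mul_ne_zero h0 (inv_ne_zero (h1 i).1))),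
      mul_mem (mul_mem (intCast_mem _ _) (pow_mem (pI_inv_int hπ (hav N (hTZ hN)).1) _))
        (prod_mem fun i _ => pow_mem (mul_mem (intCast_mem _ _) (h1 i).2) _)⟩
  · have h1 := (hx r).1
    have h2 := pI_value (c.cf ω) (c.cf ω') c.θf (c.cf (a N)) (c.cf (b N)) (u N) (v N) N M
      (hv0 N (hTZ hN)) (fun i => by rw [hZ N (hTZ hN), pI_cf_lin]) (fun i => (hα N (hTZ hN) i).1)
      (fun i => by
        simpa [Ctx.cf, Ctx.θf] using congrArg (algebraMap (𝓞 F) F) ((hpt N (hTZ hN)).hab i))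
      (B := J + b') (by omega) (hx r).2
    rw [← MvPolynomial.aeval_eq_eval, map_pIval, MvPolynomial.aeval_X, MvPolynomial.aeval_X]
    refine Eq.trans ?_ h2
    simp [Ctx.cf]
  · obtain ⟨hj, hI⟩ := mem_pIind.1 (hx r).2
    obtain ⟨h1, h2⟩ := hU N (hTZ hN)
    have hU0 : 0 ≤ U := (abs_nonneg _).trans h1
    simp only [map_mul, map_pow, map_prod, map_intCast, norm_mul, norm_pow, norm_prod,
      Complex.norm_intCast]
    calc _ ≤ U ^ (x r).1 * U ^ (2 * lev r + 1 - (x r).1) * ∏ i, V ^ (x r).2 i := by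
          gcongr with i
          exact hV N (hTZ hN) ψ i
      _ = _ := by rw [← pow_add, Nat.add_sub_cancel' hj, Finset.prod_pow_eq_pow_sum, hI]

theorem pI_lin_ne (c : Ctx F) {ω ω' : Fin 4 → ℤ} (hpc : ∀ i j, i ≠ j → c.pc ω ω' i j ≠ 0)
    {s : PowerSeries F} (hs : ∀ q : F[X], aeval s q = 0 → q = 0) (i : Fin 4) :
    pIlin (c.cf ω) (c.cf ω') s i ≠ 0 := by
  intro h
  have h1 := hs (C (c.cf ω i) * X + C (c.cf ω' i)) (by simpa [pIlin] using h)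
  have h2 : c.cf ω i = 0 := by simpa using congrArg (fun q => q.coeff 1) h1
  have h3 : c.cf ω' i = 0 := by simpa using congrArg (fun q => q.coeff 0) h1
  obtain ⟨j, hj⟩ := exists_ne i
  refine hpc i j hj.symm ?_
  rw [Ctx.pc, RingOfIntegers.coe_eq_zero_iff.1 h2, RingOfIntegers.coe_eq_zero_iff.1 h3]
  simp

theorem pI_sum (J : ℕ) : ∑ m ∈ Finset.range J, (m + 1) * 10 = 5 * J * (J + 1) := by
  induction J with
  | zero => simp
  | succ J ih => rw [Finset.sum_range_succ, ih]; ring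

/-- Part I: the `π`-adic determinant method on one branch kernel -/
theorem padicI (c : Ctx F) (C υ βe w κ : ℝ) (D K c0 C0 : ℕ) (hC : 1 ≤ C) (hκ : 0 < κ) (hυ : 0 ≤ υ)
    (hβe : 0 ≤ βe) (hw : 0 < w)
    (hnum : 10 * κ ^ 2 * (2 * υ + βe) + 2 * (10 * κ + 6) * βe < w * (10 * κ + 6) ^ 2) :
    ∃ (J b' : ℕ) (C' : ℝ), 1 ≤ b' ∧ ∀ᶠ X : ℝ in atTop, ∀ (M : ℕ) (Z : Finset ℤ) (p : ℤ → ℕ)
      (a b : ℤ → Fin 4 → ℤ) (ω ω' : Fin 4 → ℤ) (u v : ℤ → ℤ) (G' : ℤ[X][X])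
      (Ψ : MvPolynomial (Fin 2) F →ₐ[F] PowerSeries F), AllPt c C X M Z p a b →
      (∀ i j, i ≠ j → c.pc ω ω' i j ≠ 0) →
      (∀ N ∈ Z, a N = u N • ω + v N • ω' ∧ v N ≠ 0 ∧ |(u N : ℝ)| ≤ X ^ υ ∧ |(v N : ℝ)| ≤ X ^ υ) →
      (∀ N ∈ Z, X / √(p N : ℝ) ≤ X ^ βe) →
      G' ≠ 0 → G'.natDegree ≤ D → (∀ j, (G'.coeff j).natDegree ≤ D) →
      (∀ N ∈ Z, (G'.map (mapRingHom (Int.castRingHom F))).evalEval
          ((u N : F) / (v N : F)) (N : F) = 0 ∧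
        ∃ n : ℤ, n ≠ 0 ∧ |(n : ℝ)| ≤ X ^ K ∧ (n : F) = (v N : F) ^ D *
          ((derivative G').map (mapRingHom (Int.castRingHom F))).evalEval
            ((u N : F) / (v N : F)) (N : F)) →
      (∀ m, grow Ψ m ≤ c0 * m + C0) →
      (∀ N ∈ Z, ∀ f, Ψ f = 0 → MvPolynomial.eval ![(u N : F) / (v N : F), (N : F)] f = 0) →
      (∀ q : F[X], aeval (Ψ (MvPolynomial.X 0)) q = 0 → q = 0) →
      (∀ m, m ≤ J → 2 * (2 * m + 1) + 6 * (m + b') ≤ Module.finrank F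
        (spanI (c.cf ω) (c.cf ω') c.θf (Ψ (MvPolynomial.X 0)) (Ψ (MvPolynomial.X 1))
          (2 * m + 1) (m + b')) + 2) →
      (Z.card : ℝ) ≤ C' * X ^ w := by
  classical
  obtain ⟨J, b', hb', hJ⟩ := pI_num υ βe w κ hκ hnum
  obtain ⟨C1, hC1, -, hsz⟩ := fib_size c
  obtain ⟨k, hk⟩ := primes_avoid (K + ⌈υ⌉₊ + 5) w hw
  set A : ℕ := 10 * J * (J + 1) + (10 * J + 6 * b') with hA
  set B : ℕ := 5 * J * (J + 1) + b' * (10 * J + 6 * b') with hB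
  set E : ℕ := (5 * J + 3 * b') * (10 * J + 6 * b' - 1) with hE
  have hJ' : 0 < w * E - (υ * A + βe * B) := by
    rw [hA, hB, hE]
    push_cast [Nat.cast_sub (show 1 ≤ 10 * J + 6 * b' by omega)]
    linarith
  refine ⟨J, b', k * (D * k * (c0 * (2 * J + 1 + 8 * (J + b')) : ℕ)), hb', ?_⟩
  filter_upwards [eventually_ge_atTop 2, eventually_ge_atTop C, (tendsto_rpow_atTop hJ').eventually
    (eventually_gt_atTop (((10 * J + 6 * b').factorial : ℝ) * (C1 * C) ^ B))] with X hX2 hXC hXE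
  intro M Z p a b ω ω' u v G' Ψ hpt hpc hZ hp hG0 hG1 hG2 hG hg hker hs hdim
  have hX0 : 0 < X := by linarith
  have hX1 : 1 ≤ X := by linarith
  rcases Z.eq_empty_or_nonempty with rfl | ⟨N0, hN0⟩
  · simp only [Finset.card_empty, Nat.cast_zero]; positivity
  have hM : M ≠ 0 := (hpt N0 hN0).hM0.ne'
  have hθ : c.θf 0 ≠ c.θf 1 := fun h =>
    zero_ne_one (c.hinj (RingOfIntegers.coe_injective h))
  obtain ⟨lev, x, hx, hli, hsum⟩ := nested_basis (K := F) J (fun m => pIind (2 * m + 1) (m + b'))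
    (fun _ => pIval (c.cf ω) (c.cf ω') c.θf (Ψ (MvPolynomial.X 0)) (Ψ (MvPolynomial.X 1)) (J + b'))
    (fun m => 10 * m + 6 * b') (fun m m' h => by simp only; omega)
    (fun m hm => by
      rw [show 2 * (m + 1) + 1 = 2 * m + 1 + 2 by ring, show m + 1 + b' = m + b' + 1 by ring]
      exact pI_nest _ _ _ hθ _ _ (by omega))
    (fun m hm => by
      have := hdim m hm
      rw [pI_dim _ _ _ _ _ (pI_lin_ne c hpc hs) _ (B := J + b') (by omega)] at this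
      omega)
  have hsum' : ∑ r, lev r = 5 * J * (J + 1) := by
    rw [hsum, ← pI_sum]
    exact Finset.sum_congr rfl fun m _ => by congr 1; omega
  have hprod : ∏ r, ((X ^ υ) ^ (2 * lev r + 1) * (C1 * C * X ^ βe) ^ (lev r + b')) =
      (C1 * C) ^ B * X ^ (υ * A + βe * B) := by
    rw [Finset.prod_mul_distrib, Finset.prod_pow_eq_pow_sum, Finset.prod_pow_eq_pow_sum,
      Finset.sum_add_distrib, Finset.sum_add_distrib, ← Finset.mul_sum, hsum']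
    simp only [Finset.sum_const, Finset.card_univ, Fintype.card_fin, smul_eq_mul]
    rw [show 2 * (5 * J * (J + 1)) + (10 * J + 6 * b') * 1 = A by rw [hA]; ring,
      show 5 * J * (J + 1) + (10 * J + 6 * b') * b' = B by rw [hB]; ring,
      Real.rpow_add hX0, Real.rpow_mul hX0.le, Real.rpow_mul hX0.le, Real.rpow_natCast,
      Real.rpow_natCast, mul_pow (C1 * C)]
    ring
  obtain ⟨Pr, hPr1, hPr2, hPr3⟩ := hk X hX2
  choose! n hn0 hn1 hn2 using fun N hN => (hG N hN).2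
  choose! m hm0 hm1 hm2 using fun N hN => (hpt N hN).hnorm
  have hcov : ∀ N ∈ Z, ∃ π ∈ Pr, ¬ (π : ℤ) ∣ n N * v N * (p N * m N) := fun N hN => by
    have hp0 : (p N : ℤ) ≠ 0 := Nat.cast_ne_zero.2 (hpt N hN).hp.ne_zero
    refine hPr3 _ (mul_ne_zero (mul_ne_zero (hn0 N hN) (hZ N hN).2.1)
      (mul_ne_zero hp0 (hm0 N hN))) ?_
    have h1 : |(v N : ℝ)| ≤ X ^ ⌈υ⌉₊ := by
      refine (hZ N hN).2.2.2.trans ?_
      rw [← Real.rpow_natCast]
      exact Real.rpow_le_rpow_of_exponent_le hX1 (Nat.le_ceil υ)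
    have h2 : (p N : ℝ) ≤ X ^ 4 := by
      have h3 := (hpt N hN).fib_sqrt
      calc (p N : ℝ) = (((p N : ℝ) ^ (1 / 4 : ℝ)) ^ 2) ^ 2 := by rw [← pow_mul, fib_q4]
        _ ≤ (X * X) ^ 2 := by gcongr; exact h3.trans (by gcongr)
        _ = X ^ 4 := by ring
    push_cast
    rw [abs_mul, abs_mul, abs_mul, Nat.abs_cast]
    calc _ ≤ X ^ K * X ^ ⌈υ⌉₊ * (X ^ 4 * X) := by
          gcongr
          exacts [hn1 N hN, (hm1 N hN).trans hXC]
      _ = _ := by ring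
  rw [mul_assoc]
  refine card_le_of_cover Z (Pr.image fun π : ℕ =>
    Z.filter fun N => ¬ (π : ℤ) ∣ n N * v N * (p N * m N)) _ _ (by positivity)
    (Nat.cast_le.2 (Finset.card_image_le.trans hPr1)) (fun N hN => ?_) fun T hT => ?_
  · obtain ⟨π, hπ, h⟩ := hcov N hN
    exact ⟨_, Finset.mem_image_of_mem _ hπ, Finset.mem_filter.2 ⟨hN, h⟩⟩
  obtain ⟨π, hπ, rfl⟩ := Finset.mem_image.1 hT
  obtain ⟨hπ1, hπ2, hπ3⟩ := hPr2 π hπ
  have hs : ∀ N ∈ Z.filter fun N => ¬ (π : ℤ) ∣ n N * v N * (p N * m N), N ∈ Z :=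
    fun N hN => (Finset.mem_filter.1 hN).1
  refine (pI_prime c (E := E) hπ1 hM (fun N hN => hpt N (hs N hN)) (fun N hN => (hZ N (hs N hN)).1)
    (fun N hN => (hZ N (hs N hN)).2.2) (V := C1 * C * X ^ βe) (fun N hN ψ i => ?_) hG0 hG1 hG2
    (fun N hN => (hG N (hs N hN)).1) (fun N hN => ?_) hg (fun N hN => hker N (hs N hN))
    (le_of_eq (by rw [hE]; ring)) lev x hx hli ?_).trans ?_
  · refine (hsz ψ i _ _ (hpt N (hs N hN)).hb).trans ?_
    rw [mul_div_assoc, mul_assoc]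
    gcongr
    exact hp N (hs N hN)
  · have h := (Finset.mem_filter.1 hN).2
    refine ⟨fun h1 => h ((h1.mul_left _).mul_right _), ⟨p N * m N, fun h1 => h (h1.mul_left _), ?_⟩,
      n N, fun h1 => h ((h1.mul_right _).mul_right _), hn2 N (hs N hN)⟩
    rw [hm2 N (hs N hN)]
    push_cast
    rfl
  · rw [hprod, ← mul_assoc]
    calc _ < X ^ (w * E - (υ * A + βe * B)) * X ^ (υ * A + βe * B) := by gcongr
      _ = (X ^ w) ^ E := by
        rw [← Real.rpow_add hX0, sub_add_cancel, Real.rpow_mul hX0.le, Real.rpow_natCast]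
      _ ≤ _ := by gcongr
  · rw [Nat.cast_mul D]
    calc _ ≤ (D * (k * X ^ w)) * ((c0 * (2 * J + 1 + 8 * (J + b')) : ℕ) : ℝ) := by gcongr
      _ = _ := by ring

end Vale.Agent.P018
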