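import Vale.Agent.P018.Q.Defs

namespace Vale.Agent.P018

open Polynomial

theorem pc_cover (Ω : Finset ℤ) (r : ℕ) (L x g : ℝ) (hL : 0 < L) (hg : 0 ≤ g)
    (h : ∀ T ⊆ Ω, T.card = r → ¬ ∀ a ∈ T, ∀ b ∈ T, |(a : ℝ) - b| ≤ L) :
    ((Ω.filter fun t : ℤ => |(t : ℝ) - x| ≤ g).card : ℝ) ≤ r * (2 * g / L + 1) := by
  have h1 := Finset.card_le_mul_card_image_of_maps_to
    (s := Ω.filter fun t : ℤ => |(t : ℝ) - x| ≤ g) (t := Finset.range (⌊2 * g / L⌋₊ + 1))
    (f := fun t : ℤ => ⌊((t : ℝ) - x + g) / L⌋₊) (fun a ha => by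
      have := (abs_le.1 (Finset.mem_filter.1 ha).2).2
      exact Finset.mem_range.2 (Nat.lt_succ_of_le (Nat.floor_le_floor (by gcongr; linarith))))
    r (fun k _ => by
      by_contra hc
      obtain ⟨T, hT, hc⟩ := Finset.exists_subset_card_eq (not_le.1 hc).le
      have key : ∀ a ∈ T, (k : ℝ) * L ≤ a - x + g ∧ a - x + g ≤ (k + 1) * L := fun a ha => by
        obtain ⟨h2, h3⟩ := Finset.mem_filter.1 (hT ha)
        have h4 := (abs_le.1 (Finset.mem_filter.1 h2).2).1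
        rw [← le_div_iff₀ hL, ← div_le_iff₀ hL, ← h3]
        exact ⟨Nat.floor_le (div_nonneg (by linarith) hL.le), (Nat.lt_floor_add_one _).le⟩
      refine h T (fun a ha => (Finset.mem_filter.1 (Finset.mem_filter.1 (hT ha)).1).1) hc
        fun a ha b hb => ?_
      have := key a ha
      have := key b hb
      exact abs_le.2 ⟨by linarith, by linarith⟩)
  rw [Finset.card_range] at h1
  have h2 := Nat.floor_le (by positivity : 0 ≤ 2 * g / L)
  calc _ ≤ ((r * (⌊2 * g / L⌋₊ + 1) : ℕ) : ℝ) := by exact_mod_cast h1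
    _ ≤ _ := by push_cast; gcongr

theorem pc_det (e r : ℕ) (he : 1 ≤ e) (q : ℚ[X]) (hq : q.natDegree = e) (t n : Fin r → ℤ)
    (ht : Function.Injective t) (hn : ∀ i, q.eval (t i : ℚ) = n i) (L : ℝ)
    (hL : ∀ i j, |(t i : ℝ) - t j| ≤ L) :
    1 ≤ ∏ j : Fin r, |(q.leadingCoeff : ℝ)| ^ ((j : ℕ) / e) * L ^ (j : ℕ) := by
  have hq0 : q ≠ 0 := by rintro rfl; simp at hq; omega
  have hc : q.leadingCoeff ≠ 0 := leadingCoeff_ne_zero.2 hq0
  have hm := monic_mul_leadingCoeff_inv hq0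
  have h1 := Matrix.det_eval_matrixOfPolynomials_eq_det_vandermonde (fun i => (t i : ℚ))
    (fun j => X ^ ((j : ℕ) % e) * (q * C q.leadingCoeff⁻¹) ^ ((j : ℕ) / e)) (fun j => by
      rw [(monic_X_pow _).natDegree_mul (hm.pow _), natDegree_X_pow, hm.natDegree_pow,
        natDegree_mul_leadingCoeff_inv _ hq0, hq, Nat.mod_add_div'])
    (fun j => (monic_X_pow _).mul (hm.pow _))
  let M : Matrix (Fin r) (Fin r) ℤ := Matrix.of fun i j => t i ^ ((j : ℕ) % e) * n i ^ ((j : ℕ) / e)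
  have h2 : (M.det : ℚ) = (∏ j : Fin r, q.leadingCoeff ^ ((j : ℕ) / e)) *
      ∏ j : Fin r, ∏ i ∈ Finset.Iio j, ((t j : ℚ) - t i) := by
    rw [Finset.prod_comm' (t' := Finset.univ) (s' := fun i => Finset.Ioi i) (by simp),
      ← Matrix.det_vandermonde, h1, ← Matrix.det_mul_row, Int.cast_det]
    congr 1
    ext i j
    simp only [M, Matrix.map_apply, Matrix.of_apply, eval_mul, eval_pow, eval_X, eval_C, hn]
    push_cast
    rw [mul_pow, inv_pow]
    field_simp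
  have h3 : M.det ≠ 0 := by
    intro h
    rw [h, Int.cast_zero] at h2
    refine mul_ne_zero (Finset.prod_ne_zero_iff.2 fun j _ => pow_ne_zero _ hc)
      (Finset.prod_ne_zero_iff.2 fun j _ => Finset.prod_ne_zero_iff.2 fun i hi => ?_) h2.symm
    exact sub_ne_zero.2 (Int.cast_injective.ne (ht.ne (Finset.mem_Iio.1 hi).ne'))
  have h4 : (1 : ℝ) ≤ |((M.det : ℚ) : ℝ)| := by exact_mod_cast Int.one_le_abs h3
  rw [h2, ← Finset.prod_mul_distrib] at h4
  push_cast at h4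
  rw [Finset.abs_prod] at h4
  refine h4.trans (Finset.prod_le_prod (fun _ _ => abs_nonneg _) fun j _ => ?_)
  rw [abs_mul, abs_pow, Finset.abs_prod]
  gcongr
  refine (Finset.prod_le_prod (g := fun _ => L) (fun _ _ => abs_nonneg _)
    fun i _ => hL j i).trans ?_
  rw [Finset.prod_const, Fin.card_Iio]

theorem pc_spread (e m : ℕ) (he : 1 ≤ e) (c w L : ℝ) (hw : 1 ≤ w) (hc : c * w ^ e = 1)
    (hL : 0 ≤ L) (h : 1 ≤ ∏ j : Fin (m + 1), c ^ ((j : ℕ) / e) * L ^ (j : ℕ)) :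
    w ^ m ≤ w ^ (2 * e) * L ^ m := by
  have hw0 : 0 < w := by linarith
  have hc0 : c = (w ^ e)⁻¹ := eq_inv_of_mul_eq_one_left hc
  have h1 : ∀ j : ℕ, c ^ (j / e) * L ^ j ≤ w ^ e * (L / w) ^ j := fun j => by
    rw [hc0, inv_pow, ← pow_mul, div_pow, inv_mul_eq_div, ← mul_div_assoc,
      div_le_div_iff₀ (by positivity) (by positivity), mul_right_comm, ← pow_add, mul_comm]
    gcongr
    have := Nat.div_add_mod j e
    have := Nat.mod_lt j he
    omega
  have h2 := h.trans (Finset.prod_le_prod (fun j _ => by rw [hc0]; positivity) fun j _ => h1 j)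
  rw [Finset.prod_mul_distrib, Finset.prod_const, Finset.card_univ, Fintype.card_fin,
    Finset.prod_pow_eq_pow_sum, Fin.sum_univ_eq_sum_range (fun i => i)] at h2
  have h3 := one_le_pow₀ (n := 2) h2
  rw [mul_pow, ← pow_mul (L / w), Finset.sum_range_id_mul_two, Nat.add_sub_cancel, pow_right_comm,
    mul_comm (m + 1), pow_mul, ← mul_pow, one_le_pow_iff_of_nonneg (by positivity) (by omega),
    div_pow, ← mul_div_assoc, one_le_div (by positivity), ← pow_mul, mul_comm e] at h3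
  exact h3

theorem pc_root (q : ℚ[X]) (t n : ℤ) (h : q.eval (t : ℚ) = n) (g : ℝ) (hg : 0 ≤ g)
    (hn : |(n : ℝ)| < |(q.leadingCoeff : ℝ)| * g ^ q.natDegree) :
    ∃ ρ ∈ (q.map (algebraMap ℚ ℂ)).roots.toFinset, |(t : ℝ) - ρ.re| ≤ g := by
  by_contra hc
  push Not at hc
  have h1 := (IsAlgClosed.splits (q.map (algebraMap ℚ ℂ))).eval_eq_prod_roots (t : ℂ)
  have h2 : (q.map (algebraMap ℚ ℂ)).eval (t : ℂ) = n := by
    rw [← map_intCast (algebraMap ℚ ℂ) t, eval_map, eval₂_at_apply, h, map_intCast]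
  have h3 := Multiset.prod_map_le_prod_map₀ (s := (q.map (algebraMap ℚ ℂ)).roots) (fun _ => g)
    (fun ρ => ‖(t : ℂ) - ρ‖) (fun _ _ => hg) fun ρ hρ => by
      refine (hc ρ (Multiset.mem_toFinset.2 hρ)).le.trans
        (le_trans (le_of_eq ?_) (Complex.abs_re_le_norm _))
      simp
  rw [Multiset.map_const', Multiset.prod_replicate, IsAlgClosed.card_roots_eq_natDegree,
    natDegree_map] at h3
  have h4 := congrArg (normHom (α := ℂ)) (h2.symm.trans h1)
  rw [map_mul, map_multiset_prod, Multiset.map_map, leadingCoeff_map] at h4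
  simp only [normHom_apply, Complex.norm_intCast, eq_ratCast, Complex.norm_ratCast,
    Function.comp_def] at h4
  exact absurd (h4 ▸ hn) (not_lt.2 (mul_le_mul_of_nonneg_left h3 (abs_nonneg _)))

/-- integer points on the graph of a rational polynomial of degree `e` -/
theorem poly_count (e K : ℕ) (he : 1 ≤ e) (ε : ℝ) (hε : 0 < ε) : ∃ C : ℝ, ∀ (X B : ℝ), 1 ≤ X →
    1 ≤ B → B ≤ X ^ K → ∀ (q : ℚ[X]), q.natDegree = e → ∀ Ω : Finset ℤ,
    (∀ t ∈ Ω, |(t : ℝ)| ≤ X ^ K ∧ ∃ n : ℤ, q.eval (t : ℚ) = n ∧ |(n : ℝ)| ≤ B) →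
    (Ω.card : ℝ) ≤ C * X ^ ε * B ^ (1 / (e : ℝ)) := by
  obtain ⟨k, hk1, hk⟩ : ∃ k : ℕ, 1 ≤ k ∧ (K : ℝ) ≤ ε * k := by
    refine ⟨⌈K / ε⌉₊ + 1, by omega, ?_⟩
    have := Nat.le_ceil (K / ε)
    rw [div_le_iff₀ hε] at this
    push_cast
    linarith
  refine ⟨17 * e * (4 * e * k + 1 : ℕ), fun X B hX hB _ q hq Ω hΩ => ?_⟩
  have hq0 : q ≠ 0 := by rintro rfl; simp at hq; omega
  have hc : 0 < |(q.leadingCoeff : ℝ)| := abs_pos.2 (by exact_mod_cast leadingCoeff_ne_zero.2 hq0)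
  have he0 : e ≠ 0 := by omega
  obtain ⟨w, hw0, hw⟩ : ∃ w : ℝ, 0 < w ∧ |(q.leadingCoeff : ℝ)| * w ^ e = 1 :=
    ⟨|(q.leadingCoeff : ℝ)|⁻¹ ^ ((e : ℝ)⁻¹), by positivity, by
      rw [Real.rpow_inv_natCast_pow (by positivity) he0, mul_inv_cancel₀ hc.ne']⟩
  have hXε : 1 ≤ X ^ ε := Real.one_le_rpow hX hε.le
  have hXK : X ^ K ≤ (X ^ ε) ^ k := by
    rw [← Real.rpow_natCast, ← Real.rpow_mul_natCast (by linarith)]
    exact Real.rpow_le_rpow_of_exponent_le hX hk
  have hB1 : 1 ≤ B ^ (1 / (e : ℝ)) := Real.one_le_rpow hB (by positivity)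
  have hBe : (B ^ (1 / (e : ℝ))) ^ e = B := by
    rw [one_div, Real.rpow_inv_natCast_pow (by linarith) he0]
  generalize X ^ ε = Y at *
  generalize B ^ (1 / (e : ℝ)) = b at *
  choose! n hn using fun t ht => (hΩ t ht).2
  have hek : 0 < e * k := Nat.mul_pos he hk1
  have key : ∀ T ⊆ Ω, T.card = 4 * e * k + 1 →
      ¬ ∀ a ∈ T, ∀ b ∈ T, |(a : ℝ) - b| ≤ w / (4 * Y) := by
    intro T hT hTc h
    rcases le_total w 1 with h1 | h1
    · obtain ⟨a, ha, b, hb, hab⟩ := Finset.one_lt_card.1 (by rw [hTc, mul_assoc]; omega)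
      have h2 : (1 : ℝ) ≤ |(a : ℝ) - b| := by exact_mod_cast Int.one_le_abs (sub_ne_zero.2 hab)
      have h3 := h2.trans (h a ha b hb)
      rw [le_div_iff₀ (by positivity)] at h3
      linarith
    have hm := T.orderEmbOfFin_mem hTc
    have sp := fun L hL0 hL => pc_spread e (4 * e * k) he _ w L h1 hw hL0 (pc_det e _ he q hq
      (T.orderEmbOfFin hTc) (fun i => n (T.orderEmbOfFin hTc i)) (T.orderEmbOfFin hTc).injective
      (fun i => (hn _ (hT (hm i))).1) L hL)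
    have s1 := sp (2 * X ^ K) (by positivity) fun i j => (abs_sub _ _).trans (by
      linarith [(hΩ _ (hT (hm i))).1, (hΩ _ (hT (hm j))).1])
    have s2 := sp (w / (4 * Y)) (by positivity) fun i j => h _ (hm i) _ (hm j)
    have s3 : w ≤ (2 * X ^ K) ^ 2 := by
      refine le_of_pow_le_pow_left₀ (n := 2 * e * k) (by rw [mul_assoc]; omega) (by positivity) ?_
      refine le_of_mul_le_mul_left ?_ (by positivity : 0 < w ^ (2 * e * k))
      calc _ = w ^ (4 * e * k) := by ring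
        _ ≤ w ^ (2 * e) * (2 * X ^ K) ^ (4 * e * k) := s1
        _ ≤ w ^ (2 * e * k) * (2 * X ^ K) ^ (4 * e * k) := mul_le_mul_of_nonneg_right
          (pow_le_pow_right₀ h1 (Nat.le_mul_of_pos_right _ hk1)) (by positivity)
        _ = _ := by rw [← pow_mul]; congr 2; ring
    have s4 : w ^ (2 * e) ≤ (2 * Y) ^ (4 * e * k) := by
      calc _ ≤ ((2 ^ k * Y ^ k) ^ 2) ^ (2 * e) := by
            gcongr
            refine s3.trans ?_
            gcongr
            exact le_self_pow₀ (by norm_num) (by omega)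
        _ = _ := by rw [← mul_pow, ← pow_mul, ← pow_mul]; congr 1; ring
    have s5 := s2.trans (mul_le_mul_of_nonneg_right s4 (by positivity))
    rw [← mul_pow] at s5
    have s6 := le_of_pow_le_pow_left₀ (by rw [mul_assoc]; omega) (by positivity) s5
    have s7 : 2 * Y * (w / (4 * Y)) = w / 2 := by field_simp; norm_num
    linarith
  have h1 : Ω ⊆ (q.map (algebraMap ℚ ℂ)).roots.toFinset.biUnion
      fun ρ => Ω.filter fun t : ℤ => |(t : ℝ) - ρ.re| ≤ 2 * b * w := fun t ht => by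
    obtain ⟨ρ, h1, h2⟩ := pc_root q t (n t) (hn t ht).1 (2 * b * w) (by positivity) (by
      have h3 : (2 : ℝ) * B ≤ 2 ^ e * B := by gcongr; exact le_self_pow₀ (by norm_num) he0
      rw [hq, mul_pow, mul_pow, hBe, mul_left_comm, hw]
      linarith [(hn t ht).2])
    exact Finset.mem_biUnion.2 ⟨ρ, h1, Finset.mem_filter.2 ⟨ht, h2⟩⟩
  have h2 : ((q.map (algebraMap ℚ ℂ)).roots.toFinset.card : ℝ) ≤ e := by
    rw [← hq, ← natDegree_map (algebraMap ℚ ℂ)]
    exact_mod_cast (Multiset.toFinset_card_le _).trans (card_roots' _)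
  have h3 : 2 * (2 * b * w) / (w / (4 * Y)) + 1 ≤ 17 * (Y * b) := by
    have : 2 * (2 * b * w) / (w / (4 * Y)) = 16 * (Y * b) := by field_simp; norm_num
    linarith [one_le_mul_of_one_le_of_one_le hXε hB1]
  calc (Ω.card : ℝ) ≤ ∑ ρ ∈ (q.map (algebraMap ℚ ℂ)).roots.toFinset,
        ((Ω.filter fun t : ℤ => |(t : ℝ) - ρ.re| ≤ 2 * b * w).card : ℝ) := by
        exact_mod_cast (Finset.card_le_card h1).trans Finset.card_biUnion_le
    _ ≤ ∑ _ρ ∈ (q.map (algebraMap ℚ ℂ)).roots.toFinset,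
        ((4 * e * k + 1 : ℕ) : ℝ) * (17 * (Y * b)) := Finset.sum_le_sum fun ρ _ =>
        (pc_cover Ω _ _ _ _ (by positivity) (by positivity) key).trans (by gcongr)
    _ ≤ e * (((4 * e * k + 1 : ℕ) : ℝ) * (17 * (Y * b))) := by
        rw [Finset.sum_const, nsmul_eq_mul]
        gcongr
    _ = _ := by ring

end Vale.Agent.P018
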