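import Vale.Agent.P018.Q.Config

/-! Algebraic lemmas on sextic sections over a line. -/

namespace Vale.Agent.P018

open NumberField Polynomial

section Field

variable {K : Type} [Field K]

theorem ratI_lin_ne {a b : K} (h : a ≠ 0 ∨ b ≠ 0) : C a * X + C b ≠ (0 : K[X]) := by
  intro h0
  have h1 := congrArg (coeff · 1) h0
  have h2 := congrArg (coeff · 0) h0
  simp at h1 h2
  tauto

/-- powers of pairwise independent linear forms are independent -/
theorem ratI_indep [CharZero K] {ι : Type} [DecidableEq ι] (a b : ι → K) (n : ℕ) :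
    ∀ (s : Finset ι) (c : ι → K), s.card ≤ n + 1 →
      (∀ i ∈ s, ∀ j ∈ s, i ≠ j → a i * b j ≠ a j * b i) → (∀ i ∈ s, a i ≠ 0 ∨ b i ≠ 0) →
      ∑ i ∈ s, C (c i) * (C (a i) * X + C (b i)) ^ n = 0 → ∀ i ∈ s, c i = 0 := by
  have one : ∀ (n : ℕ) (s : Finset ι) (c : ι → K) (i : ι), i ∈ s → (∀ j ∈ s, j = i) →
      (a i ≠ 0 ∨ b i ≠ 0) → ∑ i ∈ s, C (c i) * (C (a i) * X + C (b i)) ^ n = 0 → c i = 0 := by
    intro n s c i hi hs h1 h2
    rw [Finset.sum_eq_single_of_mem i hi fun j hj hne => absurd (hs j hj) hne] at h2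
    exact C_eq_zero.1 ((mul_eq_zero.1 h2).resolve_right (pow_ne_zero _ (ratI_lin_ne h1)))
  induction n with
  | zero =>
    intro s c hs _ h1 h2 i hi
    exact one 0 s c i hi (fun j hj => Finset.card_le_one.1 hs j hj i hi) (h1 i hi) h2
  | succ n ih =>
    intro s c hs h0 h1 h2 i hi
    by_cases hj : ∀ j ∈ s, j = i
    · exact one _ s c i hi hj (h1 i hi) h2
    push Not at hj
    obtain ⟨j, hj, hne⟩ := hj
    have h3 : ∑ k ∈ s, C (c k * ((n + 1 : ℕ) * (a j * b k - a k * b j))) *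
        (C (a k) * X + C (b k)) ^ n = 0 := by
      have h4 := congrArg (fun q : K[X] =>
        C (((n + 1 : ℕ) : K) * a j) * q - (C (a j) * X + C (b j)) * derivative q) h2
      simp only [mul_zero, derivative_zero, sub_zero, derivative_sum, Finset.mul_sum,
        ← Finset.sum_sub_distrib] at h4
      refine Eq.trans (Finset.sum_congr rfl fun k _ => ?_) h4
      simp only [derivative_mul, derivative_C, zero_mul, zero_add, derivative_pow_succ,
        derivative_X, mul_one, add_zero, map_mul, map_sub, map_natCast, map_add,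
        map_one]
      push_cast
      ring
    rw [← Finset.sum_erase_add _ _ hj, sub_self, mul_zero, mul_zero, C_0, zero_mul,
      add_zero] at h3
    have h5 := ih (s.erase j) _ (by rw [Finset.card_erase_of_mem hj]; omega)
      (fun k hk l hl => h0 k (Finset.mem_of_mem_erase hk) l (Finset.mem_of_mem_erase hl))
      (fun k hk => h1 k (Finset.mem_of_mem_erase hk)) h3 i (Finset.mem_erase.2 ⟨hne.symm, hi⟩)
    refine (mul_eq_zero.1 h5).resolve_right (mul_ne_zero (Nat.cast_ne_zero.2 (by omega)) ?_)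
    exact sub_ne_zero.2 (h0 j hj i hi hne)

theorem ratI_lin_deg (a b : K) : (C a * X + C b : K[X]).natDegree ≤ 1 := natDegree_linear_le

/-- seven sixth powers span the sextics -/
theorem ratI_span [CharZero K] (a b : Fin 7 → K) (h0 : ∀ i j, i ≠ j → a i * b j ≠ a j * b i)
    (h1 : ∀ i, a i ≠ 0 ∨ b i ≠ 0) (Q : K[X]) (hQ : Q.natDegree ≤ 6) :
    ∃ c : Fin 7 → K, Q = ∑ i, C (c i) * (C (a i) * X + C (b i)) ^ 6 := by
  have hm : ∀ q : K[X], q.natDegree ≤ 6 → q ∈ degreeLT K 7 := fun q hq =>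
    mem_degreeLT.2 (lt_of_le_of_lt degree_le_natDegree (by exact_mod_cast Nat.lt_succ_of_le hq))
  let f : Fin 7 → degreeLT K 7 := fun i => ⟨(C (a i) * X + C (b i)) ^ 6,
    hm _ (natDegree_pow_le.trans (by have := ratI_lin_deg (a i) (b i); omega))⟩
  have hf : LinearIndependent K f := by
    rw [Fintype.linearIndependent_iff]
    intro c hc i
    refine ratI_indep a b 6 Finset.univ c (by simp) (fun i _ j _ => h0 i j) (fun i _ => h1 i) ?_
      i (Finset.mem_univ _)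
    have := congrArg Subtype.val hc
    simpa [f, smul_eq_C_mul] using this
  have hr : Module.finrank K (degreeLT K 7) = 7 := by
    rw [(degreeLTEquiv K 7).finrank_eq]; simp
  have ht := hf.span_eq_top_of_card_eq_finrank' (by simp [hr])
  have hq : (⟨Q, hm Q hQ⟩ : degreeLT K 7) ∈ Submodule.span K (Set.range f) := by
    rw [ht]; trivial
  obtain ⟨c, hc⟩ := (Submodule.mem_span_range_iff_exists_fun K).1 hq
  refine ⟨c, ?_⟩
  have := congrArg Subtype.val hc
  simpa [f, smul_eq_C_mul] using this.symm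

theorem ratI_coprime {a b a' b' : K} (h : a * b' - a' * b ≠ 0) :
    IsCoprime (C a * X + C b : K[X]) (C a' * X + C b') := by
  refine ⟨-C (a' / (a * b' - a' * b)), C (a / (a * b' - a' * b)), ?_⟩
  have : (C (a * b' - a' * b) : K[X]) ≠ 0 := C_ne_zero.2 h
  refine mul_left_cancel₀ this ?_
  have e1 : C (a * b' - a' * b) * C (a' / (a * b' - a' * b)) = (C a' : K[X]) := by
    rw [← C_mul, mul_div_cancel₀ _ h]
  have e2 : C (a * b' - a' * b) * C (a / (a * b' - a' * b)) = (C a : K[X]) := by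
    rw [← C_mul, mul_div_cancel₀ _ h]
  have e3 : (C (a * b' - a' * b) : K[X]) = C a * C b' - C a' * C b := by simp
  linear_combination (-(C a * X + C b)) * e1 + (C a' * X + C b') * e2 - e3

variable {l : Fin 4 → K[X]} {θ : Fin 4 → K}

theorem ratI_unique (hd : ∀ i, (l i).natDegree = 1) (hc : ∀ i j, i ≠ j → IsCoprime (l i) (l j))
    (P : K[X]) (hP : P.natDegree ≤ 6) (h : ∀ i, l i ^ 2 ∣ P) : P = 0 := by
  have h0 : ∀ i, l i ≠ 0 := fun i h => by simpa [h] using hd i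
  refine eq_zero_of_dvd_of_natDegree_lt (Fintype.prod_dvd_of_coprime
    (fun i j hij => (hc i j hij).pow) h) ?_
  rw [natDegree_prod _ _ fun i _ => pow_ne_zero _ (h0 i)]
  simp [hd]; omega

theorem ratI_not_all (hd : ∀ i, (l i).natDegree = 1) (hc : ∀ i j, i ≠ j → IsCoprime (l i) (l j))
    (hθ : θ 3 ≠ θ 0) (P : K[X]) (hP : P.natDegree ≤ 6)
    (h : ∀ i, l i ^ 2 ∣ P - C (θ i) * (l 0 * l 1 ^ 2 * l 2 ^ 2)) : False := by
  have h0 : ∀ i, l i ≠ 0 := fun i h => by simpa [h] using hd i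
  have d0 : l 0 ∣ P := by
    have := (dvd_pow_self (l 0) two_ne_zero).trans (h 0)
    exact (dvd_sub_left (Dvd.intro (C (θ 0) * l 1 ^ 2 * l 2 ^ 2) (by ring))).1 this
  have d1 : l 1 ^ 2 ∣ P :=
    (dvd_sub_left (Dvd.intro (C (θ 1) * l 0 * l 2 ^ 2) (by ring))).1 (h 1)
  have d2 : l 2 ^ 2 ∣ P :=
    (dvd_sub_left (Dvd.intro (C (θ 2) * l 0 * l 1 ^ 2) (by ring))).1 (h 2)
  obtain ⟨R, rfl⟩ : l 0 * l 1 ^ 2 * l 2 ^ 2 ∣ P :=
    (((hc 0 2 (by decide)).pow_right).mul_left (hc 1 2 (by decide)).pow).mul_dvd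
      ((hc 0 1 (by decide)).pow_right.mul_dvd d0 d1) d2
  have hR : R.natDegree ≤ 1 := by
    by_cases hR : R = 0
    · simp [hR]
    rw [natDegree_mul (by simp [h0]) hR, natDegree_mul (by simp [h0]) (by simp [h0]),
      natDegree_mul (h0 0) (by simp [h0]), natDegree_pow, natDegree_pow, hd, hd, hd] at hP
    omega
  have d3 : l 3 ^ 2 ∣ R - C (θ 3) := by
    refine IsCoprime.dvd_of_dvd_mul_left (y := l 0 * l 1 ^ 2 * l 2 ^ 2)
      (((hc 3 0 (by decide)).pow_left.mul_right (hc 3 1 (by decide)).pow).mul_right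
        (hc 3 2 (by decide)).pow) ?_
    have := h 3
    rwa [mul_comm (C _), ← mul_sub] at this
  have e3 : R = C (θ 3) := by
    refine sub_eq_zero.1 (eq_zero_of_dvd_of_natDegree_lt d3 ?_)
    have := natDegree_sub_le R (C (θ 3))
    rw [natDegree_pow, hd, natDegree_C] at *
    omega
  have d4 : l 0 ∣ C (θ 3 - θ 0) := by
    refine IsCoprime.dvd_of_dvd_mul_left (y := l 1 ^ 2 * l 2 ^ 2)
      ((hc 0 1 (by decide)).pow_right.mul_right (hc 0 2 (by decide)).pow_right) ?_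
    refine (mul_dvd_mul_iff_left (h0 0)).1 ?_
    have e : l 0 * (l 1 ^ 2 * l 2 ^ 2 * C (θ 3 - θ 0)) =
        l 0 * l 1 ^ 2 * l 2 ^ 2 * R - C (θ 0) * (l 0 * l 1 ^ 2 * l 2 ^ 2) := by
      rw [e3, C_sub]; ring
    rw [e, ← sq]
    exact h 0
  have := natDegree_le_of_dvd d4 (C_ne_zero.2 (sub_ne_zero.2 hθ))
  rw [hd, natDegree_C] at this
  omega

/-- at most six directions carry a sextic section -/
theorem ratI_seven [CharZero K] (hd : ∀ i, (l i).natDegree = 1)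
    (hc : ∀ i j, i ≠ j → IsCoprime (l i) (l j)) (hθ : θ 3 ≠ θ 0) (a b : Fin 7 → K)
    (h0 : ∀ i j, i ≠ j → a i * b j ≠ a j * b i) (h1 : ∀ i, a i ≠ 0 ∨ b i ≠ 0) (P : Fin 7 → K[X])
    (hP : ∀ j, (P j).natDegree ≤ 6)
    (h : ∀ j i, l i ^ 2 ∣ P j - C (θ i) * (C (a j) * X + C (b j)) ^ 6) : False := by
  obtain ⟨c, hc'⟩ := ratI_span a b h0 h1 (l 0 * l 1 ^ 2 * l 2 ^ 2) (by
    have h2 := natDegree_mul_le (p := l 0 * l 1 ^ 2) (q := l 2 ^ 2)
    have h3 := natDegree_mul_le (p := l 0) (q := l 1 ^ 2)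
    rw [natDegree_pow, hd] at h2 h3
    rw [hd] at h3
    omega)
  refine ratI_not_all hd hc hθ (∑ j, C (c j) * P j)
    (natDegree_sum_le_of_forall_le _ _ fun j _ => (natDegree_C_mul_le _ _).trans (hP j))
    fun i => ?_
  rw [hc', Finset.mul_sum, ← Finset.sum_sub_distrib]
  refine Finset.dvd_sum fun j _ => ?_
  rw [mul_left_comm, ← mul_sub]
  exact (h j i).mul_left _

/-- homogeneous substitution -/
noncomputable def ratI_hom (n : ℕ) (q m L : K[X]) : K[X] :=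
  ∑ k ∈ Finset.range (n + 1), C (q.coeff k) * m ^ k * L ^ (n - k)

theorem ratI_hom_eval {n : ℕ} {q m L : K[X]} (hq : q.natDegree ≤ n) {s : K} (hL : L.eval s ≠ 0) :
    (ratI_hom n q m L).eval s = L.eval s ^ n * q.eval (m.eval s / L.eval s) := by
  rw [eval_eq_sum_range' (Nat.lt_succ_of_le hq), Finset.mul_sum, ratI_hom, eval_finsetSum]
  refine Finset.sum_congr rfl fun k hk => ?_
  obtain ⟨j, rfl⟩ := Nat.exists_eq_add_of_le (Nat.lt_succ_iff.1 (Finset.mem_range.1 hk))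
  simp only [eval_mul, eval_C, eval_pow, Nat.add_sub_cancel_left, div_pow, pow_add]
  field_simp

theorem ratI_hom_deg {n : ℕ} {q m L : K[X]} (hm : m.natDegree ≤ 1) (hL : L.natDegree ≤ 1) :
    (ratI_hom n q m L).natDegree ≤ n := by
  refine natDegree_sum_le_of_forall_le _ _ fun k hk => ?_
  have h1 := natDegree_mul_le (p := C (q.coeff k) * m ^ k) (q := L ^ (n - k))
  have h2 := natDegree_C_mul_le (q.coeff k) (m ^ k)
  have h3 := natDegree_pow_le_of_le k hm
  have h4 := natDegree_pow_le_of_le (n - k) hL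
  have := Finset.mem_range.1 hk
  omega

theorem ratI_hom_map {E : Type} [Field E] (f : K →+* E) (n : ℕ) (q m L : K[X]) :
    (ratI_hom n q m L).map f = ratI_hom n (q.map f) (m.map f) (L.map f) := by
  simp [ratI_hom, Polynomial.map_sum]

end Field

variable {F : Type} [Field F] [NumberField F]

theorem ratI_cj (c : Ctx F) (ω ω' : Fin 4 → ℤ) (u v : ℤ) (i : Fin 4) :
    c.cj (u • ω + v • ω') i = u * c.cj ω i + v * c.cj ω' i := by
  simp only [Ctx.cj, pv, Pi.add_apply, Pi.smul_apply, smul_eq_mul, Finset.mul_sum,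
    ← Finset.sum_add_distrib]
  refine Finset.sum_congr rfl fun l _ => ?_
  push_cast; ring

theorem ratI_cj4 (c : Ctx F) (a : Fin 4 → ℤ) (i : Fin 4) :
    c.cj a i = ∑ l : Fin 4, (a l : 𝓞 F) * c.ϑ i ^ (l : ℕ) := rfl

theorem ratI_cjF (c : Ctx F) (a : Fin 4 → ℤ) (i : Fin 4) :
    ((c.cj a i : 𝓞 F) : F) = ∑ l : Fin 4, (a l : F) * ((c.ϑ i : 𝓞 F) : F) ^ (l : ℕ) := by
  have := map_pv (algebraMap (𝓞 F) F) a (c.ϑ i)
  exact this

theorem ratI_pl (c : Ctx F) {ω ω' : Fin 4 → ℤ} (h : c.pc ω ω' 0 1 ≠ 0) :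
    ∃ k l, pl ω ω' k l ≠ 0 := by
  by_contra h0
  push Not at h0
  refine h ?_
  have e : c.pc ω ω' 0 1 =
      ∑ k : Fin 4, ∑ l : Fin 4, (pl ω ω' k l : 𝓞 F) * (c.ϑ 0 ^ (k : ℕ) * c.ϑ 1 ^ (l : ℕ)) := by
    simp only [Ctx.pc, ratI_cj4, pl, Fin.sum_univ_four]
    push_cast; ring
  simp [e, h0]

theorem ratI_pc (c : Ctx F) {ω ω' : Fin 4 → ℤ} {i j : Fin 4} (h : c.pc ω ω' i j ≠ 0) :
    ((c.cj ω i : 𝓞 F) : F) * ((c.cj ω' j : 𝓞 F) : F) -
      ((c.cj ω j : 𝓞 F) : F) * ((c.cj ω' i : 𝓞 F) : F) ≠ 0 := by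
  intro h0
  refine h (RingOfIntegers.coe_injective ?_)
  simpa [Ctx.pc] using h0

theorem ratI_lin_natDegree (c : Ctx F) {ω ω' : Fin 4 → ℤ} (h : c.pc ω ω' 0 1 ≠ 0) (i : Fin 4) :
    (c.lin ω ω' i).natDegree = 1 := by
  refine natDegree_linear fun h0 => c.hind i ω ?_ (RingOfIntegers.coe_injective ?_)
  · rintro rfl
    exact h (by simp [Ctx.pc, Ctx.cj, pv])
  · simpa [Ctx.cj] using h0

theorem ratI_theta (c : Ctx F) {i j : Fin 4} (h : i ≠ j) :
    ((c.ϑ i : 𝓞 F) : F) ≠ ((c.ϑ j : 𝓞 F) : F) :=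
  fun h0 => h (c.hinj (RingOfIntegers.coe_injective h0))

/-- a polynomial family with linear `α` and sextic `N` lies on a special sextic section -/
theorem ratI_six {c : Ctx F} {M D : ℕ} {B : ℝ} {T : Finset ℤ} {a b : ℤ → Fin 4 → ℤ}
    {t : ℤ → ℤ} {qN : ℚ[X]} {qa qb : Fin 4 → ℚ[X]} (h : Cfg c M D B T a b t qN qa qb)
    (hM : 0 < M) {ω ω' : Fin 4 → ℤ} {u v : ℤ → ℤ} (hpc : c.pc ω ω' 0 1 ≠ 0)
    (ha : ∀ N ∈ T, a N = u N • ω + v N • ω' ∧ v N ≠ 0) (hT : 1 < T.card)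
    (h1 : ∀ l, (qa l).natDegree ≤ 1) (h2 : (c.cjP qa 0).natDegree = 1)
    (h3 : ∀ i, (c.cjP qb i).natDegree ≤ 4) (h4 : qN.natDegree ≤ 6) :
    ∀ N ∈ T, Six c ω ω' N (u N) (v N) := by
  obtain ⟨N1, hN1, N2, hN2, hne⟩ := Finset.one_lt_card.1 hT
  have ht : (t N1 : ℚ) - t N2 ≠ 0 := by
    rw [sub_ne_zero]
    exact fun h0 => hne (h.inj hN1 hN2 (by exact_mod_cast h0))
  have hev : ∀ N ∈ T, ∀ l, (qa l).eval (t N : ℚ) = u N * ω l + v N * ω' l := by
    intro N hN l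
    rw [h.ea N hN, (ha N hN).1]; simp
  obtain ⟨α1, α0, β1, β0, hq⟩ : ∃ α1 α0 β1 β0 : ℚ, ∀ l,
      qa l = C (ω l * α1 + ω' l * β1) * X + C (ω l * α0 + ω' l * β0) := by
    refine ⟨(u N1 - u N2) / (t N1 - t N2), u N1 - (u N1 - u N2) / (t N1 - t N2) * t N1,
      (v N1 - v N2) / (t N1 - t N2), v N1 - (v N1 - v N2) / (t N1 - t N2) * t N1, fun l => ?_⟩
    have e1 := hev N1 hN1 l
    have e2 := hev N2 hN2 l
    rw [eq_X_add_C_of_natDegree_le_one (h1 l)] at e1 e2 ⊢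
    simp only [eval_add, eval_mul, eval_C, eval_X] at e1 e2
    generalize (qa l).coeff 1 = x at *
    generalize (qa l).coeff 0 = y at *
    have e3 : x = ω l * ((u N1 - u N2) / (t N1 - t N2)) + ω' l * ((v N1 - v N2) / (t N1 - t N2)) := by
      field_simp
      linear_combination e1 - e2
    congr 2
    · rw [e3]
    · linear_combination e1 - (t N1 : ℚ) * e3
  obtain ⟨k, l, hkl⟩ := ratI_pl c hpc
  have hkl' : (ω k : ℚ) * ω' l - ω l * ω' k ≠ 0 := by exact_mod_cast hkl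
  have huv : ∀ N ∈ T, (u N : ℚ) = α1 * t N + α0 ∧ (v N : ℚ) = β1 * t N + β0 := by
    intro N hN
    have e1 := hev N hN k
    have e2 := hev N hN l
    rw [hq] at e1 e2
    simp only [eval_add, eval_mul, eval_C, eval_X] at e1 e2
    exact ⟨mul_left_cancel₀ hkl' (by linear_combination (ω' k : ℚ) * e2 - (ω' l : ℚ) * e1),
      mul_left_cancel₀ hkl' (by linear_combination (ω l : ℚ) * e1 - (ω k : ℚ) * e2)⟩
  set φ := algebraMap ℚ F with hφ
  set x : Fin 4 → F := fun i => ((c.cj ω i : 𝓞 F) : F) with hx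
  set y : Fin 4 → F := fun i => ((c.cj ω' i : 𝓞 F) : F) with hy
  have hA : ∀ i, c.cjP qa i =
      C (x i * φ α1 + y i * φ β1) * X + C (x i * φ α0 + y i * φ β0) := by
    intro i
    refine Polynomial.funext fun s => ?_
    simp only [Ctx.cjP, hq, hx, hy, ratI_cjF, Fin.sum_univ_four, Polynomial.map_add,
      Polynomial.map_mul, map_C, map_X, eval_add, eval_mul, eval_C, eval_X]
    simp only [map_add, map_mul, map_intCast, ← hφ]
    ring
  have hMF : (M : F) ≠ 0 := Nat.cast_ne_zero.2 hM.ne'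
  have hrel : ∀ i (s : F), ((x i * φ α1 + y i * φ β1) * s + (x i * φ α0 + y i * φ β0)) ^ 2 *
      (c.cjP qb i).eval s = M * ((qN.map φ).eval s - ((c.ϑ i : 𝓞 F) : F)) := by
    intro i s
    have := congrArg (eval s) (h.rel i)
    rw [hA] at this
    simpa only [eval_mul, eval_pow, eval_add, eval_C, eval_X, eval_sub] using this
  have hδ : α1 * β0 - α0 * β1 ≠ 0 := by
    intro h0
    have h5 : φ α1 * φ β0 - φ α0 * φ β1 = 0 := by simpa using congrArg φ h0
    have h6 : x 0 * φ α1 + y 0 * φ β1 ≠ 0 := by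
      intro h7
      rw [hA, h7, C_0, zero_mul, zero_add, natDegree_C] at h2
      omega
    obtain ⟨r, z0⟩ : ∃ r, (x 0 * φ α1 + y 0 * φ β1) * r + (x 0 * φ α0 + y 0 * φ β0) = 0 :=
      ⟨-(x 0 * φ α0 + y 0 * φ β0) / (x 0 * φ α1 + y 0 * φ β1), by
        rw [mul_div_cancel₀ _ h6, neg_add_cancel]⟩
    have z1 : (x 1 * φ α1 + y 1 * φ β1) * r + (x 1 * φ α0 + y 1 * φ β0) = 0 :=
      mul_left_cancel₀ h6 (by
        linear_combination (x 1 * φ α1 + y 1 * φ β1) * z0 + (x 0 * y 1 - x 1 * y 0) * h5)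
    have e0 := hrel 0 r
    have e1 := hrel 1 r
    rw [z0] at e0
    rw [z1] at e1
    refine ratI_theta c (i := 0) (j := 1) (by decide) (mul_left_cancel₀ hMF ?_)
    linear_combination e0 - e1
  have hδF : φ α1 * φ β0 - φ α0 * φ β1 ≠ 0 := by
    intro h0
    exact hδ (φ.injective (by simpa using h0))
  intro N hN
  obtain ⟨e1, e2⟩ := huv N hN
  have hv : (v N : ℚ) ≠ 0 := by exact_mod_cast (ha N hN).2
  have hL : -β1 * ((u N : ℚ) / v N) + α1 = (α1 * β0 - α0 * β1) / v N := by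
    field_simp
    linear_combination α1 * e2 - β1 * e1
  have hm : β0 * ((u N : ℚ) / v N) + -α0 = (α1 * β0 - α0 * β1) / v N * t N := by
    field_simp
    linear_combination β0 * e1 - α0 * e2
  have hL0 : -β1 * ((u N : ℚ) / v N) + α1 ≠ 0 := by rw [hL]; exact div_ne_zero hδ hv
  refine ⟨α1, -β1, ratI_hom 6 qN (C β0 * X + C (-α0)) (C (-β1) * X + C α1),
    ratI_hom_deg (ratI_lin_deg _ _) (ratI_lin_deg _ _), fun i => ?_, hL0, ?_⟩
  · refine ⟨C ((φ α1 * φ β0 - φ α0 * φ β1) ^ 2 / M) * ratI_hom 4 (c.cjP qb i)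
      (C (φ β0) * X + C (φ (-α0))) (C (φ (-β1)) * X + C (φ α1)), ?_⟩
    have hL1 : (C (φ (-β1)) * X + C (φ α1) : F[X]) ≠ 0 := by
      refine ratI_lin_ne ?_
      by_contra h5
      push Not at h5
      rw [map_neg, neg_eq_zero] at h5
      exact hδF (by rw [h5.1, h5.2]; ring)
    refine mul_left_cancel₀ hL1 (Polynomial.funext fun s => ?_)
    by_cases hs : (C (φ (-β1)) * X + C (φ α1) : F[X]).eval s = 0
    · rw [eval_mul, eval_mul, hs, zero_mul, zero_mul]
    rw [eval_mul, eval_mul, ratI_hom_map, Polynomial.map_add, Polynomial.map_add,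
      Polynomial.map_mul, Polynomial.map_mul, map_C, map_C, map_C, map_C, map_X, eval_sub,
      ratI_hom_eval (natDegree_map_le.trans h4) hs, eval_mul, eval_mul, eval_mul,
      ratI_hom_eval (h3 i) hs]
    have e := hrel i ((C (φ β0) * X + C (φ (-α0)) : F[X]).eval s /
      (C (φ (-β1)) * X + C (φ α1) : F[X]).eval s)
    generalize (qN.map φ).eval _ = n at e ⊢
    generalize (c.cjP qb i).eval _ = β at e ⊢
    have e2 := mul_div_cancel₀ ((C (φ β0) * X + C (φ (-α0)) : F[X]).eval s) hs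
    generalize (C (φ β0) * X + C (φ (-α0)) : F[X]).eval s / _ = τ at e e2
    simp only [Ctx.lin, eval_add, eval_mul, eval_C, eval_X, eval_pow, ← hφ] at e e2 hs ⊢
    simp only [map_neg] at e e2 hs ⊢
    congr 1
    have e3 : (-φ β1 * s + φ α1) * ((x i * φ α1 + y i * φ β1) * τ + (x i * φ α0 + y i * φ β0)) =
        (φ α1 * φ β0 - φ α0 * φ β1) * (x i * s + y i) := by
      linear_combination (x i * φ α1 + y i * φ β1) * e2
    have e4 := div_mul_cancel₀ ((φ α1 * φ β0 - φ α0 * φ β1) ^ 2) hMF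
    refine mul_left_cancel₀ hMF ?_
    change _ = _ * ((x i * s + y i) ^ 2 * _)
    generalize (x i * φ α1 + y i * φ β1) * τ + (x i * φ α0 + y i * φ β0) = A at e e3
    generalize -φ β1 * s + φ α1 = L at e3 ⊢
    generalize φ α1 * φ β0 - φ α0 * φ β1 = δ at e3 e4 ⊢
    linear_combination (-L ^ 6) * e + L ^ 4 * β * (L * A + δ * (x i * s + y i)) * e3 -
      (x i * s + y i) ^ 2 * L ^ 4 * β * e4
  · have hs : (C (-β1) * X + C α1 : ℚ[X]).eval ((u N : ℚ) / v N) ≠ 0 := by simpa using hL0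
    rw [ratI_hom_eval h4 hs]
    simp only [eval_add, eval_mul, eval_C, eval_X]
    rw [hm, hL, mul_div_cancel_left₀ _ (div_ne_zero hδ hv), h.eN N hN, mul_comm]

end Vale.Agent.P018
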