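import Vale.Agent.P018.Q.Five
import Vale.Agent.P018.Q.PolyCount
import Vale.Agent.P018.Q.RatIAux

namespace Vale.Agent.P018

open NumberField Polynomial

variable {F : Type} [Field F] [NumberField F]

/-- normalized directions -/
def ratI_dir (d : Option ℚ) : ℚ × ℚ := d.elim (0, 1) fun r => (1, r)

/-- a section in a normalized direction -/
def ratI_Sec (c : Ctx F) (ω ω' : Fin 4 → ℤ) (d : Option ℚ) (P : F[X]) : Prop :=
  P.natDegree ≤ 6 ∧ ∀ i, (c.lin ω ω' i) ^ 2 ∣ P - C ((c.ϑ i : 𝓞 F) : F) *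
    (C (algebraMap ℚ F (ratI_dir d).1) * X + C (algebraMap ℚ F (ratI_dir d).2)) ^ 6

theorem ratI_norm (c : Ctx F) (ω ω' : Fin 4 → ℤ) (N u v : ℤ) (h : Six c ω ω' N u v) :
    ∃ (d : Option ℚ) (P : F[X]), ratI_Sec c ω ω' d P ∧
      ((C (algebraMap ℚ F (ratI_dir d).1) * X + C (algebraMap ℚ F (ratI_dir d).2)) ^ 6 : F[X]).eval
        ((u : F) / v) * N = P.eval ((u : F) / v) := by
  obtain ⟨l0, l1, P, h1, h2, h3, h4⟩ := h
  obtain ⟨d, z, hz, e1, e0⟩ : ∃ (d : Option ℚ) (z : ℚ), z ≠ 0 ∧ (ratI_dir d).1 = z * l1 ∧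
      (ratI_dir d).2 = z * l0 := by
    by_cases h : l1 = 0
    · have h0 : l0 ≠ 0 := by simpa [h] using h3
      exact ⟨none, l0⁻¹, inv_ne_zero h0, by simp [ratI_dir, h], by simp [ratI_dir, h0]⟩
    · exact ⟨some (l1⁻¹ * l0), l1⁻¹, inv_ne_zero h, by simp [ratI_dir, h], rfl⟩
  refine ⟨d, C (algebraMap ℚ F z ^ 6) * P.map (algebraMap ℚ F),
    ⟨(natDegree_C_mul_le _ _).trans (natDegree_map_le.trans h1), fun i => ?_⟩, ?_⟩
  · have e : C (algebraMap ℚ F z ^ 6) * P.map (algebraMap ℚ F) - C ((c.ϑ i : 𝓞 F) : F) *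
        (C (algebraMap ℚ F (ratI_dir d).1) * X + C (algebraMap ℚ F (ratI_dir d).2)) ^ 6 =
        C (algebraMap ℚ F z ^ 6) * (P.map (algebraMap ℚ F) - C ((c.ϑ i : 𝓞 F) : F) *
          (C (algebraMap ℚ F l1) * X + C (algebraMap ℚ F l0)) ^ 6) := by
      rw [e1, e0]
      simp only [map_mul, map_pow]
      ring
    rw [e]
    exact (h2 i).mul_left _
  · have e : ((u : F) / v) = algebraMap ℚ F ((u : ℚ) / v) := by simp
    rw [e, eval_mul, eval_map_algebraMap, aeval_algebraMap_apply_eq_algebraMap_eval, h4, e1, e0]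
    simp only [eval_pow, eval_add, eval_mul, eval_C, eval_X, map_mul, map_pow, map_add,
      map_intCast]
    ring

theorem ratI_dir_ne {d d' : Option ℚ} (h : d ≠ d') :
    (ratI_dir d).1 * (ratI_dir d').2 ≠ (ratI_dir d').1 * (ratI_dir d).2 := by
  cases d <;> cases d' <;> simp_all [ratI_dir, eq_comm]

theorem ratI_dir_ne' (d : Option ℚ) : (ratI_dir d).1 ≠ 0 ∨ (ratI_dir d).2 ≠ 0 := by
  cases d <;> simp [ratI_dir]

/-- there are at most six special sextic sections over a line -/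
theorem six_dirs (c : Ctx F) (ω ω' : Fin 4 → ℤ) (hpc : ∀ i j, i ≠ j → c.pc ω ω' i j ≠ 0)
    (Z : Finset ℤ) (u v : ℤ → ℤ) (hZ : ∀ N ∈ Z, Six c ω ω' N (u N) (v N)) :
    ∃ 𝒯 : Finset (Finset ℤ), 𝒯.card ≤ 6 ∧ (∀ N ∈ Z, ∃ T ∈ 𝒯, N ∈ T) ∧
      ∀ T ∈ 𝒯, T ⊆ Z ∧ RatFn F 6 T v u (fun N => (N : F)) := by
  classical
  choose! d P h1 h2 using fun N hN => ratI_norm c ω ω' N (u N) (v N) (hZ N hN)
  have hd := ratI_lin_natDegree c (hpc 0 1 (by decide))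
  have hc : ∀ i j, i ≠ j → IsCoprime (c.lin ω ω' i) (c.lin ω ω' j) :=
    fun i j hij => ratI_coprime (ratI_pc c (hpc i j hij))
  have hne : ∀ e : Option ℚ, algebraMap ℚ F (ratI_dir e).1 ≠ 0 ∨
      algebraMap ℚ F (ratI_dir e).2 ≠ 0 := fun e => by simpa using ratI_dir_ne' e
  refine ⟨(Z.image d).image fun e => Z.filter fun N => d N = e,
    Finset.card_image_le.trans ?_, fun N hN => ⟨_, Finset.mem_image_of_mem _
      (Finset.mem_image_of_mem d hN), Finset.mem_filter.2 ⟨hN, rfl⟩⟩, fun T hT => ?_⟩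
  · by_contra h
    obtain ⟨S, hS, h7⟩ := Finset.exists_subset_card_eq (s := Z.image d) (n := 7) (by omega)
    let f : Fin 7 → S := (S.equivFinOfCardEq h7).symm
    choose N hN hN' using fun j => Finset.mem_image.1 (hS (f j).2)
    refine ratI_seven hd hc (ratI_theta c (by decide))
      (fun j => algebraMap ℚ F (ratI_dir (d (N j))).1) (fun j => algebraMap ℚ F (ratI_dir (d (N j))).2)
      (fun i j hij => ?_) (fun j => hne _) (fun j => P (N j)) (fun j => (h1 _ (hN j)).1)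
      fun j => (h1 _ (hN j)).2
    rw [← map_mul, ← map_mul, (algebraMap ℚ F).injective.ne_iff]
    refine ratI_dir_ne ?_
    rw [hN', hN']
    exact fun h0 => hij ((S.equivFinOfCardEq h7).symm.injective (Subtype.ext h0))
  · obtain ⟨e, he, rfl⟩ := Finset.mem_image.1 hT
    obtain ⟨N0, hN0, rfl⟩ := Finset.mem_image.1 he
    refine ⟨Finset.filter_subset _ _, P N0, _, pow_ne_zero 6 (ratI_lin_ne (hne (d N0))),
      (h1 N0 hN0).1, natDegree_pow_le_of_le 6 (ratI_lin_deg _ _), fun N hN => ?_⟩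
    obtain ⟨hN, e⟩ := Finset.mem_filter.1 hN
    have e1 : P N0 - P N = 0 := by
      refine ratI_unique hd hc _ ((natDegree_sub_le _ _).trans
        (max_le (h1 N0 hN0).1 (h1 N hN).1)) fun i => ?_
      have := dvd_sub ((h1 N0 hN0).2 i) ((h1 N hN).2 i)
      rwa [e, sub_sub_sub_cancel_right] at this
    rw [sub_eq_zero.1 e1, ← e]
    exact h2 N hN

theorem ratI_one_le {X P : ℝ} (hX : 1 ≤ X) (hP : 0 < P) (h : P ≤ X ^ 2) : 1 ≤ X / √P := by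
  rw [le_div_iff₀ (Real.sqrt_pos.2 hP), one_mul]
  exact Real.sqrt_le_iff.2 ⟨by linarith, h⟩

/-- counting through the polynomial `β` -/
theorem ratI_beta (c : Ctx F) (C : ℝ) (D K : ℕ) (ε : ℝ) (hε : 0 < ε) : ∃ C' X0 : ℝ,
    ∀ X : ℝ, X0 ≤ X → ∀ (M : ℕ) (T : Finset ℤ) (p : ℤ → ℕ) (a b : ℤ → Fin 4 → ℤ) (P : ℝ)
    (t : ℤ → ℤ) (qN : ℚ[X]) (qa qb : Fin 4 → ℚ[X]) (l : Fin 4) (e : ℕ), AllPt c C X M T p a b →
    0 < P → P ≤ X ^ 2 → (∀ N ∈ T, P ≤ p N) → Cfg c M D (X ^ K) T a b t qN qa qb → 1 ≤ e →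
    e ≤ (qb l).natDegree → (T.card : ℝ) ≤ C' * X ^ ε * (X / √P) ^ (1 / (e : ℝ)) := by
  choose! f hf using fun e he => poly_count e (K + 2) he ε hε
  refine ⟨(∑ e ∈ Finset.range (D + 1), |f e|) * max 1 C, max 1 C,
    fun X hX M T p a b P t qN qa qb l e hA hP hPX hp h he hl => ?_⟩
  have hX1 : 1 ≤ X := (le_max_left _ _).trans hX
  have hC1 : 1 ≤ max 1 C := le_max_left _ _
  have hB := ratI_one_le hX1 hP hPX
  have hB1 : 1 ≤ min (max 1 C * (X / √P)) (X ^ 2) :=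
    le_min (one_le_mul_of_one_le_of_one_le hC1 hB) (one_le_pow₀ hX1)
  have h1 := hf _ (he.trans hl) X _ hX1 hB1 ((min_le_right _ _).trans
    (pow_le_pow_right₀ hX1 (by omega))) (qb l) rfl (T.image t) fun s hs => by
      obtain ⟨N, hN, rfl⟩ := Finset.mem_image.1 hs
      refine ⟨(h.bd N hN).trans (pow_le_pow_right₀ hX1 (by omega)), b N l, h.eb N hN l, ?_⟩
      have h2 := (hA N hN).hb l
      have h3 : √P ≤ √(p N : ℝ) := Real.sqrt_le_sqrt (hp N hN)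
      have h4 : 1 ≤ √(p N : ℝ) := Real.one_le_sqrt.2 (hX1.trans (hA N hN).hXp)
      have h5 : C * X ≤ max 1 C * X := mul_le_mul_of_nonneg_right (le_max_right _ _) (by linarith)
      have h6 : 0 ≤ max 1 C * X := by positivity
      refine h2.trans (le_min ?_ ?_)
      · rw [← mul_div_assoc]
        exact div_le_div₀ h6 h5 (Real.sqrt_pos.2 hP) h3
      · refine (div_le_div₀ h6 h5 one_pos h4).trans ?_
        rw [div_one, sq]
        exact mul_le_mul_of_nonneg_right hX (by linarith)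
  rw [Finset.card_image_of_injOn h.inj] at h1
  refine h1.trans ?_
  have he' : (1 : ℝ) ≤ e := by exact_mod_cast he
  have h2 : f (qb l).natDegree ≤ ∑ e ∈ Finset.range (D + 1), |f e| :=
    (le_abs_self _).trans (Finset.single_le_sum (f := fun e => |f e|) (fun _ _ => abs_nonneg _)
      (Finset.mem_range.2 (Nat.lt_succ_of_le (h.db l))))
  have h3 : min (max 1 C * (X / √P)) (X ^ 2) ^ (1 / ((qb l).natDegree : ℝ)) ≤
      max 1 C * (X / √P) ^ (1 / (e : ℝ)) :=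
    calc _ ≤ min (max 1 C * (X / √P)) (X ^ 2) ^ (1 / (e : ℝ)) :=
          Real.rpow_le_rpow_of_exponent_le hB1
            (one_div_le_one_div_of_le (by linarith) (by exact_mod_cast hl))
      _ ≤ (max 1 C * (X / √P)) ^ (1 / (e : ℝ)) :=
          Real.rpow_le_rpow (by linarith) (min_le_left _ _) (by positivity)
      _ = max 1 C ^ (1 / (e : ℝ)) * (X / √P) ^ (1 / (e : ℝ)) :=
          Real.mul_rpow (by linarith) (by linarith)
      _ ≤ _ := by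
          refine mul_le_mul_of_nonneg_right ?_ (by positivity)
          exact Real.rpow_le_self_of_one_le hC1 ((div_le_one (by linarith)).2 he')
  have h4 : 0 ≤ ∑ e ∈ Finset.range (D + 1), |f e| := Finset.sum_nonneg fun _ _ => abs_nonneg _
  have h5 : 0 ≤ X ^ ε := by positivity
  calc _ ≤ (∑ e ∈ Finset.range (D + 1), |f e|) * X ^ ε * (max 1 C * (X / √P) ^ (1 / (e : ℝ))) :=
        mul_le_mul (mul_le_mul_of_nonneg_right h2 h5) h3 (by positivity) (by positivity)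
    _ = _ := by ring

/-- one polynomial family -/
theorem ratI_piece (c : Ctx F) (C : ℝ) (D K : ℕ) (ε : ℝ) (hε : 0 < ε) : ∃ C' X0 : ℝ, 0 ≤ C' ∧
    ∀ X : ℝ, X0 ≤ X → ∀ (M : ℕ) (T : Finset ℤ) (p : ℤ → ℕ) (a b : ℤ → Fin 4 → ℤ)
    (ω ω' : Fin 4 → ℤ) (u v : ℤ → ℤ) (P : ℝ) (t : ℤ → ℤ) (qN : ℚ[X]) (qa qb : Fin 4 → ℚ[X]),
    AllPt c C X M T p a b → c.pc ω ω' 0 1 ≠ 0 → (∀ N ∈ T, a N = u N • ω + v N • ω' ∧ v N ≠ 0) →
    0 < P → P ≤ X ^ 2 → (∀ N ∈ T, P ≤ p N) → Cfg c M D (X ^ K) T a b t qN qa qb →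
    ((∀ N ∈ T, Six c ω ω' N (u N) (v N)) ∧
      (T.card : ℝ) ≤ C' * X ^ ε * (X / √P) ^ (1 / 4 : ℝ)) ∨
    (T.card : ℝ) ≤
      C' * X ^ ε * ((X / √P) ^ (1 / 5 : ℝ) + X ^ (7 / 15 : ℝ) / P ^ (1 / 3 : ℝ)) := by
  obtain ⟨C1, X1, h1⟩ := fiberA c C
  obtain ⟨C2, X2, h2⟩ := five_count c C
  obtain ⟨C3, X3, h3⟩ := ratI_beta c C D K ε hε
  refine ⟨1 + |C1| + |C2| + |C3|, max (max 1 X1) (max X2 X3), by positivity,
    fun X hX M T p a b ω ω' u v P t qN qa qb hA hpc ha hP hPX hp h => ?_⟩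
  simp only [max_le_iff] at hX
  obtain ⟨⟨hX, hX1⟩, hX2, hX3⟩ := hX
  have hB := ratI_one_le hX hP hPX
  have b1 : 1 ≤ X ^ ε := Real.one_le_rpow hX hε.le
  have b2 : 1 ≤ (X / √P) ^ (1 / 5 : ℝ) := Real.one_le_rpow hB (by norm_num)
  have b3 : 0 ≤ X ^ (7 / 15 : ℝ) / P ^ (1 / 3 : ℝ) := by positivity
  have a1 := abs_nonneg C1
  have a2 := abs_nonneg C2
  have a3 := abs_nonneg C3
  have key : ∀ x y z : ℝ, x ≤ 1 + |C1| + |C2| + |C3| → 0 ≤ y → y ≤ X ^ ε → 0 ≤ z →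
      z ≤ (X / √P) ^ (1 / 5 : ℝ) + X ^ (7 / 15 : ℝ) / P ^ (1 / 3 : ℝ) → (T.card : ℝ) ≤ x * y * z →
      (T.card : ℝ) ≤ (1 + |C1| + |C2| + |C3|) * X ^ ε *
        ((X / √P) ^ (1 / 5 : ℝ) + X ^ (7 / 15 : ℝ) / P ^ (1 / 3 : ℝ)) :=
    fun x y z hx hy hy' hz hz' h => h.trans
      (mul_le_mul (mul_le_mul hx hy' hy (by positivity)) hz' hz (by positivity))
  by_cases hT : T.card ≤ 1
  · exact Or.inr (key 1 1 1 (by linarith) zero_le_one b1 zero_le_one (by linarith)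
      (by simpa using hT))
  obtain ⟨N0, hN0⟩ : T.Nonempty := Finset.card_pos.1 (by omega)
  have hM := (hA N0 hN0).hM0
  obtain ⟨e, e', d1, -, ⟨l, -, d2⟩, d3, d4, d5, d6⟩ := h.degrees hM
  rcases Nat.eq_zero_or_pos e with rfl | he
  · refine Or.inr (key C1 1 1 (by linarith [le_abs_self C1]) zero_le_one b1 zero_le_one
      (by linarith) ?_)
    rw [mul_one, mul_one]
    refine h1 X hX1 M T p a b 0 1 (by decide) hA fun N hN N' hN' => ?_
    have : a N = a N' := funext fun k => by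
      have e1 := h.ea N hN k
      have e2 := h.ea N' hN' k
      rw [eq_C_of_natDegree_le_zero (d1 k), eval_C] at e1 e2
      exact_mod_cast e1.symm.trans e2
    rw [this, mul_comm]
  by_cases h5 : 5 ≤ e'
  · refine Or.inr (key C3 _ _ (by linarith [le_abs_self C3]) (by linarith) le_rfl (by linarith)
      (le_add_of_nonneg_right b3) ?_)
    simpa using h3 X hX3 M T p a b P t qN qa qb l 5 hA hP hPX hp h (by omega) (by omega)
  obtain rfl : e = 1 := by omega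
  by_cases h4 : e' = 4
  · subst h4
    refine Or.inl ⟨ratI_six h hM hpc ha (by omega) d1 (d3 0).2 (fun i => (d4 i).2.le) d5.le, ?_⟩
    have := h3 X hX3 M T p a b P t qN qa qb l 4 hA hP hPX hp h (by omega) (by omega)
    simp only [Nat.cast_ofNat] at this
    refine this.trans (mul_le_mul_of_nonneg_right (mul_le_mul_of_nonneg_right
      (by linarith [le_abs_self C3]) (by linarith)) (by positivity))
  · refine Or.inr (key C2 1 (1 + X ^ (7 / 15 : ℝ) / P ^ (1 / 3 : ℝ)) (by linarith [le_abs_self C2])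
      zero_le_one b1 (by linarith) (by linarith) ?_)
    rw [mul_one]
    exact h2 X hX2 M D _ P T p a b t qN qa qb hA h (fun i => (d3 i).2) (by omega) hP hp

theorem ratI_dirfn (c : Ctx F) {D : ℕ} {Z : Finset ℤ} {a : ℤ → Fin 4 → ℤ} {ω ω' : Fin 4 → ℤ}
    {u v w0 w1 : ℤ → ℤ} (hpc : c.pc ω ω' 0 1 ≠ 0)
    (ha : ∀ N ∈ Z, a N = u N • ω + v N • ω' ∧ v N ≠ 0)
    (h : RatFn F D Z w0 w1 (fun N => (u N : F) / (v N : F))) : RatDir F D Z w0 w1 a := by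
  obtain ⟨num, den, h1, h2, h3, h4⟩ := h
  obtain ⟨k, l, hkl⟩ := ratI_pl c hpc
  refine ⟨fun l => C (ω l : F) * num + C (ω' l : F) * den, fun h0 => h1 ?_, fun l =>
    (natDegree_add_le _ _).trans (max_le ((natDegree_C_mul_le _ _).trans h2)
      ((natDegree_C_mul_le _ _).trans h3)), fun N hN j k => ?_⟩
  · have e1 := congrFun h0 k
    have e2 := congrFun h0 l
    have e3 : (C ((ω k : F) * ω' l - ω l * ω' k) : F[X]) ≠ 0 :=
      C_ne_zero.2 (by exact_mod_cast hkl)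
    refine mul_left_cancel₀ e3 ?_
    simp only [Pi.zero_apply] at e1 e2
    rw [C_sub, C_mul, C_mul]
    linear_combination C (ω k : F) * e2 - C (ω l : F) * e1
  · have e1 := h4 N hN
    have hv : (v N : F) ≠ 0 := by exact_mod_cast (ha N hN).2
    have e2 := mul_div_cancel₀ (u N : F) hv
    rw [(ha N hN).1]
    simp only [eval_add, eval_mul, eval_C, Pi.add_apply, Pi.smul_apply, smul_eq_mul, ← e1]
    push_cast
    linear_combination ((ω' j : F) * ω k - ω j * ω' k) * den.eval ((w1 N : F) / w0 N) * e2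

theorem ratI_cover {Z : Finset ℤ} {𝒯 : Finset (Finset ℤ)} {W : ℝ}
    (h1 : ∀ N ∈ Z, ∃ T ∈ 𝒯, N ∈ T ∧ (T.card : ℝ) ≤ W) (hW : 0 ≤ W) :
    (Z.card : ℝ) ≤ 𝒯.card * W := by
  classical
  have h2 : Z ⊆ (𝒯.filter fun T => (T.card : ℝ) ≤ W).biUnion id := fun N hN => by
    obtain ⟨T, hT, hN, hW⟩ := h1 N hN
    exact Finset.mem_biUnion.2 ⟨T, Finset.mem_filter.2 ⟨hT, hW⟩, hN⟩
  have h3 := (Finset.card_le_card h2).trans Finset.card_biUnion_le
  calc (Z.card : ℝ) ≤ ∑ T ∈ 𝒯.filter fun T => (T.card : ℝ) ≤ W, (T.card : ℝ) := by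
        exact_mod_cast h3
    _ ≤ (𝒯.filter fun T => (T.card : ℝ) ≤ W).card • W :=
        Finset.sum_le_card_nsmul _ _ _ fun T hT => (Finset.mem_filter.1 hT).2
    _ ≤ _ := by
        rw [nsmul_eq_mul]
        exact mul_le_mul_of_nonneg_right (by exact_mod_cast Finset.card_filter_le _ _) hW

/-- Part I: points on a rational curve over an `α`-line -/
theorem ratI (c : Ctx F) (C : ℝ) (D K : ℕ) (ε : ℝ) (hε : 0 < ε) : ∃ C' X0 : ℝ,
    ∀ X : ℝ, X0 ≤ X → ∀ (M : ℕ) (Z : Finset ℤ) (p : ℤ → ℕ) (a b : ℤ → Fin 4 → ℤ)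
    (ω ω' : Fin 4 → ℤ) (u v w0 w1 : ℤ → ℤ) (P : ℝ), AllPt c C X M Z p a b →
    (∀ i j, i ≠ j → c.pc ω ω' i j ≠ 0) → (∀ N ∈ Z, a N = u N • ω + v N • ω' ∧ v N ≠ 0) →
    0 < P → P ≤ X ^ 2 → (∀ N ∈ Z, P ≤ p N) → Param X K Z w0 w1 →
    RatFn F D Z w0 w1 (fun N => (N : F)) → RatFn F D Z w0 w1 (fun N => (u N : F) / (v N : F)) →
    ∃ Z6 ⊆ Z, (∀ N ∈ Z6, Six c ω ω' N (u N) (v N)) ∧
      (Z6.card : ℝ) ≤ C' * X ^ ε * (X / √P) ^ (1 / 4 : ℝ) ∧
      ((Z \ Z6).card : ℝ) ≤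
        C' * X ^ ε * ((X / √P) ^ (1 / 5 : ℝ) + X ^ (7 / 15 : ℝ) / P ^ (1 / 3 : ℝ)) := by
  classical
  obtain ⟨C1, X1, D', K', h1⟩ := config c C D K (ε / 2) (by linarith)
  obtain ⟨C2, X2, hC2, h2⟩ := ratI_piece c C D' K' (ε / 2) (by linarith)
  refine ⟨|C1| * (C2 + 1), max 1 (max X1 X2),
    fun X hX M Z p a b ω ω' u v w0 w1 P hA hpc ha hP hPX hp hw hN hs => ?_⟩
  simp only [max_le_iff] at hX
  obtain ⟨hX, hX1, hX2⟩ := hX
  have h01 := hpc 0 1 (by decide)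
  obtain ⟨Z0, 𝒯, c0, c1, hcov, hT⟩ := h1 X hX1 M Z p a b w0 w1 hA hw hN (ratI_dirfn c h01 ha hs)
  have hB := ratI_one_le hX hP hPX
  have b1 : 1 ≤ X ^ (ε / 2) := Real.one_le_rpow hX (by linarith)
  have b2 : 1 ≤ (X / √P) ^ (1 / 5 : ℝ) := Real.one_le_rpow hB (by norm_num)
  have b3 : 0 ≤ X ^ (7 / 15 : ℝ) / P ^ (1 / 3 : ℝ) := by positivity
  have b4 : 0 ≤ (X / √P) ^ (1 / 4 : ℝ) := by positivity
  have b5 : X ^ ε = X ^ (ε / 2) * X ^ (ε / 2) := by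
    rw [← Real.rpow_add (by linarith), add_halves]
  have a1 := abs_nonneg C1
  have a2 : C1 * X ^ (ε / 2) ≤ |C1| * X ^ (ε / 2) :=
    mul_le_mul_of_nonneg_right (le_abs_self _) (by linarith)
  replace c0 := c0.trans a2
  replace c1 := c1.trans a2
  rw [b5]
  set E := X ^ (ε / 2) with hE
  generalize hR : (X / √P) ^ (1 / 5 : ℝ) + X ^ (7 / 15 : ℝ) / P ^ (1 / 3 : ℝ) = R
  have hR1 : 1 ≤ R := by linarith
  refine ⟨Z.filter fun N => ∃ T ∈ 𝒯, N ∈ T ∧ (∀ N ∈ T, Six c ω ω' N (u N) (v N)) ∧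
    (T.card : ℝ) ≤ C2 * E * (X / √P) ^ (1 / 4 : ℝ), Finset.filter_subset _ _, fun N hN => ?_, ?_, ?_⟩
  · obtain ⟨-, T, -, h3, h4, -⟩ := Finset.mem_filter.1 hN
    exact h4 N h3
  · refine (ratI_cover (𝒯 := 𝒯) (W := C2 * E * (X / √P) ^ (1 / 4 : ℝ)) (fun N hN => ?_)
      (by positivity)).trans ?_
    · obtain ⟨-, T, h3, h4, -, h5⟩ := Finset.mem_filter.1 hN
      exact ⟨T, h3, h4, h5⟩
    · calc _ ≤ |C1| * E * ((C2 + 1) * E * (X / √P) ^ (1 / 4 : ℝ)) := by gcongr; linarith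
        _ = _ := by ring
  · set Z6 := Z.filter fun N => ∃ T ∈ 𝒯, N ∈ T ∧ (∀ N ∈ T, Six c ω ω' N (u N) (v N)) ∧
      (T.card : ℝ) ≤ C2 * E * (X / √P) ^ (1 / 4 : ℝ) with hZ6
    have h3 : (((Z \ Z6) \ Z0).card : ℝ) ≤ 𝒯.card * (C2 * E * R) := by
      refine ratI_cover (fun N hN => ?_) (by positivity)
      simp only [Finset.mem_sdiff] at hN
      obtain ⟨T, h4, h5⟩ := (hcov N hN.1.1).resolve_left hN.2
      obtain ⟨h6, t, qN, qa, qb, h7⟩ := hT T h4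
      refine ⟨T, h4, h5, ?_⟩
      rw [← hR]
      exact (h2 X hX2 M T p a b ω ω' u v P t qN qa qb (fun N hN => hA N (h6 hN)) h01
        (fun N hN => ha N (h6 hN)) hP hPX (fun N hN => hp N (h6 hN)) h7).resolve_left
        fun h8 => hN.1.2 (Finset.mem_filter.2 ⟨hN.1.1, T, h4, h5, h8⟩)
    have h4 : ((Z \ Z6).card : ℝ) ≤ ((Z \ Z6) \ Z0).card + Z0.card := by
      exact_mod_cast Finset.card_le_card_sdiff_add_card
    have h5 : (𝒯.card : ℝ) * (C2 * E * R) ≤ |C1| * E * (C2 * E * R) := by gcongr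
    have h6 : |C1| * E ≤ |C1| * E * (E * R) :=
      le_mul_of_one_le_right (by positivity) (one_le_mul_of_one_le_of_one_le b1 hR1)
    calc _ ≤ |C1| * E * (C2 * E * R) + |C1| * E * (E * R) := by linarith
      _ = _ := by ring

/-- Part I: all points over a line that lie on special sextic sections -/
theorem six_count (c : Ctx F) (C : ℝ) (K : ℕ) (ε : ℝ) (hε : 0 < ε) : ∃ C' X0 : ℝ,
    ∀ X : ℝ, X0 ≤ X → ∀ (M : ℕ) (Z : Finset ℤ) (p : ℤ → ℕ) (a b : ℤ → Fin 4 → ℤ)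
    (ω ω' : Fin 4 → ℤ) (u v : ℤ → ℤ) (P : ℝ), AllPt c C X M Z p a b →
    (∀ i j, i ≠ j → c.pc ω ω' i j ≠ 0) →
    (∀ N ∈ Z, a N = u N • ω + v N • ω' ∧ v N ≠ 0 ∧ IsCoprime (u N) (v N) ∧
      |(u N : ℝ)| ≤ X ^ K ∧ |(v N : ℝ)| ≤ X ^ K) →
    0 < P → P ≤ X ^ 2 → (∀ N ∈ Z, P ≤ p N) → (∀ N ∈ Z, Six c ω ω' N (u N) (v N)) →
    (Z.card : ℝ) ≤
      C' * X ^ ε * ((X / √P) ^ (1 / 4 : ℝ) + X ^ (7 / 15 : ℝ) / P ^ (1 / 3 : ℝ)) := by
  classical
  obtain ⟨C1, X1, h1⟩ := fiberA c C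
  obtain ⟨C2, X2, h2⟩ := ratI c C 6 K ε hε
  refine ⟨6 * (⌈C1⌉₊ * (2 * |C2|)), max 1 (max X1 X2),
    fun X hX M Z p a b ω ω' u v P hA hpc ha hP hPX hp hS => ?_⟩
  simp only [max_le_iff] at hX
  obtain ⟨hX, hX1, hX2⟩ := hX
  obtain ⟨𝒯, c6, hcov, hT⟩ := six_dirs c ω ω' hpc Z u v hS
  have hB := ratI_one_le hX hP hPX
  have b1 : 0 ≤ X ^ ε := by positivity
  have b2 : (X / √P) ^ (1 / 5 : ℝ) ≤ (X / √P) ^ (1 / 4 : ℝ) :=
    Real.rpow_le_rpow_of_exponent_le hB (by norm_num)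
  have b3 : 0 ≤ X ^ (7 / 15 : ℝ) / P ^ (1 / 3 : ℝ) := by positivity
  have b4 : 0 ≤ (X / √P) ^ (1 / 5 : ℝ) := by positivity
  have a2 : C2 * X ^ ε ≤ |C2| * X ^ ε := mul_le_mul_of_nonneg_right (le_abs_self _) b1
  have key : ∀ T ∈ 𝒯, (T.card : ℝ) ≤ ⌈C1⌉₊ * (2 * |C2|) * X ^ ε *
      ((X / √P) ^ (1 / 4 : ℝ) + X ^ (7 / 15 : ℝ) / P ^ (1 / 3 : ℝ)) := by
    intro T hT'
    obtain ⟨hTZ, num, den, r1, r2, r3, r4⟩ := hT T hT'
    have hv : ∀ N ∈ T, (v N : ℚ) ≠ 0 := fun N hN => by exact_mod_cast (ha N (hTZ hN)).2.1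
    obtain ⟨T', s1, s2, s3⟩ := Finset.exists_subset_injOn_image_eq_of_surjOn
      (f := fun N => (u N : ℚ) / v N) (T : Set ℤ) (T.image fun N => (u N : ℚ) / v N)
      (by rw [Finset.coe_image]; exact Set.surjOn_image _ _)
    have s1' : T' ⊆ T := s1
    have s4 : T.card ≤ ⌈C1⌉₊ * T'.card := by
      rw [← Finset.card_image_of_injOn s2, s3]
      refine Finset.card_le_mul_card_image _ _ fun r _ => ?_
      have := h1 X hX1 M (T.filter fun N => (u N : ℚ) / v N = r) p a b 0 1 (by decide)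
        (fun N hN => hA N (hTZ (Finset.mem_of_mem_filter N hN))) fun N hN N' hN' => by
          obtain ⟨hN, e⟩ := Finset.mem_filter.1 hN
          obtain ⟨hN', e'⟩ := Finset.mem_filter.1 hN'
          have e1 : u N * v N' = u N' * v N := by
            exact_mod_cast (div_eq_div_iff (hv N hN) (hv N' hN')).1 (e.trans e'.symm)
          have e2 : (u N : 𝓞 F) * v N' = u N' * v N := by exact_mod_cast e1
          rw [(ha N (hTZ hN)).1, (ha N' (hTZ hN')).1]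
          simp only [ratI_cj]
          linear_combination (c.cj ω 0 * c.cj ω' 1 - c.cj ω 1 * c.cj ω' 0) * e2
      exact_mod_cast this.trans (Nat.le_ceil C1)
    have hZ : ∀ N ∈ T', N ∈ Z := fun N hN => hTZ (s1' hN)
    obtain ⟨Z6, z1, -, z2, z3⟩ := h2 X hX2 M T' p a b ω ω' u v v u P (fun N hN => hA N (hZ N hN))
      hpc (fun N hN => ⟨(ha N (hZ N hN)).1, (ha N (hZ N hN)).2.1⟩) hP hPX
      (fun N hN => hp N (hZ N hN))
      ⟨fun N hN => ⟨(ha N (hZ N hN)).2.2.1.symm, (ha N (hZ N hN)).2.1, (ha N (hZ N hN)).2.2.2.2,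
        (ha N (hZ N hN)).2.2.2.1⟩, fun N hN N' hN' e => s2 hN hN'
          ((div_eq_div_iff (hv N (s1' hN)) (hv N' (s1' hN'))).2 (by exact_mod_cast e))⟩
      ⟨num, den, r1, r2, r3, fun N hN => r4 N (s1' hN)⟩
      ⟨Polynomial.X, 1, one_ne_zero, by simp, by simp, fun N _ => by simp⟩
    have z4 : (T'.card : ℝ) = (T' \ Z6).card + Z6.card := by
      exact_mod_cast (Finset.card_sdiff_add_card_eq_card z1).symm
    have z5 : (T'.card : ℝ) ≤ 2 * |C2| * X ^ ε *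
        ((X / √P) ^ (1 / 4 : ℝ) + X ^ (7 / 15 : ℝ) / P ^ (1 / 3 : ℝ)) := by
      have y1 := z2.trans (mul_le_mul a2 (le_add_of_nonneg_right b3) (by linarith) (by positivity))
      have y2 := z3.trans (mul_le_mul a2 (add_le_add_left b2 _) (by linarith) (by positivity))
      linarith
    calc (T.card : ℝ) ≤ ⌈C1⌉₊ * (T'.card : ℝ) := by exact_mod_cast s4
      _ ≤ ⌈C1⌉₊ * (2 * |C2| * X ^ ε *
          ((X / √P) ^ (1 / 4 : ℝ) + X ^ (7 / 15 : ℝ) / P ^ (1 / 3 : ℝ))) := by gcongr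
      _ = _ := by ring
  have c7 : (𝒯.card : ℝ) ≤ 6 := by exact_mod_cast c6
  have c8 := ratI_cover (Z := Z) (𝒯 := 𝒯) (fun N hN => by
    obtain ⟨T, h3, h4⟩ := hcov N hN
    exact ⟨T, h3, h4, key T h3⟩) (by positivity)
  exact c8.trans ((mul_le_mul_of_nonneg_right c7 (by positivity)).trans (le_of_eq (by ring)))

end Vale.Agent.P018
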