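import Vale.Agent.P018.Q.Config

namespace Vale.Agent.P018

open NumberField Polynomial

variable {F : Type} [Field F] [NumberField F]

lemma rII_cj (c : Ctx F) (a : Fin 4 → ℤ) (i : Fin 4) :
    ((c.cj a i : 𝓞 F) : F) = ∑ l, (a l : F) * ((c.ϑ i : 𝓞 F) : F) ^ (l : ℕ) := by
  simp [Ctx.cj, pv, map_sum]

lemma rII_gcd {a : Fin 4 → ℤ} (ha : Finset.univ.gcd a = 1) : a ≠ 0 := by
  intro h
  rw [Finset.gcd_eq_zero_iff.mpr (fun i _ => by rw [h]; rfl)] at ha
  exact zero_ne_one ha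

lemma rII_ne (c : Ctx F) {a : Fin 4 → ℤ} (ha : Finset.univ.gcd a = 1) (i : Fin 4) :
    ((c.cj a i : 𝓞 F) : F) ≠ 0 := by
  have := c.hind i a (rII_gcd ha)
  intro h
  have h1 : c.cj a i = 0 := RingOfIntegers.coe_injective (by simpa using h)
  exact this h1

lemma rII_theta (c : Ctx F) {i j : Fin 4} (h : i ≠ j) :
    ((c.ϑ i : 𝓞 F) : F) - ((c.ϑ j : 𝓞 F) : F) ≠ 0 := by
  rw [sub_ne_zero]
  intro h'
  exact h (c.hinj (RingOfIntegers.coe_injective h'))

lemma rII_rel {c : Ctx F} {C X : ℝ} {M : ℕ} {N : ℤ} {p : ℕ} {a b : Fin 4 → ℤ}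
    (h : IsPt c C X M N p a b) (i : Fin 4) :
    ((c.cj a i : 𝓞 F) : F) ^ 2 * ((c.cj b i : 𝓞 F) : F) =
      (M : F) * ((N : F) - ((c.ϑ i : 𝓞 F) : F)) := by
  have := congrArg (algebraMap (𝓞 F) F) (h.hab i)
  simpa using this

lemma rII_lin (c : Ctx F) (ω ω' : Fin 4 → ℤ) (u v : ℤ) (i : Fin 4) :
    ((c.cj (u • ω + v • ω') i : 𝓞 F) : F) =
      u * ((c.cj ω i : 𝓞 F) : F) + v * ((c.cj ω' i : 𝓞 F) : F) := by
  simp only [rII_cj, Finset.mul_sum, ← Finset.sum_add_distrib]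
  refine Finset.sum_congr rfl fun l _ => ?_
  simp only [Pi.add_apply, Pi.smul_apply, smul_eq_mul]
  push_cast
  ring

lemma rII_k (c : Ctx F) (ω ω' : Fin 4 → ℤ) (u v : ℤ) :
    ((c.pc ω ω' 1 2 : 𝓞 F) : F) * ((c.cj (u • ω + v • ω') 0 : 𝓞 F) : F) +
      ((c.pc ω ω' 2 0 : 𝓞 F) : F) * ((c.cj (u • ω + v • ω') 1 : 𝓞 F) : F) +
      ((c.pc ω ω' 0 1 : 𝓞 F) : F) * ((c.cj (u • ω + v • ω') 2 : 𝓞 F) : F) = 0 := by
  simp only [rII_lin, Ctx.pc, map_sub, map_mul]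
  ring

lemma rII_k0 (c : Ctx F) (ω ω' : Fin 4 → ℤ) (h : ∀ i j, i ≠ j → c.pc ω ω' i j ≠ 0) :
    ((c.pc ω ω' 1 2 : 𝓞 F) : F) ≠ 0 := by
  intro h'
  exact h 1 2 (by decide) (RingOfIntegers.coe_injective (by simpa using h'))

lemma rII_cross {c : Ctx F} {a a' : Fin 4 → ℤ} {i j : Fin 4}
    (h : ((c.cj a i : 𝓞 F) : F) * ((c.cj a' j : 𝓞 F) : F) =
      ((c.cj a j : 𝓞 F) : F) * ((c.cj a' i : 𝓞 F) : F)) :
    c.cj a i * c.cj a' j = c.cj a j * c.cj a' i :=
  RingOfIntegers.coe_injective (by simpa using h)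

lemma rII_sub {c : Ctx F} {C X : ℝ} {M : ℕ} {Z Z' : Finset ℤ} {p : ℤ → ℕ}
    {a b : ℤ → Fin 4 → ℤ} (h : AllPt c C X M Z p a b) (hZ : Z' ⊆ Z) : AllPt c C X M Z' p a b :=
  fun N hN => h N (hZ hN)

/-- a set with small fibres contains a large subset on which the map is injective -/
lemma rII_thin {β : Type*} (Z : Finset ℤ) (f : ℤ → β) (n : ℝ)
    (h : ∀ T ⊆ Z, (∀ N ∈ T, ∀ N' ∈ T, f N = f N') → (T.card : ℝ) ≤ n) :
    ∃ Z' ⊆ Z, Set.InjOn f Z' ∧ (Z.card : ℝ) ≤ n * Z'.card := by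
  classical
  obtain ⟨Z', h1, h2, h3⟩ := Finset.exists_subset_injOn_image_eq_of_surjOn (f := f) (Z : Set ℤ)
    (Z.image f) (by rw [Finset.coe_image]; exact Set.surjOn_image f _)
  have hn : 0 ≤ n := by simpa using h ∅ (by simp) (by simp)
  refine ⟨Z', by exact_mod_cast h1, h2, ?_⟩
  have h4 := Finset.card_le_mul_card_image (f := f) Z ⌊n⌋₊ (fun y _ => Nat.le_floor
    (h _ (Finset.filter_subset _ _) (fun N hN N' hN' => by
      rw [(Finset.mem_filter.mp hN).2, (Finset.mem_filter.mp hN').2])))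
  rw [← h3, Finset.card_image_of_injOn h2] at h4
  calc (Z.card : ℝ) ≤ (⌊n⌋₊ : ℝ) * Z'.card := by exact_mod_cast h4
    _ ≤ n * Z'.card := by gcongr; exact Nat.floor_le hn

omit [NumberField F] in
lemma rII_roots (Z : Finset ℤ) (f : ℤ → F) (hf : Set.InjOn f Z) (P : F[X]) (hP : P ≠ 0)
    (h : ∀ N ∈ Z, P.eval (f N) = 0) : Z.card ≤ P.natDegree := by
  classical
  rw [← Finset.card_image_of_injOn hf]
  apply card_le_degree_of_subset_roots
  intro x hx
  obtain ⟨N, hN, rfl⟩ := Finset.mem_image.mp hx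
  exact (mem_roots hP).mpr (h N hN)

lemma rII_eval (c : Ctx F) (q : Fin 4 → ℚ[X]) (t : ℤ) (a : Fin 4 → ℤ)
    (h : ∀ l, (q l).eval (t : ℚ) = a l) (i : Fin 4) :
    (c.cjP q i).eval (t : F) = ((c.cj a i : 𝓞 F) : F) := by
  rw [rII_cj, Ctx.cjP, eval_finsetSum]
  refine Finset.sum_congr rfl fun l _ => ?_
  have : (t : F) = algebraMap ℚ F (t : ℚ) := by simp
  rw [eval_mul, eval_C, this, eval_map_algebraMap, aeval_algebraMap_apply, coe_aeval_eq_eval, h]
  simp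

lemma rII_deg (c : Ctx F) (q : Fin 4 → ℚ[X]) (D : ℕ) (h : ∀ l, (q l).natDegree ≤ D) (i : Fin 4) :
    (c.cjP q i).natDegree ≤ D := by
  refine natDegree_sum_le_of_forall_le _ _ fun l _ => ?_
  exact (natDegree_mul_C_le _ _).trans (natDegree_map_le.trans (h l))

lemma rII_poly (A0 A1 A2 B0 B1 B2 Q : F[X]) (m t0 t1 t2 k0 k1 k2 : F) (e e' : ℕ) (hm : m ≠ 0)
    (h01 : t0 - t1 ≠ 0) (h02 : t0 - t2 ≠ 0) (hk : k0 ≠ 0)
    (r0 : A0 ^ 2 * B0 = C m * (Q - C t0)) (r1 : A1 ^ 2 * B1 = C m * (Q - C t1))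
    (r2 : A2 ^ 2 * B2 = C m * (Q - C t2)) (d0 : A0.natDegree = e) (d1 : A1.natDegree = e)
    (d2 : A2.natDegree = e) (dQ : Q.natDegree = 2 * e + e') (he : 2 * e < e')
    (hR : C k0 * B0 + C k1 * B1 + C k2 * B2 = 0) : e = 0 := by
  set S : F[X] := C k0 * (A1 ^ 2 * A2 ^ 2) + C k1 * (A0 ^ 2 * A2 ^ 2) + C k2 * (A0 ^ 2 * A1 ^ 2)
    with hS
  set S' : F[X] := C (k0 * t0) * (A1 ^ 2 * A2 ^ 2) + C (k1 * t1) * (A0 ^ 2 * A2 ^ 2) +
    C (k2 * t2) * (A0 ^ 2 * A1 ^ 2) with hS'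
  have hCm : (C m : F[X]) ≠ 0 := C_ne_zero.mpr hm
  have hQS : Q * S = S' := by
    apply mul_left_cancel₀ hCm
    simp only [hS, hS', C_mul]
    linear_combination (A0 ^ 2 * A1 ^ 2 * A2 ^ 2) * hR - C k0 * (A1 ^ 2 * A2 ^ 2) * r0 -
      C k1 * (A0 ^ 2 * A2 ^ 2) * r1 - C k2 * (A0 ^ 2 * A1 ^ 2) * r2
  have hd : ∀ (k : F) (P P' : F[X]), P.natDegree = e → P'.natDegree = e →
      (C k * (P ^ 2 * P' ^ 2)).natDegree ≤ 4 * e := by
    intro k P P' h h'
    refine (natDegree_C_mul_le _ _).trans (natDegree_mul_le.trans ?_)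
    have := natDegree_pow_le (p := P) (n := 2)
    have := natDegree_pow_le (p := P') (n := 2)
    omega
  have hS'd : S'.natDegree ≤ 4 * e :=
    natDegree_add_le_of_degree_le (natDegree_add_le_of_degree_le (hd _ _ _ d1 d2) (hd _ _ _ d0 d2))
      (hd _ _ _ d0 d1)
  have hS0 : S = 0 := by
    by_contra hne
    have hQ0 : Q ≠ 0 := by
      rintro rfl
      simp at dQ
      omega
    rw [← hQS, natDegree_mul hQ0 hne] at hS'd
    omega
  have hco : ∀ (A B : F[X]) (t : F), t0 - t ≠ 0 → A ^ 2 * B = C m * (Q - C t) →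
      IsCoprime A0 A := by
    intro A B t ht r
    have hu : m * (t0 - t) ≠ 0 := mul_ne_zero hm ht
    refine ⟨-C (m * (t0 - t))⁻¹ * (A0 * B0), C (m * (t0 - t))⁻¹ * (A * B), ?_⟩
    have h1 : C (m * (t0 - t))⁻¹ * C (m * (t0 - t)) = (1 : F[X]) := by
      rw [← C_mul, inv_mul_cancel₀ hu, C_1]
    rw [← h1, C_mul (a := m), C_sub]
    linear_combination C (m * (t0 - t))⁻¹ * r - C (m * (t0 - t))⁻¹ * r0
  have c1 := hco A1 B1 t1 h01 r1
  have c2 := hco A2 B2 t2 h02 r2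
  have hdvd : A0 ∣ C k0 * (A1 ^ 2 * A2 ^ 2) :=
    ⟨-(C k1 * (A0 * A2 ^ 2) + C k2 * (A0 * A1 ^ 2)), by
      rw [hS] at hS0
      linear_combination hS0⟩
  have h3 : A0 ∣ C k0 := (c1.pow_right.mul_right c2.pow_right).dvd_of_dvd_mul_right hdvd
  have := natDegree_le_of_dvd h3 (C_ne_zero.mpr hk)
  rw [natDegree_C] at this
  omega

/-- the version of `ratII` with a linear relation between three conjugates -/
theorem rII_core (c : Ctx F) (C : ℝ) (D K : ℕ) (ε : ℝ) (hε : 0 < ε) : ∃ C' X0 : ℝ,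
    ∀ X : ℝ, X0 ≤ X → ∀ (M : ℕ) (Z : Finset ℤ) (p : ℤ → ℕ) (a b : ℤ → Fin 4 → ℤ)
    (k0 k1 k2 : F) (w0 w1 : ℤ → ℤ), AllPt c C X M Z p a b → k0 ≠ 0 →
    (∀ N ∈ Z, k0 * ((c.cj (b N) 0 : 𝓞 F) : F) + k1 * ((c.cj (b N) 1 : 𝓞 F) : F) +
      k2 * ((c.cj (b N) 2 : 𝓞 F) : F) = 0) →
    Param X K Z w0 w1 → RatFn F D Z w0 w1 (fun N => (N : F)) → RatDir F D Z w0 w1 a →
    (Z.card : ℝ) ≤ C' * X ^ ε := by
  classical
  obtain ⟨C1, X1, D', K', h1⟩ := config c C D K ε hε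
  obtain ⟨C2, X2, h2⟩ := fiberA c C
  refine ⟨C1 * (1 + max C2 D'), max X1 X2, ?_⟩
  intro X hX M Z p a b k0 k1 k2 w0 w1 hpt hk hrel hpar hN hdir
  obtain ⟨Z0, 𝒯, hZ0, h𝒯, hcov, hT⟩ :=
    h1 X (le_trans (le_max_left _ _) hX) M Z p a b w0 w1 hpt hpar hN hdir
  have hpiece : ∀ T ∈ 𝒯, (T.card : ℝ) ≤ max C2 D' := by
    intro T hT'
    obtain ⟨hsub, t, qN, qa, qb, hc⟩ := hT T hT'
    by_cases hcard : T.card ≤ D'
    · exact le_max_of_le_right (by exact_mod_cast hcard)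
    refine le_max_of_le_left ?_
    obtain ⟨N0, hN0⟩ : T.Nonempty := Finset.card_pos.mp (by omega)
    have hM := (hpt N0 (hsub hN0)).hM0
    obtain ⟨e, e', -, -, -, hA, -, hQ, he⟩ := hc.degrees hM
    have hR : Polynomial.C k0 * c.cjP qb 0 + Polynomial.C k1 * c.cjP qb 1 +
        Polynomial.C k2 * c.cjP qb 2 = 0 := by
      by_contra hne
      apply hcard
      refine (rII_roots T (fun N => (t N : F)) ?_ _ hne ?_).trans ?_
      · intro N hN N' hN' h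
        exact hc.inj hN hN' (Int.cast_injective (α := F) h)
      · intro N hN
        simp only [eval_add, eval_mul, eval_C, rII_eval c qb (t N) (b N) (hc.eb N hN)]
        exact hrel N (hsub hN)
      · have := fun (k : F) i => (natDegree_C_mul_le k _).trans (rII_deg c qb D' hc.db i)
        exact natDegree_add_le_of_degree_le (natDegree_add_le_of_degree_le (this _ _) (this _ _))
          (this _ _)
    have he0 : e = 0 := by
      rcases he with he | he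
      · exact he
      · exact rII_poly _ _ _ _ _ _ _ (M : F) _ _ _ k0 k1 k2 e e' (by exact_mod_cast hM.ne')
          (rII_theta c (by decide)) (rII_theta c (by decide)) hk (hc.rel 0) (hc.rel 1) (hc.rel 2)
          (hA 0).2 (hA 1).2 (hA 2).2 (by rw [natDegree_map, hQ]) he hR
    refine h2 X (le_trans (le_max_right _ _) hX) M T p a b 0 1 (by decide) (rII_sub hpt hsub) ?_
    intro N hN N' hN'
    apply rII_cross
    have key : ∀ i, ((c.cj (a N) i : 𝓞 F) : F) = ((c.cj (a N') i : 𝓞 F) : F) := by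
      intro i
      rw [← rII_eval c qa (t N) (a N) (hc.ea N hN), ← rII_eval c qa (t N') (a N') (hc.ea N' hN'),
        eq_C_of_natDegree_eq_zero ((hA i).2.trans he0), eval_C, eval_C]
    rw [key, key, mul_comm]
  have hsub : Z ⊆ Z0 ∪ 𝒯.biUnion id := by
    intro N hN
    rcases hcov N hN with h | ⟨T, h1, h2⟩
    · exact Finset.mem_union_left _ h
    · exact Finset.mem_union_right _ (Finset.mem_biUnion.mpr ⟨T, h1, h2⟩)
  have hm : (0 : ℝ) ≤ max C2 D' := le_max_of_le_right (Nat.cast_nonneg _)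
  have h3 : (Z.card : ℝ) ≤ Z0.card + ∑ T ∈ 𝒯, (T.card : ℝ) := by
    have := (Finset.card_le_card hsub).trans ((Finset.card_union_le _ _).trans
      (Nat.add_le_add_left Finset.card_biUnion_le _))
    exact_mod_cast this
  have h4 : ∑ T ∈ 𝒯, (T.card : ℝ) ≤ 𝒯.card * max C2 D' := by
    simpa using Finset.sum_le_card_nsmul 𝒯 _ _ hpiece
  have h5 := mul_le_mul_of_nonneg_right h𝒯 hm
  calc (Z.card : ℝ) ≤ C1 * X ^ ε + C1 * X ^ ε * max C2 D' := by linarith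
    _ = _ := by ring

/-- Part II: points on a rational curve over a `β`-line -/
theorem ratII (c : Ctx F) (C : ℝ) (D K : ℕ) (ε : ℝ) (hε : 0 < ε) : ∃ C' X0 : ℝ,
    ∀ X : ℝ, X0 ≤ X → ∀ (M : ℕ) (Z : Finset ℤ) (p : ℤ → ℕ) (a b : ℤ → Fin 4 → ℤ)
    (ω ω' : Fin 4 → ℤ) (u v w0 w1 : ℤ → ℤ), AllPt c C X M Z p a b →
    (∀ i j, i ≠ j → c.pc ω ω' i j ≠ 0) → (∀ N ∈ Z, b N = u N • ω + v N • ω') →
    Param X K Z w0 w1 → RatFn F D Z w0 w1 (fun N => (N : F)) → RatDir F D Z w0 w1 a →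
    (Z.card : ℝ) ≤ C' * X ^ ε := by
  obtain ⟨C', X0, h⟩ := rII_core c C D K ε hε
  refine ⟨C', X0, fun X hX M Z p a b ω ω' u v w0 w1 hpt hpc hb => ?_⟩
  exact h X hX M Z p a b _ _ _ w0 w1 hpt (rII_k0 c ω ω' hpc)
    (fun N hN => by rw [hb N hN]; exact rII_k c ω ω' _ _)

lemma rII_final {x n y C1 r : ℝ} {D : ℕ} (hn : 0 ≤ n) (hr : 1 ≤ r) (hx : x ≤ n * y)
    (hy : y ≤ D ∨ y ≤ C1 * r) : x ≤ n * max C1 D * r := by
  have h0 : (0 : ℝ) ≤ D := Nat.cast_nonneg _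
  have h1 : y ≤ max C1 D * r := by
    rcases hy with h | h
    · have := le_max_right C1 (D : ℝ)
      nlinarith
    · exact h.trans (mul_le_mul_of_nonneg_right (le_max_left _ _) (by linarith))
  calc x ≤ n * y := hx
    _ ≤ n * (max C1 D * r) := mul_le_mul_of_nonneg_left h1 hn
    _ = _ := by ring

/-- Part II: all ratios `α_i / α_0` are rational functions of the position on the line -/
theorem secII (c : Ctx F) (C : ℝ) (D K : ℕ) (ε : ℝ) (hε : 0 < ε) : ∃ C' X0 : ℝ,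
    ∀ X : ℝ, X0 ≤ X → ∀ (M : ℕ) (Z : Finset ℤ) (p : ℤ → ℕ) (a b : ℤ → Fin 4 → ℤ)
    (ω ω' : Fin 4 → ℤ) (u v : ℤ → ℤ), AllPt c C X M Z p a b →
    (∀ i j, i ≠ j → c.pc ω ω' i j ≠ 0) →
    (∀ N ∈ Z, b N = u N • ω + v N • ω' ∧ v N ≠ 0 ∧ IsCoprime (u N) (v N) ∧
      |(u N : ℝ)| ≤ X ^ K ∧ |(v N : ℝ)| ≤ X ^ K) →
    (∀ i, RatFn F D Z v u
      (fun N => ((c.cj (a N) i : 𝓞 F) : F) / ((c.cj (a N) 0 : 𝓞 F) : F))) →
    (Z.card : ℝ) ≤ C' * X ^ ε := by
  classical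
  obtain ⟨C1, X1, h1⟩ := ratII c C (4 * D + 1) K ε hε
  obtain ⟨C2, X2, h2⟩ := fiberB c C
  obtain ⟨d, E, hd, hE⟩ := c.exists_coord
  refine ⟨max C2 0 * max C1 (4 * D + 1 : ℕ), max 1 (max X1 X2), ?_⟩
  intro X hX M Z p a b ω ω' u v hpt hpc hb hrat
  have hX1 : 1 ≤ X := le_trans (le_max_left _ _) hX
  have hXa : X1 ≤ X := le_trans (le_trans (le_max_left _ _) (le_max_right _ _)) hX
  have hXb : X2 ≤ X := le_trans (le_trans (le_max_right _ _) (le_max_right _ _)) hX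
  set s : ℤ → F := fun N => (u N : F) / (v N : F) with hs
  have hv : ∀ N ∈ Z, (v N : F) ≠ 0 := fun N hN => by exact_mod_cast (hb N hN).2.1
  have hβ : ∀ N ∈ Z, ∀ i, ((c.cj (b N) i : 𝓞 F) : F) = v N * (c.lin ω ω' i).eval (s N) := by
    intro N hN i
    have := hv N hN
    rw [(hb N hN).1, rII_lin]
    simp only [Ctx.lin, eval_add, eval_mul, eval_C, eval_X, hs]
    field_simp
  obtain ⟨Z', hZ', hinj, hcard⟩ := rII_thin Z s (max C2 0) (by
    intro T hT h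
    refine le_max_of_le_left (h2 X hXb M T p a b 0 1 (by decide) (rII_sub hpt hT) ?_)
    intro N hN N' hN'
    apply rII_cross
    rw [hβ N (hT hN), hβ N (hT hN), hβ N' (hT hN'), hβ N' (hT hN'), h N hN N' hN']
    ring)
  refine rII_final (le_max_right _ _) (Real.one_le_rpow hX1 hε.le) hcard ?_
  choose num den hden hnd hdd hev using hrat
  have hα : ∀ N ∈ Z, ∀ i, (den i).eval (s N) * ((c.cj (a N) i : 𝓞 F) : F) =
      (num i).eval (s N) * ((c.cj (a N) 0 : 𝓞 F) : F) := by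
    intro N hN i
    have h0 := rII_ne c (hpt N hN).ha1 0
    rw [← hev i N hN]
    simp only [hs]
    field_simp
  -- the common denominator
  set P : Fin 4 → F[X] := fun i => num i * ∏ j ∈ Finset.univ.erase i, den j with hP
  set q : Fin 4 → F[X] := fun l => ∑ i, Polynomial.C ((E l i : 𝓞 F) : F) * P i with hq
  have hPd : ∀ i, (P i).natDegree ≤ 4 * D + 1 := by
    intro i
    refine natDegree_mul_le.trans ?_
    have h3 : (∏ j ∈ Finset.univ.erase i, den j).natDegree ≤ 3 * D := by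
      refine (natDegree_prod_le _ _).trans ?_
      refine (Finset.sum_le_card_nsmul _ _ D fun j _ => hdd j).trans ?_
      simp
    have := hnd i
    omega
  have hqe : ∀ N ∈ Z, ∀ l, ((c.cj (a N) 0 : 𝓞 F) : F) * (q l).eval (s N) =
      (∏ j, den j).eval (s N) * ((d : F) * a N l) := by
    intro N hN l
    have h3 := hE F (algebraMap (𝓞 F) F) (fun k => (a N k : F)) l
    rw [h3, hq]
    simp only [eval_finsetSum]
    rw [Finset.mul_sum, Finset.mul_sum]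
    refine Finset.sum_congr rfl fun i _ => ?_
    have h4 := hα N hN i
    rw [← Finset.mul_prod_erase Finset.univ den (Finset.mem_univ i), ← rII_cj]
    simp only [hP, eval_mul, eval_C]
    linear_combination
      (-((E l i : 𝓞 F) : F) * (∏ j ∈ Finset.univ.erase i, den j).eval (s N)) * h4
  by_cases hq0 : q = 0
  · left
    have hDen : (∏ j, den j) ≠ 0 := Finset.prod_ne_zero_iff.mpr fun j _ => hden j
    have h3 := rII_roots Z' s hinj _ hDen (by
      intro N hN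
      by_contra hne
      have h5 : a N = 0 := by
        funext l
        have h4 := hqe N (hZ' hN) l
        rw [hq0] at h4
        simp only [Pi.zero_apply, eval_zero, mul_zero] at h4
        have h6 := (mul_eq_zero.mp h4.symm).resolve_left hne
        have h7 := (mul_eq_zero.mp h6).resolve_left (by exact_mod_cast hd)
        exact_mod_cast h7
      exact rII_gcd (hpt N (hZ' hN)).ha1 h5)
    have h4 : (∏ j, den j).natDegree ≤ 4 * D := by
      refine (natDegree_prod_le _ _).trans ?_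
      refine (Finset.sum_le_card_nsmul _ _ D fun j _ => hdd j).trans ?_
      simp
    exact_mod_cast (by omega : Z'.card ≤ 4 * D + 1)
  -- the equation for `N`
  set W : F[X] := num 1 ^ 2 * c.lin ω ω' 1 - den 1 ^ 2 * c.lin ω ω' 0 with hW
  set W' : F[X] := Polynomial.C ((c.ϑ 0 : 𝓞 F) : F) * (num 1 ^ 2 * c.lin ω ω' 1) -
    Polynomial.C ((c.ϑ 1 : 𝓞 F) : F) * (den 1 ^ 2 * c.lin ω ω' 0) with hW'
  have hWe : ∀ N ∈ Z, W.eval (s N) * (N : F) = W'.eval (s N) := by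
    intro N hN
    have h0 := rII_ne c (hpt N hN).ha1 0
    have r0 := rII_rel (hpt N hN) 0
    have r1 := rII_rel (hpt N hN) 1
    rw [hβ N hN] at r0 r1
    have h4 := hα N hN 1
    apply mul_left_cancel₀ (mul_ne_zero (pow_ne_zero 2 h0) (hv N hN))
    simp only [hW, hW', eval_sub, eval_mul, eval_pow, eval_C]
    set n1 := (num 1).eval (s N)
    set d1 := (den 1).eval (s N)
    set a0 := ((c.cj (a N) 0 : 𝓞 F) : F)
    set a1 := ((c.cj (a N) 1 : 𝓞 F) : F)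
    set l0 := (c.lin ω ω' 0).eval (s N)
    set l1 := (c.lin ω ω' 1).eval (s N)
    set t0 := ((c.ϑ 0 : 𝓞 F) : F)
    set t1 := ((c.ϑ 1 : 𝓞 F) : F)
    linear_combination (-(v N : F) * l1 * ((N : F) - t0) * (n1 * a0 + d1 * a1)) * h4 +
      d1 ^ 2 * ((N : F) - t0) * r1 - d1 ^ 2 * ((N : F) - t1) * r0
  by_cases hW0 : W = 0
  · left
    have h3 := rII_roots Z' s hinj _ (hden 1) (by
      intro N hN
      have h4 := hWe N (hZ' hN)
      have h5 : W.eval (s N) = 0 := by rw [hW0, eval_zero]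
      rw [h5, zero_mul] at h4
      simp only [hW, hW', eval_sub, eval_mul, eval_pow, eval_C] at h4 h5
      have h6 : (c.lin ω ω' 0).eval (s N) ≠ 0 := by
        intro h
        have := rII_ne c (hpt N (hZ' hN)).hb1 0
        rw [hβ N (hZ' hN), h, mul_zero] at this
        exact this rfl
      have h7 : (((c.ϑ 0 : 𝓞 F) : F) - ((c.ϑ 1 : 𝓞 F) : F)) *
          ((den 1).eval (s N) ^ 2 * (c.lin ω ω' 0).eval (s N)) = 0 := by
        linear_combination (-1 : F) * h4 - ((c.ϑ 0 : 𝓞 F) : F) * h5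
      have h8 := (mul_eq_zero.mp h7).resolve_left (rII_theta c (by decide))
      exact pow_eq_zero_iff (two_ne_zero) |>.mp ((mul_eq_zero.mp h8).resolve_right h6))
    have := hdd 1
    exact_mod_cast (by omega : Z'.card ≤ 4 * D + 1)
  right
  have hlin : ∀ i, (c.lin ω ω' i).natDegree ≤ 1 := fun i => natDegree_linear_le
  have hsq : ∀ (A : F[X]) i, A.natDegree ≤ D → (A ^ 2 * c.lin ω ω' i).natDegree ≤ 4 * D + 1 := by
    intro A i hA
    refine natDegree_mul_le.trans ?_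
    have := natDegree_pow_le (p := A) (n := 2)
    have := hlin i
    omega
  refine h1 X hXa M Z' p a b ω ω' u v v u (rII_sub hpt hZ') hpc (fun N hN => (hb N (hZ' hN)).1)
    ⟨fun N hN => ?_, fun N hN N' hN' h => ?_⟩ ⟨W', W, hW0, ?_, ?_, fun N hN => hWe N (hZ' hN)⟩
    ⟨q, hq0, fun l => ?_, fun N hN j k => ?_⟩
  · obtain ⟨-, b2, b3, b4, b5⟩ := hb N (hZ' hN)
    exact ⟨b3.symm, b2, b5, b4⟩
  · apply hinj hN hN'
    simp only [hs]
    rw [div_eq_div_iff (hv N (hZ' hN)) (hv N' (hZ' hN'))]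
    exact_mod_cast h
  · exact (natDegree_sub_le _ _).trans (max_le ((natDegree_C_mul_le _ _).trans (hsq _ _ (hnd 1)))
      ((natDegree_C_mul_le _ _).trans (hsq _ _ (hdd 1))))
  · exact (natDegree_sub_le _ _).trans (max_le (hsq _ _ (hnd 1)) (hsq _ _ (hdd 1)))
  · exact natDegree_sum_le_of_forall_le _ _ fun i _ => (natDegree_C_mul_le _ _).trans (hPd i)
  · apply mul_left_cancel₀ (rII_ne c (hpt N (hZ' hN)).ha1 0)
    have e1 := hqe N (hZ' hN) j
    have e2 := hqe N (hZ' hN) k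
    simp only [hs] at e1 e2
    linear_combination (a N j : F) * e2 - (a N k : F) * e1

end Vale.Agent.P018
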