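import Vale.Agent.P018.Q.DimI
import Vale.Agent.P018.Q.IntKer
import Vale.Agent.P018.Q.Mul

namespace Vale.Agent.P018

open NumberField Polynomial Module

theorem seci_pair {K V : Type} [Field K] [AddCommGroup V] [Module K V] (s : Set V)
    (W : Submodule K V) (hW : 2 ≤ finrank K W) (h : W ≤ Submodule.span K s) :
    ∃ x ∈ s, ∃ y ∈ s, LinearIndependent K ![x, y] := by
  by_contra hc
  push Not at hc
  obtain ⟨x, hx⟩ : ∃ x : V, Submodule.span K s ≤ Submodule.span K {x} := by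
    by_cases h0 : ∀ x ∈ s, x = 0
    · exact ⟨0, Submodule.span_le.2 fun y hy => by rw [h0 y hy]; exact Submodule.zero_mem _⟩
    · push Not at h0
      obtain ⟨x, hx, hx0⟩ := h0
      refine ⟨x, Submodule.span_le.2 fun y hy => ?_⟩
      have h1 := hc y hy x hx
      rw [linearIndependent_fin2] at h1
      push Not at h1
      exact Submodule.mem_span_singleton.2 (h1 hx0)
  have h1 := Submodule.finrank_mono (h.trans hx)
  have h2 : finrank K (Submodule.span K ({x} : Set V)) ≤ 1 := by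
    simpa using finrank_span_le_card (R := K) ({x} : Set V)
  omega

/-- the coordinate `l` of `(s ω + ω') ^ 2 * s ^ k * θ ^ l'` -/
noncomputable def seciE (μ : (Fin 4 → ℤ) →ₗ[ℤ] (Fin 4 → ℤ) →ₗ[ℤ] (Fin 4 → ℤ)) (ω ω' : Fin 4 → ℤ)
    (l : Fin 4) (κ : Fin 3 × Fin 4) : ℤ[X] :=
  monomial (κ.1 + 2) (μ (μ ω ω) (Pi.single κ.2 1) l) +
    monomial (κ.1 + 1) (2 * μ (μ ω ω') (Pi.single κ.2 1) l) +
    monomial κ.1 (μ (μ ω' ω') (Pi.single κ.2 1) l)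

theorem seciE_deg (μ : (Fin 4 → ℤ) →ₗ[ℤ] (Fin 4 → ℤ) →ₗ[ℤ] (Fin 4 → ℤ)) (ω ω' : Fin 4 → ℤ)
    (l : Fin 4) (κ : Fin 3 × Fin 4) : (seciE μ ω ω' l κ).natDegree ≤ 4 := by
  have := κ.1.2
  refine natDegree_add_le_of_degree_le (natDegree_add_le_of_degree_le ?_ ?_) ?_ <;>
    exact (natDegree_monomial_le _).trans (by omega)

theorem seciE_size {μ : (Fin 4 → ℤ) →ₗ[ℤ] (Fin 4 → ℤ) →ₗ[ℤ] (Fin 4 → ℤ)} {C : ℝ}
    (hμ : ∀ (a b : Fin 4 → ℤ) (A B : ℝ), (∀ l, |(a l : ℝ)| ≤ A) → (∀ l, |(b l : ℝ)| ≤ B) →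
      ∀ l, |(μ a b l : ℝ)| ≤ C * A * B) {ω ω' : Fin 4 → ℤ} {A : ℝ}
    (h : ∀ l, |(ω l : ℝ)| ≤ A ∧ |(ω' l : ℝ)| ≤ A) (l : Fin 4) (κ : Fin 3 × Fin 4) (m : ℕ) :
    |((seciE μ ω ω' l κ).coeff m : ℝ)| ≤ 4 * C ^ 2 * A ^ 2 := by
  have h1 : ∀ j, |((Pi.single κ.2 1 : Fin 4 → ℤ) j : ℝ)| ≤ 1 := fun j => by
    by_cases hj : j = κ.2 <;> simp [hj]
  have h2 := hμ _ _ _ _ (hμ ω ω A A (fun l => (h l).1) fun l => (h l).1) h1 l
  have h3 := hμ _ _ _ _ (hμ ω ω' A A (fun l => (h l).1) fun l => (h l).2) h1 l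
  have h4 := hμ _ _ _ _ (hμ ω' ω' A A (fun l => (h l).2) fun l => (h l).2) h1 l
  have h5 : 0 ≤ C * (C * A * A) * 1 := (abs_nonneg _).trans h2
  have e : 4 * C ^ 2 * A ^ 2 = 4 * (C * (C * A * A) * 1) := by ring
  rw [abs_le] at h2 h3 h4 ⊢
  simp only [seciE, coeff_add, coeff_monomial]
  push_cast
  rw [e]
  constructor <;> split_ifs <;> linarith [h2.1, h2.2, h3.1, h3.2, h4.1, h4.2]

variable {F : Type} [Field F] [NumberField F]

theorem seci_cj (c : Ctx F) (a : Fin 4 → ℤ) (i : Fin 4) :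
    ((c.cj a i : 𝓞 F) : F) = ∑ l : Fin 4, (a l : F) * ((c.ϑ i : 𝓞 F) : F) ^ (l : ℕ) :=
  map_pv (algebraMap (𝓞 F) F) a (c.ϑ i)

theorem seciE_sum (c : Ctx F) {μ : (Fin 4 → ℤ) →ₗ[ℤ] (Fin 4 → ℤ) →ₗ[ℤ] (Fin 4 → ℤ)}
    (hμ : ∀ a b i, c.cj (μ a b) i = c.cj a i * c.cj b i) (ω ω' : Fin 4 → ℤ) (i : Fin 4)
    (κ : Fin 3 × Fin 4) :
    ∑ l : Fin 4, C (((c.ϑ i : 𝓞 F) : F) ^ (l : ℕ)) * (seciE μ ω ω' l κ).map (Int.castRingHom F) =
      c.lin ω ω' i ^ 2 * monomial κ.1 (((c.ϑ i : 𝓞 F) : F) ^ (κ.2 : ℕ)) := by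
  have h : ∀ a b : Fin 4 → ℤ, ∑ l : Fin 4, ((c.ϑ i : 𝓞 F) : F) ^ (l : ℕ) *
      (μ (μ a b) (Pi.single κ.2 1) l : F) = ((c.cj a i : 𝓞 F) : F) * ((c.cj b i : 𝓞 F) : F) *
        ((c.ϑ i : 𝓞 F) : F) ^ (κ.2 : ℕ) := by
    intro a b
    have h1 := seci_cj c (μ (μ a b) (Pi.single κ.2 1)) i
    rw [hμ, hμ, mul_cj_single] at h1
    push_cast at h1
    rw [one_mul] at h1
    rw [h1]
    exact Finset.sum_congr rfl fun l _ => mul_comm _ _
  simp only [seciE, Polynomial.map_add, map_monomial, mul_add, C_mul_monomial,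
    Finset.sum_add_distrib, ← map_sum, eq_intCast, Int.cast_mul, Int.cast_ofNat,
    mul_left_comm _ (2 : F), ← Finset.mul_sum, h]
  simp only [Ctx.lin, ← C_mul_X_pow_eq_monomial, map_mul, map_ofNat]
  ring

theorem seci_exist (c : Ctx F) (K : ℕ) : ∃ K' : ℕ, ∀ X : ℝ, 2 ≤ X → ∀ ω ω' : Fin 4 → ℤ,
    (∀ i, c.lin ω ω' i ≠ 0) → (∀ l, |(ω l : ℝ)| ≤ X ^ K ∧ |(ω' l : ℝ)| ≤ X ^ K) →
    ∃ S : Finset (ℤ[X] × ℤ[X]), (∀ z ∈ S, (∀ k, |(z.1.coeff k : ℝ)| ≤ X ^ K' ∧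
        |(z.2.coeff k : ℝ)| ≤ X ^ K') ∧ z.1.natDegree ≤ 4 ∧ z.2.natDegree ≤ 4 ∧
        ∀ i, c.lin ω ω' i ^ 2 ∣ z.1.map (Int.castRingHom F) -
          C ((c.ϑ i : 𝓞 F) : F) * z.2.map (Int.castRingHom F)) ∧
      ∃ z ∈ S, ∃ z' ∈ S, LinearIndependent F
        ![(z.1.map (Int.castRingHom F), z.2.map (Int.castRingHom F)),
          (z'.1.map (Int.castRingHom F), z'.2.map (Int.castRingHom F))] := by
  classical
  obtain ⟨μ, C0, hC0, hμ, hsz⟩ := c.exists_mul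
  obtain ⟨d, e, hd, he⟩ := c.exists_coord
  obtain ⟨c0, hc0⟩ := int_kernel (Fin 3 × Fin 4)
  obtain ⟨n0, hn0⟩ := pow_unbounded_of_one_lt (4 * C0 ^ 2) (one_lt_two (α := ℝ))
  refine ⟨4 + c0 + (n0 + 2 * K) * (c0 + 1), fun X hX ω ω' hl hω => ?_⟩
  have hX1 : 1 ≤ X := by linarith
  have hE : ∀ l κ m, |((seciE μ ω ω' l κ).coeff m : ℝ)| ≤ X ^ (n0 + 2 * K) := fun l κ m => by
    refine (seciE_size hsz hω l κ m).trans ?_
    rw [pow_add, mul_comm 2 K, pow_mul]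
    exact mul_le_mul_of_nonneg_right
      (hn0.le.trans (pow_le_pow_left₀ zero_le_two hX _)) (by positivity)
  obtain ⟨S, hS1, hS2⟩ := hc0 (Fin 5 × Fin 2) Finset.univ
    (fun j κ => (seciE μ ω ω' (j.2.addNat 2) κ).coeff j.1) _ (one_le_pow₀ hX1)
    fun j _ κ => hE _ _ _
  let W : Fin 4 → (Fin 3 × Fin 4 → F) →ₗ[F] F[X] := fun l =>
    Fintype.linearCombination F fun κ => (seciE μ ω ω' l κ).map (Int.castRingHom F)
  have hW : ∀ l x, W l x = ∑ κ, x κ • (seciE μ ω ω' l κ).map (Int.castRingHom F) :=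
    fun l x => Fintype.linearCombination_apply _ _ _
  let Φ : (Fin 3 × Fin 4 → F) →ₗ[F] (Fin 5 × Fin 2 → F) := Matrix.mulVecLin
    (Matrix.of fun j κ => ((seciE μ ω ω' (j.2.addNat 2) κ).coeff j.1 : F))
  have hΦ : ∀ x, x ∈ LinearMap.ker Φ ↔ ∀ j : Fin 5 × Fin 2,
      ∑ κ, ((seciE μ ω ω' (j.2.addNat 2) κ).coeff j.1 : F) * x κ = 0 := fun x => funext_iff
  have hrank : 2 ≤ finrank F (LinearMap.ker Φ) := by
    have h1 := LinearMap.finrank_range_add_finrank_ker Φ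
    have h2 := Submodule.finrank_le (LinearMap.range Φ)
    simp only [finrank_fintype_fun_eq_card, Fintype.card_prod, Fintype.card_fin] at h1 h2
    omega
  have hker : ∀ x ∈ LinearMap.ker Φ, ∀ t : Fin 2, W (t.addNat 2) x = 0 := by
    intro x hx t
    ext m
    rw [hW, finsetSum_coeff, coeff_zero]
    simp only [coeff_smul, coeff_map, smul_eq_mul, eq_intCast]
    by_cases hm : m < 5
    · rw [← (hΦ x).1 hx (⟨m, hm⟩, t)]
      exact Finset.sum_congr rfl fun κ _ => mul_comm _ _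
    · refine Finset.sum_eq_zero fun κ _ => ?_
      rw [coeff_eq_zero_of_natDegree_lt ((seciE_deg _ _ _ _ _).trans_lt (by omega))]
      simp
  have hid : ∀ x ∈ LinearMap.ker Φ, ∀ i, W 0 x - C ((c.ϑ i : 𝓞 F) : F) * (-W 1 x) =
      c.lin ω ω' i ^ 2 * ∑ κ : Fin 3 × Fin 4,
        monomial κ.1 (x κ * ((c.ϑ i : 𝓞 F) : F) ^ (κ.2 : ℕ)) := by
    intro x hx i
    have h2 : W 2 x = 0 := hker x hx 0
    have h3 : W 3 x = 0 := hker x hx 1
    have h1 : ∑ l : Fin 4, C (((c.ϑ i : 𝓞 F) : F) ^ (l : ℕ)) * W l x =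
        c.lin ω ω' i ^ 2 * ∑ κ : Fin 3 × Fin 4,
          monomial κ.1 (x κ * ((c.ϑ i : 𝓞 F) : F) ^ (κ.2 : ℕ)) := by
      simp only [hW, Finset.mul_sum]
      rw [Finset.sum_comm]
      refine Finset.sum_congr rfl fun κ _ => ?_
      simp only [mul_smul_comm]
      rw [← Finset.smul_sum, seciE_sum c hμ, ← mul_smul_comm, smul_monomial, smul_eq_mul]
    rw [← h1, Fin.sum_univ_four, h2, h3]
    simp
  have hinj : ∀ x ∈ LinearMap.ker Φ, W 0 x = 0 → -W 1 x = 0 → x = 0 := by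
    intro x hx h0 h1
    funext κ
    have h2 : ∀ i, ∑ l : Fin 4, x (κ.1, l) * ((c.ϑ i : 𝓞 F) : F) ^ (l : ℕ) = 0 := by
      intro i
      have h3 := hid x hx i
      rw [h0, h1, mul_zero, sub_zero] at h3
      have h4 := (mul_eq_zero.1 h3.symm).resolve_left (pow_ne_zero 2 (hl i))
      have h5 := congrArg (fun q => q.coeff κ.1) h4
      simp only [finsetSum_coeff, coeff_monomial, coeff_zero, Fintype.sum_prod_type,
        Fin.val_inj] at h5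
      rw [Finset.sum_comm] at h5
      simpa using h5
    have h6 := he F (algebraMap (𝓞 F) F) (fun l => x (κ.1, l)) κ.2
    have h7 : ∀ i, ∑ l : Fin 4, x (κ.1, l) * algebraMap (𝓞 F) F (c.ϑ i) ^ (l : ℕ) = 0 := h2
    simp only [h7, mul_zero, Finset.sum_const_zero] at h6
    exact (mul_eq_zero.1 h6).resolve_left (by exact_mod_cast hd)
  let Z : Fin 4 → (Fin 3 × Fin 4 → ℤ) → ℤ[X] := fun l y => ∑ κ, y κ • seciE μ ω ω' l κ
  have hZ : ∀ l y, (Z l y).map (Int.castRingHom F) = W l fun κ => (y κ : F) := by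
    intro l y
    rw [hW, Polynomial.map_sum]
    exact Finset.sum_congr rfl fun κ _ => by rw [Polynomial.map_smul, eq_intCast]
  have hZd : ∀ l y, (Z l y).natDegree ≤ 4 := fun l y =>
    natDegree_sum_le_of_forall_le _ _ fun κ _ => (natDegree_smul_le _ _).trans (seciE_deg _ _ _ _ _)
  have hZs : ∀ l, ∀ y ∈ S, ∀ k,
      |((Z l y).coeff k : ℝ)| ≤ X ^ (4 + c0 + (n0 + 2 * K) * (c0 + 1)) := by
    intro l y hy k
    rw [finsetSum_coeff]
    push_cast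
    refine (Finset.abs_sum_le_sum_abs _ _).trans ((Finset.sum_le_card_nsmul _ _
      (c0 * (X ^ (n0 + 2 * K)) ^ c0 * X ^ (n0 + 2 * K)) fun κ _ => ?_).trans ?_)
    · rw [coeff_smul, smul_eq_mul, Int.cast_mul, abs_mul]
      exact mul_le_mul ((hS1 y hy).1 κ) (hE _ _ _) (abs_nonneg _) (by positivity)
    · have h1 : (12 : ℝ) ≤ X ^ 4 := le_trans (by norm_num) (pow_le_pow_left₀ zero_le_two hX 4)
      have h2 : (c0 : ℝ) ≤ X ^ c0 :=
        le_trans (by exact_mod_cast Nat.lt_two_pow_self.le) (pow_le_pow_left₀ zero_le_two hX c0)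
      generalize n0 + 2 * K = h
      rw [nsmul_eq_mul, pow_add, pow_add, pow_mul, pow_succ _ c0, mul_assoc (X ^ 4),
        ← mul_assoc (X ^ c0)]
      gcongr
      simpa using h1
  have hmem : ∀ y ∈ S, (fun κ => (y κ : F)) ∈ LinearMap.ker Φ := fun y hy =>
    (hΦ _).2 fun j => by exact_mod_cast (hS1 y hy).2 j (Finset.mem_univ j)
  obtain ⟨_, ⟨y, hy, rfl⟩, _, ⟨y', hy', rfl⟩, hli⟩ := seci_pair _ _ hrank
    fun x hx => hS2 F x fun j _ => (hΦ x).1 hx j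
  refine ⟨S.image fun y => (Z 0 y, -Z 1 y), fun z hz => ?_, _, Finset.mem_image_of_mem _ hy, _,
    Finset.mem_image_of_mem _ hy', ?_⟩
  · obtain ⟨y, hy, rfl⟩ := Finset.mem_image.1 hz
    refine ⟨fun k => ⟨hZs 0 y hy k, ?_⟩, hZd 0 y, by rw [natDegree_neg]; exact hZd 1 y, fun i => ?_⟩
    · rw [coeff_neg, Int.cast_neg, abs_neg]
      exact hZs 1 y hy k
    · rw [Polynomial.map_neg, hZ, hZ, hid _ (hmem y hy)]
      exact Dvd.intro _ rfl
  · rw [LinearIndependent.pair_iff] at hli ⊢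
    intro s t hst
    simp only [Polynomial.map_neg, hZ, Prod.smul_mk, Prod.mk_add_mk, Prod.mk_eq_zero] at hst
    refine hli s t (hinj _ (Submodule.add_mem _ (Submodule.smul_mem _ _ (hmem y hy))
      (Submodule.smul_mem _ _ (hmem y' hy'))) ?_ ?_)
    · rw [map_add, map_smul, map_smul]
      exact hst.1
    · rw [map_add, map_smul, map_smul, ← hst.2, smul_neg, smul_neg, neg_add]

end Vale.Agent.P018
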