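import Vale.Agent.P018.Q.RatI
import Vale.Agent.P018.Q.DimI
import Vale.Agent.P018.Q.CurveCommon
import Vale.Agent.P018.Q.SecIAux
import Vale.Agent.P018.Q.Fiber

namespace Vale.Agent.P018

open NumberField Polynomial Filter

variable {F : Type} [Field F] [NumberField F]

/-- conjugates as elements of `F` -/
noncomputable def Ctx.cf (c : Ctx F) (a : Fin 4 → ℤ) (i : Fin 4) : F := ((c.cj a i : 𝓞 F) : F)

/-- the roots as elements of `F` -/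
noncomputable def Ctx.θf (c : Ctx F) (i : Fin 4) : F := ((c.ϑ i : 𝓞 F) : F)

/-- two independent integral sections of degree four and small height -/
theorem sections_exist (c : Ctx F) (K : ℕ) : ∃ K' : ℕ, ∀ X : ℝ, 2 ≤ X → ∀ ω ω' : Fin 4 → ℤ,
    (∀ i j, i ≠ j → c.pc ω ω' i j ≠ 0) → (∀ l, |(ω l : ℝ)| ≤ X ^ K ∧ |(ω' l : ℝ)| ≤ X ^ K) →
    ∃ P0 Q0 P1 Q1 : ℤ[X], (∀ k, |(P0.coeff k : ℝ)| ≤ X ^ K' ∧ |(Q0.coeff k : ℝ)| ≤ X ^ K' ∧
        |(P1.coeff k : ℝ)| ≤ X ^ K' ∧ |(Q1.coeff k : ℝ)| ≤ X ^ K') ∧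
      IsSec (c.cf ω) (c.cf ω') c.θf 4 (P0.map (Int.castRingHom F)) (Q0.map (Int.castRingHom F)) ∧
      IsSec (c.cf ω) (c.cf ω') c.θf 4 (P1.map (Int.castRingHom F)) (Q1.map (Int.castRingHom F)) ∧
      LinearIndependent F ![(P0.map (Int.castRingHom F), Q0.map (Int.castRingHom F)),
        (P1.map (Int.castRingHom F), Q1.map (Int.castRingHom F))] := by
  obtain ⟨K', h⟩ := seci_exist c K
  refine ⟨K', fun X hX ω ω' hpc hω => ?_⟩
  obtain ⟨S, h1, z, hz, z', hz', hli⟩ := h X hX ω ω' (fun i h0 => by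
    obtain ⟨j, hj⟩ := exists_ne i
    have e1 := congrArg (fun q => q.coeff 1) h0
    have e0 := congrArg (fun q => q.coeff 0) h0
    simp only [Ctx.lin, coeff_add, coeff_C_mul, coeff_X_one, coeff_X_zero, coeff_C_zero, mul_one,
      mul_zero, zero_add, coeff_zero, coeff_C_succ, add_zero, RingOfIntegers.coe_eq_zero_iff]
      at e1 e0
    exact hpc i j hj.symm (by rw [Ctx.pc, e1, e0]; ring)) hω
  obtain ⟨a1, a2, a3, a4⟩ := h1 z hz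
  obtain ⟨b1, b2, b3, b4⟩ := h1 z' hz'
  exact ⟨z.1, z.2, z'.1, z'.2, fun k => ⟨(a1 k).1, (a1 k).2, (b1 k).1, (b1 k).2⟩,
    ⟨natDegree_map_le.trans a2, natDegree_map_le.trans a3, a4⟩,
    ⟨natDegree_map_le.trans b2, natDegree_map_le.trans b3, b4⟩, hli⟩

omit [NumberField F] in
theorem seci_mono {D D' : ℕ} (h : D ≤ D') {Z Z' : Finset ℤ} (hZ : Z' ⊆ Z) {w0 w1 : ℤ → ℤ}
    {Y : ℤ → F} (hR : RatFn F D Z w0 w1 Y) : RatFn F D' Z' w0 w1 Y := by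
  obtain ⟨n, d, h1, h2, h3, h4⟩ := hR
  exact ⟨n, d, h1, h2.trans h, h3.trans h, fun N hN => h4 N (hZ hN)⟩

/-- the common shape of the bounds -/
noncomputable def seciB (ε Y P : ℝ) : ℝ :=
  Y ^ ε * ((Y / √P) ^ (1 / 5 : ℝ) + Y ^ (7 / 15 : ℝ) / P ^ (1 / 3 : ℝ))

theorem seciB_nonneg (ε : ℝ) {Y P : ℝ} (hY : 0 ≤ Y) (hP : 0 < P) : 0 ≤ seciB ε Y P := by
  unfold seciB; positivity

theorem seci_ratI (c : Ctx F) (C : ℝ) (D K : ℕ) (ε : ℝ) (hε : 0 < ε) : ∃ C' X0 : ℝ, 0 ≤ C' ∧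
    ∀ X : ℝ, X0 ≤ X → ∀ (M : ℕ) (Z : Finset ℤ) (p : ℤ → ℕ) (a b : ℤ → Fin 4 → ℤ)
    (ω ω' : Fin 4 → ℤ) (u v w0 w1 : ℤ → ℤ) (P : ℝ), AllPt c C X M Z p a b →
    (∀ i j, i ≠ j → c.pc ω ω' i j ≠ 0) → (∀ N ∈ Z, a N = u N • ω + v N • ω' ∧ v N ≠ 0) →
    0 < P → P ≤ X ^ 2 → (∀ N ∈ Z, P ≤ p N) → (∀ N ∈ Z, ¬ Six c ω ω' N (u N) (v N)) →
    Param X K Z w0 w1 →
    RatFn F D Z w0 w1 (fun N => (N : F)) → RatFn F D Z w0 w1 (fun N => (u N : F) / (v N : F)) →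
    (Z.card : ℝ) ≤ C' * seciB ε X P := by
  obtain ⟨C', X0, h⟩ := ratI c C D K ε hε
  refine ⟨max C' 0, max X0 0, le_max_right _ _,
    fun X hX M Z p a b ω ω' u v w0 w1 P h1 h2 h3 h4 h5 h6 h7 h8 h9 h10 => ?_⟩
  obtain ⟨Z6, k1, k2, -, k3⟩ := h X (le_of_max_le_left hX) M Z p a b ω ω' u v w0 w1 P h1 h2 h3 h4
    h5 h6 h8 h9 h10
  obtain rfl : Z6 = ∅ := Finset.eq_empty_of_forall_notMem fun N hN => h7 N (k1 hN) (k2 N hN)
  rw [Finset.sdiff_empty, mul_assoc] at k3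
  exact k3.trans (mul_le_mul_of_nonneg_right (le_max_left _ _)
    (seciB_nonneg ε (le_of_max_le_right hX) h4))

theorem seci_cj_lin (c : Ctx F) (ω ω' : Fin 4 → ℤ) (u v : ℤ) (i : Fin 4) :
    c.cj (u • ω + v • ω') i = u * c.cj ω i + v * c.cj ω' i := by
  simp [Ctx.cj, pv, add_mul, Finset.sum_add_distrib, Finset.mul_sum, mul_assoc]

theorem seci_ratN (c : Ctx F) (C : ℝ) (D K : ℕ) (ε : ℝ) (hε : 0 < ε) : ∃ C' X0 : ℝ, 0 ≤ C' ∧
    ∀ X : ℝ, X0 ≤ X → ∀ (M : ℕ) (Z : Finset ℤ) (p : ℤ → ℕ) (a b : ℤ → Fin 4 → ℤ)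
    (ω ω' : Fin 4 → ℤ) (u v : ℤ → ℤ) (P : ℝ), AllPt c C X M Z p a b →
    (∀ i j, i ≠ j → c.pc ω ω' i j ≠ 0) →
    (∀ N ∈ Z, a N = u N • ω + v N • ω' ∧ v N ≠ 0 ∧ IsCoprime (u N) (v N) ∧
      |(u N : ℝ)| ≤ X ^ K ∧ |(v N : ℝ)| ≤ X ^ K) →
    0 < P → P ≤ X ^ 2 → (∀ N ∈ Z, P ≤ p N) → (∀ N ∈ Z, ¬ Six c ω ω' N (u N) (v N)) →
    RatFn F D Z v u (fun N => (N : F)) → (Z.card : ℝ) ≤ C' * seciB ε X P := by
  obtain ⟨C1, X1, hC1, h⟩ := seci_ratI c C (max D 1) K ε hε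
  obtain ⟨k, X2, hk⟩ := fib_A c C
  refine ⟨k * C1, max (max X1 X2) 0, by positivity,
    fun X hX M Z p a b ω ω' u v P h1 h2 h3 h4 h5 h6 h7 h8 => ?_⟩
  have hX1 := le_of_max_le_left (le_of_max_le_left hX)
  have hX2 := le_of_max_le_right (le_of_max_le_left hX)
  have hrat : ∀ N ∈ Z, ∀ N' ∈ Z,
      (u N : ℚ) / v N = (u N' : ℚ) / v N' ↔ u N * v N' = u N' * v N := by
    intro N hN N' hN'
    rw [div_eq_div_iff (by exact_mod_cast (h3 N hN).2.1) (by exact_mod_cast (h3 N' hN').2.1)]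
    exact_mod_cast Iff.rfl
  obtain ⟨𝒯, t1, t2, t3⟩ := split_inj Z (fun N => (u N : ℚ) / v N) k fun S hS hf =>
    hk X hX2 M S p a b 0 1 (by decide) (fun N hN => h1 N (hS hN)) fun N hN N' hN' => by
      have e : (u N : 𝓞 F) * v N' = u N' * v N := by
        exact_mod_cast (hrat N (hS hN) N' (hS hN')).1 (hf N hN N' hN')
      rw [(h3 N (hS hN)).1, (h3 N' (hS hN')).1]
      simp only [seci_cj_lin]
      linear_combination (c.cj ω 0 * c.cj ω' 1 - c.cj ω 1 * c.cj ω' 0) * e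
  rw [mul_assoc]
  refine card_le_of_cover Z 𝒯 k _ (mul_nonneg hC1 (seciB_nonneg ε (le_of_max_le_right hX) h4))
    (by exact_mod_cast t1) t2 fun T hT => ?_
  obtain ⟨s1, s2⟩ := t3 T hT
  refine h X hX1 M T p a b ω ω' u v v u P (fun N hN => h1 N (s1 hN)) h2
    (fun N hN => ⟨(h3 N (s1 hN)).1, (h3 N (s1 hN)).2.1⟩) h4 h5 (fun N hN => h6 N (s1 hN))
    (fun N hN => h7 N (s1 hN)) ⟨fun N hN => ?_, fun N hN N' hN' e => ?_⟩
    (seci_mono (le_max_left _ _) s1 h8) ⟨Polynomial.X, 1, one_ne_zero,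
      natDegree_X_le.trans (le_max_right _ _), by simp, fun N _ => by simp⟩
  · obtain ⟨-, q1, q2, q3, q4⟩ := h3 N (s1 hN)
    exact ⟨q2.symm, q1, q4, q3⟩
  · exact s2 hN hN' ((hrat N (s1 hN) N' (s1 hN')).2 e)

/-- Part I: `N` is a rational function of the position on the line -/
theorem ratI_N (c : Ctx F) (C : ℝ) (D K : ℕ) (ε : ℝ) (hε : 0 < ε) : ∃ C' X0 : ℝ,
    ∀ X : ℝ, X0 ≤ X → ∀ (M : ℕ) (Z : Finset ℤ) (p : ℤ → ℕ) (a b : ℤ → Fin 4 → ℤ)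
    (ω ω' : Fin 4 → ℤ) (u v : ℤ → ℤ) (P : ℝ), AllPt c C X M Z p a b →
    (∀ i j, i ≠ j → c.pc ω ω' i j ≠ 0) →
    (∀ N ∈ Z, a N = u N • ω + v N • ω' ∧ v N ≠ 0 ∧ IsCoprime (u N) (v N) ∧
      |(u N : ℝ)| ≤ X ^ K ∧ |(v N : ℝ)| ≤ X ^ K) →
    0 < P → P ≤ X ^ 2 → (∀ N ∈ Z, P ≤ p N) → (∀ N ∈ Z, ¬ Six c ω ω' N (u N) (v N)) →
    RatFn F D Z v u (fun N => (N : F)) →
    (Z.card : ℝ) ≤
      C' * X ^ ε * ((X / √P) ^ (1 / 5 : ℝ) + X ^ (7 / 15 : ℝ) / P ^ (1 / 3 : ℝ)) := by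
  obtain ⟨C', X0, -, h⟩ := seci_ratN c C D K ε hε
  refine ⟨C', X0, fun X hX M Z p a b ω ω' u v P h1 h2 h3 h4 h5 h6 h7 h8 => ?_⟩
  rw [mul_assoc]
  exact h X hX M Z p a b ω ω' u v P h1 h2 h3 h4 h5 h6 h7 h8

/-- homogenised value of a polynomial of degree at most four -/
def seciH {R : Type} [CommRing R] (Q : ℤ[X]) (x y : R) : R :=
  ∑ k ∈ Finset.range 5, (Q.coeff k : R) * x ^ k * y ^ (4 - k)

omit [NumberField F] in
theorem seciH_eq {Q : ℤ[X]} (hQ : Q.natDegree ≤ 4) (x y : F) (hy : y ≠ 0) :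
    seciH Q x y = y ^ 4 * aeval (x / y) Q := by
  rw [aeval_eq_sum_range' (Nat.lt_succ_of_le hQ)]
  simp only [seciH, Finset.sum_range_succ, Finset.range_zero, Finset.sum_empty, zsmul_eq_mul]
  field_simp
  ring

theorem seciH_map {R S : Type} [CommRing R] [CommRing S] (φ : R →+* S) (Q : ℤ[X]) (x y : R) :
    φ (seciH Q x y) = seciH Q (φ x) (φ y) := by
  simp [seciH]

omit [NumberField F] in
theorem seciH_deg (Q : ℤ[X]) {x y : F[X]} {D : ℕ} (hx : x.natDegree ≤ D) (hy : y.natDegree ≤ D) :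
    (seciH Q x y).natDegree ≤ 4 * D := by
  refine natDegree_sum_le_of_forall_le _ _ fun k hk => ?_
  have hk := Finset.mem_range.1 hk
  have h1 := natDegree_pow_le_of_le k hx
  have h2 := natDegree_pow_le_of_le (4 - k) hy
  have h3 : k * D + (4 - k) * D = 4 * D := by rw [← add_mul]; congr 1; omega
  refine natDegree_mul_le.trans ((add_le_add natDegree_mul_le h2).trans ?_)
  rw [natDegree_intCast]
  omega

theorem seciH_size (Q : ℤ[X]) (x y : ℤ) {A : ℝ} (hQ : ∀ k, |(Q.coeff k : ℝ)| ≤ A)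
    (hx : |(x : ℝ)| ≤ A) (hy : |(y : ℝ)| ≤ A) : |((seciH Q x y : ℤ) : ℝ)| ≤ 5 * A ^ 5 := by
  have hA : 0 ≤ A := (abs_nonneg _).trans hx
  unfold seciH
  push_cast
  refine (Finset.abs_sum_le_sum_abs _ _).trans ((Finset.sum_le_card_nsmul _ _ (A ^ 5)
    fun k hk => ?_).trans (by simp))
  have hk := Finset.mem_range.1 hk
  rw [abs_mul, abs_mul, abs_pow, abs_pow]
  calc _ ≤ A * A ^ k * A ^ (4 - k) := by gcongr; exact hQ k
    _ = _ := by rw [← pow_succ', ← pow_add]; congr 1; omega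

theorem seci_div_gcd (x y : ℤ) : |((x / (Int.gcd x y : ℤ) : ℤ) : ℝ)| ≤ |(x : ℝ)| ∧
    |((y / (Int.gcd x y : ℤ) : ℤ) : ℝ)| ≤ |(y : ℝ)| := by
  constructor <;> exact_mod_cast Int.abs_ediv_le_abs _ _

omit [NumberField F] in
theorem seci_eq {D : ℕ} {c0 c1 : F[X]} (h0 : c0.natDegree ≤ D) (h1 : c1.natDegree ≤ D)
    {s x y : F} (hy : y ≠ 0)
    (h : ∑ k ∈ Finset.range (D + 1), (c1.coeff k * s + c0.coeff k) * x ^ k * y ^ (D - k) = 0) :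
    c1.eval (x / y) * s + c0.eval (x / y) = 0 := by
  refine mul_left_cancel₀ (pow_ne_zero D hy) ?_
  rw [mul_zero, ← h, eval_eq_sum_range' (Nat.lt_succ_of_le h0),
    eval_eq_sum_range' (Nat.lt_succ_of_le h1), Finset.sum_mul, ← Finset.sum_add_distrib,
    Finset.mul_sum]
  refine Finset.sum_congr rfl fun k hk => ?_
  obtain ⟨j, rfl⟩ := Nat.exists_eq_add_of_le (Nat.lt_succ_iff.1 (Finset.mem_range.1 hk))
  rw [Nat.add_sub_cancel_left, pow_add, div_pow]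
  field_simp

omit [NumberField F] in
/-- points on one member of the pencil -/
theorem seci_member {P0 Q0 P1 Q1 : ℤ[X]} (d0 : P0.natDegree ≤ 4) (d1 : Q0.natDegree ≤ 4)
    (d2 : P1.natDegree ≤ 4) (d3 : Q1.natDegree ≤ 4)
    (hΔ : (P0 * Q1 - P1 * Q0).map (algebraMap ℤ F) ≠ 0) {r0 r1 : F} (hr : r0 ≠ 0 ∨ r1 ≠ 0)
    (Z : Finset ℤ) (u v : ℤ → ℤ)
    (h : ∀ N ∈ Z, r0 * ((N : F) * aeval ((u N : F) / (v N : F)) Q0 -
        aeval ((u N : F) / (v N : F)) P0) =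
      r1 * (aeval ((u N : F) / (v N : F)) P1 - (N : F) * aeval ((u N : F) / (v N : F)) Q1)) :
    RatFn F 8 Z v u (fun N => (N : F)) := by
  have hd : ∀ {A B : ℤ[X]}, A.natDegree ≤ 4 → B.natDegree ≤ 4 →
      (C r0 * A.map (algebraMap ℤ F) + C r1 * B.map (algebraMap ℤ F)).natDegree ≤ 8 :=
    fun hA hB => natDegree_add_le_of_degree_le
      ((natDegree_C_mul_le _ _).trans (natDegree_map_le.trans (by omega)))
      ((natDegree_C_mul_le _ _).trans (natDegree_map_le.trans (by omega)))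
  by_cases hq : C r0 * Q0.map (algebraMap ℤ F) + C r1 * Q1.map (algebraMap ℤ F) = 0
  · refine ⟨0, _, hΔ, by simp, natDegree_map_le.trans ((natDegree_sub_le _ _).trans
      (max_le (natDegree_mul_le.trans (by omega)) (natDegree_mul_le.trans (by omega)))),
      fun N hN => ?_⟩
    have e := congrArg (eval ((u N : F) / (v N : F))) hq
    have e' := h N hN
    simp only [eval_add, eval_mul, eval_C, eval_map_algebraMap, eval_zero, map_sub, map_mul]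
      at e ⊢
    refine mul_eq_zero_of_left ?_ _
    rcases hr with hr | hr
    · refine mul_left_cancel₀ hr ?_
      linear_combination (-aeval ((u N : F) / (v N : F)) Q1) * e' +
        ((N : F) * aeval ((u N : F) / (v N : F)) Q1 - aeval ((u N : F) / (v N : F)) P1) * e
    · refine mul_left_cancel₀ hr ?_
      linear_combination (aeval ((u N : F) / (v N : F)) Q0) * e' +
        (aeval ((u N : F) / (v N : F)) P0 - (N : F) * aeval ((u N : F) / (v N : F)) Q0) * e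
  · refine ⟨_, _, hq, hd d0 d2, hd d1 d3, fun N hN => ?_⟩
    simp only [eval_add, eval_mul, eval_C, eval_map_algebraMap]
    linear_combination h N hN

/-- points on general members of the pencil -/
theorem seci_general {P0 Q0 P1 Q1 : ℤ[X]} (d0 : P0.natDegree ≤ 4) (d1 : Q0.natDegree ≤ 4)
    (d2 : P1.natDegree ≤ 4) (d3 : Q1.natDegree ≤ 4) {D K : ℕ} {Y : ℝ} (hY : 2 ≤ Y)
    (hs : ∀ k, |(P0.coeff k : ℝ)| ≤ Y ^ K ∧ |(Q0.coeff k : ℝ)| ≤ Y ^ K ∧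
      |(P1.coeff k : ℝ)| ≤ Y ^ K ∧ |(Q1.coeff k : ℝ)| ≤ Y ^ K)
    {c0 c1 : F[X]} (h0 : c0.natDegree ≤ D) (h1 : c1.natDegree ≤ D) {Z : Finset ℤ}
    (hne : Z.Nonempty) {u v : ℤ → ℤ} {s l0 l1 : ℤ → F} (es : ∀ N, s N = (u N : F) / (v N : F))
    (e0 : ∀ N, l0 N = aeval (s N) P1 - (N : F) * aeval (s N) Q1)
    (e1 : ∀ N, l1 N = (N : F) * aeval (s N) Q0 - aeval (s N) P0)
    (h : ∀ N ∈ Z, v N ≠ 0 ∧ |(u N : ℝ)| ≤ Y ^ K ∧ |(v N : ℝ)| ≤ Y ^ K ∧ |(N : ℝ)| ≤ Y ^ 2 ∧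
      l0 N ≠ 0 ∧ aeval (s N) (P0 * Q1 - P1 * Q0) ≠ 0 ∧ c1.eval (l1 N / l0 N) ≠ 0 ∧
      c1.eval (l1 N / l0 N) * s N + c0.eval (l1 N / l0 N) = 0) :
    ∃ w0 w1 : ℤ → ℤ, Param Y (5 * K + 6) Z w0 w1 ∧ RatFn F (4 * D + 1) Z w0 w1 (fun N => (N : F)) ∧
      RatFn F (4 * D + 1) Z w0 w1 (fun N => (u N : F) / (v N : F)) := by
  let L0 : ℤ → ℤ := fun N => seciH P1 (u N) (v N) - N * seciH Q1 (u N) (v N)
  let L1 : ℤ → ℤ := fun N => N * seciH Q0 (u N) (v N) - seciH P0 (u N) (v N)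
  have hH : ∀ {Q : ℤ[X]}, Q.natDegree ≤ 4 → ∀ N ∈ Z,
      ((seciH Q (u N) (v N) : ℤ) : F) = (v N : F) ^ 4 * aeval (s N) Q := fun hQ N hN => by
    rw [es, ← seciH_eq hQ _ _ (by exact_mod_cast (h N hN).1)]
    exact seciH_map (Int.castRingHom F) _ _ _
  have hL0 : ∀ N ∈ Z, (L0 N : F) = (v N : F) ^ 4 * l0 N := fun N hN => by
    simp only [L0, Int.cast_sub, Int.cast_mul, hH d2 N hN, hH d3 N hN, e0]; ring
  have hL1 : ∀ N ∈ Z, (L1 N : F) = (v N : F) ^ 4 * l1 N := fun N hN => by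
    simp only [L1, Int.cast_sub, Int.cast_mul, hH d0 N hN, hH d1 N hN, e1]; ring
  have hv : ∀ N ∈ Z, (v N : F) ^ 4 ≠ 0 := fun N hN =>
    pow_ne_zero 4 (by exact_mod_cast (h N hN).1)
  have hL0' : ∀ N ∈ Z, L0 N ≠ 0 := fun N hN h0 =>
    mul_ne_zero (hv N hN) (h N hN).2.2.2.2.1 (by rw [← hL0 N hN, h0, Int.cast_zero])
  have hg : ∀ N ∈ Z, 0 < Int.gcd (L0 N) (L1 N) := fun N hN => Int.gcd_pos_of_ne_zero_left _ (hL0' N hN)
  let w0 : ℤ → ℤ := fun N => L0 N / Int.gcd (L0 N) (L1 N)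
  let w1 : ℤ → ℤ := fun N => L1 N / Int.gcd (L0 N) (L1 N)
  have hw0 : ∀ N, w0 N * Int.gcd (L0 N) (L1 N) = L0 N := fun N =>
    Int.ediv_mul_cancel (Int.gcd_dvd_left _ _)
  have hw1 : ∀ N, w1 N * Int.gcd (L0 N) (L1 N) = L1 N := fun N =>
    Int.ediv_mul_cancel (Int.gcd_dvd_right _ _)
  have hw0' : ∀ N ∈ Z, w0 N ≠ 0 := fun N hN h0 => hL0' N hN (by rw [← hw0, h0, zero_mul])
  have hlam : ∀ N ∈ Z, (w1 N : F) / (w0 N : F) = l1 N / l0 N := fun N hN => by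
    have hg' : ((Int.gcd (L0 N) (L1 N) : ℤ) : F) ≠ 0 := by exact_mod_cast (hg N hN).ne'
    rw [← mul_div_mul_right _ _ hg', ← Int.cast_mul, ← Int.cast_mul, hw0, hw1, hL0 N hN, hL1 N hN,
      mul_div_mul_left _ _ (hv N hN)]
  have hsz : ∀ {A B : ℤ[X]}, (∀ k, |(A.coeff k : ℝ)| ≤ Y ^ K) → (∀ k, |(B.coeff k : ℝ)| ≤ Y ^ K) →
      ∀ N ∈ Z, |((seciH A (u N) (v N) - N * seciH B (u N) (v N) : ℤ) : ℝ)| ≤ Y ^ (5 * K + 6) := by
    intro A B hA hB N hN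
    obtain ⟨-, q1, q2, q3, -⟩ := h N hN
    have a1 := seciH_size A _ _ hA q1 q2
    have a2 := seciH_size B _ _ hB q1 q2
    have a3 : (1 : ℝ) ≤ Y ^ 2 := one_le_pow₀ (by linarith)
    have a4 : (10 : ℝ) ≤ Y ^ 4 := le_trans (by norm_num) (pow_le_pow_left₀ zero_le_two hY 4)
    rw [Int.cast_sub, Int.cast_mul]
    refine (abs_sub _ _).trans ?_
    rw [abs_mul]
    calc _ ≤ Y ^ 2 * (5 * (Y ^ K) ^ 5) + Y ^ 2 * (5 * (Y ^ K) ^ 5) :=
          add_le_add (a1.trans (le_mul_of_one_le_left (by positivity) a3))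
            (mul_le_mul q3 a2 (abs_nonneg _) (by positivity))
      _ = 10 * (Y ^ 2 * (Y ^ K) ^ 5) := by ring
      _ ≤ Y ^ 4 * (Y ^ 2 * (Y ^ K) ^ 5) := by gcongr
      _ = _ := by ring
  have hN : ∀ N ∈ Z, (aeval (s N) Q0 + l1 N / l0 N * aeval (s N) Q1) * N =
      aeval (s N) P0 + l1 N / l0 N * aeval (s N) P1 := fun N hN => by
    have := (h N hN).2.2.2.2.1
    field_simp
    rw [e0, e1]; ring
  have hQ : ∀ N ∈ Z, aeval (s N) Q0 + l1 N / l0 N * aeval (s N) Q1 ≠ 0 := fun N hN' h0 => by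
    have e := hN N hN'
    rw [h0, zero_mul] at e
    refine (h N hN').2.2.2.2.2.1 ?_
    rw [map_sub, map_mul, map_mul]
    linear_combination (-aeval (s N) Q1) * e - aeval (s N) P1 * h0
  have hs' : ∀ N ∈ Z, s N = -c0.eval (l1 N / l0 N) / c1.eval (l1 N / l0 N) := fun N hN => by
    rw [eq_div_iff (h N hN).2.2.2.2.2.2.1]
    linear_combination (h N hN).2.2.2.2.2.2.2
  have hev : ∀ {A B : ℤ[X]}, A.natDegree ≤ 4 → B.natDegree ≤ 4 → ∀ N ∈ Z,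
      (seciH A (-c0) c1 + X * seciH B (-c0) c1).eval (l1 N / l0 N) =
        c1.eval (l1 N / l0 N) ^ 4 * (aeval (s N) A + l1 N / l0 N * aeval (s N) B) := by
    intro A B hA hB N hN
    have e : ∀ {A : ℤ[X]}, A.natDegree ≤ 4 → (seciH A (-c0) c1).eval (l1 N / l0 N) =
        c1.eval (l1 N / l0 N) ^ 4 * aeval (s N) A := fun hA => by
      rw [hs' N hN, ← seciH_eq hA _ _ (h N hN).2.2.2.2.2.2.1, ← eval_neg]
      exact seciH_map (evalRingHom (l1 N / l0 N) : F[X] →+* F) _ _ _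
    rw [eval_add, eval_mul, eval_X, e hA, e hB]; ring
  have hdeg : ∀ A B : ℤ[X], (seciH A (-c0) c1 + X * seciH B (-c0) c1).natDegree ≤ 4 * D + 1 := by
    intro A B
    have h0' : (-c0).natDegree ≤ D := by rwa [natDegree_neg]
    refine natDegree_add_le_of_degree_le ((seciH_deg A h0' h1).trans (by omega))
      (natDegree_mul_le.trans ?_)
    have := seciH_deg B h0' h1
    have := natDegree_X_le (R := F)
    omega
  obtain ⟨N0, hN0⟩ := hne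
  refine ⟨w0, w1, ⟨fun N hN => ⟨?_, hw0' N hN, ?_, ?_⟩, fun N hN' N' hN'' e => ?_⟩,
    ⟨_, _, fun h0 => ?_, hdeg P0 P1, hdeg Q0 Q1, fun N hN' => ?_⟩,
    ⟨-c0, c1, fun h0 => (h N0 hN0).2.2.2.2.2.2.1 (by rw [h0, eval_zero]),
      by rw [natDegree_neg]; omega, by omega, fun N hN' => ?_⟩⟩
  · exact Int.isCoprime_iff_gcd_eq_one.2 (Int.gcd_div_gcd_div_gcd (hg N hN))
  · exact (seci_div_gcd _ _).1.trans
      (hsz (fun k => (hs k).2.2.1) (fun k => (hs k).2.2.2) N hN)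
  · refine (seci_div_gcd _ _).2.trans ?_
    have := hsz (fun k => (hs k).1) (fun k => (hs k).2.1) N hN
    rwa [← abs_neg, ← Int.cast_neg, neg_sub] at this
  · have e2 : l1 N / l0 N = l1 N' / l0 N' := by
      rw [← hlam N hN', ← hlam N' hN'', div_eq_div_iff (by exact_mod_cast hw0' N hN')
        (by exact_mod_cast hw0' N' hN'')]
      exact_mod_cast e
    have e3 : s N = s N' := by rw [hs' N hN', hs' N' hN'', e2]
    have e4 := hN N hN'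
    have e5 := hQ N' hN''
    rw [e2, e3, ← hN N' hN''] at e4
    exact_mod_cast mul_left_cancel₀ e5 e4
  · refine mul_ne_zero (pow_ne_zero 4 (h N0 hN0).2.2.2.2.2.2.1) (hQ N0 hN0) ?_
    rw [← hev d1 d3 N0 hN0, h0, eval_zero]
  · rw [hlam N hN', hev d1 d3 N hN', hev d0 d2 N hN', mul_assoc, hN N hN']
  · beta_reduce
    rw [hlam N hN', ← es, eval_neg]
    linear_combination (h N hN').2.2.2.2.2.2.2

/-- Part I: the position on the line is a rational function of the pencil parameter -/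
theorem ratI_lam (c : Ctx F) (C : ℝ) (D K : ℕ) (ε : ℝ) (hε : 0 < ε) : ∃ C' X0 : ℝ,
    ∀ X : ℝ, X0 ≤ X → ∀ (M : ℕ) (Z : Finset ℤ) (p : ℤ → ℕ) (a b : ℤ → Fin 4 → ℤ)
    (ω ω' : Fin 4 → ℤ) (u v : ℤ → ℤ) (P : ℝ), AllPt c C X M Z p a b →
    (∀ i j, i ≠ j → c.pc ω ω' i j ≠ 0) →
    (∀ N ∈ Z, a N = u N • ω + v N • ω' ∧ v N ≠ 0 ∧ IsCoprime (u N) (v N) ∧
      |(u N : ℝ)| ≤ X ^ K ∧ |(v N : ℝ)| ≤ X ^ K) →
    0 < P → P ≤ X ^ 2 → (∀ N ∈ Z, P ≤ p N) → (∀ N ∈ Z, ¬ Six c ω ω' N (u N) (v N)) →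
    ∀ (P0 Q0 P1 Q1 : ℤ[X]), (∀ k, |(P0.coeff k : ℝ)| ≤ X ^ K ∧ |(Q0.coeff k : ℝ)| ≤ X ^ K ∧
        |(P1.coeff k : ℝ)| ≤ X ^ K ∧ |(Q1.coeff k : ℝ)| ≤ X ^ K) →
    IsSec (c.cf ω) (c.cf ω') c.θf 4 (P0.map (Int.castRingHom F)) (Q0.map (Int.castRingHom F)) →
    IsSec (c.cf ω) (c.cf ω') c.θf 4 (P1.map (Int.castRingHom F)) (Q1.map (Int.castRingHom F)) →
    P0 * Q1 ≠ P1 * Q0 → ∀ c0 c1 : F[X], (c0 ≠ 0 ∨ c1 ≠ 0) → c0.natDegree ≤ D → c1.natDegree ≤ D →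
    (∀ N ∈ Z, ∑ k ∈ Finset.range (D + 1),
      (c1.coeff k * ((u N : F) / (v N : F)) + c0.coeff k) *
        ((N : F) * aeval ((u N : F) / (v N : F)) Q0 - aeval ((u N : F) / (v N : F)) P0) ^ k *
        (aeval ((u N : F) / (v N : F)) P1 - (N : F) * aeval ((u N : F) / (v N : F)) Q1) ^ (D - k)
          = 0) →
    (Z.card : ℝ) ≤
      C' * X ^ ε * ((X / √P) ^ (1 / 5 : ℝ) + X ^ (7 / 15 : ℝ) / P ^ (1 / 3 : ℝ)) := by
  classical
  obtain ⟨C1, X1, hC1, hA⟩ := seci_ratN c C 8 K ε hε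
  obtain ⟨C2, X2, hC2, hB⟩ := seci_ratI c C (4 * D + 1) (5 * K + 6) ε hε
  refine ⟨(D + 2) * C1 + C2, max (max X1 X2) (max C 2),
    fun X hX M Z p a b ω ω' u v P h1 h2 h3 h4 h5 h6 h7 P0 Q0 P1 Q1 hs s0 s1 hΔ c0 c1 hc d0 d1 h8 =>
      ?_⟩
  have hX1 := le_of_max_le_left (le_of_max_le_left hX)
  have hX2 := le_of_max_le_right (le_of_max_le_left hX)
  have hX3 := le_of_max_le_left (le_of_max_le_right hX)
  have hX4 := le_of_max_le_right (le_of_max_le_right hX)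
  have hB0 := seciB_nonneg ε (by linarith : 0 ≤ X) h4
  have hdeg : ∀ {A : ℤ[X]}, (A.map (Int.castRingHom F)).natDegree ≤ 4 → A.natDegree ≤ 4 :=
    fun h => by rwa [natDegree_map_eq_of_injective (Int.castRingHom F).injective_int] at h
  have hΔ' : (P0 * Q1 - P1 * Q0).map (algebraMap ℤ F) ≠ 0 :=
    (Polynomial.map_ne_zero_iff (algebraMap ℤ F).injective_int).2 (sub_ne_zero.2 hΔ)
  obtain ⟨s, es⟩ : ∃ s : ℤ → F, ∀ N, s N = (u N : F) / (v N : F) := ⟨_, fun _ => rfl⟩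
  obtain ⟨l0, e0⟩ : ∃ l0 : ℤ → F, ∀ N, l0 N = aeval (s N) P1 - (N : F) * aeval (s N) Q1 :=
    ⟨_, fun _ => rfl⟩
  obtain ⟨l1, e1⟩ : ∃ l1 : ℤ → F, ∀ N, l1 N = (N : F) * aeval (s N) Q0 - aeval (s N) P0 :=
    ⟨_, fun _ => rfl⟩
  simp only [← es, ← e0, ← e1] at h8
  have hsub : ∀ T ⊆ Z, RatFn F 8 T v u (fun N => (N : F)) → (T.card : ℝ) ≤ C1 * seciB ε X P :=
    fun T hT hR => hA X hX1 M T p a b ω ω' u v P (fun N hN => h1 N (hT hN)) h2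
      (fun N hN => h3 N (hT hN)) h4 h5 (fun N hN => h6 N (hT hN)) (fun N hN => h7 N (hT hN)) hR
  have hmem : ∀ r0 r1 : F, r0 ≠ 0 ∨ r1 ≠ 0 →
      ((Z.filter fun N => r0 * l1 N = r1 * l0 N).card : ℝ) ≤ C1 * seciB ε X P :=
    fun r0 r1 hr => hsub _ (Finset.filter_subset _ _)
      (seci_member (hdeg s0.1) (hdeg s0.2.1) (hdeg s1.1) (hdeg s1.2.1) hΔ' hr _ u v fun N hN => by
        rw [← es, ← e0, ← e1]; exact (Finset.mem_filter.1 hN).2)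
  have hZa : ((Z.filter fun N => aeval (s N) (P0 * Q1 - P1 * Q0) = 0).card : ℝ) ≤
      C1 * seciB ε X P := by
    have := hdeg s0.1
    have := hdeg s0.2.1
    have := hdeg s1.1
    have := hdeg s1.2.1
    refine hsub _ (Finset.filter_subset _ _) ⟨0, _, hΔ', by simp,
      natDegree_map_le.trans ((natDegree_sub_le _ _).trans
      (max_le (natDegree_mul_le.trans (by omega)) (natDegree_mul_le.trans (by omega)))),
      fun N hN => ?_⟩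
    rw [eval_map_algebraMap, ← es, (Finset.mem_filter.1 hN).2, zero_mul, eval_zero]
  obtain ⟨cc, hcc0, hccD, hcc⟩ : ∃ cc : F[X], cc ≠ 0 ∧ cc.natDegree ≤ D ∧
      ∀ x y : F, c1.eval x = 0 → c1.eval x * y + c0.eval x = 0 → cc.eval x = 0 := by
    by_cases hc1 : c1 = 0
    · exact ⟨c0, hc.resolve_right (not_not.2 hc1), d0, fun x y e1 e2 => by
        rwa [e1, zero_mul, zero_add] at e2⟩
    · exact ⟨c1, hc1, d1, fun x y e1 _ => e1⟩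
  have hZc : ((cc.roots.toFinset.biUnion fun ρ => Z.filter fun N => 1 * l1 N = ρ * l0 N).card : ℝ)
      ≤ D * (C1 * seciB ε X P) := by
    have k1 : ((cc.roots.toFinset.biUnion fun ρ =>
        Z.filter fun N => 1 * l1 N = ρ * l0 N).card : ℝ) ≤
        ∑ ρ ∈ cc.roots.toFinset, ((Z.filter fun N => 1 * l1 N = ρ * l0 N).card : ℝ) := by
      exact_mod_cast Finset.card_biUnion_le
    refine k1.trans ((Finset.sum_le_card_nsmul _ _ _ fun ρ _ =>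
      hmem 1 ρ (Or.inl one_ne_zero)).trans ?_)
    rw [nsmul_eq_mul]
    refine mul_le_mul_of_nonneg_right ?_ (by positivity)
    exact_mod_cast (Multiset.toFinset_card_le _).trans ((card_roots' cc).trans hccD)
  have hZd : ((Z.filter fun N => l0 N ≠ 0 ∧ aeval (s N) (P0 * Q1 - P1 * Q0) ≠ 0 ∧
      c1.eval (l1 N / l0 N) ≠ 0).card : ℝ) ≤ C2 * seciB ε X P := by
    generalize hT : (Z.filter fun N => l0 N ≠ 0 ∧ aeval (s N) (P0 * Q1 - P1 * Q0) ≠ 0 ∧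
      c1.eval (l1 N / l0 N) ≠ 0) = T
    have hT' : ∀ N ∈ T, N ∈ Z ∧ l0 N ≠ 0 ∧ aeval (s N) (P0 * Q1 - P1 * Q0) ≠ 0 ∧
        c1.eval (l1 N / l0 N) ≠ 0 := fun N hN => Finset.mem_filter.1 (hT ▸ hN)
    rcases T.eq_empty_or_nonempty with rfl | hne
    · rw [Finset.card_empty, Nat.cast_zero]; positivity
    obtain ⟨w0, w1, k1, k2, k3⟩ := seci_general (hdeg s0.1) (hdeg s0.2.1) (hdeg s1.1)
      (hdeg s1.2.1) hX4 hs d0 d1 hne es e0 e1 fun N hN => by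
        obtain ⟨q0, q1, q2, q3⟩ := hT' N hN
        obtain ⟨-, r1, -, r2, r3⟩ := h3 N q0
        refine ⟨r1, r2, r3, (h1 N q0).hN2.trans ?_, q1, q2, q3, seci_eq d0 d1 q1 (h8 N q0)⟩
        rw [sq]
        exact mul_le_mul_of_nonneg_right hX3 (by linarith)
    exact hB X hX2 M T p a b ω ω' u v w0 w1 P (fun N hN => h1 N (hT' N hN).1) h2
      (fun N hN => ⟨(h3 N (hT' N hN).1).1, (h3 N (hT' N hN).1).2.1⟩) h4 h5
      (fun N hN => h6 N (hT' N hN).1) (fun N hN => h7 N (hT' N hN).1) k1 k2 k3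
  have hcov : Z ⊆ ((Z.filter fun N => aeval (s N) (P0 * Q1 - P1 * Q0) = 0) ∪
      Z.filter fun N => 0 * l1 N = 1 * l0 N) ∪
      ((cc.roots.toFinset.biUnion fun ρ => Z.filter fun N => 1 * l1 N = ρ * l0 N) ∪
      Z.filter fun N => l0 N ≠ 0 ∧ aeval (s N) (P0 * Q1 - P1 * Q0) ≠ 0 ∧
        c1.eval (l1 N / l0 N) ≠ 0) := by
    intro N hN
    simp only [Finset.mem_union, Finset.mem_filter, Finset.mem_biUnion, Multiset.mem_toFinset,
      mem_roots hcc0, IsRoot.def]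
    by_cases q1 : aeval (s N) (P0 * Q1 - P1 * Q0) = 0
    · exact Or.inl (Or.inl ⟨hN, q1⟩)
    by_cases q2 : l0 N = 0
    · exact Or.inl (Or.inr ⟨hN, by rw [q2, zero_mul, mul_zero]⟩)
    by_cases q3 : c1.eval (l1 N / l0 N) = 0
    · exact Or.inr (Or.inl ⟨_, hcc _ _ q3 (seci_eq d0 d1 q2 (h8 N hN)), hN, by field_simp⟩)
    · exact Or.inr (Or.inr ⟨hN, q2, q1, q3⟩)
  have hcard := (Finset.card_le_card hcov).trans ((Finset.card_union_le _ _).trans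
    (add_le_add (Finset.card_union_le _ _) (Finset.card_union_le _ _)))
  have hcard' := (Nat.cast_le (α := ℝ)).2 hcard
  push_cast at hcard'
  have hZb := hmem 0 1 (Or.inr one_ne_zero)
  rw [mul_assoc]
  change _ ≤ _ * seciB ε X P
  linarith

end Vale.Agent.P018
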